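import Vale.Agent.P107.DImp

/-! BLOCK D: the a-priori bound on the momentum support (notes/P107.md, Part D).

Plan. Fix c ∈ (0,1] and P* ≥ max(2 T, 2 P0, 10^6) from `improve`. step: let P ≥ P*, Bnd f0 Φ (P/2) t with 0 ≤ t ≤ T1; claim Bnd f0 Φ P (min T1 (t + c/(4 La P))). Let R be the bound of A, h > 0 with 2 R h ≤ 1.
By induction on k, for T_k = min (k h) T2 (T2 = min T1 (t + c/(4 La P))): Bnd P T_k and Boot c P T_k (1/10). From T_k: improve gives Boot c P T_k (1/20); energies on [0,T_k] are ≤ 0.7 P (for s ≤ t by assumption; for s > t, if q(s) > 0.7 P apply boot_lower with qq = P/2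
on [t,s], dl c P (P/2) = c/(4 La P), qm P ≤ P/2, to get q(t) ≥ 0.6 P); mom_sub_le extends: energies ≤ 0.7 P + 1 ≤ P, and for a window [a,b] ⊆ [0,T_(k+1)] use W' s = W (min s T_k) + 2R (max s T_k - T_k) (if a > T_k just W' s = 2 R s), 1 ≤ qq/20.
k = 0: Boot on [0,0] with W = 0; Bnd from free streaming and supp. Iterate step with P_j = 2^j P*: La P_j = La P* + j, Σ c/(4 (La P* + j)) diverges (not_summable / tendsto_sum_range_one_div_nat_succ_atTop), choose J with a sum ≥ T depending only on c, P*, T. -/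

namespace Vale.Agent.P107

open MeasureTheory Set Filter Topology
open scoped RealInnerProductSpace ENNReal

variable {f0 : Z → ℝ} {N P0 K0 En T c P T' qq a b : ℝ} {dat A : Fld} {Φ Ψ : ℝ → Z → Z} {z0 : Z}


theorem apri_zero (V : ℝ → V3) (a : ℝ) {err : ℝ} (he : 0 ≤ err) : Var V a a 0 err := by
  refine ⟨fun _ => 0, monotoneOn_const, by simp, fun s hs t ht _ => ?_⟩
  rw [le_antisymm hs.2 hs.1, le_antisymm ht.2 ht.1]
  simpa using he

theorem apri_ext {V : ℝ → V3} {m tot tot' err L : ℝ} (h : Var V a m tot err) (ham : a ≤ m)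
    (hmb : m ≤ b) (hL : 0 ≤ L) (he : 0 ≤ err) (hV : ∀ s t, ‖V t - V s‖ ≤ L * |t - s|)
    (ht : tot + L * (b - m) ≤ tot') : Var V a b tot' err := by
  obtain ⟨W, h1, h2, h3⟩ := h
  have hm : ∀ s ∈ Icc a b, min s m ∈ Icc a m := fun s hs => ⟨le_min hs.1 ham, min_le_right _ _⟩
  refine ⟨fun s => W (min s m) + L * max s m, fun s hs t ht hst => ?_, ?_,
    fun s hs t ht hst => ?_⟩
  · exact add_le_add (h1 (hm s hs) (hm t ht) (min_le_min_right _ hst))
      (mul_le_mul_of_nonneg_left (max_le_max_right _ hst) hL)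
  · simp only [min_eq_right hmb, max_eq_left hmb, min_eq_left ham, max_eq_right ham]
    linarith
  rcases le_total t m with htm | htm
  · simp only [min_eq_left htm, max_eq_right htm, min_eq_left (hst.trans htm),
      max_eq_right (hst.trans htm)]
    linarith [h3 s ⟨hs.1, hst.trans htm⟩ t ⟨ht.1, htm⟩ hst]
  rcases le_total m s with hsm | hsm
  · simp only [min_eq_right htm, max_eq_left htm, min_eq_right hsm, max_eq_left hsm]
    have := hV s t
    rw [abs_of_nonneg (sub_nonneg.2 hst)] at this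
    linarith
  · simp only [min_eq_right htm, max_eq_left htm, min_eq_left hsm, max_eq_right hsm]
    have k1 := hV m t
    rw [abs_of_nonneg (sub_nonneg.2 htm)] at k1
    have k2 := h3 s ⟨hs.1, hsm⟩ m ⟨ham, le_rfl⟩ hsm
    have k3 := norm_sub_le_norm_sub_add_norm_sub (V t) (V m) (V s)
    linarith

theorem apri_one {R t S S' h : ℝ} (hs : Sol f0 N P0 K0 En T dat A Φ Ψ) (hA : App A R)
    (hc : 0 < c) (hc1 : c ≤ 1) (hT : T ≤ P) (hP : 200 ≤ P) (hq1 : 20 ≤ qm P) (hq2 : qm P ≤ P / 2)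
    (himp : ∀ (T' qq a b : ℝ) (z0 : Z), Win f0 N P0 K0 En T dat A Φ Ψ c P T' qq z0 a b →
      Var (fun s => (Φ s z0).2) a b (1 / 20 * qq) (Real.sqrt qq))
    (ht : 0 ≤ t) (hb : Bnd f0 Φ (P / 2) t) (hh : 2 * R * h ≤ 1) (hS : S ≤ T)
    (hS1 : S ≤ t + dl c P (P / 2)) (hS' : S' ≤ S + h) (h1 : Bnd f0 Φ P S)
    (h2 : Boot f0 Φ c P S (1 / 10)) : Bnd f0 Φ P S' ∧ Boot f0 Φ c P S' (1 / 10) := by
  have hR : 0 ≤ 2 * R := mul_nonneg zero_le_two hA.nonneg
  have h3 : Boot f0 Φ c P S (1 / 20) := fun z hz qq k1 k2 a b k3 k4 k5 k6 k7 =>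
    himp S qq a b z ⟨hs, hc, hc1, by linarith, hT, hS, h1, h2, hz, k1, k2, k3, k4, k5, k6, k7⟩
  have h4 : Bnd f0 Φ (7 / 10 * P) S := by
    intro z hz s hsS
    rcases le_total s t with hst | hst
    · linarith [hb z hz s hst]
    by_contra hlt
    have k := (boot_lower hs.flow le_rfl h2 hz (by linarith) hq2 (by linarith) ht hsS
      (by linarith) ⟨hst, le_rfl⟩ (by linarith [not_le.1 hlt])).2 t ⟨le_rfl, hst⟩
    linarith [(abs_le.1 k).1, hb z hz t le_rfl, not_le.1 hlt]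
  have hlen : ∀ m b, S ≤ m → b ≤ S' → 2 * R * (b - m) ≤ 1 := fun m b k1 k2 =>
    (mul_le_mul_of_nonneg_left (by linarith) hR).trans hh
  refine ⟨fun z hz s hsS => ?_, fun z hz qq k1 k2 a b k3 k4 k5 k6 k7 => ?_⟩
  · rcases le_total s S with k | k
    · exact h1 z hz s k
    have e1 := (abs_le.1 ((q_sub_le _ _).trans (hs.flow.mom_sub_le hA S s z))).2
    rw [abs_of_nonneg (sub_nonneg.2 k)] at e1
    linarith [hlen S s le_rfl hsS, h4 z hz S le_rfl]
  have hV : ∀ s t, ‖(Φ t z).2 - (Φ s z).2‖ ≤ 2 * R * |t - s| := fun s t =>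
    hs.flow.mom_sub_le hA s t z
  rcases le_total S a with k | k
  · exact apri_ext (apri_zero _ a (Real.sqrt_nonneg _)) le_rfl k4 hR (Real.sqrt_nonneg _) hV
      (by linarith [hlen a b k k5])
  rcases le_total b S with k' | k'
  · exact h2 z hz qq k1 k2 a b k3 k4 k' k6 k7
  · exact apri_ext (h3 z hz qq k1 k2 a S k3 k le_rfl (by linarith)
      fun s hs => k7 s ⟨hs.1, hs.2.trans k'⟩) k k' hR (Real.sqrt_nonneg _) hV
      (by linarith [hlen S b le_rfl k5])

theorem apri_step {t S : ℝ} (hs : Sol f0 N P0 K0 En T dat A Φ Ψ)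
    (hc : 0 < c) (hc1 : c ≤ 1) (hT : T ≤ P) (hP : 200 ≤ P) (hq1 : 20 ≤ qm P) (hq2 : qm P ≤ P / 2)
    (himp : ∀ (T' qq a b : ℝ) (z0 : Z), Win f0 N P0 K0 En T dat A Φ Ψ c P T' qq z0 a b →
      Var (fun s => (Φ s z0).2) a b (1 / 20 * qq) (Real.sqrt qq))
    (ht : 0 ≤ t) (hb : Bnd f0 Φ (P / 2) t) (hS : S ≤ T) (hS1 : S ≤ t + dl c P (P / 2)) :
    Bnd f0 Φ P S := by
  obtain ⟨R, hA⟩ := hs.app
  have hR := hA.nonneg
  have hh : 0 < 1 / (2 * R + 1) := by positivity
  have hh1 : 2 * R * (1 / (2 * R + 1)) ≤ 1 := by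
    rw [mul_one_div, div_le_one (by positivity)]
    linarith
  generalize 1 / (2 * R + 1) = h at hh hh1
  have key : ∀ k : ℕ, Bnd f0 Φ P (min (k * h) S) ∧ Boot f0 Φ c P (min (k * h) S) (1 / 10) := by
    intro k
    induction k with
    | zero =>
      rw [Nat.cast_zero, zero_mul]
      refine ⟨fun z hz s hs => ?_, fun z hz qq k1 k2 a b k3 k4 k5 k6 k7 => ?_⟩
      · linarith [hb z hz s ((hs.trans (min_le_left _ _)).trans ht)]
      · obtain rfl : a = b := le_antisymm k4 ((k5.trans (min_le_left _ _)).trans k3)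
        obtain ⟨W, e1, e2, e3⟩ := apri_zero (fun s => (Φ s z).2) a (Real.sqrt_nonneg qq)
        exact ⟨W, e1, by linarith, e3⟩
    | succ k ih =>
      refine apri_one hs hA hc hc1 hT hP hq1 hq2 himp ht hb hh1 ((min_le_right _ _).trans hS)
        ((min_le_right _ _).trans hS1) ?_ ih.1 ih.2
      rw [← min_add_add_right]
      refine min_le_min (le_of_eq ?_) (by linarith)
      push_cast
      ring
  obtain ⟨k, hk⟩ := exists_nat_ge (S / h)
  have := (key k).1
  rwa [min_eq_right ((div_le_iff₀ hh).1 hk)] at this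

theorem apri_ev : ∀ᶠ P in atTop, 20 ≤ qm P ∧ qm P ≤ P / 2 := by
  filter_upwards [(tendsto_rpow_atTop (show (0 : ℝ) < 11 / 20 by norm_num)).eventually_ge_atTop 20,
    (tendsto_rpow_atTop (show (0 : ℝ) < 9 / 20 by norm_num)).eventually_ge_atTop 2,
    eventually_gt_atTop 0] with P h1 h2 h3
  refine ⟨h1, ?_⟩
  have e : P ^ (11 / 20 : ℝ) * P ^ (9 / 20 : ℝ) = P := by
    rw [← Real.rpow_add h3]
    norm_num
  have := mul_le_mul_of_nonneg_left h2 (Real.rpow_nonneg h3.le (11 / 20))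
  rw [qm]
  linarith

theorem apri_dl (hc : 0 < c) (hP : 1 ≤ P) (j : ℕ) :
    c / (4 * La P) * (1 / (j + 1)) ≤ dl c (2 ^ j * P) (2 ^ j * P / 2) := by
  have h0 : 0 ≤ Real.logb 2 P := Real.logb_nonneg one_lt_two hP
  have e : La (2 ^ j * P) = j + La P := by
    rw [La, La, Real.logb_mul (by positivity) (by positivity), Real.logb_pow,
      Real.logb_self_eq_one one_lt_two]
    ring
  have h3 : 3 ≤ La P := by
    rw [La]
    linarith
  have hj : (0 : ℝ) ≤ j := Nat.cast_nonneg j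
  have e2 : dl c (2 ^ j * P) (2 ^ j * P / 2) = c / (4 * (j + La P)) := by
    rw [dl, e]
    field_simp
    ring
  rw [e2, mul_one_div, div_div]
  exact div_le_div_of_nonneg_left hc.le (by positivity) (by nlinarith)

theorem apriori (N P0 K0 En T : ℝ) : ∃ P : ℝ, ∀ (f0 : Z → ℝ) (T1 : ℝ) (dat A : Fld)
    (Φ Ψ : ℝ → Z → Z), T1 ≤ T → Sol f0 N P0 K0 En T1 dat A Φ Ψ →
      ∀ t ∈ Icc 0 T1, ∀ z, f0 z ≠ 0 → q (Φ t z).2 ≤ P := by
  obtain ⟨c, himp, hc, hc1⟩ := ((improve N P0 K0 En).and (Ioc_mem_nhdsGT one_pos)).exists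
  obtain ⟨P, hP⟩ := eventually_atTop.1 (himp.and (apri_ev.and ((eventually_ge_atTop 200).and
    ((eventually_ge_atTop T).and (eventually_ge_atTop (2 * P0))))))
  obtain ⟨-, -, h200, -, hP0⟩ := hP P le_rfl
  have hLa : 0 < La P := by
    have := Real.logb_nonneg one_lt_two (show 1 ≤ P by linarith)
    rw [La]
    linarith
  have hd : 0 < c / (4 * La P) := by positivity
  obtain ⟨J, hJ⟩ := ((Real.tendsto_sum_range_one_div_nat_succ_atTop.const_mul_atTop
    hd).eventually_ge_atTop T).exists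
  refine ⟨2 ^ J * P / 2, fun f0 T1 dat A Φ Ψ hT hs t ht z hz => ?_⟩
  have key : ∀ j : ℕ, Bnd f0 Φ (2 ^ j * P / 2)
      (min T1 (c / (4 * La P) * ∑ i ∈ Finset.range j, 1 / ((i : ℝ) + 1))) := by
    intro j
    induction j with
    | zero =>
      intro z hz s hs0
      rw [Finset.sum_range_zero, mul_zero] at hs0
      rw [hs.flow.free s (hs0.trans (min_le_right _ _))]
      linarith [(hs.init.supp z hz).2]
    | succ j ih =>
      have h1 : P ≤ 2 ^ j * P := le_mul_of_one_le_left (by linarith) (one_le_pow₀ one_le_two)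
      obtain ⟨k1, ⟨k2, k3⟩, k4, k5, -⟩ := hP _ h1
      have h2 := apri_dl hc (show 1 ≤ P by linarith) j
      have h3 : 0 ≤ c / (4 * La P) * (1 / ((j : ℝ) + 1)) := by positivity
      rw [show 2 ^ (j + 1) * P / 2 = 2 ^ j * P by ring]
      refine apri_step hs hc hc1 (hT.trans k5) k4 k2 k3
        (fun T' qq a b z0 => k1 f0 T1 T' qq a b dat A Φ Ψ z0)
        (le_min (ht.1.trans ht.2) (by positivity)) ih (min_le_left _ _) ?_
      rw [← min_add_add_right, Finset.sum_range_succ, mul_add]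
      exact min_le_min (by linarith) (by linarith)
  exact key J z hz t (le_min ht.2 (ht.2.trans (hT.trans hJ)))

end Vale.Agent.P107
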