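import Vale.Agent.P107.Ctx

/-! Elementary facts on q, u, cross, nrm, kap, lor and the kernels.

Plan. Coordinates: EuclideanSpace.norm_eq / real_inner via Fin.sum_univ_three (simp [cross, Fin.sum_univ_three, PiLp.inner_apply]).
norm_cross_le from the Lagrange identity. u_sub_le: u v - u w = (q v)⁻¹ • (v - w) + ((q v)⁻¹ - (q w)⁻¹) • w and |q v - q w| ≤ ‖v - w‖.
kap_ge: for ‖n‖ ≤ 1, 1 - n.u ≥ 1 - ‖u‖ ≥ (1 - ‖u‖²)/2 = 1/(2 q²). u is smooth (ContDiff.sqrt). Second differences of u:
‖D²u‖ is bounded, or write u(v+h) - 2u(v) + u(v-h) out with a = (q ·)⁻¹ (1-Lipschitz, second differences of q ≤ ‖h‖²). -/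

namespace Vale.Agent.P107

open MeasureTheory Set Filter Topology
open scoped ContDiff RealInnerProductSpace ENNReal

theorem cross_add_left (a b c : V3) : cross (a + b) c = cross a c + cross b c := by
  ext i; fin_cases i <;> simp [cross] <;> ring

theorem cross_add_right (a b c : V3) : cross a (b + c) = cross a b + cross a c := by
  ext i; fin_cases i <;> simp [cross] <;> ring

theorem cross_sub_left (a b c : V3) : cross (a - b) c = cross a c - cross b c := by
  ext i; fin_cases i <;> simp [cross] <;> ring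

theorem cross_sub_right (a b c : V3) : cross a (b - c) = cross a b - cross a c := by
  ext i; fin_cases i <;> simp [cross] <;> ring

theorem cross_smul_left (r : ℝ) (a b : V3) : cross (r • a) b = r • cross a b := by
  ext i; fin_cases i <;> simp [cross] <;> ring

theorem cross_smul_right (r : ℝ) (a b : V3) : cross a (r • b) = r • cross a b := by
  ext i; fin_cases i <;> simp [cross] <;> ring

/-- The vector product as a continuous bilinear map. -/
theorem exists_crossL : ∃ L : V3 →L[ℝ] V3 →L[ℝ] V3, ∀ a b, L a b = cross a b := by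
  let M : V3 →ₗ[ℝ] V3 →ₗ[ℝ] V3 := LinearMap.mk₂ ℝ cross cross_add_left cross_smul_left
    cross_add_right cross_smul_right
  exact ⟨LinearMap.toContinuousLinearMap
    ((LinearMap.toContinuousLinearMap : (V3 →ₗ[ℝ] V3) ≃ₗ[ℝ] V3 →L[ℝ] V3).toLinearMap ∘ₗ M),
    fun _ _ => rfl⟩

theorem cross_self (a : V3) : cross a a = 0 := by
  ext i; fin_cases i <;> simp [cross] <;> ring

theorem cross_anti (a b : V3) : cross a b = -cross b a := by
  ext i; fin_cases i <;> simp [cross] <;> ring

theorem cross_cross (a b c : V3) : cross a (cross b c) = ⟪a, c⟫ • b - ⟪a, b⟫ • c := by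
  ext i; fin_cases i <;> simp [cross, Fin.sum_univ_three, PiLp.inner_apply] <;> ring

theorem inner_cross_left (a b : V3) : ⟪a, cross a b⟫ = 0 := by
  simp [cross, Fin.sum_univ_three, PiLp.inner_apply]; ring

theorem inner_cross_right (a b : V3) : ⟪b, cross a b⟫ = 0 := by
  simp [cross, Fin.sum_univ_three, PiLp.inner_apply]; ring

theorem inner_cross_cyc (a b c : V3) : ⟪a, cross b c⟫ = ⟪b, cross c a⟫ := by
  simp [cross, Fin.sum_univ_three, PiLp.inner_apply]; ring

theorem norm_cross_le (a b : V3) : ‖cross a b‖ ≤ ‖a‖ * ‖b‖ := by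
  refine (sq_le_sq₀ (norm_nonneg _) (by positivity)).1 ?_
  rw [mul_pow, EuclideanSpace.real_norm_sq_eq, EuclideanSpace.real_norm_sq_eq,
    EuclideanSpace.real_norm_sq_eq]
  simp [cross, Fin.sum_univ_three]
  nlinarith [sq_nonneg (a 0 * b 0 + a 1 * b 1 + a 2 * b 2)]

theorem contDiff_cross : ContDiff ℝ ∞ fun p : V3 × V3 => cross p.1 p.2 := by
  obtain ⟨L, hL⟩ := exists_crossL
  simp only [← hL]
  exact L.isBoundedBilinearMap.contDiff

end Vale.Agent.P107
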