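import Vale.Agent.P107.BasQ
import Vale.Agent.P107.BasX

/-! Elementary facts on q, u, cross, nrm, kap, lor and the kernels.

Plan. Coordinates: EuclideanSpace.norm_eq / real_inner via Fin.sum_univ_three (simp [cross, Fin.sum_univ_three, PiLp.inner_apply]).
norm_cross_le from the Lagrange identity. u_sub_le: u v - u w = (q v)⁻¹ • (v - w) + ((q v)⁻¹ - (q w)⁻¹) • w and |q v - q w| ≤ ‖v - w‖.
kap_ge: for ‖n‖ ≤ 1, 1 - n.u ≥ 1 - ‖u‖ ≥ (1 - ‖u‖²)/2 = 1/(2 q²). u is smooth (ContDiff.sqrt). Second differences of u: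
‖D²u‖ is bounded, or write u(v+h) - 2u(v) + u(v-h) out with a = (q ·)⁻¹ (1-Lipschitz, second differences of q ≤ ‖h‖²). -/

namespace Vale.Agent.P107

open MeasureTheory Set Filter Topology
open scoped ContDiff RealInnerProductSpace ENNReal

theorem norm_nrm {D : V3} (h : D ≠ 0) : ‖nrm D‖ = 1 := by
  have h' : ‖D‖ ≠ 0 := norm_ne_zero_iff.2 h
  rw [nrm, norm_smul, norm_inv, norm_norm, inv_mul_cancel₀ h']

theorem norm_nrm_le (D : V3) : ‖nrm D‖ ≤ 1 := by
  by_cases h : D = 0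
  · simp [nrm, h]
  · exact (norm_nrm h).le

theorem smul_nrm (D : V3) : ‖D‖ • nrm D = D := by
  by_cases h : D = 0
  · simp [h]
  · rw [nrm, smul_smul, mul_inv_cancel₀ (norm_ne_zero_iff.2 h), one_smul]

theorem measurable_nrm : Measurable nrm := by
  exact measurable_norm.inv.smul measurable_id

theorem contDiffOn_nrm : ContDiffOn ℝ ∞ nrm {0}ᶜ := by
  intro x hx
  have hx' : x ≠ 0 := hx
  exact (((contDiffAt_norm ℝ hx').inv (norm_ne_zero_iff.2 hx')).smul
    contDiffAt_id).contDiffWithinAt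

theorem kap_ge (D v : V3) : (2 * q v ^ 2)⁻¹ ≤ kap D v := by
  have h1 := norm_u_le_of_q_le (le_refl (q v))
  have h2 : ⟪nrm D, u v⟫ ≤ ‖nrm D‖ * ‖u v‖ := real_inner_le_norm _ _
  have h3 : ‖nrm D‖ * ‖u v‖ ≤ ‖u v‖ := mul_le_of_le_one_left (norm_nonneg _) (norm_nrm_le D)
  unfold kap
  linarith

theorem kap_pos (D v : V3) : 0 < kap D v := by
  have h := q_pos v
  exact lt_of_lt_of_le (by positivity) (kap_ge D v)

theorem kap_le (D v : V3) : kap D v ≤ 2 := by
  have h1 := (norm_u_lt v).le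
  have h2 : |⟪nrm D, u v⟫| ≤ ‖nrm D‖ * ‖u v‖ := abs_real_inner_le_norm _ _
  have h3 : ‖nrm D‖ * ‖u v‖ ≤ ‖u v‖ := mul_le_of_le_one_left (norm_nonneg _) (norm_nrm_le D)
  have h4 := neg_abs_le ⟪nrm D, u v⟫
  unfold kap
  linarith

theorem norm_nrm_sub_u_sq {D : V3} (h : D ≠ 0) (v : V3) :
    ‖nrm D - u v‖ ^ 2 = 2 * kap D v - (q v ^ 2)⁻¹ := by
  rw [norm_sub_sq_real, norm_nrm h, norm_u_sq, kap]
  ring

theorem measurable_kap : Measurable fun w : Z => kap w.1 w.2 := by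
  exact measurable_const.sub ((measurable_nrm.comp measurable_fst).inner
    (contDiff_u.continuous.measurable.comp measurable_snd))

theorem norm_lor_le (F : V3 × V3) (v : V3) : ‖lor F v‖ ≤ 2 * ‖F‖ := by
  have h1 : ‖F.1‖ ≤ ‖F‖ := norm_fst_le F
  have h2 : ‖F.2‖ ≤ ‖F‖ := norm_snd_le F
  have h3 := norm_cross_le (u v) F.2
  have h4 : ‖u v‖ * ‖F.2‖ ≤ ‖F.2‖ := mul_le_of_le_one_left (norm_nonneg _) (norm_u_lt v).le
  have h5 := norm_add_le F.1 (cross (u v) F.2)
  unfold lor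
  linarith

theorem lor_add (F G : V3 × V3) (v : V3) : lor (F + G) v = lor F v + lor G v := by
  simp only [lor, Prod.fst_add, Prod.snd_add, cross_add_right]
  abel

theorem lor_sub (F G : V3 × V3) (v : V3) : lor (F - G) v = lor F v - lor G v := by
  simp only [lor, Prod.fst_sub, Prod.snd_sub, cross_sub_right]
  abel

theorem lor_smul (r : ℝ) (F : V3 × V3) (v : V3) : lor (r • F) v = r • lor F v := by
  simp only [lor, Prod.smul_fst, Prod.smul_snd, cross_smul_right, smul_add]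

theorem exists_lorL (v : V3) : ∃ L : (V3 × V3) →L[ℝ] V3, ∀ F, L F = lor F v := by
  obtain ⟨L, hL⟩ := exists_crossL
  exact ⟨ContinuousLinearMap.fst ℝ V3 V3 + (L (u v)).comp (ContinuousLinearMap.snd ℝ V3 V3),
    fun F => by simp [lor, hL]⟩

theorem inner_u_lor (F : V3 × V3) (v : V3) : ⟪u v, lor F v⟫ = ⟪u v, F.1⟫ := by
  rw [lor, inner_add_right, inner_cross_left, add_zero]

theorem lor_sub_le (F G : V3 × V3) (v w : V3) :
    ‖lor F v - lor G w‖ ≤ 2 * ‖F - G‖ + 2 * ‖G‖ * ‖v - w‖ := by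
  have e : lor F v - lor G w = lor (F - G) v + cross (u v - u w) G.2 := by
    rw [lor_sub, cross_sub_left]
    simp only [lor]
    abel
  have h1 := norm_lor_le (F - G) v
  have h2 := norm_cross_le (u v - u w) G.2
  have h3 : ‖u v - u w‖ ≤ 2 * ‖v - w‖ :=
    (u_sub_le v w).trans (div_le_self (by positivity) (one_le_q v))
  have h4 : ‖u v - u w‖ * ‖G.2‖ ≤ 2 * ‖v - w‖ * ‖G‖ :=
    mul_le_mul h3 (norm_snd_le G) (norm_nonneg _) (by positivity)
  have h5 := norm_add_le (lor (F - G) v) (cross (u v - u w) G.2)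
  rw [e]
  linarith

theorem contDiff_lor : ContDiff ℝ ∞ fun p : (V3 × V3) × V3 => lor p.1 p.2 := by
  exact contDiff_fst.fst.add
    (contDiff_cross.comp ((contDiff_u.comp contDiff_snd).prodMk contDiff_fst.snd))

theorem norm_acc_le (F : V3 × V3) (v : V3) : ‖acc F v‖ ≤ 4 * ‖F‖ := by
  have h1 := norm_lor_le F v
  have hu := (norm_u_lt v).le
  have h2 : ‖⟪u v, lor F v⟫ • u v‖ ≤ ‖lor F v‖ := by
    rw [norm_smul, Real.norm_eq_abs]
    calc |⟪u v, lor F v⟫| * ‖u v‖ ≤ |⟪u v, lor F v⟫| := mul_le_of_le_one_right (abs_nonneg _) hu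
      _ ≤ ‖u v‖ * ‖lor F v‖ := abs_real_inner_le_norm _ _
      _ ≤ ‖lor F v‖ := mul_le_of_le_one_left (norm_nonneg _) hu
  have h3 := norm_sub_le (lor F v) (⟪u v, lor F v⟫ • u v)
  have h4 : ‖(q v)⁻¹‖ ≤ 1 := by
    rw [Real.norm_eq_abs, abs_of_pos (inv_pos.2 (q_pos v))]
    exact inv_le_one_of_one_le₀ (one_le_q v)
  rw [acc, norm_smul]
  refine (mul_le_of_le_one_left (norm_nonneg _) h4).trans ?_
  linarith

theorem acc_zero (v : V3) : acc 0 v = 0 := by
  have h := norm_acc_le 0 v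
  rw [norm_zero, mul_zero] at h
  exact norm_le_zero_iff.1 h

theorem contDiff_acc : ContDiff ℝ ∞ fun p : (V3 × V3) × V3 => acc p.1 p.2 := by
  have hu : ContDiff ℝ ∞ fun p : (V3 × V3) × V3 => u p.2 := contDiff_u.comp contDiff_snd
  have hq : ContDiff ℝ ∞ fun p : (V3 × V3) × V3 => (q p.2)⁻¹ :=
    (contDiff_q.comp contDiff_snd).inv fun p => (q_pos p.2).ne'
  exact hq.smul (contDiff_lor.sub ((hu.inner ℝ contDiff_lor).smul hu))

theorem bas_meas_cross {α : Type} [MeasurableSpace α] {f g : α → V3} (hf : Measurable f)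
    (hg : Measurable g) : Measurable fun a => cross (f a) (g a) := by
  have h : Measurable fun p : V3 × V3 => cross p.1 p.2 := contDiff_cross.continuous.measurable
  exact h.comp (hf.prodMk hg)

theorem bas_meas_acc {α : Type} [MeasurableSpace α] {f : α → V3 × V3} {g : α → V3}
    (hf : Measurable f) (hg : Measurable g) : Measurable fun a => acc (f a) (g a) := by
  have h : Measurable fun p : (V3 × V3) × V3 => acc p.1 p.2 := contDiff_acc.continuous.measurable
  have h2 := h.comp (hf.prodMk hg)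
  simpa only [Function.comp_def] using h2

theorem measurable_ker : Measurable fun p : Z × (V3 × V3) => ker p.1.1 p.1.2 p.2 := by
  have hn : Measurable fun p : Z × (V3 × V3) => nrm p.1.1 := measurable_nrm.comp measurable_fst.fst
  have hu : Measurable fun p : Z × (V3 × V3) => u p.1.2 :=
    contDiff_u.continuous.measurable.comp measurable_fst.snd
  have hq : Measurable fun p : Z × (V3 × V3) => q p.1.2 :=
    contDiff_q.continuous.measurable.comp measurable_fst.snd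
  have hk : Measurable fun p : Z × (V3 × V3) => kap p.1.1 p.1.2 :=
    measurable_kap.comp measurable_fst
  have hr : Measurable fun p : Z × (V3 × V3) => ‖p.1.1‖ := measurable_fst.fst.norm
  have ha : Measurable fun p : Z × (V3 × V3) => acc p.2 p.1.2 :=
    bas_meas_acc measurable_snd measurable_fst.snd
  have hm : Measurable fun p : Z × (V3 × V3) => nrm p.1.1 - u p.1.2 := hn.sub hu
  have hi : Measurable fun p : Z × (V3 × V3) => ⟪nrm p.1.1, acc p.2 p.1.2⟫ := hn.inner ha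
  have c1 : Measurable fun p : Z × (V3 × V3) =>
      (4 * Real.pi * q p.1.2 ^ 2 * kap p.1.1 p.1.2 ^ 2 * ‖p.1.1‖ ^ 2)⁻¹ :=
    ((((hq.pow_const 2).const_mul _).mul (hk.pow_const 2)).mul (hr.pow_const 2)).inv
  have c2 : Measurable fun p : Z × (V3 × V3) =>
      (4 * Real.pi * kap p.1.1 p.1.2 ^ 2 * ‖p.1.1‖)⁻¹ :=
    (((hk.pow_const 2).const_mul _).mul hr).inv
  have hT : Measurable fun p : Z × (V3 × V3) => eT p.1.1 p.1.2 := by
    unfold eT
    exact c1.smul hm
  have hS : Measurable fun p : Z × (V3 × V3) => eS p.1.1 p.1.2 p.2 := by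
    unfold eS
    exact c2.smul ((hi.smul hm).sub (hk.smul ha))
  have hE : Measurable fun p : Z × (V3 × V3) => eT p.1.1 p.1.2 + eS p.1.1 p.1.2 p.2 := hT.add hS
  unfold ker
  exact hE.prodMk (bas_meas_cross hn hE)

theorem measurable_gfl : Measurable fun p : V3 × (V3 × V3) => gfl p.1 p.2 := by
  have hn : Measurable fun p : V3 × (V3 × V3) => nrm p.1 := measurable_nrm.comp measurable_fst
  have h1 : Measurable fun p : V3 × (V3 × V3) => p.2.1 := measurable_snd.fst
  have h2 : Measurable fun p : V3 × (V3 × V3) => p.2.2 := measurable_snd.snd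
  have hc : Measurable fun p : V3 × (V3 × V3) => cross (nrm p.1) p.2.2 :=
    bas_meas_cross hn h2
  have a1 : Measurable fun p : V3 × (V3 × V3) => ⟪nrm p.1, p.2.1⟫ := hn.inner h1
  have a2 : Measurable fun p : V3 × (V3 × V3) => ⟪nrm p.1, p.2.2⟫ := hn.inner h2
  have a3 : Measurable fun p : V3 × (V3 × V3) =>
      p.2.1 - ⟪nrm p.1, p.2.1⟫ • nrm p.1 + cross (nrm p.1) p.2.2 :=
    (h1.sub (a1.smul hn)).add hc
  unfold gfl
  exact (((a1.pow_const 2).add (a2.pow_const 2)).add (a3.norm.pow_const 2)).sqrt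

theorem bas_acc_sub (F G : V3 × V3) (v : V3) : acc (F - G) v = acc F v - acc G v := by
  simp only [acc, lor_sub, inner_sub_right]
  module

theorem bas_eS_sub (D v : V3) (F G : V3 × V3) : eS D v (F - G) = eS D v F - eS D v G := by
  simp only [eS, bas_acc_sub, inner_sub_right]
  module

/-- The kernel is affine in the field. -/
theorem ker_sub (D v : V3) (F G : V3 × V3) :
    ker D v F - ker D v G = (eS D v (F - G), cross (nrm D) (eS D v (F - G))) := by
  have e : eT D v + eS D v F - (eT D v + eS D v G) = eS D v (F - G) := by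
    rw [bas_eS_sub]
    abel
  rw [ker, ker, Prod.mk_sub_mk, ← cross_sub_right, e]

theorem bas_nsub_le (D v : V3) : ‖nrm D - u v‖ ≤ 2 := by
  have h1 := norm_sub_le (nrm D) (u v)
  have h2 := norm_nrm_le D
  have h3 := norm_u_lt v
  linarith

theorem bas_kap_sq (D v : V3) : 1 ≤ 4 * q v ^ 4 * kap D v ^ 2 := by
  have hq := q_pos v
  have h1 := kap_ge D v
  rw [inv_le_iff_one_le_mul₀' (by positivity)] at h1
  have e : 4 * q v ^ 4 * kap D v ^ 2 = (2 * q v ^ 2 * kap D v) ^ 2 := by ring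
  rw [e]
  exact one_le_pow₀ h1

theorem norm_eT_le (D v : V3) : ‖eT D v‖ ≤ q v ^ 2 / ‖D‖ ^ 2 := by
  by_cases hD : D = 0
  · simp [eT, hD]
  have hr : 0 < ‖D‖ := norm_pos_iff.2 hD
  have hq := q_pos v
  have hk := kap_pos D v
  have hp := Real.pi_pos
  have h1 := bas_nsub_le D v
  have h2 := bas_kap_sq D v
  have h3 := Real.two_le_pi
  rw [eT, norm_smul, Real.norm_eq_abs, abs_of_pos (by positivity), inv_mul_le_iff₀ (by positivity)]
  have e : 4 * Real.pi * q v ^ 2 * kap D v ^ 2 * ‖D‖ ^ 2 * (q v ^ 2 / ‖D‖ ^ 2)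
      = Real.pi * (4 * q v ^ 4 * kap D v ^ 2) := by
    field_simp
  rw [e]
  nlinarith

theorem norm_eS_le (D v : V3) (F : V3 × V3) : ‖eS D v F‖ ≤ 8 * q v ^ 4 * ‖F‖ / ‖D‖ := by
  by_cases hD : D = 0
  · simp [eS, hD]
  have hr : 0 < ‖D‖ := norm_pos_iff.2 hD
  have hq := q_pos v
  have hk := kap_pos D v
  have hp := Real.pi_pos
  have h1 := bas_nsub_le D v
  have h2 := bas_kap_sq D v
  have h3 := Real.two_le_pi
  have h4 := norm_acc_le F v
  have h5 : ‖⟪nrm D, acc F v⟫ • (nrm D - u v)‖ ≤ ‖acc F v‖ * 2 := by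
    rw [norm_smul, Real.norm_eq_abs]
    refine mul_le_mul ?_ h1 (norm_nonneg _) (norm_nonneg _)
    exact (abs_real_inner_le_norm _ _).trans
      (mul_le_of_le_one_left (norm_nonneg _) (norm_nrm_le D))
  have h6 : ‖kap D v • acc F v‖ ≤ 2 * ‖acc F v‖ := by
    rw [norm_smul, Real.norm_eq_abs, abs_of_pos hk]
    exact mul_le_mul_of_nonneg_right (kap_le D v) (norm_nonneg _)
  have h7 := norm_sub_le (⟪nrm D, acc F v⟫ • (nrm D - u v)) (kap D v • acc F v)
  rw [eS, norm_smul, Real.norm_eq_abs, abs_of_pos (by positivity), inv_mul_le_iff₀ (by positivity)]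
  have e : 4 * Real.pi * kap D v ^ 2 * ‖D‖ * (8 * q v ^ 4 * ‖F‖ / ‖D‖)
      = 8 * ‖F‖ * (Real.pi * (4 * q v ^ 4 * kap D v ^ 2)) := by
    field_simp
  rw [e]
  have h8 : 2 ≤ Real.pi * (4 * q v ^ 4 * kap D v ^ 2) := by nlinarith
  have h9 := mul_le_mul_of_nonneg_left h8 (by positivity : 0 ≤ 8 * ‖F‖)
  linarith

theorem norm_ker_le (D v : V3) (F : V3 × V3) :
    ‖ker D v F‖ ≤ q v ^ 2 / ‖D‖ ^ 2 + 8 * q v ^ 4 * ‖F‖ / ‖D‖ := by
  have h1 : ‖eT D v + eS D v F‖ ≤ q v ^ 2 / ‖D‖ ^ 2 + 8 * q v ^ 4 * ‖F‖ / ‖D‖ :=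
    (norm_add_le _ _).trans (add_le_add (norm_eT_le D v) (norm_eS_le D v F))
  rw [ker, Prod.norm_mk]
  refine max_le h1 ((norm_cross_le _ _).trans ?_)
  exact (mul_le_of_le_one_left (norm_nonneg _) (norm_nrm_le D)).trans h1


end Vale.Agent.P107
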