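import Vale.Agent.P107.BasF

/-! Elementary facts on flows, densities, integrals of radial functions and the initial density.

Plan. pos_deriv: glue the left (free) and right derivative at 0 (HasDerivWithinAt.union, Iic ∪ Ici = univ). pos_lt: mean value
inequality on the compact interval, where ‖u‖ ≤ c < 1 (continuity of the momentum), or strict monotonicity. mom_sub_le: mean value
inequality on [max s 0, max t 0]. Radial integrals: integral_fun_norm_addHaar or lintegral version (volume of the unit ball 4π/3).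
exists_init: bounded iterated derivatives of a smooth compactly supported function, mean value inequality twice. -/

namespace Vale.Agent.P107

open MeasureTheory Set Filter Topology
open scoped ContDiff RealInnerProductSpace ENNReal

variable {A : Fld} {R : ℝ} {Φ Ψ : ℝ → Z → Z} {f0 : Z → ℝ} {N P0 : ℝ}

theorem lintegral_radial {g : ℝ → ℝ≥0∞} (hg : Measurable g) :
    ∫⁻ D : V3, g ‖D‖ = ENNReal.ofReal (4 * Real.pi) * ∫⁻ r in Ioi (0 : ℝ), ENNReal.ofReal (r ^ 2) * g r := by
  have h1 := (volume : Measure V3).measurePreserving_homeomorphUnitSphereProd.lintegral_comp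
    (f := fun x => g x.2) (hg.comp (measurable_subtype_coe.comp measurable_snd))
  simp only [homeomorphUnitSphereProd_apply_snd_coe] at h1
  rw [lintegral_subtype_comap (measurableSet_singleton _).compl fun x : V3 => g ‖x‖,
    restrict_compl_singleton] at h1
  rw [h1, lintegral_prod (fun b : Metric.sphere (0 : V3) 1 × Ioi (0 : ℝ) => g b.2)
    (hg.comp (measurable_subtype_coe.comp measurable_snd)).aemeasurable]
  simp only [lintegral_const]
  rw [mul_comm, Measure.volumeIoiPow, lintegral_withDensity_eq_lintegral_mul _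
    (g := fun b : Ioi (0 : ℝ) => g b)
    (measurable_subtype_coe.pow_const _).ennreal_ofReal (hg.comp measurable_subtype_coe),
    Measure.toSphere_apply_univ, EuclideanSpace.volume_ball_fin_three, finrank_euclideanSpace_fin,
    ← lintegral_subtype_comap measurableSet_Ioi, ENNReal.ofReal_one, one_pow, one_mul,
    ← ENNReal.ofReal_natCast, ← ENNReal.ofReal_mul (Nat.cast_nonneg _)]
  congr 2
  push_cast
  ring

theorem lintegral_inv_sq (ρ : ℝ) :
    ∫⁻ D in {D : V3 | ‖D‖ ≤ ρ}, ENNReal.ofReal (1 / ‖D‖ ^ 2) ≤ ENNReal.ofReal (13 * ρ) := by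
  have h1 := lintegral_radial (g := (Iic ρ).indicator fun r => ENNReal.ofReal (1 / r ^ 2))
    (Measurable.indicator (by fun_prop) measurableSet_Iic)
  have h2 : ∫⁻ r in Ioi (0 : ℝ), ENNReal.ofReal (r ^ 2) *
      (Iic ρ).indicator (fun r => ENNReal.ofReal (1 / r ^ 2)) r = ENNReal.ofReal ρ := by
    rw [setLIntegral_congr_fun measurableSet_Ioi (g := (Iic ρ).indicator 1) fun r hr => ?_,
      lintegral_indicator_one measurableSet_Iic, Measure.restrict_apply measurableSet_Iic,
      Iic_inter_Ioi, Real.volume_Ioc, sub_zero]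
    by_cases h : r ∈ Iic ρ
    · simp only [indicator_of_mem h]
      rw [← ENNReal.ofReal_mul (sq_nonneg r), mul_one_div_cancel (pow_pos hr 2).ne',
        ENNReal.ofReal_one, Pi.one_apply]
    · simp only [indicator_of_notMem h, mul_zero]
  rw [← lintegral_indicator (measurableSet_le continuous_norm.measurable measurable_const),
    ENNReal.ofReal_mul (by norm_num)]
  exact (h1.trans (by rw [h2])).trans_le
    (mul_le_mul_left (ENNReal.ofReal_le_ofReal (by linarith [Real.pi_lt_d2])) _)

theorem volume_q_le (P : ℝ) : volume {v : V3 | q v ≤ P} ≤ ENNReal.ofReal (5 * P ^ 3) := by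
  refine (measure_mono (t := Metric.closedBall 0 P) fun v hv =>
    mem_closedBall_zero_iff.2 ((norm_le_q v).trans hv)).trans ?_
  rw [EuclideanSpace.volume_closedBall_fin_three]
  rcases le_total P 0 with h | h
  · simp [ENNReal.ofReal_of_nonpos h]
  · rw [← ENNReal.ofReal_pow h, ← ENNReal.ofReal_mul (pow_nonneg h 3)]
    exact ENNReal.ofReal_le_ofReal (by nlinarith [Real.pi_lt_d2, pow_nonneg h 3])

theorem bas2_meas (hI : Init f0 N P0) (hA : App A R) (hF : IsFlow A Φ Ψ) (p : ℝ × V3) :
    Measurable fun w : Z => dens f0 Ψ (p.1 - ‖w.1‖) (p.2 - w.1, w.2) •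
      ker w.1 w.2 (A (p.1 - ‖w.1‖, p.2 - w.1)) := by
  have c1 : Continuous fun w : Z => p.1 - ‖w.1‖ := continuous_const.sub continuous_fst.norm
  have c2 : Continuous fun w : Z => p.2 - w.1 := continuous_const.sub continuous_fst
  have c3 := (hF.continuous_dens hI).comp (c1.prodMk (c2.prodMk continuous_snd))
  have c4 := measurable_ker.comp
    (measurable_id.prodMk (hA.continuous.comp (c1.prodMk c2)).measurable)
  simp only [Function.comp_def, id] at c3 c4
  exact c3.measurable.fun_smul c4

theorem bas2_bd (hI : Init f0 N P0) (hA : App A R) (hF : IsFlow A Φ Ψ) {t P : ℝ} (x : V3)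
    (hP : P = P0 + 2 * R * max t 0) {w : Z} (hw : ‖w.1‖ ≤ t) :
    ‖dens f0 Ψ (t - ‖w.1‖) (x - w.1, w.2) • ker w.1 w.2 (A (t - ‖w.1‖, x - w.1))‖ ≤
      1 / ‖w.1‖ ^ 2 *
        {v : V3 | q v ≤ P}.indicator (fun _ => N * (P ^ 2 + 8 * P ^ 4 * R * t)) w.2 := by
  have hR := hA.nonneg
  have t0 := (norm_nonneg _).trans hw
  have hN := zero_le_one.trans hI.one_le_N
  by_cases h : dens f0 Ψ (t - ‖w.1‖) (x - w.1, w.2) = 0
  · rw [h, zero_smul, norm_zero]
    exact mul_nonneg (by positivity) (indicator_nonneg (fun _ _ => by positivity) _)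
  have h1 : q w.2 ≤ P := (hF.dens_supp hI hA h).2.trans (hP ▸ add_le_add le_rfl
    (mul_le_mul_of_nonneg_left (max_le_max (sub_le_self _ (norm_nonneg _)) le_rfl) (by positivity)))
  have h2 := q_pos w.2
  have h3 := h2.le.trans h1
  rw [indicator_of_mem (show w.2 ∈ {v : V3 | q v ≤ P} from h1), norm_smul, dens,
    Real.norm_of_nonneg (hI.nonneg _), mul_left_comm]
  refine mul_le_mul (hI.le _) ((norm_ker_le _ _ _).trans ?_) (norm_nonneg _) hN
  rw [mul_add, one_div_mul_eq_div, one_div_mul_eq_div]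
  refine add_le_add (by gcongr) ?_
  rcases (norm_nonneg w.1).eq_or_lt with h4 | h4
  · simp [← h4]
  · rw [sq, ← div_div, mul_div_assoc _ t]
    refine div_le_div_of_nonneg_right (le_trans ?_
      (le_mul_of_one_le_right (by positivity) ((one_le_div h4).2 hw))) h4.le
    gcongr
    exact hA.bdd _

/-- The integrand of `intF` is integrable. -/
theorem integrableOn_intF (hI : Init f0 N P0) (hA : App A R) (hF : IsFlow A Φ Ψ) (p : ℝ × V3) :
    IntegrableOn (fun w : Z => dens f0 Ψ (p.1 - ‖w.1‖) (p.2 - w.1, w.2) •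
      ker w.1 w.2 (A (p.1 - ‖w.1‖, p.2 - w.1))) {w : Z | ‖w.1‖ ≤ p.1} := by
  obtain ⟨P, hP⟩ : ∃ P, P = P0 + 2 * R * max p.1 0 := ⟨_, rfl⟩
  have ms : MeasurableSet {D : V3 | ‖D‖ ≤ p.1} :=
    measurableSet_le continuous_norm.measurable measurable_const
  have mq : MeasurableSet {v : V3 | q v ≤ P} :=
    measurableSet_le contDiff_q.continuous.measurable measurable_const
  have m1 : Measurable fun D : V3 => 1 / ‖D‖ ^ 2 :=
    measurable_const.div (continuous_norm.measurable.pow_const 2)
  have i1 : Integrable ({D : V3 | ‖D‖ ≤ p.1}.indicator fun D => 1 / ‖D‖ ^ 2) :=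
    (integrable_indicator_iff ms).2 ⟨m1.aestronglyMeasurable, (hasFiniteIntegral_iff_ofReal
      (.of_forall fun D => by positivity)).2 ((lintegral_inv_sq _).trans_lt ENNReal.ofReal_lt_top)⟩
  have i2 : Integrable ({v : V3 | q v ≤ P}.indicator fun _ => N * (P ^ 2 + 8 * P ^ 4 * R * p.1)) :=
    (integrable_indicator_iff mq).2
      (integrableOn_const ((volume_q_le P).trans_lt ENNReal.ofReal_lt_top).ne)
  refine Integrable.mono' (i1.mul_prod i2).restrict (bas2_meas hI hA hF p).aestronglyMeasurable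
    (ae_restrict_of_forall_mem (measurable_fst ms) fun w hw => ?_)
  rw [indicator_of_mem (show w.1 ∈ {D : V3 | ‖D‖ ≤ p.1} from hw)]
  exact bas2_bd hI hA hF p.2 hP hw

theorem intF_zero (f : ℝ → Z → ℝ) (A : Fld) (x : V3) : intF f A (0, x) = 0 := by
  refine setIntegral_measure_zero _ ?_
  have e : {w : Z | ‖w.1‖ ≤ ((0 : ℝ), x).1} = {0} ×ˢ univ := by
    ext w
    simp
  rw [e, Measure.volume_eq_prod, Measure.prod_prod, measure_singleton, zero_mul]

theorem exists_init {E0 B0 : V3 → V3} (h : Admissible f0 E0 B0) : ∃ N P0, Init f0 N P0 := by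
  obtain ⟨C0, h0⟩ := h.compact.exists_bound_of_continuous h.smooth.continuous
  obtain ⟨C1, h1⟩ := ContDiff.lipschitzWith_of_hasCompactSupport h.compact h.smooth (by simp)
  obtain ⟨C2, h2⟩ := ContDiff.lipschitzWith_of_hasCompactSupport (h.compact.fderiv ℝ)
    (h.smooth.fderiv_right (m := ∞) (by simp)) (by simp)
  obtain ⟨P1, p1⟩ := h.compact.isCompact.exists_bound_of_continuousOn
    (continuous_fst (X := V3) (Y := V3)).continuousOn
  obtain ⟨P2, p2⟩ := h.compact.isCompact.exists_bound_of_continuousOn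
    (contDiff_q.continuous.comp (continuous_snd (X := V3))).continuousOn
  have hd := h.smooth.differentiable (by simp)
  obtain ⟨N, a0, a1, a2, a3⟩ : ∃ N : ℝ, C0 ≤ N ∧ 1 ≤ N ∧ C1 ≤ N ∧ C2 ≤ N :=
    ⟨max (max C0 1) (max C1 C2), by simp, by simp, by simp, by simp⟩
  refine ⟨N, max 1 (max P1 P2), h.smooth, h.nonneg, fun z => ((le_abs_self _).trans (h0 z)).trans a0,
    a1, le_max_left _ _, fun z hz => ⟨(p1 z (subset_tsupport _ hz)).trans (by simp),
      ((le_abs_self _).trans (p2 z (subset_tsupport _ hz))).trans (by simp)⟩,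
    fun z z' => (h1.norm_sub_le z z').trans (mul_le_mul_of_nonneg_right a2 (norm_nonneg _)),
    fun z k => ?_⟩
  have h3 := convex_univ.norm_image_sub_le_of_norm_hasFDerivWithin_le (C := C2 * ‖k‖)
    (f := fun y => f0 (y + k) - f0 y) (f' := fun y => fderiv ℝ f0 (y + k) - fderiv ℝ f0 y)
    (fun y _ => (((hasFDerivAt_comp_add_right k).2 (hd _).hasFDerivAt).sub
      (hd y).hasFDerivAt).hasFDerivWithinAt)
    (fun y _ => by simpa using h2.norm_sub_le (y + k) y) (mem_univ (z - k)) (mem_univ z)
  rw [sub_add_cancel, sub_sub_cancel, Real.norm_eq_abs, mul_assoc, ← sq] at h3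
  exact (congrArg abs (by ring)).trans_le (h3.trans (mul_le_mul_of_nonneg_right a3 (sq_nonneg _)))


end Vale.Agent.P107
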