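import Vale.Agent.P107.Bas

/-! Elementary facts on flows, densities, integrals of radial functions and the initial density.

Plan. pos_deriv: glue the left (free) and right derivative at 0 (HasDerivWithinAt.union, Iic ∪ Ici = univ). pos_lt: mean value
inequality on the compact interval, where ‖u‖ ≤ c < 1 (continuity of the momentum), or strict monotonicity. mom_sub_le: mean value
inequality on [max s 0, max t 0]. Radial integrals: integral_fun_norm_addHaar or lintegral version (volume of the unit ball 4π/3).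
exists_init: bounded iterated derivatives of a smooth compactly supported function, mean value inequality twice. -/

namespace Vale.Agent.P107

open MeasureTheory Set Filter Topology
open scoped ContDiff RealInnerProductSpace ENNReal

variable {A : Fld} {R : ℝ} {Φ Ψ : ℝ → Z → Z} {f0 : Z → ℝ} {N P0 : ℝ}

theorem App.continuous (hA : App A R) : Continuous A := by
  obtain ⟨L, hL⟩ := hA.lip
  exact (LipschitzWith.of_dist_le' (K := L) fun p p' => by
    simpa only [dist_eq_norm] using hL p p').continuous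

theorem App.nonneg (hA : App A R) : 0 ≤ R := (norm_nonneg _).trans (hA.bdd 0)

theorem IsFlow.zero (hF : IsFlow A Φ Ψ) (z : Z) : Φ 0 z = z := by
  simp [hF.free 0 le_rfl]

theorem IsFlow.zero' (hF : IsFlow A Φ Ψ) (z : Z) : Ψ 0 z = z := by
  simpa only [hF.zero] using hF.left 0 z

theorem IsFlow.free' (hF : IsFlow A Φ Ψ) {t : ℝ} (ht : t ≤ 0) (z : Z) :
    Ψ t z = (z.1 - t • u z.2, z.2) := by
  have h := hF.left t (z.1 - t • u z.2, z.2)
  rwa [hF.free t ht, sub_add_cancel] at h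

theorem IsFlow.hasDerivAt (hF : IsFlow A Φ Ψ) {t : ℝ} (ht : 0 < t) (z : Z) :
    HasDerivAt (fun s => Φ s z) (vf A t (Φ t z)) t := (hF.deriv t ht.le z).hasDerivAt (Ici_mem_nhds ht)

theorem IsFlow.mom_deriv (hF : IsFlow A Φ Ψ) {t : ℝ} (ht : 0 < t) (z : Z) :
    HasDerivAt (fun s => (Φ s z).2) (lor (A (t, (Φ t z).1)) (Φ t z).2) t := 
  (ContinuousLinearMap.snd ℝ V3 V3).hasFDerivAt.comp_hasDerivAt t (hF.hasDerivAt ht z)

theorem IsFlow.pos_deriv (hF : IsFlow A Φ Ψ) (t : ℝ) (z : Z) :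
    HasDerivAt (fun s => (Φ s z).1) (u (Φ t z).2) t := by
  have h1 : t ≤ 0 → HasDerivWithinAt (fun s => (Φ s z).1) (u (Φ t z).2) (Iic 0) t := fun ht => by
    rw [hF.free t ht]
    refine HasDerivWithinAt.congr (f := fun s => z.1 + s • u z.2) ?_
      (fun s hs => by rw [hF.free s hs]) (by rw [hF.free t ht])
    simpa using (((hasDerivAt_id t).smul_const (u z.2)).const_add z.1).hasDerivWithinAt
  have h2 : 0 ≤ t → HasDerivWithinAt (fun s => (Φ s z).1) (u (Φ t z).2) (Ici 0) t := fun ht =>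
    (ContinuousLinearMap.fst ℝ V3 V3).hasFDerivAt.comp_hasDerivWithinAt t (hF.deriv t ht z)
  rcases lt_trichotomy t 0 with h | h | h
  · exact (h1 h.le).hasDerivAt (Iic_mem_nhds h)
  · rw [← hasDerivWithinAt_univ, ← Iic_union_Ici (a := (0 : ℝ))]
    exact (h1 h.le).union (h2 h.ge)
  · exact (h2 h.le).hasDerivAt (Ici_mem_nhds h)

theorem IsFlow.pos_le (hF : IsFlow A Φ Ψ) (s t : ℝ) (z : Z) :
    ‖(Φ t z).1 - (Φ s z).1‖ ≤ |t - s| := by
  simpa using convex_univ.norm_image_sub_le_of_norm_hasDerivWithin_le (C := 1)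
    (fun σ _ => (hF.pos_deriv σ z).hasDerivWithinAt) (fun _ _ => (norm_u_lt _).le)
    (mem_univ s) (mem_univ t)

theorem basF_le (hF : IsFlow A Φ Ψ) {s t P : ℝ} (h : s ≤ t) (z : Z)
    (hq : ∀ σ ∈ Icc s t, q (Φ σ z).2 ≤ P) :
    ‖(Φ t z).1 - (Φ s z).1‖ ≤ (1 - (2 * P ^ 2)⁻¹) * (t - s) := by
  have h1 := (convex_Icc s t).norm_image_sub_le_of_norm_hasDerivWithin_le
    (fun σ _ => (hF.pos_deriv σ z).hasDerivWithinAt) (fun σ hσ => norm_u_le_of_q_le (hq σ hσ))
    (left_mem_Icc.2 h) (right_mem_Icc.2 h)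
  rwa [Real.norm_of_nonneg (sub_nonneg.2 h)] at h1

theorem IsFlow.pos_lt (hF : IsFlow A Φ Ψ) {s t : ℝ} (h : s < t) (z : Z) :
    ‖(Φ t z).1 - (Φ s z).1‖ < t - s := by
  obtain ⟨P, hP⟩ := isCompact_Icc.exists_bound_of_continuousOn (s := Icc s t)
    (contDiff_q.continuous.comp (hF.contΦ.comp (Continuous.prodMk_left z)).snd).continuousOn
  have h1 : ∀ σ ∈ Icc s t, q (Φ σ z).2 ≤ P := fun σ hσ => (le_abs_self _).trans (hP σ hσ)
  have h2 := (q_pos _).trans_le (h1 s (left_mem_Icc.2 h.le))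
  exact (basF_le hF h.le z h1).trans_lt
    (mul_lt_of_lt_one_left (sub_pos.2 h) (sub_lt_self _ (by positivity)))

/-- If the energy stays below `P` on `[s,t]` the speed is at most `1 - 1/(2P²)`. -/
theorem IsFlow.pos_le_of_q (hF : IsFlow A Φ Ψ) {s t P : ℝ} (h : s ≤ t) (z : Z)
    (hq : ∀ σ ∈ Icc s t, q (Φ σ z).2 ≤ P) :
    ‖(Φ t z).1 - (Φ s z).1‖ ≤ (1 - (2 * P ^ 2)⁻¹) * (t - s) := basF_le hF h z hq

theorem basF_mom (hA : App A R) (hF : IsFlow A Φ Ψ) (s t : ℝ) (z : Z) :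
    ‖(Φ t z).2 - (Φ s z).2‖ ≤ 2 * R * |max t 0 - max s 0| := by
  have e : ∀ t, (Φ t z).2 = (Φ (max t 0) z).2 := fun t => by
    rcases le_total t 0 with h | h
    · rw [max_eq_right h, hF.zero, hF.free t h]
    · rw [max_eq_left h]
  rw [e s, e t]
  exact (convex_Ici 0).norm_image_sub_le_of_norm_hasDerivWithin_le (f := fun s => (Φ s z).2)
    (fun σ hσ =>
      (ContinuousLinearMap.snd ℝ V3 V3).hasFDerivAt.comp_hasDerivWithinAt σ (hF.deriv σ hσ z))
    (fun σ _ => (norm_lor_le _ _).trans (mul_le_mul_of_nonneg_left (hA.bdd _) zero_le_two))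
    (le_max_right s 0) (le_max_right t 0)

theorem IsFlow.mom_sub_le (hA : App A R) (hF : IsFlow A Φ Ψ) (s t : ℝ) (z : Z) :
    ‖(Φ t z).2 - (Φ s z).2‖ ≤ 2 * R * |t - s| := 
  (basF_mom hA hF s t z).trans
    (mul_le_mul_of_nonneg_left (abs_max_sub_max_le_abs _ _ _) (mul_nonneg zero_le_two hA.nonneg))

theorem IsFlow.mp' (hF : IsFlow A Φ Ψ) (t : ℝ) : MeasurePreserving (Ψ t) volume volume := 
  MeasurePreserving.symm (Homeomorph.toMeasurableEquiv ⟨⟨Φ t, Ψ t, hF.left t, hF.right t⟩,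
    hF.contΦ.comp (Continuous.prodMk_right t), hF.contΨ.comp (Continuous.prodMk_right t)⟩) (hF.mp t)

theorem IsFlow.dens_flow (hF : IsFlow A Φ Ψ) (t : ℝ) (z : Z) : dens f0 Ψ t (Φ t z) = f0 z := 
  congrArg f0 (hF.left t z)

theorem IsFlow.continuous_dens (hI : Init f0 N P0) (hF : IsFlow A Φ Ψ) :
    Continuous fun p : ℝ × Z => dens f0 Ψ p.1 p.2 := hI.smooth.continuous.comp hF.contΨ

/-- Support of the density. -/
theorem IsFlow.dens_supp (hI : Init f0 N P0) (hA : App A R) (hF : IsFlow A Φ Ψ) {t : ℝ} {z : Z}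
    (h : dens f0 Ψ t z ≠ 0) : ‖z.1‖ ≤ P0 + |t| ∧ q z.2 ≤ P0 + 2 * R * max t 0 := by
  obtain ⟨h1, h2⟩ := hI.supp _ h
  have h3 := hF.pos_le 0 t (Ψ t z)
  have h4 := basF_mom hA hF 0 t (Ψ t z)
  rw [hF.right, hF.zero] at h3 h4
  rw [max_self, sub_zero, abs_of_nonneg (le_max_right t 0)] at h4
  rw [sub_zero] at h3
  exact ⟨by linarith [norm_sub_norm_le z.1 (Ψ t z).1],
    by linarith [(abs_le.1 (q_sub_le z.2 (Ψ t z).2)).2]⟩

/-- Liouville for nonnegative functions. -/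
theorem IsFlow.lintegral_dens (hI : Init f0 N P0) (hF : IsFlow A Φ Ψ) (t : ℝ) {g : Z → ℝ≥0∞}
    (hg : Measurable g) :
    ∫⁻ z, ENNReal.ofReal (dens f0 Ψ t z) * g z = ∫⁻ z, ENNReal.ofReal (f0 z) * g (Φ t z) := by
  rw [← (hF.mp t).lintegral_comp (f := fun z => ENNReal.ofReal (dens f0 Ψ t z) * g z)
    (((hF.continuous_dens hI).comp (Continuous.prodMk_right t)).measurable.ennreal_ofReal.mul hg)]
  simp only [hF.dens_flow]

end Vale.Agent.P107
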