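import Vale.Agent.P107.Ctx

/-! Elementary facts on q, u, cross, nrm, kap, lor and the kernels.

Plan. Coordinates: EuclideanSpace.norm_eq / real_inner via Fin.sum_univ_three (simp [cross, Fin.sum_univ_three, PiLp.inner_apply]).
norm_cross_le from the Lagrange identity. u_sub_le: u v - u w = (q v)⁻¹ • (v - w) + ((q v)⁻¹ - (q w)⁻¹) • w and |q v - q w| ≤ ‖v - w‖.
kap_ge: for ‖n‖ ≤ 1, 1 - n.u ≥ 1 - ‖u‖ ≥ (1 - ‖u‖²)/2 = 1/(2 q²). u is smooth (ContDiff.sqrt). Second differences of u: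
‖D²u‖ is bounded, or write u(v+h) - 2u(v) + u(v-h) out with a = (q ·)⁻¹ (1-Lipschitz, second differences of q ≤ ‖h‖²). -/

namespace Vale.Agent.P107

open MeasureTheory Set Filter Topology
open scoped ContDiff RealInnerProductSpace ENNReal

theorem one_le_q (v : V3) : 1 ≤ q v := by
  exact Real.one_le_sqrt.2 (le_add_of_nonneg_right (sq_nonneg _))

theorem q_pos (v : V3) : 0 < q v := by
  exact one_pos.trans_le (one_le_q v)

theorem q_sq (v : V3) : q v ^ 2 = 1 + ‖v‖ ^ 2 := by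
  exact Real.sq_sqrt (by positivity)

theorem norm_le_q (v : V3) : ‖v‖ ≤ q v := by
  exact Real.le_sqrt_of_sq_le (le_add_of_nonneg_left zero_le_one)

theorem q_sub_le (v w : V3) : |q v - q w| ≤ ‖v - w‖ := by
  have hp : 0 < q v + q w := add_pos (q_pos v) (q_pos w)
  have e : (q v - q w) * (q v + q w) = (‖v‖ - ‖w‖) * (‖v‖ + ‖w‖) := by
    linear_combination q_sq v - q_sq w
  refine le_of_mul_le_mul_right ?_ hp
  rw [← abs_of_pos hp, ← abs_mul, e, abs_mul, abs_of_pos hp, abs_of_nonneg (by positivity : 0 ≤ ‖v‖ + ‖w‖)]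
  exact mul_le_mul (abs_norm_sub_norm_le v w) (add_le_add (norm_le_q v) (norm_le_q w))
    (by positivity) (norm_nonneg _)

theorem contDiff_q : ContDiff ℝ ∞ q := by
  exact (contDiff_const.add (contDiff_norm_sq ℝ)).sqrt fun v => by positivity

theorem contDiff_u : ContDiff ℝ ∞ u := by
  exact (contDiff_q.inv fun v => (q_pos v).ne').smul contDiff_id

theorem norm_u_sq (v : V3) : ‖u v‖ ^ 2 = 1 - (q v ^ 2)⁻¹ := by
  have h := q_pos v
  rw [u, norm_smul, norm_inv, Real.norm_of_nonneg h.le, mul_pow,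
    show ‖v‖ ^ 2 = q v ^ 2 - 1 by rw [q_sq]; ring]
  field_simp

theorem norm_u_lt (v : V3) : ‖u v‖ < 1 := by
  have h := inv_pos.2 (pow_pos (q_pos v) 2)
  have := norm_u_sq v
  nlinarith [norm_nonneg (u v)]

theorem norm_u_le_of_q_le {v : V3} {P : ℝ} (h : q v ≤ P) : ‖u v‖ ≤ 1 - (2 * P ^ 2)⁻¹ := by
  have h0 := q_pos v
  have h1 : (P ^ 2)⁻¹ ≤ (q v ^ 2)⁻¹ := inv_anti₀ (pow_pos h0 2) (pow_le_pow_left₀ h0.le h 2)
  have := norm_u_sq v
  rw [mul_inv]
  nlinarith [sq_nonneg (‖u v‖ - 1)]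

theorem u_sub_le (v w : V3) : ‖u v - u w‖ ≤ 2 * ‖v - w‖ / q v := by
  have hv := q_pos v
  have hw := q_pos w
  have e : u v - u w = (q v)⁻¹ • (v - w) + ((q v)⁻¹ * (q w - q v)) • u w := by
    rw [u, u, smul_smul, show (q v)⁻¹ * (q w - q v) * (q w)⁻¹ = (q v)⁻¹ - (q w)⁻¹ by field_simp]
    module
  rw [e]
  refine (norm_add_le _ _).trans ?_
  rw [norm_smul, norm_smul, norm_mul, norm_inv, Real.norm_of_nonneg hv.le, Real.norm_eq_abs,
    abs_sub_comm, div_eq_inv_mul, two_mul, mul_add, mul_assoc]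
  refine add_le_add le_rfl (mul_le_mul_of_nonneg_left ?_ (by positivity))
  exact (mul_le_of_le_one_right (abs_nonneg _) (norm_u_lt w).le).trans (q_sub_le v w)

theorem basq_real {a b c n : ℝ} (ha : 1 ≤ a) (hb : 1 ≤ b) (hc : 1 ≤ c) (h1 : |a - b| ≤ n)
    (h2 : |c - b| ≤ n) (h3 : a ^ 2 + c ^ 2 = 2 * b ^ 2 + 2 * n ^ 2) :
    |a⁻¹ - 2 * b⁻¹ + c⁻¹| * b ≤ 3 * n ^ 2 ∧ |a⁻¹ - c⁻¹| ≤ 2 * n := by
  have a0 : 0 < a := by linarith
  have b0 : 0 < b := by linarith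
  have c0 : 0 < c := by linarith
  have n0 : 0 ≤ n := (abs_nonneg _).trans h1
  have k2 : |a⁻¹ - c⁻¹| ≤ 2 * n := by
    rw [show a⁻¹ - c⁻¹ = ((c - b) - (a - b)) / (a * c) by field_simp; ring, abs_div,
      abs_of_pos (mul_pos a0 c0)]
    refine (div_le_self (abs_nonneg _) (by nlinarith)).trans ((abs_sub _ _).trans ?_)
    linarith
  have s1 := sq_le_sq' (abs_le.1 h1).1 (abs_le.1 h1).2
  have s2 := sq_le_sq' (abs_le.1 h2).1 (abs_le.1 h2).2
  have k0 : 0 ≤ a + c - 2 * b := by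
    refine nonneg_of_mul_nonneg_right (a := b) ?_ b0
    nlinarith
  have k1 : a + c - 2 * b ≤ n ^ 2 := by nlinarith [sq_nonneg (a - b), sq_nonneg (c - b)]
  refine ⟨?_, k2⟩
  rw [← abs_of_pos b0, ← abs_mul, abs_of_pos b0, show (a⁻¹ - 2 * b⁻¹ + c⁻¹) * b =
    -((a - b) * (a⁻¹ - c⁻¹) + (a + c - 2 * b) / c) by field_simp; ring, abs_neg]
  refine (abs_add_le _ _).trans ?_
  rw [abs_mul, abs_of_nonneg (div_nonneg k0 c0.le)]
  have k3 := mul_le_mul h1 k2 (abs_nonneg _) n0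
  have k4 := div_le_self k0 hc
  linarith

theorem u_sec (v h : V3) : ‖u (v + h) - (2 : ℝ) • u v + u (v - h)‖ ≤ 10 * ‖h‖ ^ 2 := by
  have e : u (v + h) - (2 : ℝ) • u v + u (v - h) =
      ((q (v + h))⁻¹ - 2 * (q v)⁻¹ + (q (v - h))⁻¹) • v + ((q (v + h))⁻¹ - (q (v - h))⁻¹) • h := by
    simp only [u]
    module
  have h1 := q_sub_le (v + h) v
  have h2 := q_sub_le (v - h) v
  rw [add_sub_cancel_left] at h1
  rw [sub_sub_cancel_left, norm_neg] at h2
  have h3 : q (v + h) ^ 2 + q (v - h) ^ 2 = 2 * q v ^ 2 + 2 * ‖h‖ ^ 2 := by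
    have := parallelogram_law_with_norm ℝ v h
    rw [q_sq, q_sq, q_sq]
    linarith
  obtain ⟨k1, k2⟩ := basq_real (one_le_q _) (one_le_q _) (one_le_q _) h1 h2 h3
  rw [e]
  refine (norm_add_le _ _).trans ?_
  rw [norm_smul, norm_smul, Real.norm_eq_abs, Real.norm_eq_abs]
  have k3 := mul_le_mul_of_nonneg_left (norm_le_q v)
    (abs_nonneg ((q (v + h))⁻¹ - 2 * (q v)⁻¹ + (q (v - h))⁻¹))
  have k4 := mul_le_mul_of_nonneg_right k2 (norm_nonneg h)
  nlinarith [sq_nonneg ‖h‖]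

/-- Chain rule for the energy along a curve. -/
theorem hasDerivAt_q_comp {w : ℝ → V3} {w' : V3} {s : ℝ} (h : HasDerivAt w w' s) :
    HasDerivAt (fun t => q (w t)) ⟪u (w s), w'⟫ s := by
  have h0 := q_pos (w s)
  refine ((h.norm_sq.const_add 1).sqrt (by positivity)).congr_deriv ?_
  rw [u, real_inner_smul_left]
  change _ / (2 * q (w s)) = _
  field_simp

/-- Chain rule for the velocity along a curve. -/
theorem hasDerivAt_u_comp {w : ℝ → V3} {w' : V3} {s : ℝ} (h : HasDerivAt w w' s) :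
    HasDerivAt (fun t => u (w t)) ((q (w s))⁻¹ • (w' - ⟪u (w s), w'⟫ • u (w s))) s := by
  have h0 := q_pos (w s)
  refine (((hasDerivAt_q_comp h).inv h0.ne').smul h).congr_deriv ?_
  generalize ⟪u (w s), w'⟫ = c
  rw [u, show -c / q (w s) ^ 2 = -((q (w s))⁻¹ * c * (q (w s))⁻¹) by field_simp]
  simp only [Pi.inv_apply]
  module

end Vale.Agent.P107
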