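import Vale.Agent.P107.Bas2

/-! Functions with bounded second differences are C^1 in space, with jointly continuous derivative; from partial
derivatives to C^1 on a slab.

Plan. sec_fderiv: for fixed t, g = K t has ‖g(x+h) - 2g(x) + g(x-h)‖ ≤ M‖h‖² and is continuous. The dyadic difference quotients
d_n(x,h) = 2^n (g(x + 2^-n h) - g x) satisfy ‖d_{n+1} - d_n‖ ≤ M 2^-(n+2) ‖h‖²... (apply the hypothesis at x + 2^-(n+1) h), so they converge
to D(x,h) with ‖g(x+h) - g x - D(x,h)‖ ≤ M‖h‖². D(x,·) is additive (the limit satisfies Jensen's equation with D(x,0)=0, from the hypothesis at the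
point x + 2^-n (h+k)/2) and continuous, hence a continuous linear map (AddMonoidHom.toRealLinearMap). Joint continuity of
(t,x) ↦ D: uniform limit of continuous functions on a basis. contDiffOn_of_partials: HasFDerivWithinAt by hand, with
g(t',x') - g(t,x') - (t'-t) g_t(t,x) small by the mean value inequality; contDiffOn_succ_iff_fderivWithin or
contDiffOn_succ_of_fderivWithin / ContDiffOn via HasFTaylorSeries; UniqueDiffOn of Icc 0 T ×ˢ univ. -/

namespace Vale.Agent.P107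

open MeasureTheory Set Filter Topology
open scoped ContDiff RealInnerProductSpace ENNReal

variable {X W : Type} [NormedAddCommGroup X] [NormedSpace ℝ X] [FiniteDimensional ℝ X]
  [NormedAddCommGroup W] [NormedSpace ℝ W] [CompleteSpace W]

noncomputable def c1_d (f : X → W) (x : X) (n : ℕ) (h : X) : W :=
  (2 : ℝ) ^ n • (f (x + ((2 : ℝ) ^ n)⁻¹ • h) - f x)

omit [FiniteDimensional ℝ X] [CompleteSpace W] in
theorem c1_jen {M : ℝ} {f : X → W}
    (hs : ∀ x h : X, ‖f (x + h) - (2 : ℝ) • f x + f (x - h)‖ ≤ M * ‖h‖ ^ 2) (x : X) (n : ℕ)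
    (h k : X) : ‖c1_d f x n h + c1_d f x n k - c1_d f x (n + 1) (h + k)‖ ≤
      M * ‖h - k‖ ^ 2 / 2 / 2 / 2 ^ n := by
  have h2 : (0 : ℝ) < 2 ^ n := by positivity
  have h1 := hs (x + ((2 : ℝ) ^ (n + 1))⁻¹ • (h + k)) (((2 : ℝ) ^ (n + 1))⁻¹ • (h - k))
  have e1 : x + ((2 : ℝ) ^ (n + 1))⁻¹ • (h + k) + ((2 : ℝ) ^ (n + 1))⁻¹ • (h - k) =
      x + ((2 : ℝ) ^ n)⁻¹ • h := by
    match_scalars <;> field_simp <;> ring
  have e2 : x + ((2 : ℝ) ^ (n + 1))⁻¹ • (h + k) - ((2 : ℝ) ^ (n + 1))⁻¹ • (h - k) =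
      x + ((2 : ℝ) ^ n)⁻¹ • k := by
    match_scalars <;> field_simp <;> ring
  rw [e1, e2, norm_smul, Real.norm_of_nonneg (by positivity)] at h1
  have e3 : c1_d f x n h + c1_d f x n k - c1_d f x (n + 1) (h + k) = (2 : ℝ) ^ n •
      (f (x + ((2 : ℝ) ^ n)⁻¹ • h) - (2 : ℝ) • f (x + ((2 : ℝ) ^ (n + 1))⁻¹ • (h + k)) +
        f (x + ((2 : ℝ) ^ n)⁻¹ • k)) := by
    unfold c1_d
    match_scalars <;> ring
  rw [e3, norm_smul, Real.norm_of_nonneg h2.le]
  refine (mul_le_mul_of_nonneg_left h1 h2.le).trans (le_of_eq ?_)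
  field_simp
  ring

omit [FiniteDimensional ℝ X] in
theorem c1_core {M : ℝ} {f : X → W} (hc : Continuous f)
    (hs : ∀ x h : X, ‖f (x + h) - (2 : ℝ) • f x + f (x - h)‖ ≤ M * ‖h‖ ^ 2) (x : X) :
    DifferentiableAt ℝ f x ∧
      ∀ n h, dist (c1_d f x n h) (fderiv ℝ f x h) ≤ M * ‖h‖ ^ 2 / 2 / 2 ^ n := by
  have h0 : ∀ n, c1_d f x n 0 = 0 := fun n => by simp [c1_d]
  have h1 : ∀ h n, dist (c1_d f x n h) (c1_d f x (n + 1) h) ≤ M * ‖h‖ ^ 2 / 2 / 2 / 2 ^ n := by
    intro h n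
    have := c1_jen hs x n h 0
    rwa [h0, add_zero, add_zero, sub_zero, ← dist_eq_norm] at this
  choose D hD using fun h => cauchySeq_tendsto_of_complete (cauchySeq_of_le_geometric_two (h1 h))
  have h2 : ∀ n h, dist (c1_d f x n h) (D h) ≤ M * ‖h‖ ^ 2 / 2 / 2 ^ n := fun n h =>
    dist_le_of_le_geometric_two_of_tendsto (h1 h) (hD h) n
  have h3 : ∀ h, ‖f (x + h) - f x - D h‖ ≤ M / 2 * ‖h‖ ^ 2 := fun h => by
    have := h2 0 h
    simp only [c1_d, pow_zero, inv_one, one_smul, div_one, dist_eq_norm] at this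
    linarith
  have h4 : ∀ h k, D (h + k) = D h + D k := by
    intro h k
    have t1 := (((hD h).add (hD k)).sub ((hD (h + k)).comp (tendsto_add_atTop_nat 1))).norm
    have t2 : Tendsto (fun n : ℕ => M * ‖h - k‖ ^ 2 / 2 / 2 / 2 ^ n) atTop (𝓝 0) :=
      tendsto_const_nhds.div_atTop (tendsto_pow_atTop_atTop_of_one_lt one_lt_two)
    have := le_of_tendsto_of_tendsto' t1 t2 fun n => c1_jen hs x n h k
    exact (sub_eq_zero.1 (norm_le_zero_iff.1 this)).symm
  have h5 : (fun h => f (x + h) - f x - D h) =o[𝓝 0] fun h => h :=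
    (Asymptotics.IsBigO.of_bound (M / 2) (Eventually.of_forall fun h => by
      rw [Real.norm_of_nonneg (sq_nonneg _)]
      exact h3 h)).trans_isLittleO (Asymptotics.isLittleO_norm_pow_id one_lt_two)
  have h6 : Continuous (AddMonoidHom.mk' D h4) := by
    refine continuous_of_tendsto_nhds_zero _ ?_
    have t1 : Tendsto (fun h => f (x + h) - f x) (𝓝 0) (𝓝 0) :=
      Continuous.tendsto' (by fun_prop) _ _ (by simp)
    have t2 := t1.sub (h5.trans_tendsto tendsto_id)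
    simp only [sub_sub_cancel, sub_zero] at t2
    exact t2
  have h7 : HasFDerivAt f ((AddMonoidHom.mk' D h4).toRealLinearMap h6) x :=
    hasFDerivAt_iff_isLittleO_nhds_zero.2 h5
  refine ⟨h7.differentiableAt, fun n h => ?_⟩
  rw [h7.fderiv]
  exact h2 n h

theorem sec_fderiv {T M : ℝ} {g : ℝ × X → W} (hc : ContinuousOn g (Icc 0 T ×ˢ univ))
    (hs : ∀ t ∈ Icc 0 T, ∀ x h : X,
      ‖g (t, x + h) - (2 : ℝ) • g (t, x) + g (t, x - h)‖ ≤ M * ‖h‖ ^ 2) :
    (∀ t ∈ Icc 0 T, Differentiable ℝ fun x => g (t, x)) ∧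
      ContinuousOn (fun p : ℝ × X => fderiv ℝ (fun x => g (p.1, x)) p.2) (Icc 0 T ×ˢ univ) := by
  have hk := fun t (ht : t ∈ Icc 0 T) => c1_core (f := fun x => g (t, x))
    (hc.comp_continuous (by fun_prop) fun x => ⟨ht, mem_univ _⟩) (hs t ht)
  refine ⟨fun t ht x => (hk t ht x).1, continuousOn_clm_apply.2 fun h => ?_⟩
  refine TendstoUniformlyOn.continuousOn (p := atTop)
    (F := fun (n : ℕ) (p : ℝ × X) => c1_d (fun x => g (p.1, x)) p.2 n h) ?_
    (Eventually.of_forall fun n => ?_).frequently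
  · refine Metric.tendstoUniformlyOn_iff.2 fun ε hε => ?_
    have t2 : Tendsto (fun n : ℕ => M * ‖h‖ ^ 2 / 2 / 2 ^ n) atTop (𝓝 0) :=
      tendsto_const_nhds.div_atTop (tendsto_pow_atTop_atTop_of_one_lt one_lt_two)
    filter_upwards [t2.eventually_lt_const hε] with n hn p hp
    rw [dist_comm]
    exact ((hk p.1 hp.1 p.2).2 n h).trans_lt hn
  · exact ((hc.comp (f := fun p : ℝ × X => (p.1, p.2 + ((2 : ℝ) ^ n)⁻¹ • h)) (by fun_prop)
      fun p hp => ⟨hp.1, mem_univ _⟩).sub hc).const_smul ((2 : ℝ) ^ n)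

theorem contDiffOn_of_partials {T : ℝ} (hT : 0 < T) {g gt : ℝ × X → W}
    (hd : ∀ t ∈ Icc 0 T, Differentiable ℝ fun x => g (t, x))
    (hx : ContinuousOn (fun p : ℝ × X => fderiv ℝ (fun x => g (p.1, x)) p.2) (Icc 0 T ×ˢ univ))
    (ht : ∀ t ∈ Icc 0 T, ∀ x, HasDerivWithinAt (fun s => g (s, x)) (gt (t, x)) (Icc 0 T) t)
    (hgt : ContinuousOn gt (Icc 0 T ×ˢ univ)) :
    ContDiffOn ℝ 1 g (Icc 0 T ×ˢ univ) := by
  refine (contDiffOn_succ_iff_hasFDerivWithinAt_of_uniqueDiffOn (n := 0)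
    ((uniqueDiffOn_Icc hT).prod uniqueDiffOn_univ)).2 ⟨by simp, fun p =>
      (fderiv ℝ (fun x => g (p.1, x)) p.2).comp (ContinuousLinearMap.snd ℝ ℝ X) +
        (ContinuousLinearMap.fst ℝ ℝ X).smulRight (gt p), contDiffOn_zero.2 ?_, ?_⟩
  · exact (hx.clm_comp continuousOn_const).add
      ((ContinuousLinearMap.smulRightL ℝ (ℝ × X) W
        (ContinuousLinearMap.fst ℝ ℝ X)).continuous.comp_continuousOn hgt)
  rintro ⟨t, x⟩ hp
  have h2 : HasFDerivWithinAt (fun q : ℝ × X => g (q.1, x))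
      ((ContinuousLinearMap.fst ℝ ℝ X).smulRight (gt (t, x))) (Icc 0 T ×ˢ univ) (t, x) :=
    HasFDerivWithinAt.comp (f := Prod.fst) (t, x) (ht t hp.1 x).hasFDerivWithinAt
      hasFDerivWithinAt_fst fun q hq => hq.1
  have h1 : HasFDerivWithinAt (fun q : ℝ × X => g q - g (q.1, x))
      ((fderiv ℝ (fun x => g (t, x)) x).comp (ContinuousLinearMap.snd ℝ ℝ X))
      (Icc 0 T ×ˢ univ) (t, x) := by
    rw [hasFDerivWithinAt_iff_isLittleO, Asymptotics.isLittleO_iff]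
    intro ε hε
    obtain ⟨δ, hδ, h3⟩ := Metric.continuousWithinAt_iff.1 (hx _ hp) ε hε
    filter_upwards [self_mem_nhdsWithin, mem_nhdsWithin_of_mem_nhds (Metric.ball_mem_nhds _ hδ)]
      with q hq hb
    rw [Metric.mem_ball, Prod.dist_eq, max_lt_iff] at hb
    have h4 := (convex_ball x δ).norm_image_sub_le_of_norm_fderiv_le'
      (f := fun y => g (q.1, y)) (φ := fderiv ℝ (fun x => g (t, x)) x) (C := ε)
      (fun y _ => hd q.1 hq.1 y) (fun y hy => by
        rw [← dist_eq_norm]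
        exact (h3 (x := (q.1, y)) ⟨hq.1, mem_univ _⟩
          (by rw [Prod.dist_eq, max_lt_iff]; exact ⟨hb.1, hy⟩)).le)
      (Metric.mem_ball_self hδ) hb.2
    rw [sub_self, sub_zero]
    exact h4.trans (mul_le_mul_of_nonneg_left (norm_snd_le (q - (t, x))) hε.le)
  have h5 := h1.fun_add h2
  simp only [sub_add_cancel] at h5
  exact h5

end Vale.Agent.P107
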