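import Vale.Agent.P107.ConeA

/-! BLOCK CT: the retarded time and the cone transfer (notes/P107.md). -/

namespace Vale.Agent.P107

open MeasureTheory Set Filter Topology
open scoped ContDiff RealInnerProductSpace ENNReal

variable {A : Fld} {Φ Ψ : ℝ → Z → Z}

theorem coneb_cm (hF : IsFlow A Φ Ψ) (σ : ℝ) (x : V3) (z : Z) :
    cm Φ (σ + ‖x - (Φ σ z).1‖) x z = (x - (Φ σ z).1, (Φ σ z).2) := by
  rw [cm, rt_unique hF (add_sub_cancel_left _ _)]

theorem coneb_inv (hF : IsFlow A Φ Ψ) (t : ℝ) (x : V3) (w : Z) :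
    cm Φ t x (Ψ (t - ‖w.1‖) (x - w.1, w.2)) = w := by
  have := coneb_cm hF (t - ‖w.1‖) x (Ψ (t - ‖w.1‖) (x - w.1, w.2))
  simpa only [hF.right, sub_sub_cancel, sub_add_cancel] using this

theorem coneb_one (hF : IsFlow A Φ Ψ) (x : V3) (z : Z) (H : ℝ → ℝ≥0∞) : ∫⁻ s, H s =
    ∫⁻ σ, ENNReal.ofReal (kap (x - (Φ σ z).1) (Φ σ z).2) * H (σ + ‖x - (Φ σ z).1‖) := by
  have hS : MeasurableSet {σ | x - (Φ σ z).1 = 0} :=
    (isClosed_eq (continuous_const.sub (cone_cont hF z).fst) continuous_const).measurableSet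
  have hi := (cone_mono hF x z).injective
  have hs : Function.Surjective fun σ => σ + ‖x - (Φ σ z).1‖ := fun t =>
    ⟨rt Φ t x z, (sub_eq_iff_eq_add'.1 (rt_spec hF t x z)).symm⟩
  have he : EqOn (fun σ => σ + ‖x - (Φ σ z).1‖) id {σ | x - (Φ σ z).1 = 0} := fun σ hσ => by
    simp only [show x - (Φ σ z).1 = 0 from hσ, norm_zero, add_zero, id]
  have h1 := lintegral_image_eq_lintegral_abs_deriv_mul hS
    (f' := fun σ => kap (x - (Φ σ z).1) (Φ σ z).2) (fun σ hσ => by
      refine ((hasDerivWithinAt_id σ _).congr he (he hσ)).congr_deriv ?_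
      simp [show x - (Φ σ z).1 = 0 from hσ, kap, nrm]) hi.injOn H
  have h2 := lintegral_image_eq_lintegral_abs_deriv_mul hS.compl
    (f' := fun σ => kap (x - (Φ σ z).1) (Φ σ z).2) (fun σ hσ => by
      refine (((hasDerivAt_id σ).add ((cone_norm hσ).comp_hasDerivAt σ
        ((hF.pos_deriv σ z).const_sub x))).congr_deriv ?_).hasDerivWithinAt
      rw [map_neg, innerSL_apply_apply, kap, sub_eq_add_neg 1]) hi.injOn H
  rw [image_compl_eq ⟨hi, hs⟩, he.image_eq_self] at h2
  rw [he.image_eq_self] at h1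
  simp only [abs_of_pos (kap_pos _ _)] at h1 h2
  rw [← lintegral_add_compl _ hS, h1, h2, lintegral_add_compl _ hS]

theorem coneb_two (hF : IsFlow A Φ Ψ) (x : V3) {G : ℝ × Z → ℝ≥0∞} (hG : Measurable G) :
    ∫⁻ s, ∫⁻ z, G (s, cm Φ s x z) = ∫⁻ s, ∫⁻ w, ENNReal.ofReal (kap w.1 w.2) * G (s, w) := by
  have c1 : Continuous fun p : ℝ × Z => cm Φ p.1 x p.2 :=
    (continuous_cm hF).comp ((continuous_fst.prodMk continuous_const).prodMk continuous_snd)
  have mk : Measurable fun w : Z => ENNReal.ofReal (kap w.1 w.2) := measurable_kap.ennreal_ofReal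
  have m1 : Measurable fun p : ℝ × Z =>
      ENNReal.ofReal (kap p.2.1 p.2.2) * G (p.1 + ‖p.2.1‖, p.2) :=
    (mk.comp measurable_snd).mul
      (hG.comp ((measurable_fst.add measurable_snd.fst.norm).prodMk measurable_snd))
  have mr : MeasurePreserving (fun z : Z => (x - z.1, z.2)) volume volume :=
    (Measure.measurePreserving_sub_left volume x).prod (MeasurePreserving.id volume)
  have m2 := m1.comp (measurable_fst.prodMk (mr.measurable.comp hF.contΦ.measurable))
  calc _ = ∫⁻ z, ∫⁻ s, G (s, cm Φ s x z) := lintegral_lintegral_swap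
        (f := fun s z => G (s, cm Φ s x z)) (hG.comp (measurable_fst.prodMk c1.measurable)).aemeasurable
    _ = ∫⁻ z, ∫⁻ σ, ENNReal.ofReal (kap (x - (Φ σ z).1) (Φ σ z).2) *
          G (σ + ‖x - (Φ σ z).1‖, (x - (Φ σ z).1, (Φ σ z).2)) := lintegral_congr fun z => by
        rw [coneb_one hF x z]
        simp only [coneb_cm hF]
    _ = ∫⁻ σ, ∫⁻ z, ENNReal.ofReal (kap (x - (Φ σ z).1) (Φ σ z).2) *
          G (σ + ‖x - (Φ σ z).1‖, (x - (Φ σ z).1, (Φ σ z).2)) := (lintegral_lintegral_swap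
        (f := fun σ z => ENNReal.ofReal (kap (x - (Φ σ z).1) (Φ σ z).2) *
          G (σ + ‖x - (Φ σ z).1‖, (x - (Φ σ z).1, (Φ σ z).2))) m2.aemeasurable).symm
    _ = ∫⁻ σ, ∫⁻ w : Z, ENNReal.ofReal (kap w.1 w.2) * G (σ + ‖w.1‖, w) := lintegral_congr fun σ =>
        (mr.comp (hF.mp σ)).lintegral_comp (m1.comp (measurable_prodMk_left (x := σ)))
    _ = ∫⁻ w : Z, ∫⁻ σ, ENNReal.ofReal (kap w.1 w.2) * G (σ + ‖w.1‖, w) := lintegral_lintegral_swap
        (f := fun σ (w : Z) => ENNReal.ofReal (kap w.1 w.2) * G (σ + ‖w.1‖, w)) m1.aemeasurable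
    _ = ∫⁻ w : Z, ∫⁻ s, ENNReal.ofReal (kap w.1 w.2) * G (s, w) := lintegral_congr fun w =>
        lintegral_add_right_eq_self (fun s => ENNReal.ofReal (kap w.1 w.2) * G (s, w)) ‖w.1‖
    _ = _ := (lintegral_lintegral_swap (f := fun s (w : Z) => ENNReal.ofReal (kap w.1 w.2) * G (s, w))
        ((mk.comp measurable_snd).mul hG).aemeasurable).symm

theorem coneb_ae (hF : IsFlow A Φ Ψ) (x : V3) {W : Set (ℝ × Z)} (hW : MeasurableSet W) :
    ∀ᵐ s, volume {z | (s, cm Φ s x z) ∈ W} =
      (volume : Measure Z).withDensity (fun w => ENNReal.ofReal (kap w.1 w.2)) {w | (s, w) ∈ W} := by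
  have c1 : Continuous fun p : ℝ × Z => cm Φ p.1 x p.2 :=
    (continuous_cm hF).comp ((continuous_fst.prodMk continuous_const).prodMk continuous_snd)
  have m1 := measurable_fst.prodMk c1.measurable hW
  refine ae_eq_of_forall_setLIntegral_eq_of_sigmaFinite (measurable_measure_prodMk_left m1)
    (measurable_measure_prodMk_left hW) fun T hT _ => ?_
  rw [← lintegral_indicator hT, ← lintegral_indicator hT]
  refine Eq.trans (lintegral_congr fun s => ?_) ((coneb_two hF x (G := (W ∩ Prod.fst ⁻¹' T).indicator 1)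
    (measurable_one.indicator (hW.inter (measurable_fst hT)))).trans
      (lintegral_congr fun s => ?_))
  · by_cases h : s ∈ T
    · have m2 : MeasurableSet {z | (s, cm Φ s x z) ∈ W} := measurable_prodMk_left m1
      rw [indicator_of_mem h, ← lintegral_indicator_one m2]
      refine lintegral_congr fun z => ?_
      by_cases k : (s, cm Φ s x z) ∈ W <;> simp [h, k]
    · simp [h]
  · by_cases h : s ∈ T
    · have m2 : MeasurableSet {w | (s, w) ∈ W} := measurable_prodMk_left hW
      rw [indicator_of_mem h, withDensity_apply _ m2, ← lintegral_indicator m2]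
      refine lintegral_congr fun z => ?_
      by_cases k : (s, z) ∈ W <;> simp [h, k]
    · simp [h]

theorem coneb_fatou {μ : Measure Z} {F : ℝ → Z → Z} (hF : ∀ z, Continuous fun s => F s z)
    {U : Set Z} (hU : IsOpen U) {c : ℝ≥0∞} (h : ∀ᵐ s, μ (F s ⁻¹' U) ≤ c) (t : ℝ) :
    μ (F t ⁻¹' U) ≤ c := by
  obtain ⟨s, h1, h2⟩ := mem_closure_iff_seq_limit.1 (Measure.dense_of_ae h t)
  have hm : Monotone fun N : ℕ => ⋂ n ≥ N, F (s n) ⁻¹' U := fun N N' hN =>
    biInter_subset_biInter_left fun n hn => hN.trans hn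
  refine (measure_mono (t := ⋃ N : ℕ, ⋂ n ≥ N, F (s n) ⁻¹' U) fun z hz => ?_).trans ?_
  · obtain ⟨N, hN⟩ := eventually_atTop.1 ((((hF z).tendsto t).comp h2).eventually (hU.mem_nhds hz))
    exact mem_iUnion.2 ⟨N, mem_iInter₂.2 hN⟩
  · rw [hm.measure_iUnion]
    exact iSup_le fun N => (measure_mono (biInter_subset_of_mem (le_refl N))).trans (h1 N)

theorem coneb_cont (hF : IsFlow A Φ Ψ) (t : ℝ) (x : V3) : Continuous (cm Φ t x) :=
  (continuous_cm hF).comp (Continuous.prodMk_right (t, x))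

/-- The cone transfer. -/
theorem map_cm (hF : IsFlow A Φ Ψ) (t : ℝ) (x : V3) :
    Measure.map (cm Φ t x) volume
      = (volume : Measure Z).withDensity fun w => ENNReal.ofReal (kap w.1 w.2) := by
  have c2 : Continuous fun p : ℝ × Z => Ψ (p.1 - ‖p.2.1‖) (x - p.2.1, p.2.2) :=
    hF.contΨ.comp ((continuous_fst.sub continuous_snd.fst.norm).prodMk
      ((continuous_const.sub continuous_snd.fst).prodMk continuous_snd.snd))
  symm
  refine Measure.ext_of_generateFrom_of_iUnion {V : Set Z | IsOpen V} (fun n => Metric.ball 0 n)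
    BorelSpace.measurable_eq isPiSystem_isOpen (Metric.iUnion_ball_nat 0)
    (fun _ => Metric.isOpen_ball (α := Z)) (fun n => ?_) fun V (hV : IsOpen V) => ?_
  · rw [withDensity_apply _ measurableSet_ball]
    refine ne_top_of_le_ne_top ?_ (lintegral_mono fun w => ENNReal.ofReal_le_ofReal (kap_le w.1 w.2))
    rw [setLIntegral_const]
    exact ENNReal.mul_ne_top ENNReal.ofReal_ne_top measure_ball_lt_top.ne
  · rw [Measure.map_apply (coneb_cont hF t x).measurable hV.measurableSet]
    refine le_antisymm ?_ (coneb_fatou (F := fun s => cm Φ s x) (fun z => (continuous_cm hF).comp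
      ((Continuous.prodMk_left x).prodMk continuous_const)) hV ?_ t)
    · have hU := hV.preimage (coneb_cont hF t x)
      refine le_trans (measure_mono fun w hw => ?_) (coneb_fatou
        (F := fun s w => Ψ (s - ‖w.1‖) (x - w.1, w.2))
        (fun w => c2.comp (Continuous.prodMk_left w)) hU ?_ t)
      · rwa [mem_preimage, mem_preimage, coneb_inv hF]
      · filter_upwards [coneb_ae hF x (c2.measurable hU.measurableSet)] with s hs
        simp only [mem_preimage, psi_cm hF] at hs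
        exact hs.ge
    · filter_upwards [coneb_ae hF x (measurable_snd hV.measurableSet)] with s hs
      exact hs.le

theorem lintegral_cm (hF : IsFlow A Φ Ψ) (t : ℝ) (x : V3) {g : Z → ℝ≥0∞} (hg : Measurable g) :
    ∫⁻ z, g (cm Φ t x z) = ∫⁻ w, ENNReal.ofReal (kap w.1 w.2) * g w := by
  rw [← lintegral_map hg (coneb_cont hF t x).measurable, map_cm hF,
    lintegral_withDensity_eq_lintegral_mul _ measurable_kap.ennreal_ofReal hg]
  rfl

theorem integral_cm (hF : IsFlow A Φ Ψ) (t : ℝ) (x : V3) {E : Type} [NormedAddCommGroup E]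
    [NormedSpace ℝ E] {g : Z → E} (hg : AEStronglyMeasurable g volume) :
    ∫ z, g (cm Φ t x z) = ∫ w, kap w.1 w.2 • g w := by
  rw [← integral_map (coneb_cont hF t x).measurable.aemeasurable
    (map_cm hF t x ▸ hg.mono_ac (withDensity_absolutelyContinuous _ _)), map_cm hF,
    integral_withDensity_eq_integral_toReal_smul measurable_kap.ennreal_ofReal
      (Eventually.of_forall fun _ => ENNReal.ofReal_lt_top)]
  simp only [ENNReal.toReal_ofReal (kap_pos _ _).le]

end Vale.Agent.P107
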