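import Vale.Agent.P107.Bas2

/-! BLOCK CT, part a: the retarded time (notes/P107.md). -/

namespace Vale.Agent.P107

open MeasureTheory Set Filter Topology
open scoped ContDiff RealInnerProductSpace ENNReal

variable {A : Fld} {Φ Ψ : ℝ → Z → Z}

theorem cone_mono (hF : IsFlow A Φ Ψ) (x : V3) (z : Z) :
    StrictMono fun σ => σ + ‖x - (Φ σ z).1‖ := fun a b hab => by
  have h1 := hF.pos_lt hab z
  have h2 := norm_sub_le_norm_sub_add_norm_sub x (Φ b z).1 (Φ a z).1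
  show a + ‖x - (Φ a z).1‖ < b + ‖x - (Φ b z).1‖
  linarith

theorem cone_cont (hF : IsFlow A Φ Ψ) (z : Z) : Continuous fun σ => Φ σ z :=
  hF.contΦ.comp (Continuous.prodMk_left z)

theorem rt_spec (hF : IsFlow A Φ Ψ) (t : ℝ) (x : V3) (z : Z) :
    t - rt Φ t x z = ‖x - (Φ (rt Φ t x z) z).1‖ := by
  refine Classical.epsilon_spec (p := fun σ : ℝ => t - σ = ‖x - (Φ σ z).1‖) ?_
  have h1 := sub_pos.2 (norm_u_lt z.2)
  have hc : Continuous fun σ => σ + ‖x - (Φ σ z).1‖ :=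
    continuous_id.add (continuous_const.sub (cone_cont hF z).fst).norm
  obtain ⟨a, a0, ha⟩ : ∃ a : ℝ, 0 ≤ a ∧ a * (1 - ‖u z.2‖) = |t - ‖x - z.1‖| :=
    ⟨_, by positivity, div_mul_cancel₀ _ h1.ne'⟩
  have h3 : -a + ‖x - (Φ (-a) z).1‖ ≤ t := by
    have h2 := norm_sub_le (x - z.1) (-a • u z.2)
    rw [norm_smul, norm_neg, Real.norm_of_nonneg a0, sub_sub] at h2
    simp only [hF.free (-a) (neg_nonpos.2 a0)]
    linarith [neg_abs_le (t - ‖x - z.1‖)]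
  obtain ⟨σ, hσ⟩ := intermediate_value_univ (-a) t hc
    ⟨h3, le_add_of_nonneg_right (norm_nonneg _)⟩
  exact ⟨σ, sub_eq_of_eq_add' hσ.symm⟩

theorem rt_unique (hF : IsFlow A Φ Ψ) {t σ : ℝ} {x : V3} {z : Z}
    (h : t - σ = ‖x - (Φ σ z).1‖) : rt Φ t x z = σ := by
  exact (cone_mono hF x z).injective
    ((sub_eq_iff_eq_add'.1 (rt_spec hF t x z)).symm.trans (sub_eq_iff_eq_add'.1 h))

theorem cone_lt (hF : IsFlow A Φ Ψ) {t a : ℝ} {x : V3} {z : Z} :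
    a < rt Φ t x z ↔ a + ‖x - (Φ a z).1‖ < t := by
  rw [← (cone_mono hF x z).lt_iff_lt, ← sub_eq_iff_eq_add'.1 (rt_spec hF t x z)]

theorem cone_gt (hF : IsFlow A Φ Ψ) {t a : ℝ} {x : V3} {z : Z} :
    rt Φ t x z < a ↔ t < a + ‖x - (Φ a z).1‖ := by
  rw [← (cone_mono hF x z).lt_iff_lt, ← sub_eq_iff_eq_add'.1 (rt_spec hF t x z)]

theorem continuous_rt (hF : IsFlow A Φ Ψ) :
    Continuous fun p : (ℝ × V3) × Z => rt Φ p.1.1 p.1.2 p.2 := by
  have hc : ∀ a : ℝ, Continuous fun p : (ℝ × V3) × Z => a + ‖p.1.2 - (Φ a p.2).1‖ := fun a =>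
    continuous_const.add (continuous_fst.snd.sub
      (hF.contΦ.comp ((Continuous.prodMk_right a).comp continuous_snd)).fst).norm
  refine continuous_iff_continuousAt.2 fun p => tendsto_order.2 ⟨fun a ha => ?_, fun a ha => ?_⟩
  · simp only [cone_lt hF] at ha ⊢
    exact (hc a).continuousAt.eventually_lt continuous_fst.fst.continuousAt ha
  · simp only [cone_gt hF] at ha ⊢
    exact continuous_fst.fst.continuousAt.eventually_lt (hc a).continuousAt ha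

theorem continuous_cm (hF : IsFlow A Φ Ψ) :
    Continuous fun p : (ℝ × V3) × Z => cm Φ p.1.1 p.1.2 p.2 := by
  have h := hF.contΦ.comp ((continuous_rt hF).prodMk continuous_snd)
  exact (continuous_fst.snd.sub h.fst).prodMk h.snd

theorem rt_eq (hF : IsFlow A Φ Ψ) (t : ℝ) (x : V3) (z : Z) :
    rt Φ t x z = t - ‖(cm Φ t x z).1‖ := by
  have h := rt_spec hF t x z
  rw [cm, ← h, sub_sub_cancel]

theorem psi_cm (hF : IsFlow A Φ Ψ) (t : ℝ) (x : V3) (z : Z) :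
    Ψ (t - ‖(cm Φ t x z).1‖) (x - (cm Φ t x z).1, (cm Φ t x z).2) = z := by
  rw [← rt_eq hF, cm, sub_sub_cancel]
  exact hF.left _ z

theorem cone_half (hF : IsFlow A Φ Ψ) {t t' P : ℝ} {x x' : V3} {z : Z}
    (hq : ∀ σ, σ ≤ t → q (Φ σ z).2 ≤ P) (h : rt Φ t' x' z ≤ rt Φ t x z) :
    rt Φ t x z - rt Φ t' x' z ≤ 2 * P ^ 2 * (|t - t'| + ‖x - x'‖) := by
  have h1 := rt_spec hF t x z
  have h2 := rt_spec hF t' x' z
  have h3 : rt Φ t x z ≤ t := sub_nonneg.1 (h1 ▸ norm_nonneg _)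
  have h4 := hF.pos_le_of_q h z fun σ hσ => hq σ (hσ.2.trans h3)
  have h5 : 0 < P := (q_pos _).trans_le (hq t le_rfl)
  have h6 := norm_sub_le_norm_sub_add_norm_sub x' x (Φ (rt Φ t' x' z) z).1
  have h7 := norm_sub_le_norm_sub_add_norm_sub x (Φ (rt Φ t x z) z).1 (Φ (rt Φ t' x' z) z).1
  rw [norm_sub_rev x' x] at h6
  rw [← inv_mul_le_iff₀ (by positivity)]
  linarith [le_abs_self (t - t')]

/-- The retarded time is Lipschitz in the field point when the energy is bounded in between. -/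
theorem rt_sub_le (hF : IsFlow A Φ Ψ) {t t' P : ℝ} {x x' : V3} {z : Z}
    (hq : ∀ σ, σ ≤ max t t' → q (Φ σ z).2 ≤ P) :
    |rt Φ t x z - rt Φ t' x' z| ≤ 2 * P ^ 2 * (|t - t'| + ‖x - x'‖) := by
  rcases le_total (rt Φ t' x' z) (rt Φ t x z) with h | h
  · rw [abs_of_nonneg (sub_nonneg.2 h)]
    exact cone_half hF (fun σ hσ => hq σ (hσ.trans (le_max_left _ _))) h
  · rw [abs_sub_comm, abs_of_nonneg (sub_nonneg.2 h), abs_sub_comm, norm_sub_rev]
    exact cone_half hF (fun σ hσ => hq σ (hσ.trans (le_max_right _ _))) h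

/-- Along a characteristic the retarded time is strictly increasing. -/
theorem rt_strictMono (hF : IsFlow A Φ Ψ) (z0 z : Z) :
    StrictMono fun s => rt Φ s (Φ s z0).1 z := by
  intro s s' h
  have h1 := hF.pos_lt h z0
  have h2 := rt_spec hF s (Φ s z0).1 z
  have h3 := norm_sub_le_norm_sub_add_norm_sub (Φ s' z0).1 (Φ s z0).1 (Φ (rt Φ s (Φ s z0).1 z) z).1
  exact (cone_lt hF).2 (by linarith)

theorem cone_norm {D : V3} (h : D ≠ 0) : HasFDerivAt (fun v : V3 => ‖v‖) (innerSL ℝ (nrm D)) D := by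
  have h0 := norm_pos_iff.2 h
  have h1 := (hasStrictFDerivAt_norm_sq D).hasFDerivAt.sqrt (pow_ne_zero 2 h0.ne')
  simp only [Real.sqrt_sq (norm_nonneg _)] at h1
  refine h1.congr_fderiv ?_
  ext v
  simp only [nrm, smul_apply, innerSL_apply_apply, real_inner_smul_left, smul_eq_mul, nsmul_eq_mul,
    Nat.cast_ofNat]
  field_simp

/-- Derivative of the retarded time along a characteristic. -/
theorem rt_hasDerivAt (hF : IsFlow A Φ Ψ) (z0 z : Z) {s : ℝ}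
    (h : (cm Φ s (Φ s z0).1 z).1 ≠ 0) :
    HasDerivAt (fun s => rt Φ s (Φ s z0).1 z)
      (kap (cm Φ s (Φ s z0).1 z).1 (Φ s z0).2 / kap (cm Φ s (Φ s z0).1 z).1 (cm Φ s (Φ s z0).1 z).2) s := by
  have k0 := (kap_pos (cm Φ s (Φ s z0).1 z).1 (cm Φ s (Φ s z0).1 z).2).ne'
  have n1 := cone_norm h
  have cg : Continuous fun p : ℝ × ℝ => (p.1, rt Φ p.2 (Φ p.1 z0).1 z) :=
    continuous_fst.prodMk ((continuous_rt hF).comp ((continuous_snd.prodMk
      ((cone_cont hF z0).fst.comp continuous_fst)).prodMk continuous_const))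
  simp only [cm] at k0 n1 ⊢
  have d1 := hF.pos_deriv s z0
  have d2 := hF.pos_deriv (rt Φ s (Φ s z0).1 z) z
  have d1' := d1.hasFDerivAt.comp (s, rt Φ s (Φ s z0).1 z) (f := Prod.fst) hasFDerivAt_fst
  have d2' := d2.hasFDerivAt.comp (s, rt Φ s (Φ s z0).1 z) (f := Prod.snd) hasFDerivAt_snd
  have d3 : HasFDerivAt (fun p : ℝ × ℝ => (p.1, p.2 + ‖(Φ p.1 z0).1 - (Φ p.2 z).1‖)) _
      (s, rt Φ s (Φ s z0).1 z) :=
    hasFDerivAt_fst.prodMk (hasFDerivAt_snd.add (n1.comp (s, rt Φ s (Φ s z0).1 z)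
      (f := fun p : ℝ × ℝ => (Φ p.1 z0).1 - (Φ p.2 z).1) (d1'.sub d2')))
  obtain ⟨T, d3, t1⟩ : ∃ T : ℝ × ℝ →L[ℝ] ℝ × ℝ,
      HasFDerivAt (fun p : ℝ × ℝ => (p.1, p.2 + ‖(Φ p.1 z0).1 - (Φ p.2 z).1‖)) T
        (s, rt Φ s (Φ s z0).1 z) ∧ ∀ a b : ℝ, T (a, b) =
      (a, a * (1 - kap ((Φ s z0).1 - (Φ (rt Φ s (Φ s z0).1 z) z).1) (Φ s z0).2) +
        b * kap ((Φ s z0).1 - (Φ (rt Φ s (Φ s z0).1 z) z).1) (Φ (rt Φ s (Φ s z0).1 z) z).2) := by
    refine ⟨_, d3, fun a b => ?_⟩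
    simp [kap]
    ring
  have t2 : Function.Injective T := (injective_iff_map_eq_zero T).2 fun p hp => by
    rw [show p = (p.1, p.2) from rfl, t1, Prod.mk_eq_zero] at hp
    obtain ⟨e1, e2⟩ := hp
    rw [e1, zero_mul, zero_add] at e2
    exact Prod.ext e1 ((mul_eq_zero.1 e2).resolve_right k0)
  let T' : (ℝ × ℝ) ≃L[ℝ] ℝ × ℝ :=
    (LinearEquiv.ofInjectiveEndo (T : ℝ × ℝ →ₗ[ℝ] ℝ × ℝ) t2).toContinuousLinearEquiv
  have d4 := HasFDerivAt.of_local_left_inverse (f' := T') (a := (s, s)) cg.continuousAt d3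
    (Eventually.of_forall fun p => Prod.ext rfl (sub_eq_iff_eq_add'.1 (rt_spec hF _ _ _)).symm)
  have d5 := (hasFDerivAt_snd.comp (s, s) d4).comp_hasDerivAt s (f := fun s => (s, s))
    ((hasDerivAt_id s).prodMk (hasDerivAt_id s))
  refine d5.congr_deriv ?_
  have t3 : T (T'.symm (1, 1)) = (1, 1) := T'.apply_symm_apply _
  rw [show T'.symm (1, 1) = ((T'.symm (1, 1)).1, (T'.symm (1, 1)).2) from rfl, t1,
    Prod.mk.injEq] at t3
  obtain ⟨e1, e2⟩ := t3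
  rw [e1] at e2
  rw [eq_div_iff k0]
  show (T'.symm (1, 1)).2 * _ = _
  linarith

end Vale.Agent.P107
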