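import Vale.Agent.P107.Defs

/-! Internal definitions of the P107 project (see notes/P107.md). Do not change this file. -/

namespace Vale.Agent.P107

open MeasureTheory Set Filter Topology
open scoped ContDiff RealInnerProductSpace ENNReal

/-- Phase space (sup norm of the product). -/
abbrev Z := V3 × V3

/-- A space-time field `(E, B)`. -/
abbrev Fld := ℝ × V3 → V3 × V3

/-- The Lorentz force. -/
noncomputable def lor (F : V3 × V3) (v : V3) : V3 := F.1 + cross (u v) F.2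

/-- The characteristic vector field. -/
noncomputable def vf (A : Fld) (t : ℝ) (z : Z) : Z := (u z.2, lor (A (t, z.1)) z.2)

/-- An applied field: globally bounded by `R` and globally Lipschitz. -/
structure App (A : Fld) (R : ℝ) : Prop where
  bdd : ∀ p, ‖A p‖ ≤ R
  lip : ∃ L : ℝ, ∀ p p', ‖A p - A p'‖ ≤ L * ‖p - p'‖

/-- The characteristic flow from time `0` (free streaming for negative times) and its inverse. -/
structure IsFlow (A : Fld) (Φ Ψ : ℝ → Z → Z) : Prop where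
  free : ∀ t, t ≤ 0 → ∀ z, Φ t z = (z.1 + t • u z.2, z.2)
  deriv : ∀ t, 0 ≤ t → ∀ z, HasDerivWithinAt (fun s => Φ s z) (vf A t (Φ t z)) (Ici 0) t
  left : ∀ t z, Ψ t (Φ t z) = z
  right : ∀ t z, Φ t (Ψ t z) = z
  contΦ : Continuous fun p : ℝ × Z => Φ p.1 p.2
  contΨ : Continuous fun p : ℝ × Z => Ψ p.1 p.2
  mp : ∀ t, MeasurePreserving (Φ t) volume volume

/-- The transported density. -/
def dens (f0 : Z → ℝ) (Ψ : ℝ → Z → Z) (t : ℝ) (z : Z) : ℝ := f0 (Ψ t z)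

/-- Quantitative hypotheses on the initial density. -/
structure Init (f0 : Z → ℝ) (N P0 : ℝ) : Prop where
  smooth : ContDiff ℝ ∞ f0
  nonneg : ∀ z, 0 ≤ f0 z
  le : ∀ z, f0 z ≤ N
  one_le_N : 1 ≤ N
  one_le_P0 : 1 ≤ P0
  supp : ∀ z, f0 z ≠ 0 → ‖z.1‖ ≤ P0 ∧ q z.2 ≤ P0
  lip : ∀ z z', |f0 z - f0 z'| ≤ N * ‖z - z'‖
  sec : ∀ z h, |f0 (z + h) - 2 * f0 z + f0 (z - h)| ≤ N * ‖h‖ ^ 2

/-- The unit vector in the direction `D` (zero for `D = 0`). -/
noncomputable def nrm (D : V3) : V3 := ‖D‖⁻¹ • D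

/-- `1 - n . u(v)`. -/
noncomputable def kap (D v : V3) : ℝ := 1 - ⟪nrm D, u v⟫

/-- The derivative of the velocity `u(w)` along a characteristic in the field `F`. -/
noncomputable def acc (F : V3 × V3) (v : V3) : V3 :=
  (q v)⁻¹ • (lor F v - ⟪u v, lor F v⟫ • u v)

/-- The velocity part of the electric kernel. -/
noncomputable def eT (D v : V3) : V3 :=
  (4 * Real.pi * q v ^ 2 * kap D v ^ 2 * ‖D‖ ^ 2)⁻¹ • (nrm D - u v)

/-- The acceleration part of the electric kernel. -/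
noncomputable def eS (D v : V3) (F : V3 × V3) : V3 :=
  (4 * Real.pi * kap D v ^ 2 * ‖D‖)⁻¹ •
    (⟪nrm D, acc F v⟫ • (nrm D - u v) - kap D v • acc F v)

/-- The Glassey-Strauss kernel `(e, n × e)`. -/
noncomputable def ker (D v : V3) (F : V3 × V3) : V3 × V3 :=
  (eT D v + eS D v F, cross (nrm D) (eT D v + eS D v F))

/-- The part of the retarded field created at times `≥ 0`. -/
noncomputable def intF (f : ℝ → Z → ℝ) (A : Fld) (p : ℝ × V3) : V3 × V3 :=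
  ∫ w in {w : Z | ‖w.1‖ ≤ p.1},
    f (p.1 - ‖w.1‖) (p.2 - w.1, w.2) • ker w.1 w.2 (A (p.1 - ‖w.1‖, p.2 - w.1))

/-- The part of the retarded field created by the free streaming at negative times. -/
noncomputable def farF (f0 : Z → ℝ) (p : ℝ × V3) : V3 × V3 :=
  ∫ w in {w : Z | p.1 < ‖w.1‖},
    f0 (p.2 - w.1 - (p.1 - ‖w.1‖) • u w.2, w.2) • ker w.1 w.2 0

/-- The time slab. -/
def slab (T : ℝ) : Set (ℝ × V3) := Icc 0 T ×ˢ univ

/-- Bounded, Lipschitz, with bounded second differences in space, on the slab. -/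
structure Reg (K : Fld) (T M : ℝ) : Prop where
  bdd : ∀ p ∈ slab T, ‖K p‖ ≤ M
  lip : ∀ p ∈ slab T, ∀ p' ∈ slab T, ‖K p - K p'‖ ≤ M * ‖p - p'‖
  sec : ∀ t ∈ Icc 0 T, ∀ x h : V3,
    ‖K (t, x + h) - (2 : ℝ) • K (t, x) + K (t, x - h)‖ ≤ M * ‖h‖ ^ 2

/-- Classical Maxwell equations on the slab with the sources of `f`. -/
structure MaxOn (T : ℝ) (f : ℝ → Z → ℝ) (K : Fld) : Prop where
  c1 : ContDiffOn ℝ 1 K (slab T)
  amp : ∀ t ∈ Icc 0 T, ∀ x, HasDerivWithinAt (fun s => (K (s, x)).1)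
    (curl (fun y => (K (t, y)).2) x - ∫ v, f t (x, v) • u v) (Icc 0 T) t
  far : ∀ t ∈ Icc 0 T, ∀ x, HasDerivWithinAt (fun s => (K (s, x)).2)
    (-curl (fun y => (K (t, y)).1) x) (Icc 0 T) t
  gE : ∀ t ∈ Icc 0 T, ∀ x, div (fun y => (K (t, y)).1) x = ∫ v, f t (x, v)
  gB : ∀ t ∈ Icc 0 T, ∀ x, div (fun y => (K (t, y)).2) x = 0

/-- Classical Vlasov equation on `[0,T]`. -/
structure VlaOn (T : ℝ) (f : ℝ → Z → ℝ) (A : Fld) : Prop where
  c1 : ContDiffOn ℝ 1 (fun p : ℝ × Z => f p.1 p.2) (Icc 0 T ×ˢ univ)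
  eq : ∀ t ∈ Icc 0 T, ∀ x v, HasDerivWithinAt (fun s => f s (x, v))
    (-(fderiv ℝ (fun y => f t (y, v)) x (u v) + fderiv ℝ (fun w => f t (x, w)) v (lor (A (t, x)) v)))
    (Icc 0 T) t

/-- `A` satisfies the representation formula on the slab (a true solution up to time `T`). -/
def Rep (f0 : Z → ℝ) (dat A : Fld) (Ψ : ℝ → Z → Z) (T : ℝ) : Prop :=
  ∀ p ∈ slab T, A p = dat p + intF (dens f0 Ψ) A p

/-- The field components whose square is the energy flux through backward light cones. -/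
noncomputable def gfl (D : V3) (F : V3 × V3) : ℝ :=
  Real.sqrt (⟪nrm D, F.1⟫ ^ 2 + ⟪nrm D, F.2⟫ ^ 2
    + ‖F.1 - ⟪nrm D, F.1⟫ • nrm D + cross (nrm D) F.2‖ ^ 2)

/-- The energy inequalities on `[0,T]`. -/
structure Ener (f0 : Z → ℝ) (A : Fld) (Φ Ψ : ℝ → Z → Z) (T En : ℝ) : Prop where
  sliceF : ∀ t ∈ Icc 0 T, ∫⁻ x, ENNReal.ofReal (‖A (t, x)‖ ^ 2) ≤ ENNReal.ofReal En
  sliceP : ∀ t ∈ Icc 0 T, ∫⁻ z, ENNReal.ofReal (q (Φ t z).2 * f0 z) ≤ ENNReal.ofReal En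
  coneF : ∀ s ∈ Icc 0 T, ∀ x : V3, ∫⁻ D in {D : V3 | ‖D‖ ≤ s},
    ENNReal.ofReal (gfl D (A (s - ‖D‖, x - D)) ^ 2) ≤ ENNReal.ofReal En
  coneP : ∀ s ∈ Icc 0 T, ∀ x : V3, ∫⁻ w in {w : Z | ‖w.1‖ ≤ s},
    ENNReal.ofReal (kap w.1 w.2 * q w.2 * dens f0 Ψ (s - ‖w.1‖) (x - w.1, w.2)) ≤ ENNReal.ofReal En

/-- A true solution on `[0,T]`, with everything the a-priori estimate uses. -/
structure Sol (f0 : Z → ℝ) (N P0 K0 En T : ℝ) (dat A : Fld) (Φ Ψ : ℝ → Z → Z) : Prop where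
  init : Init f0 N P0
  app : ∃ R, App A R
  flow : IsFlow A Φ Ψ
  rep : Rep f0 dat A Ψ T
  dat_bdd : ∀ p ∈ slab T, ‖dat p‖ ≤ K0
  ener : Ener f0 A Φ Ψ T En
  one_le_En : 1 ≤ En

/-- The retarded time of the characteristic starting at `z`, seen from `(t, x)`. -/
noncomputable def rt (Φ : ℝ → Z → Z) (t : ℝ) (x : V3) (z : Z) : ℝ :=
  Classical.epsilon fun σ : ℝ => t - σ = ‖x - (Φ σ z).1‖

/-- The cone map `z ↦ (D, w)`: relative position and momentum at the retarded time. -/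
noncomputable def cm (Φ : ℝ → Z → Z) (t : ℝ) (x : V3) (z : Z) : Z :=
  (x - (Φ (rt Φ t x z) z).1, (Φ (rt Φ t x z) z).2)

end Vale.Agent.P107
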