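import Vale.Agent.P107.DM0

/-! Change of variables `s ↦ s - ‖X s - y‖` at fixed `y`.

Plan. For fixed s substitute D = X s - y (lintegral_sub_left_eq_self), swap the integrals. For fixed y the map s ↦ s - ‖X s - y‖ is strictly increasing
(pos_lt) with derivative kap (X s - y) (V s) where X s ≠ y, and derivative 1 = kap 0 _ within {s | X s = y}; use
lintegral_image_eq_lintegral_abs_deriv_mul on both pieces (or discard D = 0, a null set for every s, before swapping). The image lies in Icc (max 0 (a-ρ)) b. -/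

namespace Vale.Agent.P107

open MeasureTheory Set Filter Topology
open scoped RealInnerProductSpace ENNReal

variable {f0 : Z → ℝ} {N P0 K0 En T c P T' qq a b : ℝ} {dat A : Fld} {Φ Ψ : ℝ → Z → Z} {z0 : Z}


theorem DCov_one (hF : IsFlow A Φ Ψ) (y : V3) (z : Z) (H : ℝ → ℝ≥0∞) :
    ∫⁻ s, ENNReal.ofReal (kap ((Φ s z).1 - y) (Φ s z).2) * H (s - ‖(Φ s z).1 - y‖) ≤ ∫⁻ σ, H σ := by
  have hS : MeasurableSet {s | (Φ s z).1 - y = 0} :=
    (isClosed_eq ((cone_cont hF z).fst.sub continuous_const) continuous_const).measurableSet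
  have hi : Function.Injective fun s => s - ‖(Φ s z).1 - y‖ := StrictMono.injective fun s t h => by
    have h1 := hF.pos_lt h z
    have h2 := norm_sub_le_norm_sub_add_norm_sub (Φ t z).1 (Φ s z).1 y
    show s - ‖(Φ s z).1 - y‖ < t - ‖(Φ t z).1 - y‖
    linarith
  have he : EqOn (fun s => s - ‖(Φ s z).1 - y‖) id {s | (Φ s z).1 - y = 0} := fun s hs => by
    simp only [show (Φ s z).1 - y = 0 from hs, norm_zero, sub_zero, id]
  have h1 := lintegral_image_eq_lintegral_abs_deriv_mul hS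
    (f' := fun s => kap ((Φ s z).1 - y) (Φ s z).2) (fun s hs => by
      refine ((hasDerivWithinAt_id s _).congr he (he hs)).congr_deriv ?_
      simp [show (Φ s z).1 - y = 0 from hs, kap, nrm]) hi.injOn H
  have h2 := lintegral_image_eq_lintegral_abs_deriv_mul hS.compl
    (f' := fun s => kap ((Φ s z).1 - y) (Φ s z).2) (fun s hs =>
      ((hasDerivAt_id s).sub ((cone_norm hs).comp_hasDerivAt s
        ((hF.pos_deriv s z).sub_const y))).hasDerivWithinAt) hi.injOn H
  rw [he.image_eq_self] at h1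
  simp only [abs_of_pos (kap_pos _ _)] at h1 h2
  rw [← lintegral_add_compl _ hS, ← h1, ← h2]
  refine (add_le_add le_rfl (lintegral_mono_set ?_)).trans_eq (lintegral_add_compl H hS)
  rintro _ ⟨s, hs, rfl⟩ h3
  exact hs ((congrArg (· ∈ {s | (Φ s z).1 - y = 0}) (hi (he h3))).mp h3)

theorem DCov_two (hF : IsFlow A Φ Ψ) (z : Z) {h : ℝ × V3 → ℝ≥0∞} (hh : Measurable h) :
    ∫⁻ s, ∫⁻ D, ENNReal.ofReal (kap D (Φ s z).2) * h (s - ‖D‖, (Φ s z).1 - D) ≤
      ∫⁻ σ, ∫⁻ y, h (σ, y) := by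
  have m0 : Measurable fun p : ℝ × V3 => Φ p.1 z := (cone_cont hF z).measurable.comp measurable_fst
  have m1 : Measurable fun p : ℝ × V3 => (Φ p.1 z).1 - p.2 := m0.fst.sub measurable_snd
  calc _ = ∫⁻ s, ∫⁻ y, ENNReal.ofReal (kap ((Φ s z).1 - y) (Φ s z).2) *
        h (s - ‖(Φ s z).1 - y‖, y) := lintegral_congr fun s => by
        rw [← lintegral_sub_left_eq_self _ (Φ s z).1]
        simp only [sub_sub_cancel]
    _ = ∫⁻ y, ∫⁻ s, ENNReal.ofReal (kap ((Φ s z).1 - y) (Φ s z).2) *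
        h (s - ‖(Φ s z).1 - y‖, y) := lintegral_lintegral_swap
        ((measurable_kap.comp (m1.prodMk m0.snd)).ennreal_ofReal.mul
          (hh.comp ((measurable_fst.sub m1.norm).prodMk measurable_snd))).aemeasurable
    _ ≤ ∫⁻ y, ∫⁻ σ, h (σ, y) := lintegral_mono fun y => DCov_one hF y z fun σ => h (σ, y)
    _ = _ := (lintegral_lintegral_swap (f := fun σ y => h (σ, y)) hh.aemeasurable).symm

theorem DCov_set (s ρ : ℝ) : MeasurableSet {D : V3 | ‖D‖ ≤ s ∧ ‖D‖ ≤ ρ} :=
  (measurableSet_le measurable_norm measurable_const).inter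
    (measurableSet_le measurable_norm measurable_const)

theorem DCov_slab (hE : 1 ≤ En) (hb : b ≤ T) {ρ : ℝ} {G : ℝ → ℝ≥0∞}
    (h : ∀ t ∈ Icc 0 T, G t ≤ ENNReal.ofReal En) :
    ∫⁻ σ in Icc (max 0 (a - ρ)) b, G σ ≤ ENNReal.ofReal ((b - a + ρ) * En) := by
  refine (setLIntegral_mono' measurableSet_Icc fun t ht =>
    h t ⟨(le_max_left _ _).trans ht.1, ht.2.trans hb⟩).trans ?_
  rw [setLIntegral_const, Real.volume_Icc, mul_comm _ En,
    ENNReal.ofReal_mul (zero_le_one.trans hE)]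
  gcongr
  linarith [le_max_right 0 (a - ρ)]

theorem cov_fixed (hF : IsFlow A Φ Ψ) (ρ : ℝ) {h : ℝ × V3 → ℝ≥0∞} (hh : Measurable h) :
    ∫⁻ s in Ioc a b, ∫⁻ D in {D : V3 | ‖D‖ ≤ s ∧ ‖D‖ ≤ ρ},
        ENNReal.ofReal (kap D (Φ s z0).2) * h (s - ‖D‖, (Φ s z0).1 - D)
      ≤ ∫⁻ σ in Icc (max 0 (a - ρ)) b, ∫⁻ y, h (σ, y) := by
  refine le_trans ?_ ((DCov_two hF z0
    (hh.indicator (measurable_fst (measurableSet_Icc (a := max 0 (a - ρ)) (b := b))))).trans_eq ?_)
  · refine (setLIntegral_mono' measurableSet_Ioc fun s hs => ?_).trans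
      (setLIntegral_le_lintegral _ _)
    refine (setLIntegral_mono' (DCov_set s ρ) fun D hD => ?_).trans (setLIntegral_le_lintegral _ _)
    rw [indicator_of_mem]
    exact ⟨max_le (sub_nonneg.2 hD.1) (sub_le_sub hs.1.le hD.2),
      (sub_le_self _ (norm_nonneg _)).trans hs.2⟩
  · rw [← lintegral_indicator measurableSet_Icc]
    refine lintegral_congr fun σ => ?_
    by_cases hσ : σ ∈ Icc (max 0 (a - ρ)) b
    · rw [indicator_of_mem hσ]
      exact lintegral_congr fun y => indicator_of_mem (a := (σ, y)) (by exact hσ) _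
    · rw [indicator_of_notMem hσ]
      exact (lintegral_congr fun y => indicator_of_notMem (a := (σ, y)) (by exact hσ) _).trans
        lintegral_zero

theorem cov_field (hS : Sol f0 N P0 K0 En T dat A Φ Ψ) (hab : a ≤ b) (hb : b ≤ T) {ρ : ℝ} (hρ : 0 ≤ ρ) :
    ∫⁻ s in Ioc a b, ∫⁻ D in {D : V3 | ‖D‖ ≤ s ∧ ‖D‖ ≤ ρ},
        ENNReal.ofReal (kap D (Φ s z0).2 * ‖A (s - ‖D‖, (Φ s z0).1 - D)‖ ^ 2)
      ≤ ENNReal.ofReal ((b - a + ρ) * En) := by
  obtain ⟨R, hA⟩ := hS.app
  simp only [ENNReal.ofReal_mul (kap_pos _ _).le]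
  exact (cov_fixed hS.flow ρ (h := fun p => ENNReal.ofReal (‖A p‖ ^ 2))
    (hA.continuous.norm.pow 2).measurable.ennreal_ofReal).trans
      (DCov_slab hS.one_le_En hb hS.ener.sliceF)

theorem cov_part (hS : Sol f0 N P0 K0 En T dat A Φ Ψ) (hab : a ≤ b) (hb : b ≤ T) {ρ : ℝ} (hρ : 0 ≤ ρ) :
    ∫⁻ ω in {ω : Om | ‖ω.2.1‖ ≤ ρ},
        ENNReal.ofReal (kap ω.2.1 (Φ ω.1 z0).2 / kap ω.2.1 ω.2.2 * q ω.2.2) ∂mu f0 Φ Ψ z0 a b
      ≤ ENNReal.ofReal ((b - a + ρ) * En) := by
  have hI := hS.init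
  have hF := hS.flow
  have mq : Measurable fun z : Z => ENNReal.ofReal (q z.2) :=
    (contDiff_q.continuous.measurable.comp measurable_snd).ennreal_ofReal
  have m1 : Measurable fun p : ℝ × Z => ENNReal.ofReal (dens f0 Ψ p.1 p.2) * ENNReal.ofReal (q p.2.2) :=
    (hF.continuous_dens hI).measurable.ennreal_ofReal.mul (mq.comp measurable_snd)
  have m2 : MeasurableSet {ω : Om | ‖ω.2.1‖ ≤ ρ} :=
    measurableSet_le measurable_snd.fst.norm measurable_const
  have m3 : Measurable fun ω : Om =>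
      ENNReal.ofReal (kap ω.2.1 (Φ ω.1 z0).2 / kap ω.2.1 ω.2.2 * q ω.2.2) :=
    (((measurable_kap.comp (measurable_snd.fst.prodMk
      ((cone_cont hF z0).measurable.comp measurable_fst).snd)).div
        (measurable_kap.comp measurable_snd)).mul
          (contDiff_q.continuous.measurable.comp measurable_snd.snd)).ennreal_ofReal
  rw [← lintegral_indicator m2, lintegral_mu hI hF (m3.indicator m2)]
  refine le_trans (lintegral_mono fun s => ?_) ((cov_fixed (z0 := z0) hF ρ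
    (h := fun p => ∫⁻ v, ENNReal.ofReal (dens f0 Ψ p.1 (p.2, v)) * ENNReal.ofReal (q v))
    (m1.comp (measurable_fst.fst.prodMk
      (measurable_fst.snd.prodMk measurable_snd))).lintegral_prod_right').trans
    (DCov_slab hS.one_le_En hb fun t ht => le_trans (le_of_eq ?_) (hS.ener.sliceP t ht)))
  · rw [← lintegral_indicator (DCov_set s ρ)]
    refine (lintegral_prod_le _).trans (lintegral_mono fun D => ?_)
    by_cases hD : D ∈ {D : V3 | ‖D‖ ≤ s ∧ ‖D‖ ≤ ρ}
    · rw [indicator_of_mem hD, ← lintegral_const_mul' _ _ ENNReal.ofReal_ne_top]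
      refine lintegral_mono fun v => le_of_eq ?_
      have h0 : 0 ≤ dens f0 Ψ (s - ‖D‖) ((Φ s z0).1 - D, v) := hI.nonneg _
      have h1 := kap_pos D v
      simp only [rho]
      rw [indicator_of_mem (show (s, D, v) ∈ {ω : Om | ‖ω.2.1‖ ≤ ρ} from hD.2), if_pos hD.1,
        ← ENNReal.ofReal_mul (mul_nonneg h1.le h0), ← ENNReal.ofReal_mul h0,
        ← ENNReal.ofReal_mul (kap_pos _ _).le]
      refine congrArg ENNReal.ofReal ?_
      field_simp
    · refine le_of_eq_of_le ((lintegral_congr fun v => ?_).trans lintegral_zero) zero_le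
      by_cases h1 : ‖D‖ ≤ s
      · rw [indicator_of_notMem (show (s, D, v) ∉ {ω : Om | ‖ω.2.1‖ ≤ ρ} from
          fun h2 => hD ⟨h1, h2⟩), mul_zero]
      · simp only [rho]
        rw [if_neg h1, ENNReal.ofReal_zero, zero_mul]
  · refine (lintegral_prod _ (m1.comp (measurable_prodMk_left (x := t))).aemeasurable).symm.trans
      ((hF.lintegral_dens hI t mq).trans (lintegral_congr fun z => ?_))
    rw [mul_comm, ENNReal.ofReal_mul (q_pos _).le]

end Vale.Agent.P107
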