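import Vale.Agent.P107.Cone

/-! Definitions for block D (the a-priori bound), see notes/P107.md Part D. Do not change this file. -/

namespace Vale.Agent.P107

open MeasureTheory Set Filter Topology
open scoped RealInnerProductSpace ENNReal

/-- `sqrt (1 - n.u(v))`; this is `Θ` for the source momentum and `α` for the test momentum. -/
noncomputable def ang (D v : V3) : ℝ := Real.sqrt (kap D v)

/-- `1 - u(V).u(v)`. -/
noncomputable def yy (V v : V3) : ℝ := 1 - ⟪u V, u v⟫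

/-- `θ = sqrt (1 - u(V).u(v))`. -/
noncomputable def th (V v : V3) : ℝ := Real.sqrt (yy V v)

/-- The force of one source particle on the test particle (Lagrangian normalisation). -/
noncomputable def pf (D v V : V3) (F : V3 × V3) : V3 := (kap D v)⁻¹ • lor (ker D v F) V

/-- The primitive used in the integration by parts. -/
noncomputable def HH (D v V : V3) : V3 :=
  (4 * Real.pi * kap D V * kap D v * ‖D‖)⁻¹ • (yy V v • nrm D - kap D V • u v)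

/-- The remainder `T'`. -/
noncomputable def TT (D v V : V3) : V3 :=
  (yy V v / (4 * Real.pi * kap D v * kap D V ^ 2 * ‖D‖ ^ 2)) •
    ((q V ^ 2)⁻¹ • nrm D - kap D V • u V)

noncomputable def kT (D v V : V3) : ℝ := (ang D v + ang D V) / (q v ^ 2 * ang D v ^ 5 * ‖D‖ ^ 2)

noncomputable def kS (a : ℕ) (D v V : V3) : ℝ := ang D V / (q v * ‖D‖ * ang D v ^ (2 + a))

noncomputable def x1 (D v V : V3) : ℝ := 2 ^ 18 * kap D v ^ 4 / kap D V ^ 5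

noncomputable def x2 (Zc : ℝ) (D v : V3) : ℝ := ‖D‖ ^ 4 * q v ^ 6 * kap D v ^ 3 / Zc ^ 2

/-- Equal to `1` on `(-∞,1]` and to `0` on `[2,∞)`. -/
noncomputable def thf (x : ℝ) : ℝ := Real.smoothTransition (2 - x)

/-- The cutoff of the integration by parts. -/
noncomputable def chi (P1 Zc ρ : ℝ) (D v V : V3) : ℝ :=
  thf (x1 D v V) * thf (x2 Zc D v) * (1 - thf (q v / P1)) * (1 - thf (‖D‖ / ρ))

def setB (Zc : ℝ) (D v V : V3) : Prop := x1 D v V ≤ 2 ∧ x2 Zc D v ≤ 2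

def setG (P1 Zc ρ : ℝ) (D v V : V3) : Prop :=
  1 ≤ x1 D v V ∨ 1 ≤ x2 Zc D v ∨ q v ≤ 2 * P1 ∨ ‖D‖ ≤ 2 * ρ

def setTr (Zc ρ : ℝ) (D v V : V3) : Prop :=
  setB Zc D v V ∧ (1 ≤ x1 D v V ∨ 1 ≤ x2 Zc D v ∨ ‖D‖ ≤ 2 * ρ)

open Classical in
/-- The integrand of the monotone function `W`. -/
noncomputable def wk (P1 Zc ρ : ℝ) (D v V : V3) (F : V3 × V3) : ℝ :=
  kT D v V + kS 1 D v V * gfl D F + kS 0 D v V * ‖F‖
    + (if setG P1 Zc ρ D v V then kS 2 D v V * gfl D F else 0)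
    + (if setB Zc D v V then 1 / (ang D v ^ 2 * ‖D‖ ^ 2) else 0)
    + (if setTr Zc ρ D v V then ang D V / (ang D v ^ 3 * ‖D‖ ^ 2) else 0)

/-- The integrand of the total variation. -/
noncomputable def vk (D v V : V3) (F : V3 × V3) : ℝ :=
  kT D v V + kS 1 D v V * gfl D F + kS 0 D v V * ‖F‖ + kS 2 D v V * gfl D F

open Classical in
/-- The integrand of the boundary terms. -/
noncomputable def mk (Zc : ℝ) (D v V : V3) : ℝ :=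
  if setB Zc D v V then 1 / (ang D V ^ 2 * ang D v * ‖D‖) else 0

/-- Points `(s, D, v)`. -/
abbrev Om := ℝ × Z

/-- The density on the backward cone of the test particle `z0`. -/
noncomputable def rho (f0 : Z → ℝ) (Φ Ψ : ℝ → Z → Z) (z0 : Z) (ω : Om) : ℝ :=
  if ‖ω.2.1‖ ≤ ω.1 then
    kap ω.2.1 ω.2.2 * dens f0 Ψ (ω.1 - ‖ω.2.1‖) ((Φ ω.1 z0).1 - ω.2.1, ω.2.2) else 0

/-- The pair measure on the window `(a,b]`. -/
noncomputable def mu (f0 : Z → ℝ) (Φ Ψ : ℝ → Z → Z) (z0 : Z) (a b : ℝ) : Measure Om :=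
  (((volume : Measure ℝ).restrict (Ioc a b)).prod (volume : Measure Z)).withDensity
    fun ω => ENNReal.ofReal (rho f0 Φ Ψ z0 ω)

/-- The field at the source point. -/
noncomputable def fld (A : Fld) (Φ : ℝ → Z → Z) (z0 : Z) (ω : Om) : V3 × V3 :=
  A (ω.1 - ‖ω.2.1‖, (Φ ω.1 z0).1 - ω.2.1)

/-- Coarse variation bound on `[a,b]`. -/
def Var (V : ℝ → V3) (a b tot err : ℝ) : Prop :=
  ∃ W : ℝ → ℝ, MonotoneOn W (Icc a b) ∧ W b - W a ≤ tot ∧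
    ∀ s ∈ Icc a b, ∀ t ∈ Icc a b, s ≤ t → ‖V t - V s‖ ≤ W t - W s + err

/-- The logarithm. -/
noncomputable def La (P : ℝ) : ℝ := Real.logb 2 P + 3

/-- The window length at energy `qq`. -/
noncomputable def dl (c P qq : ℝ) : ℝ := c * qq ^ 2 / (P ^ 2 * La P)

/-- The lowest energy scale of the bootstrap. -/
noncomputable def qm (P : ℝ) : ℝ := P ^ (11 / 20 : ℝ)

/-- The size of the integration by parts region. -/
noncomputable def zc (P qq : ℝ) : ℝ := Real.sqrt qq * P ^ (-1 / 100 : ℝ)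

/-- The small radius. -/
noncomputable def r0 (P : ℝ) : ℝ := (P ^ 20)⁻¹

/-- All energies are at most `P` up to time `T`. -/
def Bnd (f0 : Z → ℝ) (Φ : ℝ → Z → Z) (P T : ℝ) : Prop :=
  ∀ z, f0 z ≠ 0 → ∀ s, s ≤ T → q (Φ s z).2 ≤ P

/-- The bootstrap hypothesis up to time `T`. -/
def Boot (f0 : Z → ℝ) (Φ : ℝ → Z → Z) (c P T τ : ℝ) : Prop :=
  ∀ z, f0 z ≠ 0 → ∀ qq, qm P ≤ qq → qq ≤ P → ∀ a b, 0 ≤ a → a ≤ b → b ≤ T →
    b - a ≤ dl c P qq → (∀ s ∈ Icc a b, qq / 2 ≤ q (Φ s z).2) →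
      Var (fun s => (Φ s z).2) a b (τ * qq) (Real.sqrt qq)

/-- Dyadic classes: `((Q, θ, Θ), (α, R))`. -/
abbrev Idx := (ℤ × ℤ × ℤ) × (ℤ × ℤ)

noncomputable def cQ (x : Idx) : ℝ := 2 ^ x.1.1
noncomputable def cθ (x : Idx) : ℝ := 2 ^ x.1.2.1
noncomputable def cΘ (x : Idx) : ℝ := 2 ^ x.1.2.2
noncomputable def cα (x : Idx) : ℝ := 2 ^ x.2.1
noncomputable def cR (x : Idx) : ℝ := 2 ^ x.2.2
noncomputable def cβ (x : Idx) : ℝ := min (cΘ x) (cθ x)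

/-- Membership in a class. -/
def inC (x : Idx) (D v V : V3) : Prop :=
  (cQ x ≤ q v ∧ q v < 2 * cQ x) ∧ (cθ x ≤ th V v ∧ th V v < 2 * cθ x) ∧
    (cΘ x ≤ ang D v ∧ ang D v < 2 * cΘ x) ∧ (cα x ≤ ang D V ∧ ang D V < 2 * cα x) ∧
    (cR x ≤ ‖D‖ ∧ ‖D‖ < 2 * cR x)

/-- Admissible classes. -/
structure Adm (P : ℝ) (x : Idx) : Prop where
  Q1 : 1 ≤ cQ x
  QP : cQ x ≤ P
  θ1 : cθ x ≤ 1
  Θ1 : cΘ x ≤ 1
  α1 : cα x ≤ 1
  θP : 1 / (3 * P) ≤ cθ x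
  αP : 1 / (3 * P) ≤ cα x
  ΘQ : 1 / (6 * cQ x) ≤ cΘ x
  triθ : cθ x ≤ 2 * (cα x + cΘ x)
  triα : cα x ≤ 2 * (cθ x + cΘ x)
  triΘ : cΘ x ≤ 2 * (cα x + cθ x)
  Rlo : r0 P ≤ cR x
  Rhi : cR x ≤ P

noncomputable def nL (P : ℝ) : ℤ := ⌊La P⌋

noncomputable def box3 (P : ℝ) : Finset (ℤ × ℤ × ℤ) :=
  Finset.Icc 0 (nL P) ×ˢ Finset.Icc (-nL P) 0 ×ˢ Finset.Icc (-nL P) 0

noncomputable def box2 (P : ℝ) : Finset (ℤ × ℤ) :=
  Finset.Icc (-nL P) 0 ×ˢ Finset.Icc (-20 * nL P) (nL P)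

open Classical in
/-- Sum over the admissible classes in the region `S`. -/
noncomputable def sm (P : ℝ) (S : Idx → Prop) (g : Idx → ℝ) : ℝ :=
  ∑ o ∈ box3 P, ∑ n ∈ box2 P, if Adm P (o, n) ∧ S (o, n) then g (o, n) else 0

open Classical in
/-- The sum that appears after Cauchy-Schwarz at fixed `(Q, θ, Θ)`. -/
noncomputable def sq (P : ℝ) (S : Idx → Prop) (g : Idx → ℝ) : ℝ :=
  ∑ o ∈ box3 P, Real.sqrt (∑ n ∈ box2 P, if Adm P (o, n) ∧ S (o, n) then g (o, n) else 0)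

/-- The mass bounds V, F, En, P of the notes. -/
structure Mass (C N En c P qq : ℝ) (m : Idx → ℝ) (ε : ℤ → ℝ) : Prop where
  nonneg : ∀ x, 0 ≤ m x
  vol : ∀ x, Adm P x →
    m x ≤ C * N * dl c P qq * cR x ^ 3 * cα x ^ 2 * cΘ x ^ 2 * cQ x ^ 3 * cβ x ^ 2
  flux : ∀ x, Adm P x → m x ≤ C * dl c P qq * En / cQ x
  ener : ∀ x, Adm P x → m x ≤ C * (cΘ x / cα x) ^ 2 * (dl c P qq + cR x) * En / cQ x
  pass : ∀ x, Adm P x → cR x ≤ dl c P qq → qm P ≤ cQ x → C ≤ cθ x ^ 2 * qq →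
    C ≤ cθ x ^ 2 * cQ x → m x ≤ C * (cΘ x / cα x) ^ 2 * cR x * (cα x + cθ x) / cθ x ^ 2 *
      (En + ε x.1.1 / dl c P (cQ x)) / cQ x
  eps_nonneg : ∀ i, 0 ≤ ε i
  eps_sum : ∑ i ∈ Finset.Icc 0 (nL P), ε i ≤ C * dl c P qq * En

/-- Class form of `Θ ≤ α/4`. -/
def rA (x : Idx) : Prop := cΘ x ≤ cα x / 2 ∧ cθ x ≤ 3 * cα x ∧ cα x ≤ 3 * cθ x

/-- Class form of `x1 ≤ 2`. -/
def r1lo (x : Idx) : Prop := rA x ∧ cΘ x ^ 8 ≤ cα x ^ 10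

/-- Class form of `1 ≤ x1`. -/
def r1hi (x : Idx) : Prop := cα x ^ 10 ≤ 2 ^ 26 * cΘ x ^ 8

/-- Class form of `x2 ≤ 2`. -/
def r2lo (Zc : ℝ) (x : Idx) : Prop := cR x ^ 4 * cQ x ^ 6 * cΘ x ^ 6 ≤ 2 * Zc ^ 2

/-- Class form of `1 ≤ x2`. -/
def r2hi (Zc : ℝ) (x : Idx) : Prop := Zc ^ 2 ≤ 2 ^ 16 * (cR x ^ 4 * cQ x ^ 6 * cΘ x ^ 6)

/-- The weight after Cauchy-Schwarz for the flux-type fields. -/
noncomputable def JJ (a : ℕ) (x : Idx) : ℝ :=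
  cα x ^ 2 * cQ x * cβ x ^ 2 / (cR x ^ 2 * cΘ x ^ (2 + 2 * a))

/-- The weight after Cauchy-Schwarz for the full field. -/
noncomputable def J0 (x : Idx) : ℝ := cQ x * cβ x ^ 2 / (cR x ^ 2 * cΘ x ^ 2)

/-- A property that holds for small `c`, then large `P`, then all scales and mass functions. -/
def Ev (C N En : ℝ) (p : ℝ → ℝ → ℝ → (Idx → ℝ) → Prop) : Prop :=
  ∀ᶠ c in 𝓝[>] (0 : ℝ), ∀ᶠ P in atTop, ∀ qq, qm P ≤ qq → qq ≤ P →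
    ∀ (m : Idx → ℝ) (ε : ℤ → ℝ), Mass C N En c P qq m ε → p c P qq m

/-- The mass of a class. -/
noncomputable def cmass (f0 : Z → ℝ) (Φ Ψ : ℝ → Z → Z) (z0 : Z) (a b : ℝ) (x : Idx) : ℝ :=
  (mu f0 Φ Ψ z0 a b {ω | inC x ω.2.1 ω.2.2 (Φ ω.1 z0).2}).toReal

/-- The kinetic energy carried at level `2^i` during the source window. -/
noncomputable def ceps (f0 : Z → ℝ) (Φ : ℝ → Z → Z) (a b : ℝ) (i : ℤ) : ℝ :=
  (∫⁻ σ in Icc a b, ∫⁻ z in {z : Z | (2 : ℝ) ^ i / 2 ≤ q (Φ σ z).2 ∧ q (Φ σ z).2 ≤ 4 * 2 ^ i},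
    ENNReal.ofReal (q (Φ σ z).2 * f0 z)).toReal

/-- The setting of one window of the bootstrap. -/
structure Win (f0 : Z → ℝ) (N P0 K0 En T : ℝ) (dat A : Fld) (Φ Ψ : ℝ → Z → Z)
    (c P T' qq : ℝ) (z0 : Z) (a b : ℝ) : Prop where
  sol : Sol f0 N P0 K0 En T dat A Φ Ψ
  c_pos : 0 < c
  c_le : c ≤ 1
  P_ge : 2 ≤ P
  T_le : T ≤ P
  T'_le : T' ≤ T
  bnd : Bnd f0 Φ P T'
  boot : Boot f0 Φ c P T' (1 / 10)
  z0_mem : f0 z0 ≠ 0
  q_lo : qm P ≤ qq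
  q_hi : qq ≤ P
  a_nonneg : 0 ≤ a
  a_le : a ≤ b
  b_le : b ≤ T'
  len : b - a ≤ dl c P qq
  en : ∀ s ∈ Icc a b, qq / 2 ≤ q (Φ s z0).2

end Vale.Agent.P107
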