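import Vale.Agent.P107.DDefs

/-! Pointwise algebra of block D (notes/P107.md, D (1)).

Plan. Put n = nrm D, a = n - u v, b = n - u V; ‖a‖² = 2 kap D v - q v⁻², ‖b‖² likewise (norm_nrm_sub_u_sq). Triangle inequalities: the vectors
(n,0,0), (u V,1/q V,0), (u v,0,1/q v) of V3 × ℝ × ℝ (use WithLp 2 or EuclideanSpace, or argue with squares and Cauchy-Schwarz) are at mutual
distances √2 (α, Θ, θ). For e ⊥ n: lor (e, n × e) V = kap D V • e + ⟪u V, e⟫ • n (cross_cross), ⟪u V, e⟫ = ⟪n,e⟫ - ⟪b,e⟫. T part: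
lor = (4π q² kw² r²)⁻¹ • (y n - κ u v), y n - κ u v = (y - κ) n + κ a, y - κ = kw - ⟪a,b⟫. S part: with ap = a - kw n, G± = E - ⟪n,E⟫ n ± n × B,
q v • (⟪n,ξ⟫ a - kw ξ) = ⟪ap,G+⟫ ap - kw (1 - kw/2) G+ + kw E_n ap + kw B_n (ap × n) - kw²/2 G-, q v ⟪n,ξ⟫ = kw E_n + ⟪ap,G+⟫ + kw ⟪u v,E⟫,
⟪u v,E⟫ = (1 - kw) E_n - ⟪ap, (G+ + G-)/2⟫, ‖ap‖² ≤ 2 kw, ‖G-‖ ≤ 2‖F‖. The identities hold by coordinates + ‖n‖ = 1 (linear_combination) or by
cross_cross. All constants have room (true constants are below 1/5 resp. 3/2). -/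

namespace Vale.Agent.P107

open MeasureTheory Set Filter Topology
open scoped RealInnerProductSpace ENNReal

theorem ang_pos (D v : V3) : 0 < ang D v := by
  exact Real.sqrt_pos.2 (kap_pos D v)

theorem ang_sq (D v : V3) : ang D v ^ 2 = kap D v := by
  exact Real.sq_sqrt (kap_pos D v).le

theorem ang_le (D v : V3) : ang D v ≤ 3 / 2 := by
  exact Real.sqrt_le_iff.2 ⟨by norm_num, by linarith [kap_le D v]⟩

theorem ang_ge (D v : V3) : 1 / (2 * q v) ≤ ang D v := by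
  refine Real.le_sqrt_of_sq_le (le_trans ?_ (kap_ge D v))
  have h := q_pos v
  rw [one_div, inv_pow]
  exact inv_anti₀ (by positivity) (by nlinarith)

theorem norm_u_sub_sq (V v : V3) : ‖u V - u v‖ ^ 2 = 2 * yy V v - (q V ^ 2)⁻¹ - (q v ^ 2)⁻¹ := by
  rw [norm_sub_sq_real, norm_u_sq, norm_u_sq, yy]
  ring

theorem yy_ge (V v : V3) : (2 * q v ^ 2)⁻¹ ≤ yy V v := by
  have h1 := norm_u_le_of_q_le (le_refl (q v))
  have h2 := real_inner_le_norm (u V) (u v)
  have h3 := mul_le_of_le_one_left (norm_nonneg (u v)) (norm_u_lt V).le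
  unfold yy
  linarith

theorem yy_le (V v : V3) : yy V v ≤ 2 := by
  have h1 := (abs_le.1 (abs_real_inner_le_norm (u V) (u v))).1
  have h3 := mul_le_of_le_one_left (norm_nonneg (u v)) (norm_u_lt V).le
  unfold yy
  linarith [norm_u_lt v]

theorem dg1_yy (V v : V3) : 0 < yy V v :=
  (inv_pos.2 (mul_pos two_pos (pow_pos (q_pos v) 2))).trans_le (yy_ge V v)

theorem th_sq (V v : V3) : th V v ^ 2 = yy V v := by
  exact Real.sq_sqrt (dg1_yy V v).le

theorem th_pos (V v : V3) : 0 < th V v := by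
  exact Real.sqrt_pos.2 (dg1_yy V v)

theorem dg1_cs {x y : V3} {A B : ℝ} (hA : 0 < A) (hB : 0 < B) (h1 : ‖x‖ ^ 2 ≤ 2 * A ^ 2)
    (h2 : ‖y‖ ^ 2 ≤ 2 * B ^ 2) : |⟪x, y⟫| ≤ 2 * A * B := by
  refine (abs_real_inner_le_norm x y).trans (le_of_sq_le_sq ?_ (by positivity))
  rw [mul_pow]
  exact (mul_le_mul h1 h2 (sq_nonneg _) (by positivity)).trans_eq (by ring)

theorem dg1_q (v : V3) : 0 < (q v ^ 2)⁻¹ := inv_pos.2 (pow_pos (q_pos v) 2)

theorem dg1_a2 {D : V3} (h : D ≠ 0) (v : V3) : ‖nrm D - u v‖ ^ 2 ≤ 2 * ang D v ^ 2 := by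
  rw [norm_nrm_sub_u_sq h, ang_sq]
  linarith [dg1_q v]

theorem dg1_t2 (V v : V3) : ‖u V - u v‖ ^ 2 ≤ 2 * th V v ^ 2 := by
  rw [norm_u_sub_sq, th_sq]
  linarith [dg1_q v, dg1_q V]

theorem dg1_a {D : V3} (h : D ≠ 0) (v : V3) : ‖nrm D - u v‖ ≤ 3 / 2 * ang D v := by
  have := ang_pos D v
  exact le_of_sq_le_sq ((dg1_a2 h v).trans (by nlinarith)) (by positivity)

theorem dg1_n {D : V3} (h : D ≠ 0) : ⟪nrm D, nrm D⟫ = 1 := by
  rw [real_inner_self_eq_norm_sq, norm_nrm h, one_pow]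

theorem dg1_ab {D : V3} (h : D ≠ 0) (v V : V3) :
    |⟪nrm D - u V, nrm D - u v⟫| ≤ 2 * ang D V * ang D v :=
  dg1_cs (ang_pos D V) (ang_pos D v) (dg1_a2 h V) (dg1_a2 h v)

theorem dg1_e {D : V3} (h : D ≠ 0) (v V : V3) :
    ⟪nrm D - u V, nrm D - u v⟫ = kap D V + kap D v - yy V v := by
  rw [inner_sub_left, inner_sub_right, inner_sub_right, dg1_n h, real_inner_comm (nrm D) (u V),
    kap, kap, yy]
  ring

theorem tri_th {D : V3} (h : D ≠ 0) (v V : V3) : th V v ≤ ang D V + ang D v := by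
  have h1 := (abs_le.1 (dg1_ab h v V)).1
  refine le_of_sq_le_sq ?_ (add_pos (ang_pos D V) (ang_pos D v)).le
  rw [add_sq, th_sq, ang_sq, ang_sq]
  linarith [dg1_e h v V]

theorem tri_al {D : V3} (h : D ≠ 0) (v V : V3) : ang D V ≤ th V v + ang D v := by
  have h1 := (abs_le.1 (dg1_cs (th_pos V v) (ang_pos D v) (dg1_t2 V v) (dg1_a2 h v))).1
  rw [show u V - u v = nrm D - u v - (nrm D - u V) by abel, inner_sub_left, dg1_e h v V,
    real_inner_self_eq_norm_sq, norm_nrm_sub_u_sq h] at h1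
  refine le_of_sq_le_sq ?_ (add_pos (th_pos V v) (ang_pos D v)).le
  rw [add_sq, th_sq, ang_sq, ang_sq]
  linarith [dg1_q v]

theorem tri_Th {D : V3} (h : D ≠ 0) (v V : V3) : ang D v ≤ ang D V + th V v := by
  have h1 := (abs_le.1 (dg1_cs (ang_pos D V) (th_pos V v) (dg1_a2 h V) (dg1_t2 V v))).2
  rw [show u V - u v = nrm D - u v - (nrm D - u V) by abel, inner_sub_right, dg1_e h,
    real_inner_self_eq_norm_sq, norm_nrm_sub_u_sq h] at h1
  refine le_of_sq_le_sq ?_ (add_pos (ang_pos D V) (th_pos V v)).le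
  rw [add_sq, th_sq, ang_sq, ang_sq]
  linarith [dg1_q V]

theorem gfl_nonneg (D : V3) (F : V3 × V3) : 0 ≤ gfl D F := by
  exact Real.sqrt_nonneg _

theorem kT_nonneg (D v V : V3) : 0 ≤ kT D v V := by
  have := ang_pos D v
  have := ang_pos D V
  unfold kT
  positivity

theorem kS_nonneg (a : ℕ) (D v V : V3) : 0 ≤ kS a D v V := by
  have := ang_pos D v
  have := ang_pos D V
  have := q_pos v
  unfold kS
  positivity

theorem wk_nonneg (P1 Zc ρ : ℝ) (D v V : V3) (F : V3 × V3) : 0 ≤ wk P1 Zc ρ D v V F := by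
  have := ang_pos D v
  have := ang_pos D V
  have := kT_nonneg D v V
  have := kS_nonneg 0 D v V
  have := kS_nonneg 1 D v V
  have := kS_nonneg 2 D v V
  have := gfl_nonneg D F
  unfold wk
  split_ifs <;> positivity

theorem vk_nonneg (D v V : V3) (F : V3 × V3) : 0 ≤ vk D v V F := by
  have := kT_nonneg D v V
  have := kS_nonneg 0 D v V
  have := kS_nonneg 1 D v V
  have := kS_nonneg 2 D v V
  have := gfl_nonneg D F
  unfold vk
  positivity

theorem mk_nonneg (Zc : ℝ) (D v V : V3) : 0 ≤ mk Zc D v V := by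
  have := ang_pos D v
  unfold mk
  split_ifs <;> positivity

theorem ang_le_of_x1 {D v V : V3} (h : x1 D v V ≤ 2) : ang D v ≤ ang D V / 4 := by
  have h1 := kap_pos D V
  have h2 := ang_pos D V
  rw [x1, div_le_iff₀ (by positivity)] at h
  refine le_of_pow_le_pow_left₀ (n := 8) (by norm_num) (by positivity) ?_
  have h3 := mul_le_mul_of_nonneg_left (kap_le D V) (pow_pos h1 4).le
  rw [show ang D v ^ 8 = (ang D v ^ 2) ^ 4 by ring, div_pow,
    show ang D V ^ 8 = (ang D V ^ 2) ^ 4 by ring, ang_sq, ang_sq]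
  linarith

theorem dg1_g (D : V3) (F : V3 × V3) : |⟪nrm D, F.1⟫| ≤ gfl D F ∧ |⟪nrm D, F.2⟫| ≤ gfl D F ∧
    ‖F.1 - ⟪nrm D, F.1⟫ • nrm D + cross (nrm D) F.2‖ ≤ gfl D F := by
  have h1 := sq_nonneg ⟪nrm D, F.1⟫
  have h2 := sq_nonneg ⟪nrm D, F.2⟫
  have h3 := sq_nonneg ‖F.1 - ⟪nrm D, F.1⟫ • nrm D + cross (nrm D) F.2‖
  exact ⟨Real.abs_le_sqrt (by linarith), Real.abs_le_sqrt (by linarith),
    Real.le_sqrt_of_sq_le (by linarith)⟩

theorem inner_u_E {D : V3} (h : D ≠ 0) (v : V3) (F : V3 × V3) :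
    |⟪u v, F.1⟫| ≤ 2 * (gfl D F + ang D v * ‖F‖) := by
  have h1 := abs_real_inner_le_norm (nrm D - u v) F.1
  have h2 := mul_le_mul (dg1_a h v) (norm_fst_le F) (norm_nonneg _)
    (mul_pos (by norm_num) (ang_pos D v)).le
  have h3 := abs_sub ⟪nrm D, F.1⟫ ⟪nrm D - u v, F.1⟫
  rw [← inner_sub_left, sub_sub_cancel] at h3
  linarith [(dg1_g D F).1, gfl_nonneg D F, mul_nonneg (ang_pos D v).le (norm_nonneg F)]

theorem dg1_i1 (n w E B : V3) : ⟪n, E + cross w B - ⟪w, E⟫ • w⟫ = (1 - ⟪n, w⟫) * ⟪n, E⟫ +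
    ⟪n - w, E - ⟪n, E⟫ • n + cross n B⟫ + (1 - ⟪n, w⟫) * ⟪w, E⟫ + ⟪n, E⟫ * (⟪n, n⟫ - 1) := by
  simp only [cross, Fin.sum_univ_three, PiLp.inner_apply]
  simp
  ring

theorem dg1_aG {D : V3} (h : D ≠ 0) (v : V3) (F : V3 × V3) :
    |⟪nrm D - u v, F.1 - ⟪nrm D, F.1⟫ • nrm D + cross (nrm D) F.2⟫| ≤
      3 / 2 * ang D v * gfl D F :=
  (abs_real_inner_le_norm _ _).trans (mul_le_mul (dg1_a h v) (dg1_g D F).2.2 (norm_nonneg _)
    (mul_pos (by norm_num) (ang_pos D v)).le)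

theorem inner_nrm_acc {D : V3} (h : D ≠ 0) (v : V3) (F : V3 × V3) :
    |⟪nrm D, acc F v⟫| ≤ 8 * (ang D v * gfl D F + ang D v ^ 3 * ‖F‖) / q v := by
  have h1 := dg1_aG h v F
  have h2 := inner_u_E h v F
  have h3 := (dg1_g D F).1
  have t := ang_pos D v
  have e : ⟪nrm D, acc F v⟫ = (q v)⁻¹ * (kap D v * ⟪nrm D, F.1⟫ + ⟪nrm D - u v,
      F.1 - ⟪nrm D, F.1⟫ • nrm D + cross (nrm D) F.2⟫ + kap D v * ⟪u v, F.1⟫) := by
    rw [acc, inner_u_lor, lor, kap, real_inner_smul_right, dg1_i1, dg1_n h, sub_self, mul_zero,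
      add_zero]
  rw [e, abs_mul, abs_of_pos (inv_pos.2 (q_pos v)), ← div_eq_inv_mul]
  refine div_le_div_of_nonneg_right ((abs_add_three _ _ _).trans ?_) (q_pos v).le
  rw [abs_mul, abs_mul, ← ang_sq, abs_sq]
  have k1 := mul_le_mul_of_nonneg_left h2 (sq_nonneg (ang D v))
  have k2 := mul_le_mul_of_nonneg_left h3 (sq_nonneg (ang D v))
  have k3 := mul_nonneg t.le (gfl_nonneg D F)
  have k4 := mul_le_mul_of_nonneg_left (ang_le D v) k3
  have k5 : 0 ≤ ang D v ^ 3 * ‖F‖ := by positivity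
  linarith

theorem dg1_proj {n : V3} (hn : ‖n‖ ≤ 1) (x : V3) : ‖x - ⟪n, x⟫ • n‖ ≤ ‖x‖ := by
  refine le_of_sq_le_sq ?_ (norm_nonneg _)
  rw [norm_sub_sq_real, real_inner_smul_right, norm_smul, mul_pow, Real.norm_eq_abs, sq_abs,
    real_inner_comm]
  nlinarith [mul_le_of_le_one_right (sq_nonneg ⟪x, n⟫) (pow_le_one₀ (n := 2) (norm_nonneg n) hn)]

theorem dg1_i2 (n w E B : V3) (k c : ℝ) (hk : k = 1 - ⟪n, w⟫) :
    ⟪n, c • (E + cross w B - ⟪w, E⟫ • w)⟫ • (n - w) - k • c • (E + cross w B - ⟪w, E⟫ • w) =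
      c • ((⟪n - w, E - ⟪n, E⟫ • n + cross n B⟫ + k * ⟪n, E⟫) • (n - w - k • n)
        - k • (E - ⟪n, E⟫ • n + cross n B) + k ^ 2 • cross n B + (k * ⟪n, B⟫) • cross (n - w) n
        + (⟪n, n⟫ - 1) • (⟪n, E⟫ • (n - w - k • n) + k • cross w B)) := by
  subst hk
  simp only [cross, Fin.sum_univ_three, PiLp.inner_apply]
  ext i
  fin_cases i <;> simp <;> ring

theorem dg1_eta {D : V3} (h : D ≠ 0) (v : V3) (F : V3 × V3) :
    ‖⟪nrm D, acc F v⟫ • (nrm D - u v) - kap D v • acc F v‖ ≤ 4 * ((q v)⁻¹ *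
      (ang D v ^ 3 * gfl D F + ang D v ^ 4 * ‖F‖ + ang D v ^ 2 * gfl D F)) := by
  have t := ang_pos D v
  have g := gfl_nonneg D F
  obtain ⟨g1, g2, g3⟩ := dg1_g D F
  have a1 := dg1_a h v
  have a2 := dg1_proj (norm_nrm_le D) (nrm D - u v)
  rw [inner_sub_right, dg1_n h, ← kap] at a2
  have a3 := dg1_aG h v F
  have a4 := (norm_cross_le (nrm D) F.2).trans (mul_le_mul (norm_nrm_le D) (norm_snd_le F)
    (norm_nonneg _) zero_le_one)
  have a5 := (norm_cross_le (nrm D - u v) (nrm D)).trans (mul_le_mul a1 (norm_nrm_le D)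
    (norm_nonneg _) (by positivity))
  rw [acc, inner_u_lor, lor, dg1_i2 _ _ _ _ (kap D v) _ rfl, dg1_n h, sub_self, zero_smul, add_zero,
    norm_smul, Real.norm_of_nonneg (inv_pos.2 (q_pos v)).le, mul_left_comm]
  refine mul_le_mul_of_nonneg_left ((norm_add₃_le).trans ((add_le_add_left
    (add_le_add_left (norm_sub_le _ _) _) _).trans ?_)) (inv_pos.2 (q_pos v)).le
  have b1 := mul_le_mul ((abs_add_le _ (kap D v * ⟪nrm D, F.1⟫)).trans (add_le_add a3
    ((abs_mul _ _).trans_le (mul_le_mul_of_nonneg_left g1 (abs_nonneg _))))) (a2.trans a1)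
    (norm_nonneg _) (by positivity)
  have b2 := mul_le_mul_of_nonneg_left g3 (sq_nonneg (ang D v))
  have b3 := mul_le_mul_of_nonneg_left a4 (sq_nonneg (ang D v ^ 2))
  have b4 := mul_le_mul_of_nonneg_left (mul_le_mul g2 a5 (norm_nonneg _) g) (sq_nonneg (ang D v))
  have b5 : 0 ≤ ang D v ^ 3 * gfl D F := by positivity
  have b6 : 0 ≤ ang D v ^ 2 * gfl D F := by positivity
  have b7 : 0 ≤ ang D v ^ 4 * ‖F‖ := by positivity
  simp only [norm_smul, Real.norm_eq_abs, abs_mul, abs_pow, abs_of_pos (kap_pos D v)] at b1 ⊢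
  simp only [← ang_sq] at b1 ⊢
  linarith

theorem dg1_yk {D : V3} (h : D ≠ 0) (v V : V3) :
    |yy V v - kap D V| ≤ ang D v ^ 2 + 2 * ang D V * ang D v := by
  have h1 := dg1_ab h v V
  rw [dg1_e h, ← ang_sq D v, abs_le] at h1
  rw [abs_le]
  constructor <;> linarith [sq_nonneg (ang D v)]

theorem dg1_X {D : V3} (h : D ≠ 0) (v V : V3) : ‖yy V v • nrm D - kap D V • u v‖ ≤
    4 * Real.pi * (ang D v * (ang D v + ang D V)) := by
  have t := ang_pos D v
  have a := ang_pos D V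
  rw [show yy V v • nrm D - kap D V • u v =
    (yy V v - kap D V) • nrm D + kap D V • (nrm D - u v) by module]
  refine (norm_add_le _ _).trans (le_trans ?_ (mul_le_mul_of_nonneg_right
    (mul_le_mul_of_nonneg_left Real.pi_gt_three.le zero_le_four) (by positivity)))
  rw [norm_smul, norm_smul, norm_nrm h, Real.norm_eq_abs, Real.norm_of_nonneg (kap_pos D V).le]
  have k1 := dg1_yk h v V
  have k2 := mul_le_mul_of_nonneg_left (dg1_a h v) (kap_pos D V).le
  have k3 := mul_le_mul_of_nonneg_left (ang_le D V) (mul_pos t a).le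
  rw [← ang_sq D V] at k2
  nth_rewrite 2 [← ang_sq D V]
  linarith [mul_pos t a, mul_pos t t]

theorem norm_pf_le {D : V3} (h : D ≠ 0) (v V : V3) (F : V3 × V3) : ‖pf D v V F‖ ≤ vk D v V F := by
  have t := ang_pos D v
  have a := ang_pos D V
  have r := norm_pos_iff.2 h
  have Q := q_pos v
  have g := gfl_nonneg D F
  have p := Real.pi_gt_three
  have e1 : ⟪u V, nrm D - u v⟫ = yy V v - kap D V := by
    rw [inner_sub_right, real_inner_comm, yy, kap]
    ring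
  have e2 : ⟪nrm D, nrm D - u v⟫ = kap D v := by rw [inner_sub_right, dg1_n h, kap]
  have k1 := dg1_eta h v F
  have k2 := dg1_X h v V
  generalize hη : ⟪nrm D, acc F v⟫ • (nrm D - u v) - kap D v • acc F v = η at k1
  have e3 : ⟪u V, η⟫ = -⟪nrm D - u V, η⟫ := by
    rw [inner_sub_left, neg_sub, ← hη, inner_sub_right (nrm D), real_inner_smul_right,
      real_inner_smul_right, e2]
    ring
  have k3 : ‖kap D V • η + ⟪u V, η⟫ • nrm D‖ ≤ 3 * ang D V * ‖η‖ := by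
    refine (norm_add_le _ _).trans ?_
    rw [norm_smul, norm_smul, norm_nrm h, e3, norm_neg, ← ang_sq, Real.norm_of_nonneg (sq_nonneg _)]
    have l1 := (abs_real_inner_le_norm (nrm D - u V) η).trans
      (mul_le_mul_of_nonneg_right (dg1_a h V) (norm_nonneg η))
    have l2 := mul_le_mul_of_nonneg_left (ang_le D V) (mul_nonneg a.le (norm_nonneg η))
    rw [Real.norm_eq_abs]
    linarith
  have e : pf D v V F = ((kap D v)⁻¹ * (4 * Real.pi * q v ^ 2 * kap D v ^ 2 * ‖D‖ ^ 2)⁻¹) •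
      (yy V v • nrm D - kap D V • u v) + ((kap D v)⁻¹ * (4 * Real.pi * kap D v ^ 2 * ‖D‖)⁻¹) •
      (kap D V • η + ⟪u V, η⟫ • nrm D) := by
    rw [pf, ker, lor, cross_cross, eT, eS, hη, inner_add_right, real_inner_smul_right,
      real_inner_smul_right, e1, real_inner_comm (nrm D), kap.eq_1 D V]
    module
  rw [e, ← ang_sq D v]
  refine (norm_add_le _ _).trans ?_
  rw [norm_smul, norm_smul, Real.norm_of_nonneg (by positivity),
    Real.norm_of_nonneg (by positivity), vk, add_assoc, add_assoc]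
  refine add_le_add ((mul_le_mul_of_nonneg_left k2 (by positivity)).trans_eq ?_)
    ((mul_le_mul_of_nonneg_left (k3.trans ((mul_le_mul_of_nonneg_left k1 (by positivity)).trans
    (mul_le_mul_of_nonneg_right (mul_le_mul_of_nonneg_right p.le a.le) (by positivity))))
    (by positivity)).trans_eq ?_)
  · rw [kT]
    field_simp
  · simp only [kS]
    field_simp
    ring

theorem norm_HH_le {D : V3} (h : D ≠ 0) (v V : V3) :
    ‖HH D v V‖ ≤ (ang D v + ang D V) / (ang D V ^ 2 * ang D v * ‖D‖) := by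
  have t := ang_pos D v
  have a := ang_pos D V
  have r := norm_pos_iff.2 h
  have p := Real.pi_pos
  have k := dg1_X h v V
  rw [HH, norm_smul, ← ang_sq D v]
  nth_rewrite 1 [← ang_sq D V]
  rw [Real.norm_of_nonneg (by positivity)]
  refine (mul_le_mul_of_nonneg_left k (by positivity)).trans_eq ?_
  field_simp

theorem norm_HH_proj_le {D : V3} (h : D ≠ 0) (v V : V3) :
    ‖HH D v V - ⟪u V, HH D v V⟫ • u V‖ ≤ (ang D v + ang D V) / (ang D V * ang D v * ‖D‖) := by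
  have t := ang_pos D v
  have a := ang_pos D V
  have r := norm_pos_iff.2 h
  have p := Real.pi_gt_three
  have k0 := kap_pos D V
  have e : HH D v V - ⟪u V, HH D v V⟫ • u V = (4 * Real.pi * kap D V * kap D v * ‖D‖)⁻¹ •
      ((yy V v - kap D V) • (nrm D - u V + kap D V • u V) +
        kap D V • (nrm D - u v - ⟪u V, nrm D - u v⟫ • u V)) := by
    simp only [HH, inner_sub_right, real_inner_smul_right, real_inner_comm (nrm D), kap.eq_1 D V]
    module
  have k1 : ‖nrm D - u V + kap D V • u V‖ ≤ 3 * ang D V := by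
    refine (norm_add_le _ _).trans ?_
    rw [norm_smul, Real.norm_of_nonneg k0.le]
    linarith [dg1_a h V, mul_le_of_le_one_right k0.le (norm_u_lt V).le, ang_sq D V,
      mul_le_mul_of_nonneg_left (ang_le D V) a.le]
  have k2 := mul_le_mul (dg1_yk h v V) k1 (norm_nonneg _) (by positivity)
  have k3 := mul_le_mul_of_nonneg_left ((dg1_proj (norm_u_lt V).le _).trans (dg1_a h v)) k0.le
  have k : ‖(yy V v - kap D V) • (nrm D - u V + kap D V • u V) +
      kap D V • (nrm D - u v - ⟪u V, nrm D - u v⟫ • u V)‖ ≤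
      4 * Real.pi * (ang D V * ang D v * (ang D v + ang D V)) := by
    refine (norm_add_le _ _).trans (le_trans ?_ (mul_le_mul_of_nonneg_right
      (mul_le_mul_of_nonneg_left p.le zero_le_four) (by positivity)))
    rw [norm_smul, norm_smul, Real.norm_eq_abs, Real.norm_of_nonneg k0.le]
    nth_rewrite 2 [← ang_sq D V] at k3
    linarith [mul_pos (mul_pos t a) a, mul_pos (mul_pos t a) t]
  rw [e, norm_smul, ← ang_sq D v]
  nth_rewrite 1 [← ang_sq D V]
  rw [Real.norm_of_nonneg (by positivity)]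
  refine (mul_le_mul_of_nonneg_left k (by positivity)).trans_eq ?_
  field_simp

theorem norm_TT_le {D : V3} (h : D ≠ 0) (v V : V3) :
    ‖TT D v V‖ ≤ yy V v / (kap D V * kap D v * ‖D‖ ^ 2) := by
  have t := kap_pos D v
  have a := kap_pos D V
  have r := norm_pos_iff.2 h
  have p := Real.pi_gt_three
  have y := dg1_yy V v
  have k : ‖(q V ^ 2)⁻¹ • nrm D - kap D V • u V‖ ≤ 4 * Real.pi * kap D V := by
    refine (norm_sub_le _ _).trans ?_
    have k1 := kap_ge D V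
    rw [mul_inv] at k1
    rw [norm_smul, norm_smul, norm_nrm h, Real.norm_of_nonneg (dg1_q V).le, Real.norm_of_nonneg a.le]
    linarith [mul_le_of_le_one_right a.le (norm_u_lt V).le, mul_le_mul_of_nonneg_right p.le a.le]
  rw [TT, norm_smul, Real.norm_of_nonneg (by positivity)]
  refine (mul_le_mul_of_nonneg_left k (by positivity)).trans_eq ?_
  field_simp

end Vale.Agent.P107
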