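import Vale.Agent.P107.DG1

/-! The derivative of `HH` along a pair of characteristics (notes/P107.md, D (2)); checked numerically.

Plan. Derivatives of ‖D‖, nrm D, kap, yy by the chain rule (hasDerivAt_u_comp; the derivative of u (v t) is (κ/kw) • acc F (v s)).
Then differentiate HH with the product rule and verify the vector identity: expand pf with lor (e, n × e) V = κ e + ⟪u V,e⟫ n. Treat n, U = u V, W = u v,
ξ = acc, U' as vectors with ⟪n,n⟫ = 1, ‖U‖² = 1 - q V⁻², ‖W‖² = 1 - q v⁻²; every term is a scalar combination of n, U, W, ξ; compare the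
coefficients (the coefficients of ξ, W, U agree after field_simp; the coefficient of n uses inner products expanded by inner_sub, inner_smul). -/

namespace Vale.Agent.P107

open MeasureTheory Set Filter Topology
open scoped RealInnerProductSpace ENNReal

theorem hasDerivAt_norm_curve {D : ℝ → V3} {D' : V3} {s : ℝ} (h : HasDerivAt D D' s) (h0 : D s ≠ 0) :
    HasDerivAt (fun t => ‖D t‖) ⟪nrm (D s), D'⟫ s := by
  have := (cone_norm h0).comp_hasDerivAt s h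
  simpa [Function.comp_def] using this

theorem hasDerivAt_nrm_curve {D : ℝ → V3} {D' : V3} {s : ℝ} (h : HasDerivAt D D' s) (h0 : D s ≠ 0) :
    HasDerivAt (fun t => nrm (D t)) (‖D s‖⁻¹ • (D' - ⟪nrm (D s), D'⟫ • nrm (D s))) s := by
  have hr : ‖D s‖ ≠ 0 := norm_ne_zero_iff.2 h0
  have h1 := ((hasDerivAt_norm_curve h h0).inv hr).smul h
  refine h1.congr_deriv ?_
  simp only [nrm, Pi.inv_apply]
  match_scalars <;> field_simp

theorem lor_pair (n e V : V3) : lor (e, cross n e) V = (1 - ⟪n, u V⟫) • e + ⟪u V, e⟫ • n := by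
  simp only [lor, cross_cross, real_inner_comm n (u V)]
  module

theorem hasDerivAt_u_src {v : ℝ → V3} {F : V3 × V3} {s k : ℝ}
    (hv : HasDerivAt v (k • lor F (v s)) s) : HasDerivAt (fun t => u (v t)) (k • acc F (v s)) s := by
  refine (hasDerivAt_u_comp hv).congr_deriv ?_
  simp only [acc, inner_smul_right]
  module

theorem hasDerivAt_kap_curve {D v : ℝ → V3} {n' w' : V3} {s : ℝ}
    (hn : HasDerivAt (fun t => nrm (D t)) n' s) (hw : HasDerivAt (fun t => u (v t)) w' s) :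
    HasDerivAt (fun t => kap (D t) (v t)) (-(⟪nrm (D s), w'⟫ + ⟪n', u (v s)⟫)) s :=
  (hn.inner ℝ hw).const_sub 1

theorem dg2_alg (n U W ξ U' : V3) (r κ kw y A B c : ℝ) (hn : ⟪n, n⟫ = 1) (hκ : ⟪n, U⟫ = 1 - κ)
    (hkw : ⟪n, W⟫ = 1 - kw) (hy : ⟪U, W⟫ = 1 - y) (hU : ⟪U, U⟫ = 1 - A⁻¹) (hW : ⟪W, W⟫ = 1 - B⁻¹)
    (hr : r ≠ 0) (hκ0 : κ ≠ 0) (hkw0 : kw ≠ 0) (hA : A ≠ 0) (hB : B ≠ 0) (hc : c ≠ 0)
    (D' n' : V3) (hD' : D' = U - (κ / kw) • W) (hn' : n' = r⁻¹ • (D' - ⟪n, D'⟫ • n)) :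
    (c * κ * kw * r)⁻¹ •
        ((y • n' + (-(⟪U, (κ / kw) • ξ⟫ + ⟪U', W⟫)) • n) -
          (κ • (κ / kw) • ξ + (-(⟪n, U'⟫ + ⟪n', U⟫)) • W)) +
      (-((c * (-(⟪n, U'⟫ + ⟪n', U⟫)) * kw + c * κ * (-(⟪n, (κ / kw) • ξ⟫ + ⟪n', W⟫))) * r
          + c * κ * kw * ⟪n, D'⟫) / (c * κ * kw * r) ^ 2) • (y • n - κ • W)
    = kw⁻¹ • (κ • ((c * B * kw ^ 2 * r ^ 2)⁻¹ • (n - W)
          + (c * kw ^ 2 * r)⁻¹ • (⟪n, ξ⟫ • (n - W) - kw • ξ))
        + ⟪U, (c * B * kw ^ 2 * r ^ 2)⁻¹ • (n - W)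
          + (c * kw ^ 2 * r)⁻¹ • (⟪n, ξ⟫ • (n - W) - kw • ξ)⟫ • n)
      - (y / (c * kw * κ ^ 2 * r ^ 2)) • (A⁻¹ • n - κ • U)
      + (⟪U', (c * κ * kw * r)⁻¹ • (y • n - κ • W)⟫ / κ) • n := by
  have hκ' : ⟪U, n⟫ = 1 - κ := by rw [real_inner_comm]; exact hκ
  have hy' : ⟪W, U⟫ = 1 - y := by rw [real_inner_comm]; exact hy
  have hU'n : ⟪U', n⟫ = ⟪n, U'⟫ := real_inner_comm _ _
  subst hn' hD'
  simp only [inner_add_right, inner_sub_right, inner_sub_left, inner_smul_right, real_inner_smul_left,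
    hn, hκ, hkw, hy, hU, hW, hκ', hy', hU'n]
  generalize ⟪n, ξ⟫ = p1
  generalize ⟪U, ξ⟫ = p2
  generalize ⟪n, U'⟫ = p3
  generalize ⟪U', W⟫ = p4
  match_scalars <;> field_simp <;> ring

theorem hasDerivAt_HH {D v V : ℝ → V3} {V' : V3} {F : V3 × V3} {s : ℝ} (h0 : D s ≠ 0)
    (hD : HasDerivAt D (u (V s) - (kap (D s) (V s) / kap (D s) (v s)) • u (v s)) s)
    (hv : HasDerivAt v ((kap (D s) (V s) / kap (D s) (v s)) • lor F (v s)) s)
    (hV : HasDerivAt V V' s) :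
    HasDerivAt (fun t => HH (D t) (v t) (V t))
      (pf (D s) (v s) (V s) F - TT (D s) (v s) (V s)
        + (⟪(q (V s))⁻¹ • (V' - ⟪u (V s), V'⟫ • u (V s)), HH (D s) (v s) (V s)⟫ / kap (D s) (V s)) •
          nrm (D s)) s := by
  have hr : ‖D s‖ ≠ 0 := norm_ne_zero_iff.2 h0
  have hκ := (kap_pos (D s) (V s)).ne'
  have hkw := (kap_pos (D s) (v s)).ne'
  have hc : (4 * Real.pi : ℝ) ≠ 0 := by positivity
  have dr := hasDerivAt_norm_curve hD h0
  have dn := hasDerivAt_nrm_curve hD h0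
  have dW := hasDerivAt_u_src hv
  have dU := hasDerivAt_u_comp hV
  have dκ := hasDerivAt_kap_curve dn dU
  have dkw := hasDerivAt_kap_curve dn dW
  have dy : HasDerivAt (fun t => yy (V t) (v t)) _ s := (dU.inner ℝ dW).const_sub 1
  have dc := (((dκ.const_mul (4 * Real.pi)).mul dkw).mul dr).inv
    (mul_ne_zero (mul_ne_zero (mul_ne_zero hc hκ) hkw) hr)
  have dH := dc.smul ((dy.smul dn).sub (dκ.smul dW))
  refine dH.congr_deriv ?_
  have hnn : ⟪nrm (D s), nrm (D s)⟫ = 1 := by rw [real_inner_self_eq_norm_sq, norm_nrm h0]; norm_num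
  have key := dg2_alg (nrm (D s)) (u (V s)) (u (v s)) (acc F (v s))
    ((q (V s))⁻¹ • (V' - ⟪u (V s), V'⟫ • u (V s))) ‖D s‖ (kap (D s) (V s)) (kap (D s) (v s))
    (yy (V s) (v s)) (q (V s) ^ 2) (q (v s) ^ 2) (4 * Real.pi) hnn (by simp [kap]) (by simp [kap])
    (by simp [yy]) (by rw [real_inner_self_eq_norm_sq, norm_u_sq])
    (by rw [real_inner_self_eq_norm_sq, norm_u_sq]) hr hκ hkw (pow_pos (q_pos _) 2).ne'
    (pow_pos (q_pos _) 2).ne' hc _ _ rfl rfl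
  simp only [pf, ker, lor_pair, TT, HH, eT, eS]
  exact key

end Vale.Agent.P107
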