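import Vale.Agent.P107.DG2

/-! The cutoff and the remainder of the integration by parts.

Plan. |thf'| ≤ C0 (smoothTransition is smooth and locally constant outside [0,1]), thf' x = 0 unless 1 ≤ x ≤ 2, so |thf' x * x| ≤ 2 C0 there.
chi' is a sum of four terms thf'(x_a) x_a dlog x_a times factors in [0,1]; every term vanishes off setB (a factor thf x1, thf x2 or its derivative
vanishes). On setB: Θ ≤ α/4, ‖HH‖ ≤ (5/4)/(αΘ r), θ ≤ 5α/4 so ‖TT‖ ≤ 2/(Θ² r²). With σ' = α²/Θ²: |r'|/r ≤ 2α²/(Θ² r);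
‖n'‖ ≤ (‖b⊥‖ + σ'‖a⊥‖)/r ≤ 3α²/(Θ r) (n' = r⁻¹ • proj (U - σ' W), proj U = -proj b, proj W = -proj a); kw' = -⟪n',W⟫ - σ'⟪n,acc⟫ with
|⟪n',W⟫| = |⟪n',a⟫| ≤ ‖n'‖ √2 Θ and inner_nrm_acc; κ' = -⟪n',U⟫ - ⟪n,U'⟫, |⟪n,U'⟫| = |⟪n - ⟪U,n⟫U, V'⟫|/q V ≤ 4α‖V'‖/q V; Q' = σ'⟪u v,E⟫
(hasDerivAt_q_comp, inner_u_lor, inner_u_E). The terms with x1, x2 live on setTr and setG, the term with ‖D‖/ρ on setTr, the term with q v/P1
only needs kS 1 g + kS 0 ‖F‖. The last term of hasDerivAt_HH: move the projection onto HH (norm_HH_proj_le). Use gfl/Θ ≤ C gfl/Θ² (ang_le). -/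

namespace Vale.Agent.P107

open MeasureTheory Set Filter Topology
open scoped RealInnerProductSpace ENNReal

theorem thf_one {x : ℝ} (h : x ≤ 1) : thf x = 1 := Real.smoothTransition.one_of_one_le (by linarith)

theorem thf_zero {x : ℝ} (h : 2 ≤ x) : thf x = 0 := Real.smoothTransition.zero_of_nonpos (by linarith)

theorem thf_nonneg (x : ℝ) : 0 ≤ thf x := Real.smoothTransition.nonneg _

theorem thf_le (x : ℝ) : thf x ≤ 1 := Real.smoothTransition.le_one _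

theorem thf_contDiff : ContDiff ℝ 1 thf :=
  (Real.smoothTransition.contDiff (n := 1)).comp (contDiff_const.sub contDiff_id)

theorem thf_deriv_zero {x : ℝ} (h : deriv thf x ≠ 0) : 1 ≤ x ∧ x ≤ 2 := by
  by_contra hc
  apply h
  rcases not_and_or.1 hc with h1 | h1
  · have : thf =ᶠ[𝓝 x] fun _ => 1 := by
      filter_upwards [Iio_mem_nhds (not_le.1 h1)] with y hy using thf_one (le_of_lt hy)
    rw [this.deriv_eq, deriv_const]
  · have : thf =ᶠ[𝓝 x] fun _ => 0 := by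
      filter_upwards [Ioi_mem_nhds (not_le.1 h1)] with y hy using thf_zero (le_of_lt hy)
    rw [this.deriv_eq, deriv_const]

theorem thf_deriv_bdd : ∃ C0 : ℝ, 1 ≤ C0 ∧ ∀ x, |deriv thf x * x| ≤ C0 := by
  have hc : Continuous fun x => deriv thf x * x :=
    (thf_contDiff.continuous_deriv le_rfl).mul continuous_id
  obtain ⟨C, hC⟩ := isCompact_Icc.exists_bound_of_continuousOn (hc.continuousOn (s := Icc 1 2))
  refine ⟨max C 1, le_max_right _ _, fun x => ?_⟩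
  by_cases h : deriv thf x = 0
  · rw [h, zero_mul, abs_zero]; exact le_max_of_le_right zero_le_one
  · exact le_max_of_le_left (hC x (thf_deriv_zero h))

theorem thf_comp {f : ℝ → ℝ} {L s : ℝ} (h : HasDerivAt f (f s * L) s) :
    HasDerivAt (fun t => thf (f t)) (deriv thf (f s) * f s * L) s := by
  have := ((thf_contDiff.differentiable one_ne_zero) (f s)).hasDerivAt.comp s h
  rw [mul_assoc]
  exact this

theorem chi_nonneg (P1 Zc ρ : ℝ) (D v V : V3) : 0 ≤ chi P1 Zc ρ D v V :=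
  mul_nonneg (mul_nonneg (mul_nonneg (thf_nonneg _) (thf_nonneg _)) (sub_nonneg.2 (thf_le _)))
    (sub_nonneg.2 (thf_le _))

theorem chi_le_one (P1 Zc ρ : ℝ) (D v V : V3) : chi P1 Zc ρ D v V ≤ 1 :=
  mul_le_one₀ (mul_le_one₀ (mul_le_one₀ (thf_le _) (thf_nonneg _) (thf_le _))
    (sub_nonneg.2 (thf_le _)) (sub_le_self _ (thf_nonneg _))) (sub_nonneg.2 (thf_le _))
    (sub_le_self _ (thf_nonneg _))

theorem chi_eq_zero_of_q {P1 Zc ρ : ℝ} (hP : 0 < P1) {D v V : V3} (h : q v ≤ P1) :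
    chi P1 Zc ρ D v V = 0 := by
  simp [chi, thf_one ((div_le_one hP).2 h)]

theorem chi_eq_zero_of_norm {P1 Zc ρ : ℝ} (hρ : 0 < ρ) {D v V : V3} (h : ‖D‖ ≤ ρ) :
    chi P1 Zc ρ D v V = 0 := by
  simp [chi, thf_one ((div_le_one hρ).2 h)]

theorem measurable_chi (P1 Zc ρ : ℝ) :
    Measurable fun p : Z × V3 => chi P1 Zc ρ p.1.1 p.1.2 p.2 := by
  have ht : Measurable thf := thf_contDiff.continuous.measurable
  have hq : Measurable fun p : Z × V3 => q p.1.2 :=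
    contDiff_q.continuous.measurable.comp measurable_fst.snd
  have h1 : Measurable fun p : Z × V3 => kap p.1.1 p.1.2 := measurable_kap.comp measurable_fst
  have h2 : Measurable fun p : Z × V3 => kap p.1.1 p.2 := by
    have : Measurable fun p : Z × V3 => ((p.1.1, p.2) : Z) := measurable_fst.fst.prodMk measurable_snd
    exact Measurable.comp (g := fun w : Z => kap w.1 w.2) (f := fun p : Z × V3 => ((p.1.1, p.2) : Z))
      measurable_kap this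
  have h3 : Measurable fun p : Z × V3 => ‖p.1.1‖ := measurable_fst.fst.norm
  have a1 : Measurable fun p : Z × V3 => x1 p.1.1 p.1.2 p.2 := by
    unfold x1
    exact ((h1.pow_const 4).const_mul _).div (h2.pow_const 5)
  have a2 : Measurable fun p : Z × V3 => x2 Zc p.1.1 p.1.2 := by
    unfold x2
    exact (((h3.pow_const 4).mul (hq.pow_const 6)).mul (h1.pow_const 3)).div_const _
  have b1 : Measurable fun p : Z × V3 => thf (x1 p.1.1 p.1.2 p.2) := ht.comp a1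
  have b2 : Measurable fun p : Z × V3 => thf (x2 Zc p.1.1 p.1.2) := ht.comp a2
  have b3 : Measurable fun p : Z × V3 => thf (q p.1.2 / P1) := ht.comp (hq.div_const _)
  have b4 : Measurable fun p : Z × V3 => thf (‖p.1.1‖ / ρ) := ht.comp (h3.div_const _)
  unfold chi
  exact ((b1.mul b2).mul (b3.const_sub 1)).mul (b4.const_sub 1)

theorem thf_ne_zero {x : ℝ} (h : thf x ≠ 0) : x ≤ 2 := by
  by_contra hc
  exact h (thf_zero (not_le.1 hc).le)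

theorem setB_of_chi {P1 Zc ρ : ℝ} {D v V : V3} (h : chi P1 Zc ρ D v V ≠ 0) : setB Zc D v V := by
  simp only [chi, ne_eq, mul_eq_zero, not_or] at h
  exact ⟨thf_ne_zero h.1.1.1, thf_ne_zero h.1.1.2⟩

theorem wk_parts (P1 Zc ρ : ℝ) (D v V : V3) (F : V3 × V3) :
    kS 1 D v V * gfl D F ≤ wk P1 Zc ρ D v V F ∧ kS 0 D v V * ‖F‖ ≤ wk P1 Zc ρ D v V F ∧
    (setG P1 Zc ρ D v V → vk D v V F ≤ wk P1 Zc ρ D v V F) ∧
    (setG P1 Zc ρ D v V → kS 2 D v V * gfl D F ≤ wk P1 Zc ρ D v V F) ∧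
    (setB Zc D v V → 1 / (ang D v ^ 2 * ‖D‖ ^ 2) ≤ wk P1 Zc ρ D v V F) ∧
    (setTr Zc ρ D v V → ang D V / (ang D v ^ 3 * ‖D‖ ^ 2) ≤ wk P1 Zc ρ D v V F) := by
  have h0 := kT_nonneg D v V
  have h1 := mul_nonneg (kS_nonneg 1 D v V) (gfl_nonneg D F)
  have h2 := mul_nonneg (kS_nonneg 0 D v V) (norm_nonneg F)
  have h3 := mul_nonneg (kS_nonneg 2 D v V) (gfl_nonneg D F)
  have hΘ := ang_pos D v
  have hα := ang_pos D V
  have h4 : 0 ≤ 1 / (ang D v ^ 2 * ‖D‖ ^ 2) := by positivity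
  have h5 : 0 ≤ ang D V / (ang D v ^ 3 * ‖D‖ ^ 2) := by positivity
  unfold wk vk
  refine ⟨?_, ?_, fun h => ?_, fun h => ?_, fun h => ?_, fun h => ?_⟩ <;>
    split_ifs <;> linarith

theorem one_sub_chi_pf {P1 Zc ρ : ℝ} (hP : 0 < P1) (hρ : 0 < ρ) {D : V3} (h : D ≠ 0) (v V : V3)
    (F : V3 × V3) : ‖(1 - chi P1 Zc ρ D v V) • pf D v V F‖ ≤ wk P1 Zc ρ D v V F := by
  by_cases hG : setG P1 Zc ρ D v V
  · have h1 := chi_nonneg P1 Zc ρ D v V
    have h2 := chi_le_one P1 Zc ρ D v V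
    rw [norm_smul, Real.norm_eq_abs, abs_of_nonneg (by linarith)]
    calc _ ≤ 1 * ‖pf D v V F‖ := by gcongr; linarith
      _ ≤ _ := by rw [one_mul]; exact (norm_pf_le h v V F).trans ((wk_parts P1 Zc ρ D v V F).2.2.1 hG)
  · simp only [setG, not_or, not_le] at hG
    obtain ⟨h1, h2, h3, h4⟩ := hG
    have : chi P1 Zc ρ D v V = 1 := by
      simp [chi, thf_one h1.le, thf_one h2.le, thf_zero ((le_div_iff₀ hP).2 h3.le),
        thf_zero ((le_div_iff₀ hρ).2 h4.le)]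
    rw [this, sub_self, zero_smul, norm_zero]
    exact wk_nonneg _ _ _ _ _ _ _

theorem HH_le_B {D v V : V3} (h : D ≠ 0) (h1 : x1 D v V ≤ 2) :
    ‖HH D v V‖ ≤ 5 / 4 / (ang D V * ang D v * ‖D‖) := by
  have hΘ := ang_pos D v
  have hα := ang_pos D V
  have hr := norm_pos_iff.2 h
  have h2 := ang_le_of_x1 h1
  calc _ ≤ _ := norm_HH_le h v V
    _ ≤ (5 / 4 * ang D V) / (ang D V ^ 2 * ang D v * ‖D‖) := by gcongr; linarith
    _ = _ := by field_simp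

theorem chi_HH_le (P1 Zc ρ : ℝ) (D v V : V3) :
    ‖chi P1 Zc ρ D v V • HH D v V‖ ≤ 2 * mk Zc D v V := by
  have hm := mk_nonneg Zc D v V
  by_cases hc : chi P1 Zc ρ D v V = 0
  · rw [hc, zero_smul, norm_zero]; positivity
  by_cases h : D = 0
  · subst h
    simp only [HH, norm_zero, mul_zero, inv_zero, zero_smul, smul_zero]
    positivity
  have hB := setB_of_chi hc
  have hΘ := ang_pos D v
  have hα := ang_pos D V
  have hr := norm_pos_iff.2 h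
  have hα' := ang_le D V
  rw [norm_smul, Real.norm_eq_abs, abs_of_nonneg (chi_nonneg _ _ _ _ _ _), mk, if_pos hB]
  calc _ ≤ 1 * (5 / 4 / (ang D V * ang D v * ‖D‖)) :=
        mul_le_mul (chi_le_one _ _ _ _ _ _) (HH_le_B h hB.1) (norm_nonneg _) zero_le_one
    _ = (5 / 4 * ang D V) * (1 / (ang D V ^ 2 * ang D v * ‖D‖)) := by field_simp
    _ ≤ _ := by gcongr; linarith

theorem norm_nsub_le {D : V3} (h : D ≠ 0) (v : V3) : ‖nrm D - u v‖ ≤ 3 / 2 * ang D v := by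
  have h1 := norm_nrm_sub_u_sq h v
  have h2 := ang_sq D v
  have h3 := ang_pos D v
  have h4 : 0 ≤ (q v ^ 2)⁻¹ := by positivity
  refine (sq_le_sq₀ (norm_nonneg _) (by positivity)).1 ?_
  nlinarith [kap_pos D v]

theorem norm_proj_le {n : V3} (hn : ‖n‖ = 1) (x : V3) : ‖x - ⟪n, x⟫ • n‖ ≤ ‖x‖ := by
  refine (sq_le_sq₀ (norm_nonneg _) (norm_nonneg _)).1 ?_
  rw [norm_sub_sq_real, inner_smul_right, norm_smul, hn, real_inner_comm n x, Real.norm_eq_abs, mul_one,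
    sq_abs]
  nlinarith [sq_nonneg ⟪n, x⟫]

/-- Bounds for the logarithmic derivatives on the set `x1 ≤ 2`. -/
theorem log_bounds {D v V V' : V3} (F : V3 × V3) (h : D ≠ 0) (h1 : x1 D v V ≤ 2) (D' n' U' : V3)
    (hD' : D' = u V - (kap D V / kap D v) • u v)
    (hn' : n' = ‖D‖⁻¹ • (D' - ⟪nrm D, D'⟫ • nrm D))
    (hU' : U' = (q V)⁻¹ • (V' - ⟪u V, V'⟫ • u V)) :
    |⟪nrm D, D'⟫ / ‖D‖| ≤ ang D V ^ 2 / (ang D v ^ 2 * ‖D‖) ∧
    |-(⟪nrm D, (kap D V / kap D v) • acc F v⟫ + ⟪n', u v⟫) / kap D v| ≤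
      3 * (ang D V ^ 2 / (ang D v ^ 2 * ‖D‖)) +
        8 * (ang D V ^ 2 * (gfl D F / ang D v ^ 3 + ‖F‖ / ang D v) / q v) ∧
    |-(⟪nrm D, U'⟫ + ⟪n', u V⟫) / kap D V| ≤
      3 * (ang D V ^ 2 / (ang D v ^ 2 * ‖D‖)) + 3 * (‖V'‖ / (q V * ang D V)) ∧
    |⟪u v, (kap D V / kap D v) • lor F v⟫ / q v| ≤
      2 * (ang D V ^ 2 * (gfl D F / ang D v ^ 2 + ‖F‖ / ang D v) / q v) := by
  have hΘ := ang_pos D v
  have hα := ang_pos D V
  have hr := norm_pos_iff.2 h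
  have hQ := q_pos v
  have hq := q_pos V
  have hg := gfl_nonneg D F
  have h2 := ang_le_of_x1 h1
  have hα' := ang_le D V
  have hn := norm_nrm h
  have hnn : ⟪nrm D, nrm D⟫ = 1 := by rw [real_inner_self_eq_norm_sq, hn]; norm_num
  have hU : ⟪nrm D, u V⟫ = 1 - kap D V := by simp [kap]
  have hW : ⟪nrm D, u v⟫ = 1 - kap D v := by simp [kap]
  have ha := norm_nsub_le h v
  have hb := norm_nsub_le h V
  set σ := kap D V / kap D v with hσ
  have hσ' : σ = ang D V ^ 2 / ang D v ^ 2 := by rw [hσ, ang_sq, ang_sq]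
  have hσ0 : 0 < σ := by rw [hσ']; positivity
  have hσ1 : 1 ≤ σ := by
    rw [hσ', le_div_iff₀ (by positivity)]; nlinarith
  have hr' : ⟪nrm D, D'⟫ = 1 - σ := by
    have := (kap_pos D v).ne'
    rw [hD', inner_sub_right, inner_smul_right, hU, hW, hσ]; field_simp; ring
  have hproj : D' - ⟪nrm D, D'⟫ • nrm D = σ • ((nrm D - u v) - ⟪nrm D, nrm D - u v⟫ • nrm D)
      - ((nrm D - u V) - ⟪nrm D, nrm D - u V⟫ • nrm D) := by
    rw [hD']
    simp only [inner_sub_right, inner_smul_right, hnn]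
    module
  have hnn' : ‖n'‖ ≤ 2 * ang D V ^ 2 / (ang D v * ‖D‖) := by
    rw [hn', norm_smul, norm_inv, norm_norm, hproj]
    have e1 := norm_proj_le hn (nrm D - u v)
    have e2 := norm_proj_le hn (nrm D - u V)
    calc _ ≤ ‖D‖⁻¹ * (σ * (3 / 2 * ang D v) + 3 / 2 * ang D V) := by
          gcongr
          refine (norm_sub_le _ _).trans (add_le_add ?_ (e2.trans hb))
          rw [norm_smul, Real.norm_eq_abs, abs_of_pos hσ0]
          gcongr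
          exact e1.trans ha
      _ = (3 / 2 * ang D V ^ 2 + 3 / 2 * ang D V * ang D v) / (ang D v * ‖D‖) := by
          rw [hσ']; field_simp
      _ ≤ _ := by gcongr; nlinarith
  have hperp : ⟪n', nrm D⟫ = 0 := by
    rw [hn', real_inner_smul_left, inner_sub_left, real_inner_smul_left, hnn, real_inner_comm]; ring
  have hin : ∀ w : V3, |⟪n', u w⟫| ≤ 2 * ang D V ^ 2 / (ang D v * ‖D‖) * (3 / 2 * ang D w) := by
    intro w
    have : ⟪n', u w⟫ = -⟪n', nrm D - u w⟫ := by rw [inner_sub_right, hperp]; ring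
    rw [this, abs_neg]
    exact (abs_real_inner_le_norm _ _).trans
      (mul_le_mul hnn' (norm_nsub_le h w) (norm_nonneg _) (by positivity))
  refine ⟨?_, ?_, ?_, ?_⟩
  · rw [abs_div, abs_of_pos hr, hr', abs_of_nonpos (by linarith)]
    calc _ ≤ σ / ‖D‖ := by gcongr; linarith
      _ = _ := by rw [hσ']; field_simp
  · rw [abs_div, abs_neg, abs_of_pos (kap_pos D v), ← ang_sq D v, inner_smul_right]
    have e1 := inner_nrm_acc h v F
    calc _ ≤ (σ * (8 * (ang D v * gfl D F + ang D v ^ 3 * ‖F‖) / q v)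
          + 2 * ang D V ^ 2 / (ang D v * ‖D‖) * (3 / 2 * ang D v)) / ang D v ^ 2 := by
          gcongr
          refine (abs_add_le _ _).trans (add_le_add ?_ (hin v))
          rw [abs_mul, abs_of_pos hσ0]
          gcongr
      _ = _ := by rw [hσ']; field_simp; ring
  · rw [abs_div, abs_neg, abs_of_pos (kap_pos D V), ← ang_sq D V]
    have e0 : ⟪nrm D, U'⟫ = (q V)⁻¹ * ⟪(nrm D - u V) + kap D V • u V, V'⟫ := by
      rw [hU', inner_smul_right, inner_sub_right, inner_smul_right, hU, inner_add_left, inner_sub_left,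
        real_inner_smul_left]
      ring
    have e1 : ‖(nrm D - u V) + kap D V • u V‖ ≤ 3 * ang D V := by
      refine (norm_add_le _ _).trans ?_
      rw [norm_smul, Real.norm_eq_abs, abs_of_pos (kap_pos D V), ← ang_sq D V]
      have := (norm_u_lt V).le
      have e : ang D V ^ 2 * ‖u V‖ ≤ ang D V ^ 2 * 1 := by gcongr
      nlinarith
    have e2 : |⟪nrm D, U'⟫| ≤ (q V)⁻¹ * (3 * ang D V * ‖V'‖) := by
      rw [e0, abs_mul, abs_of_pos (inv_pos.2 hq)]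
      gcongr
      exact (abs_real_inner_le_norm _ _).trans (by gcongr)
    calc _ ≤ ((q V)⁻¹ * (3 * ang D V * ‖V'‖)
          + 2 * ang D V ^ 2 / (ang D v * ‖D‖) * (3 / 2 * ang D V)) / ang D V ^ 2 := by
          gcongr
          exact (abs_add_le _ _).trans (add_le_add e2 (hin V))
      _ = 3 * (ang D V * ang D v / (ang D v ^ 2 * ‖D‖)) + 3 * (‖V'‖ / (q V * ang D V)) := by
          field_simp; ring
      _ ≤ _ := by gcongr; nlinarith
  · rw [abs_div, abs_of_pos hQ, inner_smul_right, inner_u_lor, abs_mul, abs_of_pos hσ0]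
    have e1 := inner_u_E h v F
    calc _ ≤ σ * (2 * (gfl D F + ang D v * ‖F‖)) / q v := by gcongr
      _ = _ := by rw [hσ']; field_simp

theorem abs_four {a b c d C : ℝ} (ha : |a| ≤ C) (hb0 : 0 ≤ b) (hb : b ≤ 1) (hc0 : 0 ≤ c) (hc : c ≤ 1)
    (hd0 : 0 ≤ d) (hd : d ≤ 1) : |a * (b * c * d)| ≤ C := by
  have h1 : b * c * d ≤ 1 := mul_le_one₀ (mul_le_one₀ hb hc0 hc) hd0 hd
  have h0 : 0 ≤ b * c * d := by positivity
  rw [abs_mul, abs_of_nonneg h0]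
  calc _ ≤ |a| * 1 := by gcongr
    _ ≤ C := by rwa [mul_one]

theorem term_le {c L h B C : ℝ} (hc : |c| ≤ C) (hh : 0 ≤ h) (hB : 0 ≤ B)
    (H : c ≠ 0 → |L| * h ≤ B) : |c * L| * h ≤ C * B := by
  by_cases h0 : c = 0
  · rw [h0] at hc ⊢
    simp only [zero_mul, abs_zero] at hc ⊢
    positivity
  · rw [abs_mul, mul_assoc]
    exact mul_le_mul hc (H h0) (by positivity) ((abs_nonneg _).trans hc)

theorem four_deriv {C0 : ℝ} (hC0 : ∀ x, |deriv thf x * x| ≤ C0) {f1 f2 f3 f4 : ℝ → ℝ}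
    {L1 L2 L3 L4 s : ℝ} (d1 : HasDerivAt f1 (f1 s * L1) s) (d2 : HasDerivAt f2 (f2 s * L2) s)
    (d3 : HasDerivAt f3 (f3 s * L3) s) (d4 : HasDerivAt f4 (f4 s * L4) s) :
    ∃ c1 c2 c3 c4 : ℝ, HasDerivAt
      (fun t => thf (f1 t) * thf (f2 t) * (1 - thf (f3 t)) * (1 - thf (f4 t)))
      (c1 * L1 + c2 * L2 - c3 * L3 - c4 * L4) s ∧ |c1| ≤ C0 ∧ |c2| ≤ C0 ∧ |c3| ≤ C0 ∧ |c4| ≤ C0 ∧
      (c1 ≠ 0 → (f1 s ≤ 2 ∧ f2 s ≤ 2) ∧ 1 ≤ f1 s) ∧ (c2 ≠ 0 → (f1 s ≤ 2 ∧ f2 s ≤ 2) ∧ 1 ≤ f2 s) ∧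
      (c3 ≠ 0 → f1 s ≤ 2 ∧ f2 s ≤ 2) ∧ (c4 ≠ 0 → (f1 s ≤ 2 ∧ f2 s ≤ 2) ∧ f4 s ≤ 2) := by
  have t3 := sub_nonneg.2 (thf_le (f3 s))
  have t3' := sub_le_self 1 (thf_nonneg (f3 s))
  have t4 := sub_nonneg.2 (thf_le (f4 s))
  have t4' := sub_le_self 1 (thf_nonneg (f4 s))
  refine ⟨deriv thf (f1 s) * f1 s * (thf (f2 s) * (1 - thf (f3 s)) * (1 - thf (f4 s))),
    deriv thf (f2 s) * f2 s * (thf (f1 s) * (1 - thf (f3 s)) * (1 - thf (f4 s))),
    deriv thf (f3 s) * f3 s * (thf (f1 s) * thf (f2 s) * (1 - thf (f4 s))),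
    deriv thf (f4 s) * f4 s * (thf (f1 s) * thf (f2 s) * (1 - thf (f3 s))), ?_,
    abs_four (hC0 _) (thf_nonneg _) (thf_le _) t3 t3' t4 t4',
    abs_four (hC0 _) (thf_nonneg _) (thf_le _) t3 t3' t4 t4',
    abs_four (hC0 _) (thf_nonneg _) (thf_le _) (thf_nonneg _) (thf_le _) t4 t4',
    abs_four (hC0 _) (thf_nonneg _) (thf_le _) (thf_nonneg _) (thf_le _) t3 t3',
    fun h => ?_, fun h => ?_, fun h => ?_, fun h => ?_⟩
  · refine ((((thf_comp d1).mul (thf_comp d2)).mul ((thf_comp d3).const_sub 1)).mul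
      ((thf_comp d4).const_sub 1)).congr_deriv ?_
    simp only [Pi.mul_apply]
    ring
  all_goals simp only [ne_eq, mul_eq_zero, not_or] at h
  · exact ⟨⟨(thf_deriv_zero h.1.1).2, thf_ne_zero h.2.1.1⟩, (thf_deriv_zero h.1.1).1⟩
  · exact ⟨⟨thf_ne_zero h.2.1.1, (thf_deriv_zero h.1.1).2⟩, (thf_deriv_zero h.1.1).1⟩
  · exact ⟨thf_ne_zero h.2.1.1, thf_ne_zero h.2.1.2⟩
  · exact ⟨⟨thf_ne_zero h.2.1.1, thf_ne_zero h.2.1.2⟩, (thf_deriv_zero h.1.1).2⟩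

theorem dg3_arith {C0 c1 c2 c3 c4 Lr Lw Lκ LQ h e s2 s1 s0 mm w : ℝ} {B X1 X2 X4 : Prop}
    (hC : 1 ≤ C0) (h1 : |c1| ≤ C0) (h2 : |c2| ≤ C0) (h3 : |c3| ≤ C0) (h4 : |c4| ≤ C0)
    (n1 : c1 ≠ 0 → B ∧ X1) (n2 : c2 ≠ 0 → B ∧ X2) (n3 : c3 ≠ 0 → B) (n4 : c4 ≠ 0 → B ∧ X4)
    (hh : 0 ≤ h) (hw : 0 ≤ w) (hm : 0 ≤ mm) (w1 : s1 ≤ w) (w0 : s0 ≤ w)
    (wG : X1 ∨ X2 → s2 ≤ w) (wT : B ∧ (X1 ∨ X2 ∨ X4) → e ≤ w)
    (prod : B → |Lr| * h ≤ 2 * e ∧ |Lw| * h ≤ 6 * e + 16 * s2 + 16 * s0 ∧ |Lκ| * h ≤ 6 * e + 6 * mm ∧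
      |LQ| * h ≤ 4 * s1 + 4 * s0) :
    |c1 * (4 * Lw - 5 * Lκ) + c2 * (4 * Lr + 6 * LQ + 3 * Lw) - c3 * LQ - c4 * Lr| * h
      ≤ 400 * C0 * (w + mm) := by
  have p1 : |c1 * (4 * Lw - 5 * Lκ)| * h ≤ C0 * (190 * (w + mm)) := by
    refine term_le h1 hh (by positivity) fun hne => ?_
    obtain ⟨hB, hx⟩ := n1 hne
    obtain ⟨-, a2, a3, -⟩ := prod hB
    have e1 := wT ⟨hB, Or.inl hx⟩
    have e2 := wG (Or.inl hx)
    have : |4 * Lw - 5 * Lκ| ≤ 4 * |Lw| + 5 * |Lκ| := by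
      refine (abs_sub _ _).trans (le_of_eq ?_)
      rw [abs_mul, abs_mul]; norm_num
    have := mul_le_mul_of_nonneg_right this hh
    linarith
  have p2 : |c2 * (4 * Lr + 6 * LQ + 3 * Lw)| * h ≤ C0 * (180 * (w + mm)) := by
    refine term_le h2 hh (by positivity) fun hne => ?_
    obtain ⟨hB, hx⟩ := n2 hne
    obtain ⟨a1, a2, -, a4⟩ := prod hB
    have e1 := wT ⟨hB, Or.inr (Or.inl hx)⟩
    have e2 := wG (Or.inr hx)
    have : |4 * Lr + 6 * LQ + 3 * Lw| ≤ 4 * |Lr| + 6 * |LQ| + 3 * |Lw| := by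
      refine (abs_add_three _ _ _).trans (le_of_eq ?_)
      rw [abs_mul, abs_mul, abs_mul]; norm_num
    have := mul_le_mul_of_nonneg_right this hh
    linarith
  have p3 : |c3 * LQ| * h ≤ C0 * (10 * (w + mm)) := by
    refine term_le h3 hh (by positivity) fun hne => ?_
    obtain ⟨-, -, -, a4⟩ := prod (n3 hne)
    linarith
  have p4 : |c4 * Lr| * h ≤ C0 * (10 * (w + mm)) := by
    refine term_le h4 hh (by positivity) fun hne => ?_
    obtain ⟨hB, hx⟩ := n4 hne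
    obtain ⟨a1, -, -, -⟩ := prod hB
    have e1 := wT ⟨hB, Or.inr (Or.inr hx)⟩
    linarith
  have : |c1 * (4 * Lw - 5 * Lκ) + c2 * (4 * Lr + 6 * LQ + 3 * Lw) - c3 * LQ - c4 * Lr|
      ≤ |c1 * (4 * Lw - 5 * Lκ)| + |c2 * (4 * Lr + 6 * LQ + 3 * Lw)| + |c3 * LQ| + |c4 * Lr| :=
    (abs_sub _ _).trans (add_le_add ((abs_sub _ _).trans (add_le_add (abs_add_le _ _) le_rfl)) le_rfl)
  have := mul_le_mul_of_nonneg_right this hh
  have h9 : 0 ≤ C0 * (w + mm) := by positivity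
  linarith

theorem prod_bounds {Zc Lr Lw Lκ LQ : ℝ} {D v V V' : V3} {F : V3 × V3} (h0 : D ≠ 0)
    (hB : setB Zc D v V) (b1 : |Lr| ≤ ang D V ^ 2 / (ang D v ^ 2 * ‖D‖))
    (b2 : |Lw| ≤ 3 * (ang D V ^ 2 / (ang D v ^ 2 * ‖D‖)) +
      8 * (ang D V ^ 2 * (gfl D F / ang D v ^ 3 + ‖F‖ / ang D v) / q v))
    (b3 : |Lκ| ≤ 3 * (ang D V ^ 2 / (ang D v ^ 2 * ‖D‖)) + 3 * (‖V'‖ / (q V * ang D V)))
    (b4 : |LQ| ≤ 2 * (ang D V ^ 2 * (gfl D F / ang D v ^ 2 + ‖F‖ / ang D v) / q v)) :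
    |Lr| * ‖HH D v V‖ ≤ 2 * (ang D V / (ang D v ^ 3 * ‖D‖ ^ 2)) ∧
      |Lw| * ‖HH D v V‖ ≤ 6 * (ang D V / (ang D v ^ 3 * ‖D‖ ^ 2))
        + 16 * (kS 2 D v V * gfl D F) + 16 * (kS 0 D v V * ‖F‖) ∧
      |Lκ| * ‖HH D v V‖ ≤ 6 * (ang D V / (ang D v ^ 3 * ‖D‖ ^ 2)) + 6 * (mk Zc D v V * ‖V'‖ / q V) ∧
      |LQ| * ‖HH D v V‖ ≤ 4 * (kS 1 D v V * gfl D F) + 4 * (kS 0 D v V * ‖F‖) := by
  have hr := norm_pos_iff.2 h0
  have hQ := q_pos v
  have hq := q_pos V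
  have hΘ := ang_pos D v
  have hα := ang_pos D V
  have hg := gfl_nonneg D F
  have bH : ‖HH D v V‖ ≤ 2 / (ang D V * ang D v * ‖D‖) :=
    (HH_le_B h0 hB.1).trans (by gcongr; norm_num)
  refine ⟨(mul_le_mul b1 bH (norm_nonneg _) (by positivity)).trans (le_of_eq ?_),
    (mul_le_mul b2 bH (norm_nonneg _) (by positivity)).trans (le_of_eq ?_),
    (mul_le_mul b3 bH (norm_nonneg _) (by positivity)).trans (le_of_eq ?_),
    (mul_le_mul b4 bH (norm_nonneg _) (by positivity)).trans (le_of_eq ?_)⟩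
  · field_simp
  · simp only [kS]; field_simp; ring
  · simp only [mk, if_pos hB]; field_simp; ring
  · simp only [kS]; field_simp; ring

theorem chi_TT_le (P1 Zc ρ : ℝ) {D : V3} (h0 : D ≠ 0) (v V V' : V3) (F : V3 × V3) :
    ‖chi P1 Zc ρ D v V • (TT D v V -
      (⟪(q V)⁻¹ • (V' - ⟪u V, V'⟫ • u V), HH D v V⟫ / kap D V) • nrm D)‖
      ≤ 2 * (wk P1 Zc ρ D v V F + mk Zc D v V * ‖V'‖ / q V) := by
  have hr := norm_pos_iff.2 h0
  have hq := q_pos V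
  have hΘ := ang_pos D v
  have hα := ang_pos D V
  have hκ := kap_pos D V
  have hkw := kap_pos D v
  have hw0 := wk_nonneg P1 Zc ρ D v V F
  have hm0 := mk_nonneg Zc D v V
  by_cases hc : chi P1 Zc ρ D v V = 0
  · rw [hc, zero_smul, norm_zero]; positivity
  have hB := setB_of_chi hc
  have h2 := ang_le_of_x1 hB.1
  have e1 : ‖TT D v V‖ ≤ 2 * wk P1 Zc ρ D v V F := by
    have h3 := tri_th h0 v V
    have h4 := th_pos V v
    calc _ ≤ _ := norm_TT_le h0 v V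
      _ ≤ 2 * ang D V ^ 2 / (kap D V * kap D v * ‖D‖ ^ 2) := by
          gcongr; rw [← th_sq]; nlinarith
      _ = 2 * (1 / (ang D v ^ 2 * ‖D‖ ^ 2)) := by
          rw [← ang_sq D V, ← ang_sq D v]; field_simp
      _ ≤ _ := by gcongr; exact (wk_parts P1 Zc ρ D v V F).2.2.2.2.1 hB
  have e2 : ‖(⟪(q V)⁻¹ • (V' - ⟪u V, V'⟫ • u V), HH D v V⟫ / kap D V) • nrm D‖
      ≤ 2 * (mk Zc D v V * ‖V'‖ / q V) := by
    have e0 : ⟪(q V)⁻¹ • (V' - ⟪u V, V'⟫ • u V), HH D v V⟫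
        = (q V)⁻¹ * ⟪V', HH D v V - ⟪u V, HH D v V⟫ • u V⟫ := by
      rw [real_inner_smul_left, inner_sub_left, real_inner_smul_left, inner_sub_right,
        inner_smul_right, real_inner_comm (u V) V']
      ring
    have e3 := norm_HH_proj_le h0 v V
    rw [norm_smul, norm_nrm h0, mul_one, Real.norm_eq_abs, abs_div, abs_of_pos hκ, e0, abs_mul,
      abs_of_pos (inv_pos.2 hq), ← ang_sq D V]
    calc _ ≤ (q V)⁻¹ * (‖V'‖ * (2 * ang D V / (ang D V * ang D v * ‖D‖))) / ang D V ^ 2 := by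
          gcongr
          refine (abs_real_inner_le_norm _ _).trans ?_
          gcongr
          exact e3.trans (by gcongr; linarith)
      _ = _ := by simp only [mk, if_pos hB]; field_simp
  rw [norm_smul, Real.norm_eq_abs, abs_of_nonneg (chi_nonneg _ _ _ _ _ _)]
  calc _ ≤ 1 * (2 * wk P1 Zc ρ D v V F + 2 * (mk Zc D v V * ‖V'‖ / q V)) :=
        mul_le_mul (chi_le_one _ _ _ _ _ _) ((norm_sub_le _ _).trans (add_le_add e1 e2))
          (norm_nonneg _) zero_le_one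
    _ = _ := by ring

theorem chi_HH_deriv : ∃ C : ℝ, 1 ≤ C ∧ ∀ (P1 Zc ρ : ℝ), 0 < P1 → 0 < Zc → 0 < ρ →
    ∀ (D v V : ℝ → V3) (V' : V3) (F : V3 × V3) (s : ℝ), D s ≠ 0 →
      HasDerivAt D (u (V s) - (kap (D s) (V s) / kap (D s) (v s)) • u (v s)) s →
      HasDerivAt v ((kap (D s) (V s) / kap (D s) (v s)) • lor F (v s)) s → HasDerivAt V V' s →
      ∃ d : V3, HasDerivAt (fun t => chi P1 Zc ρ (D t) (v t) (V t) • HH (D t) (v t) (V t)) d s ∧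
        ‖chi P1 Zc ρ (D s) (v s) (V s) • pf (D s) (v s) (V s) F - d‖ ≤
          C * (wk P1 Zc ρ (D s) (v s) (V s) F + mk Zc (D s) (v s) (V s) * ‖V'‖ / q (V s)) := by
  obtain ⟨C0, hC1, hC0⟩ := thf_deriv_bdd
  refine ⟨400 * C0 + 2, by linarith, ?_⟩
  intro P1 Zc ρ hP hZ hρ D v V V' F s h0 hD hv hV
  have hr := norm_pos_iff.2 h0
  have hκ := kap_pos (D s) (V s)
  have hkw := kap_pos (D s) (v s)
  have hQ := q_pos (v s)
  have hq := q_pos (V s)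
  obtain ⟨r', w', κ', Q', dr, dkw, dκ, dQ, LB⟩ : ∃ r' w' κ' Q' : ℝ,
      HasDerivAt (fun t => ‖D t‖) r' s ∧ HasDerivAt (fun t => kap (D t) (v t)) w' s ∧
      HasDerivAt (fun t => kap (D t) (V t)) κ' s ∧ HasDerivAt (fun t => q (v t)) Q' s ∧
      (setB Zc (D s) (v s) (V s) →
        |r' / ‖D s‖| * ‖HH (D s) (v s) (V s)‖
          ≤ 2 * (ang (D s) (V s) / (ang (D s) (v s) ^ 3 * ‖D s‖ ^ 2)) ∧
        |w' / kap (D s) (v s)| * ‖HH (D s) (v s) (V s)‖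
          ≤ 6 * (ang (D s) (V s) / (ang (D s) (v s) ^ 3 * ‖D s‖ ^ 2))
            + 16 * (kS 2 (D s) (v s) (V s) * gfl (D s) F) + 16 * (kS 0 (D s) (v s) (V s) * ‖F‖) ∧
        |κ' / kap (D s) (V s)| * ‖HH (D s) (v s) (V s)‖
          ≤ 6 * (ang (D s) (V s) / (ang (D s) (v s) ^ 3 * ‖D s‖ ^ 2))
            + 6 * (mk Zc (D s) (v s) (V s) * ‖V'‖ / q (V s)) ∧
        |Q' / q (v s)| * ‖HH (D s) (v s) (V s)‖
          ≤ 4 * (kS 1 (D s) (v s) (V s) * gfl (D s) F) + 4 * (kS 0 (D s) (v s) (V s) * ‖F‖)) :=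
    ⟨_, _, _, _, hasDerivAt_norm_curve hD h0,
      hasDerivAt_kap_curve (hasDerivAt_nrm_curve hD h0) (hasDerivAt_u_src hv),
      hasDerivAt_kap_curve (hasDerivAt_nrm_curve hD h0) (hasDerivAt_u_comp hV),
      hasDerivAt_q_comp hv, fun hB => by
        obtain ⟨b1, b2, b3, b4⟩ := log_bounds (V' := V') F h0 hB.1 _ _ _ rfl rfl rfl
        exact prod_bounds h0 hB b1 b2 b3 b4⟩
  have d1 : HasDerivAt (fun t => x1 (D t) (v t) (V t))
      (x1 (D s) (v s) (V s) * (4 * (w' / kap (D s) (v s)) - 5 * (κ' / kap (D s) (V s)))) s := by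
    refine (((dkw.pow 4).const_mul (2 ^ 18)).div (dκ.pow 5) (pow_pos hκ 5).ne').congr_deriv ?_
    simp only [x1, Pi.pow_apply]
    field_simp
    norm_num
    ring
  have d2 : HasDerivAt (fun t => x2 Zc (D t) (v t))
      (x2 Zc (D s) (v s) * (4 * (r' / ‖D s‖) + 6 * (Q' / q (v s)) + 3 * (w' / kap (D s) (v s)))) s := by
    refine ((((dr.pow 4).mul (dQ.pow 6)).mul (dkw.pow 3)).div_const (Zc ^ 2)).congr_deriv ?_
    simp only [x2, Pi.pow_apply, Pi.mul_apply]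
    field_simp
    norm_num
    ring
  have d3 : HasDerivAt (fun t => q (v t) / P1) (q (v s) / P1 * (Q' / q (v s))) s := by
    refine (dQ.div_const P1).congr_deriv ?_
    field_simp
  have d4 : HasDerivAt (fun t => ‖D t‖ / ρ) (‖D s‖ / ρ * (r' / ‖D s‖)) s := by
    refine (dr.div_const ρ).congr_deriv ?_
    field_simp
  obtain ⟨c1, c2, c3, c4, dχ, a1, a2, a3, a4, n1, n2, n3, n4⟩ := four_deriv hC0 d1 d2 d3 d4
  refine ⟨_, dχ.smul (hasDerivAt_HH h0 hD hv hV), ?_⟩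
  obtain ⟨w1, w0, -, wG, -, wT⟩ := wk_parts P1 Zc ρ (D s) (v s) (V s) F
  have hm0 : 0 ≤ mk Zc (D s) (v s) (V s) * ‖V'‖ / q (V s) := by
    have := mk_nonneg Zc (D s) (v s) (V s); positivity
  have pχ := dg3_arith (B := setB Zc (D s) (v s) (V s)) (X4 := ‖D s‖ ≤ 2 * ρ) hC1 a1 a2 a3 a4 n1 n2 n3
    (fun h => ⟨(n4 h).1, (div_le_iff₀ hρ).1 (n4 h).2⟩) (norm_nonneg _)
    (wk_nonneg P1 Zc ρ (D s) (v s) (V s) F) hm0 w1 w0
    (fun h => wG (h.elim Or.inl fun h => Or.inr (Or.inl h))) wT LB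
  have pT := chi_TT_le P1 Zc ρ h0 (v s) (V s) V' F
  have key : ∀ (c c' k : ℝ) (a b n H : V3),
      c • a - (c • (a - b + k • n) + c' • H) = c • (b - k • n) - c' • H := by
    intros; module
  change ‖chi P1 Zc ρ (D s) (v s) (V s) • _ - (chi P1 Zc ρ (D s) (v s) (V s) • _ + _)‖ ≤ _
  rw [key]
  refine (norm_sub_le _ _).trans ?_
  rw [norm_smul (_ - c4 * _), Real.norm_eq_abs]
  linarith

end Vale.Agent.P107
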