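import Vale.Agent.P107.DIbp2

/-! The integration by parts along pairs (notes/P107.md, D).

Plan. For σ in (s,t): V'(σ) = lor (A (σ,X σ)) (V σ) (mom_deriv) = lor dat + ∫ rho • pf dw (rep, integrableOn_intF, exists_lorL; dens • lor ker =
(kap * dens) • pf). Hence ‖V'(σ)‖ ≤ 2K0 + ∫ rho vk (norm_pf_le, D ≠ 0 a.e.), which integrates to tv_le. Split pf = (1-chi) pf + chi pf; the first part is bounded by wk.
Second part: Lagrangian form by integral_cm / lintegral_rho_lag. For z with f0 z ≠ 0 the curve G(σ) = chi • HH at (cm Φ σ (X σ) z, V σ) is differentiable at every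
σ in (s,t): it vanishes near σ if D = 0 (‖D‖ < ρ near σ) or rt ≤ 0 (q w ≤ P0 < P1 at σ, so q w < P1 near σ); otherwise chi_HH_deriv applies
(rt_hasDerivAt, pos_deriv, mom_deriv, chain rule; the field is fld). It is continuous on [s,t]; its derivative is bounded (‖D‖ ≥ ρ, energies bounded on
the compact interval by mom_sub_le), so the fundamental theorem of calculus holds (integral_eq_sub_of_hasDerivAt_of_le with deriv G measurable), and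
‖∫ chi pf - (G t - G s)‖ ≤ C ∫ (wk + mk ‖V'‖/q V). Integrate against f0 (Fubini; bounded integrand, compact support), go back with lintegral_mu_lag,
chi_HH_le at the end points. Helper files DIbp1.lean etc. are welcome. -/

namespace Vale.Agent.P107

open MeasureTheory Set Filter Topology
open scoped RealInnerProductSpace ENNReal

variable {f0 : Z → ℝ} {N P0 K0 En T c P T' qq a b : ℝ} {dat A : Fld} {Φ Ψ : ℝ → Z → Z} {z0 : Z}

theorem ibp : ∃ C : ℝ, 1 ≤ C ∧ ∀ (f0 : Z → ℝ) (N P0 K0 En T : ℝ) (dat A : Fld) (Φ Ψ : ℝ → Z → Z) (z0 : Z)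
    (P1 Zc ρ s t q1 Mb Iw Iv : ℝ), Sol f0 N P0 K0 En T dat A Φ Ψ → P0 < P1 → 0 < Zc → 0 < ρ →
    0 ≤ s → s ≤ t → t ≤ T → 0 < q1 → 0 ≤ Mb → 0 ≤ Iw → 0 ≤ Iv →
    (∀ σ ∈ Icc s t, q1 ≤ q (Φ σ z0).2) →
    (∀ σ ∈ Icc s t, ∫⁻ w : Z, ENNReal.ofReal (rho f0 Φ Ψ z0 (σ, w)) *
      ENNReal.ofReal (mk Zc w.1 w.2 (Φ σ z0).2) ≤ ENNReal.ofReal Mb) →
    ∫⁻ ω, ENNReal.ofReal (wk P1 Zc ρ ω.2.1 ω.2.2 (Φ ω.1 z0).2 (fld A Φ z0 ω)) ∂mu f0 Φ Ψ z0 s t
      ≤ ENNReal.ofReal Iw →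
    ∫⁻ ω, ENNReal.ofReal (vk ω.2.1 ω.2.2 (Φ ω.1 z0).2 (fld A Φ z0 ω)) ∂mu f0 Φ Ψ z0 s t
      ≤ ENNReal.ofReal Iv →
    ‖(Φ t z0).2 - (Φ s z0).2‖ ≤
      2 * K0 * (t - s) + C * Iw + C * Mb / q1 * (2 * K0 * (t - s) + Iv) + C * Mb := by
  obtain ⟨C, hC, H⟩ := pair_deriv
  refine ⟨C + 4, by linarith, fun f0 N P0 K0 En T dat A Φ Ψ z0 P1 Zc ρ s t q1 Mb Iw Iv hS hP hZ hρ
    hs hst ht hq1 hMb hIw hIv hq hM hw hv => ?_⟩
  obtain ⟨R, hA⟩ := hS.app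
  have hF := hS.flow
  have hI := hS.init
  have hP1 : 0 < P1 := by linarith [hI.one_le_P0]
  have mχ : Measurable fun ω : Om => chi P1 Zc ρ ω.2.1 ω.2.2 (Φ ω.1 z0).2 :=
    (measurable_chi P1 Zc ρ).comp (f := fun ω : Om => (ω.2, (Φ ω.1 z0).2))
      (measurable_snd.prodMk ((cone_cont hF z0).snd.measurable.comp measurable_fst))
  have mp := measurable_pfo (z0 := z0) hA hF
  have m1 : Measurable fun ω : Om =>
      (1 - chi P1 Zc ρ ω.2.1 ω.2.2 (Φ ω.1 z0).2) • pfo A Φ z0 ω := (mχ.const_sub 1).smul mp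
  have m2 : Measurable fun ω : Om => chi P1 Zc ρ ω.2.1 ω.2.2 (Φ ω.1 z0).2 • pfo A Φ z0 ω :=
    mχ.smul mp
  have b1 := (lintegral_lg_le hI hF m1
    (b := fun ω => wk P1 Zc ρ ω.2.1 ω.2.2 (Φ ω.1 z0).2 (fld A Φ z0 ω)) (fun ω hω => one_sub_chi_pf hP1 hρ hω _ _ _) s t).trans hw
  have b2 := (lintegral_lg_le hI hF m2 (b := fun ω => vk ω.2.1 ω.2.2 (Φ ω.1 z0).2 (fld A Φ z0 ω))
    (fun ω hω => by
      rw [norm_smul, Real.norm_of_nonneg (chi_nonneg _ _ _ _ _ _)]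
      exact (mul_le_of_le_one_left (norm_nonneg _) (chi_le_one _ _ _ _ _ _)).trans
        (norm_pf_le hω _ _ _)) s t).trans hv
  have i1 : Integrable _ ((volume.restrict (Ioc s t)).prod volume) :=
    ⟨(measurable_lg hI hF m1).aestronglyMeasurable, b1.trans_lt ENNReal.ofReal_lt_top⟩
  have i2 : Integrable _ ((volume.restrict (Ioc s t)).prod volume) :=
    ⟨(measurable_lg hI hF m2).aestronglyMeasurable, b2.trans_lt ENNReal.ofReal_lt_top⟩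
  have a0 := ibp_split hS hs hst ht
    (fun ω => by rw [← add_smul, sub_add_cancel, one_smul]) i1 i2
  have a1 := (enorm_integral_le_lintegral_enorm _).trans b1
  rw [← ofReal_norm, ENNReal.ofReal_le_ofReal_iff hIw] at a1
  obtain ⟨bt, mt, lt, ht'⟩ := bdry_le (Zc := Zc) (ρ := ρ) hI hF hP (hM t (right_mem_Icc.2 hst))
  obtain ⟨bs, ms, ls, hs'⟩ := bdry_le (Zc := Zc) (ρ := ρ) hI hF hP (hM s (left_mem_Icc.2 hst))
  have hK : 0 ≤ 2 * K0 :=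
    (norm_nonneg _).trans (hS.lor_dat ⟨le_rfl, hs.trans (hst.trans ht)⟩ 0 0)
  have hX : 0 ≤ 2 * K0 * (t - s) + Iv := add_nonneg (mul_nonneg hK (sub_nonneg.2 hst)) hIv
  have mw := measurable_wk (z0 := z0) hA hF P1 Zc ρ
  have a2 := ibp_mk hS hq1 hMb hq hM (tv_le hS hs hst ht hIv hv)
  have a4 : ∫⁻ ω, ENNReal.ofReal (C * (wk P1 Zc ρ ω.2.1 ω.2.2 (Φ ω.1 z0).2 (fld A Φ z0 ω)
      + mk Zc ω.2.1 ω.2.2 (Φ ω.1 z0).2 * ‖lor (A (ω.1, (Φ ω.1 z0).1)) (Φ ω.1 z0).2‖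
        / q (Φ ω.1 z0).2)) ∂mu f0 Φ Ψ z0 s t
      ≤ ENNReal.ofReal (C * (Iw + Mb / q1 * (2 * K0 * (t - s) + Iv))) := by
    simp only [ENNReal.ofReal_mul (zero_le_one.trans hC)]
    rw [lintegral_const_mul' _ _ ENNReal.ofReal_ne_top,
      ENNReal.ofReal_add hIw (mul_nonneg (div_nonneg hMb hq1.le) hX)]
    refine mul_le_mul_right ((lintegral_mono fun ω => ENNReal.ofReal_add_le).trans ?_) _
    rw [lintegral_add_left mw.ennreal_ofReal]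
    exact add_le_add hw a2
  have a5 := (ibp_two hI hF hst i2 ((mw.add (measurable_mkV hA hF Zc)).const_mul C).ennreal_ofReal
    (h := fun z σ => chi P1 Zc ρ (cm Φ σ (Φ σ z0).1 z).1 (cm Φ σ (Φ σ z0).1 z).2 (Φ σ z0).2 •
      HH (cm Φ σ (Φ σ z0).1 z).1 (cm Φ σ (Φ σ z0).1 z).2 (Φ σ z0).2) ms mt hs' ht'
    fun z h0 σ => H A Φ Ψ z0 z P1 Zc ρ σ hF ((hI.supp z h0).2.trans_lt hP) hZ hρ).trans
    (add_le_add lt (add_le_add ls a4))
  have a7 : 0 ≤ Mb / q1 * (2 * K0 * (t - s) + Iv) := by positivity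
  have hY : 0 ≤ C * (Iw + Mb / q1 * (2 * K0 * (t - s) + Iv)) := by positivity
  rw [← ENNReal.ofReal_add (by positivity) hY, ← ENNReal.ofReal_add (by positivity) (by positivity),
    ← ofReal_norm, ENNReal.ofReal_le_ofReal_iff (by positivity)] at a5
  rw [mul_div_assoc, mul_assoc (C + 4)]
  have a8 : 0 ≤ C * Mb := by positivity
  linarith

end Vale.Agent.P107
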