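import Vale.Agent.P107.DG1

/-! Basic facts on the pair measure `mu`.

Plan. lintegral_withDensity_eq_lintegral_mul, lintegral_prod. mu_add: Ioc_union_Ioc, restrict_union, prod_add / withDensity_add_measure (or
compare lintegrals). Finite: kap * dens ≤ kap * q * dens and coneP. D = 0 is a null set. lintegral_mu_lag: lintegral_cm for every s with
psi_cm, rt_eq (‖D‖ ≤ s iff 0 ≤ rt), then lintegral_lintegral_swap (continuous_cm). -/

namespace Vale.Agent.P107

open MeasureTheory Set Filter Topology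
open scoped RealInnerProductSpace ENNReal

variable {f0 : Z → ℝ} {N P0 K0 En T c P T' qq a b : ℝ} {dat A : Fld} {Φ Ψ : ℝ → Z → Z} {z0 : Z}


section dm0
variable {α : Type} [MeasurableSpace α] {D v V : α → V3} {F : α → V3 × V3}

theorem dm0_q (hv : Measurable v) : Measurable fun a => q (v a) :=
  contDiff_q.continuous.measurable.comp hv

theorem dm0_kap (hD : Measurable D) (hv : Measurable v) : Measurable fun a => kap (D a) (v a) :=
  Measurable.comp (g := fun w : Z => kap w.1 w.2) (f := fun a => (D a, v a)) measurable_kap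
    (hD.prodMk hv)

theorem dm0_ang (hD : Measurable D) (hv : Measurable v) : Measurable fun a => ang (D a) (v a) :=
  (dm0_kap hD hv).sqrt

theorem dm0_th (hD : Measurable D) (hv : Measurable v) : Measurable fun a => th (D a) (v a) :=
  (measurable_const.sub ((contDiff_u.continuous.measurable.comp hD).inner
    (contDiff_u.continuous.measurable.comp hv))).sqrt

theorem dm0_gfl (hD : Measurable D) (hF : Measurable F) : Measurable fun a => gfl (D a) (F a) :=
  Measurable.comp (g := fun p : V3 × (V3 × V3) => gfl p.1 p.2) (f := fun a => (D a, F a))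
    measurable_gfl (hD.prodMk hF)

theorem dm0_kT (hD : Measurable D) (hv : Measurable v) (hV : Measurable V) :
    Measurable fun a => kT (D a) (v a) (V a) :=
  ((dm0_ang hD hv).add (dm0_ang hD hV)).div ((((dm0_q hv).pow_const 2).mul
    ((dm0_ang hD hv).pow_const 5)).mul (hD.norm.pow_const 2))

theorem dm0_kS (k : ℕ) (hD : Measurable D) (hv : Measurable v) (hV : Measurable V) :
    Measurable fun a => kS k (D a) (v a) (V a) :=
  (dm0_ang hD hV).div (((dm0_q hv).mul hD.norm).mul ((dm0_ang hD hv).pow_const (2 + k)))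

theorem dm0_x1 (hD : Measurable D) (hv : Measurable v) (hV : Measurable V) :
    Measurable fun a => x1 (D a) (v a) (V a) :=
  (((dm0_kap hD hv).pow_const 4).const_mul _).div ((dm0_kap hD hV).pow_const 5)

theorem dm0_x2 (Zc : ℝ) (hD : Measurable D) (hv : Measurable v) :
    Measurable fun a => x2 Zc (D a) (v a) :=
  (((hD.norm.pow_const 4).mul ((dm0_q hv).pow_const 6)).mul
    ((dm0_kap hD hv).pow_const 3)).div_const _

theorem dm0_setB (Zc : ℝ) (hD : Measurable D) (hv : Measurable v) (hV : Measurable V) :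
    MeasurableSet {a | setB Zc (D a) (v a) (V a)} :=
  (measurableSet_le (dm0_x1 hD hv hV) measurable_const).inter
    (measurableSet_le (dm0_x2 Zc hD hv) measurable_const)

theorem dm0_setG (P1 Zc ρ : ℝ) (hD : Measurable D) (hv : Measurable v) (hV : Measurable V) :
    MeasurableSet {a | setG P1 Zc ρ (D a) (v a) (V a)} :=
  (measurableSet_le measurable_const (dm0_x1 hD hv hV)).union
    ((measurableSet_le measurable_const (dm0_x2 Zc hD hv)).union
      ((measurableSet_le (dm0_q hv) measurable_const).union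
        (measurableSet_le hD.norm measurable_const)))

theorem dm0_setTr (Zc ρ : ℝ) (hD : Measurable D) (hv : Measurable v) (hV : Measurable V) :
    MeasurableSet {a | setTr Zc ρ (D a) (v a) (V a)} :=
  (dm0_setB Zc hD hv hV).inter ((measurableSet_le measurable_const (dm0_x1 hD hv hV)).union
    ((measurableSet_le measurable_const (dm0_x2 Zc hD hv)).union
      (measurableSet_le hD.norm measurable_const)))

theorem dm0_vk (hD : Measurable D) (hv : Measurable v) (hV : Measurable V) (hF : Measurable F) :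
    Measurable fun a => vk (D a) (v a) (V a) (F a) :=
  (((dm0_kT hD hv hV).add ((dm0_kS 1 hD hv hV).mul (dm0_gfl hD hF))).add
    ((dm0_kS 0 hD hv hV).mul hF.norm)).add ((dm0_kS 2 hD hv hV).mul (dm0_gfl hD hF))

theorem dm0_wk (P1 Zc ρ : ℝ) (hD : Measurable D) (hv : Measurable v) (hV : Measurable V)
    (hF : Measurable F) : Measurable fun a => wk P1 Zc ρ (D a) (v a) (V a) (F a) := by
  have h1 := ((dm0_kT hD hv hV).add ((dm0_kS 1 hD hv hV).mul (dm0_gfl hD hF))).add
    ((dm0_kS 0 hD hv hV).mul hF.norm)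
  unfold wk
  refine ((h1.add ?_).add ?_).add ?_
  · exact Measurable.ite (dm0_setG P1 Zc ρ hD hv hV) ((dm0_kS 2 hD hv hV).mul (dm0_gfl hD hF))
      measurable_const
  · exact Measurable.ite (dm0_setB Zc hD hv hV) (measurable_const.div
      (((dm0_ang hD hv).pow_const 2).mul (hD.norm.pow_const 2))) measurable_const
  · exact Measurable.ite (dm0_setTr Zc ρ hD hv hV) ((dm0_ang hD hV).div
      (((dm0_ang hD hv).pow_const 3).mul (hD.norm.pow_const 2))) measurable_const

theorem dm0_mk (Zc : ℝ) (hD : Measurable D) (hv : Measurable v) (hV : Measurable V) :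
    Measurable fun a => mk Zc (D a) (v a) (V a) := by
  unfold mk
  exact Measurable.ite (dm0_setB Zc hD hv hV) (measurable_const.div
    ((((dm0_ang hD hV).pow_const 2).mul (dm0_ang hD hv)).mul hD.norm)) measurable_const

theorem dm0_band {g : α → ℝ} (hg : Measurable g) (x y : ℝ) :
    MeasurableSet {a | x ≤ g a ∧ g a < y} :=
  (measurableSet_le measurable_const hg).inter (measurableSet_lt hg measurable_const)

theorem dm0_inC (x : Idx) (hD : Measurable D) (hv : Measurable v) (hV : Measurable V) :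
    MeasurableSet {a | inC x (D a) (v a) (V a)} :=
  (dm0_band (dm0_q hv) _ _).inter ((dm0_band (dm0_th hV hv) _ _).inter
    ((dm0_band (dm0_ang hD hv) _ _).inter ((dm0_band (dm0_ang hD hV) _ _).inter
      (dm0_band hD.norm _ _))))

end dm0

theorem dm0_c0 (hF : IsFlow A Φ Ψ) (z0 : Z) : Continuous fun ω : Om => Φ ω.1 z0 :=
  (cone_cont hF z0).comp continuous_fst

theorem dm0_c1 : Continuous fun ω : Om => ω.1 - ‖ω.2.1‖ :=
  continuous_fst.sub continuous_snd.fst.norm

theorem dm0_c2 (hF : IsFlow A Φ Ψ) (z0 : Z) : Continuous fun ω : Om => (Φ ω.1 z0).1 - ω.2.1 :=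
  (dm0_c0 hF z0).fst.sub continuous_snd.fst

theorem dm0_cm (hF : IsFlow A Φ Ψ) (z0 : Z) :
    Continuous fun p : ℝ × Z => cm Φ p.1 (Φ p.1 z0).1 p.2 :=
  Continuous.comp (g := fun p : (ℝ × V3) × Z => cm Φ p.1.1 p.1.2 p.2)
    (f := fun p : ℝ × Z => ((p.1, (Φ p.1 z0).1), p.2)) (continuous_cm hF)
    ((continuous_fst.prodMk (dm0_c0 hF z0).fst).prodMk continuous_snd)

theorem dm0_rt (hF : IsFlow A Φ Ψ) (z0 : Z) :
    Continuous fun p : ℝ × Z => rt Φ p.1 (Φ p.1 z0).1 p.2 :=
  Continuous.comp (g := fun p : (ℝ × V3) × Z => rt Φ p.1.1 p.1.2 p.2)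
    (f := fun p : ℝ × Z => ((p.1, (Φ p.1 z0).1), p.2)) (continuous_rt hF)
    ((continuous_fst.prodMk (dm0_c0 hF z0).fst).prodMk continuous_snd)

theorem dm0_dens (hI : Init f0 N P0) (hF : IsFlow A Φ Ψ) (z0 : Z) : Continuous fun ω : Om =>
    dens f0 Ψ (ω.1 - ‖ω.2.1‖) ((Φ ω.1 z0).1 - ω.2.1, ω.2.2) :=
  Continuous.comp (g := fun p : ℝ × Z => dens f0 Ψ p.1 p.2)
    (f := fun ω : Om => (ω.1 - ‖ω.2.1‖, ((Φ ω.1 z0).1 - ω.2.1, ω.2.2))) (hF.continuous_dens hI)
    (dm0_c1.prodMk ((dm0_c2 hF z0).prodMk continuous_snd.snd))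

theorem rho_nonneg (hI : Init f0 N P0) (ω : Om) : 0 ≤ rho f0 Φ Ψ z0 ω := by
  unfold rho
  split_ifs
  · exact mul_nonneg (kap_pos _ _).le (hI.nonneg _)
  · exact le_rfl

theorem rho_le (hI : Init f0 N P0) (ω : Om) : rho f0 Φ Ψ z0 ω ≤ N * kap ω.2.1 ω.2.2 := by
  unfold rho
  split_ifs
  · rw [mul_comm]
    exact mul_le_mul_of_nonneg_right (hI.le _) (kap_pos _ _).le
  · exact mul_nonneg (zero_le_one.trans hI.one_le_N) (kap_pos _ _).le

theorem measurable_rho (hI : Init f0 N P0) (hF : IsFlow A Φ Ψ) : Measurable (rho f0 Φ Ψ z0) := by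
  unfold rho
  exact Measurable.ite (measurableSet_le measurable_snd.fst.norm measurable_fst)
    ((dm0_kap measurable_snd.fst measurable_snd.snd).mul (dm0_dens hI hF z0).measurable)
    measurable_const

theorem measurable_fld {R : ℝ} (hA : App A R) (hF : IsFlow A Φ Ψ) : Measurable (fld A Φ z0) := by
  exact (hA.continuous.comp (dm0_c1.prodMk (dm0_c2 hF z0))).measurable

theorem measurable_ang : Measurable fun w : Z => ang w.1 w.2 := by
  exact dm0_ang measurable_fst measurable_snd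

theorem measurable_th : Measurable fun w : Z => th w.1 w.2 := by
  exact dm0_th measurable_fst measurable_snd

theorem measurable_kS (k : ℕ) : Measurable fun p : Z × V3 => kS k p.1.1 p.1.2 p.2 := by
  exact dm0_kS k measurable_fst.fst measurable_fst.snd measurable_snd

theorem measurable_wk {R : ℝ} (hA : App A R) (hF : IsFlow A Φ Ψ) (P1 Zc ρ : ℝ) :
    Measurable fun ω : Om => wk P1 Zc ρ ω.2.1 ω.2.2 (Φ ω.1 z0).2 (fld A Φ z0 ω) := by
  exact dm0_wk P1 Zc ρ measurable_snd.fst measurable_snd.snd (dm0_c0 hF z0).snd.measurable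
    (measurable_fld hA hF)

theorem measurable_vk {R : ℝ} (hA : App A R) (hF : IsFlow A Φ Ψ) :
    Measurable fun ω : Om => vk ω.2.1 ω.2.2 (Φ ω.1 z0).2 (fld A Φ z0 ω) := by
  exact dm0_vk measurable_snd.fst measurable_snd.snd (dm0_c0 hF z0).snd.measurable
    (measurable_fld hA hF)

theorem measurable_mk (Zc : ℝ) : Measurable fun p : Z × V3 => mk Zc p.1.1 p.1.2 p.2 := by
  exact dm0_mk Zc measurable_fst.fst measurable_fst.snd measurable_snd

theorem measurableSet_inC (hF : IsFlow A Φ Ψ) (x : Idx) :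
    MeasurableSet {ω : Om | inC x ω.2.1 ω.2.2 (Φ ω.1 z0).2} := by
  exact dm0_inC x measurable_snd.fst measurable_snd.snd (dm0_c0 hF z0).snd.measurable

theorem lintegral_mu (hI : Init f0 N P0) (hF : IsFlow A Φ Ψ) {g : Om → ℝ≥0∞} (hg : Measurable g) :
    ∫⁻ ω, g ω ∂mu f0 Φ Ψ z0 a b
      = ∫⁻ s in Ioc a b, ∫⁻ w : Z, ENNReal.ofReal (rho f0 Φ Ψ z0 (s, w)) * g (s, w) := by
  have h1 := (measurable_rho (z0 := z0) hI hF).ennreal_ofReal
  unfold mu
  rw [lintegral_withDensity_eq_lintegral_mul _ h1 hg, lintegral_prod _ (h1.mul hg).aemeasurable]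
  rfl

/-- Lagrangian form on one cone. -/
theorem lintegral_rho_lag (hI : Init f0 N P0) (hF : IsFlow A Φ Ψ) (s : ℝ) {g : Z → ℝ≥0∞}
    (hg : Measurable g) :
    ∫⁻ w : Z, ENNReal.ofReal (rho f0 Φ Ψ z0 (s, w)) * g w
      = ∫⁻ z in {z | 0 ≤ rt Φ s (Φ s z0).1 z}, ENNReal.ofReal (f0 z) * g (cm Φ s (Φ s z0).1 z) := by
  have hm : MeasurableSet {w : Z | ‖w.1‖ ≤ s} := measurableSet_le measurable_fst.norm measurable_const
  have h1 : Measurable fun w : Z =>
      ENNReal.ofReal (dens f0 Ψ (s - ‖w.1‖) ((Φ s z0).1 - w.1, w.2)) * g w :=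
    ((dm0_dens hI hF z0).comp (Continuous.prodMk_right s)).measurable.ennreal_ofReal.mul hg
  have h2 : MeasurableSet {z | 0 ≤ rt Φ s (Φ s z0).1 z} :=
    measurableSet_le measurable_const ((dm0_rt hF z0).comp (Continuous.prodMk_right s)).measurable
  have h3 := lintegral_cm hF s (Φ s z0).1 (h1.indicator hm)
  rw [← lintegral_indicator h2]
  refine Eq.trans (lintegral_congr fun w => ?_) (h3.symm.trans (lintegral_congr fun z => ?_))
  · unfold rho
    by_cases h : ‖w.1‖ ≤ s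
    · rw [if_pos h, indicator_of_mem (show w ∈ {w : Z | ‖w.1‖ ≤ s} from h),
        ENNReal.ofReal_mul (kap_pos _ _).le, mul_assoc]
    · rw [if_neg h, indicator_of_notMem (show w ∉ {w : Z | ‖w.1‖ ≤ s} from h), ENNReal.ofReal_zero,
        zero_mul, mul_zero]
  · by_cases h : 0 ≤ rt Φ s (Φ s z0).1 z
    · have h' : ‖(cm Φ s (Φ s z0).1 z).1‖ ≤ s := by rwa [rt_eq hF, sub_nonneg] at h
      rw [indicator_of_mem (show z ∈ {z | 0 ≤ rt Φ s (Φ s z0).1 z} from h),
        indicator_of_mem (show cm Φ s (Φ s z0).1 z ∈ {w : Z | ‖w.1‖ ≤ s} from h'), dens, psi_cm hF]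
    · have h' : ¬‖(cm Φ s (Φ s z0).1 z).1‖ ≤ s := by rwa [rt_eq hF, sub_nonneg] at h
      rw [indicator_of_notMem (show z ∉ {z | 0 ≤ rt Φ s (Φ s z0).1 z} from h),
        indicator_of_notMem (show cm Φ s (Φ s z0).1 z ∉ {w : Z | ‖w.1‖ ≤ s} from h')]

theorem lintegral_mu_lag (hI : Init f0 N P0) (hF : IsFlow A Φ Ψ) {g : Om → ℝ≥0∞}
    (hg : Measurable g) :
    ∫⁻ ω, g ω ∂mu f0 Φ Ψ z0 a b = ∫⁻ z, ENNReal.ofReal (f0 z) *
      ∫⁻ s in Ioc a b ∩ {s | 0 ≤ rt Φ s (Φ s z0).1 z}, g (s, cm Φ s (Φ s z0).1 z) := by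
  have h2 : MeasurableSet {p : ℝ × Z | 0 ≤ rt Φ p.1 (Φ p.1 z0).1 p.2} :=
    measurableSet_le measurable_const (dm0_rt hF z0).measurable
  have h3 : Measurable fun p : ℝ × Z => g (p.1, cm Φ p.1 (Φ p.1 z0).1 p.2) :=
    hg.comp (measurable_fst.prodMk (dm0_cm hF z0).measurable)
  have h4 : Measurable fun p : ℝ × Z => ENNReal.ofReal (f0 p.2) :=
    (hI.smooth.continuous.measurable.comp measurable_snd).ennreal_ofReal
  obtain ⟨G, hG, e⟩ : ∃ G : ℝ × Z → ℝ≥0∞, Measurable G ∧ ∀ s z, G (s, z) =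
      if 0 ≤ rt Φ s (Φ s z0).1 z then g (s, cm Φ s (Φ s z0).1 z) else 0 :=
    ⟨_, Measurable.ite h2 h3 measurable_const, fun _ _ => rfl⟩
  have h5 : ∀ s, ∫⁻ w : Z, ENNReal.ofReal (rho f0 Φ Ψ z0 (s, w)) * g (s, w) =
      ∫⁻ z, ENNReal.ofReal (f0 z) * G (s, z) := fun s => by
    have h7 : MeasurableSet {z | 0 ≤ rt Φ s (Φ s z0).1 z} := measurable_prodMk_left h2
    rw [lintegral_rho_lag hI hF s (g := fun w => g (s, w)) (hg.comp measurable_prodMk_left),
      ← lintegral_indicator h7]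
    refine lintegral_congr fun z => ?_
    rw [e, mul_ite, mul_zero]
    simp only [indicator, mem_ofPred_eq]
  rw [lintegral_mu hI hF hg, lintegral_congr h5, lintegral_lintegral_swap
    (f := fun s z => ENNReal.ofReal (f0 z) * G (s, z)) (h4.mul hG).aemeasurable]
  refine lintegral_congr fun z => ?_
  have h6 : MeasurableSet {s | 0 ≤ rt Φ s (Φ s z0).1 z} := measurable_prodMk_right h2
  rw [lintegral_const_mul' _ _ ENNReal.ofReal_ne_top, inter_comm, ← Measure.restrict_restrict h6,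
    ← lintegral_indicator h6]
  refine congrArg _ (lintegral_congr fun s => ?_)
  rw [e]
  simp only [indicator, mem_ofPred_eq]

theorem mu_add {e : ℝ} (hab : a ≤ b) (hbe : b ≤ e) :
    mu f0 Φ Ψ z0 a e = mu f0 Φ Ψ z0 a b + mu f0 Φ Ψ z0 b e := by
  unfold mu
  rw [← Ioc_union_Ioc_eq_Ioc hab hbe, Measure.restrict_union (Ioc_disjoint_Ioc_of_le le_rfl)
    measurableSet_Ioc,
    Measure.add_prod, withDensity_add_measure]

theorem mu_univ_le (hS : Sol f0 N P0 K0 En T dat A Φ Ψ) (ha : 0 ≤ a) (hb : b ≤ T) :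
    mu f0 Φ Ψ z0 a b univ ≤ ENNReal.ofReal ((b - a) * En) := by
  rw [← lintegral_one, lintegral_mu hS.init hS.flow measurable_const]
  have h1 : ∀ s ∈ Ioc a b, ∫⁻ w : Z, ENNReal.ofReal (rho f0 Φ Ψ z0 (s, w)) * 1 ≤
      ENNReal.ofReal En := fun s hs => by
    refine le_trans ?_ (hS.ener.coneP s ⟨ha.trans hs.1.le, hs.2.trans hb⟩ (Φ s z0).1)
    rw [← lintegral_indicator (measurableSet_le measurable_fst.norm measurable_const)]
    refine lintegral_mono fun w => ?_
    unfold rho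
    by_cases h : ‖w.1‖ ≤ s
    · rw [if_pos h, indicator_of_mem (show w ∈ {w : Z | ‖w.1‖ ≤ s} from h), mul_one]
      exact ENNReal.ofReal_le_ofReal (mul_le_mul_of_nonneg_right
        (le_mul_of_one_le_right (kap_pos _ _).le (one_le_q _)) (hS.init.nonneg _))
    · rw [if_neg h, ENNReal.ofReal_zero, zero_mul]
      exact zero_le
  refine (setLIntegral_mono' measurableSet_Ioc h1).trans ?_
  rw [setLIntegral_const, Real.volume_Ioc, mul_comm,
    ENNReal.ofReal_mul' (zero_le_one.trans hS.one_le_En)]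

theorem rho_ne_zero (hF : IsFlow A Φ Ψ) (hb : Bnd f0 Φ P T') {ω : Om} (hs : ω.1 ≤ T')
    (h : rho f0 Φ Ψ z0 ω ≠ 0) : ‖ω.2.1‖ ≤ ω.1 ∧ q ω.2.2 ≤ P := by
  unfold rho at h
  split_ifs at h with h1
  · refine ⟨h1, ?_⟩
    have h2 := hb _ (right_ne_zero_of_mul h) (ω.1 - ‖ω.2.1‖) (by linarith [norm_nonneg ω.2.1])
    rwa [hF.right] at h2
  · exact absurd rfl h

theorem ae_mu (hI : Init f0 N P0) (hF : IsFlow A Φ Ψ) :
    ∀ᵐ ω ∂mu f0 Φ Ψ z0 a b, ω.1 ∈ Ioc a b ∧ ω.2.1 ≠ 0 ∧ rho f0 Φ Ψ z0 ω ≠ 0 := by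
  have h1 := measurable_rho (z0 := z0) hI hF
  unfold mu
  rw [ae_withDensity_iff h1.ennreal_ofReal]
  have h2 : ∀ᵐ ω ∂((volume : Measure ℝ).restrict (Ioc a b)).prod (volume : Measure Z),
      ω.1 ∈ Ioc a b := Measure.quasiMeasurePreserving_fst.ae (ae_restrict_mem measurableSet_Ioc)
  have h3 : ∀ᵐ w ∂(volume : Measure Z), w.1 ≠ 0 :=
    Measure.quasiMeasurePreserving_fst.ae (p := fun x : V3 => x ≠ 0) (ae_iff.2 (by simp))
  have h4 : ∀ᵐ ω ∂((volume : Measure ℝ).restrict (Ioc a b)).prod (volume : Measure Z),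
      ω.2.1 ≠ 0 := Measure.quasiMeasurePreserving_snd.ae h3
  filter_upwards [h2, h4] with ω e1 e2 e3
  exact ⟨e1, e2, fun e => e3 (by rw [e, ENNReal.ofReal_zero])⟩

end Vale.Agent.P107
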