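import Vale.Agent.P107.DG3
import Vale.Agent.P107.DM0

/-! Lagrangian form of the force on the test particle. -/

namespace Vale.Agent.P107

open MeasureTheory Set Filter Topology
open scoped RealInnerProductSpace ENNReal

variable {f0 : Z → ℝ} {N P0 K0 En T : ℝ} {dat A : Fld} {Φ Ψ : ℝ → Z → Z} {z0 : Z}

theorem ftc_le {h g : ℝ → V3} {B : ℝ → ℝ≥0∞} {s t : ℝ} (hst : s ≤ t)
    (hg : IntegrableOn g (Ioc s t)) (hd : ∀ σ, ∃ d, HasDerivAt h d σ ∧ ‖g σ - d‖ₑ ≤ B σ) :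
    ‖(∫ σ in Ioc s t, g σ) - (h t - h s)‖ₑ ≤ ∫⁻ σ in Ioc s t, B σ := by
  choose d h1 h2 using hd
  rcases eq_or_ne (∫⁻ σ in Ioc s t, B σ) ⊤ with hB | hB
  · rw [hB]
    exact le_top
  have e : d = deriv h := funext fun σ => (h1 σ).deriv.symm
  have hm : AEStronglyMeasurable d (volume.restrict (Ioc s t)) :=
    e ▸ (measurable_deriv h).aestronglyMeasurable
  have hi : IntegrableOn (fun σ => g σ - d σ) (Ioc s t) :=
    ⟨hg.1.sub hm, (lintegral_mono h2).trans_lt hB.lt_top⟩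
  have hdi : IntegrableOn d (Ioc s t) :=
    (hg.sub hi).congr (Eventually.of_forall fun σ => sub_sub_cancel _ _)
  rw [← intervalIntegral.integral_eq_sub_of_hasDerivAt (fun σ _ => h1 σ)
    ((intervalIntegrable_iff_integrableOn_Ioc_of_le hst).2 hdi), intervalIntegral.integral_of_le hst,
    ← integral_sub hg hdi]
  exact (enorm_integral_le_lintegral_enorm _).trans (lintegral_mono h2)

/-- The Lagrangian form of a function of `(s, D, v)`. -/
noncomputable def lg (f0 : Z → ℝ) (Φ : ℝ → Z → Z) (z0 : Z) (k : Om → V3) (p : ℝ × Z) : V3 :=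
  if 0 ≤ rt Φ p.1 (Φ p.1 z0).1 p.2 then f0 p.2 • k (p.1, cm Φ p.1 (Φ p.1 z0).1 p.2) else 0

theorem cont_rt_pair (hF : IsFlow A Φ Ψ) : Continuous fun p : ℝ × Z => rt Φ p.1 (Φ p.1 z0).1 p.2 :=
  (continuous_rt hF).comp (f := fun p : ℝ × Z => ((p.1, (Φ p.1 z0).1), p.2))
    ((continuous_fst.prodMk ((cone_cont hF z0).comp continuous_fst).fst).prodMk continuous_snd)

theorem cont_cm_pair (hF : IsFlow A Φ Ψ) : Continuous fun p : ℝ × Z => cm Φ p.1 (Φ p.1 z0).1 p.2 :=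
  (continuous_cm hF).comp (f := fun p : ℝ × Z => ((p.1, (Φ p.1 z0).1), p.2))
    ((continuous_fst.prodMk ((cone_cont hF z0).comp continuous_fst).fst).prodMk continuous_snd)

theorem measurable_lg (hI : Init f0 N P0) (hF : IsFlow A Φ Ψ) {k : Om → V3} (hk : Measurable k) :
    Measurable (lg f0 Φ z0 k) :=
  Measurable.ite (measurableSet_le measurable_const (cont_rt_pair hF).measurable)
    ((hI.smooth.continuous.measurable.comp measurable_snd).smul
      (hk.comp (measurable_fst.prodMk (cont_cm_pair hF).measurable))) measurable_const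

theorem lag_ite (hI : Init f0 N P0) (hF : IsFlow A Φ Ψ) {g : Om → ℝ≥0∞} (hg : Measurable g)
    (s t : ℝ) : ∫⁻ z, ∫⁻ σ in Ioc s t, (if 0 ≤ rt Φ σ (Φ σ z0).1 z then
      ENNReal.ofReal (f0 z) * g (σ, cm Φ σ (Φ σ z0).1 z) else 0) = ∫⁻ ω, g ω ∂mu f0 Φ Ψ z0 s t := by
  rw [lintegral_mu_lag hI hF hg]
  refine lintegral_congr fun z => ?_
  have hS : MeasurableSet {σ | 0 ≤ rt Φ σ (Φ σ z0).1 z} := measurableSet_le measurable_const
    ((cont_rt_pair hF).comp (Continuous.prodMk_left z)).measurable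
  rw [inter_comm, ← Measure.restrict_restrict hS, ← lintegral_indicator hS,
    ← lintegral_const_mul' _ _ ENNReal.ofReal_ne_top]
  refine lintegral_congr fun σ => ?_
  by_cases h : 0 ≤ rt Φ σ (Φ σ z0).1 z <;> simp [h]

theorem enorm_lg (hI : Init f0 N P0) (k : Om → V3) (σ : ℝ) (z : Z) :
    ‖lg f0 Φ z0 k (σ, z)‖ₑ = if 0 ≤ rt Φ σ (Φ σ z0).1 z then
      ENNReal.ofReal (f0 z) * ‖k (σ, cm Φ σ (Φ σ z0).1 z)‖ₑ else 0 := by
  unfold lg
  split_ifs
  · rw [enorm_smul, Real.enorm_eq_ofReal (hI.nonneg z)]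
  · exact enorm_zero

theorem lintegral_lg_le (hI : Init f0 N P0) (hF : IsFlow A Φ Ψ) {k : Om → V3} (hk : Measurable k)
    {b : Om → ℝ} (hb : ∀ ω, ω.2.1 ≠ 0 → ‖k ω‖ ≤ b ω) (s t : ℝ) :
    ∫⁻ p, ‖lg f0 Φ z0 k p‖ₑ ∂((volume.restrict (Ioc s t)).prod volume)
      ≤ ∫⁻ ω, ENNReal.ofReal (b ω) ∂mu f0 Φ Ψ z0 s t := by
  rw [lintegral_prod_symm _ (measurable_lg hI hF hk).enorm.aemeasurable]
  simp only [enorm_lg hI]
  rw [lag_ite hI hF hk.enorm]
  refine lintegral_mono_ae ?_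
  filter_upwards [ae_mu hI hF] with ω hω
  rw [← ofReal_norm]
  exact ENNReal.ofReal_le_ofReal (hb ω hω.2.1)

/-- The pair force as a function of `(s, D, v)`. -/
noncomputable def pfo (A : Fld) (Φ : ℝ → Z → Z) (z0 : Z) (ω : Om) : V3 :=
  pf ω.2.1 ω.2.2 (Φ ω.1 z0).2 (fld A Φ z0 ω)

theorem measurable_pfo {R : ℝ} (hA : App A R) (hF : IsFlow A Φ Ψ) : Measurable (pfo A Φ z0) :=
  (measurable_kap.comp measurable_snd).inv.smul (contDiff_lor.continuous.measurable.comp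
    ((measurable_ker.comp (measurable_snd.prodMk (measurable_fld hA hF))).prodMk
      ((cone_cont hF z0).snd.measurable.comp measurable_fst)))

theorem force_lag (hS : Sol f0 N P0 K0 En T dat A Φ Ψ) {σ : ℝ} (hσ : σ ∈ Icc 0 T) :
    lor (A (σ, (Φ σ z0).1)) (Φ σ z0).2 = lor (dat (σ, (Φ σ z0).1)) (Φ σ z0).2
      + ∫ z, lg f0 Φ z0 (pfo A Φ z0) (σ, z) := by
  obtain ⟨R, hA⟩ := hS.app
  have hF := hS.flow
  obtain ⟨L, hL⟩ := exists_lorL (Φ σ z0).2
  have ms : MeasurableSet {w : Z | ‖w.1‖ ≤ σ} :=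
    measurableSet_le continuous_fst.norm.measurable measurable_const
  have md : Continuous fun w : Z => dens f0 Ψ (σ - ‖w.1‖) ((Φ σ z0).1 - w.1, w.2) :=
    (hF.continuous_dens hS.init).comp (f := fun w : Z => (σ - ‖w.1‖, (Φ σ z0).1 - w.1, w.2))
      (by fun_prop)
  have h1 := integral_cm hF σ (Φ σ z0).1 (g := {w : Z | ‖w.1‖ ≤ σ}.indicator fun w =>
      dens f0 Ψ (σ - ‖w.1‖) ((Φ σ z0).1 - w.1, w.2) • pfo A Φ z0 (σ, w))
    ((md.measurable.smul ((measurable_pfo hA hF).comp measurable_prodMk_left)).indicator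
      ms).aestronglyMeasurable
  rw [hS.rep (σ, (Φ σ z0).1) ⟨hσ, trivial⟩, lor_add, ← hL (intF _ _ _), intF,
    ← L.integral_comp_comm (integrableOn_intF hS.init hA hF _), ← integral_indicator ms]
  refine congrArg _ (Eq.trans (integral_congr_ae (Eventually.of_forall fun w => ?_))
    (h1.symm.trans (integral_congr_ae (Eventually.of_forall fun z => ?_))))
  · by_cases h : ‖w.1‖ ≤ σ
    · simp only [indicator, mem_ofPred_eq, h, if_true, lor_smul, hL, pfo, pf, fld]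
      rw [smul_comm (kap _ _), smul_inv_smul₀ (kap_pos _ _).ne']
    · simp [h]
  · have e : ‖(cm Φ σ (Φ σ z0).1 z).1‖ ≤ σ ↔ 0 ≤ rt Φ σ (Φ σ z0).1 z := by
      rw [rt_eq hF, sub_nonneg]
    simp only [indicator, mem_ofPred_eq, e, lg, dens, psi_cm hF]

end Vale.Agent.P107
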