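import Vale.Agent.P107.DIbp1

/-! The pieces of the integration by parts along pairs. -/

namespace Vale.Agent.P107

open MeasureTheory Set Filter Topology
open scoped RealInnerProductSpace ENNReal

variable {f0 : Z → ℝ} {N P0 K0 En T c P T' qq a b : ℝ} {dat A : Fld} {Φ Ψ : ℝ → Z → Z} {z0 : Z}

theorem Sol.lor_dat (hS : Sol f0 N P0 K0 En T dat A Φ Ψ) {σ : ℝ} (hσ : σ ∈ Icc 0 T) (x V : V3) :
    ‖lor (dat (σ, x)) V‖ ≤ 2 * K0 := by
  linarith [norm_lor_le (dat (σ, x)) V, hS.dat_bdd (σ, x) ⟨hσ, trivial⟩]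

/-- The derivative along one pair. -/
theorem pair_deriv : ∃ C : ℝ, 1 ≤ C ∧ ∀ (A : Fld) (Φ Ψ : ℝ → Z → Z) (z0 z : Z) (P1 Zc ρ σ : ℝ),
    IsFlow A Φ Ψ → q z.2 < P1 → 0 < Zc → 0 < ρ → ∃ d, HasDerivAt (fun σ =>
      chi P1 Zc ρ (cm Φ σ (Φ σ z0).1 z).1 (cm Φ σ (Φ σ z0).1 z).2 (Φ σ z0).2 •
        HH (cm Φ σ (Φ σ z0).1 z).1 (cm Φ σ (Φ σ z0).1 z).2 (Φ σ z0).2) d σ ∧
      ‖(if 0 ≤ rt Φ σ (Φ σ z0).1 z then
        chi P1 Zc ρ (cm Φ σ (Φ σ z0).1 z).1 (cm Φ σ (Φ σ z0).1 z).2 (Φ σ z0).2 •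
          pfo A Φ z0 (σ, cm Φ σ (Φ σ z0).1 z) else 0) - d‖ₑ ≤
      if 0 ≤ rt Φ σ (Φ σ z0).1 z then ENNReal.ofReal (C *
        (wk P1 Zc ρ (cm Φ σ (Φ σ z0).1 z).1 (cm Φ σ (Φ σ z0).1 z).2 (Φ σ z0).2
          (fld A Φ z0 (σ, cm Φ σ (Φ σ z0).1 z)) +
        mk Zc (cm Φ σ (Φ σ z0).1 z).1 (cm Φ σ (Φ σ z0).1 z).2 (Φ σ z0).2
          * ‖lor (A (σ, (Φ σ z0).1)) (Φ σ z0).2‖ / q (Φ σ z0).2)) else 0 := by
  obtain ⟨C, hC, H⟩ := chi_HH_deriv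
  refine ⟨C, hC, fun A Φ Ψ z0 z P1 Zc ρ σ hF hq hZ hρ => ?_⟩
  have hP : 0 < P1 := (q_pos _).trans hq
  have hc : Continuous fun σ => cm Φ σ (Φ σ z0).1 z :=
    (cont_cm_pair hF).comp (Continuous.prodMk_left z)
  by_cases h : ∀ᶠ r in 𝓝 σ,
      chi P1 Zc ρ (cm Φ r (Φ r z0).1 z).1 (cm Φ r (Φ r z0).1 z).2 (Φ r z0).2 = 0
  · refine ⟨0, (hasDerivAt_const σ (0 : V3)).congr_of_eventuallyEq (h.mono fun r hr => ?_), ?_⟩
    · simp only [hr, zero_smul]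
    · simp only [h.self_of_nhds, zero_smul, ite_self, sub_zero, enorm_zero, zero_le]
  have hD : (cm Φ σ (Φ σ z0).1 z).1 ≠ 0 := fun e => h <|
    ((hc.fst.norm.tendsto σ).eventually (gt_mem_nhds (by simpa only [e, norm_zero] using hρ))).mono
      fun r hr => chi_eq_zero_of_norm hρ hr.le
  have hτ : 0 < rt Φ σ (Φ σ z0).1 z := lt_of_not_ge fun e => h <|
    (((contDiff_q.continuous.comp hc.snd).tendsto σ).eventually (gt_mem_nhds (by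
      simpa only [Function.comp, cm, hF.free _ e] using hq))).mono
      fun r hr => chi_eq_zero_of_q hP hr.le
  have hσ : 0 < σ := by
    have := rt_eq hF σ (Φ σ z0).1 z
    linarith [norm_nonneg (cm Φ σ (Φ σ z0).1 z).1]
  have h1 := rt_hasDerivAt hF z0 z hD
  have e : fld A Φ z0 (σ, cm Φ σ (Φ σ z0).1 z)
      = A (rt Φ σ (Φ σ z0).1 z, (Φ (rt Φ σ (Φ σ z0).1 z) z).1) := by
    rw [fld, ← rt_eq hF, cm, sub_sub_cancel]
  obtain ⟨d, h2, h3⟩ := H P1 Zc ρ hP hZ hρ (fun σ => (cm Φ σ (Φ σ z0).1 z).1)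
    (fun σ => (cm Φ σ (Φ σ z0).1 z).2) (fun σ => (Φ σ z0).2) _
    (fld A Φ z0 (σ, cm Φ σ (Φ σ z0).1 z)) σ hD
    ((hF.pos_deriv σ z0).sub ((hF.pos_deriv _ z).scomp σ h1))
    (by rw [e]; exact (hF.mom_deriv hτ z).scomp σ h1) (hF.mom_deriv hσ z0)
  refine ⟨d, h2, ?_⟩
  rw [if_pos hτ.le, if_pos hτ.le, ← ofReal_norm]
  exact ENNReal.ofReal_le_ofReal h3

theorem tv_le (hS : Sol f0 N P0 K0 En T dat A Φ Ψ) {s t Iv : ℝ} (hs : 0 ≤ s) (hst : s ≤ t) (ht : t ≤ T)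
    (hIv : 0 ≤ Iv) (hv : ∫⁻ ω, ENNReal.ofReal (vk ω.2.1 ω.2.2 (Φ ω.1 z0).2 (fld A Φ z0 ω))
      ∂mu f0 Φ Ψ z0 s t ≤ ENNReal.ofReal Iv) :
    ∫⁻ σ in Ioc s t, ENNReal.ofReal ‖lor (A (σ, (Φ σ z0).1)) (Φ σ z0).2‖
      ≤ ENNReal.ofReal (2 * K0 * (t - s) + Iv) := by
  obtain ⟨R, hA⟩ := hS.app
  have hK : 0 ≤ 2 * K0 :=
    (norm_nonneg _).trans (hS.lor_dat ⟨le_rfl, hs.trans (hst.trans ht)⟩ 0 0)
  have hm := measurable_lg (z0 := z0) hS.init hS.flow (measurable_pfo (z0 := z0) hA hS.flow)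
  have h1 := (lintegral_lg_le hS.init hS.flow (measurable_pfo hA hS.flow)
    (fun ω hω => norm_pf_le hω _ _ _) s t).trans hv
  rw [lintegral_prod _ hm.enorm.aemeasurable] at h1
  rw [ENNReal.ofReal_add (mul_nonneg hK (sub_nonneg.2 hst)) hIv, ENNReal.ofReal_mul hK,
    ← Real.volume_Ioc, ← setLIntegral_const]
  refine le_trans ?_ (add_le_add_right h1 _)
  rw [← lintegral_add_left measurable_const]
  refine setLIntegral_mono' measurableSet_Ioc fun σ hσ => ?_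
  have h2 : σ ∈ Icc 0 T := ⟨hs.trans hσ.1.le, hσ.2.trans ht⟩
  rw [force_lag hS h2, ofReal_norm]
  refine (enorm_add_le _ _).trans (add_le_add ?_ (enorm_integral_le_lintegral_enorm _))
  rw [← ofReal_norm]
  exact ENNReal.ofReal_le_ofReal (hS.lor_dat h2 _ _)

/-- The boundary terms. -/
theorem bdry_le (hI : Init f0 N P0) (hF : IsFlow A Φ Ψ) {P1 Zc ρ r Mb : ℝ} (hP : P0 < P1)
    (hM : ∫⁻ w : Z, ENNReal.ofReal (rho f0 Φ Ψ z0 (r, w)) *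
      ENNReal.ofReal (mk Zc w.1 w.2 (Φ r z0).2) ≤ ENNReal.ofReal Mb) :
    ∃ bd : Z → ℝ≥0∞, Measurable bd ∧ ∫⁻ z, bd z ≤ ENNReal.ofReal (2 * Mb) ∧ ∀ z,
      ‖f0 z • chi P1 Zc ρ (cm Φ r (Φ r z0).1 z).1 (cm Φ r (Φ r z0).1 z).2 (Φ r z0).2 •
        HH (cm Φ r (Φ r z0).1 z).1 (cm Φ r (Φ r z0).1 z).2 (Φ r z0).2‖ₑ ≤ bd z := by
  have hS : MeasurableSet {z | 0 ≤ rt Φ r (Φ r z0).1 z} := measurableSet_le measurable_const
    ((cont_rt_pair hF).comp (Continuous.prodMk_right r)).measurable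
  have hg : Measurable fun w : Z => ENNReal.ofReal (mk Zc w.1 w.2 (Φ r z0).2) :=
    ((measurable_mk Zc).comp (measurable_prodMk_right (y := (Φ r z0).2))).ennreal_ofReal
  have hm := hI.smooth.continuous.measurable.ennreal_ofReal.mul
    (hg.comp (coneb_cont hF r (Φ r z0).1).measurable)
  refine ⟨_, (hm.indicator hS).const_mul 2, ?_, fun z => ?_⟩
  · rw [lintegral_const_mul _ (hm.indicator hS), lintegral_indicator hS, ENNReal.ofReal_mul zero_le_two,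
      ENNReal.ofReal_ofNat]
    exact mul_le_mul_right ((lintegral_rho_lag hI hF r hg).symm.le.trans hM) _
  · by_cases h0 : f0 z = 0
    · simp only [h0, zero_smul, enorm_zero, zero_le]
    by_cases h : 0 ≤ rt Φ r (Φ r z0).1 z
    · rw [indicator_of_mem (s := {z | 0 ≤ rt Φ r (Φ r z0).1 z}) h, enorm_smul,
        Real.enorm_eq_ofReal (hI.nonneg z), Pi.mul_apply, mul_left_comm, ← ofReal_norm]
      refine mul_le_mul_right ((ENNReal.ofReal_le_ofReal (chi_HH_le _ _ _ _ _ _)).trans ?_) _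
      rw [ENNReal.ofReal_mul zero_le_two, ENNReal.ofReal_ofNat]
      exact le_rfl
    · have h1 := (hI.supp z h0).2
      rw [chi_eq_zero_of_q (by linarith [hI.one_le_P0]) (by
        simpa only [cm, hF.free _ (not_le.1 h).le] using h1.trans hP.le)]
      simp only [zero_smul, smul_zero, enorm_zero, zero_le]

theorem cont_force {R : ℝ} (hA : App A R) (hF : IsFlow A Φ Ψ) :
    Continuous fun σ => lor (A (σ, (Φ σ z0).1)) (Φ σ z0).2 :=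
  contDiff_lor.continuous.comp (f := fun σ => (A (σ, (Φ σ z0).1), (Φ σ z0).2))
    ((hA.continuous.comp (continuous_id.prodMk (cone_cont hF z0).fst)).prodMk (cone_cont hF z0).snd)

theorem ibp_split (hS : Sol f0 N P0 K0 En T dat A Φ Ψ) {s t : ℝ} (hs : 0 ≤ s) (hst : s ≤ t)
    (ht : t ≤ T) {k1 k2 : Om → V3} (hk : ∀ ω, pfo A Φ z0 ω = k1 ω + k2 ω)
    (i1 : Integrable (lg f0 Φ z0 k1) ((volume.restrict (Ioc s t)).prod volume))
    (i2 : Integrable (lg f0 Φ z0 k2) ((volume.restrict (Ioc s t)).prod volume)) :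
    ‖(Φ t z0).2 - (Φ s z0).2‖ ≤ 2 * K0 * (t - s) +
      (‖∫ p, lg f0 Φ z0 k1 p ∂((volume.restrict (Ioc s t)).prod volume)‖ +
        ‖∫ p, lg f0 Φ z0 k2 p ∂((volume.restrict (Ioc s t)).prod volume)‖) := by
  obtain ⟨R, hA⟩ := hS.app
  have hF := hS.flow
  have cV := cont_force (z0 := z0) hA hF
  have e0 := intervalIntegral.integral_eq_sub_of_hasDerivAt_of_le hst
    (cone_cont hF z0).snd.continuousOn
    (fun σ hσ => hF.mom_deriv (hs.trans_lt hσ.1) z0) (cV.intervalIntegrable s t)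
  rw [intervalIntegral.integral_of_le hst] at e0
  have e2 : lg f0 Φ z0 (pfo A Φ z0) = lg f0 Φ z0 k1 + lg f0 Φ z0 k2 := funext fun p => by
    simp only [Pi.add_apply, lg, hk]
    split_ifs
    · exact smul_add _ _ _
    · exact (add_zero _).symm
  have i3 : Integrable (lg f0 Φ z0 (pfo A Φ z0)) ((volume.restrict (Ioc s t)).prod volume) :=
    e2 ▸ i1.add i2
  have e1 := integral_sub (cV.integrableOn_Ioc (a := s) (b := t)) i3.integral_prod_left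
  rw [← integral_prod _ i3, e0] at e1
  have a0 := norm_setIntegral_le_of_norm_le_const (μ := volume) (s := Ioc s t) (C := 2 * K0)
    (f := fun σ => lor (A (σ, (Φ σ z0).1)) (Φ σ z0).2 - ∫ z, lg f0 Φ z0 (pfo A Φ z0) (σ, z))
    measure_Ioc_lt_top fun σ hσ => by
      have h2 : σ ∈ Icc 0 T := ⟨hs.trans hσ.1.le, hσ.2.trans ht⟩
      rw [force_lag hS h2, add_sub_cancel_right]
      exact hS.lor_dat h2 _ _
  rw [Real.volume_real_Ioc_of_le hst, e1, e2, integral_add' i1 i2] at a0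
  exact (norm_le_norm_sub_add _ _).trans (add_le_add a0 (norm_add_le _ _))

theorem measurable_mkV {R : ℝ} (hA : App A R) (hF : IsFlow A Φ Ψ) (Zc : ℝ) :
    Measurable fun ω : Om => mk Zc ω.2.1 ω.2.2 (Φ ω.1 z0).2
      * ‖lor (A (ω.1, (Φ ω.1 z0).1)) (Φ ω.1 z0).2‖ / q (Φ ω.1 z0).2 :=
  (((measurable_mk Zc).comp (measurable_snd.prodMk
    ((cone_cont hF z0).snd.measurable.comp measurable_fst))).mul
      ((cont_force hA hF).norm.measurable.comp measurable_fst)).div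
    ((contDiff_q.continuous.comp (cone_cont hF z0).snd).measurable.comp measurable_fst)

theorem ibp_mk (hS : Sol f0 N P0 K0 En T dat A Φ Ψ) {Zc s t q1 Mb X : ℝ} (hq1 : 0 < q1)
    (hMb : 0 ≤ Mb) (hq : ∀ σ ∈ Icc s t, q1 ≤ q (Φ σ z0).2)
    (hM : ∀ σ ∈ Icc s t, ∫⁻ w : Z, ENNReal.ofReal (rho f0 Φ Ψ z0 (σ, w)) *
      ENNReal.ofReal (mk Zc w.1 w.2 (Φ σ z0).2) ≤ ENNReal.ofReal Mb)
    (hX : ∫⁻ σ in Ioc s t, ENNReal.ofReal ‖lor (A (σ, (Φ σ z0).1)) (Φ σ z0).2‖ ≤ ENNReal.ofReal X) :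
    ∫⁻ ω, ENNReal.ofReal (mk Zc ω.2.1 ω.2.2 (Φ ω.1 z0).2
      * ‖lor (A (ω.1, (Φ ω.1 z0).1)) (Φ ω.1 z0).2‖ / q (Φ ω.1 z0).2) ∂mu f0 Φ Ψ z0 s t
      ≤ ENNReal.ofReal (Mb / q1 * X) := by
  obtain ⟨R, hA⟩ := hS.app
  rw [lintegral_mu hS.init hS.flow (measurable_mkV hA hS.flow Zc).ennreal_ofReal,
    ENNReal.ofReal_mul (div_nonneg hMb hq1.le)]
  refine le_trans ?_ (mul_le_mul_right hX _)
  rw [← lintegral_const_mul' _ _ ENNReal.ofReal_ne_top]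
  refine setLIntegral_mono' measurableSet_Ioc fun σ hσ => ?_
  simp only [mul_div_assoc, ENNReal.ofReal_mul (mk_nonneg _ _ _ _), ← mul_assoc]
  rw [lintegral_mul_const' _ _ ENNReal.ofReal_ne_top]
  refine (mul_le_mul_left (hM σ (Ioc_subset_Icc_self hσ)) _).trans ?_
  rw [← ENNReal.ofReal_mul hMb, ← ENNReal.ofReal_mul (div_nonneg hMb hq1.le), div_mul_eq_mul_div,
    mul_div_assoc]
  exact ENNReal.ofReal_le_ofReal (mul_le_mul_of_nonneg_left (div_le_div_of_nonneg_left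
    (norm_nonneg _) hq1 (hq σ (Ioc_subset_Icc_self hσ))) hMb)

theorem ibp_two (hI : Init f0 N P0) (hF : IsFlow A Φ Ψ) {s t : ℝ} (hst : s ≤ t) {k : Om → V3}
    (i2 : Integrable (lg f0 Φ z0 k) ((volume.restrict (Ioc s t)).prod volume)) {g : Om → ℝ≥0∞}
    (hg : Measurable g) {h : Z → ℝ → V3} {bs bt : Z → ℝ≥0∞} (ms : Measurable bs)
    (mt : Measurable bt) (hs : ∀ z, ‖f0 z • h z s‖ₑ ≤ bs z) (ht : ∀ z, ‖f0 z • h z t‖ₑ ≤ bt z)
    (H : ∀ z, f0 z ≠ 0 → ∀ σ, ∃ d, HasDerivAt (h z) d σ ∧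
      ‖(if 0 ≤ rt Φ σ (Φ σ z0).1 z then k (σ, cm Φ σ (Φ σ z0).1 z) else 0) - d‖ₑ ≤
        if 0 ≤ rt Φ σ (Φ σ z0).1 z then g (σ, cm Φ σ (Φ σ z0).1 z) else 0) :
    ‖∫ p, lg f0 Φ z0 k p ∂((volume.restrict (Ioc s t)).prod volume)‖ₑ ≤
      (∫⁻ z, bt z) + ((∫⁻ z, bs z) + ∫⁻ ω, g ω ∂mu f0 Φ Ψ z0 s t) := by
  rw [integral_prod_symm _ i2, ← lag_ite hI hF hg, ← lintegral_add_left ms, ← lintegral_add_left mt]
  refine (enorm_integral_le_lintegral_enorm _).trans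
    (lintegral_mono_ae (i2.prod_left_ae.mono fun z hz => ?_))
  by_cases h0 : f0 z = 0
  · simp only [lg, h0, zero_smul, ite_self, integral_zero, enorm_zero, zero_le]
  have h1 := ftc_le (h := fun σ => f0 z • h z σ) (B := fun σ => if 0 ≤ rt Φ σ (Φ σ z0).1 z then
      ENNReal.ofReal (f0 z) * g (σ, cm Φ σ (Φ σ z0).1 z) else 0) hst hz fun σ => ?_
  · rw [← sub_add_cancel (∫ σ in Ioc s t, _) (f0 z • h z t - f0 z • h z s), ← add_assoc,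
      add_comm (bt z + bs z)]
    exact (enorm_add_le _ _).trans (add_le_add h1
      ((enorm_sub_le).trans (add_le_add (ht z) (hs z))))
  obtain ⟨d, h2, h3⟩ := H z h0 σ
  refine ⟨_, h2.const_smul (f0 z), ?_⟩
  have h4 := mul_le_mul_right h3 (ENNReal.ofReal (f0 z))
  rw [← Real.enorm_eq_ofReal (hI.nonneg z), ← enorm_smul, smul_sub, smul_ite, smul_zero,
    Real.enorm_eq_ofReal (hI.nonneg z), mul_ite, mul_zero] at h4
  exact h4

end Vale.Agent.P107
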