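import Vale.Agent.P107.DM6
import Vale.Agent.P107.DIbp

/-! The improved variation bound on one window.

Plan. P1 = P0 + 1, C from ibp, η = 1/(100 C). Mb = zc P^(1/300), κ = C Mb/(qq/2). W t = 2 K0 (1+κ)(t-a) + C Iw(a,t) + κ Iv(a,t) with Iw(s,t), Iv(s,t) the toReal of the lintegrals over mu s t; they are finite
(mu_add, win_bounds) and additive (mu_add, lintegral_add_measure), so W is monotone and W t - W s is the bound of ibp without the last term. κ qq^(3/2) P^(1/300) = 2C qq P^(-1/300); κ ≤ 1, 4 K0 ≤ qq/100 (b - a ≤ 1), C Mb ≤ √qq for large P.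
0 ≤ K0 from dat_bdd at a point of the slab. -/

namespace Vale.Agent.P107

open MeasureTheory Set Filter Topology
open scoped RealInnerProductSpace ENNReal

variable {f0 : Z → ℝ} {N P0 K0 En T c P T' qq a b : ℝ} {dat A : Fld} {Φ Ψ : ℝ → Z → Z} {z0 : Z}


theorem imp_J (g : Om → ℝ≥0∞) {B : ℝ} (hB : 0 ≤ B)
    (h : ∫⁻ ω, g ω ∂mu f0 Φ Ψ z0 a b ≤ ENNReal.ofReal B) :
    ∃ J : ℝ → ℝ, J b - J a ≤ B ∧ ∀ s ∈ Icc a b, ∀ t ∈ Icc a b, s ≤ t →
      0 ≤ J t - J s ∧ ∫⁻ ω, g ω ∂mu f0 Φ Ψ z0 s t ≤ ENNReal.ofReal (J t - J s) := by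
  refine ⟨fun t => (∫⁻ ω, g ω ∂mu f0 Φ Ψ z0 a t).toReal,
    (sub_le_self _ ENNReal.toReal_nonneg).trans (ENNReal.toReal_le_of_le_ofReal hB h),
    fun s hs t ht hst => ?_⟩
  rw [mu_add ht.1 ht.2, lintegral_add_measure, mu_add hs.1 hst, lintegral_add_measure] at h
  have h1 := ENNReal.add_ne_top.1 (ENNReal.add_ne_top.1
    (ne_top_of_le_ne_top ENNReal.ofReal_ne_top h)).1
  simp only [mu_add hs.1 hst, lintegral_add_measure, ENNReal.toReal_add h1.1 h1.2,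
    add_sub_cancel_left, ENNReal.ofReal_toReal h1.2]
  exact ⟨ENNReal.toReal_nonneg, le_rfl⟩

theorem imp_num {C r x : ℝ} (hC : 1 ≤ C) (hx : 200 * C ≤ x) (hr : 1 ≤ r) :
    C * (r * (x ^ 3)⁻¹ * x) ≤ r ∧ C * (r * (x ^ 3)⁻¹ * x) / (r ^ 2 / 2) ≤ 1 ∧
      C * (r * (x ^ 3)⁻¹ * x) / (r ^ 2 / 2) * (r ^ 3 * x) ≤ r ^ 2 / 100 := by
  have x0 : 0 < x := by linarith
  have r0 : 0 < r := by linarith
  have x2 : 200 * C ≤ x ^ 2 := by nlinarith
  refine ⟨?_, ?_, ?_⟩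
  · rw [show C * (r * (x ^ 3)⁻¹ * x) = r * C / x ^ 2 by field_simp, div_le_iff₀ (by positivity)]
    exact mul_le_mul_of_nonneg_left (by linarith) r0.le
  · rw [show C * (r * (x ^ 3)⁻¹ * x) / (r ^ 2 / 2) = 2 * C / (r * x ^ 2) by field_simp,
      div_le_one (by positivity)]
    nlinarith
  · rw [show C * (r * (x ^ 3)⁻¹ * x) / (r ^ 2 / 2) * (r ^ 3 * x) = r ^ 2 * (2 * C / x) by
      field_simp, div_eq_mul_inv (r ^ 2)]
    refine mul_le_mul_of_nonneg_left ?_ (by positivity)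
    rw [div_le_iff₀ x0]
    linarith

theorem improve (N P0 K0 En : ℝ) : ∀ᶠ c in 𝓝[>] (0 : ℝ), ∀ᶠ P in atTop,
    ∀ (f0 : Z → ℝ) (T T' qq a b : ℝ) (dat A : Fld) (Φ Ψ : ℝ → Z → Z) (z0 : Z),
      Win f0 N P0 K0 En T dat A Φ Ψ c P T' qq z0 a b →
      Var (fun s => (Φ s z0).2) a b (1 / 20 * qq) (Real.sqrt qq) := by
  obtain ⟨C, hC, hI⟩ := ibp
  have C0 : 0 < C := one_pos.trans_le hC
  filter_upwards [win_bounds N En (P0 + 1) (1 / (100 * C)) (by positivity)] with c hc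
  filter_upwards [hc, (tendsto_rpow_atTop (show (0 : ℝ) < 1 / 300 by norm_num)).eventually_ge_atTop
    (200 * C), (tendsto_rpow_atTop (show (0 : ℝ) < 11 / 20 by norm_num)).eventually_ge_atTop
    (400 * K0)] with P h1 h2 h3 f0 T T' qq a b dat A Φ Ψ z0 hW
  obtain ⟨h4, h5, h6⟩ := h1 f0 P0 K0 T T' qq a b dat A Φ Ψ z0 hW
  have P1 : 1 ≤ P := one_le_two.trans hW.P_ge
  have P0' : 0 < P := one_pos.trans_le P1
  have q1 : 1 ≤ qq := (Real.one_le_rpow P1 (by norm_num)).trans hW.q_lo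
  have q0 : 0 < qq := one_pos.trans_le q1
  have q2 : 400 * K0 ≤ qq := h3.trans hW.q_lo
  have bT : b ≤ T := hW.b_le.trans hW.T'_le
  have K0' : 0 ≤ K0 := (norm_nonneg _).trans
    (hW.sol.dat_bdd (a, 0) ⟨⟨hW.a_nonneg, hW.a_le.trans bT⟩, mem_univ _⟩)
  have l1 : b - a ≤ 1 := hW.len.trans (dl_le_one hW.c_le P1 q0.le hW.q_hi)
  have z1 : 0 < zc P qq := mul_pos (Real.sqrt_pos.2 q0) (Real.rpow_pos_of_pos P0' _)
  have M0 : 0 ≤ zc P qq * P ^ (1 / 300 : ℝ) := by positivity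
  obtain ⟨n1, n2, n3⟩ := imp_num hC h2 (Real.one_le_sqrt.2 q1)
  have e1 : ((P ^ (1 / 300 : ℝ)) ^ 3)⁻¹ = P ^ (-1 / 100 : ℝ) := by
    rw [← Real.rpow_natCast, ← Real.rpow_mul P0'.le, ← Real.rpow_neg P0'.le]
    norm_num
  have e2 : √qq ^ 3 = qq ^ (3 / 2 : ℝ) := by
    rw [Real.sqrt_eq_rpow, ← Real.rpow_natCast, ← Real.rpow_mul q0.le]
    norm_num
  rw [e1, ← zc] at n1 n2 n3
  rw [e2] at n3
  rw [Real.sq_sqrt q0.le] at n2 n3
  obtain ⟨J₁, j1, j2⟩ := imp_J _ (by positivity) h4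
  obtain ⟨J₂, j3, j4⟩ := imp_J _ (by positivity) h5
  have key := fun s (hs : s ∈ Icc a b) t (ht : t ∈ Icc a b) (hst : s ≤ t) =>
    hI f0 N P0 K0 En T dat A Φ Ψ z0 (P0 + 1) (zc P qq) (r0 P) s t (qq / 2) _ _ _ hW.sol
      (lt_add_one _) z1 (inv_pos.2 (pow_pos P0' 20)) (hW.a_nonneg.trans hs.1) hst (ht.2.trans bT)
      (half_pos q0) M0 (j2 s hs t ht hst).1 (j4 s hs t ht hst).1
      (fun σ hσ => hW.en σ ⟨hs.1.trans hσ.1, hσ.2.trans ht.2⟩)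
      (fun σ hσ => h6 σ ⟨hs.1.trans hσ.1, hσ.2.trans ht.2⟩) (j2 s hs t ht hst).2
      (j4 s hs t ht hst).2
  have k0 : 0 ≤ C * (zc P qq * P ^ (1 / 300 : ℝ)) / (qq / 2) := by positivity
  generalize C * (zc P qq * P ^ (1 / 300 : ℝ)) / (qq / 2) = κ at key n2 n3 k0
  refine ⟨fun t => 2 * K0 * (1 + κ) * t + C * J₁ t + κ * J₂ t, fun s hs t ht hst => ?_, ?_,
    fun s hs t ht hst => ?_⟩
  · have a1 := mul_nonneg C0.le (j2 s hs t ht hst).1
    have a2 := mul_nonneg k0 (j4 s hs t ht hst).1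
    have a3 := mul_nonneg (show 0 ≤ 2 * K0 * (1 + κ) by positivity) (sub_nonneg.2 hst)
    simp only
    linarith
  · have a1 := mul_le_mul_of_nonneg_left j1 C0.le
    have a2 := (mul_le_mul_of_nonneg_left j3 k0).trans n3
    have a3 := mul_le_mul_of_nonneg_left l1 (show 0 ≤ 2 * K0 * (1 + κ) by positivity)
    have a4 := mul_le_mul_of_nonneg_left n2 K0'
    rw [show C * (1 / (100 * C) * qq) = qq / 100 by field_simp] at a1
    simp only
    linarith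
  · have a1 := key s hs t ht hst
    simp only
    linarith

end Vale.Agent.P107
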