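import Vale.Agent.P107.DM0

/-! Decomposition into dyadic classes.

Plan. cls_cover: take Int.log 2 of q v, th, ang, ang, ‖D‖ (Int.zpow_log_le_self, Int.lt_zpow_succ_log_self); a power of two below 2 is at most 1;
nL P > logb 2 P + 2; yy_ge, ang_ge (use kap_ge: 2 cΘ > ang ≥ 1/(√2 q v)), tri_*. lintegral_le_sm: mu-a.e. (ae_mu, rho_ne_zero, bnd at z0, ‖D‖ ≤ s ≤ T ≤ P)
the integrand is at most the finite sum of k x times the indicator of the class; mu is finite (mu_univ_le). -/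

namespace Vale.Agent.P107

open MeasureTheory Set Filter Topology
open scoped RealInnerProductSpace ENNReal

variable {f0 : Z → ℝ} {N P0 K0 En T c P T' qq a b : ℝ} {dat A : Fld} {Φ Ψ : ℝ → Z → Z} {z0 : Z}


theorem dm1_ex {r : ℝ} (hr : 0 < r) : ∃ i : ℤ, (2 : ℝ) ^ i ≤ r ∧ r < 2 * 2 ^ i := by
  have h1 := Int.zpow_log_le_self (b := 2) (by norm_num) hr
  have h2 := Int.lt_zpow_succ_log_self (b := 2) (by norm_num) r
  rw [Nat.cast_ofNat] at h1 h2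
  rw [zpow_add_one₀ (by norm_num), mul_comm] at h2
  exact ⟨_, h1, h2⟩

theorem dm1_le {i j : ℤ} (h : (2 : ℝ) ^ i < 2 * 2 ^ j) : i ≤ j := by
  rw [mul_comm, ← zpow_add_one₀ (by norm_num), zpow_lt_zpow_iff_right₀ (by norm_num)] at h
  omega

theorem dm1_uniq {i j : ℤ} {r : ℝ} (h : (2 : ℝ) ^ i ≤ r ∧ r < 2 * 2 ^ i)
    (h' : (2 : ℝ) ^ j ≤ r ∧ r < 2 * 2 ^ j) : i = j :=
  le_antisymm (dm1_le (h.1.trans_lt h'.2)) (dm1_le (h'.1.trans_lt h.2))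

theorem dm1_nL (hP : 2 ≤ P) : 4 * P < 2 ^ nL P := by
  have h1 : Real.logb 2 P + 2 < (nL P : ℝ) := by
    have := Int.lt_floor_add_one (La P)
    rw [nL]
    rw [La] at this ⊢
    linarith
  have h2 := Real.rpow_lt_rpow_of_exponent_lt (x := 2) (by norm_num) h1
  rw [Real.rpow_intCast, Real.rpow_add (by norm_num),
    Real.rpow_logb (by norm_num) (by norm_num) (by linarith)] at h2
  norm_num at h2
  linarith

theorem dm1_lo {y Q : ℝ} (hy : 0 < y) (hQ : 0 < Q) (h : (2 * Q ^ 2)⁻¹ ≤ y ^ 2) : 2 / (3 * Q) ≤ y := by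
  refine (sq_le_sq₀ (by positivity) hy.le).1 (le_trans ?_ h)
  rw [div_pow, inv_eq_one_div, div_le_div_iff₀ (by positivity) (by positivity)]
  nlinarith [sq_nonneg Q]

theorem dm1_ang (hP : 2 ≤ P) {i : ℤ} {y Q : ℝ} (hy : 0 < y) (hQ : 0 < Q) (hQP : Q ≤ P)
    (h : (2 * Q ^ 2)⁻¹ ≤ y ^ 2) (h2 : y ^ 2 ≤ 2) (hi : (2 : ℝ) ^ i ≤ y ∧ y < 2 * 2 ^ i) :
    i ∈ Finset.Icc (-nL P) 0 ∧ (2 : ℝ) ^ i ≤ 1 ∧ 1 / (3 * P) ≤ 2 ^ i ∧ 1 / (3 * Q) ≤ 2 ^ i := by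
  have h1 : y < 2 := by nlinarith
  have h3 : i ≤ 0 := dm1_le (by rw [zpow_zero, mul_one]; exact hi.1.trans_lt h1)
  have h4 : 1 / (3 * Q) ≤ 2 ^ i := by
    have := (dm1_lo hy hQ h).trans_lt hi.2
    rw [show 2 / (3 * Q) = 2 * (1 / (3 * Q)) by ring] at this
    linarith
  have h5 : 1 / (3 * P) ≤ 2 ^ i := le_trans (by gcongr) h4
  refine ⟨Finset.mem_Icc.2 ⟨?_, h3⟩, zpow_le_one_of_nonpos₀ (by norm_num) h3, h5, h4⟩
  rw [← zpow_le_zpow_iff_right₀ (a := (2 : ℝ)) (by norm_num), zpow_neg]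
  refine le_trans ?_ h5
  rw [one_div]
  have := dm1_nL hP
  exact inv_anti₀ (by linarith) (by linarith)

theorem cls_cover (hP : 2 ≤ P) {D v V : V3} (hv : q v ≤ P) (hV : q V ≤ P) (h1 : 2 * r0 P < ‖D‖)
    (h2 : ‖D‖ ≤ P) : ∃ x : Idx, x.1 ∈ box3 P ∧ x.2 ∈ box2 P ∧ Adm P x ∧ inC x D v V := by
  have hr : 0 < r0 P := by rw [r0]; positivity
  have hD : 0 < ‖D‖ := by linarith
  have hD0 : D ≠ 0 := norm_pos_iff.1 hD
  have hn := dm1_nL hP
  obtain ⟨i1, e1⟩ := dm1_ex (q_pos v)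
  obtain ⟨i2, e2⟩ := dm1_ex (th_pos V v)
  obtain ⟨i3, e3⟩ := dm1_ex (ang_pos D v)
  obtain ⟨i4, e4⟩ := dm1_ex (ang_pos D V)
  obtain ⟨i5, e5⟩ := dm1_ex hD
  obtain ⟨a1, a2, a3, -⟩ := dm1_ang hP (th_pos V v) (q_pos v) hv (by rw [th_sq]; exact yy_ge V v)
    (by rw [th_sq]; exact yy_le V v) e2
  obtain ⟨b1, b2, -, b4⟩ := dm1_ang hP (ang_pos D v) (q_pos v) hv (by rw [ang_sq]; exact kap_ge D v)
    (by rw [ang_sq]; exact kap_le D v) e3
  obtain ⟨c1, c2, c3, -⟩ := dm1_ang hP (ang_pos D V) (q_pos V) hV (by rw [ang_sq]; exact kap_ge D V)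
    (by rw [ang_sq]; exact kap_le D V) e4
  have d1 : 0 ≤ i1 := dm1_le (by rw [zpow_zero]; exact (one_le_q v).trans_lt e1.2)
  have up : ∀ {i : ℤ}, (2 : ℝ) ^ i ≤ P → i ≤ nL P := fun h =>
    (zpow_le_zpow_iff_right₀ (a := (2 : ℝ)) (by norm_num)).1 (by linarith)
  have d2 : r0 P ≤ 2 ^ i5 := by linarith [e5.2]
  have d3 : -20 * nL P ≤ i5 := by
    rw [← zpow_le_zpow_iff_right₀ (a := (2 : ℝ)) (by norm_num), neg_mul, zpow_neg, mul_comm,
      zpow_mul]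
    refine le_trans ?_ d2
    rw [r0, show (20 : ℤ) = (20 : ℕ) from rfl, zpow_natCast]
    exact inv_anti₀ (by positivity) (pow_le_pow_left₀ (by linarith) (by linarith) _)
  have t1 := tri_th hD0 v V
  have t2 := tri_al hD0 v V
  have t3 := tri_Th hD0 v V
  refine ⟨((i1, i2, i3), (i4, i5)), ?_, ?_, ?_, e1, e2, e3, e4, e5⟩
  · exact Finset.mem_product.2 ⟨Finset.mem_Icc.2 ⟨d1, up (e1.1.trans hv)⟩,
      Finset.mem_product.2 ⟨a1, b1⟩⟩
  · exact Finset.mem_product.2 ⟨c1, Finset.mem_Icc.2 ⟨d3, up (e5.1.trans h2)⟩⟩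
  · refine ⟨one_le_zpow₀ (by norm_num) d1, e1.1.trans hv, a2, b2, c2, a3, c3, le_trans ?_ b4,
      ?_, ?_, ?_, d2, e5.1.trans h2⟩
    · have := q_pos v
      refine one_div_le_one_div_of_le (by positivity) ?_
      show 3 * q v ≤ 6 * 2 ^ i1
      linarith [e1.2]
    · show (2 : ℝ) ^ i2 ≤ 2 * (2 ^ i4 + 2 ^ i3)
      linarith [e2.1, e3.2, e4.2]
    · show (2 : ℝ) ^ i4 ≤ 2 * (2 ^ i2 + 2 ^ i3)
      linarith [e4.1, e3.2, e2.2]
    · show (2 : ℝ) ^ i3 ≤ 2 * (2 ^ i4 + 2 ^ i2)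
      linarith [e3.1, e2.2, e4.2]

theorem inC_unique {x x' : Idx} {D v V : V3} (h : inC x D v V) (h' : inC x' D v V) : x = x' := by
  obtain ⟨a1, a2, a3, a4, a5⟩ := h
  obtain ⟨b1, b2, b3, b4, b5⟩ := h'
  exact Prod.ext (Prod.ext (dm1_uniq a1 b1) (Prod.ext (dm1_uniq a2 b2) (dm1_uniq a3 b3)))
    (Prod.ext (dm1_uniq a4 b4) (dm1_uniq a5 b5))

theorem cmass_eq (hW : Win f0 N P0 K0 En T dat A Φ Ψ c P T' qq z0 a b) (x : Idx) :
    mu f0 Φ Ψ z0 a b {ω | inC x ω.2.1 ω.2.2 (Φ ω.1 z0).2}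
      = ENNReal.ofReal (cmass f0 Φ Ψ z0 a b x) := by
  rw [cmass, ENNReal.ofReal_toReal]
  exact ne_top_of_le_ne_top ENNReal.ofReal_ne_top ((measure_mono (subset_univ _)).trans
    (mu_univ_le hW.sol hW.a_nonneg (hW.b_le.trans hW.T'_le)))

theorem ae_cls (hW : Win f0 N P0 K0 En T dat A Φ Ψ c P T' qq z0 a b) :
    ∀ᵐ ω ∂mu f0 Φ Ψ z0 a b, 2 * r0 P < ‖ω.2.1‖ →
      ∃ x : Idx, x.1 ∈ box3 P ∧ x.2 ∈ box2 P ∧ Adm P x ∧ inC x ω.2.1 ω.2.2 (Φ ω.1 z0).2 := by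
  filter_upwards [ae_mu (a := a) (b := b) (z0 := z0) hW.sol.init hW.sol.flow] with ω hω h1
  have hs : ω.1 ≤ T' := hω.1.2.trans hW.b_le
  obtain ⟨h2, h3⟩ := rho_ne_zero hW.sol.flow hW.bnd hs hω.2.2
  exact cls_cover hW.P_ge h3 (hW.bnd z0 hW.z0_mem _ hs) h1
    (h2.trans (hs.trans (hW.T'_le.trans hW.T_le)))

theorem lintegral_le_sm (hW : Win f0 N P0 K0 En T dat A Φ Ψ c P T' qq z0 a b) (S : Idx → Prop)
    {k : Idx → ℝ} (hk : ∀ x, 0 ≤ k x) {g : Om → ℝ}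
    (h1 : ∀ ω x, Adm P x → inC x ω.2.1 ω.2.2 (Φ ω.1 z0).2 → S x → g ω ≤ k x)
    (h2 : ∀ ω x, Adm P x → inC x ω.2.1 ω.2.2 (Φ ω.1 z0).2 → ¬ S x → g ω ≤ 0) :
    ∫⁻ ω in {ω : Om | 2 * r0 P < ‖ω.2.1‖}, ENNReal.ofReal (g ω) ∂mu f0 Φ Ψ z0 a b
      ≤ ENNReal.ofReal (sm P S fun x => k x * cmass f0 Φ Ψ z0 a b x) := by
  classical
  have hm : MeasurableSet {ω : Om | 2 * r0 P < ‖ω.2.1‖} :=
    measurableSet_lt measurable_const (by fun_prop)
  have hC := measurableSet_inC (z0 := z0) hW.sol.flow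
  let F : Idx → Om → ℝ≥0∞ := fun x => {ω : Om | inC x ω.2.1 ω.2.2 (Φ ω.1 z0).2}.indicator
    fun _ => if Adm P x ∧ S x then ENNReal.ofReal (k x) else 0
  have hF : ∀ x, Measurable (F x) := fun x => measurable_const.indicator (hC x)
  calc _ ≤ ∫⁻ ω, ∑ x ∈ box3 P ×ˢ box2 P, F x ω ∂mu f0 Φ Ψ z0 a b := by
        rw [← lintegral_indicator hm]
        refine lintegral_mono_ae ?_
        filter_upwards [ae_cls hW] with ω hω
        by_cases h : ω ∈ {ω : Om | 2 * r0 P < ‖ω.2.1‖}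
        · rw [indicator_of_mem h]
          obtain ⟨x, x1, x2, x3, x4⟩ := hω h
          refine le_trans ?_ (Finset.single_le_sum (f := fun x => F x ω) (fun _ _ => zero_le)
            (Finset.mem_product.2 ⟨x1, x2⟩))
          simp only [F]
          rw [indicator_of_mem (show ω ∈ {ω : Om | inC x ω.2.1 ω.2.2 (Φ ω.1 z0).2} from x4)]
          by_cases hS : S x
          · rw [if_pos ⟨x3, hS⟩]
            exact ENNReal.ofReal_le_ofReal (h1 ω x x3 x4 hS)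
          · rw [ENNReal.ofReal_of_nonpos (h2 ω x x3 x4 hS)]
            exact zero_le
        · rw [indicator_of_notMem h]
          exact zero_le
    _ = _ := by
        rw [lintegral_finsetSum _ fun x _ => hF x, sm, ← Finset.sum_product',
          ENNReal.ofReal_sum_of_nonneg fun x _ => ?_]
        · refine Finset.sum_congr rfl fun x _ => ?_
          simp only [F]
          rw [lintegral_indicator_const (hC x), cmass_eq hW]
          split_ifs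
          · rw [ENNReal.ofReal_mul (hk x)]
          · simp
        · split_ifs
          · exact mul_nonneg (hk x) ENNReal.toReal_nonneg
          · exact le_rfl

end Vale.Agent.P107
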