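import Vale.Agent.P107.DG1

/-! Volume of thin cones.

Plan. If ‖U‖ < 1/2 the set lies in the ball of radius min ρ (2h). Otherwise e = U/‖U‖, ‖w‖ - ⟪e,w⟫ ≤ 2h, ‖w - ⟪e,w⟫e‖² ≤ 4hρ; take an orthonormal
basis with first vector e (exists_orthonormalBasis_extension / Orthonormal.exists_orthonormalBasis_extension_of_card_eq), transport by
OrthonormalBasis.measurePreserving_repr and PiLp.volume_preserving_ofLp to a box in Fin 3 → ℝ (Real.volume_pi_Icc). vol_v: ‖v‖ - ⟪U,v⟫ ≤ q v - ⟪U,v⟫ = q v (1 - ⟪U,u v⟫). -/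

namespace Vale.Agent.P107

open MeasureTheory Set Filter Topology
open scoped RealInnerProductSpace ENNReal

theorem dvol_real {a b c n l ρ h : ℝ} (hn : n ^ 2 = a ^ 2 + b ^ 2 + c ^ 2) (h0 : 0 ≤ n)
    (l0 : 0 ≤ l) (l1 : l ≤ 1) (h1 : n ≤ ρ) (h2 : n - l * a ≤ h) (hh : 0 ≤ h) :
    |a| ≤ ρ ∧ b ^ 2 + c ^ 2 ≤ 2 * ρ * h := by
  have h3 : |a| ≤ n := abs_le_of_sq_le_sq' (by linarith [sq_nonneg b, sq_nonneg c]) h0 |> abs_le.mpr
  have h4 : l * a ≤ |a| := (mul_le_mul_of_nonneg_left (le_abs_self a) l0).trans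
    (mul_le_of_le_one_left (abs_nonneg a) l1)
  have h5 := mul_le_mul (show n - |a| ≤ h by linarith) (show n + |a| ≤ 2 * ρ by linarith)
    (by positivity) hh
  exact ⟨h3.trans h1, by linarith [sq_abs a]⟩

theorem vol_cone {U : V3} (hU : ‖U‖ ≤ 1) {ρ h : ℝ} (hρ : 0 ≤ ρ) (hh : 0 ≤ h) :
    volume {w : V3 | ‖w‖ ≤ ρ ∧ ‖w‖ - ⟪U, w⟫ ≤ h} ≤ ENNReal.ofReal (100 * ρ ^ 2 * h) := by
  obtain ⟨σ, hσ⟩ : ∃ σ : V3 ≃ₗᵢ[ℝ] V3, σ U = EuclideanSpace.single 0 ‖U‖ :=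
    ⟨_, Submodule.reflection_sub (by simp)⟩
  have hm := (PiLp.volume_preserving_ofLp (Fin 3)).comp σ.measurePreserving
  have h2 : 0 ≤ 2 * ρ * h := by positivity
  have hs := Real.sq_sqrt h2
  have hs0 := Real.sqrt_nonneg (2 * ρ * h)
  generalize Real.sqrt (2 * ρ * h) = s at hs hs0
  refine (measure_mono (t := (WithLp.ofLp ∘ σ) ⁻¹' Icc (-![ρ, s, s]) ![ρ, s, s])
    fun w hw => ?_).trans ?_
  · have e : ⟪U, w⟫ = ‖U‖ * σ w 0 := by
      rw [← σ.inner_map_map, hσ, EuclideanSpace.inner_single_left]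
      rfl
    have hn := EuclideanSpace.real_norm_sq_eq (σ w)
    rw [Fin.sum_univ_three, σ.norm_map] at hn
    obtain ⟨a1, a2⟩ := dvol_real hn (norm_nonneg w) (norm_nonneg U) hU hw.1 (e ▸ hw.2) hh
    have b1 := abs_le_of_sq_le_sq' (show σ w 1 ^ 2 ≤ s ^ 2 by linarith [sq_nonneg (σ w 2)]) hs0
    have b2 := abs_le_of_sq_le_sq' (show σ w 2 ^ 2 ≤ s ^ 2 by linarith [sq_nonneg (σ w 1)]) hs0
    have b0 := abs_le.mp a1
    constructor <;> intro i <;> fin_cases i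
    exacts [b0.1, b1.1, b2.1, b0.2, b1.2, b2.2]
  · rw [hm.measure_preimage measurableSet_Icc.nullMeasurableSet, Real.volume_Icc_pi,
      Fin.prod_univ_three]
    simp only [Pi.neg_apply, sub_neg_eq_add, Matrix.cons_val_zero, Matrix.cons_val_one,
      Matrix.cons_val]
    rw [← ENNReal.ofReal_mul (by positivity), ← ENNReal.ofReal_mul (by positivity)]
    refine ENNReal.ofReal_le_ofReal ?_
    have e : (ρ + ρ) * (s + s) * (s + s) = 8 * ρ * s ^ 2 := by ring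
    have h3 : 0 ≤ ρ ^ 2 * h := by positivity
    rw [e, hs]
    linarith

theorem vol_v {U : V3} (hU : ‖U‖ ≤ 1) {Q t : ℝ} (hQ : 0 ≤ Q) (ht : 0 ≤ t) :
    volume {v : V3 | q v ≤ 2 * Q ∧ 1 - ⟪U, u v⟫ ≤ t} ≤ ENNReal.ofReal (800 * Q ^ 3 * t) := by
  refine (measure_mono fun v hv => ?_).trans ((vol_cone hU (ρ := 2 * Q) (h := 2 * Q * t)
    (by positivity) (by positivity)).trans (ENNReal.ofReal_le_ofReal (le_of_eq (by ring))))
  have h0 := q_pos v
  have e : ⟪U, v⟫ = q v * ⟪U, u v⟫ := by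
    rw [u, inner_smul_right, mul_inv_cancel_left₀ h0.ne']
  have h1 := mul_le_mul_of_nonneg_left hv.2 h0.le
  have h2 := mul_le_mul_of_nonneg_right hv.1 ht
  exact ⟨(norm_le_q v).trans hv.1, by linarith [norm_le_q v]⟩

theorem vol_D (V : V3) {R t : ℝ} (hR : 0 ≤ R) (ht : 0 ≤ t) :
    volume {D : V3 | ‖D‖ ≤ 2 * R ∧ kap D V ≤ t} ≤ ENNReal.ofReal (800 * R ^ 3 * t) := by
  refine (measure_mono fun D hD => ?_).trans ((vol_cone (norm_u_lt V).le (ρ := 2 * R)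
    (h := 2 * R * t) (by positivity) (by positivity)).trans
      (ENNReal.ofReal_le_ofReal (le_of_eq (by ring))))
  have e : ⟪u V, D⟫ = ‖D‖ * ⟪nrm D, u V⟫ := by
    rw [← real_inner_smul_left, smul_nrm, real_inner_comm]
  have h1 := mul_le_mul_of_nonneg_left hD.2 (norm_nonneg D)
  have h2 := mul_le_mul_of_nonneg_right hD.1 ht
  rw [kap] at h1
  exact ⟨hD.1, by linarith⟩

/-- The momenta of one class, at fixed `D` and `V`. -/
theorem vol_class (x : Idx) (D V : V3) :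
    volume {v : V3 | inC x D v V} ≤ ENNReal.ofReal (3200 * cQ x ^ 3 * cβ x ^ 2) := by
  have hQ : 0 < cQ x := zpow_pos two_pos _
  have h1 : 0 < cθ x := zpow_pos two_pos _
  have h2 : 0 < cΘ x := zpow_pos two_pos _
  rcases min_choice (cΘ x) (cθ x) with h | h <;> rw [cβ, h]
  · refine (measure_mono fun v hv => ?_).trans ((vol_v (norm_nrm_le D) hQ.le
      (sq_nonneg (2 * cΘ x))).trans (ENNReal.ofReal_le_ofReal (le_of_eq (by ring))))
    exact ⟨hv.1.2.le, ((Real.sqrt_lt' (by positivity)).mp hv.2.2.1.2).le⟩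
  · refine (measure_mono fun v hv => ?_).trans ((vol_v (norm_u_lt V).le hQ.le
      (sq_nonneg (2 * cθ x))).trans (ENNReal.ofReal_le_ofReal (le_of_eq (by ring))))
    exact ⟨hv.1.2.le, ((Real.sqrt_lt' (by positivity)).mp hv.2.1.2).le⟩

end Vale.Agent.P107
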