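import Vale.Agent.P107.DM1
import Vale.Agent.P107.DVol
import Vale.Agent.P107.DCov

/-! Cauchy-Schwarz at fixed `(Q, θ, Θ)`.

Plan. On a class kS j ≤ k x := 2 cα/(cQ cR cΘ^(2+j)). a.e. g ≤ Σ_o Σ_n 1[class (o,n), S] k (o,n) φ (ae_cls), φ = gfl or ‖F‖ depends only on (s,D).
Fix o. Let n_x(s,D) = ∫ dv rho 1[class x] ≤ N * 4 cΘ² * 3200 cQ³ cβ² (rho_le, vol_class). For fixed (s,D) at most one n = (k,m) has n_(o,n)(s,D) ≠ 0, so
(Σ_n k n_x)² = Σ_n k² n_x² ≤ C N Σ_n k² cΘ² cQ³ cβ² n_x, and ∫∫ n_x = cmass x. Hoelder: ENNReal.lintegral_mul_le_Lp_mul_Lq with p = q = 2, or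
the elementary φ h ≤ (λ φ² + h²/λ)/2 optimised in λ. Field factor: coneF integrated over Ioc a b; for ‖F‖ insert kap D V ≥ cα² and use cov_field with ρ = 2 dl resp. 2 cR. -/

namespace Vale.Agent.P107

open MeasureTheory Set Filter Topology
open scoped RealInnerProductSpace ENNReal

variable {f0 : Z → ℝ} {N P0 K0 En T c P T' qq a b : ℝ} {dat A : Fld} {Φ Ψ : ℝ → Z → Z} {z0 : Z}


/-- The weight of the velocity integral at fixed `(Q, θ, Θ)`. -/
noncomputable def dm2w (N : ℝ) (x : Idx) : ℝ := 12800 * N * cΘ x ^ 2 * cQ x ^ 3 * cβ x ^ 2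

/-- The set of a class. -/
def dm2c (Φ : ℝ → Z → Z) (z0 : Z) (x : Idx) : Set Om := {ω | inC x ω.2.1 ω.2.2 (Φ ω.1 z0).2}

theorem dm2_Q (x : Idx) : 0 < cQ x := zpow_pos two_pos _
theorem dm2_Th (x : Idx) : 0 < cΘ x := zpow_pos two_pos _
theorem dm2_th (x : Idx) : 0 < cθ x := zpow_pos two_pos _
theorem dm2_al (x : Idx) : 0 < cα x := zpow_pos two_pos _
theorem dm2_R (x : Idx) : 0 < cR x := zpow_pos two_pos _

theorem dm2w_nonneg (hN : 0 ≤ N) (x : Idx) : 0 ≤ dm2w N x := by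
  have := dm2_Q x
  unfold dm2w
  positivity

theorem dm2_inner (hI : Init f0 N P0) (o : ℤ × ℤ × ℤ) (W : Set V3) (ψ : ℝ × V3 → ℝ≥0∞)
    (s : ℝ) (D : V3) :
    ∫⁻ v : V3, ENNReal.ofReal (rho f0 Φ Ψ z0 (s, (D, v))) *
        {ω : Om | ω.2.1 ∈ W ∧ ∃ n, ω ∈ dm2c Φ z0 (o, n)}.indicator
          (fun ω => ψ (ω.1, ω.2.1)) (s, (D, v))
      ≤ {D : V3 | ‖D‖ ≤ s ∧ D ∈ W}.indicator
          (fun D => ENNReal.ofReal (dm2w N (o, (0, 0))) * ψ (s, D)) D := by
  have hN : 0 ≤ N := zero_le_one.trans hI.one_le_N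
  by_cases h : (‖D‖ ≤ s ∧ D ∈ W) ∧ ∃ n v, inC (o, n) D v (Φ s z0).2
  · obtain ⟨h1, n0, v0, h0⟩ := h
    rw [indicator_of_mem (show D ∈ {D : V3 | ‖D‖ ≤ s ∧ D ∈ W} from h1)]
    have hT := dm2_Th (o, n0)
    calc _ ≤ ∫⁻ v : V3, {v : V3 | inC (o, n0) D v (Φ s z0).2}.indicator
            (fun _ => ENNReal.ofReal (N * (4 * cΘ (o, n0) ^ 2)) * ψ (s, D)) v := by
          refine lintegral_mono fun v => ?_
          by_cases hv : (s, (D, v)) ∈ {ω : Om | ω.2.1 ∈ W ∧ ∃ n, ω ∈ dm2c Φ z0 (o, n)}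
          · have hv' := hv
            obtain ⟨-, n, hn⟩ := hv'
            have hn' : inC (o, n) D v (Φ s z0).2 := hn
            have hc : inC (o, n0) D v (Φ s z0).2 :=
              ⟨hn'.1, hn'.2.1, hn'.2.2.1, h0.2.2.2.1, h0.2.2.2.2⟩
            rw [indicator_of_mem hv,
              indicator_of_mem (show v ∈ {v : V3 | inC (o, n0) D v (Φ s z0).2} from hc)]
            refine mul_le_mul_left (ENNReal.ofReal_le_ofReal ?_) _
            refine (rho_le hI _).trans (mul_le_mul_of_nonneg_left ?_ hN)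
            have e := ang_sq D v
            have h2 := hc.2.2.1.2
            have h3 := ang_pos D v
            show kap D v ≤ _
            nlinarith
          · rw [indicator_of_notMem hv, mul_zero]
            exact zero_le
      _ ≤ ENNReal.ofReal (N * (4 * cΘ (o, n0) ^ 2)) * ψ (s, D) *
            volume {v : V3 | inC (o, n0) D v (Φ s z0).2} := lintegral_indicator_const_le _ _
      _ ≤ ENNReal.ofReal (N * (4 * cΘ (o, n0) ^ 2)) * ψ (s, D) *
            ENNReal.ofReal (3200 * cQ (o, n0) ^ 3 * cβ (o, n0) ^ 2) :=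
          mul_le_mul_right (vol_class _ _ _) _
      _ = _ := by
          rw [mul_right_comm, ← ENNReal.ofReal_mul (by positivity)]
          have e : dm2w N (o, (0, 0)) = dm2w N (o, n0) := rfl
          rw [e]
          unfold dm2w
          congr 2
          ring
  · have : ∀ v : V3, ENNReal.ofReal (rho f0 Φ Ψ z0 (s, (D, v))) *
        {ω : Om | ω.2.1 ∈ W ∧ ∃ n, ω ∈ dm2c Φ z0 (o, n)}.indicator
          (fun ω => ψ (ω.1, ω.2.1)) (s, (D, v)) = 0 := by
      intro v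
      by_cases hv : (s, (D, v)) ∈ {ω : Om | ω.2.1 ∈ W ∧ ∃ n, ω ∈ dm2c Φ z0 (o, n)}
      · obtain ⟨hw, n, hn⟩ := hv
        have hs : ¬ ‖D‖ ≤ s := fun hs => h ⟨⟨hs, hw⟩, n, v, hn⟩
        have : rho f0 Φ Ψ z0 (s, (D, v)) = 0 := if_neg hs
        rw [this, ENNReal.ofReal_zero, zero_mul]
      · rw [indicator_of_notMem hv, mul_zero]
    simp only [this, lintegral_zero]
    exact zero_le

theorem dm2_mB (hF : IsFlow A Φ Ψ) (o : ℤ × ℤ × ℤ) {W : Set V3} (hW : MeasurableSet W) :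
    MeasurableSet {ω : Om | ω.2.1 ∈ W ∧ ∃ n, ω ∈ dm2c Φ z0 (o, n)} := by
  have e : {ω : Om | ω.2.1 ∈ W ∧ ∃ n, ω ∈ dm2c Φ z0 (o, n)}
      = (fun ω : Om => ω.2.1) ⁻¹' W ∩ ⋃ n, dm2c Φ z0 (o, n) := by
    ext ω
    simp only [mem_setOf_eq, mem_inter_iff, mem_preimage, mem_iUnion]
  rw [e]
  exact (measurable_snd.fst hW).inter (MeasurableSet.iUnion fun n => measurableSet_inC hF (o, n))

theorem dm2_A (hI : Init f0 N P0) (hF : IsFlow A Φ Ψ) (o : ℤ × ℤ × ℤ) {W : Set V3}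
    (hW : MeasurableSet W) {ψ : ℝ × V3 → ℝ≥0∞} (hψ : Measurable ψ) :
    ∫⁻ ω, {ω : Om | ω.2.1 ∈ W ∧ ∃ n, ω ∈ dm2c Φ z0 (o, n)}.indicator
          (fun ω => ψ (ω.1, ω.2.1)) ω ∂mu f0 Φ Ψ z0 a b
      ≤ ENNReal.ofReal (dm2w N (o, (0, 0))) *
        ∫⁻ s in Ioc a b, ∫⁻ D in {D : V3 | ‖D‖ ≤ s ∧ D ∈ W}, ψ (s, D) := by
  have hm : Measurable fun ω : Om => ψ (ω.1, ω.2.1) :=
    hψ.comp (measurable_fst.prodMk measurable_snd.fst)
  rw [lintegral_mu hI hF (hm.indicator (dm2_mB hF o hW)),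
    ← lintegral_const_mul' _ _ ENNReal.ofReal_ne_top]
  refine lintegral_mono fun s => ?_
  rw [← lintegral_const_mul' _ _ ENNReal.ofReal_ne_top]
  refine le_trans ?_ (lintegral_indicator_le _ _)
  rw [Measure.volume_eq_prod]
  exact (lintegral_prod_le _).trans (lintegral_mono fun D => dm2_inner hI o W ψ s D)

theorem dm2_C {α : Type} [MeasurableSpace α] (μ : Measure α) {f h : α → ℝ≥0∞} (hf : Measurable f)
    (hh : Measurable h) {X Y : ℝ} (hX : 0 ≤ X) (hY : 0 ≤ Y)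
    (h1 : ∫⁻ a, f a ^ 2 ∂μ ≤ ENNReal.ofReal X) (h2 : ∫⁻ a, h a ^ 2 ∂μ ≤ ENNReal.ofReal Y) :
    ∫⁻ a, f a * h a ∂μ ≤ ENNReal.ofReal (Real.sqrt (X * Y)) := by
  have H := ENNReal.lintegral_mul_le_Lp_mul_Lq μ Real.HolderConjugate.two_two
    hf.aemeasurable hh.aemeasurable
  simp only [ENNReal.rpow_two, Pi.mul_apply] at H
  refine H.trans ?_
  have p : (0 : ℝ) ≤ 1 / 2 := by norm_num
  refine (mul_le_mul' (ENNReal.rpow_le_rpow h1 p) (ENNReal.rpow_le_rpow h2 p)).trans (le_of_eq ?_)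
  rw [ENNReal.ofReal_rpow_of_nonneg hX p, ENNReal.ofReal_rpow_of_nonneg hY p,
    ← ENNReal.ofReal_mul (by positivity), ← Real.mul_rpow hX hY, Real.sqrt_eq_rpow]

theorem dm2_B (hW : Win f0 N P0 K0 En T dat A Φ Ψ c P T' qq z0 a b) (o : ℤ × ℤ × ℤ)
    (I : Finset (ℤ × ℤ)) {k : ℤ × ℤ → ℝ} (hk : ∀ n, 0 ≤ k n) {φ : ℝ × V3 → ℝ}
    (hφ : Measurable φ) (hφ0 : ∀ p, 0 ≤ φ p) {W : Set V3} (hWm : MeasurableSet W)
    (hWI : ∀ n ∈ I, ∀ D v V, inC (o, n) D v V → D ∈ W) {Fl : ℝ} (hFl0 : 0 ≤ Fl)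
    (hFl : ∫⁻ s in Ioc a b, ∫⁻ D in {D : V3 | ‖D‖ ≤ s ∧ D ∈ W}, ENNReal.ofReal (φ (s, D) ^ 2)
      ≤ ENNReal.ofReal Fl) :
    ∫⁻ ω, ∑ n ∈ I, (dm2c Φ z0 (o, n)).indicator
        (fun ω => ENNReal.ofReal (k n * φ (ω.1, ω.2.1))) ω ∂mu f0 Φ Ψ z0 a b
      ≤ ENNReal.ofReal (Real.sqrt (Fl *
          ∑ n ∈ I, k n ^ 2 * dm2w N (o, n) * cmass f0 Φ Ψ z0 a b (o, n))) := by
  have hI := hW.sol.init
  have hF := hW.sol.flow
  have hN : 0 ≤ N := zero_le_one.trans hI.one_le_N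
  have hc : ∀ x, MeasurableSet (dm2c Φ z0 x) := fun x => measurableSet_inC hF x
  have hm : Measurable fun ω : Om => ENNReal.ofReal (φ (ω.1, ω.2.1)) :=
    (hφ.comp (measurable_fst.prodMk measurable_snd.fst)).ennreal_ofReal
  have hw := dm2w_nonneg hN (o, (0, 0))
  have hcm : ∀ x, 0 ≤ cmass f0 Φ Ψ z0 a b x := fun x => ENNReal.toReal_nonneg
  have H := dm2_C (mu f0 Φ Ψ z0 a b) (hm.indicator (dm2_mB (z0 := z0) hF o hWm))
    (h := fun ω => ∑ n ∈ I, (dm2c Φ z0 (o, n)).indicator (fun _ => ENNReal.ofReal (k n)) ω)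
    (Finset.measurable_sum _ fun n _ => measurable_const.indicator (hc _))
    (X := dm2w N (o, (0, 0)) * Fl) (Y := ∑ n ∈ I, k n ^ 2 * cmass f0 Φ Ψ z0 a b (o, n))
    (mul_nonneg hw hFl0) (Finset.sum_nonneg fun n _ => mul_nonneg (sq_nonneg _) (hcm _)) ?_ ?_
  · refine le_trans (lintegral_mono fun ω => ?_) (H.trans (le_of_eq ?_))
    · rw [Finset.mul_sum]
      refine Finset.sum_le_sum fun n hn => ?_
      by_cases h : ω ∈ dm2c Φ z0 (o, n)
      · have hB : ω ∈ {ω : Om | ω.2.1 ∈ W ∧ ∃ n, ω ∈ dm2c Φ z0 (o, n)} :=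
          ⟨hWI n hn _ _ _ h, n, h⟩
        rw [indicator_of_mem h, indicator_of_mem h, indicator_of_mem hB,
          ENNReal.ofReal_mul (hk n), mul_comm]
      · rw [indicator_of_notMem h]
        exact zero_le
    · congr 2
      rw [mul_comm (dm2w N (o, (0, 0))) Fl, mul_assoc, Finset.mul_sum]
      congr 1
      refine Finset.sum_congr rfl fun n _ => ?_
      have e : dm2w N (o, (0, 0)) = dm2w N (o, n) := rfl
      rw [e]
      ring
  · have hψ : Measurable fun p : ℝ × V3 => ENNReal.ofReal (φ p ^ 2) :=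
      (hφ.pow_const 2).ennreal_ofReal
    rw [ENNReal.ofReal_mul hw]
    refine le_trans (le_of_eq (lintegral_congr fun ω => ?_))
      ((dm2_A (z0 := z0) (a := a) (b := b) hI hF o hWm hψ).trans (mul_le_mul_right hFl _))
    by_cases hB : ω ∈ {ω : Om | ω.2.1 ∈ W ∧ ∃ n, ω ∈ dm2c Φ z0 (o, n)}
    · rw [indicator_of_mem hB, indicator_of_mem hB, ENNReal.ofReal_pow (hφ0 _)]
    · rw [indicator_of_notMem hB, indicator_of_notMem hB]
      simp
  · calc _ ≤ ∫⁻ ω, ∑ n ∈ I, (dm2c Φ z0 (o, n)).indicator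
            (fun _ => ENNReal.ofReal (k n ^ 2)) ω ∂mu f0 Φ Ψ z0 a b := by
          refine lintegral_mono fun ω => ?_
          by_cases h : ∃ n ∈ I, ω ∈ dm2c Φ z0 (o, n)
          · obtain ⟨n0, hn0, h0⟩ := h
            have hne : ∀ n, n ≠ n0 → ω ∉ dm2c Φ z0 (o, n) := fun n hn h' =>
              hn (congrArg Prod.snd (inC_unique h' h0))
            rw [Finset.sum_eq_single n0 (fun n _ hn => indicator_of_notMem (hne n hn) _)
                (fun h => absurd hn0 h),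
              Finset.sum_eq_single n0 (fun n _ hn => indicator_of_notMem (hne n hn) _)
                (fun h => absurd hn0 h), indicator_of_mem h0, indicator_of_mem h0,
              ENNReal.ofReal_pow (hk _)]
          · rw [Finset.sum_eq_zero fun n hn => indicator_of_notMem (fun h' => h ⟨n, hn, h'⟩) _]
            simp
      _ = _ := by
          rw [lintegral_finsetSum _ fun n _ => measurable_const.indicator (hc _),
            ENNReal.ofReal_sum_of_nonneg fun n _ => mul_nonneg (sq_nonneg _) (hcm _)]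
          refine Finset.sum_congr rfl fun n _ => ?_
          rw [lintegral_indicator_const (hc _), ENNReal.ofReal_mul (sq_nonneg _), ← cmass_eq hW]
          rfl

theorem dm2_D (hW : Win f0 N P0 K0 En T dat A Φ Ψ c P T' qq z0 a b) {g : Om → ℝ}
    {t : Idx → Om → ℝ≥0∞} (ht : ∀ x, Measurable (t x)) (I : ℤ × ℤ × ℤ → Finset (ℤ × ℤ))
    (h : ∀ ω o n, n ∈ box2 P → Adm P (o, n) → ω ∈ dm2c Φ z0 (o, n) →
      g ω ≤ 0 ∨ (n ∈ I o ∧ ENNReal.ofReal (g ω) ≤ t (o, n) ω)) :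
    ∫⁻ ω in {ω : Om | 2 * r0 P < ‖ω.2.1‖}, ENNReal.ofReal (g ω) ∂mu f0 Φ Ψ z0 a b
      ≤ ∑ o ∈ box3 P, ∫⁻ ω, ∑ n ∈ I o, (dm2c Φ z0 (o, n)).indicator (t (o, n)) ω
        ∂mu f0 Φ Ψ z0 a b := by
  have hc : ∀ x, MeasurableSet (dm2c Φ z0 x) := fun x => measurableSet_inC hW.sol.flow x
  rw [← lintegral_finsetSum _ fun o _ =>
    Finset.measurable_sum _ fun n _ => (ht (o, n)).indicator (hc _)]
  refine le_trans (setLIntegral_mono_ae' ?_ ?_) (setLIntegral_le_lintegral _ _)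
  · exact measurableSet_lt measurable_const measurable_snd.fst.norm
  · filter_upwards [ae_cls hW] with ω hω hm
    obtain ⟨⟨o, n⟩, h1, h2, h3, h4⟩ := hω hm
    rcases h ω o n h2 h3 h4 with h5 | ⟨h5, h6⟩
    · rw [ENNReal.ofReal_of_nonpos h5]
      exact zero_le
    · refine le_trans ?_ (Finset.single_le_sum (f := fun o => ∑ n ∈ I o,
        (dm2c Φ z0 (o, n)).indicator (t (o, n)) ω) (fun _ _ => zero_le) h1)
      refine le_trans ?_ (Finset.single_le_sum (f := fun n =>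
        (dm2c Φ z0 (o, n)).indicator (t (o, n)) ω) (fun _ _ => zero_le) h5)
      rw [indicator_of_mem (show ω ∈ dm2c Φ z0 (o, n) from h4)]
      exact h6

theorem dm2_sqrt (hN : 1 ≤ N) (hE : 1 ≤ En) {X Y : ℝ} (hX : 0 ≤ X)
    (h : Y ≤ 90000 * N * En * X) : Real.sqrt Y ≤ 300 * N * En * Real.sqrt X := by
  have h1 : N * En ≤ (N * En) ^ 2 := by
    have : 1 ≤ N * En := one_le_mul_of_one_le_of_one_le hN hE
    nlinarith
  have h2 : Y ≤ (300 * N * En) ^ 2 * X := by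
    have := mul_le_mul_of_nonneg_right h1 hX
    nlinarith
  refine (Real.sqrt_le_sqrt h2).trans (le_of_eq ?_)
  rw [Real.sqrt_mul (sq_nonneg _), Real.sqrt_sq (by positivity)]

theorem dm2_ang {α : Type} [MeasurableSpace α] {f g : α → V3} (hf : Measurable f)
    (hg : Measurable g) : Measurable fun a => ang (f a) (g a) :=
  Measurable.comp (g := fun w : Z => ang w.1 w.2) (f := fun a => (f a, g a))
    measurable_ang (hf.prodMk hg)

theorem dm2_gfl {α : Type} [MeasurableSpace α] {f : α → V3} {g : α → V3 × V3} (hf : Measurable f)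
    (hg : Measurable g) : Measurable fun a => gfl (f a) (g a) :=
  Measurable.comp (g := fun p : V3 × (V3 × V3) => gfl p.1 p.2) (f := fun a => (f a, g a))
    measurable_gfl (hf.prodMk hg)

theorem dm2_mA (hS : Sol f0 N P0 K0 En T dat A Φ Ψ) :
    Measurable fun p : ℝ × V3 => A (p.1 - ‖p.2‖, (Φ p.1 z0).1 - p.2) := by
  obtain ⟨R, hA⟩ := hS.app
  have h1 : Continuous fun p : ℝ × V3 => Φ p.1 z0 :=
    hS.flow.contΦ.comp (continuous_fst.prodMk continuous_const)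
  exact (hA.continuous.comp ((continuous_fst.sub continuous_snd.norm).prodMk
    (h1.fst.sub continuous_snd))).measurable

theorem dm2_mV (hS : Sol f0 N P0 K0 En T dat A Φ Ψ) :
    Measurable fun p : ℝ × V3 => ang p.2 (Φ p.1 z0).2 := by
  have h1 : Continuous fun p : ℝ × V3 => Φ p.1 z0 :=
    hS.flow.contΦ.comp (continuous_fst.prodMk continuous_const)
  exact dm2_ang measurable_snd h1.snd.measurable

theorem dm2_den {x : Idx} {D v V : V3} (h : inC x D v V) (i : ℕ) :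
    cQ x * cR x * cΘ x ^ i ≤ q v * ‖D‖ * ang D v ^ i := by
  have h1 := dm2_Q x
  have h2 := dm2_R x
  have h3 := dm2_Th x
  have h4 := q_pos v
  exact mul_le_mul (mul_le_mul h.1.1 h.2.2.2.2.1 h2.le h4.le)
    (pow_le_pow_left₀ h3.le h.2.2.1.1 i) (by positivity) (by positivity)

theorem cs_flux : ∃ C : ℝ, 1 ≤ C ∧ ∀ (f0 : Z → ℝ) (N P0 K0 En T c P T' qq a b : ℝ) (dat A : Fld)
    (Φ Ψ : ℝ → Z → Z) (z0 : Z), Win f0 N P0 K0 En T dat A Φ Ψ c P T' qq z0 a b →
    ∀ (j : ℕ) (S : Idx → Prop) (g : Om → ℝ),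
      (∀ ω x, Adm P x → inC x ω.2.1 ω.2.2 (Φ ω.1 z0).2 → S x →
        g ω ≤ kS j ω.2.1 ω.2.2 (Φ ω.1 z0).2 * gfl ω.2.1 (fld A Φ z0 ω)) →
      (∀ ω x, Adm P x → inC x ω.2.1 ω.2.2 (Φ ω.1 z0).2 → ¬ S x → g ω ≤ 0) →
      ∫⁻ ω in {ω : Om | 2 * r0 P < ‖ω.2.1‖}, ENNReal.ofReal (g ω) ∂mu f0 Φ Ψ z0 a b
        ≤ ENNReal.ofReal (C * N * En * (Real.sqrt (dl c P qq) *
          sq P S fun x => JJ j x * cmass f0 Φ Ψ z0 a b x)) := by
  classical
  refine ⟨300, by norm_num, ?_⟩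
  intro f0 N P0 K0 En T c P T' qq a b dat A Φ Ψ z0 hW j S g h1 h2
  have hS := hW.sol
  have hN := hS.init.one_le_N
  have hE := hS.one_le_En
  have hd : 0 ≤ dl c P qq := (sub_nonneg.2 hW.a_le).trans hW.len
  have hcm : ∀ x, 0 ≤ cmass f0 Φ Ψ z0 a b x := fun x => ENNReal.toReal_nonneg
  have hφ : Measurable fun p : ℝ × V3 => gfl p.2 (A (p.1 - ‖p.2‖, (Φ p.1 z0).1 - p.2)) :=
    dm2_gfl measurable_snd (dm2_mA hS)
  obtain ⟨φ, hφe⟩ : ∃ φ : ℝ × V3 → ℝ,
      φ = fun p => gfl p.2 (A (p.1 - ‖p.2‖, (Φ p.1 z0).1 - p.2)) := ⟨_, rfl⟩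
  rw [← hφe] at hφ
  have hφ0 : ∀ p, 0 ≤ φ p := fun p => by rw [hφe]; exact gfl_nonneg _ _
  obtain ⟨k, hke⟩ : ∃ k : Idx → ℝ,
      k = fun x => 2 * cα x / (cQ x * cR x * cΘ x ^ (2 + j)) := ⟨_, rfl⟩
  have hk : ∀ x, 0 ≤ k x := fun x => by
    have := dm2_Q x
    have := dm2_R x
    have := dm2_Th x
    have := dm2_al x
    rw [hke]
    positivity
  have hJ : ∀ x, 0 ≤ JJ j x := fun x => by
    have := dm2_Q x
    have := dm2_R x
    have := dm2_Th x
    unfold JJ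
    positivity
  have hkw : ∀ x, k x ^ 2 * dm2w N x = 51200 * N * JJ j x := fun x => by
    have := dm2_Q x
    have := dm2_R x
    have := dm2_Th x
    rw [hke]
    unfold dm2w JJ
    field_simp
    ring
  have hFl : ∫⁻ s in Ioc a b, ∫⁻ D in {D : V3 | ‖D‖ ≤ s ∧ D ∈ (univ : Set V3)},
      ENNReal.ofReal (φ (s, D) ^ 2) ≤ ENNReal.ofReal (dl c P qq * En) := by
    calc _ ≤ ∫⁻ s in Ioc a b, ENNReal.ofReal En := by
          refine setLIntegral_mono' measurableSet_Ioc fun s hs => ?_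
          simp only [mem_univ, and_true, hφe]
          exact hS.ener.coneF s ⟨hW.a_nonneg.trans hs.1.le,
            hs.2.trans (hW.b_le.trans hW.T'_le)⟩ _
      _ ≤ _ := by
          rw [setLIntegral_const, Real.volume_Ioc, mul_comm, ENNReal.ofReal_mul hd]
          exact mul_le_mul_left (ENNReal.ofReal_le_ofReal hW.len) _
  refine (dm2_D hW (t := fun x ω => ENNReal.ofReal (k x * φ (ω.1, ω.2.1)))
    (fun x => (measurable_const.mul
      (hφ.comp (measurable_fst.prodMk measurable_snd.fst))).ennreal_ofReal)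
    (fun o => (box2 P).filter fun n => Adm P (o, n) ∧ S (o, n)) ?_).trans ?_
  · intro ω o n hn hA hc
    by_cases hs : S (o, n)
    · refine Or.inr ⟨Finset.mem_filter.2 ⟨hn, hA, hs⟩, ENNReal.ofReal_le_ofReal ?_⟩
      refine (h1 ω _ hA hc hs).trans ?_
      rw [hφe, hke]
      refine mul_le_mul_of_nonneg_right ?_ (gfl_nonneg _ _)
      have := dm2_Q (o, n)
      have := dm2_R (o, n)
      have := dm2_Th (o, n)
      have := dm2_al (o, n)
      exact div_le_div₀ (by positivity) hc.2.2.2.1.2.le (by positivity) (dm2_den hc _)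
    · exact Or.inl (h2 ω _ hA hc hs)
  · unfold sq
    rw [Finset.mul_sum, Finset.mul_sum,
      ENNReal.ofReal_sum_of_nonneg fun o _ => by positivity]
    refine Finset.sum_le_sum fun o _ => ?_
    refine (dm2_B hW o _ (k := fun n => k (o, n)) (fun n => hk _) hφ hφ0 MeasurableSet.univ
      (fun _ _ _ _ _ _ => mem_univ _) (by positivity) hFl).trans (ENNReal.ofReal_le_ofReal ?_)
    rw [← Finset.sum_filter, ← Real.sqrt_mul hd]
    refine dm2_sqrt hN hE (mul_nonneg hd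
      (Finset.sum_nonneg fun n _ => mul_nonneg (hJ _) (hcm _))) ?_
    simp only [hkw, mul_assoc (51200 * N), ← Finset.mul_sum]
    have : 0 ≤ N * En * (dl c P qq * ∑ n ∈ (box2 P).filter (fun n => Adm P (o, n) ∧ S (o, n)),
        JJ j (o, n) * cmass f0 Φ Ψ z0 a b (o, n)) :=
      mul_nonneg (by positivity) (mul_nonneg hd
        (Finset.sum_nonneg fun n _ => mul_nonneg (hJ _) (hcm _)))
    nlinarith

theorem cs_full : ∃ C : ℝ, 1 ≤ C ∧ ∀ (f0 : Z → ℝ) (N P0 K0 En T c P T' qq a b : ℝ) (dat A : Fld)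
    (Φ Ψ : ℝ → Z → Z) (z0 : Z), Win f0 N P0 K0 En T dat A Φ Ψ c P T' qq z0 a b →
      ∫⁻ ω in {ω : Om | 2 * r0 P < ‖ω.2.1‖},
          ENNReal.ofReal (kS 0 ω.2.1 ω.2.2 (Φ ω.1 z0).2 * ‖fld A Φ z0 ω‖) ∂mu f0 Φ Ψ z0 a b
        ≤ ENNReal.ofReal (C * N * En * (Real.sqrt (dl c P qq) *
            sq P (fun x => cR x ≤ dl c P qq) (fun x => J0 x * cmass f0 Φ Ψ z0 a b x)
          + sm P (fun x => dl c P qq < cR x)
              fun x => Real.sqrt (cR x * (J0 x * cmass f0 Φ Ψ z0 a b x)))) := by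
  classical
  refine ⟨300, by norm_num, ?_⟩
  intro f0 N P0 K0 En T c P T' qq a b dat A Φ Ψ z0 hW
  have hS := hW.sol
  have hN := hS.init.one_le_N
  have hE := hS.one_le_En
  have hd : 0 ≤ dl c P qq := (sub_nonneg.2 hW.a_le).trans hW.len
  have hcm : ∀ x, 0 ≤ cmass f0 Φ Ψ z0 a b x := fun x => ENNReal.toReal_nonneg
  have hφ : Measurable fun p : ℝ × V3 =>
      ang p.2 (Φ p.1 z0).2 * ‖A (p.1 - ‖p.2‖, (Φ p.1 z0).1 - p.2)‖ :=
    (dm2_mV hS).mul (dm2_mA hS).norm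
  obtain ⟨φ, hφe⟩ : ∃ φ : ℝ × V3 → ℝ, φ = fun p =>
      ang p.2 (Φ p.1 z0).2 * ‖A (p.1 - ‖p.2‖, (Φ p.1 z0).1 - p.2)‖ := ⟨_, rfl⟩
  rw [← hφe] at hφ
  have hφ0 : ∀ p, 0 ≤ φ p := fun p => by
    rw [hφe]; exact mul_nonneg (ang_pos _ _).le (norm_nonneg _)
  obtain ⟨k, hke⟩ : ∃ k : Idx → ℝ,
      k = fun x => 1 / (cQ x * cR x * cΘ x ^ 2) := ⟨_, rfl⟩
  have hk : ∀ x, 0 ≤ k x := fun x => by
    have := dm2_Q x
    have := dm2_R x
    have := dm2_Th x
    rw [hke]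
    positivity
  have hJ : ∀ x, 0 ≤ J0 x := fun x => by
    have := dm2_Q x
    have := dm2_R x
    have := dm2_Th x
    unfold J0
    positivity
  have hkw : ∀ x, k x ^ 2 * dm2w N x = 12800 * N * J0 x := fun x => by
    have := dm2_Q x
    have := dm2_R x
    have := dm2_Th x
    rw [hke]
    unfold dm2w J0
    field_simp
  have hFl : ∀ L : ℝ, dl c P qq ≤ L →
      ∫⁻ s in Ioc a b, ∫⁻ D in {D : V3 | ‖D‖ ≤ s ∧ D ∈ {D : V3 | ‖D‖ ≤ 2 * L}},
        ENNReal.ofReal (φ (s, D) ^ 2) ≤ ENNReal.ofReal (3 * L * En) := by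
    intro L hL
    have H := cov_field (z0 := z0) hS hW.a_le (hW.b_le.trans hW.T'_le)
      (ρ := 2 * L) (by linarith)
    simp only [hφe, mul_pow, ang_sq, mem_setOf_eq]
    refine H.trans (ENNReal.ofReal_le_ofReal (mul_le_mul_of_nonneg_right ?_ (by linarith)))
    have := hW.len
    linarith
  have hWm : ∀ L : ℝ, MeasurableSet {D : V3 | ‖D‖ ≤ 2 * L} := fun L =>
    measurableSet_le measurable_norm measurable_const
  have hmt : ∀ x : Idx, Measurable fun ω : Om => ENNReal.ofReal (k x * φ (ω.1, ω.2.1)) :=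
    fun x => (measurable_const.mul
      (hφ.comp (measurable_fst.prodMk measurable_snd.fst))).ennreal_ofReal
  have hc : ∀ x, MeasurableSet (dm2c Φ z0 x) := fun x => measurableSet_inC hS.flow x
  refine (dm2_D hW (t := fun x ω => ENNReal.ofReal (k x * φ (ω.1, ω.2.1))) hmt
    (fun o => (box2 P).filter fun n => Adm P (o, n)) ?_).trans ?_
  · intro ω o n hn hA hc
    refine Or.inr ⟨Finset.mem_filter.2 ⟨hn, hA⟩, ENNReal.ofReal_le_ofReal ?_⟩
    rw [hφe, hke]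
    have := dm2_Q (o, n)
    have := dm2_R (o, n)
    have := dm2_Th (o, n)
    have h3 := ang_pos ω.2.1 (Φ ω.1 z0).2
    have h4 : kS 0 ω.2.1 ω.2.2 (Φ ω.1 z0).2
        ≤ ang ω.2.1 (Φ ω.1 z0).2 / (cQ (o, n) * cR (o, n) * cΘ (o, n) ^ 2) :=
      div_le_div_of_nonneg_left h3.le (by positivity) (dm2_den hc _)
    refine (mul_le_mul_of_nonneg_right h4 (norm_nonneg _)).trans (le_of_eq ?_)
    unfold fld
    ring
  · unfold sq sm
    have hsm : ∀ o, 0 ≤ ∑ n ∈ box2 P, if Adm P (o, n) ∧ dl c P qq < cR (o, n) then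
        Real.sqrt (cR (o, n) * (J0 (o, n) * cmass f0 Φ Ψ z0 a b (o, n))) else 0 := fun o =>
      Finset.sum_nonneg fun n _ => by split_ifs <;> positivity
    rw [Finset.mul_sum, ← Finset.sum_add_distrib, Finset.mul_sum,
      ENNReal.ofReal_sum_of_nonneg fun o _ => by have := hsm o; positivity]
    refine Finset.sum_le_sum fun o _ => ?_
    simp only [← Finset.sum_filter_add_sum_filter_not ((box2 P).filter fun n => Adm P (o, n))
      (fun n => cR (o, n) ≤ dl c P qq), Finset.filter_filter, not_le]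
    rw [lintegral_add_left (Finset.measurable_sum _ fun n _ => (hmt (o, n)).indicator (hc _)),
      mul_add, ENNReal.ofReal_add (by positivity) (by have := hsm o; positivity)]
    refine add_le_add ?_ ?_
    · refine (dm2_B hW o _ (k := fun n => k (o, n)) (fun n => hk _) hφ hφ0 (hWm (dl c P qq))
        ?_ (by positivity) (hFl _ le_rfl)).trans (ENNReal.ofReal_le_ofReal ?_)
      · intro n hn D v V h
        have h1 := (Finset.mem_filter.1 hn).2.2
        have h2 := h.2.2.2.2.2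
        show ‖D‖ ≤ _
        linarith
      rw [← Finset.sum_filter, ← Real.sqrt_mul hd]
      refine dm2_sqrt hN hE (mul_nonneg hd
        (Finset.sum_nonneg fun n _ => mul_nonneg (hJ _) (hcm _))) ?_
      simp only [hkw, mul_assoc (12800 * N), ← Finset.mul_sum]
      have : 0 ≤ N * En * (dl c P qq * ∑ n ∈ (box2 P).filter
          (fun n => Adm P (o, n) ∧ cR (o, n) ≤ dl c P qq),
          J0 (o, n) * cmass f0 Φ Ψ z0 a b (o, n)) :=
        mul_nonneg (by positivity) (mul_nonneg hd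
          (Finset.sum_nonneg fun n _ => mul_nonneg (hJ _) (hcm _)))
      nlinarith
    · rw [lintegral_finsetSum _ fun n _ => (hmt (o, n)).indicator (hc _), ← Finset.sum_filter,
        Finset.mul_sum, ENNReal.ofReal_sum_of_nonneg fun n _ => by positivity]
      refine Finset.sum_le_sum fun n hn => ?_
      have h1 := (Finset.mem_filter.1 hn).2.2
      have hR := dm2_R (o, n)
      have H := dm2_B hW o {n} (k := fun n => k (o, n)) (fun n => hk _) hφ hφ0 (hWm (cR (o, n)))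
        (fun m hm D v V h => by
          rw [Finset.mem_singleton.1 hm] at h
          exact h.2.2.2.2.2.le) (by positivity) (hFl _ h1.le)
      simp only [Finset.sum_singleton] at H
      refine H.trans (ENNReal.ofReal_le_ofReal ?_)
      have h0 : 0 ≤ cR (o, n) * (J0 (o, n) * cmass f0 Φ Ψ z0 a b (o, n)) :=
        mul_nonneg hR.le (mul_nonneg (hJ _) (hcm _))
      refine dm2_sqrt hN hE h0 ?_
      rw [hkw]
      have := mul_nonneg (show 0 ≤ N * En by positivity) h0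
      nlinarith

end Vale.Agent.P107
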