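import Vale.Agent.P107.DM1
import Vale.Agent.P107.DVol
import Vale.Agent.P107.DCov

/-! The mass bounds V, F, En and the boundary term.

Plan. vol: on a class rho ≤ N * 4 cΘ², integrate in v (vol_class), then in D (vol_D with t = 4 cα²), then in s. flux: cQ ≤ q v and coneP. ener: on the class
cα²/(4 cΘ²) * cQ ≤ kap D V / kap D v * q v, cov_part with ρ = 2 cR. mk_large: m x = mass of the class on the cone at time s; cls_cover; on setB the class
satisfies r1lo and r2lo (class_r1lo, class_r2lo), and mk ≤ 1/(cα² cΘ cR). -/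

namespace Vale.Agent.P107

open MeasureTheory Set Filter Topology
open scoped RealInnerProductSpace ENNReal

variable {f0 : Z → ℝ} {N P0 K0 En T c P T' qq a b : ℝ} {dat A : Fld} {Φ Ψ : ℝ → Z → Z} {z0 : Z}


theorem dm3_Q (x : Idx) : 0 < cQ x := zpow_pos two_pos _
theorem dm3_θ (x : Idx) : 0 < cθ x := zpow_pos two_pos _
theorem dm3_Θ (x : Idx) : 0 < cΘ x := zpow_pos two_pos _
theorem dm3_α (x : Idx) : 0 < cα x := zpow_pos two_pos _
theorem dm3_R (x : Idx) : 0 < cR x := zpow_pos two_pos _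

theorem dm3_kap (D v : V3) (k : ℕ) : kap D v ^ k = ang D v ^ (2 * k) := by
  rw [pow_mul, ang_sq]

theorem class_rA {x : Idx} {D v V : V3} (h0 : D ≠ 0) (h : inC x D v V) (hA : ang D v ≤ ang D V / 4) :
    rA x := by
  obtain ⟨-, ⟨a1, a2⟩, ⟨b1, b2⟩, ⟨c1, c2⟩, -⟩ := h
  have t1 := tri_th h0 v V
  have t2 := tri_al h0 v V
  have p1 := dm3_θ x
  have p2 := dm3_α x
  exact ⟨by linarith, by linarith, by linarith⟩

theorem class_r1lo {x : Idx} {D v V : V3} (h0 : D ≠ 0) (h : inC x D v V) (h1 : x1 D v V ≤ 2) :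
    r1lo x := by
  refine ⟨class_rA h0 h (ang_le_of_x1 h1), ?_⟩
  obtain ⟨-, -, ⟨b1, -⟩, ⟨-, c2⟩, -⟩ := h
  rw [x1, div_le_iff₀ (pow_pos (kap_pos D V) 5), dm3_kap, dm3_kap] at h1
  have e1 : cΘ x ^ 8 ≤ ang D v ^ 8 := pow_le_pow_left₀ (dm3_Θ x).le b1 8
  have e2 : ang D V ^ 10 ≤ (2 * cα x) ^ 10 := pow_le_pow_left₀ (ang_pos D V).le c2.le 10
  have e3 : 0 < cα x ^ 10 := pow_pos (dm3_α x) 10
  rw [mul_pow] at e2
  norm_num at h1 e2
  linarith

theorem class_r1hi {x : Idx} {D v V : V3} (h : inC x D v V) (h1 : 1 ≤ x1 D v V) : r1hi x := by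
  obtain ⟨-, -, ⟨-, b2⟩, ⟨c1, -⟩, -⟩ := h
  rw [x1, le_div_iff₀ (pow_pos (kap_pos D V) 5), dm3_kap, dm3_kap] at h1
  have e1 : cα x ^ 10 ≤ ang D V ^ 10 := pow_le_pow_left₀ (dm3_α x).le c1 10
  have e2 : ang D v ^ 8 ≤ (2 * cΘ x) ^ 8 := pow_le_pow_left₀ (ang_pos D v).le b2.le 8
  rw [mul_pow] at e2
  unfold r1hi
  norm_num at h1 e2 ⊢
  linarith

theorem class_r2lo {x : Idx} {Zc : ℝ} (hZ : 0 < Zc) {D v V : V3} (h : inC x D v V)
    (h2 : x2 Zc D v ≤ 2) : r2lo Zc x := by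
  obtain ⟨⟨a1, -⟩, -, ⟨b1, -⟩, -, ⟨c1, -⟩⟩ := h
  rw [x2, div_le_iff₀ (pow_pos hZ 2), dm3_kap] at h2
  refine le_trans ?_ h2
  have := dm3_Q x
  have := dm3_Θ x
  have := dm3_R x
  have := q_pos v
  gcongr

theorem class_r2hi {x : Idx} {Zc : ℝ} (hZ : 0 < Zc) {D v V : V3} (h : inC x D v V)
    (h2 : 1 ≤ x2 Zc D v) : r2hi Zc x := by
  obtain ⟨⟨-, a2⟩, -, ⟨-, b2⟩, -, ⟨-, c2⟩⟩ := h
  rw [x2, le_div_iff₀ (pow_pos hZ 2), dm3_kap, one_mul] at h2
  refine h2.trans ?_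
  have := dm3_Q x
  have := dm3_Θ x
  have := dm3_R x
  have := q_pos v
  have := ang_pos D v
  calc _ ≤ (2 * cR x) ^ 4 * (2 * cQ x) ^ 6 * (2 * cΘ x) ^ (2 * 3) := by gcongr
    _ = _ := by ring

theorem dm3_meas (hF : IsFlow A Φ Ψ) (s : ℝ) (x : Idx) :
    MeasurableSet {w : Z | inC x w.1 w.2 (Φ s z0).2} :=
  measurable_prodMk_left (x := s) (measurableSet_inC (z0 := z0) hF x)

theorem cone_vol (hI : Init f0 N P0) (hF : IsFlow A Φ Ψ) (s : ℝ) (x : Idx) :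
    ∫⁻ w in {w : Z | inC x w.1 w.2 (Φ s z0).2}, ENNReal.ofReal (rho f0 Φ Ψ z0 (s, w))
      ≤ ENNReal.ofReal (10 ^ 8 * N * cR x ^ 3 * cα x ^ 2 * cΘ x ^ 2 * cQ x ^ 3 * cβ x ^ 2) := by
  have hS := dm3_meas (z0 := z0) hF s x
  have hN : 0 ≤ N := zero_le_one.trans hI.one_le_N
  have pQ := dm3_Q x
  have pR := dm3_R x
  generalize hV : (Φ s z0).2 = V at hS ⊢
  have h1 : ∫⁻ w in {w : Z | inC x w.1 w.2 V}, ENNReal.ofReal (rho f0 Φ Ψ z0 (s, w)) ≤
      ∫⁻ _ in {w : Z | inC x w.1 w.2 V}, ENNReal.ofReal (N * (2 * cΘ x) ^ 2) :=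
    setLIntegral_mono' hS fun w hw => ENNReal.ofReal_le_ofReal ((rho_le hI _).trans (by
      refine mul_le_mul_of_nonneg_left ?_ hN
      rw [← ang_sq]
      exact pow_le_pow_left₀ (ang_pos _ _).le hw.2.2.1.2.le 2))
  have h2 : volume {w : Z | inC x w.1 w.2 V} ≤ ENNReal.ofReal (3200 * cQ x ^ 3 * cβ x ^ 2) *
      volume {D : V3 | ‖D‖ ≤ 2 * cR x ∧ kap D V ≤ (2 * cα x) ^ 2} := by
    rw [Measure.volume_eq_prod, Measure.prod_apply hS]
    refine le_trans (lintegral_mono fun D => ?_) (lintegral_indicator_const_le _ _)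
    by_cases hD : D ∈ {D : V3 | ‖D‖ ≤ 2 * cR x ∧ kap D V ≤ (2 * cα x) ^ 2}
    · rw [indicator_of_mem hD]
      exact vol_class x D V
    · have e : Prod.mk D ⁻¹' {w : Z | inC x w.1 w.2 V} = ∅ :=
        eq_empty_of_forall_notMem fun v hv => hD ⟨hv.2.2.2.2.2.le, by
          rw [← ang_sq]
          exact pow_le_pow_left₀ (ang_pos _ _).le hv.2.2.2.1.2.le 2⟩
      rw [e, measure_empty]
      exact zero_le
  have h3 := vol_D V pR.le (sq_nonneg (2 * cα x))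
  rw [setLIntegral_const] at h1
  refine h1.trans ((mul_le_mul_right (h2.trans (mul_le_mul_right h3 _)) _).trans ?_)
  rw [← ENNReal.ofReal_mul (by positivity), ← ENNReal.ofReal_mul (by positivity)]
  refine ENNReal.ofReal_le_ofReal ?_
  have h4 : 0 ≤ N * cR x ^ 3 * cα x ^ 2 * cΘ x ^ 2 * cQ x ^ 3 * cβ x ^ 2 := by positivity
  nlinarith

theorem dm3_mass (hW : Win f0 N P0 K0 En T dat A Φ Ψ c P T' qq z0 a b) (x : Idx) {K : ℝ}
    (hK : 0 ≤ K) (h : ∀ s ∈ Ioc a b, ∫⁻ w in {w : Z | inC x w.1 w.2 (Φ s z0).2},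
      ENNReal.ofReal (rho f0 Φ Ψ z0 (s, w)) ≤ ENNReal.ofReal K) :
    cmass f0 Φ Ψ z0 a b x ≤ K * dl c P qq := by
  have hd : 0 ≤ dl c P qq := (sub_nonneg.2 hW.a_le).trans hW.len
  have hS := measurableSet_inC (z0 := z0) hW.sol.flow x
  refine ENNReal.toReal_le_of_le_ofReal (mul_nonneg hK hd) ?_
  rw [← lintegral_indicator_one hS,
    lintegral_mu hW.sol.init hW.sol.flow (measurable_one.indicator hS)]
  refine (setLIntegral_mono' measurableSet_Ioc (g := fun _ => ENNReal.ofReal K)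
    fun s hs => le_trans (le_of_eq ?_) (h s hs)).trans ?_
  · rw [← lintegral_indicator (dm3_meas hW.sol.flow s x)]
    refine lintegral_congr fun w => ?_
    by_cases hw : inC x w.1 w.2 (Φ s z0).2
    · rw [indicator_of_mem (show (s, w) ∈ {ω : Om | inC x ω.2.1 ω.2.2 (Φ ω.1 z0).2} from hw),
        indicator_of_mem (show w ∈ {w : Z | inC x w.1 w.2 (Φ s z0).2} from hw), Pi.one_apply,
        mul_one]
    · rw [indicator_of_notMem (show (s, w) ∉ {ω : Om | inC x ω.2.1 ω.2.2 (Φ ω.1 z0).2} from hw),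
        indicator_of_notMem (show w ∉ {w : Z | inC x w.1 w.2 (Φ s z0).2} from hw), mul_zero]
  · rw [setLIntegral_const, Real.volume_Ioc, ENNReal.ofReal_mul hK]
    exact mul_le_mul_right (ENNReal.ofReal_le_ofReal hW.len) _

theorem mass_vol (hW : Win f0 N P0 K0 En T dat A Φ Ψ c P T' qq z0 a b) (x : Idx) :
    cmass f0 Φ Ψ z0 a b x
      ≤ 10 ^ 8 * N * dl c P qq * cR x ^ 3 * cα x ^ 2 * cΘ x ^ 2 * cQ x ^ 3 * cβ x ^ 2 := by
  have hN : 0 ≤ N := zero_le_one.trans hW.sol.init.one_le_N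
  have pQ := dm3_Q x
  have pR := dm3_R x
  refine (dm3_mass hW x (by positivity) fun s _ => cone_vol hW.sol.init hW.sol.flow s x).trans
    (le_of_eq ?_)
  ring

theorem mass_flux (hW : Win f0 N P0 K0 En T dat A Φ Ψ c P T' qq z0 a b) (x : Idx) :
    cmass f0 Φ Ψ z0 a b x ≤ dl c P qq * En / cQ x := by
  have pQ := dm3_Q x
  have hE : 0 ≤ En := zero_le_one.trans hW.sol.one_le_En
  refine (dm3_mass hW x (K := (cQ x)⁻¹ * En) (by positivity) fun s hs => ?_).trans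
    (le_of_eq (by ring))
  have h1 := hW.sol.ener.coneP s ⟨hW.a_nonneg.trans hs.1.le,
    hs.2.trans (hW.b_le.trans hW.T'_le)⟩ (Φ s z0).1
  have hm : MeasurableSet {w : Z | ‖w.1‖ ≤ s} :=
    measurableSet_le measurable_fst.norm measurable_const
  rw [ENNReal.ofReal_mul (by positivity)]
  refine le_trans ?_ (mul_le_mul_right h1 _)
  rw [← lintegral_const_mul' _ _ ENNReal.ofReal_ne_top, ← lintegral_indicator hm,
    ← lintegral_indicator (dm3_meas hW.sol.flow s x)]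
  refine lintegral_mono fun w => ?_
  by_cases hw : w ∈ {w : Z | inC x w.1 w.2 (Φ s z0).2}
  · rw [indicator_of_mem hw]
    by_cases hs' : ‖w.1‖ ≤ s
    · rw [indicator_of_mem (show w ∈ {w : Z | ‖w.1‖ ≤ s} from hs'),
        ← ENNReal.ofReal_mul (by positivity)]
      refine ENNReal.ofReal_le_ofReal ?_
      have h2 : 0 ≤ kap w.1 w.2 * dens f0 Ψ (s - ‖w.1‖) ((Φ s z0).1 - w.1, w.2) :=
        mul_nonneg (kap_pos _ _).le (hW.sol.init.nonneg _)
      have h3 : 1 ≤ (cQ x)⁻¹ * q w.2 := by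
        rw [inv_mul_eq_div, one_le_div pQ]
        exact hw.1.1
      simp only [rho, if_pos hs']
      nlinarith
    · simp only [rho, if_neg hs', ENNReal.ofReal_zero]
      exact zero_le
  · rw [indicator_of_notMem hw]
    exact zero_le

theorem mass_ener (hW : Win f0 N P0 K0 En T dat A Φ Ψ c P T' qq z0 a b) (x : Idx) :
    cmass f0 Φ Ψ z0 a b x ≤ 8 * (cΘ x / cα x) ^ 2 * (dl c P qq + cR x) * En / cQ x := by
  have pQ := dm3_Q x
  have pR := dm3_R x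
  have pΘ := dm3_Θ x
  have pα := dm3_α x
  have hE : 0 ≤ En := zero_le_one.trans hW.sol.one_le_En
  have hd : 0 ≤ dl c P qq := (sub_nonneg.2 hW.a_le).trans hW.len
  have hS := measurableSet_inC (z0 := z0) hW.sol.flow x
  have h1 := cov_part (z0 := z0) hW.sol hW.a_le (hW.b_le.trans hW.T'_le)
    (show 0 ≤ 2 * cR x by positivity)
  have h2 : ∫⁻ _ in {ω : Om | inC x ω.2.1 ω.2.2 (Φ ω.1 z0).2},
      ENNReal.ofReal (cα x ^ 2 / (2 * cΘ x) ^ 2 * cQ x) ∂mu f0 Φ Ψ z0 a b ≤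
      ∫⁻ ω in {ω : Om | inC x ω.2.1 ω.2.2 (Φ ω.1 z0).2},
        ENNReal.ofReal (kap ω.2.1 (Φ ω.1 z0).2 / kap ω.2.1 ω.2.2 * q ω.2.2) ∂mu f0 Φ Ψ z0 a b :=
    setLIntegral_mono' hS fun ω hω => ENNReal.ofReal_le_ofReal (by
      obtain ⟨⟨a1, -⟩, -, ⟨-, b2⟩, ⟨c1, -⟩, -⟩ := hω
      have := ang_pos ω.2.1 ω.2.2
      rw [← ang_sq, ← ang_sq]
      gcongr)
  have h3 := (h2.trans (lintegral_mono_set fun ω hω => hω.2.2.2.2.2.le)).trans h1
  rw [setLIntegral_const, cmass_eq hW x, ← ENNReal.ofReal_mul (by positivity),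
    ENNReal.ofReal_le_ofReal_iff (mul_nonneg (by linarith [hW.a_le]) hE)] at h3
  have h4 : (b - a + 2 * cR x) * En ≤ 2 * (dl c P qq + cR x) * En :=
    mul_le_mul_of_nonneg_right (by linarith [hW.len]) hE
  have h5 := mul_le_mul_of_nonneg_left (h3.trans h4)
    (show 0 ≤ 4 * (cΘ x / cα x) ^ 2 / cQ x by positivity)
  refine le_trans (le_of_eq ?_) (h5.trans (le_of_eq (by ring)))
  field_simp
  ring

theorem mk_large (hW : Win f0 N P0 K0 En T dat A Φ Ψ c P T' qq z0 a b) {Zc s : ℝ} (hZ : 0 < Zc)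
    (hs : s ∈ Icc a b) : ∃ m : Idx → ℝ, (∀ x, 0 ≤ m x) ∧
      (∀ x, m x ≤ 10 ^ 8 * N * cR x ^ 3 * cα x ^ 2 * cΘ x ^ 2 * cQ x ^ 3 * cβ x ^ 2) ∧
      ∫⁻ w in {w : Z | 2 * r0 P < ‖w.1‖}, ENNReal.ofReal (rho f0 Φ Ψ z0 (s, w)) *
          ENNReal.ofReal (mk Zc w.1 w.2 (Φ s z0).2)
        ≤ ENNReal.ofReal (sm P (fun x => r1lo x ∧ r2lo Zc x)
          fun x => 1 / (cα x ^ 2 * cΘ x * cR x) * m x) := by
  classical
  have hI := hW.sol.init
  have hF := hW.sol.flow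
  have hN : 0 ≤ N := zero_le_one.trans hI.one_le_N
  have hr : 0 < r0 P := inv_pos.2 (pow_pos (two_pos.trans_le hW.P_ge) 20)
  have hfin : ∀ x : Idx, ∫⁻ w in {w : Z | inC x w.1 w.2 (Φ s z0).2},
      ENNReal.ofReal (rho f0 Φ Ψ z0 (s, w)) ≠ ⊤ := fun x =>
    ne_top_of_le_ne_top ENNReal.ofReal_ne_top (cone_vol hI hF s x)
  have hk : ∀ x : Idx, 0 ≤ 1 / (cα x ^ 2 * cΘ x * cR x) := fun x => by
    have := dm3_Θ x
    have := dm3_R x
    positivity
  refine ⟨fun x => (∫⁻ w in {w : Z | inC x w.1 w.2 (Φ s z0).2},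
    ENNReal.ofReal (rho f0 Φ Ψ z0 (s, w))).toReal, fun x => ENNReal.toReal_nonneg, fun x => ?_, ?_⟩
  · have := dm3_Q x
    have := dm3_R x
    exact ENNReal.toReal_le_of_le_ofReal (by positivity) (cone_vol hI hF s x)
  let G : Idx → Z → ℝ≥0∞ := fun x => {w : Z | inC x w.1 w.2 (Φ s z0).2}.indicator fun w =>
    ENNReal.ofReal (if Adm P x ∧ r1lo x ∧ r2lo Zc x then 1 / (cα x ^ 2 * cΘ x * cR x) else 0) *
      ENNReal.ofReal (rho f0 Φ Ψ z0 (s, w))
  have hG : ∀ x, Measurable (G x) := fun x =>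
    (((measurable_rho hI hF).comp measurable_prodMk_left).ennreal_ofReal.const_mul _).indicator
      (dm3_meas hF s x)
  have hm : MeasurableSet {w : Z | 2 * r0 P < ‖w.1‖} :=
    measurableSet_lt measurable_const measurable_fst.norm
  have h1 : ∀ w ∈ {w : Z | 2 * r0 P < ‖w.1‖}, ENNReal.ofReal (rho f0 Φ Ψ z0 (s, w)) *
      ENNReal.ofReal (mk Zc w.1 w.2 (Φ s z0).2) ≤ ∑ o ∈ box3 P, ∑ n ∈ box2 P, G (o, n) w := by
    intro w hw
    have hw' : 2 * r0 P < ‖w.1‖ := hw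
    by_cases h0 : rho f0 Φ Ψ z0 (s, w) = 0
    · rw [h0, ENNReal.ofReal_zero, zero_mul]
      exact zero_le
    by_cases hB : setB Zc w.1 w.2 (Φ s z0).2
    swap
    · rw [mk, if_neg hB, ENNReal.ofReal_zero, mul_zero]
      exact zero_le
    have hsT := hs.2.trans hW.b_le
    obtain ⟨e1, e2⟩ := rho_ne_zero hF hW.bnd (ω := (s, w)) hsT h0
    obtain ⟨x, x1, x2, xa, xc⟩ := cls_cover hW.P_ge e2 (hW.bnd z0 hW.z0_mem s hsT) hw'
      (e1.trans (hsT.trans (hW.T'_le.trans hW.T_le)))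
    have hD : w.1 ≠ 0 := norm_pos_iff.1 (by linarith)
    refine le_trans ?_ (Finset.single_le_sum (f := fun o => ∑ n ∈ box2 P, G (o, n) w)
      (fun _ _ => zero_le) x1)
    refine le_trans ?_ (Finset.single_le_sum (f := fun n => G (x.1, n) w) (fun _ _ => zero_le) x2)
    show _ ≤ G x w
    simp only [G]
    rw [indicator_of_mem (show w ∈ {w : Z | inC x w.1 w.2 (Φ s z0).2} from xc),
      if_pos ⟨xa, class_r1lo hD xc hB.1, class_r2lo hZ xc hB.2⟩, mul_comm, mk, if_pos hB]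
    refine mul_le_mul_left (ENNReal.ofReal_le_ofReal ?_) _
    obtain ⟨-, -, ⟨b1, -⟩, ⟨c1, -⟩, ⟨d1, -⟩⟩ := xc
    have := dm3_Θ x
    have := dm3_R x
    have := dm3_α x
    have := ang_pos w.1 w.2
    gcongr
  refine (setLIntegral_mono' hm h1).trans ((setLIntegral_le_lintegral _ _).trans (le_of_eq ?_))
  rw [lintegral_finsetSum _ fun o _ => Finset.measurable_sum _ fun n _ => hG (o, n), sm,
    ENNReal.ofReal_sum_of_nonneg fun o _ => Finset.sum_nonneg fun n _ => by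
      split_ifs
      · exact mul_nonneg (hk _) ENNReal.toReal_nonneg
      · exact le_rfl]
  refine Finset.sum_congr rfl fun o _ => ?_
  rw [lintegral_finsetSum _ fun n _ => hG (o, n),
    ENNReal.ofReal_sum_of_nonneg fun n _ => by
      split_ifs
      · exact mul_nonneg (hk _) ENNReal.toReal_nonneg
      · exact le_rfl]
  refine Finset.sum_congr rfl fun n _ => ?_
  simp only [G]
  rw [lintegral_indicator (dm3_meas hF s _), lintegral_const_mul' _ _ ENNReal.ofReal_ne_top]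
  split_ifs
  · rw [ENNReal.ofReal_mul (hk _), ENNReal.ofReal_toReal (hfin _)]
  · rw [ENNReal.ofReal_zero, zero_mul]

end Vale.Agent.P107
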