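import Vale.Agent.P107.DM0
import Vale.Agent.P107.DCov

/-! The contribution of small distances is negligible.

Plan. mu-a.e. q v ≤ P and q V ≤ P, so ang ≥ 1/(2P) (ang_ge), ang ≤ 3/2; every kernel is ≤ C P^5/‖D‖² or ≤ C P^4 φ/‖D‖ with φ = gfl or ‖F‖; ∫ rho dv ≤ 2N·5P³
(rho_le, volume_q_le); lintegral_inv_sq with ρ = 2 r0 = 2 P^-20; φ/‖D‖ ≤ P^-9 φ² + P^9/‖D‖²; coneF, cov_field with 1 ≤ 2P² kap; b - a ≤ dl ≤ 1. -/

namespace Vale.Agent.P107

open MeasureTheory Set Filter Topology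
open scoped RealInnerProductSpace ENNReal

variable {f0 : Z → ℝ} {N P0 K0 En T c P T' qq a b : ℝ} {dat A : Fld} {Φ Ψ : ℝ → Z → Z} {z0 : Z}


theorem dm5_x (D : V3) {v : V3} (hv : q v ≤ P) : (ang D v)⁻¹ ≤ 2 * P := by
  have h := q_pos v
  refine (inv_anti₀ (by positivity) (ang_ge D v)).trans ?_
  rw [one_div, inv_inv]
  linarith

theorem dm5_xp (D : V3) {v : V3} (hv : q v ≤ P) {k m : ℕ} (hk : k ≤ m) :
    (ang D v)⁻¹ ^ k ≤ (2 * P) ^ m := by
  have h := one_le_q v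
  exact (pow_le_pow_left₀ (inv_nonneg.2 (ang_pos D v).le) (dm5_x D hv) k).trans
    (pow_le_pow_right₀ (by linarith) hk)

theorem dm5_kS {k : ℕ} (hk : k ≤ 2) (D : V3) {v : V3} (V : V3) (hv : q v ≤ P) :
    kS k D v V ≤ 24 * P ^ 4 * ‖D‖⁻¹ := by
  have h1 := dm5_xp D hv (show 2 + k ≤ 4 by omega)
  have h2 : (q v)⁻¹ ≤ 1 := inv_le_one_of_one_le₀ (one_le_q v)
  have h3 := ang_le D V
  have := ang_pos D v
  have := ang_pos D V
  have := q_pos v
  calc kS k D v V = ang D V * (q v)⁻¹ * (ang D v)⁻¹ ^ (2 + k) * ‖D‖⁻¹ := by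
        simp only [kS, div_eq_mul_inv, mul_inv, inv_pow]
        ring
    _ ≤ 3 / 2 * 1 * (2 * P) ^ 4 * ‖D‖⁻¹ := by gcongr
    _ = _ := by ring

theorem dm5_kT (D : V3) {v : V3} (V : V3) (hv : q v ≤ P) :
    kT D v V ≤ 96 * P ^ 5 * ‖D‖⁻¹ ^ 2 := by
  have h1 := dm5_xp D hv (le_refl 5)
  have h2 : (q v)⁻¹ ≤ 1 := inv_le_one_of_one_le₀ (one_le_q v)
  have h3 := ang_le D V
  have h4 := ang_le D v
  have := ang_pos D v
  have := ang_pos D V
  have := q_pos v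
  calc kT D v V = (ang D v + ang D V) * (q v)⁻¹ ^ 2 * (ang D v)⁻¹ ^ 5 * ‖D‖⁻¹ ^ 2 := by
        simp only [kT, div_eq_mul_inv, mul_inv, inv_pow]
        ring
    _ ≤ (3 / 2 + 3 / 2) * 1 ^ 2 * (2 * P) ^ 5 * ‖D‖⁻¹ ^ 2 := by gcongr
    _ = _ := by ring

/-- A common bound of `wk` and `vk`. -/
noncomputable def dm5B (D v V : V3) (F : V3 × V3) : ℝ :=
  vk D v V F + 1 / (ang D v ^ 2 * ‖D‖ ^ 2) + ang D V / (ang D v ^ 3 * ‖D‖ ^ 2)

theorem dm5_vk (D v V : V3) (F : V3 × V3) : vk D v V F ≤ dm5B D v V F := by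
  have := ang_pos D v
  have := ang_pos D V
  rw [dm5B, add_assoc]
  exact le_add_of_nonneg_right (by positivity)

theorem dm5_wk (P1 Zc ρ : ℝ) (D v V : V3) (F : V3 × V3) :
    wk P1 Zc ρ D v V F ≤ dm5B D v V F := by
  have := ang_pos D v
  have := ang_pos D V
  have := mul_nonneg (kS_nonneg 2 D v V) (gfl_nonneg D F)
  unfold wk dm5B vk
  gcongr <;> split_ifs <;> first | exact le_rfl | positivity

theorem dm5_B (D : V3) {v V : V3} (F : V3 × V3) (hv : q v ≤ P) (hV : q V ≤ P) :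
    dm5B D v V F ≤ 208 / P ^ 3 *
      (P ^ 16 * (1 / ‖D‖ ^ 2) + gfl D F ^ 2 + kap D V * ‖F‖ ^ 2) := by
  have hP : 1 ≤ P := (one_le_q v).trans hv
  have hg := gfl_nonneg D F
  have hα := ang_pos D V
  have hΘ := ang_pos D v
  have h3 := ang_le D V
  have b1 : 1 / (ang D v ^ 2 * ‖D‖ ^ 2) ≤ (2 * P) ^ 5 * ‖D‖⁻¹ ^ 2 := by
    rw [one_div, mul_inv, ← inv_pow, ← inv_pow]
    exact mul_le_mul_of_nonneg_right (dm5_xp D hv (by norm_num)) (by positivity)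
  have b2 : ang D V / (ang D v ^ 3 * ‖D‖ ^ 2) ≤ 2 * P * ((2 * P) ^ 4 * ‖D‖⁻¹ ^ 2) := by
    rw [div_eq_mul_inv, mul_inv, ← inv_pow, ← inv_pow]
    have := dm5_xp D hv (show 3 ≤ 4 by norm_num)
    gcongr
    linarith
  have b3 : ‖F‖ ≤ 2 * P * (ang D V * ‖F‖) := by
    rw [← mul_assoc]
    refine le_mul_of_one_le_left (norm_nonneg _) ?_
    have := mul_le_mul_of_nonneg_right (dm5_x D hV) hα.le
    rwa [inv_mul_cancel₀ hα.ne'] at this
  have c0 := mul_le_mul (dm5_kS (by norm_num : 0 ≤ 2) D V hv) b3 (norm_nonneg _) (by positivity)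
  have c1 := mul_le_mul_of_nonneg_right (dm5_kS (by norm_num : 1 ≤ 2) D V hv) hg
  have c2 := mul_le_mul_of_nonneg_right (dm5_kS (le_refl 2) D V hv) hg
  have cT := dm5_kT D V hv
  rw [← ang_sq, one_div, ← inv_pow, div_mul_eq_mul_div, le_div_iff₀ (by positivity)]
  have hi : 0 ≤ ‖D‖⁻¹ := by positivity
  generalize ‖D‖⁻¹ = i at *
  have e : dm5B D v V F ≤ 160 * P ^ 5 * i ^ 2 + 48 * P ^ 4 * i * gfl D F +
      48 * P ^ 5 * i * (ang D V * ‖F‖) := by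
    unfold dm5B vk
    linarith
  refine (mul_le_mul_of_nonneg_right e (by positivity)).trans ?_
  have p1 : P ^ 8 * i ^ 2 ≤ P ^ 16 * i ^ 2 := by gcongr; norm_num
  have p2 : P ^ 14 * i ^ 2 ≤ P ^ 16 * i ^ 2 := by gcongr; norm_num
  have p3 := sq_nonneg (P ^ 7 * i - gfl D F)
  have p4 := sq_nonneg (P ^ 8 * i - ang D V * ‖F‖)
  have p5 := sq_nonneg (gfl D F)
  have p6 := sq_nonneg (ang D V * ‖F‖)
  linarith

theorem dm5_mk (Zc : ℝ) {D v V : V3} (hD : ‖D‖ ≤ 1) (hv : q v ≤ P) (hV : q V ≤ P) :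
    mk Zc D v V ≤ 8 / P ^ 3 * (P ^ 16 * (1 / ‖D‖ ^ 2)) := by
  have hP : 1 ≤ P := (one_le_q v).trans hv
  have hα := ang_pos D V
  have hΘ := ang_pos D v
  have hi : ‖D‖⁻¹ ≤ 1 / ‖D‖ ^ 2 := by
    rcases (norm_nonneg D).eq_or_lt with h | h
    · simp [← h]
    · rw [one_div]
      exact inv_anti₀ (by positivity) (by nlinarith)
  unfold mk
  split_ifs
  · have h1 := dm5_xp D hV (le_refl 2)
    have h2 := dm5_x D hv
    calc 1 / (ang D V ^ 2 * ang D v * ‖D‖) = (ang D V)⁻¹ ^ 2 * (ang D v)⁻¹ * ‖D‖⁻¹ := by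
          simp only [one_div, mul_inv, inv_pow]
      _ ≤ (2 * P) ^ 2 * (2 * P) * (1 / ‖D‖ ^ 2) := by gcongr
      _ = 8 / P ^ 3 * (P ^ 6 * (1 / ‖D‖ ^ 2)) := by field_simp; norm_num
      _ ≤ _ := by gcongr; norm_num
  · positivity

theorem dm5_v (hW : Win f0 N P0 K0 En T dat A Φ Ψ c P T' qq z0 a b) {s ρ K : ℝ} (hs : s ≤ b)
    (hK : 0 ≤ K) {φ : Z → ℝ} {G : V3 → ℝ≥0∞}
    (h : ∀ D v, ‖D‖ ≤ ρ → q v ≤ P → ENNReal.ofReal (φ (D, v)) ≤ ENNReal.ofReal (K / P ^ 3) * G D) :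
    ∫⁻ w in {w : Z | ‖w.1‖ ≤ ρ}, ENNReal.ofReal (rho f0 Φ Ψ z0 (s, w)) * ENNReal.ofReal (φ w) ≤
      ENNReal.ofReal (10 * N * K) * ∫⁻ D in {D : V3 | ‖D‖ ≤ s ∧ ‖D‖ ≤ ρ}, G D := by
  have hN : 0 ≤ N := zero_le_one.trans hW.sol.init.one_le_N
  have hP : 0 < P := two_pos.trans_le hW.P_ge
  have m1 : MeasurableSet {D : V3 | ‖D‖ ≤ s ∧ ‖D‖ ≤ ρ} := by measurability
  have m2 : MeasurableSet {v : V3 | q v ≤ P} :=
    measurableSet_le contDiff_q.continuous.measurable measurable_const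
  calc _ ≤ ∫⁻ w in {D : V3 | ‖D‖ ≤ s ∧ ‖D‖ ≤ ρ} ×ˢ {v : V3 | q v ≤ P},
        ENNReal.ofReal (2 * N) * (ENNReal.ofReal (K / P ^ 3) * G w.1) := by
        rw [← lintegral_indicator (by measurability), ← lintegral_indicator (m1.prod m2)]
        refine lintegral_mono fun w => ?_
        by_cases hw : w ∈ {w : Z | ‖w.1‖ ≤ ρ}
        · rw [indicator_of_mem hw]
          by_cases hr : rho f0 Φ Ψ z0 (s, w) = 0
          · simp [hr]
          · obtain ⟨h1, h2⟩ := rho_ne_zero hW.sol.flow hW.bnd (ω := (s, w)) (hs.trans hW.b_le) hr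
            rw [indicator_of_mem (show w ∈ {D : V3 | ‖D‖ ≤ s ∧ ‖D‖ ≤ ρ} ×ˢ {v : V3 | q v ≤ P} from
              ⟨⟨h1, hw⟩, h2⟩)]
            refine mul_le_mul' (ENNReal.ofReal_le_ofReal ((rho_le hW.sol.init _).trans ?_))
              (h _ _ hw h2)
            rw [mul_comm 2]
            exact mul_le_mul_of_nonneg_left (kap_le _ _) hN
        · rw [indicator_of_notMem hw]
          exact zero_le
    _ ≤ ∫⁻ D in {D : V3 | ‖D‖ ≤ s ∧ ‖D‖ ≤ ρ}, ENNReal.ofReal (10 * N * K) * G D := by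
        rw [Measure.volume_eq_prod, ← Measure.prod_restrict]
        refine (lintegral_prod_le _).trans (lintegral_mono fun D => ?_)
        simp only [setLIntegral_const]
        refine (mul_le_mul_right (volume_q_le P) _).trans (le_of_eq ?_)
        rw [← mul_assoc, mul_right_comm, ← ENNReal.ofReal_mul (by positivity),
          ← ENNReal.ofReal_mul (by positivity)]
        congr 2
        field_simp
        ring
    _ = _ := lintegral_const_mul' _ _ ENNReal.ofReal_ne_top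

theorem dm5_r (hP : 2 ≤ P) : 0 ≤ 2 * r0 P ∧ 2 * r0 P ≤ 1 := by
  have h : P ^ 1 ≤ P ^ 20 := pow_le_pow_right₀ (by linarith) (by norm_num)
  refine ⟨by unfold r0; positivity, ?_⟩
  rw [r0, ← div_eq_mul_inv, div_le_one (by positivity)]
  linarith

theorem dm5_inv (hP : 2 ≤ P) (s : ℝ) : ∫⁻ D in {D : V3 | ‖D‖ ≤ s ∧ ‖D‖ ≤ 2 * r0 P},
    ENNReal.ofReal (P ^ 16 * (1 / ‖D‖ ^ 2)) ≤ ENNReal.ofReal 26 := by
  have h0 : 0 < P := by linarith
  simp only [ENNReal.ofReal_mul (pow_nonneg h0.le 16)]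
  rw [lintegral_const_mul' _ _ ENNReal.ofReal_ne_top]
  refine (mul_le_mul_right ((lintegral_mono_set fun D hD => hD.2).trans (lintegral_inv_sq _)) _).trans ?_
  rw [← ENNReal.ofReal_mul (by positivity)]
  refine ENNReal.ofReal_le_ofReal ?_
  have h : P ^ 16 ≤ P ^ 20 := pow_le_pow_right₀ (by linarith) (by norm_num)
  have : P ^ 16 * r0 P ≤ 1 := by
    rwa [r0, ← div_eq_mul_inv, div_le_one (by positivity)]
  linarith

theorem dm5_len (hW : Win f0 N P0 K0 En T dat A Φ Ψ c P T' qq z0 a b) : b - a ≤ 1 := by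
  have hP := hW.P_ge
  have h1 : 0 ≤ Real.logb 2 P := Real.logb_nonneg one_lt_two (by linarith)
  have h2 : 0 ≤ qq := (Real.rpow_nonneg (by linarith) _).trans hW.q_lo
  have h3 : qq ^ 2 ≤ P ^ 2 := pow_le_pow_left₀ h2 hW.q_hi 2
  refine hW.len.trans ?_
  rw [dl, La, div_le_one (by positivity)]
  have := mul_le_mul hW.c_le h3 (sq_nonneg _) zero_le_one
  nlinarith [mul_nonneg (sq_nonneg P) h1, sq_nonneg P]

theorem dm5_mu (hW : Win f0 N P0 K0 En T dat A Φ Ψ c P T' qq z0 a b) {g : Om → ℝ}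
    (hg : Measurable g) (h : ∀ ω, g ω ≤ dm5B ω.2.1 ω.2.2 (Φ ω.1 z0).2 (fld A Φ z0 ω)) :
    ∫⁻ ω in {ω : Om | ‖ω.2.1‖ ≤ 2 * r0 P}, ENNReal.ofReal (g ω) ∂mu f0 Φ Ψ z0 a b
      ≤ ENNReal.ofReal (60320 * N * En) := by
  have hN : 0 ≤ N := zero_le_one.trans hW.sol.init.one_le_N
  have hP : 0 < P := two_pos.trans_le hW.P_ge
  have hE := hW.sol.one_le_En
  obtain ⟨r1, r2⟩ := dm5_r hW.P_ge
  obtain ⟨R, hA⟩ := hW.sol.app
  have hbT := hW.b_le.trans hW.T'_le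
  have mS : MeasurableSet {ω : Om | ‖ω.2.1‖ ≤ 2 * r0 P} := by measurability
  rw [← lintegral_indicator mS,
    lintegral_mu hW.sol.init hW.sol.flow (hg.ennreal_ofReal.indicator mS)]
  calc _ ≤ ∫⁻ s in Ioc a b, ENNReal.ofReal (10 * N * 208) * (ENNReal.ofReal (27 * En) +
        ∫⁻ D in {D : V3 | ‖D‖ ≤ s ∧ ‖D‖ ≤ 2 * r0 P},
          ENNReal.ofReal (kap D (Φ s z0).2 * ‖A (s - ‖D‖, (Φ s z0).1 - D)‖ ^ 2)) := by
        refine setLIntegral_mono' measurableSet_Ioc fun s hs => ?_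
        have hV := hW.bnd z0 hW.z0_mem s (hs.2.trans hW.b_le)
        have e : ∀ w : Z, ENNReal.ofReal (rho f0 Φ Ψ z0 (s, w)) *
            {ω : Om | ‖ω.2.1‖ ≤ 2 * r0 P}.indicator (fun ω => ENNReal.ofReal (g ω)) (s, w) =
            {w : Z | ‖w.1‖ ≤ 2 * r0 P}.indicator (fun w =>
              ENNReal.ofReal (rho f0 Φ Ψ z0 (s, w)) * ENNReal.ofReal (g (s, w))) w := fun w => by
          by_cases hw : ‖w.1‖ ≤ 2 * r0 P <;> simp [indicator, hw]
        rw [lintegral_congr e, lintegral_indicator (by measurability)]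
        refine (dm5_v hW hs.2 (by norm_num) (φ := fun w => g (s, w))
          (G := fun D => ENNReal.ofReal (P ^ 16 * (1 / ‖D‖ ^ 2)) +
            ENNReal.ofReal (gfl D (A (s - ‖D‖, (Φ s z0).1 - D)) ^ 2) +
            ENNReal.ofReal (kap D (Φ s z0).2 * ‖A (s - ‖D‖, (Φ s z0).1 - D)‖ ^ 2))
          fun D v _ hv => ?_).trans (mul_le_mul_right ?_ _)
        · have := kap_pos D (Φ s z0).2
          rw [← ENNReal.ofReal_add (by positivity) (sq_nonneg _),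
            ← ENNReal.ofReal_add (by positivity) (by positivity),
            ← ENNReal.ofReal_mul (by positivity)]
          exact ENNReal.ofReal_le_ofReal ((h _).trans (dm5_B D _ hv hV))
        · have m1 : Measurable fun D : V3 => ENNReal.ofReal (P ^ 16 * (1 / ‖D‖ ^ 2)) := by
            fun_prop
          have m2 : Measurable fun D : V3 => A (s - ‖D‖, (Φ s z0).1 - D) :=
            (measurable_fld hA hW.sol.flow (z0 := z0)).comp
              (f := fun D : V3 => (s, (D, (0 : V3)))) (by fun_prop)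
          have m3 : Measurable fun D : V3 =>
              ENNReal.ofReal (gfl D (A (s - ‖D‖, (Φ s z0).1 - D)) ^ 2) :=
            ((measurable_gfl.comp (measurable_id.prodMk m2)).pow_const 2).ennreal_ofReal
          rw [lintegral_add_left (by exact m1.add m3), lintegral_add_left m1]
          refine add_le_add ((add_le_add (dm5_inv hW.P_ge s) ((lintegral_mono_set
            fun D hD => hD.1).trans (hW.sol.ener.coneF s
              ⟨hW.a_nonneg.trans hs.1.le, hs.2.trans hbT⟩ _))).trans ?_) le_rfl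
          rw [← ENNReal.ofReal_add (by norm_num) (by linarith)]
          exact ENNReal.ofReal_le_ofReal (by linarith)
    _ ≤ ENNReal.ofReal (10 * N * 208) * (ENNReal.ofReal (27 * En) + ENNReal.ofReal (2 * En)) := by
        rw [lintegral_const_mul' _ _ ENNReal.ofReal_ne_top, lintegral_add_left measurable_const,
          setLIntegral_const, Real.volume_Ioc]
        have hl := dm5_len hW
        refine mul_le_mul_right (add_le_add ?_ ((cov_field hW.sol hW.a_le hbT r1).trans ?_)) _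
        · exact mul_le_of_le_one_right' (ENNReal.ofReal_le_one.2 hl)
        · exact ENNReal.ofReal_le_ofReal (by gcongr; linarith)
    _ = _ := by
        rw [← ENNReal.ofReal_add (by positivity) (by positivity),
          ← ENNReal.ofReal_mul (by positivity)]
        congr 1
        ring

theorem small_r : ∃ C : ℝ, 1 ≤ C ∧ ∀ (f0 : Z → ℝ) (N P0 K0 En T c P T' qq a b : ℝ) (dat A : Fld)
    (Φ Ψ : ℝ → Z → Z) (z0 : Z) (P1 Zc ρ : ℝ), Win f0 N P0 K0 En T dat A Φ Ψ c P T' qq z0 a b →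
      ∫⁻ ω in {ω : Om | ‖ω.2.1‖ ≤ 2 * r0 P},
          ENNReal.ofReal (wk P1 Zc ρ ω.2.1 ω.2.2 (Φ ω.1 z0).2 (fld A Φ z0 ω)) ∂mu f0 Φ Ψ z0 a b
        ≤ ENNReal.ofReal (C * N * En) ∧
      ∫⁻ ω in {ω : Om | ‖ω.2.1‖ ≤ 2 * r0 P},
          ENNReal.ofReal (vk ω.2.1 ω.2.2 (Φ ω.1 z0).2 (fld A Φ z0 ω)) ∂mu f0 Φ Ψ z0 a b
        ≤ ENNReal.ofReal (C * N * En) ∧
      ∀ s ∈ Icc a b, ∫⁻ w in {w : Z | ‖w.1‖ ≤ 2 * r0 P}, ENNReal.ofReal (rho f0 Φ Ψ z0 (s, w)) *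
          ENNReal.ofReal (mk Zc w.1 w.2 (Φ s z0).2) ≤ ENNReal.ofReal (C * N) := by
  refine ⟨60320, by norm_num, fun f0 N P0 K0 En T c P T' qq a b dat A Φ Ψ z0 P1 Zc ρ hW => ?_⟩
  obtain ⟨R, hA⟩ := hW.sol.app
  refine ⟨dm5_mu hW (measurable_wk hA hW.sol.flow P1 Zc ρ) fun ω => dm5_wk _ _ _ _ _ _ _,
    dm5_mu hW (measurable_vk hA hW.sol.flow) fun ω => dm5_vk _ _ _ _, fun s hs => ?_⟩
  have hN : 0 ≤ N := zero_le_one.trans hW.sol.init.one_le_N
  have hP : 0 < P := two_pos.trans_le hW.P_ge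
  have hV := hW.bnd z0 hW.z0_mem s (hs.2.trans hW.b_le)
  refine (dm5_v hW hs.2 (by norm_num : (0 : ℝ) ≤ 8) (φ := fun w => mk Zc w.1 w.2 (Φ s z0).2)
    (G := fun D => ENNReal.ofReal (P ^ 16 * (1 / ‖D‖ ^ 2))) fun D v hD hv => ?_).trans
    ((mul_le_mul_right (dm5_inv hW.P_ge s) _).trans ?_)
  · rw [← ENNReal.ofReal_mul (by positivity)]
    exact ENNReal.ofReal_le_ofReal (dm5_mk Zc (hD.trans (dm5_r hW.P_ge).2) hv hV)
  · rw [← ENNReal.ofReal_mul (by positivity)]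
    exact ENNReal.ofReal_le_ofReal (by linarith)

end Vale.Agent.P107
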