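import Vale.Agent.P107.SumA1

/-! The critical sums (notes, Sums A).

Plan. General lemma crit: kernel ψ α/(Θ³R²) on classes with rA, ψ independent of R, Σ over the Θ-level of ψ ≤ Cψ. Zone P: for fixed (Q,θ,Θ,α) the term is
≤ min (a R) (b/R), a = C N ψ δ α³ Θ Q³ (vol, β ≤ Θ), b = 72 C ψ ww/(Θ α² Q) (pass', α+θ ≤ 4α, α ≤ 3θ); sum_min_one gives 4 ψ √(72 C² N δ α) Q √ww. Sum over Θ (ψ), over θ (at most 4 levels with
α/3 ≤ θ ≤ 3α, or use √α ≤ √3 α^(1/4) θ^(1/4) and two geometric sums), over α (sum_rpow_le), over Q (ww_sum); finish with sqrt_dl: √δ P ≤ √c qq and √δ √La qq ≤ √c qq. Zone S (then R ≤ δ): min (a R) (b'/R²),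
b' = 2 C ψ δ En/(α Θ Q) (ener), sum_min_two gives C' ψ δ (α^5 Θ Q^5)^(1/3); bound it by the first (ψ = (QΘ)^-2, use Θ ≥ 1/(6Q)) or the second (Θ ≤ α^(5/4)) quantity of `static`,
then sm_le_of_R and ev_La. Instances: ψ = (QΘ)^-2 (sum_rpow_ge), ψ = Θ/α (sum_rpow_le), ψ = indicator of α^10/2^26 ≤ Θ^8 ≤ α^10 (≤ (2^26 Θ^8/α^10), then sum_rpow_le with Θ ≤ α^(5/4)). -/

namespace Vale.Agent.P107

open MeasureTheory Set Filter Topology
open scoped RealInnerProductSpace ENNReal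

variable {C N En η : ℝ}

open Classical in
theorem sm_le_four {P : ℝ} (S : Idx → Prop) {g : Idx → ℝ} {B : ℤ → ℤ → ℤ → ℤ → ℝ}
    (hB : ∀ i j l k, 0 ≤ B i j l k)
    (h : ∀ (i j l k : ℤ) (s : Finset ℤ), s.Nonempty →
      (∀ r ∈ s, Adm P ((i, j, l), (k, r)) ∧ S ((i, j, l), (k, r))) →
      ∑ r ∈ s, g ((i, j, l), (k, r)) ≤ B i j l k) :
    sm P S g ≤ ∑ i ∈ Finset.Icc 0 (nL P), ∑ j ∈ Finset.Icc (-nL P) 0, ∑ k ∈ Finset.Icc (-nL P) 0,
      ∑ l ∈ (Finset.Icc (-nL P) 0).filter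
        (fun l => ∃ r, Adm P ((i, j, l), (k, r)) ∧ S ((i, j, l), (k, r))), B i j l k := by
  simp only [sm, box3, box2, Finset.sum_product]
  refine Finset.sum_le_sum fun i _ => Finset.sum_le_sum fun j _ => ?_
  rw [Finset.sum_comm]
  refine Finset.sum_le_sum fun k _ => ?_
  rw [Finset.sum_filter]
  refine Finset.sum_le_sum fun l _ => ?_
  rw [← Finset.sum_filter]
  rcases Finset.eq_empty_or_nonempty ((Finset.Icc (-20 * nL P) (nL P)).filter
    fun r => Adm P ((i, j, l), (k, r)) ∧ S ((i, j, l), (k, r))) with e | e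
  · rw [e, Finset.sum_empty]
    split_ifs
    · exact hB _ _ _ _
    · exact le_rfl
  · rw [if_pos (e.imp fun r hr => (Finset.mem_filter.1 hr).2)]
    exact h i j l k _ e fun r hr => (Finset.mem_filter.1 hr).2

theorem sum_quarter (n : ℤ) : ∑ j ∈ Finset.Icc (-n) 0, ((2 : ℝ) ^ j) ^ (1 / 4 : ℝ)
    ≤ 1 / (1 - 2 ^ (-(1 / 4 : ℝ))) := by
  have := sum_rpow_le (γ := 1 / 4) (X := 1) (by norm_num) zero_le_one (Finset.Icc (-n) 0)
    fun j hj => zpow_le_one_of_nonpos₀ one_le_two (Finset.mem_Icc.1 hj).2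
  rwa [Real.one_rpow] at this

theorem crit_P {c P qq K : ℝ} {m : Idx → ℝ} {ε : ℤ → ℝ} (h : Mass C N En c P qq m ε) (hC : 1 ≤ C)
    (hN : 1 ≤ N) (hE : 1 ≤ En) (hc : 0 < c) (hP : 1 ≤ P) (hq : 0 < qq) (hqP : qq ≤ P)
    {S : Idx → Prop} {ψ : ℝ → ℝ → ℝ → ℝ} (hK : 0 ≤ K) (hS : ∀ x, S x → rA x)
    (h0 : ∀ i l k : ℤ, 0 ≤ ψ (2 ^ i) (2 ^ l) (2 ^ k))
    (h1 : ∀ (i j k : ℤ) (s : Finset ℤ),
      (∀ l ∈ s, ∃ r, Adm P ((i, j, l), (k, r)) ∧ S ((i, j, l), (k, r))) →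
      ∑ l ∈ s, ψ (2 ^ i) (2 ^ l) (2 ^ k) ≤ K) :
    sm P (fun x => S x ∧ zP C c P qq x)
      (fun x => ψ (cQ x) (cΘ x) (cα x) * (cα x / (cΘ x ^ 3 * cR x ^ 2)) * m x)
      ≤ 72 * C * N * K * (1 / (1 - 2 ^ (-(1 / 4 : ℝ)))) ^ 2
        * (2 * Real.sqrt En + Real.sqrt (2 * C * En)) * Real.sqrt c * qq := by
  classical
  set G : ℝ := 1 / (1 - 2 ^ (-(1 / 4 : ℝ))) with hG
  have hG0 : 0 ≤ G := le_trans (Finset.sum_nonneg fun _ _ => by positivity) (sum_quarter 0)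
  have hL := three_le_La hP
  refine (sm_le_four _ (B := fun i j l k => 72 * C * N * Real.sqrt (dl c P qq)
    * (2 ^ i * Real.sqrt (ww En c P ε i)) * (2 ^ j) ^ (1 / 4 : ℝ) * (2 ^ k) ^ (1 / 4 : ℝ)
    * ψ (2 ^ i) (2 ^ l) (2 ^ k)) (fun i j l k => mul_nonneg (by positivity) (h0 _ _ _))
    fun i j l k s hs H => sa_P h hC hN hE hc hP hq (h0 _ _ _) i j l k s hs
      fun r hr => ⟨(H r hr).1, hS _ (H r hr).2.1, (H r hr).2.2⟩).trans ?_
  have a1 : ∀ i ∈ Finset.Icc 0 (nL P), ∑ j ∈ Finset.Icc (-nL P) 0, ∑ k ∈ Finset.Icc (-nL P) 0,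
      ∑ l ∈ (Finset.Icc (-nL P) 0).filter (fun l => ∃ r, Adm P ((i, j, l), (k, r)) ∧
        S ((i, j, l), (k, r)) ∧ zP C c P qq ((i, j, l), (k, r))), 72 * C * N * Real.sqrt (dl c P qq)
      * (2 ^ i * Real.sqrt (ww En c P ε i)) * ((2 : ℝ) ^ j) ^ (1 / 4 : ℝ)
      * ((2 : ℝ) ^ k) ^ (1 / 4 : ℝ) * ψ (2 ^ i) (2 ^ l) (2 ^ k)
      ≤ 72 * C * N * K * G ^ 2 * Real.sqrt (dl c P qq) *
        if (2 : ℝ) ^ i ≤ P then 2 ^ i * Real.sqrt (ww En c P ε i) else 0 := by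
    intro i _
    split_ifs with hi
    · refine (Finset.sum_le_sum fun j _ => Finset.sum_le_sum fun k _ => (Finset.mul_sum _ _ _).ge.trans
        (mul_le_mul_of_nonneg_left (h1 i j k _ fun l hl => ((Finset.mem_filter.1 hl).2).imp
          fun r hr => ⟨hr.1, hr.2.1⟩) (by positivity))).trans ?_
      simp only [← Finset.sum_mul, ← Finset.mul_sum]
      refine le_of_le_of_eq (mul_le_mul_of_nonneg_right (mul_le_mul (mul_le_mul_of_nonneg_left
        (sum_quarter _) (by positivity)) (sum_quarter _) (by positivity) (by positivity)) hK) ?_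
      rw [← hG]
      ring
    · rw [mul_zero]
      refine (Finset.sum_eq_zero fun j _ => Finset.sum_eq_zero fun k _ =>
        Finset.sum_eq_zero fun l hl => ?_).le
      obtain ⟨r, hr⟩ := (Finset.mem_filter.1 hl).2
      exact absurd hr.1.QP hi
  refine (Finset.sum_le_sum a1).trans ?_
  rw [← Finset.mul_sum, ← Finset.sum_filter, mul_assoc _ (Real.sqrt (dl c P qq)),
    mul_assoc _ (Real.sqrt c), mul_assoc _ (_ + _)]
  refine mul_le_mul_of_nonneg_left ?_ (by positivity)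
  refine (mul_le_mul_of_nonneg_left (h.ww_sum hC hE hc hP hq) (Real.sqrt_nonneg _)).trans ?_
  have a2 := sqrt_dl hc hP hq.le
  have a3 : Real.sqrt (c / La P) ≤ Real.sqrt c := Real.sqrt_le_sqrt (div_le_self hc.le (by linarith))
  have a4 : Real.sqrt (dl c P qq) * Real.sqrt (La P) ≤ Real.sqrt c := by
    rw [← Real.sqrt_mul (dl_pos hc hP hq).le]
    refine Real.sqrt_le_sqrt ?_
    rw [dl, div_mul_eq_mul_div, mul_div_mul_right _ _ (by linarith : 0 < La P).ne', mul_div_assoc]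
    exact mul_le_of_le_one_right hc.le
      ((div_le_one (by positivity)).2 (pow_le_pow_left₀ hq.le hqP 2))
  rw [Real.sqrt_mul (by positivity) (La P)]
  have a5 := mul_le_mul_of_nonneg_right (mul_le_mul_of_nonneg_right a3 hq.le) (Real.sqrt_nonneg En)
  have a6 := mul_le_mul_of_nonneg_right (mul_le_mul_of_nonneg_right a4 hq.le)
    (Real.sqrt_nonneg (2 * C * En))
  rw [← a2] at a5
  linarith

theorem crit (hC : 1 ≤ C) (hN : 1 ≤ N) (hE : 1 ≤ En) (hη : 0 < η)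
    {S : Idx → Prop} {ψ : ℝ → ℝ → ℝ → ℝ} {K : ℝ} (hK : 0 ≤ K) (hS : ∀ x, S x → rA x)
    (h0 : ∀ i l k : ℤ, 0 ≤ ψ (2 ^ i) (2 ^ l) (2 ^ k))
    (h1 : ∀ (P : ℝ) (i j k : ℤ) (s : Finset ℤ),
      (∀ l ∈ s, ∃ r, Adm P ((i, j, l), (k, r)) ∧ S ((i, j, l), (k, r))) →
      ∑ l ∈ s, ψ (2 ^ i) (2 ^ l) (2 ^ k) ≤ K)
    (h2 : ∀ P x, Adm P x → S x → ∃ W, (W = cQ x ^ (4 / 3 : ℝ) * cθ x ^ (11 / 12 : ℝ) ∨
      W = cQ x ^ (5 / 3 : ℝ) * cθ x ^ (25 / 12 : ℝ)) ∧
      ψ (cQ x) (cΘ x) (cα x) ^ 3 * (cα x ^ 5 * cΘ x * cQ x ^ 5) ≤ (K * W) ^ 3) :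
    Ev C N En fun _ P qq m => sm P S
      (fun x => ψ (cQ x) (cΘ x) (cα x) * (cα x / (cΘ x ^ 3 * cR x ^ 2)) * m x) ≤ η * qq := by
  have t1 : Tendsto (fun c : ℝ => 72 * C * N * K * (1 / (1 - 2 ^ (-(1 / 4 : ℝ)))) ^ 2
      * (2 * Real.sqrt En + Real.sqrt (2 * C * En)) * Real.sqrt c) (𝓝[>] 0) (𝓝 0) :=
    ((continuous_const.mul Real.continuous_sqrt).tendsto' 0 0 (by simp)).mono_left nhdsWithin_le_nhds
  filter_upwards [t1.eventually (ge_mem_nhds (half_pos hη)), Ioo_mem_nhdsGT one_pos] with c c1 c2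
  filter_upwards [ev_La (256 * C * N * En * K * C ^ 2 / η) 4 (γ := 2 / 25) (by norm_num),
    eventually_ge_atTop 1] with P p1 hP qq q1 q2 m ε h
  have hq : 0 < qq := by linarith [one_le_qm hP]
  have hd := dl_pos c2.1 hP hq
  have hp : 0 < P ^ (2 / 25 : ℝ) := by positivity
  rw [sm_split P S (zP C c P qq)]
  have a1 := (crit_P h hC hN hE c2.1 hP hq q2 hK hS h0 (h1 P)).trans
    (mul_le_mul_of_nonneg_right c1 hq.le)
  have a2 := sm_le_of_R (B := 8 * C * N * En * (K * (C ^ 2 * qq * P ^ (-2 / 25 : ℝ)))) hP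
    (by positivity) (fun x => S x ∧ ¬ zP C c P qq x)
    (g := fun x => ψ (cQ x) (cΘ x) (cα x) * (cα x / (cΘ x ^ 3 * cR x ^ 2)) * m x)
    fun o k s H => by
      rcases s.eq_empty_or_nonempty with e | ⟨r, hr⟩
      · rw [e, Finset.sum_empty]
        positivity
      obtain ⟨W, hW, hb⟩ := h2 P _ (H r hr).1 (H r hr).2.1
      have hs := static hC c2.1 c2.2.le hP q1 q2 (H r hr).1 (H r hr).2.2
      have w0 : 0 ≤ W := by
        have := cQ_pos (o, (k, r))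
        have := cθ_pos (o, (k, r))
        rcases hW with e | e <;> rw [e] <;> positivity
      refine (sa_S h hC hN hE hd (h0 _ _ _) (mul_nonneg hK w0) o.1 o.2.1 o.2.2 k s hb
        fun r hr => ⟨(H r hr).1, (H r hr).2.2⟩).trans (mul_le_mul_of_nonneg_left ?_ (by positivity))
      rw [mul_left_comm]
      refine mul_le_mul_of_nonneg_left ?_ hK
      rcases hW with e | e <;> rw [e]
      exacts [hs.1, hs.2.1]
  rw [neg_div, Real.rpow_neg (by linarith)] at a2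
  rw [div_mul_eq_mul_div, div_le_iff₀ hη, ← div_le_iff₀' hp, div_eq_mul_inv] at p1
  have a3 := mul_le_mul_of_nonneg_right p1 hq.le
  linarith

theorem r1_le {x : Idx} (h : r1lo x) : cΘ x ^ 4 ≤ cα x ^ 5 :=
  le_of_sq_le_sq (by simpa only [← pow_mul] using h.2) (pow_pos (cα_pos x) 5).le

theorem r1_W {x : Idx} (h : r1lo x) : cα x ^ 5 * cΘ x * cQ x ^ 5
    ≤ (27 * (cQ x ^ (5 / 3 : ℝ) * cθ x ^ (25 / 12 : ℝ))) ^ 3 := by
  have h1 := cQ_pos x
  have h2 := cΘ_pos x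
  have h3 := cα_pos x
  have h4 := cθ_pos x
  rw [mul_pow, mul_pow, ← Real.rpow_natCast (cQ x ^ _), ← Real.rpow_mul h1.le, mul_left_comm,
    mul_comm, show (5 / 3 : ℝ) * (3 : ℕ) = (5 : ℕ) by norm_num, Real.rpow_natCast]
  refine mul_le_mul_of_nonneg_left (le_of_pow_le_pow_left₀ four_ne_zero (by positivity) ?_)
    (by positivity)
  rw [mul_pow (27 ^ 3), ← pow_mul (cθ x ^ _), ← Real.rpow_natCast (cθ x ^ _), ← Real.rpow_mul h4.le,
    show (25 / 12 : ℝ) * (3 * 4 : ℕ) = (25 : ℕ) by norm_num, Real.rpow_natCast, mul_pow]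
  calc _ ≤ (cα x ^ 5) ^ 4 * cα x ^ 5 := mul_le_mul_of_nonneg_left (r1_le h) (by positivity)
    _ = cα x ^ 25 := by ring
    _ ≤ (3 * cθ x) ^ 25 := pow_le_pow_left₀ h3.le h.1.2.2 25
    _ ≤ _ := by
      rw [mul_pow]
      exact mul_le_mul_of_nonneg_right (by norm_num) (by positivity)

theorem sumA_T (hC : 1 ≤ C) (hN : 1 ≤ N) (hE : 1 ≤ En) (hη : 0 < η) : Ev C N En fun _ P qq m =>
    sm P rA (fun x => cα x / (cQ x ^ 2 * cΘ x ^ 5 * cR x ^ 2) * m x) ≤ η * qq := by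
  refine (crit hC hN hE hη (S := rA) (ψ := fun Q Θ _ => 1 / (Q * Θ) ^ 2) (K := 324) (by norm_num)
    (fun _ h => h) (fun _ _ _ => by positivity) (fun P i j k s H => ?_) fun P x hx hA => ?_).mono
    fun c hc => hc.mono fun P hP qq q1 q2 m ε h =>
      le_of_eq_of_le (congrArg (sm P rA) (funext fun x => ?_)) (hP qq q1 q2 m ε h)
  · have h1 := sum_rpow_ge (γ := 2) (Y := 1 / (6 * 2 ^ i)) two_pos (by positivity) s
      fun l hl => (H l hl).elim fun r hr => hr.1.ΘQ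
    simp only [Real.rpow_neg (show (0 : ℝ) ≤ 2 ^ (_ : ℤ) by positivity), Real.rpow_two,
      Real.rpow_neg (show (0 : ℝ) ≤ 1 / (6 * 2 ^ i) by positivity), Real.rpow_neg zero_le_two] at h1
    simp only [mul_pow, one_div, mul_inv, ← Finset.mul_sum] at h1 ⊢
    rw [inv_mul_le_iff₀ (by positivity)]
    refine h1.trans ?_
    simp only [inv_pow, inv_inv]
    rw [div_le_iff₀ (by norm_num)]
    linarith [sq_nonneg ((2 : ℝ) ^ i)]
  · refine ⟨_, Or.inl rfl, ?_⟩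
    have h1 := cQ_pos x
    have h2 := cΘ_pos x
    have h3 := cα_pos x
    have h4 := cθ_pos x
    have h5 : cθ x ^ 5 ≤ (cθ x ^ (11 / 12 : ℝ)) ^ 3 := by
      rw [← Real.rpow_natCast, ← Real.rpow_natCast, ← Real.rpow_mul h4.le]
      exact Real.rpow_le_rpow_of_exponent_ge h4 hx.θ1 (by norm_num)
    have h6 : 1 / cΘ x ≤ 6 * cQ x := (one_div_le h2 (by positivity)).2 hx.ΘQ
    rw [mul_pow 324, mul_pow (cQ x ^ _), ← Real.rpow_natCast (cQ x ^ _), ← Real.rpow_mul h1.le,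
      show (4 / 3 : ℝ) * (3 : ℕ) = (4 : ℕ) by norm_num, Real.rpow_natCast]
    calc _ = cα x ^ 5 * (1 / cΘ x) ^ 5 / cQ x := by field_simp
      _ ≤ (3 * cθ x) ^ 5 * (6 * cQ x) ^ 5 / cQ x := by gcongr; exact hA.2.2
      _ = 18 ^ 5 * (cQ x ^ 4 * cθ x ^ 5) := by field_simp; norm_num
      _ ≤ _ := by gcongr; norm_num
  · have h1 := cQ_pos x
    have h2 := cΘ_pos x
    have h4 := cR_pos x
    field_simp

theorem sumA_T' (hC : 1 ≤ C) (hN : 1 ≤ N) (hE : 1 ≤ En) (hη : 0 < η) : Ev C N En fun _ P qq m =>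
    sm P r1lo (fun x => 1 / (cΘ x ^ 2 * cR x ^ 2) * m x) ≤ η * qq := by
  refine (crit hC hN hE hη (S := r1lo) (ψ := fun _ Θ α => Θ / α) (K := 27) (by norm_num)
    (fun _ h => h.1) (fun _ _ _ => by positivity) (fun P i j k s H => ?_) fun P x hx hA => ?_).mono
    fun c hc => hc.mono fun P hP qq q1 q2 m ε h =>
      le_of_eq_of_le (congrArg (sm P r1lo) (funext fun x => ?_)) (hP qq q1 q2 m ε h)
  · have h1 := sum_rpow_le (γ := 1) (X := 2 ^ k / 2) one_pos (by positivity) s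
      fun l hl => (H l hl).elim fun r hr => hr.2.1.1
    simp only [Real.rpow_one, Real.rpow_neg_one] at h1
    rw [← Finset.sum_div, div_le_iff₀ (by positivity)]
    refine h1.trans ((div_le_iff₀ (by norm_num)).2 ?_)
    linarith [show (0 : ℝ) < 2 ^ k by positivity]
  · have h1 := cQ_pos x
    have h2 := cΘ_pos x
    have h3 := cα_pos x
    refine ⟨_, Or.inr rfl, (mul_le_of_le_one_left (by positivity) (pow_le_one₀ (by positivity)
      ((div_le_one h3).2 (by linarith [hA.1.1])))).trans (r1_W hA)⟩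
  · have h2 := cΘ_pos x
    have h3 := cα_pos x
    have h4 := cR_pos x
    field_simp

theorem sumA_tr (hC : 1 ≤ C) (hN : 1 ≤ N) (hE : 1 ≤ En) (hη : 0 < η) : Ev C N En fun _ P qq m =>
    sm P (fun x => r1lo x ∧ r1hi x) (fun x => cα x / (cΘ x ^ 3 * cR x ^ 2) * m x) ≤ η * qq := by
  refine (crit hC hN hE hη (S := r1lo) (ψ := fun _ Θ α => 2 ^ 26 * (Θ ^ 8 / α ^ 10))
    (K := 2 ^ 26 * 27) (by norm_num)
    (fun _ h => h.1) (fun _ _ _ => by positivity) (fun P i j k s H => ?_) fun P x hx hA => ?_).mono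
    fun c hc => hc.mono fun P hP qq q1 q2 m ε h =>
      (sm_mono P (fun x => ?_) fun x _ hx => ⟨hx.1, ?_⟩).trans (hP qq q1 q2 m ε h)
  · have e : (((2 : ℝ) ^ k) ^ (5 / 4 : ℝ)) ^ 8 = (2 ^ k) ^ 10 := by
      rw [← Real.rpow_natCast, ← Real.rpow_mul (by positivity),
        show (5 / 4 : ℝ) * (8 : ℕ) = (10 : ℕ) by norm_num, Real.rpow_natCast]
    have h1 := sum_rpow_le (γ := (8 : ℕ)) (X := (2 ^ k) ^ (5 / 4 : ℝ)) (by norm_num) (by positivity) s
      fun l hl => (H l hl).elim fun r hr =>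
        le_of_pow_le_pow_left₀ (n := 8) (by norm_num) (by positivity) (e ▸ hr.2.2)
    simp only [Real.rpow_natCast, Real.rpow_neg zero_le_two, e] at h1
    rw [← Finset.mul_sum, ← Finset.sum_div]
    refine mul_le_mul_of_nonneg_left ((div_le_iff₀ (by positivity)).2 ?_) (by norm_num)
    refine h1.trans ((div_le_iff₀ (by norm_num)).2 ?_)
    linarith [show (0 : ℝ) < (2 ^ k) ^ 10 by positivity]
  · have h1 := cQ_pos x
    have h2 := cΘ_pos x
    have h3 := cα_pos x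
    refine ⟨_, Or.inr rfl, ?_⟩
    rw [mul_pow, mul_assoc, mul_assoc (2 ^ 26), mul_pow (2 ^ 26)]
    exact mul_le_mul_of_nonneg_left ((mul_le_of_le_one_left (by positivity) (pow_le_one₀
      (by positivity) ((div_le_one (by positivity)).2 hA.2))).trans (r1_W hA)) (by norm_num)
  · have h2 := cΘ_pos x
    have h3 := cα_pos x
    have h4 := cR_pos x
    have h5 := h.nonneg x
    positivity
  · have h2 := cΘ_pos x
    have h3 := cα_pos x
    have h4 := cR_pos x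
    refine mul_le_mul_of_nonneg_right (le_mul_of_one_le_left (by positivity) ?_) (h.nonneg x)
    rw [← mul_div_assoc]
    exact (one_le_div (by positivity)).2 hx.2

end Vale.Agent.P107
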