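import Vale.Agent.P107.SumBas

/-! Sums with a lot of room (notes, Sums B, G far, I, L).

Plan. sumB: min (a R) (b/R²), a = C N δ α² Q (vol, β ≤ Θ), b = C δ En/(Q³Θ⁴) (flux); sum_min_two ≤ C' δ ≤ C'; sm_le_of_R, ev_La and qq ≥ P^(11/20).
sumG_far: R J0 m ≤ min (C N δ R² Q⁴) (C δ En/R) ≤ C N En δ Q^(4/3) (vol, flux, β ≤ Θ ≤ 1, α ≤ 1; weighted geometric mean 1/3, 2/3), so every term is ≤ C' √δ P^(2/3) ≤ C' qq P^(-1/3); sm_le_card.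
sumI: JJ 2 m ≤ min (C N δ R Q⁴) (C (δ+R) En/(R²Θ²)) with Θ ≥ 1/(6Q), Q ≤ 2 P1: for R ≤ 1 ... simply JJ 2 m ≤ C'(P1): if R ≤ 1 use vol, else ener with δ ≤ 1; sq_le_card, √δ ≤ 1.
sumL: every term is ≤ C N R²Θ³Q³ ≤ 2 C N Zc; sm_le_card, ev_La. -/

namespace Vale.Agent.P107

open MeasureTheory Set Filter Topology
open scoped RealInnerProductSpace ENNReal

theorem sumB_term {C N En δ Q Θ α β R m : ℝ} (hC : 0 ≤ C) (hN : 0 ≤ N) (hδ : 0 ≤ δ) (hQ : 0 < Q)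
    (hΘ : 0 < Θ) (hβ : 0 ≤ β) (hR : 0 < R) (hβΘ : β ≤ Θ)
    (h1 : m ≤ C * N * δ * R ^ 3 * α ^ 2 * Θ ^ 2 * Q ^ 3 * β ^ 2) (h2 : m ≤ C * δ * En / Q) :
    1 / (Q ^ 2 * Θ ^ 4 * R ^ 2) * m ≤
      min (C * N * δ * α ^ 2 * Q * R) (C * δ * En / (Q ^ 3 * Θ ^ 4) / R ^ 2) := by
  have hw : 0 ≤ 1 / (Q ^ 2 * Θ ^ 4 * R ^ 2) := by positivity
  refine le_min ?_ ?_
  · have h3 : m ≤ C * N * δ * R ^ 3 * α ^ 2 * Θ ^ 2 * Q ^ 3 * Θ ^ 2 :=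
      h1.trans (mul_le_mul_of_nonneg_left (pow_le_pow_left₀ hβ hβΘ 2) (by positivity))
    refine (mul_le_mul_of_nonneg_left h3 hw).trans (le_of_eq ?_)
    field_simp
  · refine (mul_le_mul_of_nonneg_left h2 hw).trans (le_of_eq ?_)
    field_simp

theorem sumB_const {C N En δ Q Θ α : ℝ} (hC : 0 ≤ C) (hE : 0 ≤ En) (hδ : 0 ≤ δ) (hδ1 : δ ≤ 1)
    (hQ : 1 ≤ Q) (hΘ : 0 < Θ) (hα : 0 ≤ α) (hαΘ : α ≤ 8 * Θ) :
    (C * N * δ * α ^ 2 * Q) ^ 2 * (C * δ * En / (Q ^ 3 * Θ ^ 4)) ≤ 4096 * (C ^ 3 * N ^ 2 * En) := by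
  have hQ0 : 0 < Q := by linarith
  have e : (C * N * δ * α ^ 2 * Q) ^ 2 * (C * δ * En / (Q ^ 3 * Θ ^ 4)) =
      ((α / Θ) ^ 4 * (δ ^ 3 / Q)) * (C ^ 3 * N ^ 2 * En) := by
    field_simp
  rw [e]
  refine mul_le_mul_of_nonneg_right ?_ (by positivity)
  have h1 : α / Θ ≤ 8 := by rw [div_le_iff₀ hΘ]; exact hαΘ
  have h2 : (α / Θ) ^ 4 ≤ 8 ^ 4 := pow_le_pow_left₀ (by positivity) h1 4
  have h3 : δ ^ 3 / Q ≤ 1 := by
    rw [div_le_iff₀ hQ0]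
    have : δ ^ 3 ≤ 1 := pow_le_one₀ hδ hδ1
    linarith
  calc (α / Θ) ^ 4 * (δ ^ 3 / Q) ≤ 8 ^ 4 * 1 :=
        mul_le_mul h2 h3 (by positivity) (by norm_num)
    _ = 4096 := by norm_num

theorem sumG_term {C N En δ P t qq Q Θ α β R m : ℝ} (hC : 1 ≤ C) (hN : 1 ≤ N) (hE : 1 ≤ En)
    (hδ : 0 ≤ δ) (hqq : 0 ≤ qq) (ht : 0 < t) (htP : t ^ 3 = P) (hδP : δ ≤ qq ^ 2 / P ^ 2)
    (hQ : 0 < Q) (hQP : Q ≤ P) (hΘ : 0 < Θ) (hΘ1 : Θ ≤ 1) (hα : 0 ≤ α) (hα1 : α ≤ 1) (hβ : 0 ≤ β)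
    (hR : 0 < R) (hβΘ : β ≤ Θ) (hm : 0 ≤ m)
    (h1 : m ≤ C * N * δ * R ^ 3 * α ^ 2 * Θ ^ 2 * Q ^ 3 * β ^ 2) (h2 : m ≤ C * δ * En / Q) :
    Real.sqrt (R * (Q * β ^ 2 / (R ^ 2 * Θ ^ 2) * m)) ≤ C * N * En * qq / t := by
  have hC0 : 0 ≤ C := by linarith
  have hN0 : 0 ≤ N := by linarith
  have hE0 : 0 ≤ En := by linarith
  have hP : 0 < P := by rw [← htP]; positivity
  set y := Q * m / R with hy
  have hy0 : 0 ≤ y := by positivity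
  have a1 : R * (Q * β ^ 2 / (R ^ 2 * Θ ^ 2) * m) ≤ y := by
    have e : R * (Q * β ^ 2 / (R ^ 2 * Θ ^ 2) * m) = (β / Θ) ^ 2 * y := by
      rw [hy]; field_simp
    rw [e]
    have : (β / Θ) ^ 2 ≤ 1 := pow_le_one₀ (by positivity) ((div_le_one hΘ).2 hβΘ)
    exact mul_le_of_le_one_left hy0 this
  have a2 : y ≤ C * N * δ * R ^ 2 * Q ^ 4 := by
    rw [hy, div_le_iff₀ hR]
    have b1 : α ^ 2 ≤ 1 := pow_le_one₀ hα hα1
    have b2 : Θ ^ 2 ≤ 1 := pow_le_one₀ hΘ.le hΘ1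
    have b3 : β ^ 2 ≤ 1 := pow_le_one₀ hβ (hβΘ.trans hΘ1)
    have b4 : α ^ 2 * Θ ^ 2 * β ^ 2 ≤ 1 :=
      mul_le_one₀ (mul_le_one₀ b1 (by positivity) b2) (by positivity) b3
    have b5 : m ≤ C * N * δ * R ^ 3 * Q ^ 3 := by
      calc m ≤ C * N * δ * R ^ 3 * Q ^ 3 * (α ^ 2 * Θ ^ 2 * β ^ 2) := h1.trans (le_of_eq (by ring))
        _ ≤ C * N * δ * R ^ 3 * Q ^ 3 := mul_le_of_le_one_right (by positivity) b4
    calc Q * m ≤ Q * (C * N * δ * R ^ 3 * Q ^ 3) := mul_le_mul_of_nonneg_left b5 hQ.le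
      _ = _ := by ring
  have a3 : y ≤ C * δ * En / R := by
    rw [hy]
    refine div_le_div_of_nonneg_right ?_ hR.le
    rw [le_div_iff₀ hQ] at h2
    linarith
  have a4 : y ^ 3 ≤ (C ^ 3 * N * En ^ 2) * (δ ^ 3 * Q ^ 4) := by
    calc y ^ 3 = y * y ^ 2 := by ring
      _ ≤ (C * N * δ * R ^ 2 * Q ^ 4) * (C * δ * En / R) ^ 2 :=
        mul_le_mul a2 (pow_le_pow_left₀ hy0 a3 2) (by positivity) (by positivity)
      _ = _ := by field_simp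
  have a5 : δ ^ 3 * Q ^ 4 ≤ qq ^ 6 / t ^ 6 := by
    calc δ ^ 3 * Q ^ 4 ≤ (qq ^ 2 / P ^ 2) ^ 3 * P ^ 4 :=
        mul_le_mul (pow_le_pow_left₀ hδ hδP 3) (pow_le_pow_left₀ hQ.le hQP 4) (by positivity)
          (by positivity)
      _ = _ := by rw [← htP]; field_simp
  have a6 : C ^ 3 * N * En ^ 2 ≤ (C * N * En) ^ 6 := by
    have c1 : C ^ 3 ≤ C ^ 6 := pow_le_pow_right₀ hC (by norm_num)
    have c2 : N ≤ N ^ 6 := by
      calc N = N ^ 1 := (pow_one N).symm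
        _ ≤ N ^ 6 := pow_le_pow_right₀ hN (by norm_num)
    have c3 : En ^ 2 ≤ En ^ 6 := pow_le_pow_right₀ hE (by norm_num)
    calc C ^ 3 * N * En ^ 2 ≤ C ^ 6 * N ^ 6 * En ^ 6 :=
        mul_le_mul (mul_le_mul c1 c2 hN0 (by positivity)) c3 (by positivity) (by positivity)
      _ = _ := by ring
  have a7 : y ^ 3 ≤ ((C * N * En * qq / t) ^ 2) ^ 3 := by
    calc y ^ 3 ≤ (C * N * En) ^ 6 * (qq ^ 6 / t ^ 6) :=
        a4.trans (mul_le_mul a6 a5 (by positivity) (by positivity))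
      _ = _ := by field_simp
  have a8 : y ≤ (C * N * En * qq / t) ^ 2 :=
    (pow_le_pow_iff_left₀ hy0 (by positivity) (by norm_num)).1 a7
  exact Real.sqrt_le_iff.2 ⟨by positivity, a1.trans a8⟩

theorem sumI_term {C N En δ P1 Q Θ α β R m : ℝ} (hC : 0 ≤ C) (hN : 0 ≤ N) (hE : 0 ≤ En)
    (hδ : 0 ≤ δ) (hδ1 : δ ≤ 1) (hQ : 0 < Q) (hQP : Q ≤ 2 * P1) (hΘ : 0 < Θ)
    (hΘQ : 1 / (6 * Q) ≤ Θ) (hα : 0 < α) (hα1 : α ≤ 1) (hβ : 0 ≤ β) (hR : 0 < R) (hβΘ : β ≤ Θ)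
    (h1 : m ≤ C * N * δ * R ^ 3 * α ^ 2 * Θ ^ 2 * Q ^ 3 * β ^ 2)
    (h2 : m ≤ C * (Θ / α) ^ 2 * (δ + R) * En / Q) :
    α ^ 2 * Q * β ^ 2 / (R ^ 2 * Θ ^ (2 + 2 * 2)) * m ≤
      C * N * (2 * P1) ^ 4 + 72 * C * En * (2 * P1) ^ 2 := by
  have hw : 0 ≤ α ^ 2 * Q * β ^ 2 / (R ^ 2 * Θ ^ (2 + 2 * 2)) := by positivity
  have hb : β / Θ ≤ 1 := (div_le_one hΘ).2 hβΘ
  have hb0 : 0 ≤ β / Θ := by positivity
  have p1 : 0 ≤ C * N * (2 * P1) ^ 4 := by positivity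
  have p2 : 0 ≤ 72 * C * En * (2 * P1) ^ 2 := by positivity
  rcases le_total R 1 with hR1 | hR1
  · refine (mul_le_mul_of_nonneg_left h1 hw).trans ?_
    have e : α ^ 2 * Q * β ^ 2 / (R ^ 2 * Θ ^ (2 + 2 * 2)) *
        (C * N * δ * R ^ 3 * α ^ 2 * Θ ^ 2 * Q ^ 3 * β ^ 2) =
        C * N * Q ^ 4 * (δ * R * α ^ 4 * (β / Θ) ^ 4) := by
      field_simp
      ring
    rw [e]
    have b1 : δ * R * α ^ 4 * (β / Θ) ^ 4 ≤ 1 :=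
      mul_le_one₀ (mul_le_one₀ (mul_le_one₀ hδ1 hR.le hR1) (by positivity)
        (pow_le_one₀ hα.le hα1)) (by positivity) (pow_le_one₀ hb0 hb)
    have b2 : Q ^ 4 ≤ (2 * P1) ^ 4 := pow_le_pow_left₀ hQ.le hQP 4
    have b3 : C * N * Q ^ 4 * (δ * R * α ^ 4 * (β / Θ) ^ 4) ≤ C * N * Q ^ 4 :=
      mul_le_of_le_one_right (by positivity) b1
    have b4 : C * N * Q ^ 4 ≤ C * N * (2 * P1) ^ 4 := mul_le_mul_of_nonneg_left b2 (by positivity)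
    linarith
  · refine (mul_le_mul_of_nonneg_left h2 hw).trans ?_
    have e : α ^ 2 * Q * β ^ 2 / (R ^ 2 * Θ ^ (2 + 2 * 2)) * (C * (Θ / α) ^ 2 * (δ + R) * En / Q) =
        C * En * ((β / Θ) ^ 2 * ((δ + R) / R ^ 2) * (1 / Θ) ^ 2) := by
      field_simp
      ring
    rw [e]
    have b1 : (δ + R) / R ^ 2 ≤ 2 := by
      rw [div_le_iff₀ (by positivity)]
      nlinarith
    have b2 : 1 / Θ ≤ 6 * (2 * P1) := by
      rw [div_le_iff₀ hΘ]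
      rw [div_le_iff₀ (by positivity)] at hΘQ
      nlinarith
    have b3 : (1 / Θ) ^ 2 ≤ (6 * (2 * P1)) ^ 2 := pow_le_pow_left₀ (by positivity) b2 2
    have b4 : (β / Θ) ^ 2 * ((δ + R) / R ^ 2) * (1 / Θ) ^ 2 ≤ 1 * 2 * (6 * (2 * P1)) ^ 2 :=
      mul_le_mul (mul_le_mul (pow_le_one₀ hb0 hb) b1 (by positivity) (by norm_num)) b3
        (by positivity) (by norm_num)
    have b5 := mul_le_mul_of_nonneg_left b4 (mul_nonneg hC hE)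
    have e2 : C * En * (1 * 2 * (6 * (2 * P1)) ^ 2) = 72 * C * En * (2 * P1) ^ 2 := by ring
    linarith

theorem sumL_term {C N Zc Q Θ α β R m : ℝ} (hC : 0 ≤ C) (hN : 0 ≤ N) (hZ : 0 ≤ Zc) (hQ : 0 < Q)
    (hΘ : 0 < Θ) (hα : 0 < α) (hβ : 0 ≤ β) (hR : 0 < R) (hβΘ : β ≤ Θ)
    (h1 : m ≤ C * N * R ^ 3 * α ^ 2 * Θ ^ 2 * Q ^ 3 * β ^ 2)
    (h2 : R ^ 4 * Q ^ 6 * Θ ^ 6 ≤ 2 * Zc ^ 2) :
    1 / (α ^ 2 * Θ * R) * m ≤ 2 * C * N * Zc := by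
  have hw : 0 ≤ 1 / (α ^ 2 * Θ * R) := by positivity
  have h3 : m ≤ C * N * R ^ 3 * α ^ 2 * Θ ^ 2 * Q ^ 3 * Θ ^ 2 :=
    h1.trans (mul_le_mul_of_nonneg_left (pow_le_pow_left₀ hβ hβΘ 2) (by positivity))
  refine (mul_le_mul_of_nonneg_left h3 hw).trans ?_
  have e : 1 / (α ^ 2 * Θ * R) * (C * N * R ^ 3 * α ^ 2 * Θ ^ 2 * Q ^ 3 * Θ ^ 2) =
      C * N * (R ^ 2 * Q ^ 3 * Θ ^ 3) := by
    field_simp
  rw [e]
  have h4 : (R ^ 2 * Q ^ 3 * Θ ^ 3) ^ 2 ≤ (2 * Zc) ^ 2 := by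
    have e1 : (R ^ 2 * Q ^ 3 * Θ ^ 3) ^ 2 = R ^ 4 * Q ^ 6 * Θ ^ 6 := by ring
    rw [e1]
    nlinarith [sq_nonneg Zc]
  have h5 : R ^ 2 * Q ^ 3 * Θ ^ 3 ≤ 2 * Zc :=
    (pow_le_pow_iff_left₀ (by positivity) (by positivity) (by norm_num)).1 h4
  calc C * N * (R ^ 2 * Q ^ 3 * Θ ^ 3) ≤ C * N * (2 * Zc) :=
      mul_le_mul_of_nonneg_left h5 (by positivity)
    _ = _ := by ring

theorem sumB_evc : ∀ᶠ c in 𝓝[>] (0 : ℝ), 0 < c ∧ c ≤ 1 := by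
  filter_upwards [Ioc_mem_nhdsGT (show (0 : ℝ) < 1 by norm_num)] with c hc using hc

variable {C N En η : ℝ}


theorem sumB (hC : 1 ≤ C) (hN : 1 ≤ N) (hE : 1 ≤ En) (hη : 0 < η) : Ev C N En fun _ P qq m =>
    sm P (fun x => cα x ≤ 8 * cΘ x) (fun x => 1 / (cQ x ^ 2 * cΘ x ^ 4 * cR x ^ 2) * m x) ≤ η * qq := by
  set B : ℝ := 4 * (4096 * (C ^ 3 * N ^ 2 * En)) ^ (1 / 3 : ℝ) with hBdef
  have hC0 : 0 ≤ C := by linarith
  have hN0 : 0 ≤ N := by linarith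
  have hE0 : 0 ≤ En := by linarith
  have hB : 0 ≤ B := by positivity
  filter_upwards [sumB_evc] with c hc
  filter_upwards [eventually_ge_atTop (1 : ℝ),
    ev_La (16 * B / η) 4 (show (0 : ℝ) < 11 / 20 by norm_num)] with P hP hL
  intro qq h1 h2 m ε hM
  have hq : 0 < qq := lt_of_lt_of_le (lt_of_lt_of_le one_pos (one_le_qm hP)) h1
  have hδ : 0 < dl c P qq := dl_pos hc.1 hP hq
  have hδ1 : dl c P qq ≤ 1 := dl_le_one hc.2 hP hq.le h2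
  refine (sm_le_of_R hP hB _ ?_).trans ?_
  · intro o k s hs
    rcases s.eq_empty_or_nonempty with rfl | ⟨m0, hm0⟩
    · simpa using hB
    have hx0 := hs m0 hm0
    have hQ := cQ_pos (o, (k, m0))
    have hΘ := cΘ_pos (o, (k, m0))
    have hα := cα_pos (o, (k, m0))
    refine (Finset.sum_le_sum (g := fun j : ℤ =>
      min (C * N * dl c P qq * cα (o, (k, m0)) ^ 2 * cQ (o, (k, m0)) * 2 ^ j)
        (C * dl c P qq * En / (cQ (o, (k, m0)) ^ 3 * cΘ (o, (k, m0)) ^ 4) / (2 ^ j) ^ 2))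
      fun j hj => ?_).trans ?_
    · exact sumB_term hC0 hN0 hδ.le (cQ_pos (o, (k, j))) (cΘ_pos (o, (k, j)))
        (cβ_pos (o, (k, j))).le (cR_pos (o, (k, j))) (min_le_left _ _)
        (hM.vol _ (hs j hj).1) (hM.flux _ (hs j hj).1)
    · refine (sum_min_two (by positivity) (by positivity) s).trans ?_
      refine mul_le_mul_of_nonneg_left ?_ (by norm_num)
      exact Real.rpow_le_rpow (by positivity)
        (sumB_const hC0 hE0 hδ.le hδ1 hx0.1.Q1 hΘ hα.le hx0.2) (by norm_num)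
  · have h3 : 16 * B / η * La P ^ 4 ≤ qq := hL.trans h1
    calc 16 * La P ^ 4 * B = η * (16 * B / η * La P ^ 4) := by field_simp
      _ ≤ η * qq := mul_le_mul_of_nonneg_left h3 hη.le

theorem sumG_far (hC : 1 ≤ C) (hN : 1 ≤ N) (hE : 1 ≤ En) (hη : 0 < η) : Ev C N En fun c P qq m =>
    sm P (fun x => dl c P qq < cR x) (fun x => Real.sqrt (cR x * (J0 x * m x))) ≤ η * qq := by
  have hC0 : 0 ≤ C := by linarith
  have hN0 : 0 ≤ N := by linarith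
  have hE0 : 0 ≤ En := by linarith
  filter_upwards [sumB_evc] with c hc
  filter_upwards [eventually_ge_atTop (1 : ℝ),
    ev_La (352 * (C * N * En) / η) 5 (show (0 : ℝ) < 1 / 3 by norm_num)] with P hP hL
  intro qq h1 h2 m ε hM
  have hP0 : 0 < P := by linarith
  have hq : 0 < qq := lt_of_lt_of_le (lt_of_lt_of_le one_pos (one_le_qm hP)) h1
  have hδ : 0 < dl c P qq := dl_pos hc.1 hP hq
  have ht : 0 < P ^ (1 / 3 : ℝ) := Real.rpow_pos_of_pos hP0 _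
  have htP : (P ^ (1 / 3 : ℝ)) ^ 3 = P := by
    rw [← Real.rpow_natCast, ← Real.rpow_mul hP0.le]
    norm_num
  set t := P ^ (1 / 3 : ℝ) with htdef
  refine (sm_le_card (B := C * N * En * qq / t) hP (by positivity) _ ?_).trans ?_
  · intro x hx _
    exact sumG_term hC hN hE hδ.le hq.le ht htP (dl_le hc.2 hP) (cQ_pos x) hx.QP (cΘ_pos x) hx.Θ1
      (cα_pos x).le hx.α1 (cβ_pos x).le (cR_pos x) (min_le_left _ _) (hM.nonneg x)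
      (hM.vol x hx) (hM.flux x hx)
  · calc 352 * La P ^ 5 * (C * N * En * qq / t)
        = η * qq / t * (352 * (C * N * En) / η * La P ^ 5) := by field_simp
      _ ≤ η * qq / t * t := mul_le_mul_of_nonneg_left hL (by positivity)
      _ = η * qq := by field_simp

theorem sumI (hC : 1 ≤ C) (hN : 1 ≤ N) (hE : 1 ≤ En) (hη : 0 < η) (P1 : ℝ) : Ev C N En fun c P qq m =>
    Real.sqrt (dl c P qq) * sq P (fun x => cQ x ≤ 2 * P1) (fun x => JJ 2 x * m x) ≤ η * qq := by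
  have hC0 : 0 ≤ C := by linarith
  have hN0 : 0 ≤ N := by linarith
  have hE0 : 0 ≤ En := by linarith
  set B : ℝ := C * N * (2 * P1) ^ 4 + 72 * C * En * (2 * P1) ^ 2 with hBdef
  have hB : 0 ≤ B := by positivity
  filter_upwards [sumB_evc] with c hc
  filter_upwards [eventually_ge_atTop (1 : ℝ),
    ev_La (56 * Real.sqrt B / η) 4 (show (0 : ℝ) < 11 / 20 by norm_num)] with P hP hL
  intro qq h1 h2 m ε hM
  have hq : 0 < qq := lt_of_lt_of_le (lt_of_lt_of_le one_pos (one_le_qm hP)) h1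
  have hδ : 0 < dl c P qq := dl_pos hc.1 hP hq
  have hδ1 : dl c P qq ≤ 1 := dl_le_one hc.2 hP hq.le h2
  have h4 : sq P (fun x => cQ x ≤ 2 * P1) (fun x => JJ 2 x * m x) ≤
      56 * La P ^ 4 * Real.sqrt B := by
    refine sq_le_card hP hB _ ?_
    intro x hx hS
    exact sumI_term hC0 hN0 hE0 hδ.le hδ1 (cQ_pos x) hS (cΘ_pos x) hx.ΘQ (cα_pos x) hx.α1
      (cβ_pos x).le (cR_pos x) (min_le_left _ _) (hM.vol x hx) (hM.ener x hx)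
  have hLa : 0 ≤ La P := le_trans (by norm_num) (three_le_La hP)
  have h5 : Real.sqrt (dl c P qq) ≤ 1 := Real.sqrt_le_one.2 hδ1
  have h3 : 56 * Real.sqrt B / η * La P ^ 4 ≤ qq := hL.trans h1
  calc Real.sqrt (dl c P qq) * sq P (fun x => cQ x ≤ 2 * P1) (fun x => JJ 2 x * m x)
      ≤ Real.sqrt (dl c P qq) * (56 * La P ^ 4 * Real.sqrt B) :=
        mul_le_mul_of_nonneg_left h4 (Real.sqrt_nonneg _)
    _ ≤ 56 * La P ^ 4 * Real.sqrt B := mul_le_of_le_one_left (by positivity) h5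
    _ = η * (56 * Real.sqrt B / η * La P ^ 4) := by field_simp
    _ ≤ η * qq := mul_le_mul_of_nonneg_left h3 hη.le

theorem sumL (hC : 1 ≤ C) (hN : 1 ≤ N) : ∀ᶠ P : ℝ in atTop, ∀ Zc : ℝ, 0 < Zc → ∀ m : Idx → ℝ,
    (∀ x, 0 ≤ m x) →
    (∀ x, m x ≤ C * N * cR x ^ 3 * cα x ^ 2 * cΘ x ^ 2 * cQ x ^ 3 * cβ x ^ 2) →
    sm P (fun x => r1lo x ∧ r2lo Zc x) (fun x => 1 / (cα x ^ 2 * cΘ x * cR x) * m x)
      ≤ Zc * P ^ (1 / 400 : ℝ) := by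
  have hC0 : 0 ≤ C := by linarith
  have hN0 : 0 ≤ N := by linarith
  filter_upwards [eventually_ge_atTop (1 : ℝ),
    ev_La (704 * C * N) 5 (show (0 : ℝ) < 1 / 400 by norm_num)] with P hP hL
  intro Zc hZ m _ hm
  refine (sm_le_card (B := 2 * C * N * Zc) hP (by positivity) _ ?_).trans ?_
  · intro x _ hS
    exact sumL_term hC0 hN0 hZ.le (cQ_pos x) (cΘ_pos x) (cα_pos x) (cβ_pos x).le (cR_pos x)
      (min_le_left _ _) (hm x) hS.2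
  · calc 352 * La P ^ 5 * (2 * C * N * Zc) = Zc * (704 * C * N * La P ^ 5) := by ring
      _ ≤ _ := mul_le_mul_of_nonneg_left hL hZ.le

end Vale.Agent.P107
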