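import Vale.Agent.P107.SumBas

/-! The transition region of the second cutoff (notes, Sum C).

Plan. Zone S: as in SumA, sum_min_two and the second quantity of `static` (Θ ≤ α^(5/4), α ≤ 3θ). Zone P: each term is ≤ min (a R) (b/R), a = C N δ α³ΘQ³, b = 72 C ww/(Θ α² Q).
If θ ≤ P^(-1/50): term ≤ √(a b) ≤ C' √δ √θ Q √ww ≤ C'' √θ qq (ww_le: Q √ww ≤ √(En C)(P + qq), √δ ≤ qq/P). Else use r2hi: 1/R ≤ 16 (QΘ)^(3/2)/√Z, so the term is ≤ C' ww √Q θ^-2 Z^(-1/2), Z^(-1/2) = qq^(-1/4) P^(1/200);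
with ww = En if Q < qm P (ww_of_lt) and ww_le otherwise: √Q ≤ √P, qq^(5/4) ≥ P^(11/16); qq² Q^(-3/2) qq^(-1/4) ≤ qq P^(3/4 - 33/40). All cases ≤ C' qq P^(-1/100); sm_le_card / sm_le_of_R, ev_La. -/

namespace Vale.Agent.P107

open MeasureTheory Set Filter Topology
open scoped RealInnerProductSpace ENNReal

variable {C N En η : ℝ}


theorem sumC_S {t E δ Q α Θ θ R : ℝ} (hC : 1 ≤ C) (hN : 1 ≤ N) (hE : 1 ≤ E) (hδ : 0 < δ)
    (hQ : 0 < Q) (hα : 0 < α) (hΘ : 0 < Θ) (hθ : 0 < θ) (hR : 0 < R) (ht : 0 ≤ t)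
    (h1 : t ≤ C * N * δ * α ^ 3 * Θ * Q ^ 3 * R) (h2 : t ≤ 2 * C * δ * E / (α * Θ * Q * R ^ 2))
    (h3 : Θ ^ 8 ≤ α ^ 10) (h4 : α ≤ 3 * θ) :
    t ≤ 54 * C * N * E * (δ * (Q ^ (5 / 3 : ℝ) * θ ^ (25 / 12 : ℝ))) := by
  have k1 : t ^ 3 ≤ 2 * C ^ 3 * N ^ 2 * E * δ ^ 3 * α ^ 5 * Q ^ 5 * Θ := by
    rw [pow_succ]
    exact (mul_le_mul (pow_le_pow_left₀ ht h1 2) h2 ht (by positivity)).trans_eq (by field_simp)
  have k2 : Θ ^ 4 ≤ α ^ 5 :=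
    le_of_pow_le_pow_left₀ (n := 2) (by norm_num) (by positivity)
      (by rw [← pow_mul, ← pow_mul]; exact h3)
  have e1 : (Q ^ (5 / 3 : ℝ)) ^ 12 = Q ^ 20 := by
    rw [← Real.rpow_natCast, ← Real.rpow_mul hQ.le, ← Real.rpow_natCast]; norm_num
  have e2 : (θ ^ (25 / 12 : ℝ)) ^ 12 = θ ^ 25 := by
    rw [← Real.rpow_natCast, ← Real.rpow_mul hθ.le, ← Real.rpow_natCast]; norm_num
  refine le_of_pow_le_pow_left₀ (n := 12) (by norm_num) (by positivity) ?_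
  calc t ^ 12 = (t ^ 3) ^ 4 := by ring
    _ ≤ (2 * C ^ 3 * N ^ 2 * E * δ ^ 3 * α ^ 5 * Q ^ 5 * Θ) ^ 4 := by gcongr
    _ = 2 ^ 4 * C ^ 12 * N ^ 8 * E ^ 4 * δ ^ 12 * Q ^ 20 * α ^ 20 * Θ ^ 4 := by ring
    _ ≤ 2 ^ 4 * C ^ 12 * N ^ 12 * E ^ 12 * δ ^ 12 * Q ^ 20 * (3 * θ) ^ 20 * (3 * θ) ^ 5 := by
      have := k2.trans (pow_le_pow_left₀ hα.le h4 5)
      gcongr <;> norm_num
    _ = 2 ^ 4 * 3 ^ 25 * (C ^ 12 * N ^ 12 * E ^ 12 * δ ^ 12 * Q ^ 20 * θ ^ 25) := by ring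
    _ ≤ 54 ^ 12 * (C ^ 12 * N ^ 12 * E ^ 12 * δ ^ 12 * Q ^ 20 * θ ^ 25) := by gcongr; norm_num
    _ = _ := by rw [mul_pow, mul_pow δ, mul_pow (Q ^ _), e1, e2]; ring

theorem sumC_w {E Q w r p : ℝ} (hC : 1 ≤ C) (hE : 1 ≤ E) (hQ : 0 < Q) (hp : 1 ≤ p) (hw0 : 0 ≤ w)
    (hw : w ≤ E * (1 + C * r ^ 2 / Q ^ 2)) (hw' : Q < p ^ 55 → w = E) (hQp : Q ≤ p ^ 100)
    (h1 : p ^ 55 ≤ r) (h2 : r ≤ p ^ 100) : w ^ 4 * Q ^ 2 * p ^ 22 ≤ (2 * C * E) ^ 4 * r ^ 5 := by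
  have hr : 0 < r := lt_of_lt_of_le (by positivity) h1
  by_cases hc : Q < p ^ 55 ∨ r ≤ Q
  · have k : w ≤ 2 * C * E := by
      rcases hc with hc | hc
      · rw [hw' hc]; nlinarith
      · have : C * r ^ 2 / Q ^ 2 ≤ C := by
          rw [div_le_iff₀ (by positivity)]; gcongr
        nlinarith
    calc w ^ 4 * Q ^ 2 * p ^ 22 ≤ (2 * C * E) ^ 4 * (p ^ 100) ^ 2 * p ^ 75 := by
          gcongr; norm_num
      _ = (2 * C * E) ^ 4 * (p ^ 55) ^ 5 := by ring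
      _ ≤ _ := by gcongr
  · rw [not_or, not_lt, not_le] at hc
    have k : w ≤ 2 * C * E * (r ^ 2 / Q ^ 2) := by
      have : 1 ≤ r ^ 2 / Q ^ 2 := by
        rw [le_div_iff₀ (by positivity), one_mul]; gcongr; exact hc.2.le
      rw [mul_div_assoc] at hw
      nlinarith [mul_le_mul hC this zero_le_one (by linarith)]
    have k2 : r ^ 3 * p ^ 22 ≤ Q ^ 6 :=
      calc r ^ 3 * p ^ 22 ≤ (p ^ 100) ^ 3 * p ^ 30 := by gcongr; norm_num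
        _ = (p ^ 55) ^ 6 := by ring
        _ ≤ _ := by gcongr; exact hc.1
    calc w ^ 4 * Q ^ 2 * p ^ 22 ≤ (2 * C * E * (r ^ 2 / Q ^ 2)) ^ 4 * Q ^ 2 * p ^ 22 := by gcongr
      _ = (2 * C * E) ^ 4 * r ^ 5 * (r ^ 3 * p ^ 22 / Q ^ 6) := by field_simp
      _ ≤ _ := mul_le_of_le_one_right (by positivity) ((div_le_one (by positivity)).2 k2)

theorem sumC_P {t E δ Q α Θ R w r p : ℝ} (hC : 1 ≤ C) (hN : 1 ≤ N) (hE : 1 ≤ E) (hδ : 0 < δ)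
    (hQ : 0 < Q) (hα : 0 < α) (hΘ : 0 < Θ) (hR : 0 < R) (ht : 0 ≤ t) (hp : 1 ≤ p) (hw0 : 0 ≤ w)
    (h1 : t ≤ C * N * δ * α ^ 3 * Θ * Q ^ 3 * R) (h2 : t ≤ 72 * C * w / (Θ * α ^ 2 * Q * R))
    (h3 : δ ≤ r ^ 2 / (p ^ 100) ^ 2) (hw : w ≤ E * (1 + C * r ^ 2 / Q ^ 2))
    (hw' : Q < p ^ 55 → w = E) (hQp : Q ≤ p ^ 100) (hr1 : p ^ 55 ≤ r) (hr2 : r ≤ p ^ 100)
    (hΘ1 : Θ ≤ 1) (hZ : r / p ^ 2 ≤ 2 ^ 16 * (R ^ 4 * Q ^ 6 * Θ ^ 6)) :
    t ≤ 2304 * C ^ 3 * N * E * r / p := by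
  have hr : 0 < r := lt_of_lt_of_le (by positivity) hr1
  rcases le_total α (1 / p ^ 2) with ha | ha
  · have k1 : Q ^ 2 * w ≤ 2 * C * E * (p ^ 100) ^ 2 :=
      calc Q ^ 2 * w ≤ Q ^ 2 * (E * (1 + C * r ^ 2 / Q ^ 2)) := by gcongr
        _ = E * (1 * Q ^ 2 + C * r ^ 2) := by field_simp
        _ ≤ E * (C * (p ^ 100) ^ 2 + C * (p ^ 100) ^ 2) := by gcongr
        _ = _ := by ring
    refine le_of_pow_le_pow_left₀ (n := 2) (by norm_num) (by positivity) ?_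
    calc t ^ 2 = t * t := pow_two t
      _ ≤ C * N * δ * α ^ 3 * Θ * Q ^ 3 * R * (72 * C * w / (Θ * α ^ 2 * Q * R)) :=
        mul_le_mul h1 h2 ht (by positivity)
      _ = 72 * C ^ 2 * N * δ * α * (Q ^ 2 * w) := by field_simp
      _ ≤ 72 * C ^ 2 * N * (r ^ 2 / (p ^ 100) ^ 2) * (1 / p ^ 2) * (2 * C * E * (p ^ 100) ^ 2) := by
        gcongr
      _ = 144 * C ^ 3 * N ^ 1 * E ^ 1 * (r / p) ^ 2 := by field_simp; norm_num
      _ ≤ 2304 ^ 2 * C ^ 6 * N ^ 2 * E ^ 2 * (r / p) ^ 2 := by gcongr <;> norm_num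
      _ = _ := by ring
  · have k1 := sumC_w hC hE hQ hp hw0 hw hw' hQp hr1 hr2
    have k2 : 1 ≤ α * p ^ 2 := (div_le_iff₀ (by positivity)).1 ha
    refine le_of_pow_le_pow_left₀ (n := 4) (by norm_num) (by positivity) ?_
    refine le_of_mul_le_mul_right ?_ (show 0 < r / p ^ 2 by positivity)
    calc t ^ 4 * (r / p ^ 2) ≤ (72 * C * w / (Θ * α ^ 2 * Q * R)) ^ 4 *
          (2 ^ 16 * (R ^ 4 * Q ^ 6 * Θ ^ 6)) := by gcongr
      _ = (1152 * C) ^ 4 * (w ^ 4 * Q ^ 2 * p ^ 22) * Θ ^ 2 / ((α * p ^ 2) ^ 8 * p ^ 6) := by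
        field_simp; ring
      _ ≤ (1152 * C) ^ 4 * ((2 * C * E) ^ 4 * r ^ 5) * 1 ^ 2 / (1 ^ 8 * p ^ 6) := by gcongr
      _ = (2304 * C ^ 2 * 1 * E * r / p) ^ 4 * (r / p ^ 2) := by field_simp; norm_num
      _ ≤ _ := by gcongr; norm_num

theorem sumC (hC : 1 ≤ C) (hN : 1 ≤ N) (hE : 1 ≤ En) (hη : 0 < η) : Ev C N En fun _ P qq m =>
    sm P (fun x => r1lo x ∧ r2hi (zc P qq) x) (fun x => cα x / (cΘ x ^ 3 * cR x ^ 2) * m x)
      ≤ η * qq := by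
  filter_upwards [Ioc_mem_nhdsGT (one_pos : (0 : ℝ) < 1)] with c hc
  filter_upwards [eventually_ge_atTop 1,
    ev_La (352 * (2304 * C ^ 3 * N * En) / η) 5 (show (0 : ℝ) < 1 / 100 by norm_num)]
    with P hP hL qq h1 h2 m ε h
  have P0 : 0 < P := one_pos.trans_le hP
  have hq : 0 < qq := one_pos.trans_le ((one_le_qm hP).trans h1)
  have hδ := dl_pos hc.1 hP hq
  have ep : ∀ n : ℕ, (P ^ (1 / 100 : ℝ)) ^ n = P ^ (n / 100 : ℝ) := fun n => by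
    rw [← Real.rpow_natCast, ← Real.rpow_mul P0.le]; congr 1; ring
  have hp : 1 ≤ P ^ (1 / 100 : ℝ) := Real.one_le_rpow hP (by norm_num)
  have e1 : (P ^ (1 / 100 : ℝ)) ^ 100 = P := by rw [ep]; norm_num
  have e2 : (P ^ (1 / 100 : ℝ)) ^ 55 = qm P := by rw [ep, qm]; norm_num
  have e3 : zc P qq ^ 2 = qq / (P ^ (1 / 100 : ℝ)) ^ 2 := by
    rw [zc, mul_pow, Real.sq_sqrt hq.le, neg_div, Real.rpow_neg P0.le, inv_pow, div_eq_mul_inv qq]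
  have e4 : P ^ (-2 / 25 : ℝ) ≤ (P ^ (1 / 100 : ℝ))⁻¹ := by
    rw [← Real.rpow_neg P0.le]
    exact Real.rpow_le_rpow_of_exponent_le hP (by norm_num)
  generalize P ^ (1 / 100 : ℝ) = p at hL hp e1 e2 e3 e4
  refine (sm_le_card (B := 2304 * C ^ 3 * N * En * qq / p) hP (by positivity) _
    fun x hx hS => ?_).trans ?_
  · obtain ⟨⟨⟨_, a2, a3⟩, a4⟩, a5⟩ := hS
    have := cQ_pos x
    have := cθ_pos x
    have := cΘ_pos x
    have := cα_pos x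
    have := cR_pos x
    have := cβ_pos x
    have ht : 0 ≤ cα x / (cΘ x ^ 3 * cR x ^ 2) * m x := mul_nonneg (by positivity) (h.nonneg x)
    have k1 : cα x / (cΘ x ^ 3 * cR x ^ 2) * m x ≤
        C * N * dl c P qq * cα x ^ 3 * cΘ x * cQ x ^ 3 * cR x :=
      (mul_le_mul_of_nonneg_left ((h.vol x hx).trans (mul_le_mul_of_nonneg_left
        (pow_le_pow_left₀ (cβ_pos x).le (min_le_left _ _) 2) (by positivity)))
          (by positivity)).trans_eq (by field_simp)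
    by_cases hz : zP C c P qq x
    · have w0 : 0 ≤ ww En c P ε x.1.1 := by linarith [h.ww_ge hc.1 hP x.1.1]
      refine sumC_P hC hN hE hδ (cQ_pos x) (cα_pos x) (cΘ_pos x) (cR_pos x) ht hp w0 k1 ?_
        (by rw [e1]; exact dl_le hc.2 hP) (h.ww_le hC hE hc.1 hP hq (hx.mem_Icc hP))
        (fun hh => ww_of_lt (e2 ▸ hh)) (e1 ▸ hx.QP) (e2 ▸ h1) (e1 ▸ h2) hx.Θ1 (e3 ▸ a5)
      calc _ ≤ cα x / (cΘ x ^ 3 * cR x ^ 2) * (2 * C * (cΘ x / cα x) ^ 2 * cR x *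
            (cα x + 3 * cα x) / (cα x / 3) ^ 2 * ww En c P ε x.1.1 / cQ x) := by
            refine mul_le_mul_of_nonneg_left ((h.pass' hC hE hc.1 hP hx hz).trans ?_)
              (by positivity)
            gcongr
            linarith
        _ = _ := by field_simp; ring
    · have hR : cR x ≤ dl c P qq := not_lt.1 fun hh => hz (.inl hh)
      refine (sumC_S hC hN hE hδ (cQ_pos x) (cα_pos x) (cΘ_pos x) (cθ_pos x) (cR_pos x) ht k1 ?_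
        a4 a3).trans ?_
      · calc _ ≤ cα x / (cΘ x ^ 3 * cR x ^ 2) * (C * (cΘ x / cα x) ^ 2 *
              (dl c P qq + dl c P qq) * En / cQ x) := by
              refine mul_le_mul_of_nonneg_left ((h.ener x hx).trans ?_) (by positivity)
              gcongr
          _ = _ := by field_simp; ring
      · calc _ ≤ 2304 * C * N * En * (C ^ 2 * qq * p⁻¹) := by
              refine mul_le_mul (by gcongr; norm_num) ((static hC hc.1 hc.2 hP h1 h2 hx hz).2.1.trans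
                (by gcongr)) (by positivity) (by positivity)
          _ = _ := by field_simp
  · calc _ = 352 * (2304 * C ^ 3 * N * En) / η * La P ^ 5 / p * (η * qq) := by field_simp
      _ ≤ _ := mul_le_of_le_one_left (by positivity) ((div_le_one (by positivity)).2 hL)

end Vale.Agent.P107
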