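import Vale.Agent.P107.SumEA

/-! The subcritical Cauchy-Schwarz sums (notes, Sums E, F, G near).

Plan. General lemma: weight J x with J m ≤ min (a R) (b/R) in zone P and ≤ min (a R) (b'/R²) in zone S. For JJ j: a = C N δ α⁴Q⁴β⁴/Θ^(2j), b = 2C β²(α+θ) ww/(θ²Θ^(2j)), b' = 2 C β² δ En/Θ^(2j).
For J0: a = C N δ α²Q⁴β⁴, b = 2C β²(α+θ) ww/(α²θ²), b' = C δ En (flux, β ≤ Θ). Zone P: 4√(ab) ≤ C' √δ Q² √ww φ², φ ≤ C'(θΘ)^(1/20) independently of α (cases Θ ≤ θ, where α ≤ 4θ, and θ < Θ, where α ≤ 4Θ;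
for j = 2, Θ ≤ θ use r1hi: α ≤ 7 Θ^(4/5), θ ≤ 16 Θ^(4/5), φ ≤ C θ^(3/4)Θ^(-1/2) ≤ C' θ^(1/16)Θ^(1/20)). sq_le_of_R with B o = C' δ^(1/4) Q ww^(1/4)(θΘ)^(1/20) if 2^i ≤ P, else 0; box3 is a product: ww_sum4, sum_rpow_le twice.
Total ≤ C'' √La δ^(3/4) P ≤ C'' c^(3/4) qq since δ^(3/4) P = (c/La)^(3/4) qq^(3/2)/√P and La ≥ 1. Zone S: sum_min_two gives C' δ X², X ≤ C' Q^(4/3) θ^(11/12); then √δ √(δ X²) = δ X, `static`, ev_La. Use sq_split with zP. -/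

namespace Vale.Agent.P107

open MeasureTheory Set Filter Topology
open scoped RealInnerProductSpace ENNReal

variable {C N En η : ℝ}


theorem sumE_gen (hC : 1 ≤ C) (hN : 1 ≤ N) (hE : 1 ≤ En) (hη : 0 < η) {L : ℝ} (hL : 1 ≤ L)
    (S : ℝ → ℝ → ℝ → Idx → Prop) {J A B B' : Idx → ℝ} (hA : sumE_ind A) (hB : sumE_ind B)
    (hB' : sumE_ind B') (hJ0 : ∀ x, 0 ≤ J x) (hA0 : ∀ x, 0 ≤ A x) (hB0 : ∀ x, 0 ≤ B x)
    (hB0' : ∀ x, 0 ≤ B' x)
    (hvol : ∀ x, J x * (cR x ^ 3 * cα x ^ 2 * cΘ x ^ 2 * cQ x ^ 3 * cβ x ^ 2) =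
      cQ x ^ 4 * A x * cR x)
    (hpass : ∀ x, J x * ((cΘ x / cα x) ^ 2 * cR x * (cα x + cθ x) / cθ x ^ 2 / cQ x) = B x / cR x)
    (hen : ∀ x, J x * ((cΘ x / cα x) ^ 2 / cQ x) = B' x / cR x ^ 2 ∨
      J x / cQ x = B' x / cR x ^ 2)
    (hAB : ∀ c P qq x, Adm P x → S c P qq x → (A x * B x) ^ 15 ≤ L ^ 15 * (cθ x * cΘ x) ∧
      (A x ^ 2 * B' x) ^ 4 ≤ L ^ 4 * cθ x ^ 22) :
    Ev C N En fun c P qq m =>
      Real.sqrt (dl c P qq) * sq P (S c P qq) (fun x => J x * m x) ≤ η * qq := by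
  set K := 2 * C ^ 3 * N ^ 2 * En * L with hK
  have hK0 : 2 * C ^ 2 * N * L ≤ K := by
    have h1 : C ^ 2 ≤ C ^ 3 := pow_le_pow_right₀ hC (by norm_num)
    have h2 : N ≤ N ^ 2 := le_self_pow₀ hN two_ne_zero
    calc 2 * C ^ 2 * N * L = 2 * C ^ 2 * N * 1 * L := by ring
      _ ≤ _ := by rw [hK]; gcongr
  have hK1 : 1 ≤ K := by
    refine le_trans ?_ hK0
    have : 1 ≤ C ^ 2 * N * L :=
      one_le_mul_of_one_le_of_one_le (one_le_mul_of_one_le_of_one_le (one_le_pow₀ hC) hN) hL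
    linarith
  set G := 24 * K * C * En * (1 / (1 - 2 ^ (-(1 / 60 : ℝ)))) ^ 2
  have e1 : ∀ᶠ c in 𝓝[>] (0 : ℝ), G * Real.sqrt c < η / 2 := by
    have h1 : Tendsto (fun c => G * Real.sqrt c) (𝓝 0) (𝓝 (G * Real.sqrt 0)) :=
      (continuous_const.mul Real.continuous_sqrt).tendsto 0
    rw [Real.sqrt_zero, mul_zero] at h1
    exact (h1.eventually (gt_mem_nhds (half_pos hη))).filter_mono nhdsWithin_le_nhds
  filter_upwards [e1, Ioc_mem_nhdsGT (zero_lt_one' ℝ)] with c hc1 hc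
  filter_upwards [eventually_ge_atTop (1 : ℝ),
    ev_La (32 * K * C ^ 2 / η) 4 (by norm_num : (0 : ℝ) < 2 / 25)] with P hP hLa qq h1 h2 m ε h
  have hq0 : 0 < qq := lt_of_lt_of_le one_pos ((one_le_qm hP).trans h1)
  have hδ := dl_pos hc.1 hP hq0
  have hC0 : 0 < C := by linarith
  have hN0 : 0 < N := by linarith
  have hE0 : 0 < En := by linarith
  have iA : sumE_ind fun x => C * N * (cQ x ^ 4 * A x) := fun o k n n' => by
    show C * N * (cQ (o, (k, n)) ^ 4 * _) = _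
    rw [hA o k n n']
    rfl
  have iA0 : ∀ x, 0 ≤ C * N * (cQ x ^ 4 * A x) := fun x => by
    have := hA0 x
    positivity
  have v : ∀ x, Adm P x → J x * m x ≤ dl c P qq * (C * N * (cQ x ^ 4 * A x)) * cR x := by
    intro x hx
    refine (mul_le_mul_of_nonneg_left (h.vol x hx) (hJ0 x)).trans_eq ?_
    linear_combination C * N * dl c P qq * hvol x
  have p1 := sumE_P hC hE h hc.1 hc.2 hP hq0 h2 hK1 (S := fun x => S c P qq x ∧ zP C c P qq x)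
    (g := fun x => J x * m x) (B := fun x => 2 * C * B x) iA
    (fun o k n n' => by show 2 * C * _ = _; rw [hB o k n n']) iA0
    (fun x => by have := hB0 x; positivity) (fun x hx hs => ⟨v x hx, by
      refine (mul_le_mul_of_nonneg_left (h.pass' hC hE hc.1 hP hx hs.2) (hJ0 x)).trans_eq ?_
      linear_combination 2 * C * ww En c P ε x.1.1 * hpass x, by
      have a1 := (hAB c P qq x hx hs.1).1
      have a2 : (2 * C ^ 2 * N * L) ^ 15 ≤ K ^ 60 :=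
        (pow_le_pow_left₀ (by positivity) hK0 15).trans (pow_le_pow_right₀ hK1 (by norm_num))
      have a3 := pow_pos (cQ_pos x) 60
      calc _ = (2 * C ^ 2 * N) ^ 15 * cQ x ^ 60 * (A x * B x) ^ 15 := by ring
        _ ≤ (2 * C ^ 2 * N) ^ 15 * cQ x ^ 60 * (L ^ 15 * (cθ x * cΘ x)) :=
          mul_le_mul_of_nonneg_left a1 (mul_nonneg (by positivity) a3.le)
        _ = (2 * C ^ 2 * N * L) ^ 15 * cQ x ^ 60 * (cθ x * cΘ x) := by ring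
        _ ≤ _ := mul_le_mul_of_nonneg_right (mul_le_mul_of_nonneg_right a2 a3.le)
          (mul_pos (cθ_pos x) (cΘ_pos x)).le⟩)
  have p2 := sumE_S hC hc.1 hc.2 hP h1 h2 hK1 (S := fun x => S c P qq x ∧ ¬ zP C c P qq x)
    (g := fun x => J x * m x) (B := fun x => 2 * C * En * B' x) iA
    (fun o k n n' => by show 2 * C * En * _ = _; rw [hB' o k n n']) iA0
    (fun x => by have := hB0' x; positivity) (fun x hx hs => ⟨hs.2, v x hx, by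
      have hQ := cQ_pos x
      rcases hen x with he | he
      · have a1 : cR x ≤ dl c P qq := not_lt.1 fun a => hs.2 (Or.inl a)
        have a2 : m x ≤ C * (cΘ x / cα x) ^ 2 * (2 * dl c P qq) * En / cQ x := by
          refine (h.ener x hx).trans ?_
          gcongr
          linarith
        refine (mul_le_mul_of_nonneg_left a2 (hJ0 x)).trans_eq ?_
        linear_combination 2 * C * En * dl c P qq * he
      · have a2 : m x ≤ 2 * C * dl c P qq * En / cQ x := by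
          refine (h.flux x hx).trans ?_
          gcongr
          linarith
        refine (mul_le_mul_of_nonneg_left a2 (hJ0 x)).trans_eq ?_
        linear_combination 2 * C * En * dl c P qq * he, by
      have a1 := (hAB c P qq x hx hs.1).2
      have a2 : K ^ 4 ≤ K ^ 24 := pow_le_pow_right₀ hK1 (by norm_num)
      have := cθ_pos x
      calc _ = (2 * C ^ 3 * N ^ 2 * En) ^ 4 * cQ x ^ 32 * (A x ^ 2 * B' x) ^ 4 := by ring
        _ ≤ (2 * C ^ 3 * N ^ 2 * En) ^ 4 * cQ x ^ 32 * (L ^ 4 * cθ x ^ 22) := by gcongr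
        _ = K ^ 4 * cQ x ^ 32 * cθ x ^ 22 := by rw [hK]; ring
        _ ≤ _ := by gcongr⟩)
  have p3 := mul_le_mul_of_nonneg_left (sq_split P (S c P qq) (zP C c P qq)
    (g := fun x => J x * m x) fun x => mul_nonneg (hJ0 x) (h.nonneg x))
    (Real.sqrt_nonneg (dl c P qq))
  have p4 : 16 * K * C ^ 2 * La P ^ 4 * P ^ (-2 / 25 : ℝ) ≤ η / 2 := by
    have hP0 : 0 < P := by linarith
    rw [neg_div, Real.rpow_neg hP0.le, ← div_eq_mul_inv, div_le_iff₀ (Real.rpow_pos_of_pos hP0 _)]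
    calc _ = η / 2 * (32 * K * C ^ 2 / η * La P ^ 4) := by field_simp; ring
      _ ≤ _ := by gcongr
  have p5 := mul_le_mul_of_nonneg_right p4 hq0.le
  have p6 := mul_le_mul_of_nonneg_right hc1.le hq0.le
  rw [mul_add] at p3
  linarith

theorem sumE_p15 {t θ Θ : ℝ} (ht : 0 ≤ t) (hθ : 0 < θ) (hΘ : 0 < Θ) (h1 : θ ≤ 1)
    (h : t ≤ 2 ^ 26 * min Θ θ) : t ^ 15 ≤ (2 ^ 26) ^ 15 * (θ * Θ) := by
  have h0 : 0 < min Θ θ := lt_min hΘ hθ
  calc t ^ 15 ≤ (2 ^ 26 * min Θ θ) ^ 15 := pow_le_pow_left₀ ht h 15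
    _ = (2 ^ 26) ^ 15 * min Θ θ ^ 15 := mul_pow _ _ _
    _ ≤ (2 ^ 26) ^ 15 * min Θ θ ^ 2 := mul_le_mul_of_nonneg_left
        (pow_le_pow_of_le_one h0.le ((min_le_right _ _).trans h1) (by norm_num)) (by positivity)
    _ ≤ _ := by
        rw [pow_two]
        gcongr
        exacts [min_le_right _ _, min_le_left _ _]

theorem sumE_p4 {t θ : ℝ} (ht : 0 ≤ t) (hθ : 0 < θ) (h1 : θ ≤ 1) (h : t ≤ 2 ^ 26 * θ ^ 6) :
    t ^ 4 ≤ (2 ^ 26) ^ 4 * θ ^ 22 := by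
  calc t ^ 4 ≤ (2 ^ 26 * θ ^ 6) ^ 4 := pow_le_pow_left₀ ht h 4
    _ = (2 ^ 26) ^ 4 * θ ^ 24 := by ring
    _ ≤ _ := mul_le_mul_of_nonneg_left (pow_le_pow_of_le_one hθ.le h1 (by norm_num))
        (by positivity)

/-- The triangle inequality in product form. -/
theorem sumE_tri {α θ Θ : ℝ} (hα : 0 < α) (hθ : 0 < θ) (hΘ : 0 < Θ) (h : α ≤ 2 * (θ + Θ)) :
    α * min Θ θ ≤ 4 * (θ * Θ) ∧ (α + θ) * min Θ θ ≤ 5 * (θ * Θ) := by
  rcases le_total Θ θ with h1 | h1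
  · rw [min_eq_left h1]
    constructor <;> nlinarith
  · rw [min_eq_right h1]
    constructor <;> nlinarith

theorem sumE_JJ (hC : 1 ≤ C) (hN : 1 ≤ N) (hE : 1 ≤ En) (hη : 0 < η) (j : ℕ) (S : Idx → Prop)
    (hAB : ∀ P x, Adm P x → S x →
      (cα x ^ 4 * cβ x ^ 4 / cΘ x ^ (2 * j) *
        (cβ x ^ 2 * (cα x + cθ x) / (cθ x ^ 2 * cΘ x ^ (2 * j)))) ^ 15 ≤
          (2 ^ 26) ^ 15 * (cθ x * cΘ x) ∧
      ((cα x ^ 4 * cβ x ^ 4 / cΘ x ^ (2 * j)) ^ 2 * (cβ x ^ 2 / cΘ x ^ (2 * j))) ^ 4 ≤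
        (2 ^ 26) ^ 4 * cθ x ^ 22) : Ev C N En fun c P qq m =>
    Real.sqrt (dl c P qq) * sq P S (fun x => JJ j x * m x) ≤ η * qq := by
  refine sumE_gen hC hN hE hη (L := 2 ^ 26) (by norm_num) (fun _ _ _ => S) (J := JJ j)
    (A := fun x => cα x ^ 4 * cβ x ^ 4 / cΘ x ^ (2 * j))
    (B := fun x => cβ x ^ 2 * (cα x + cθ x) / (cθ x ^ 2 * cΘ x ^ (2 * j)))
    (B' := fun x => cβ x ^ 2 / cΘ x ^ (2 * j)) (fun _ _ _ _ => rfl) (fun _ _ _ _ => rfl)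
    (fun _ _ _ _ => rfl) (fun x => ?_) (fun x => ?_) (fun x => ?_) (fun x => ?_) (fun x => ?_)
    (fun x => ?_) (fun x => Or.inl ?_) fun _ P _ x => hAB P x
  all_goals
    have := cQ_pos x
    have := cθ_pos x
    have := cΘ_pos x
    have := cα_pos x
    have := cR_pos x
    have := cβ_pos x
    try unfold JJ
    first
    | positivity
    | (rw [pow_add]; field_simp)

theorem sumE (hC : 1 ≤ C) (hN : 1 ≤ N) (hE : 1 ≤ En) (hη : 0 < η) : Ev C N En fun c P qq m =>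
    Real.sqrt (dl c P qq) * sq P (fun _ => True) (fun x => JJ 1 x * m x) ≤ η * qq := by
  refine sumE_JJ hC hN hE hη 1 _ fun P x hx _ => ?_
  have hθ := cθ_pos x
  have hΘ := cΘ_pos x
  have hα := cα_pos x
  have hβ := cβ_pos x
  have hθ1 := hx.θ1
  have hΘ1 := hx.Θ1
  obtain ⟨t1, t2⟩ : cα x * cβ x ≤ _ ∧ (cα x + cθ x) * cβ x ≤ _ := sumE_tri hα hθ hΘ hx.triα
  have hβ1 : cβ x ≤ 1 := (min_le_left _ _).trans hΘ1
  refine ⟨sumE_p15 (by positivity) hθ hΘ hθ1 ?_, sumE_p4 (by positivity) hθ hθ1 ?_⟩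
  · calc _ = (cα x * cβ x) ^ 4 * ((cα x + cθ x) * cβ x) * cβ x / (cθ x ^ 2 * cΘ x ^ 4) := by
          field_simp
          ring
      _ ≤ (4 * (cθ x * cΘ x)) ^ 4 * (5 * (cθ x * cΘ x)) * cβ x / (cθ x ^ 2 * cΘ x ^ 4) := by
          gcongr
      _ = 1280 * cθ x ^ 3 * cΘ x * cβ x := by field_simp; norm_num
      _ ≤ 2 ^ 26 * 1 ^ 3 * 1 * cβ x := by gcongr; norm_num
      _ = _ := by rw [one_pow, mul_one, mul_one]; rfl
  · calc _ = (cα x * cβ x) ^ 8 * cβ x ^ 2 / cΘ x ^ 6 := by field_simp; ring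
      _ ≤ (4 * (cθ x * cΘ x)) ^ 8 * 1 ^ 2 / cΘ x ^ 6 := by gcongr
      _ = 4 ^ 8 * cθ x ^ 6 * cθ x ^ 2 * cΘ x ^ 2 := by field_simp
      _ ≤ 2 ^ 26 * cθ x ^ 6 * 1 ^ 2 * 1 ^ 2 := by gcongr; norm_num
      _ = _ := by ring

theorem sumF (hC : 1 ≤ C) (hN : 1 ≤ N) (hE : 1 ≤ En) (hη : 0 < η) : Ev C N En fun c P qq m =>
    Real.sqrt (dl c P qq) * sq P r1hi (fun x => JJ 2 x * m x) ≤ η * qq := by
  refine sumE_JJ hC hN hE hη 2 _ fun P x hx hr => ?_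
  have hθ := cθ_pos x
  have hΘ := cΘ_pos x
  have hα := cα_pos x
  have hβ := cβ_pos x
  have hθ1 := hx.θ1
  have hΘ1 := hx.Θ1
  obtain ⟨t1, t2⟩ : cα x * cβ x ≤ _ ∧ (cα x + cθ x) * cβ x ≤ _ := sumE_tri hα hθ hΘ hx.triα
  have hr' : cα x ^ 10 ≤ 2 ^ 26 * cΘ x ^ 8 := hr
  rcases le_total (cΘ x) (cθ x) with h1 | h1
  · have hb : cβ x = cΘ x := min_eq_left h1
    have a1 : cα x ≤ 4 * cθ x := by linarith [hx.triα]
    have a2 : cα x + cθ x ≤ 5 * cθ x := by linarith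
    rw [hb]
    constructor
    · calc _ = (cα x ^ 10) ^ 4 * cα x ^ 20 * (cα x + cθ x) ^ 15 / (cθ x ^ 30 * cΘ x ^ 30) := by
            field_simp
            ring
        _ ≤ (2 ^ 26 * cΘ x ^ 8) ^ 4 * (4 * cθ x) ^ 20 * (5 * cθ x) ^ 15 /
            (cθ x ^ 30 * cΘ x ^ 30) := by gcongr
        _ = (2 ^ 26) ^ 4 * 4 ^ 20 * 5 ^ 15 * (cθ x * cΘ x) * cθ x ^ 4 * cΘ x := by field_simp
        _ ≤ (2 ^ 26) ^ 15 * (cθ x * cΘ x) * 1 ^ 4 * 1 := by gcongr; norm_num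
        _ = _ := by ring
    · calc _ = cα x ^ 10 * cα x ^ 22 / cΘ x ^ 8 := by field_simp; ring
        _ ≤ 2 ^ 26 * cΘ x ^ 8 * (4 * cθ x) ^ 22 / cΘ x ^ 8 := by gcongr
        _ = 2 ^ 26 * 4 ^ 22 * cθ x ^ 22 := by field_simp
        _ ≤ _ := by gcongr; norm_num
  · have hβ1 : cβ x ≤ cΘ x := min_le_left _ _
    refine ⟨sumE_p15 (by positivity) hθ hΘ hθ1 ?_, sumE_p4 (by positivity) hθ hθ1 ?_⟩
    · calc _ = (cα x * cβ x) ^ 4 * ((cα x + cθ x) * cβ x) * cβ x / (cθ x ^ 2 * cΘ x ^ 8) := by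
            field_simp
            ring
        _ ≤ (4 * (cθ x * cΘ x)) ^ 4 * (5 * (cθ x * cΘ x)) * cβ x / (cθ x ^ 2 * cΘ x ^ 8) := by
            gcongr
        _ = 1280 * cθ x ^ 3 * cβ x / cΘ x ^ 3 := by field_simp; norm_num
        _ ≤ 2 ^ 26 * cΘ x ^ 3 * cβ x / cΘ x ^ 3 := by gcongr; norm_num
        _ = 2 ^ 26 * cβ x := by field_simp
    · calc _ = (cα x * cβ x) ^ 8 * cβ x ^ 2 / cΘ x ^ 12 := by field_simp; ring
        _ ≤ (4 * (cθ x * cΘ x)) ^ 8 * cΘ x ^ 2 / cΘ x ^ 12 := by gcongr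
        _ = 4 ^ 8 * cθ x ^ 6 * cθ x ^ 2 / cΘ x ^ 2 := by field_simp
        _ ≤ 2 ^ 26 * cθ x ^ 6 * cΘ x ^ 2 / cΘ x ^ 2 := by gcongr; norm_num
        _ = _ := by field_simp

theorem sumG (hC : 1 ≤ C) (hN : 1 ≤ N) (hE : 1 ≤ En) (hη : 0 < η) : Ev C N En fun c P qq m =>
    Real.sqrt (dl c P qq) * sq P (fun x => cR x ≤ dl c P qq) (fun x => J0 x * m x) ≤ η * qq := by
  refine sumE_gen hC hN hE hη (L := 2 ^ 26) (by norm_num) (fun c P qq x => cR x ≤ dl c P qq) (J := J0)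
    (A := fun x => cα x ^ 2 * cβ x ^ 4)
    (B := fun x => cβ x ^ 2 * (cα x + cθ x) / (cα x ^ 2 * cθ x ^ 2))
    (B' := fun x => cβ x ^ 2 / cΘ x ^ 2) (fun _ _ _ _ => rfl) (fun _ _ _ _ => rfl)
    (fun _ _ _ _ => rfl) (fun x => ?_) (fun x => ?_) (fun x => ?_) (fun x => ?_) (fun x => ?_)
    (fun x => ?_) (fun x => Or.inr ?_) fun _ P _ x hx _ => ?_
  rotate_right
  · have hθ := cθ_pos x
    have hΘ := cΘ_pos x
    have hα := cα_pos x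
    have hβ := cβ_pos x
    have hθ1 := hx.θ1
    have hα1 := hx.α1
    have b1 : cβ x ≤ cΘ x := min_le_left _ _
    have b2 : cβ x ≤ cθ x := min_le_right _ _
    have b3 : cβ x ≤ 1 := b2.trans hθ1
    refine ⟨sumE_p15 (by positivity) hθ hΘ hθ1 ?_, sumE_p4 (by positivity) hθ hθ1 ?_⟩
    · calc _ = (cα x + cθ x) * cβ x ^ 3 * cβ x ^ 2 * cβ x / cθ x ^ 2 := by field_simp
        _ ≤ (1 + 1) * 1 ^ 3 * cθ x ^ 2 * cβ x / cθ x ^ 2 := by gcongr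
        _ = 2 * cβ x := by field_simp; norm_num
        _ ≤ 2 ^ 26 * cβ x := by gcongr; norm_num
    · calc _ = cα x ^ 4 * cβ x ^ 2 * cβ x ^ 6 * cβ x ^ 2 / cΘ x ^ 2 := by field_simp
        _ ≤ 1 ^ 4 * 1 ^ 2 * cθ x ^ 6 * cΘ x ^ 2 / cΘ x ^ 2 := by gcongr
        _ = 1 * cθ x ^ 6 := by field_simp
        _ ≤ _ := by gcongr; norm_num
  all_goals
    have := cQ_pos x
    have := cθ_pos x
    have := cΘ_pos x
    have := cα_pos x
    have := cR_pos x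
    have := cβ_pos x
    try unfold J0
    first
    | positivity
    | field_simp

end Vale.Agent.P107
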