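import Vale.Agent.P107.SumBas

/-! Outside the integration by parts region (notes, Sum H), and the crude total variation (Sum K).

Plan. sumH: show JJ 2 x * m x ≤ C' P^(99/50) for every class, then sq_le_card, √δ ≤ qq/P, ev_La. β ≤ Θ; ener gives JJ 2 m ≤ C En (δ+R)/(R²Θ²); r2hi: 1/R² ≤ 2^8 Q³Θ³/Z. Far (δ < R): ≤ 2C En/(RΘ²) ≤ C' Q^(3/2)Θ^(-1/2) ≤ C' Q² ... use
Z ≥ P^(1/4): ≤ C' P² Z^(-1/2). Near: ≤ C' δ Q³Θ/Z; if δ Q³Θ/Z ≤ P^(99/50) done. Otherwise Θ ≥ P^(397/100) qq^(-3/2) Q^-3 (δ ≤ qq²/P², Z = √qq P^(-1/100)); from Θ ≤ 1: Q³ ≥ P^(247/100); θ ≥ α/3 ≥ Θ^(4/5)/3; hence θ² qq and θ² Q are ≥ P^(3/20)/9 ≥ C for large P,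
Q ≥ qm P, the class is in zone P and pass', ww_le give JJ 2 m ≤ C'(1 + qq²/Q²) Q^(3/2) Θ^(-13/10) Z^(-1/2) ≤ C' P^(243/125).
sumK: zone P: a = C N δ α⁴Q⁴, b = C' ww/(θ Θ²), √(ab) ≤ C' √δ Q² √ww θ^(3/2)/Θ ≤ C' √δ Q³ √ww, so √δ √(JJ m) ≤ C' δ^(3/4) P^(3/2) ≤ C' qq^(3/2). Zone S: geometric mean (2/3,1/3) of a R and 2 C δ En/(R²Θ²) gives δ (Q^(5/3)θ^(4/3))² C', third part of `static`. -/

namespace Vale.Agent.P107

open MeasureTheory Set Filter Topology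
open scoped RealInnerProductSpace ENNReal

variable {C N En η : ℝ}


theorem sumH_low {p r Q Θ : ℝ} (hp : 1 ≤ p) (hr : 0 < r) (hQ : 0 < Q) (hΘ : 0 < Θ)
    (h1 : r ≤ p ^ 100) (h2 : Q ≤ p ^ 100) (H : (p ^ 100) ^ 8 ≤ p ^ 6 * r ^ 3 * Q ^ 6 * Θ ^ 2) :
    p ^ 5 ≤ Θ ^ 8 * r ^ 5 ∧ p ^ 5 ≤ Θ ^ 8 * Q ^ 5 ∧ p ^ 50 ≤ Q ^ 10 * r ^ 5 * Θ ^ 26 := by
  have k1 : p ^ 24 * p ^ 5 ≤ p ^ 100 := by
    rw [← pow_add]
    exact pow_le_pow_right₀ hp (by norm_num)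
  have k2 : p ^ 78 * p ^ 50 ≤ (p ^ 100) ^ 2 := by
    rw [← pow_add, ← pow_mul]
    exact pow_le_pow_right₀ hp (by norm_num)
  have p0 : 0 < p := one_pos.trans_le hp
  have P0 : 0 < p ^ 100 := by positivity
  generalize p ^ 100 = P at *
  refine ⟨le_of_mul_le_mul_left (a := P ^ 31 * p ^ 24) ?_ (by positivity),
    le_of_mul_le_mul_left (a := P ^ 31 * p ^ 24) ?_ (by positivity),
    le_of_mul_le_mul_left (a := P ^ 102 * p ^ 78) ?_ (by positivity)⟩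
  · calc _ = P ^ 31 * (p ^ 24 * p ^ 5) := by ring
      _ ≤ P ^ 31 * P := by gcongr
      _ = (P ^ 8) ^ 4 := by ring
      _ ≤ (p ^ 6 * r ^ 3 * Q ^ 6 * Θ ^ 2) ^ 4 := by gcongr
      _ = r ^ 7 * Q ^ 24 * p ^ 24 * (Θ ^ 8 * r ^ 5) := by ring
      _ ≤ P ^ 7 * P ^ 24 * p ^ 24 * (Θ ^ 8 * r ^ 5) := by gcongr
      _ = _ := by ring
  · calc _ = P ^ 31 * (p ^ 24 * p ^ 5) := by ring
      _ ≤ P ^ 31 * P := by gcongr
      _ = (P ^ 8) ^ 4 := by ring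
      _ ≤ (p ^ 6 * r ^ 3 * Q ^ 6 * Θ ^ 2) ^ 4 := by gcongr
      _ = r ^ 12 * Q ^ 19 * p ^ 24 * (Θ ^ 8 * Q ^ 5) := by ring
      _ ≤ P ^ 12 * P ^ 19 * p ^ 24 * (Θ ^ 8 * Q ^ 5) := by gcongr
      _ = _ := by ring
  · calc _ = P ^ 102 * (p ^ 78 * p ^ 50) := by ring
      _ ≤ P ^ 102 * P ^ 2 := by gcongr
      _ = (P ^ 8) ^ 13 := by ring
      _ ≤ (p ^ 6 * r ^ 3 * Q ^ 6 * Θ ^ 2) ^ 13 := by gcongr
      _ = r ^ 34 * Q ^ 68 * p ^ 78 * (Q ^ 10 * r ^ 5 * Θ ^ 26) := by ring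
      _ ≤ P ^ 34 * P ^ 68 * p ^ 78 * (Q ^ 10 * r ^ 5 * Θ ^ 26) := by gcongr
      _ = _ := by ring

theorem sumH_th {p y α Θ θ : ℝ} (hp : 9 * C ≤ p) (hy : 0 < y) (hα : 0 < α)
    (h3 : Θ ^ 8 ≤ α ^ 10) (h4 : α ≤ 3 * θ) (h : p ^ 5 ≤ Θ ^ 8 * y ^ 5) : C ≤ θ ^ 2 * y := by
  refine le_of_mul_le_mul_left (a := 9) (hp.trans (le_of_pow_le_pow_left₀ (n := 5) (by norm_num)
    (by positivity) (h.trans ?_))) (by norm_num)
  calc _ ≤ (3 * θ) ^ 10 * y ^ 5 := by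
        have := h3.trans (pow_le_pow_left₀ hα.le h4 10)
        gcongr
    _ = _ := by ring

theorem sumH_one {t E δ Q α Θ θ R w r p : ℝ} (hC : 1 ≤ C) (hE : 1 ≤ E) (hδ : 0 < δ)
    (hQ : 0 < Q) (hα : 0 < α) (hΘ : 0 < Θ) (hR : 0 < R) (ht : 0 ≤ t) (hp : 9 * C ≤ p)
    (h1 : t ≤ C * E * (δ + R) / (R ^ 2 * Θ ^ 2))
    (h2 : p ^ 55 ≤ Q → C ≤ θ ^ 2 * r → C ≤ θ ^ 2 * Q → t ≤ 72 * C * w / (R * Θ ^ 2 * α))
    (h3 : δ ≤ r ^ 2 / (p ^ 100) ^ 2) (hw0 : 0 ≤ w) (hw : Q ^ 2 * w ≤ 2 * C * E * (p ^ 100) ^ 2)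
    (hQp : Q ≤ p ^ 100) (hr1 : p ^ 55 ≤ r) (hr2 : r ≤ p ^ 100) (hΘ1 : Θ ≤ 1)
    (hΘQ : 1 / (6 * Q) ≤ Θ) (h4 : Θ ^ 8 ≤ α ^ 10) (h5 : α ≤ 3 * θ)
    (hZ : r / p ^ 2 ≤ 2 ^ 16 * (R ^ 4 * Q ^ 6 * Θ ^ 6)) : t ≤ 2304 * C ^ 2 * E * p ^ 198 := by
  have p1 : 1 ≤ p := by linarith
  have hr : 0 < r := lt_of_lt_of_le (by positivity) hr1
  have z : 0 < r / p ^ 2 := by positivity
  rcases le_total δ R with hd | hd
  · have k : t ≤ C * E * (R + R) / (R ^ 2 * Θ ^ 2) := h1.trans (by gcongr)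
    refine le_of_pow_le_pow_left₀ (n := 4) (by norm_num) (by positivity)
      (le_of_mul_le_mul_right ?_ z)
    calc t ^ 4 * (r / p ^ 2) ≤ (C * E * (R + R) / (R ^ 2 * Θ ^ 2)) ^ 4 *
          (2 ^ 16 * (R ^ 4 * Q ^ 6 * Θ ^ 6)) := by gcongr
      _ = (32 * C * E) ^ 4 * Q ^ 6 / Θ ^ 2 := by field_simp; norm_num
      _ ≤ (32 * C * E) ^ 4 * Q ^ 6 / (1 / (6 * Q)) ^ 2 := by gcongr
      _ = 32 ^ 4 * 36 * C ^ 4 * E ^ 4 * Q ^ 8 * p ^ 0 := by field_simp; norm_num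
      _ ≤ 2304 ^ 4 * C ^ 8 * E ^ 4 * (p ^ 100) ^ 8 * p ^ 45 := by gcongr <;> norm_num
      _ = (2304 * C ^ 2 * E * p ^ 198) ^ 4 * (p ^ 55 / p ^ 2) := by field_simp
      _ ≤ _ := by gcongr
  have k : t ≤ C * E * (δ + δ) / (R ^ 2 * Θ ^ 2) := h1.trans (by gcongr)
  rcases le_total (p ^ 6 * r ^ 3 * Q ^ 6 * Θ ^ 2) ((p ^ 100) ^ 8) with H | H
  · refine le_of_pow_le_pow_left₀ (n := 2) (by norm_num) (by positivity)
      (le_of_mul_le_mul_right ?_ z)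
    calc t ^ 2 * (r / p ^ 2) ≤ (C * E * (δ + δ) / (R ^ 2 * Θ ^ 2)) ^ 2 *
          (2 ^ 16 * (R ^ 4 * Q ^ 6 * Θ ^ 6)) := by gcongr
      _ = (512 * C * E) ^ 2 * δ ^ 2 * Q ^ 6 * Θ ^ 2 := by field_simp; norm_num
      _ ≤ (512 * C * E) ^ 2 * (r ^ 2 / (p ^ 100) ^ 2) ^ 2 * Q ^ 6 * Θ ^ 2 := by gcongr
      _ = 512 ^ 2 * C ^ 2 * E ^ 2 * (p ^ 6 * r ^ 3 * Q ^ 6 * Θ ^ 2) * r / (p ^ 100) ^ 4 / p ^ 6 := by
        field_simp
      _ ≤ 2304 ^ 2 * C ^ 4 * E ^ 2 * (p ^ 100) ^ 8 * r / (p ^ 100) ^ 4 / p ^ 6 := by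
        gcongr <;> norm_num
      _ = _ := by field_simp
  obtain ⟨k1, k2, k3⟩ := sumH_low p1 hr hQ hΘ hr2 hQp H
  have k4 : p ^ 55 ≤ Q := by
    refine le_of_pow_le_pow_left₀ (n := 6) (by norm_num) hQ.le
      (le_of_mul_le_mul_left (a := p ^ 6 * (p ^ 100) ^ 3) ?_ (by positivity))
    calc _ = p ^ 636 := by ring
      _ ≤ p ^ (100 * 8) := pow_le_pow_right₀ p1 (by norm_num)
      _ ≤ p ^ 6 * (p ^ 100) ^ 3 * Q ^ 6 * 1 ^ 2 := (pow_mul p 100 8).trans_le (H.trans (by gcongr))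
      _ = _ := by rw [one_pow, mul_one]
  have k5 := h2 k4 (sumH_th hp hr hα h4 h5 k1) (sumH_th hp hQ hα h4 h5 k2)
  have k6 : p ^ 10 ≤ Q ^ 2 * r * Θ ^ 2 * α ^ 4 := by
    refine le_of_pow_le_pow_left₀ (n := 5) (by norm_num) (by positivity) ?_
    calc _ = p ^ 50 := by ring
      _ ≤ Q ^ 10 * r ^ 5 * Θ ^ 10 * (Θ ^ 8) ^ 2 := k3.trans_eq (by ring)
      _ ≤ Q ^ 10 * r ^ 5 * Θ ^ 10 * (α ^ 10) ^ 2 := by gcongr
      _ = _ := by ring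
  refine le_of_pow_le_pow_left₀ (n := 4) (by norm_num) (by positivity)
    (le_of_mul_le_mul_right ?_ z)
  calc t ^ 4 * (r / p ^ 2) ≤ (72 * C * w / (R * Θ ^ 2 * α)) ^ 4 *
        (2 ^ 16 * (R ^ 4 * Q ^ 6 * Θ ^ 6)) := by gcongr
    _ = (1152 * C) ^ 4 * (Q ^ 2 * w) ^ 4 * r / (Q ^ 2 * r * Θ ^ 2 * α ^ 4) := by
      field_simp; ring
    _ ≤ (1152 * C) ^ 4 * (2 * C * E * (p ^ 100) ^ 2) ^ 4 * r / p ^ 10 := by gcongr
    _ = _ := by field_simp; norm_num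

variable {c P qq : ℝ} {m : Idx → ℝ} {ε : ℤ → ℝ} {x : Idx}

theorem sumH_t (h : Mass C N En c P qq m ε) (x : Idx) : 0 ≤ JJ 2 x * m x := by
  exact mul_nonneg (div_nonneg (mul_nonneg (mul_nonneg (sq_nonneg _) (cQ_pos x).le) (sq_nonneg _))
    (mul_nonneg (sq_nonneg _) (pow_pos (cΘ_pos x) _).le)) (h.nonneg x)

theorem sumH_J (h : Mass C N En c P qq m ε) (x : Idx) {b : ℝ} (hb : m x ≤ b) :
    JJ 2 x * m x ≤ cα x ^ 2 * cQ x * cΘ x ^ 2 / (cR x ^ 2 * cΘ x ^ 6) * b := by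
  have := cQ_pos x
  refine mul_le_mul ?_ hb (h.nonneg x) (by positivity)
  exact div_le_div_of_nonneg_right (mul_le_mul_of_nonneg_left
    (pow_le_pow_left₀ (cβ_pos x).le (min_le_left _ _) 2) (by positivity))
    (mul_nonneg (sq_nonneg _) (pow_pos (cΘ_pos x) _).le)

theorem sumH_en (h : Mass C N En c P qq m ε) (hx : Adm P x) :
    JJ 2 x * m x ≤ C * En * (dl c P qq + cR x) / (cR x ^ 2 * cΘ x ^ 2) := by
  have := cQ_pos x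
  have := cΘ_pos x
  have := cα_pos x
  have := cR_pos x
  exact (sumH_J h x (h.ener x hx)).trans_eq (by field_simp)

theorem sumH_pass (h : Mass C N En c P qq m ε) (hC : 1 ≤ C) (hE : 1 ≤ En) (hc : 0 < c)
    (hP : 1 ≤ P) (hx : Adm P x) (hA : rA x) (hz : zP C c P qq x) :
    JJ 2 x * m x ≤ 72 * C * ww En c P ε x.1.1 / (cR x * cΘ x ^ 2 * cα x) := by
  have := cQ_pos x
  have := cΘ_pos x
  have := cα_pos x
  have := cR_pos x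
  have w0 : 0 ≤ ww En c P ε x.1.1 := by linarith [h.ww_ge hc hP x.1.1]
  refine (sumH_J h x (b := 2 * C * (cΘ x / cα x) ^ 2 * cR x * (cα x + 3 * cα x) / (cα x / 3) ^ 2 *
    ww En c P ε x.1.1 / cQ x) ((h.pass' hC hE hc hP hx hz).trans ?_)).trans_eq ?_
  · gcongr
    · exact hA.2.1
    · linarith [hA.2.2]
  · field_simp
    ring

theorem sumH_w (h : Mass C N En c P qq m ε) (hC : 1 ≤ C) (hE : 1 ≤ En) (hc : 0 < c)
    (hP : 1 ≤ P) (hq : 0 < qq) (h2 : qq ≤ P) (hx : Adm P x) :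
    cQ x ^ 2 * ww En c P ε x.1.1 ≤ 2 * C * En * P ^ 2 := by
  have := cQ_pos x
  have := hx.QP
  calc _ ≤ cQ x ^ 2 * (En * (1 + C * qq ^ 2 / cQ x ^ 2)) :=
        mul_le_mul_of_nonneg_left (h.ww_le hC hE hc hP hq (hx.mem_Icc hP)) (sq_nonneg _)
    _ = En * (1 * cQ x ^ 2 + C * qq ^ 2) := by field_simp
    _ ≤ En * (C * P ^ 2 + C * P ^ 2) := by gcongr
    _ = _ := by ring

theorem sumH (hC : 1 ≤ C) (hN : 1 ≤ N) (hE : 1 ≤ En) (hη : 0 < η) : Ev C N En fun c P qq m =>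
    Real.sqrt (dl c P qq) * sq P (fun x => r1lo x ∧ r2hi (zc P qq) x) (fun x => JJ 2 x * m x)
      ≤ η * qq := by
  filter_upwards [Ioc_mem_nhdsGT (one_pos : (0 : ℝ) < 1)] with c hc
  filter_upwards [eventually_ge_atTop 1, ev_La (9 * C) 0 (show (0 : ℝ) < 1 / 100 by norm_num),
    ev_La (56 * (2304 * C ^ 2 * En) / η) 4 (show (0 : ℝ) < 1 / 100 by norm_num)]
    with P hP hp hL qq h1 h2 m ε h
  have P0 : 0 < P := one_pos.trans_le hP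
  have hq : 0 < qq := one_pos.trans_le ((one_le_qm hP).trans h1)
  have ep : ∀ n : ℕ, (P ^ (1 / 100 : ℝ)) ^ n = P ^ (n / 100 : ℝ) := fun n => by
    rw [← Real.rpow_natCast, ← Real.rpow_mul P0.le]; congr 1; ring
  have e1 : (P ^ (1 / 100 : ℝ)) ^ 100 = P := by rw [ep]; norm_num
  have e2 : (P ^ (1 / 100 : ℝ)) ^ 55 = qm P := by rw [ep, qm]; norm_num
  have e3 : zc P qq ^ 2 = qq / (P ^ (1 / 100 : ℝ)) ^ 2 := by
    rw [zc, mul_pow, Real.sq_sqrt hq.le, neg_div, Real.rpow_neg P0.le, inv_pow, div_eq_mul_inv qq]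
  rw [pow_zero, mul_one] at hp
  generalize P ^ (1 / 100 : ℝ) = p at hL hp e1 e2 e3
  have p0 : 0 < p := by linarith
  have K1 : 1 ≤ 2304 * C ^ 2 * En :=
    one_le_mul_of_one_le_of_one_le (by nlinarith) hE
  have hd : Real.sqrt (dl c P qq) ≤ qq / P :=
    Real.sqrt_le_iff.2 ⟨by positivity, (dl_le hc.2 hP).trans_eq (div_pow _ _ _).symm⟩
  refine (mul_le_mul_of_nonneg_left (sq_le_card (B := (2304 * C ^ 2 * En * p ^ 99) ^ 2) hP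
    (by positivity) _ fun x hx hS => ?_) (Real.sqrt_nonneg _)).trans ?_
  · refine (sumH_one hC hE (dl_pos hc.1 hP hq) (cQ_pos x) (cα_pos x) (cΘ_pos x) (cR_pos x)
      (sumH_t h x) hp (sumH_en h hx) (fun a1 a2 a3 => sumH_pass h hC hE hc.1 hP hx hS.1.1
      (.inr ⟨e2 ▸ a1, a2, a3⟩)) (by rw [e1]; exact dl_le hc.2 hP)
      (by linarith [h.ww_ge hc.1 hP x.1.1]) (by rw [e1]; exact sumH_w h hC hE hc.1 hP hq h2 hx)
      (e1 ▸ hx.QP) (e2 ▸ h1) (e1 ▸ h2) hx.Θ1 hx.ΘQ hS.1.2 hS.1.1.2.2 (e3 ▸ hS.2)).trans ?_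
    rw [mul_pow _ (p ^ 99), ← pow_mul]
    exact mul_le_mul_of_nonneg_right (le_self_pow₀ K1 two_ne_zero) (by positivity)
  · rw [Real.sqrt_sq (by positivity)]
    calc _ ≤ qq / P * (56 * La P ^ 4 * (2304 * C ^ 2 * En * p ^ 99)) := by gcongr
      _ = 56 * (2304 * C ^ 2 * En) / η * La P ^ 4 / p * (η * qq) := by
        generalize La P = l
        rw [← e1]
        field_simp
      _ ≤ _ := mul_le_of_le_one_left (by positivity) ((div_le_one p0).2 hL)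

theorem sumK (hC : 1 ≤ C) (hN : 1 ≤ N) (hE : 1 ≤ En) : Ev C N En fun c P qq m =>
    Real.sqrt (dl c P qq) * sq P r1lo (fun x => JJ 2 x * m x)
      ≤ qq ^ (3 / 2 : ℝ) * P ^ (1 / 400 : ℝ) := by
  filter_upwards [Ioc_mem_nhdsGT (one_pos : (0 : ℝ) < 1)] with c hc
  filter_upwards [eventually_ge_atTop 1,
    ev_La (56 * (78 * C ^ 3 * N * En)) 4 (show (0 : ℝ) < 1 / 400 by norm_num)]
    with P hP hL qq h1 h2 m ε h
  have P0 : 0 < P := one_pos.trans_le hP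
  have hq : 0 < qq := one_pos.trans_le ((one_le_qm hP).trans h1)
  have hδ := dl_pos hc.1 hP hq
  have e1 : (qq ^ (3 / 2 : ℝ)) ^ 2 = qq ^ 3 := by
    rw [← Real.rpow_natCast, ← Real.rpow_mul hq.le, ← Real.rpow_natCast]; norm_num
  have K1 : 1 ≤ 78 * C ^ 3 * N * En := one_le_mul_of_one_le_of_one_le
    (one_le_mul_of_one_le_of_one_le (by linarith [one_le_pow₀ (n := 3) hC]) hN) hE
  refine (mul_le_mul_of_nonneg_left (sq_le_card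
    (B := (78 * C ^ 3 * N * En * qq ^ (3 / 2 : ℝ)) ^ 2 / dl c P qq) hP
    (by positivity) _ fun x hx hS => ?_) (Real.sqrt_nonneg _)).trans ?_
  · have := cQ_pos x
    have := cθ_pos x
    have := cΘ_pos x
    have := cα_pos x
    have := cR_pos x
    have ht := sumH_t h x
    have a1 := hx.ΘQ
    have k1 : JJ 2 x * m x ≤ C * N * dl c P qq * cR x * cα x ^ 4 * cQ x ^ 4 :=
      (sumH_J h x ((h.vol x hx).trans (mul_le_mul_of_nonneg_left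
        (pow_le_pow_left₀ (cβ_pos x).le (min_le_left _ _) 2) (by positivity)))).trans_eq
        (by field_simp)
    rw [le_div_iff₀ hδ, mul_pow _ (qq ^ _), e1]
    refine le_trans ?_ (mul_le_mul_of_nonneg_right (le_self_pow₀ K1 two_ne_zero) (by positivity))
    by_cases hz : zP C c P qq x
    · have w0 : 0 ≤ ww En c P ε x.1.1 := by linarith [h.ww_ge hc.1 hP x.1.1]
      have k2 := sumH_pass h hC hE hc.1 hP hx hS.1 hz
      have k3 := sumH_w h hC hE hc.1 hP hq h2 hx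
      have k4 := dl_le (qq := qq) hc.2 hP
      have a2 := hx.α1
      have a3 := hx.QP
      generalize JJ 2 x * m x = t at *
      generalize ww En c P ε x.1.1 = w at *
      generalize dl c P qq = δ at *
      refine le_of_pow_le_pow_left₀ (n := 2) (by norm_num) (by positivity) ?_
      calc (t * δ) ^ 2 = t * t * δ ^ 2 := by ring
        _ ≤ C * N * δ * cR x * cα x ^ 4 * cQ x ^ 4 * (72 * C * w / (cR x * cΘ x ^ 2 * cα x)) *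
            δ ^ 2 := by gcongr
        _ = 72 * C ^ 2 * N * δ ^ 3 * cα x ^ 3 * cQ x ^ 4 * w / cΘ x ^ 2 := by field_simp
        _ ≤ 72 * C ^ 2 * N * δ ^ 3 * 1 ^ 3 * cQ x ^ 4 * w / (1 / (6 * cQ x)) ^ 2 := by gcongr
        _ = 2592 * C ^ 2 * N * δ ^ 3 * cQ x ^ 4 * (cQ x ^ 2 * w) := by field_simp; ring
        _ ≤ 2592 * C ^ 2 * N * (qq ^ 2 / P ^ 2) ^ 3 * P ^ 4 * (2 * C * En * P ^ 2) := by gcongr
        _ = 72 ^ 2 * C ^ 3 * N ^ 1 * En ^ 1 * qq ^ 6 := by field_simp; norm_num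
        _ ≤ 78 ^ 2 * C ^ 6 * N ^ 2 * En ^ 2 * qq ^ 6 := by gcongr <;> norm_num
        _ = _ := by ring
    · have hR : cR x ≤ dl c P qq := not_lt.1 fun hh => hz (.inl hh)
      have k2 : JJ 2 x * m x ≤ C * En * (dl c P qq + dl c P qq) / (cR x ^ 2 * cΘ x ^ 2) :=
        (sumH_en h hx).trans (by gcongr)
      have k3 := pow_le_pow_left₀ (by positivity) (static hC hc.1 hc.2 hP h1 h2 hx hz).2.2 6
      have e2 : (cQ x ^ (5 / 3 : ℝ)) ^ 6 = cQ x ^ 10 := by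
        rw [← Real.rpow_natCast, ← Real.rpow_mul (cQ_pos x).le, ← Real.rpow_natCast]; norm_num
      have e3 : (cθ x ^ (4 / 3 : ℝ)) ^ 6 = cθ x ^ 8 := by
        rw [← Real.rpow_natCast, ← Real.rpow_mul (cθ_pos x).le, ← Real.rpow_natCast]; norm_num
      rw [mul_pow, mul_pow, mul_pow, e2, e3, pow_mul (qq ^ _) 2 3, e1] at k3
      have a2 := hS.1.2.2
      generalize JJ 2 x * m x = t at *
      generalize dl c P qq = δ at *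
      refine le_of_pow_le_pow_left₀ (n := 3) (by norm_num) (by positivity) ?_
      calc (t * δ) ^ 3 = t ^ 2 * t * δ ^ 3 := by ring
        _ ≤ (C * N * δ * cR x * cα x ^ 4 * cQ x ^ 4) ^ 2 *
            (C * En * (δ + δ) / (cR x ^ 2 * cΘ x ^ 2)) * δ ^ 3 := by gcongr
        _ = 2 * C ^ 3 * N ^ 2 * En * δ ^ 6 * cα x ^ 8 * cQ x ^ 8 / cΘ x ^ 2 := by
          field_simp; norm_num
        _ ≤ 2 * C ^ 3 * N ^ 2 * En * δ ^ 6 * (3 * cθ x) ^ 8 * cQ x ^ 8 / (1 / (6 * cQ x)) ^ 2 := by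
          gcongr
        _ = 472392 * C ^ 3 * N ^ 2 * En ^ 1 * (δ ^ 6 * (cQ x ^ 10 * cθ x ^ 8)) := by
          field_simp; norm_num
        _ ≤ 78 ^ 3 * C ^ 3 * N ^ 3 * En ^ 3 * (C ^ 6 * (qq ^ 3) ^ 3) := by gcongr <;> norm_num
        _ = _ := by ring
  · rw [mul_left_comm, ← Real.sqrt_mul hδ.le, mul_div_cancel₀ _ hδ.ne',
      Real.sqrt_sq (by positivity)]
    exact (show _ = qq ^ (3 / 2 : ℝ) * (56 * (78 * C ^ 3 * N * En) * La P ^ 4) by ring).trans_le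
      (mul_le_mul_of_nonneg_left hL (by positivity))

end Vale.Agent.P107
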