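import Vale.Agent.P107.DM6a
import Vale.Agent.P107.SumA
import Vale.Agent.P107.SumB
import Vale.Agent.P107.SumC
import Vale.Agent.P107.SumE
import Vale.Agent.P107.SumH

/-! Assembly: the integrals of `wk`, `vk`, `mk` on one window.

Plan. Split at ‖D‖ ≤ 2 r0 (small_r) and 2 r0 < ‖D‖. On the second part split the integrand into measurable pieces (lintegral_add_left) or bound it pointwise by a sum of pieces:
kT = kT 1[ang D v ≤ ang D V/4] + kT 1[else] (class_rA: ≤ 4 α/(Q²Θ^5R²); else cα ≤ 8 cΘ and kT ≤ 5/(Q²Θ⁴R²)); kS 1 gfl (cs_flux, sumE); kS 0 ‖F‖ (cs_full, sumG, sumG_far);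
on setG (with 2 r0 < ‖D‖): 1 ≤ x1 (class_r1hi, sumF), or x1 < 1 ≤ x2 (class_r1lo, class_r2hi, sumH), or q v ≤ 2 P1 (sumI); setB term (class_r1lo, sumA_T'); setTr: 1 ≤ x1 (sumA_tr) or 1 ≤ x2 (sumC), kernel ≤ 2α/(Θ³R²).
For vk: kS 2 gfl on 1 ≤ x1 (sumF) or x1 < 1 (sumK). Use lintegral_le_sm with g = kernel times an indicator, mass_block for Mass (10^8), and filter_upwards on the Ev statements with η small; C N En ≤ η qq for large P since qq ≥ P^(11/20). -/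

namespace Vale.Agent.P107

open MeasureTheory Set Filter Topology
open scoped RealInnerProductSpace ENNReal

variable {f0 : Z → ℝ} {N P0 K0 En T c P T' qq a b : ℝ} {dat A : Fld} {Φ Ψ : ℝ → Z → Z} {z0 : Z}


theorem win_bounds (N En P1 η : ℝ) (hη : 0 < η) : ∀ᶠ c in 𝓝[>] (0 : ℝ), ∀ᶠ P in atTop,
    ∀ (f0 : Z → ℝ) (P0 K0 T T' qq a b : ℝ) (dat A : Fld) (Φ Ψ : ℝ → Z → Z) (z0 : Z),
      Win f0 N P0 K0 En T dat A Φ Ψ c P T' qq z0 a b →
      ∫⁻ ω, ENNReal.ofReal (wk P1 (zc P qq) (r0 P) ω.2.1 ω.2.2 (Φ ω.1 z0).2 (fld A Φ z0 ω))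
          ∂mu f0 Φ Ψ z0 a b ≤ ENNReal.ofReal (η * qq) ∧
      ∫⁻ ω, ENNReal.ofReal (vk ω.2.1 ω.2.2 (Φ ω.1 z0).2 (fld A Φ z0 ω)) ∂mu f0 Φ Ψ z0 a b
          ≤ ENNReal.ofReal (qq ^ (3 / 2 : ℝ) * P ^ (1 / 300 : ℝ)) ∧
      ∀ s ∈ Icc a b, ∫⁻ w : Z, ENNReal.ofReal (rho f0 Φ Ψ z0 (s, w)) *
          ENNReal.ofReal (mk (zc P qq) w.1 w.2 (Φ s z0).2)
        ≤ ENNReal.ofReal (zc P qq * P ^ (1 / 300 : ℝ)) := by
  classical
  by_cases hNE : 1 ≤ N ∧ 1 ≤ En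
  swap
  · exact Eventually.of_forall fun c => Eventually.of_forall
      fun P f0 P0 K0 T T' qq a b dat A Φ Ψ z0 hW =>
        absurd ⟨hW.sol.init.one_le_N, hW.sol.one_le_En⟩ hNE
  obtain ⟨hN, hE⟩ := hNE
  obtain ⟨C1, hC1, F1⟩ := dm6_flux
  obtain ⟨C2, hC2, F2⟩ := cs_full
  obtain ⟨C3, hC3, F3⟩ := small_r
  obtain ⟨K, hK⟩ : ∃ K, K = 15 + 4 * (C1 * N * En) + 2 * (C2 * N * En) + C3 * N * En := ⟨_, rfl⟩
  have k1 : 1 ≤ C1 * N * En := one_le_mul_of_one_le_of_one_le (one_le_mul_of_one_le_of_one_le hC1 hN) hE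
  have k2 : 0 ≤ C2 * N * En := by positivity
  have k3 : C3 * N ≤ C3 * N * En := le_mul_of_one_le_right (by positivity) hE
  have k4 : 0 ≤ C3 * N := by positivity
  have hK0 : 0 < K := by linarith
  obtain ⟨e, he0, he1, he2⟩ : ∃ e, 0 < e ∧ e ≤ 1 ∧ K * e ≤ η :=
    ⟨min 1 (η / K), by positivity, min_le_left _ _, by
      rw [← le_div_iff₀' hK0]; exact min_le_right _ _⟩
  have hC : (1 : ℝ) ≤ 10 ^ 8 := by norm_num
  filter_upwards [sumA_T hC hN hE he0, sumB hC hN hE he0, sumE hC hN hE he0, sumG hC hN hE he0,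
    sumG_far hC hN hE he0, sumF hC hN hE he0, sumH hC hN hE he0, sumI hC hN hE he0 P1,
    sumA_T' hC hN hE he0, sumA_tr hC hN hE he0, sumC hC hN hE he0, sumK hC hN hE]
    with c s1 s2 s3 s4 s5 s6 s7 s8 s9 s10 s11 s12
  filter_upwards [s1, s2, s3, s4, s5, s6, s7, s8, s9, s10, s11, s12, sumL hC hN, dm6_ev K,
    (tendsto_rpow_atTop (by norm_num : (0 : ℝ) < 11 / 20)).eventually_ge_atTop (1 / e)]
    with P s1 s2 s3 s4 s5 s6 s7 s8 s9 s10 s11 s12 sL hev hq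
  intro f0 P0 K0 T T' qq a b dat A Φ Ψ z0 hW
  have hM := mass_block hW
  have hP1 : 1 ≤ P := by linarith [hW.P_ge]
  have hq1 : 1 ≤ e * qq := by
    have := hq.trans hW.q_lo
    rwa [div_le_iff₀' he0] at this
  have hq2 : 1 ≤ qq := (Real.one_le_rpow hP1 (by norm_num)).trans hW.q_lo
  have hB : 0 ≤ e * qq := by linarith
  have hZ1 : 1 ≤ zc P qq := by
    have h1 : P ^ (1 / 100 : ℝ) ≤ Real.sqrt qq := by
      refine Real.le_sqrt_of_sq_le (le_trans ?_ hW.q_lo)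
      rw [← Real.rpow_natCast, ← Real.rpow_mul (by linarith)]
      exact Real.rpow_le_rpow_of_exponent_le hP1 (by norm_num)
    rw [zc, neg_div, Real.rpow_neg (by linarith), ← div_eq_mul_inv, one_le_div (by positivity)]
    exact h1
  have hZ : 0 < zc P qq := by linarith
  have mV := dm6_V hW
  have mA := measurableSet_le (dm0_ang dm6_D dm6_v) ((dm0_ang dm6_D mV).div_const 4)
  have m1 := measurableSet_le measurable_const (dm0_x1 dm6_D dm6_v mV) (f := fun _ => 1)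
  have m2 := measurableSet_le (dm0_x1 dm6_D dm6_v mV) measurable_const (g := fun _ => 2)
  have m3 := measurableSet_le measurable_const (dm0_x2 (zc P qq) dm6_D dm6_v) (f := fun _ => 1)
  have m4 := measurableSet_le (dm0_q dm6_v) measurable_const (g := fun _ => 2 * P1)
  have pQ := dm3_Q; have pΘ := dm3_Θ; have pα := dm3_α; have pR := dm3_R
  have mk4 : Measurable fun ω : Om =>
      ang ω.2.1 (Φ ω.1 z0).2 / (ang ω.2.1 ω.2.2 ^ 3 * ‖ω.2.1‖ ^ 2) :=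
    (dm0_ang dm6_D mV).div (((dm0_ang dm6_D dm6_v).pow_const 3).mul (dm6_D.norm.pow_const 2))
  have b1 := dm6_ind hW (p := fun D v V => ang D v ≤ ang D V / 4) (k := kT) mA
    (dm0_kT dm6_D dm6_v mV) (by norm_num) (fun x => by have := pα x; have := pΘ x; positivity)
    (fun x D v V => dm6_k1) hB (s1 qq hW.q_lo hW.q_hi _ _ hM)
  have b2 := dm6_ind hW (p := fun D v V => ¬ ang D v ≤ ang D V / 4) (k := kT) mA.compl
    (dm0_kT dm6_D dm6_v mV) (by norm_num) (fun x => by positivity)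
    (fun x D v V => dm6_k2) hB (s2 qq hW.q_lo hW.q_hi _ _ hM)
  have b3 := F1 _ _ _ _ _ _ _ _ _ _ _ _ _ _ _ _ _ hW 1 (fun _ _ _ => True) _ _ MeasurableSet.univ
    (fun _ _ _ _ _ _ => trivial) hB (s3 qq hW.q_lo hW.q_hi _ _ hM)
  have b4 : dm6B f0 Φ Ψ z0 a b P (fun ω => kS 0 ω.2.1 ω.2.2 (Φ ω.1 z0).2 * ‖fld A Φ z0 ω‖)
      (C2 * N * En * (e * qq + e * qq)) := by
    obtain ⟨R, hA⟩ := hW.sol.app
    exact ⟨(dm0_kS 0 dm6_D dm6_v mV).mul (measurable_fld hA hW.sol.flow).norm, by positivity,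
      (F2 _ _ _ _ _ _ _ _ _ _ _ _ _ _ _ _ _ hW).trans (ENNReal.ofReal_le_ofReal
        (mul_le_mul_of_nonneg_left (add_le_add (s4 qq hW.q_lo hW.q_hi _ _ hM)
          (s5 qq hW.q_lo hW.q_hi _ _ hM)) k2))⟩
  have b5 := F1 _ _ _ _ _ _ _ _ _ _ _ _ _ _ _ _ _ hW 2 (fun D v V => 1 ≤ x1 D v V) _ _ m1
    (fun _ _ _ _ => class_r1hi) hB (s6 qq hW.q_lo hW.q_hi _ _ hM)
  have b6 := F1 _ _ _ _ _ _ _ _ _ _ _ _ _ _ _ _ _ hW 2
    (fun D v V => x1 D v V ≤ 2 ∧ 1 ≤ x2 (zc P qq) D v) _ _ (m2.inter m3)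
    (fun _ _ _ _ h h' => ⟨class_r1lo (dm6_ne h) h h'.1, class_r2hi hZ h h'.2⟩) hB
    (s7 qq hW.q_lo hW.q_hi _ _ hM)
  have b7 := F1 _ _ _ _ _ _ _ _ _ _ _ _ _ _ _ _ _ hW 2 (fun _ v _ => q v ≤ 2 * P1) _ _ m4
    (fun _ _ _ _ h h' => h.1.1.trans h') hB (s8 qq hW.q_lo hW.q_hi _ _ hM)
  have b8 := dm6_ind hW (p := fun D v V => x1 D v V ≤ 2)
    (k := fun D v _ => 1 / (ang D v ^ 2 * ‖D‖ ^ 2)) m2
    (measurable_const.div (((dm0_ang dm6_D dm6_v).pow_const 2).mul (dm6_D.norm.pow_const 2)))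
    zero_le_one (fun x => by positivity)
    (fun x D v V h h' => ⟨class_r1lo (dm6_ne h) h h', dm6_k3 h⟩) hB (s9 qq hW.q_lo hW.q_hi _ _ hM)
  have b9 := dm6_ind hW (p := fun D v V => x1 D v V ≤ 2 ∧ 1 ≤ x1 D v V)
    (k := fun D v V => ang D V / (ang D v ^ 3 * ‖D‖ ^ 2)) (m2.inter m1) mk4
    zero_le_two (fun x => by have := pα x; have := pΘ x; positivity)
    (fun x D v V h h' => ⟨⟨class_r1lo (dm6_ne h) h h'.1, class_r1hi h h'.2⟩, dm6_k4 h⟩) hB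
    (s10 qq hW.q_lo hW.q_hi _ _ hM)
  have b10 := dm6_ind hW (p := fun D v V => x1 D v V ≤ 2 ∧ 1 ≤ x2 (zc P qq) D v)
    (k := fun D v V => ang D V / (ang D v ^ 3 * ‖D‖ ^ 2)) (m2.inter m3) mk4
    zero_le_two (fun x => by have := pα x; have := pΘ x; positivity)
    (fun x D v V h h' => ⟨⟨class_r1lo (dm6_ne h) h h'.1, class_r2hi hZ h h'.2⟩, dm6_k4 h⟩) hB
    (s11 qq hW.q_lo hW.q_hi _ _ hM)
  have b11 := F1 _ _ _ _ _ _ _ _ _ _ _ _ _ _ _ _ _ hW 2 (fun D v V => x1 D v V ≤ 2) _ _ m2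
    (fun _ _ _ _ h => class_r1lo (dm6_ne h) h) (by positivity) (s12 qq hW.q_lo hW.q_hi _ _ hM)
  have b0 := (((b1.add b2).add b3).add b4).add b5
  obtain ⟨r1, r2, r3⟩ := F3 _ _ _ _ _ _ _ _ _ _ _ _ _ _ _ _ _ P1 (zc P qq) (r0 P) hW
  have k5 := mul_le_mul_of_nonneg_left hq1 (k4.trans k3)
  have k6 : C3 * N * En + (4 * (e * qq) + 5 * (e * qq) + C1 * N * En * (e * qq) +
      C2 * N * En * (e * qq + e * qq) + C1 * N * En * (e * qq) + C1 * N * En * (e * qq) +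
      C1 * N * En * (e * qq) + 1 * (e * qq) + 2 * (e * qq) + 2 * (e * qq)) ≤ K * (e * qq) := by
    rw [hK]
    linarith
  have hp4 : 0 ≤ P ^ (1 / 400 : ℝ) := by positivity
  refine ⟨(((((b0.add b6).add b7).add b8).add b9).add b10).fin (fun ω hω => ?_) (k4.trans k3) r1
    (k6.trans ?_), (b0.add b11).fin (fun ω _ => ?_) (k4.trans k3) r2 ?_, fun s hs => ?_⟩
  · refine (dm6_wk P1 _ _ _ _ _ hω).trans (le_of_eq ?_)
    simp only [vk, if_true]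
    split_ifs <;> ring
  · rw [← mul_assoc]
    exact mul_le_mul_of_nonneg_right he2 (by linarith)
  · have := dm6_kS 2 ω.2.1 ω.2.2 (Φ ω.1 z0).2 (fld A Φ z0 ω)
    simp only [vk, if_true]
    split_ifs <;> linarith
  · have h1 : e * qq ≤ qq ^ (3 / 2 : ℝ) := (mul_le_of_le_one_left (by linarith) he1).trans
      (by simpa using Real.rpow_le_rpow_of_exponent_le hq2 (by norm_num : (1 : ℝ) ≤ 3 / 2))
    have h2 := mul_le_mul_of_nonneg_left h1 hK0.le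
    have h3 := mul_le_mul_of_nonneg_left hev (hB.trans h1)
    have h4 : C1 * N * En * (qq ^ (3 / 2 : ℝ) * P ^ (1 / 400 : ℝ)) ≤
        K * (qq ^ (3 / 2 : ℝ) * P ^ (1 / 400 : ℝ)) :=
      mul_le_mul_of_nonneg_right (by linarith) (by positivity)
    have h5 := mul_nonneg (zero_le_one.trans k1) hB
    linarith
  · obtain ⟨m, m0, mb, hm⟩ := mk_large hW hZ hs
    have hs' : MeasurableSet {w : Z | ‖w.1‖ ≤ 2 * r0 P} :=
      measurableSet_le (by fun_prop) measurable_const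
    have e' : {w : Z | ‖w.1‖ ≤ 2 * r0 P}ᶜ = {w : Z | 2 * r0 P < ‖w.1‖} := by
      ext w
      simp
    rw [← lintegral_add_compl _ hs', e']
    refine (add_le_add (r3 s hs) (hm.trans (ENNReal.ofReal_le_ofReal (sL _ hZ m m0 mb)))).trans ?_
    rw [← ENNReal.ofReal_add k4 (by positivity)]
    refine ENNReal.ofReal_le_ofReal ?_
    have h1 := mul_le_mul_of_nonneg_left hev hZ.le
    have h2 : C3 * N ≤ zc P qq * K := (by linarith : C3 * N ≤ K).trans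
      (le_mul_of_one_le_left hK0.le hZ1)
    have h3 : zc P qq * P ^ (1 / 400 : ℝ) ≤ K * (zc P qq * P ^ (1 / 400 : ℝ)) :=
      le_mul_of_one_le_left (by positivity) (by linarith)
    linarith

end Vale.Agent.P107
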