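import Vale.Agent.P107.DPass1
import Vale.Agent.P107.DM3

/-! The mass bound P and the full `Mass` structure.

Plan. δ = dl c P qq, source window I = Icc (max 0 (a - 2δ)) b, length ℓ ≤ 3δ, Q = cQ x, δQ = dl c P Q. On the class with cR ≤ δ the retarded time s - ‖D‖ lies in I.
Cut I into n = max 1 ⌈ℓ/δQ⌉₊ closed pieces I_j of equal length ≤ δQ (and ≥ δQ/2 when n ≥ 2). lintegral_mu_lag. For each z with f0 z ≠ 0 and each j let U_j(z) be the set of s in the class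
with rt ∈ I_j. vol U_j(z) ≤ (4 cΘ²/cα²) ∫_{U_j} kap D V / kap D w = (4 cΘ²/cα²) vol (rt '' U_j) (rt_hasDerivAt, rt_strictMono, lintegral_image_eq_lintegral_abs_deriv_mul) ≤ pass_one bound.
If U_j(z) is nonempty, boot_lower puts z into Z_j = {z | ∀ σ ∈ I_j, Q/2 ≤ q ≤ 4Q} (closed), and boot gives the Var hypothesis of pass_one. For every σ ∈ I_j the f0-mass of Z_j is ≤ (2/Q) e(σ),
e(σ) the inner integral of ceps; one piece: e ≤ En (sliceP); several pieces: average over σ ∈ I_j and add (overlaps are null): Σ_j mass ≤ (2/Q)(2/δQ) ceps.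
eps_sum: every energy value lies in at most 4 of the intervals [2^i/2, 4·2^i]; sliceP. -/

namespace Vale.Agent.P107

open MeasureTheory Set Filter Topology
open scoped RealInnerProductSpace ENNReal

variable {f0 : Z → ℝ} {N P0 K0 En T c P T' qq a b : ℝ} {dat A : Fld} {Φ Ψ : ℝ → Z → Z} {z0 : Z}


theorem dp2_dl (hc : 0 < c) (hP : 2 ≤ P) {t : ℝ} (ht : 0 < t) : 0 < dl c P t := by
  have : 0 ≤ Real.logb 2 P := Real.logb_nonneg one_lt_two (by linarith)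
  unfold dl La
  positivity

theorem dp2_qq (hW : Win f0 N P0 K0 En T dat A Φ Ψ c P T' qq z0 a b) : 0 < qq :=
  (Real.rpow_pos_of_pos (by linarith [hW.P_ge]) _).trans_le hW.q_lo

noncomputable def dp2_e (f0 : Z → ℝ) (Φ : ℝ → Z → Z) (Q σ : ℝ) : ℝ≥0∞ :=
  ∫⁻ z in {z : Z | Q / 2 ≤ q (Φ σ z).2 ∧ q (Φ σ z).2 ≤ 4 * Q}, ENNReal.ofReal (q (Φ σ z).2 * f0 z)

theorem dp2_sl (hW : Win f0 N P0 K0 En T dat A Φ Ψ c P T' qq z0 a b) {σ : ℝ}
    (hσ : σ ∈ Icc (max 0 (a - 2 * dl c P qq)) b) :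
    ∫⁻ z, ENNReal.ofReal (q (Φ σ z).2 * f0 z) ≤ ENNReal.ofReal En :=
  hW.sol.ener.sliceP σ ⟨(le_max_left _ _).trans hσ.1, hσ.2.trans (hW.b_le.trans hW.T'_le)⟩

theorem dp2_int (hW : Win f0 N P0 K0 En T dat A Φ Ψ c P T' qq z0 a b) {e : ℝ → ℝ≥0∞} {C : ℝ}
    (hC : 0 ≤ C) (h : ∀ σ ∈ Icc (max 0 (a - 2 * dl c P qq)) b, e σ ≤ ENNReal.ofReal C) :
    ∫⁻ σ in Icc (max 0 (a - 2 * dl c P qq)) b, e σ ≤ ENNReal.ofReal (C * (3 * dl c P qq)) := by
  refine (setLIntegral_mono' measurableSet_Icc h).trans ?_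
  rw [setLIntegral_const, Real.volume_Icc, ENNReal.ofReal_mul hC]
  gcongr
  linarith [le_max_right 0 (a - 2 * dl c P qq), hW.len]

theorem dp2_ceps (hW : Win f0 N P0 K0 En T dat A Φ Ψ c P T' qq z0 a b) (Q : ℝ) :
    ∫⁻ σ in Icc (max 0 (a - 2 * dl c P qq)) b, dp2_e f0 Φ Q σ ≠ ⊤ :=
  ne_top_of_le_ne_top ENNReal.ofReal_ne_top (dp2_int hW (by linarith [hW.sol.one_le_En])
    fun _ hσ => (setLIntegral_le_lintegral _ _).trans (dp2_sl hW hσ))

theorem dp2_sum {α ι : Type} [MeasurableSpace α] (μ : Measure α) (s : Finset ι)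
    (f : ι → α → ℝ≥0∞) : ∑ i ∈ s, ∫⁻ y, f i y ∂μ ≤ ∫⁻ y, ∑ i ∈ s, f i y ∂μ := by
  classical
  induction s using Finset.induction_on with
  | empty => simp
  | insert i s hi ih =>
    simp only [Finset.sum_insert hi]
    exact (add_le_add le_rfl ih).trans (le_lintegral_add _ _)

theorem dp2_avg {m : ℕ → ℝ≥0∞} {e : ℝ → ℝ≥0∞} {L h : ℝ} (hh : 0 ≤ h) (n : ℕ)
    (H : ∀ j < n, ∀ σ ∈ Ico (L + j * h) (L + (j + 1) * h), m j ≤ e σ) :
    (∑ j ∈ Finset.range n, m j) * ENNReal.ofReal h ≤ ∫⁻ σ in Ico L (L + n * h), e σ := by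
  induction n with
  | zero => simp
  | succ n ih =>
    have h0 : 0 ≤ n * h := by positivity
    have h1 := setLIntegral_mono' (μ := volume) measurableSet_Ico (H n n.lt_succ_self)
    rw [setLIntegral_const, Real.volume_Ico,
      show L + (n + 1) * h - (L + n * h) = h by ring] at h1
    rw [Finset.sum_range_succ, add_mul, Nat.cast_succ,
      ← Ico_union_Ico_eq_Ico (b := L + n * h) (by linarith) (by linarith),
      lintegral_union measurableSet_Ico Ico_disjoint_Ico_same]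
    exact add_le_add (ih fun j hj => H j (by omega)) h1

theorem dp2_vol (hF : IsFlow A Φ Ψ) {x : Idx} {z : Z} {U : Set ℝ} (hU : MeasurableSet U)
    (h : ∀ s ∈ U, inC x (cm Φ s (Φ s z0).1 z).1 (cm Φ s (Φ s z0).1 z).2 (Φ s z0).2) :
    volume U ≤ ENNReal.ofReal (4 * (cΘ x / cα x) ^ 2) *
      volume ((fun s => rt Φ s (Φ s z0).1 z) '' U) := by
  have hR : 0 < cR x := zpow_pos two_pos _
  have hα : 0 < cα x := zpow_pos two_pos _
  have hne : ∀ s ∈ U, (cm Φ s (Φ s z0).1 z).1 ≠ 0 := fun s hs =>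
    norm_pos_iff.1 (hR.trans_le (h s hs).2.2.2.2.1)
  rw [← setLIntegral_one, ← setLIntegral_one, lintegral_image_eq_lintegral_abs_deriv_mul hU
    (fun s hs => (rt_hasDerivAt hF z0 z (hne s hs)).hasDerivWithinAt)
    (rt_strictMono hF z0 z).injective.injOn, ← lintegral_const_mul' _ _ ENNReal.ofReal_ne_top]
  refine setLIntegral_mono' hU fun s hs => ?_
  obtain ⟨-, -, ⟨-, h1⟩, ⟨h2, -⟩, -⟩ := h s hs
  rw [mul_one, ← ENNReal.ofReal_mul (by positivity), ENNReal.one_le_ofReal,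
    abs_of_pos (div_pos (kap_pos _ _) (kap_pos _ _)), ← ang_sq, ← ang_sq]
  have h3 := ang_pos (cm Φ s (Φ s z0).1 z).1 (cm Φ s (Φ s z0).1 z).2
  generalize ang (cm Φ s (Φ s z0).1 z).1 (cm Φ s (Φ s z0).1 z).2 = r at h1 h3
  generalize ang (cm Φ s (Φ s z0).1 z).1 (Φ s z0).2 = t at h2
  have h4 : 1 ≤ 2 * cΘ x / r := (one_le_div h3).2 h1.le
  have h5 : 1 ≤ t / cα x := (one_le_div hα).2 h2
  calc (1 : ℝ) ≤ (2 * cΘ x / r * (t / cα x)) ^ 2 := one_le_pow₀ (one_le_mul_of_one_le_of_one_le h4 h5)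
    _ = _ := by field_simp; ring

def dp2_Z (Φ : ℝ → Z → Z) (Q : ℝ) (J : Set ℝ) : Set Z :=
  {z | ∀ σ ∈ J, Q / 2 ≤ q (Φ σ z).2 ∧ q (Φ σ z).2 ≤ 4 * Q}

theorem dp2_cq (hF : IsFlow A Φ Ψ) (σ : ℝ) : Continuous fun z => q (Φ σ z).2 :=
  contDiff_q.continuous.comp (hF.contΦ.comp (Continuous.prodMk_right σ)).snd

theorem dp2_cl (hF : IsFlow A Φ Ψ) (r t σ : ℝ) :
    IsClosed {z : Z | r ≤ q (Φ σ z).2 ∧ q (Φ σ z).2 ≤ t} :=
  (isClosed_le continuous_const (dp2_cq hF σ)).inter (isClosed_le (dp2_cq hF σ) continuous_const)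

theorem dp2_mZ (hF : IsFlow A Φ Ψ) (Q : ℝ) (J : Set ℝ) : MeasurableSet (dp2_Z Φ Q J) := by
  have : dp2_Z Φ Q J = ⋂ σ ∈ J, {z : Z | Q / 2 ≤ q (Φ σ z).2 ∧ q (Φ σ z).2 ≤ 4 * Q} := by
    ext z
    simp only [dp2_Z, mem_iInter, mem_ofPred]
  rw [this]
  exact (isClosed_biInter fun σ _ => dp2_cl hF _ _ σ).measurableSet

theorem dp2_m (hI : Init f0 N P0) (hF : IsFlow A Φ Ψ) {Q σ : ℝ} {J : Set ℝ} (hσ : σ ∈ J) :
    ∫⁻ z in dp2_Z Φ Q J, ENNReal.ofReal (Q / 2 * f0 z) ≤ dp2_e f0 Φ Q σ :=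
  (setLIntegral_mono' (dp2_mZ hF Q J) fun z hz => ENNReal.ofReal_le_ofReal
    (mul_le_mul_of_nonneg_right (hz σ hσ).1 (hI.nonneg z))).trans
    (lintegral_mono_set fun _ hz => hz σ hσ)

def dp2_U (Φ : ℝ → Z → Z) (z0 z : Z) (x : Idx) (a b : ℝ) (J : Set ℝ) : Set ℝ :=
  {s | s ∈ Ioc a b ∧ inC x (cm Φ s (Φ s z0).1 z).1 (cm Φ s (Φ s z0).1 z).2 (Φ s z0).2 ∧
    rt Φ s (Φ s z0).1 z ∈ J}

theorem dp2_piece (hW : Win f0 N P0 K0 En T dat A Φ Ψ c P T' qq z0 a b) {x : Idx} (hx : Adm P x)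
    (hQ : qm P ≤ cQ x) (h1 : 10 ^ 6 ≤ cθ x ^ 2 * qq) (h2 : 10 ^ 6 ≤ cθ x ^ 2 * cQ x) {z : Z}
    (hz : f0 z ≠ 0) {a' b' : ℝ} (ha : 0 ≤ a') (hb : b' ≤ T') (hl : b' - a' ≤ dl c P (cQ x)) :
    volume (dp2_U Φ z0 z x a b (Icc a' b')) ≤ (dp2_Z Φ (cQ x) (Icc a' b')).indicator
      (fun _ => ENNReal.ofReal (4 * (cΘ x / cα x) ^ 2 *
        (10 ^ 4 * cR x * (cα x + cθ x) / cθ x ^ 2))) z := by
  have hF := hW.sol.flow
  rcases (dp2_U Φ z0 z x a b (Icc a' b')).eq_empty_or_nonempty with h0 | ⟨s, -, hs, hσ⟩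
  · rw [h0, measure_empty]
    exact zero_le
  have hQ0 : 0 < cQ x := zpow_pos two_pos _
  have hθ : 0 < cθ x := zpow_pos two_pos _
  have hR : 0 < cR x := zpow_pos two_pos _
  have h3 : cθ x ^ 2 * cQ x ≤ 1 * cQ x :=
    mul_le_mul_of_nonneg_right (pow_le_one₀ hθ.le hx.θ1) hQ0.le
  obtain ⟨h4, h5⟩ := boot_lower hF le_rfl hW.boot hz (by linarith) hQ hx.QP ha hb hl hσ hs.1.1
  have h6 : q (Φ (rt Φ s (Φ s z0).1 z) z).2 < 2 * cQ x := hs.1.2
  rw [indicator_of_mem (show z ∈ dp2_Z Φ (cQ x) (Icc a' b') from fun σ h =>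
    ⟨h4 σ h, by linarith [(abs_le.1 (h5 σ h)).2]⟩), ENNReal.ofReal_mul (by positivity)]
  have hc : Continuous fun s : ℝ => ((s, (Φ s z0).1), z) :=
    (continuous_id.prodMk (cone_cont hF z0).fst).prodMk continuous_const
  have hm : MeasurableSet (dp2_U Φ z0 z x a b (Icc a' b')) :=
    measurableSet_Ioc.inter (((continuous_id.prodMk ((continuous_cm hF).comp hc)).measurable
      (measurableSet_inC (z0 := z0) hF x)).inter
        (((continuous_rt hF).comp hc).measurable measurableSet_Icc))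
  refine (dp2_vol hF hm fun s hs => hs.2.1).trans (mul_le_mul_right ?_ _)
  have hV := hW.boot z0 hW.z0_mem qq hW.q_lo hW.q_hi a b hW.a_nonneg hW.a_le hW.b_le hW.len hW.en
  have hw := hW.boot z hz (cQ x) hQ hx.QP a' b' ha (hσ.1.trans hσ.2) hb hl h4
  rw [one_div_mul_eq_div] at hV hw
  refine le_trans (measure_mono (image_mono ?_)) (pass_one hF (dp2_qq hW) hQ0 hθ hx.θ1
    (zpow_pos two_pos _) hR h1 h2 hV hW.en hw h4)
  rintro t ⟨h7, h8, h9⟩
  exact ⟨Ioc_subset_Icc_self h7, h9, norm_pos_iff.1 (hR.trans_le h8.2.2.2.2.1), h8.2.1.1,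
    h8.2.2.2.1.2.le, h8.2.2.2.2.2.le⟩

theorem dp2_four {t : ℝ} (ht : 0 < t) (s : Finset ℤ) :
    (s.filter fun i : ℤ => (2 : ℝ) ^ i / 2 ≤ t ∧ t ≤ 4 * 2 ^ i).card ≤ 4 := by
  have h1 := Int.zpow_log_le_self (b := 2) one_lt_two ht
  have h2 := Int.lt_zpow_succ_log_self (b := 2) one_lt_two t
  generalize Int.log 2 t = k at h1 h2
  rw [Nat.cast_ofNat] at h1 h2
  refine (Finset.card_le_card (t := Finset.Icc (k - 2) (k + 1)) fun i hi => ?_).trans ?_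
  · obtain ⟨h3, h4⟩ := (Finset.mem_filter.1 hi).2
    rw [show (2 : ℝ) ^ i / 2 = 2 ^ (i - 1) by rw [zpow_sub_one₀ two_ne_zero, div_eq_mul_inv]] at h3
    rw [show (4 : ℝ) * 2 ^ i = 2 ^ (i + 2) by rw [zpow_add₀ two_ne_zero]; norm_num; ring] at h4
    have h5 := (zpow_lt_zpow_iff_right₀ one_lt_two).1 (h3.trans_lt h2)
    have h6 := (zpow_le_zpow_iff_right₀ one_lt_two).1 (h1.trans h4)
    rw [Finset.mem_Icc]
    omega
  · rw [Int.card_Icc]
    omega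

theorem mass_pass (hW : Win f0 N P0 K0 En T dat A Φ Ψ c P T' qq z0 a b) {x : Idx} (hx : Adm P x)
    (hR : cR x ≤ dl c P qq) (hQ : qm P ≤ cQ x) (h1 : 10 ^ 6 ≤ cθ x ^ 2 * qq)
    (h2 : 10 ^ 6 ≤ cθ x ^ 2 * cQ x) :
    cmass f0 Φ Ψ z0 a b x ≤ 10 ^ 6 * (cΘ x / cα x) ^ 2 * cR x * (cα x + cθ x) / cθ x ^ 2 *
      (En + ceps f0 Φ (max 0 (a - 2 * dl c P qq)) b x.1.1 / dl c P (cQ x)) / cQ x := by
  have hF := hW.sol.flow
  have hI := hW.sol.init
  have hQ0 : 0 < cQ x := zpow_pos two_pos _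
  have hθ : 0 < cθ x := zpow_pos two_pos _
  have hα : 0 < cα x := zpow_pos two_pos _
  have hR0 : 0 < cR x := zpow_pos two_pos _
  have hEn : 0 ≤ En := by linarith [hW.sol.one_le_En]
  have hh := dp2_dl hW.c_pos hW.P_ge hQ0
  have hfin := dp2_ceps hW (cQ x)
  have hce : ENNReal.ofReal (ceps f0 Φ (max 0 (a - 2 * dl c P qq)) b x.1.1) =
      ∫⁻ σ in Icc (max 0 (a - 2 * dl c P qq)) b, dp2_e f0 Φ (cQ x) σ := ENNReal.ofReal_toReal hfin
  have hc0 : 0 ≤ ceps f0 Φ (max 0 (a - 2 * dl c P qq)) b x.1.1 := ENNReal.toReal_nonneg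
  have hsl := fun σ => dp2_sl hW (σ := σ)
  have hL0 : 0 ≤ max 0 (a - 2 * dl c P qq) := le_max_left _ _
  have hLb : max 0 (a - 2 * dl c P qq) ≤ b :=
    max_le (hW.a_nonneg.trans hW.a_le) (by linarith [hW.a_le])
  have hmem : ∀ z, ∀ s ∈ Ioc a b, 0 ≤ rt Φ s (Φ s z0).1 z →
      ‖(cm Φ s (Φ s z0).1 z).1‖ < 2 * cR x →
        rt Φ s (Φ s z0).1 z ∈ Icc (max 0 (a - 2 * dl c P qq)) b := by
    intro z s hs h3 h4
    have h5 := rt_eq hF s (Φ s z0).1 z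
    exact ⟨max_le h3 (by linarith [hs.1]), by linarith [hs.2, norm_nonneg (cm Φ s (Φ s z0).1 z).1]⟩
  have hp := fun z hz a' b' => dp2_piece hW hx hQ h1 h2 (z := z) hz (a' := a') (b' := b')
  generalize ceps f0 Φ (max 0 (a - 2 * dl c P qq)) b x.1.1 = ε at hce hc0 ⊢
  generalize max 0 (a - 2 * dl c P qq) = L at hce hsl hL0 hLb hmem
  generalize dl c P (cQ x) = h at hh hp ⊢
  obtain ⟨K, hK⟩ : ∃ K, K = 4 * (cΘ x / cα x) ^ 2 * (10 ^ 4 * cR x * (cα x + cθ x) / cθ x ^ 2) :=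
    ⟨_, rfl⟩
  rw [← hK] at hp
  have hK0 : 0 ≤ K := by rw [hK]; positivity
  obtain ⟨n, hn⟩ : ∃ n, n = ⌊(b - L) / h⌋₊ := ⟨_, rfl⟩
  have hnb : L + n * h ≤ b := by
    have := (le_div_iff₀ hh).1 (hn ▸ Nat.floor_le (div_nonneg (sub_nonneg.2 hLb) hh.le))
    linarith
  obtain ⟨J, hJ⟩ : ∃ J : ℕ → Set ℝ, ∀ j, J j = Icc (L + j * h) (min b (L + (j + 1) * h)) :=
    ⟨_, fun _ => rfl⟩
  have hcov : ∀ σ ∈ Icc L b, ∃ j ∈ Finset.range (n + 1), σ ∈ J j := by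
    intro σ hσ
    have h3 := (le_div_iff₀ hh).1 (Nat.floor_le (div_nonneg (sub_nonneg.2 hσ.1) hh.le))
    have h4 := (div_lt_iff₀ hh).1 (Nat.lt_floor_add_one ((σ - L) / h))
    refine ⟨⌊(σ - L) / h⌋₊, Finset.mem_range.2 (Nat.lt_succ_of_le ?_), ?_⟩
    · rw [hn]
      exact Nat.floor_mono (div_le_div_of_nonneg_right (by linarith [hσ.2]) hh.le)
    · rw [hJ]
      exact ⟨by linarith, le_min hσ.2 (by linarith)⟩
  have hG := measurableSet_inC (z0 := z0) hF x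
  have hf : Measurable fun z => ENNReal.ofReal (cQ x / 2 * f0 z) :=
    (hI.smooth.continuous.measurable.const_mul _).ennreal_ofReal
  have h3 : mu f0 Φ Ψ z0 a b {ω | inC x ω.2.1 ω.2.2 (Φ ω.1 z0).2} ≤
      ENNReal.ofReal (K * (2 / cQ x)) * ∑ j ∈ Finset.range (n + 1),
        ∫⁻ z in dp2_Z Φ (cQ x) (J j), ENNReal.ofReal (cQ x / 2 * f0 z) := by
    simp only [← lintegral_indicator (dp2_mZ hF _ _)]
    rw [← lintegral_indicator_one hG, lintegral_mu_lag hI hF (measurable_one.indicator hG),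
      ← lintegral_finsetSum _ fun j _ => hf.indicator (dp2_mZ hF _ _),
      ← lintegral_const_mul' _ _ ENNReal.ofReal_ne_top]
    refine lintegral_mono fun z => ?_
    by_cases hz : f0 z = 0
    · simp [hz]
    have h4 : ∫⁻ s in Ioc a b ∩ {s | 0 ≤ rt Φ s (Φ s z0).1 z},
        {ω : Om | inC x ω.2.1 ω.2.2 (Φ ω.1 z0).2}.indicator 1 (s, cm Φ s (Φ s z0).1 z) ≤
          volume (⋃ j ∈ Finset.range (n + 1), dp2_U Φ z0 z x a b (J j)) := by
      have hc : Continuous fun s : ℝ => ((s, (Φ s z0).1), z) :=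
        (continuous_id.prodMk (cone_cont hF z0).fst).prodMk continuous_const
      refine le_trans (setLIntegral_mono' (measurableSet_Ioc.inter
        (((continuous_rt hF).comp hc).measurable measurableSet_Ici)) fun s hs => ?_)
        ((setLIntegral_le_lintegral _ _).trans (lintegral_indicator_one_le _))
      by_cases h5 : inC x (cm Φ s (Φ s z0).1 z).1 (cm Φ s (Φ s z0).1 z).2 (Φ s z0).2
      · obtain ⟨j, hj, h6⟩ := hcov _ (hmem z s hs.1 hs.2 h5.2.2.2.2.2)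
        rw [indicator_of_mem (show s ∈ ⋃ j ∈ Finset.range (n + 1), dp2_U Φ z0 z x a b (J j) from
          mem_iUnion₂.2 ⟨j, hj, hs.1, h5, h6⟩)]
        exact indicator_le_self _ _ _
      · rw [indicator_of_notMem (show (s, cm Φ s (Φ s z0).1 z) ∉
          {ω : Om | inC x ω.2.1 ω.2.2 (Φ ω.1 z0).2} from h5)]
        exact zero_le
    refine (mul_le_mul_right (h4.trans (measure_biUnion_finset_le _ _)) _).trans ?_
    rw [Finset.mul_sum, Finset.mul_sum]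
    refine Finset.sum_le_sum fun j _ => ?_
    have h5 : 0 ≤ j * h := by positivity
    have h6 := hp z hz (L + j * h) (min b (L + (j + 1) * h)) (by linarith)
      ((min_le_left _ _).trans hW.b_le) (by linarith [min_le_right b (L + (j + 1) * h)])
    rw [← hJ] at h6
    refine (mul_le_mul_right h6 _).trans ?_
    by_cases h7 : z ∈ dp2_Z Φ (cQ x) (J j)
    · rw [indicator_of_mem h7, indicator_of_mem h7, ← ENNReal.ofReal_mul (hI.nonneg z),
        ← ENNReal.ofReal_mul (by positivity)]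
      refine le_of_eq (congrArg _ ?_)
      field_simp
    · rw [indicator_of_notMem h7, mul_zero]
      exact zero_le
  have h4 : ∑ j ∈ Finset.range n, ∫⁻ z in dp2_Z Φ (cQ x) (J j), ENNReal.ofReal (cQ x / 2 * f0 z) ≤
      ENNReal.ofReal (ε / h) := by
    rw [ENNReal.ofReal_div_of_pos hh, ENNReal.le_div_iff_mul_le
      (Or.inl (ENNReal.ofReal_pos.2 hh).ne') (Or.inl ENNReal.ofReal_ne_top), hce]
    refine (dp2_avg (L := L) hh.le n fun j hj σ hσ => dp2_m hI hF ?_).trans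
      (lintegral_mono_set fun σ hσ => ⟨hσ.1, hσ.2.le.trans hnb⟩)
    have h5 : ((j : ℝ) + 1) * h ≤ n * h :=
      mul_le_mul_of_nonneg_right (by exact_mod_cast hj) hh.le
    rw [hJ]
    exact ⟨hσ.1, le_min (by linarith [hσ.2]) hσ.2.le⟩
  have h5 : ∫⁻ z in dp2_Z Φ (cQ x) (J n), ENNReal.ofReal (cQ x / 2 * f0 z) ≤
      ENNReal.ofReal En := by
    have h6 : 0 ≤ n * h := by positivity
    refine (dp2_m hI hF (σ := L + n * h) ?_).trans
      ((setLIntegral_le_lintegral _ _).trans (hsl _ ⟨by linarith, hnb⟩))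
    rw [hJ]
    exact ⟨le_rfl, le_min hnb (by linarith)⟩
  rw [Finset.sum_range_succ] at h3
  have h6 := h3.trans (mul_le_mul_right (add_le_add h4 h5) _)
  rw [← ENNReal.ofReal_add (by positivity) hEn, ← ENNReal.ofReal_mul (by positivity)] at h6
  refine (ENNReal.toReal_le_of_le_ofReal (by positivity) h6).trans ?_
  have h7 : 0 ≤ (cΘ x / cα x) ^ 2 * cR x * (cα x + cθ x) / cθ x ^ 2 * (En + ε / h) / cQ x := by
    positivity
  calc _ = 80000 * ((cΘ x / cα x) ^ 2 * cR x * (cα x + cθ x) / cθ x ^ 2 * (En + ε / h) / cQ x) := by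
        rw [hK]; ring
    _ ≤ 10 ^ 6 * ((cΘ x / cα x) ^ 2 * cR x * (cα x + cθ x) / cθ x ^ 2 * (En + ε / h) / cQ x) :=
        mul_le_mul_of_nonneg_right (by norm_num) h7
    _ = _ := by ring

theorem ceps_sum (hW : Win f0 N P0 K0 En T dat A Φ Ψ c P T' qq z0 a b) :
    ∑ i ∈ Finset.Icc 0 (nL P), ceps f0 Φ (max 0 (a - 2 * dl c P qq)) b i ≤ 12 * dl c P qq * En := by
  have hF := hW.sol.flow
  have hEn : 0 ≤ En := by linarith [hW.sol.one_le_En]
  have hδ := dp2_dl hW.c_pos hW.P_ge (dp2_qq hW)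
  have h1 := ENNReal.toReal_sum (s := Finset.Icc 0 (nL P)) fun (i : ℤ) _ => dp2_ceps hW (2 ^ i)
  refine h1.symm.trans_le (ENNReal.toReal_le_of_le_ofReal (by positivity)
    ((dp2_sum _ _ _).trans ((dp2_int hW (C := 4 * En) (by positivity) fun σ hσ => ?_).trans
      (le_of_eq (congrArg _ (by ring))))))
  unfold dp2_e
  simp only [← lintegral_indicator (dp2_cl hF _ _ σ).measurableSet]
  rw [ENNReal.ofReal_mul (by norm_num), ENNReal.ofReal_ofNat]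
  refine (dp2_sum _ _ _).trans (le_trans (lintegral_mono fun z => ?_)
    ((lintegral_const_mul' 4 _ (by simp)).trans_le (mul_le_mul_right (dp2_sl hW hσ) _)))
  simp only [indicator_apply, mem_ofPred]
  rw [← Finset.sum_filter, Finset.sum_const, nsmul_eq_mul]
  exact mul_le_mul_left (by exact_mod_cast dp2_four (q_pos _) _) _

theorem mass_block (hW : Win f0 N P0 K0 En T dat A Φ Ψ c P T' qq z0 a b) :
    Mass (10 ^ 8) N En c P qq (cmass f0 Φ Ψ z0 a b) (ceps f0 Φ (max 0 (a - 2 * dl c P qq)) b) := by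
  have hEn : 0 ≤ En := by linarith [hW.sol.one_le_En]
  have hδ := dp2_dl hW.c_pos hW.P_ge (dp2_qq hW)
  refine ⟨fun _ => ENNReal.toReal_nonneg, fun x _ => mass_vol hW x, fun x _ => ?_, fun x _ => ?_,
    fun x hx hR hQ h1 h2 => ?_, fun _ => ENNReal.toReal_nonneg, ?_⟩
  · have hQ0 : 0 < cQ x := zpow_pos two_pos _
    refine (mass_flux hW x).trans ?_
    gcongr
    linarith
  · have hQ0 : 0 < cQ x := zpow_pos two_pos _
    have hR0 : 0 < cR x := zpow_pos two_pos _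
    refine (mass_ener hW x).trans ?_
    gcongr
    norm_num
  · have hQ0 : 0 < cQ x := zpow_pos two_pos _
    have hθ : 0 < cθ x := zpow_pos two_pos _
    have hα : 0 < cα x := zpow_pos two_pos _
    have hR0 : 0 < cR x := zpow_pos two_pos _
    have hh := dp2_dl hW.c_pos hW.P_ge hQ0
    have hc0 : 0 ≤ ceps f0 Φ (max 0 (a - 2 * dl c P qq)) b x.1.1 := ENNReal.toReal_nonneg
    refine (mass_pass hW hx hR hQ (by linarith) (by linarith)).trans ?_
    rw [show (10 : ℝ) ^ 6 = 1000000 by norm_num, show (10 : ℝ) ^ 8 = 100000000 by norm_num]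
    gcongr
    norm_num
  · refine (ceps_sum hW).trans ?_
    gcongr
    norm_num

end Vale.Agent.P107
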