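import Vale.Agent.P107.DM2
import Vale.Agent.P107.DPass2
import Vale.Agent.P107.DM5
import Vale.Agent.P107.DG1

/-! Tools for DM6. -/

namespace Vale.Agent.P107

open MeasureTheory Set Filter Topology
open scoped RealInnerProductSpace ENNReal

variable {f0 : Z → ℝ} {N P0 K0 En T c P T' qq a b : ℝ} {dat A : Fld} {Φ Ψ : ℝ → Z → Z} {z0 : Z}


/-- A measurable function with a bound for its integral over the far region. -/
def dm6B (f0 : Z → ℝ) (Φ Ψ : ℝ → Z → Z) (z0 : Z) (a b P : ℝ) (g : Om → ℝ) (B : ℝ) : Prop :=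
  Measurable g ∧ 0 ≤ B ∧
    ∫⁻ ω in {ω : Om | 2 * r0 P < ‖ω.2.1‖}, ENNReal.ofReal (g ω) ∂mu f0 Φ Ψ z0 a b ≤ ENNReal.ofReal B

theorem dm6B.add {g g' : Om → ℝ} {B B' : ℝ} (h : dm6B f0 Φ Ψ z0 a b P g B)
    (h' : dm6B f0 Φ Ψ z0 a b P g' B') : dm6B f0 Φ Ψ z0 a b P (fun ω => g ω + g' ω) (B + B') := by
  refine ⟨h.1.add h'.1, add_nonneg h.2.1 h'.2.1, ?_⟩
  refine (lintegral_mono fun ω => ENNReal.ofReal_add_le).trans ?_
  rw [lintegral_add_left h.1.ennreal_ofReal, ENNReal.ofReal_add h.2.1 h'.2.1]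
  exact add_le_add h.2.2 h'.2.2

theorem dm6B.fin {g w : Om → ℝ} {B B' E : ℝ} (h : dm6B f0 Φ Ψ z0 a b P g B)
    (hw : ∀ ω : Om, 2 * r0 P < ‖ω.2.1‖ → w ω ≤ g ω) (h0 : 0 ≤ B')
    (hs : ∫⁻ ω in {ω : Om | ‖ω.2.1‖ ≤ 2 * r0 P}, ENNReal.ofReal (w ω) ∂mu f0 Φ Ψ z0 a b ≤
      ENNReal.ofReal B') (hE : B' + B ≤ E) :
    ∫⁻ ω, ENNReal.ofReal (w ω) ∂mu f0 Φ Ψ z0 a b ≤ ENNReal.ofReal E := by
  have hm : MeasurableSet {ω : Om | ‖ω.2.1‖ ≤ 2 * r0 P} :=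
    measurableSet_le (by fun_prop) measurable_const
  have e : {ω : Om | ‖ω.2.1‖ ≤ 2 * r0 P}ᶜ = {ω : Om | 2 * r0 P < ‖ω.2.1‖} := by
    ext ω
    simp
  have hm' := hm.compl
  rw [e] at hm'
  rw [← lintegral_add_compl _ hm, e]
  refine (add_le_add hs ((setLIntegral_mono' hm' fun ω hω =>
    ENNReal.ofReal_le_ofReal (hw ω hω)).trans h.2.2)).trans ?_
  rw [← ENNReal.ofReal_add h0 h.2.1]
  exact ENNReal.ofReal_le_ofReal hE

theorem dm6_ne {x : Idx} {D v V : V3} (h : inC x D v V) : D ≠ 0 :=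
  norm_pos_iff.1 ((dm3_R x).trans_le h.2.2.2.2.1)

theorem dm6_V (hW : Win f0 N P0 K0 En T dat A Φ Ψ c P T' qq z0 a b) :
    Measurable fun ω : Om => (Φ ω.1 z0).2 := (dm0_c0 hW.sol.flow z0).snd.measurable

theorem dm6_D : Measurable fun ω : Om => ω.2.1 := by fun_prop

theorem dm6_v : Measurable fun ω : Om => ω.2.2 := by fun_prop

theorem dm6_g (hW : Win f0 N P0 K0 En T dat A Φ Ψ c P T' qq z0 a b) (j : ℕ) : Measurable
    fun ω : Om => kS j ω.2.1 ω.2.2 (Φ ω.1 z0).2 * gfl ω.2.1 (fld A Φ z0 ω) := by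
  obtain ⟨R, hA⟩ := hW.sol.app
  exact (dm0_kS j dm6_D dm6_v (dm6_V hW)).mul (dm0_gfl dm6_D (measurable_fld hA hW.sol.flow))

theorem dm6_kS (j : ℕ) (D v V : V3) (F : V3 × V3) : 0 ≤ kS j D v V * gfl D F := by
  have := ang_pos D v
  have := ang_pos D V
  have := q_pos v
  unfold kS gfl
  positivity

open Classical in
theorem dm6_ind (hW : Win f0 N P0 K0 En T dat A Φ Ψ c P T' qq z0 a b) {p : V3 → V3 → V3 → Prop}
    {k : V3 → V3 → V3 → ℝ} {S : Idx → Prop} {e : Idx → ℝ} {K B : ℝ}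
    (hp : MeasurableSet {ω : Om | p ω.2.1 ω.2.2 (Φ ω.1 z0).2})
    (hk : Measurable fun ω : Om => k ω.2.1 ω.2.2 (Φ ω.1 z0).2) (hK : 0 ≤ K) (he : ∀ x, 0 ≤ e x)
    (h : ∀ x D v V, inC x D v V → p D v V → S x ∧ k D v V ≤ K * e x) (hB0 : 0 ≤ B)
    (hB : sm P S (fun x => e x * cmass f0 Φ Ψ z0 a b x) ≤ B) :
    dm6B f0 Φ Ψ z0 a b P
      (fun ω => if p ω.2.1 ω.2.2 (Φ ω.1 z0).2 then k ω.2.1 ω.2.2 (Φ ω.1 z0).2 else 0) (K * B) := by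
  refine ⟨Measurable.ite hp hk measurable_const, mul_nonneg hK hB0,
    (lintegral_le_sm hW S (k := fun x => K * e x) (fun x => mul_nonneg hK (he x))
      (fun ω x _ hx _ => ?_) fun ω x _ hx hS => ?_).trans (ENNReal.ofReal_le_ofReal ?_)⟩
  · split_ifs with h1
    exacts [(h x _ _ _ hx h1).2, mul_nonneg hK (he x)]
  · rw [if_neg fun h1 => hS (h x _ _ _ hx h1).1]
  · refine le_trans (le_of_eq ?_) (mul_le_mul_of_nonneg_left hB hK)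
    simp only [sm, Finset.mul_sum, mul_ite, mul_zero, mul_assoc]

open Classical in
theorem dm6_flux : ∃ C : ℝ, 1 ≤ C ∧ ∀ (f0 : Z → ℝ) (N P0 K0 En T c P T' qq a b : ℝ) (dat A : Fld)
    (Φ Ψ : ℝ → Z → Z) (z0 : Z), Win f0 N P0 K0 En T dat A Φ Ψ c P T' qq z0 a b →
    ∀ (j : ℕ) (p : V3 → V3 → V3 → Prop) (S : Idx → Prop) (B : ℝ),
      MeasurableSet {ω : Om | p ω.2.1 ω.2.2 (Φ ω.1 z0).2} →
      (∀ x D v V, inC x D v V → p D v V → S x) → 0 ≤ B →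
      Real.sqrt (dl c P qq) * sq P S (fun x => JJ j x * cmass f0 Φ Ψ z0 a b x) ≤ B →
      dm6B f0 Φ Ψ z0 a b P (fun ω => if p ω.2.1 ω.2.2 (Φ ω.1 z0).2 then
        kS j ω.2.1 ω.2.2 (Φ ω.1 z0).2 * gfl ω.2.1 (fld A Φ z0 ω) else 0) (C * N * En * B) := by
  obtain ⟨C, hC, H⟩ := cs_flux
  refine ⟨C, hC, fun f0 N P0 K0 En T c P T' qq a b dat A Φ Ψ z0 hW j p S B hp h hB0 hB => ?_⟩
  have hN := hW.sol.init.one_le_N
  have hE := hW.sol.one_le_En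
  refine ⟨Measurable.ite hp (dm6_g hW j) measurable_const, by positivity,
    (H _ _ _ _ _ _ _ _ _ _ _ _ _ _ _ _ _ hW j S _ (fun ω x _ hx _ => ?_)
      fun ω x _ hx hS => ?_).trans (ENNReal.ofReal_le_ofReal ?_)⟩
  · split_ifs
    exacts [le_rfl, dm6_kS _ _ _ _ _]
  · rw [if_neg fun h1 => hS (h x _ _ _ hx h1)]
  · exact mul_le_mul_of_nonneg_left hB (by positivity)

theorem dm6_k1 {x : Idx} {D v V : V3} (h : inC x D v V) (hA : ang D v ≤ ang D V / 4) :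
    rA x ∧ kT D v V ≤ 4 * (cα x / (cQ x ^ 2 * cΘ x ^ 5 * cR x ^ 2)) := by
  refine ⟨class_rA (dm6_ne h) h hA, ?_⟩
  obtain ⟨⟨a1, -⟩, -, ⟨b1, -⟩, ⟨-, c2⟩, ⟨d1, -⟩⟩ := h
  have := dm3_Q x; have := dm3_Θ x; have := dm3_α x; have := dm3_R x; have := ang_pos D v
  rw [kT, ← mul_div_assoc]
  gcongr
  linarith

theorem dm6_k2 {x : Idx} {D v V : V3} (h : inC x D v V) (hA : ¬ ang D v ≤ ang D V / 4) :
    cα x ≤ 8 * cΘ x ∧ kT D v V ≤ 5 * (1 / (cQ x ^ 2 * cΘ x ^ 4 * cR x ^ 2)) := by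
  have hD := norm_pos_iff.2 (dm6_ne h)
  obtain ⟨⟨a1, -⟩, -, ⟨b1, b2⟩, ⟨c1, -⟩, ⟨d1, -⟩⟩ := h
  have := dm3_Q x; have := dm3_Θ x; have := dm3_R x; have := ang_pos D v; have := q_pos v
  refine ⟨by linarith, ?_⟩
  calc kT D v V ≤ 5 * ang D v / (q v ^ 2 * ang D v ^ 5 * ‖D‖ ^ 2) := by
        rw [kT]
        gcongr
        linarith
    _ = 5 * (1 / (q v ^ 2 * ang D v ^ 4 * ‖D‖ ^ 2)) := by field_simp
    _ ≤ _ := by gcongr

theorem dm6_k3 {x : Idx} {D v V : V3} (h : inC x D v V) :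
    1 / (ang D v ^ 2 * ‖D‖ ^ 2) ≤ 1 * (1 / (cΘ x ^ 2 * cR x ^ 2)) := by
  obtain ⟨-, -, ⟨b1, -⟩, -, ⟨d1, -⟩⟩ := h
  have := dm3_Θ x; have := dm3_R x
  rw [one_mul]
  gcongr

theorem dm6_k4 {x : Idx} {D v V : V3} (h : inC x D v V) :
    ang D V / (ang D v ^ 3 * ‖D‖ ^ 2) ≤ 2 * (cα x / (cΘ x ^ 3 * cR x ^ 2)) := by
  obtain ⟨-, -, ⟨b1, -⟩, ⟨-, c2⟩, ⟨d1, -⟩⟩ := h
  have := dm3_Θ x; have := dm3_α x; have := dm3_R x; have := ang_pos D v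
  rw [← mul_div_assoc]
  gcongr

theorem dm6_ev (K : ℝ) : ∀ᶠ P : ℝ in atTop, K + K * P ^ (1 / 400 : ℝ) ≤ P ^ (1 / 300 : ℝ) := by
  filter_upwards [(tendsto_rpow_atTop (by norm_num : (0 : ℝ) < 1 / 1200)).eventually_ge_atTop
    (2 * |K|), eventually_ge_atTop 1] with P h1 h2
  have h3 : 1 ≤ P ^ (1 / 400 : ℝ) := Real.one_le_rpow h2 (by norm_num)
  rw [show (1 / 300 : ℝ) = 1 / 1200 + 1 / 400 by norm_num, Real.rpow_add (by linarith)]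
  nlinarith [le_abs_self K, abs_nonneg K]

open Classical in
theorem dm6_wk (P1 Zc ρ : ℝ) {D : V3} (v V : V3) (F : V3 × V3) (hD : 2 * ρ < ‖D‖) :
    wk P1 Zc ρ D v V F ≤ vk D v V F - kS 2 D v V * gfl D F +
      (if 1 ≤ x1 D v V then kS 2 D v V * gfl D F else 0) +
      (if x1 D v V ≤ 2 ∧ 1 ≤ x2 Zc D v then kS 2 D v V * gfl D F else 0) +
      (if q v ≤ 2 * P1 then kS 2 D v V * gfl D F else 0) +
      (if x1 D v V ≤ 2 then 1 / (ang D v ^ 2 * ‖D‖ ^ 2) else 0) +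
      (if x1 D v V ≤ 2 ∧ 1 ≤ x1 D v V then ang D V / (ang D v ^ 3 * ‖D‖ ^ 2) else 0) +
      (if x1 D v V ≤ 2 ∧ 1 ≤ x2 Zc D v then ang D V / (ang D v ^ 3 * ‖D‖ ^ 2) else 0) := by
  have p1 := dm6_kS 2 D v V F
  have p2 : 0 ≤ 1 / (ang D v ^ 2 * ‖D‖ ^ 2) := by positivity
  have p3 : 0 ≤ ang D V / (ang D v ^ 3 * ‖D‖ ^ 2) := by
    have := ang_pos D v; have := ang_pos D V; positivity
  have h1 : (if setG P1 Zc ρ D v V then kS 2 D v V * gfl D F else 0) ≤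
      (if 1 ≤ x1 D v V then kS 2 D v V * gfl D F else 0) +
      (if x1 D v V ≤ 2 ∧ 1 ≤ x2 Zc D v then kS 2 D v V * gfl D F else 0) +
      (if q v ≤ 2 * P1 then kS 2 D v V * gfl D F else 0) := by
    unfold setG
    split_ifs with a1 a2 a3 a4 a5 a6 a7 a8 <;> try linarith
    exact absurd a1 (by
      rintro (h | h | h | h)
      exacts [a2 h, a6 ⟨by linarith, h⟩, a8 h, by linarith])
  have h2 : (if setB Zc D v V then 1 / (ang D v ^ 2 * ‖D‖ ^ 2) else 0) ≤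
      (if x1 D v V ≤ 2 then 1 / (ang D v ^ 2 * ‖D‖ ^ 2) else 0) := by
    split_ifs with a1 a2 <;> try linarith
    exact absurd a1.1 a2
  have h3 : (if setTr Zc ρ D v V then ang D V / (ang D v ^ 3 * ‖D‖ ^ 2) else 0) ≤
      (if x1 D v V ≤ 2 ∧ 1 ≤ x1 D v V then ang D V / (ang D v ^ 3 * ‖D‖ ^ 2) else 0) +
      (if x1 D v V ≤ 2 ∧ 1 ≤ x2 Zc D v then ang D V / (ang D v ^ 3 * ‖D‖ ^ 2) else 0) := by
    split_ifs with a1 a2 a3 a4 <;> try linarith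
    exact absurd a1.2 (by
      rintro (h | h | h)
      exacts [a2 ⟨a1.1.1, h⟩, a4 ⟨a1.1.1, h⟩, by linarith])
  unfold wk vk
  linarith

end Vale.Agent.P107
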