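import Vale.Agent.P107.DG1

/-! The pass lemma for one source particle, and the first exit argument.

Plan (pass_one). C1 = 10^6, c1 = 10^-3. W1, W2 from the two Var hypotheses. G(s) = (W1 s - W1 a)/(c1 qq θ) + (W2 (σ s) - W2 a')/(c1 Q θ), σ s = rt, is monotone on
the set U of admissible s (rt_strictMono), with values in [0, 200/θ]. Cover U by the sets U_k = {s ∈ U | ⌊G s⌋₊ = k}, k ≤ 200/θ. For s1 ≤ s2 in U_k: on
[s1,s2] ‖V t - V s1‖ ≤ c1 qq θ + √qq ≤ 2 c1 qq θ, so ‖u (V t) - u (V s1)‖ ≤ 8 c1 θ (u_sub_le), the same for the source on [σ1,σ2]. With D_i the relative positions,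
r_i = ‖D_i‖ = s_i - σ_i (rt_spec), U0 = u (V s1), W0 = u (w σ1): D2 - D1 = (s2-s1) U0 - (σ2-σ1) W0 + error, ‖error‖ ≤ 8 c1 θ ((s2-s1) + (σ2-σ1)) (mean value inequality
for X t - t U0), s2 - s1 = (σ2-σ1) + r2 - r1. So (σ2-σ1)(U0 - W0) = (D2 - r2 U0) - (D1 - r1 U0) - error, ‖D_i - r_i U0‖ ≤ 2R (2√2 α + 8 c1 θ), and ‖U0 - W0‖² ≥ 2θ² - 8/C1 θ² ≥ θ²
(norm_u_sub_sq). Hence σ2 - σ1 ≤ 20 R (α+θ)/θ; Real.volume_le_diam or a containing Icc; measure_biUnion_finset_le. boot_lower: first exit time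
(sInf / IsClosed.csInf_mem, or IsPreconnected), on both sides of s0; use √qq ≤ qq/10 from 100 ≤ qq. -/

namespace Vale.Agent.P107

open MeasureTheory Set Filter Topology
open scoped RealInnerProductSpace ENNReal

variable {f0 : Z → ℝ} {N P0 K0 En T c P T' qq a b : ℝ} {dat A : Fld} {Φ Ψ : ℝ → Z → Z} {z0 : Z}


theorem dpass1_cover {U : Set ℝ} {σ G : ℝ → ℝ} {M d : ℝ} (hd : 0 ≤ d) (hM : 0 ≤ M)
    (hG : ∀ s ∈ U, 0 ≤ G s ∧ G s ≤ M)
    (h : ∀ s ∈ U, ∀ t ∈ U, s ≤ t → G t - G s < 1 → |σ t - σ s| ≤ d) :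
    volume (σ '' U) ≤ ENNReal.ofReal ((M + 1) * d) := by
  have h1 : σ '' U ⊆ ⋃ k ∈ Finset.range (⌊M⌋₊ + 1), σ '' {s ∈ U | ⌊G s⌋₊ = k} := by
    rintro _ ⟨s, hs, rfl⟩
    exact mem_biUnion (Finset.mem_range.2 (Nat.lt_succ_of_le (Nat.floor_mono (hG s hs).2)))
      ⟨s, ⟨hs, rfl⟩, rfl⟩
  have h2 : ∀ k : ℕ, volume (σ '' {s ∈ U | ⌊G s⌋₊ = k}) ≤ ENNReal.ofReal d := fun k => by
    refine (Real.volume_le_diam _).trans (Metric.ediam_le ?_)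
    rintro _ ⟨s, ⟨hs, hs'⟩, rfl⟩ _ ⟨t, ⟨ht, ht'⟩, rfl⟩
    have a1 := Nat.floor_le (hG s hs).1
    have a2 := Nat.floor_le (hG t ht).1
    have a3 := Nat.lt_floor_add_one (G s)
    have a4 := Nat.lt_floor_add_one (G t)
    rw [hs'] at a1 a3
    rw [ht'] at a2 a4
    rw [edist_dist, Real.dist_eq]
    refine ENNReal.ofReal_le_ofReal ?_
    rcases le_total s t with hst | hst
    · rw [abs_sub_comm]
      exact h s hs t ht hst (by linarith)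
    · exact h t ht s hs hst (by linarith)
  refine (measure_mono h1).trans ((measure_biUnion_finset_le _ _).trans
    ((Finset.sum_le_sum fun k _ => h2 k).trans ?_))
  rw [Finset.sum_const, Finset.card_range, nsmul_eq_mul, ← ENNReal.ofReal_natCast,
    ← ENNReal.ofReal_mul (Nat.cast_nonneg _)]
  refine ENNReal.ofReal_le_ofReal (mul_le_mul_of_nonneg_right ?_ hd)
  push_cast
  linarith [Nat.floor_le hM]

theorem dpass1_pos (hF : IsFlow A Φ Ψ) (z : Z) {s t e : ℝ} (h : s ≤ t) (U0 : V3)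
    (he : ∀ r ∈ Icc s t, ‖u (Φ r z).2 - U0‖ ≤ e) :
    ‖(Φ t z).1 - (Φ s z).1 - (t - s) • U0‖ ≤ e * (t - s) := by
  have h1 := (convex_Icc s t).norm_image_sub_le_of_norm_hasDerivWithin_le
    (f := fun r => (Φ r z).1 - r • U0) (f' := fun r => u (Φ r z).2 - U0)
    (fun r _ => ((hF.pos_deriv r z).sub
      (((hasDerivAt_id r).smul_const U0).congr_deriv (one_smul _ _))).hasDerivWithinAt)
    he (left_mem_Icc.2 h) (right_mem_Icc.2 h)
  rw [Real.norm_of_nonneg (sub_nonneg.2 h)] at h1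
  refine le_trans (le_of_eq ?_) h1
  congr 1
  rw [sub_smul]
  abel

theorem dpass1_vel {V : ℝ → V3} {W : ℝ → ℝ} {θ s t : ℝ} (hq : 0 < qq) (hθ : 0 < θ)
    (h1 : 10 ^ 6 ≤ θ ^ 2 * qq) (hW : MonotoneOn W (Icc a b))
    (hV : ∀ s ∈ Icc a b, ∀ t ∈ Icc a b, s ≤ t → ‖V t - V s‖ ≤ W t - W s + Real.sqrt qq)
    (hs : s ∈ Icc a b) (ht : t ∈ Icc a b) (h2 : W t - W s ≤ qq * θ / 1000)
    (h3 : qq / 2 ≤ q (V s)) : ∀ r ∈ Icc s t, ‖u (V r) - u (V s)‖ ≤ θ / 125 := by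
  intro r hr
  have hr' : r ∈ Icc a b := ⟨hs.1.trans hr.1, hr.2.trans ht.2⟩
  have h4 := hV s hs r hr' hr.1
  have h5 := hW hr' ht hr.2
  have h6 : Real.sqrt qq ≤ qq * θ / 1000 :=
    Real.sqrt_le_iff.2 ⟨by positivity, by nlinarith⟩
  rw [norm_sub_rev] at h4 ⊢
  refine (u_sub_le _ _).trans ?_
  rw [div_le_iff₀ (q_pos _)]
  nlinarith

theorem dpass1_dir {D V U0 : V3} (hD : D ≠ 0) {α R e : ℝ} (hα : 0 < α) (h1 : ang D V ≤ 2 * α)
    (h2 : ‖D‖ ≤ 2 * R) (h3 : ‖u V - U0‖ ≤ e) : ‖D - ‖D‖ • U0‖ ≤ 2 * R * (3 * α + e) := by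
  have h4 : ‖nrm D - u V‖ ≤ 3 * α := by
    refine (sq_le_sq₀ (norm_nonneg _) (by positivity)).1 ?_
    rw [norm_nrm_sub_u_sq hD, ← ang_sq]
    have h5 := pow_le_pow_left₀ (ang_pos D V).le h1 2
    have h6 : 0 ≤ (q V ^ 2)⁻¹ := by positivity
    nlinarith
  have h5 : D - ‖D‖ • U0 = ‖D‖ • (nrm D - U0) := by rw [smul_sub, smul_nrm]
  rw [h5, norm_smul, norm_norm]
  exact mul_le_mul h2 ((norm_sub_le_norm_sub_add_norm_sub _ _ _).trans (add_le_add h4 h3))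
    (norm_nonneg _) ((norm_nonneg _).trans h2)

theorem dpass1_inv {θ y : ℝ} (hq : 0 < qq) (hθ : 0 < θ) (hθ1 : θ ≤ 1) (h1 : 10 ^ 6 ≤ θ ^ 2 * qq)
    (h2 : qq / 2 ≤ y) : (y ^ 2)⁻¹ ≤ θ ^ 2 / 2 := by
  have h3 : θ ^ 2 ≤ 1 := pow_le_one₀ hθ.le hθ1
  have h4 : 10 ^ 6 ≤ qq := by nlinarith
  have hy : 0 < y := by linarith
  rw [inv_le_iff_one_le_mul₀ (by positivity)]
  have h5 : qq ≤ y ^ 2 := by nlinarith
  nlinarith [mul_le_mul_of_nonneg_left h5 (sq_nonneg θ)]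

theorem dpass1_exit {g : ℝ → ℝ} (hg : Continuous g) {m s0 : ℝ} (h0 : m ≤ g s0)
    (h : ∀ t ∈ Icc s0 b, (∀ r ∈ Icc s0 t, m ≤ g r) → m < g t) : ∀ t ∈ Icc s0 b, m ≤ g t :=
  IsClosed.Icc_subset_of_forall_mem_nhdsGT_of_Icc_subset (s := {t | m ≤ g t})
    ((isClosed_le continuous_const hg).inter isClosed_Icc) h0 fun t ht ht' =>
    mem_nhdsWithin_of_mem_nhds ((hg.continuousAt.eventually
      (lt_mem_nhds (h t (Ico_subset_Icc_self ht) ht'))).mono fun _ hr => hr.le)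

theorem pass_one (hF : IsFlow A Φ Ψ) {z : Z} {a' b' Q θ α R : ℝ} (hq : 0 < qq) (hQ : 0 < Q)
    (hθ : 0 < θ) (hθ1 : θ ≤ 1) (hα : 0 < α) (hR : 0 < R) (h1 : 10 ^ 6 ≤ θ ^ 2 * qq)
    (h2 : 10 ^ 6 ≤ θ ^ 2 * Q)
    (hV : Var (fun s => (Φ s z0).2) a b (qq / 10) (Real.sqrt qq))
    (hV' : ∀ s ∈ Icc a b, qq / 2 ≤ q (Φ s z0).2)
    (hw : Var (fun s => (Φ s z).2) a' b' (Q / 10) (Real.sqrt Q))
    (hw' : ∀ s ∈ Icc a' b', Q / 2 ≤ q (Φ s z).2) :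
    volume ((fun s => rt Φ s (Φ s z0).1 z) '' {s | s ∈ Icc a b ∧ rt Φ s (Φ s z0).1 z ∈ Icc a' b' ∧
        (cm Φ s (Φ s z0).1 z).1 ≠ 0 ∧ θ ≤ th (Φ s z0).2 (cm Φ s (Φ s z0).1 z).2 ∧
        ang (cm Φ s (Φ s z0).1 z).1 (Φ s z0).2 ≤ 2 * α ∧ ‖(cm Φ s (Φ s z0).1 z).1‖ ≤ 2 * R})
      ≤ ENNReal.ofReal (10 ^ 4 * R * (α + θ) / θ ^ 2) := by
  obtain ⟨W1, m1, t1, v1⟩ := hV
  obtain ⟨W2, m2, t2, v2⟩ := hw
  have c1 : 0 < qq * θ / 1000 := by positivity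
  have c2 : 0 < Q * θ / 1000 := by positivity
  refine (dpass1_cover (G := fun s => (W1 s - W1 a) / (qq * θ / 1000) +
    (W2 (rt Φ s (Φ s z0).1 z) - W2 a') / (Q * θ / 1000)) (M := 200 / θ)
    (d := 13 * R * (α + θ) / θ) (by positivity) (by positivity) ?_ ?_).trans
    (ENNReal.ofReal_le_ofReal ?_)
  · rintro s ⟨hs, hσ, -⟩
    have a1 := m1 (left_mem_Icc.2 (hs.1.trans hs.2)) hs hs.1
    have a2 := m1 hs (right_mem_Icc.2 (hs.1.trans hs.2)) hs.2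
    have a3 := m2 (left_mem_Icc.2 (hσ.1.trans hσ.2)) hσ hσ.1
    have a4 := m2 hσ (right_mem_Icc.2 (hσ.1.trans hσ.2)) hσ.2
    refine ⟨add_nonneg (div_nonneg (by linarith) c1.le) (div_nonneg (by linarith) c2.le), ?_⟩
    have b1 : (W1 s - W1 a) / (qq * θ / 1000) ≤ 100 / θ := by
      rw [div_le_div_iff₀ c1 hθ]
      nlinarith
    have b2 : (W2 (rt Φ s (Φ s z0).1 z) - W2 a') / (Q * θ / 1000) ≤ 100 / θ := by
      rw [div_le_div_iff₀ c2 hθ]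
      nlinarith
    calc _ ≤ 100 / θ + 100 / θ := add_le_add b1 b2
      _ = 200 / θ := by ring
  · rintro s ⟨hs, hσ, hD, hth, hang, hR1⟩ t ⟨ht, hτ, hD', -, hang', hR2⟩ hst hG
    have hστ := (rt_strictMono hF z0 z).monotone hst
    have r1 := rt_spec hF s (Φ s z0).1 z
    have r2 := rt_spec hF t (Φ t z0).1 z
    simp only [cm] at hD hth hang hR1 hD' hang' hR2
    generalize rt Φ s (Φ s z0).1 z = σ at *
    generalize rt Φ t (Φ t z0).1 z = τ at *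
    have a1 := m1 hs ht hst
    have a2 := m2 hσ hτ hστ
    have b1 : 0 ≤ (W1 t - W1 s) / (qq * θ / 1000) := div_nonneg (by linarith) c1.le
    have b2 : 0 ≤ (W2 τ - W2 σ) / (Q * θ / 1000) := div_nonneg (by linarith) c2.le
    have b3 : (W1 t - W1 s) / (qq * θ / 1000) + (W2 τ - W2 σ) / (Q * θ / 1000) < 1 := by
      refine lt_of_eq_of_lt ?_ hG
      ring
    have u1 := dpass1_vel hq hθ h1 m1 v1 hs ht ((div_le_one c1).1 (by linarith)) (hV' s hs)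
    have u2 := dpass1_vel hQ hθ h2 m2 v2 hσ hτ ((div_le_one c2).1 (by linarith)) (hw' σ hσ)
    have p1 := dpass1_pos hF z0 hst _ u1
    have p2 := dpass1_pos hF z hστ _ u2
    have d1 := dpass1_dir hD hα hang hR1 (u1 s (left_mem_Icc.2 hst))
    have d2 := dpass1_dir hD' hα hang' hR2 (u1 t (right_mem_Icc.2 hst))
    have k1 : θ ≤ ‖u (Φ s z0).2 - u (Φ σ z).2‖ := by
      refine (sq_le_sq₀ hθ.le (norm_nonneg _)).1 ?_
      rw [norm_u_sub_sq, ← th_sq]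
      have k2 := dpass1_inv hq hθ hθ1 h1 (hV' s hs)
      have k3 := dpass1_inv hQ hθ hθ1 h2 (hw' σ hσ)
      have k4 := pow_le_pow_left₀ hθ.le hth 2
      linarith
    have n1 := norm_nonneg ((Φ s z0).1 - (Φ σ z).1)
    rw [← r1] at d1 hR1 n1
    rw [← r2] at d2 hR2
    have e : (τ - σ) • (u (Φ s z0).2 - u (Φ σ z).2) =
        ((Φ t z0).1 - (Φ τ z).1 - (t - τ) • u (Φ s z0).2) -
        ((Φ s z0).1 - (Φ σ z).1 - (s - σ) • u (Φ s z0).2) -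
        ((Φ t z0).1 - (Φ s z0).1 - (t - s) • u (Φ s z0).2) +
        ((Φ τ z).1 - (Φ σ z).1 - (τ - σ) • u (Φ σ z).2) := by
      simp only [sub_smul, smul_sub]
      abel
    have k5 : (τ - σ) * θ ≤ 2 * R * (3 * α + θ / 125) + 2 * R * (3 * α + θ / 125) +
        θ / 125 * (t - s) + θ / 125 * (τ - σ) := by
      refine (mul_le_mul_of_nonneg_left k1 (sub_nonneg.2 hστ)).trans ?_
      rw [← Real.norm_of_nonneg (sub_nonneg.2 hστ), ← norm_smul, e,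
        Real.norm_of_nonneg (sub_nonneg.2 hστ)]
      exact norm_add_le_of_le (norm_sub_le_of_le (norm_sub_le_of_le d2 d1) p1) p2
    rw [abs_of_nonneg (sub_nonneg.2 hστ), le_div_iff₀ hθ]
    have k6 : θ * (t - s) ≤ θ * (τ - σ + 2 * R) :=
      mul_le_mul_of_nonneg_left (by linarith) hθ.le
    nlinarith [mul_pos hR hα, mul_pos hR hθ]
  · have e1 : 200 / θ + 1 ≤ 201 / θ := by
      rw [div_add_one hθ.ne', div_le_div_iff_of_pos_right hθ]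
      linarith
    refine (mul_le_mul_of_nonneg_right e1 (by positivity)).trans ?_
    rw [div_mul_div_comm, ← pow_two]
    refine div_le_div_of_nonneg_right ?_ (sq_nonneg θ)
    nlinarith [mul_pos hR hα, mul_pos hR hθ]

theorem boot_lower (hF : IsFlow A Φ Ψ) {τ : ℝ} (hτ : τ ≤ 1 / 10) (hB : Boot f0 Φ c P T' τ) {z : Z}
    (hz : f0 z ≠ 0) (h100 : 100 ≤ qq) (h1 : qm P ≤ qq) (h2 : qq ≤ P) (ha : 0 ≤ a) (hb : b ≤ T')
    (hl : b - a ≤ dl c P qq) {s0 : ℝ} (hs0 : s0 ∈ Icc a b) (h0 : qq ≤ q (Φ s0 z).2) :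
    (∀ s ∈ Icc a b, qq / 2 ≤ q (Φ s z).2) ∧
      ∀ s ∈ Icc a b, |q (Φ s z).2 - q (Φ s0 z).2| ≤ qq / 5 := by
  have hg : Continuous fun s => q (Φ s z).2 := contDiff_q.continuous.comp (cone_cont hF z).snd
  have hs : Real.sqrt qq ≤ qq / 10 := Real.sqrt_le_iff.2 ⟨by positivity, by nlinarith⟩
  have key : ∀ s ∈ Icc a b, ∀ t ∈ Icc a b, s ≤ t → (∀ r ∈ Icc s t, qq / 2 ≤ q (Φ r z).2) →
      |q (Φ t z).2 - q (Φ s z).2| ≤ qq / 5 := fun s hs' t ht hst h => by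
    obtain ⟨W, -, w1, w2⟩ := hB z hz qq h1 h2 s t (ha.trans hs'.1) hst (ht.2.trans hb)
      (by linarith [hs'.1, ht.2]) h
    have w3 := w2 s (left_mem_Icc.2 hst) t (right_mem_Icc.2 hst) hst
    have w4 := mul_le_mul_of_nonneg_right hτ (by linarith : 0 ≤ qq)
    exact (q_sub_le _ _).trans (by linarith)
  have k1 := dpass1_exit (b := b) (m := qq / 2) (s0 := s0) hg (by linarith) fun t ht h => by
    have := abs_le.1 (key s0 hs0 t ⟨hs0.1.trans ht.1, ht.2⟩ ht.1 h)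
    linarith [this.1]
  have k2 := dpass1_exit (b := -a) (m := qq / 2) (s0 := -s0) (g := fun s => q (Φ (-s) z).2)
    (hg.comp continuous_neg) (by simp only [neg_neg]; linarith) fun t ht h => by
      have := abs_le.1 (key (-t) ⟨by linarith [ht.2], by linarith [ht.1, hs0.2]⟩ s0 hs0
        (by linarith [ht.1]) fun r hr => by
          simpa only [neg_neg] using h (-r) ⟨by linarith [hr.2], by linarith [hr.1]⟩)
      linarith [this.2]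
  have k3 : ∀ s ∈ Icc a b, qq / 2 ≤ q (Φ s z).2 := fun s hs' => by
    rcases le_total s0 s with h | h
    · exact k1 s ⟨h, hs'.2⟩
    · simpa only [neg_neg] using k2 (-s) ⟨by linarith, by linarith [hs'.1]⟩
  refine ⟨k3, fun s hs' => ?_⟩
  rcases le_total s0 s with h | h
  · exact key s0 hs0 s hs' h fun r hr => k3 r ⟨hs0.1.trans hr.1, hr.2.trans hs'.2⟩
  · rw [abs_sub_comm]
    exact key s hs' s0 hs0 h fun r hr => k3 r ⟨hs'.1.trans hr.1, hr.2.trans hs0.2⟩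

end Vale.Agent.P107
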