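import Vale.Agent.P107.EnD

/-! BLOCK EN, file En0 (sub-lead helper37). Definitions in EnD.lean and Ctx.lean. Put the file name in front of helper lemma names.

Plan.
Algebra: coordinates or BasX. gfl_sq: for a unit vector n, |E - (n.E) n + n × B|^2 = |E|^2 - (n.E)^2 + |B|^2 - (n.B)^2 - 2 n.(E × B)
(norm_add_sq_real, inner_cross_cyc, cross_cross, inner_cross_left). continuous_jj: continuousAt_of_dominated (or continuous_parametric_integral_of_continuous on the compact ball): for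
t in a unit neighbourhood the integrand vanishes outside the ball |v| <= P0 + 2R(|t|+1) (dens_supp, norm_le_q) and is bounded by N. ec_of_maxOn: for t in Icc 0 T1 the functions A (t,.) and K (t,.) are equal;
ContDiffOn.comp_contDiff; fderiv of the slice = (fderivWithin ℝ K (slab T) p).comp (ContinuousLinearMap.inr ..), ContDiffOn.continuousOn_fderivWithin with UniqueDiffOn (uniqueDiffOn_Icc, prod);
HasDerivWithinAt.mono and congr; int0 from MemLp 2 (MemLp.integrable_norm_pow / integrable_sq). Wt.fderiv_eq_zero: φ vanishes near (t,x) (Filter.EventuallyEq.fderiv_eq).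
-/

namespace Vale.Agent.P107

open MeasureTheory Set Filter Topology
open scoped ContDiff RealInnerProductSpace ENNReal

variable {f0 : Z → ℝ} {N P0 R T : ℝ} {A : Fld} {Φ Ψ : ℝ → Z → Z} {φ : ℝ × V3 → ℝ}

theorem ed_nonneg (F : V3 × V3) : 0 ≤ ed F := by
  unfold ed
  positivity

theorem continuous_ed : Continuous ed := by
  unfold ed
  fun_prop

theorem norm_sq_le_ed (F : V3 × V3) : ‖F‖ ^ 2 ≤ 2 * ed F := by
  unfold ed
  rw [Prod.norm_def]
  rcases max_choice ‖F.1‖ ‖F.2‖ with h | h <;> rw [h] <;> nlinarith [sq_nonneg ‖F.1‖, sq_nonneg ‖F.2‖]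

theorem ed_le_norm_sq (F : V3 × V3) : ed F ≤ ‖F‖ ^ 2 := by
  unfold ed
  have h1 := pow_le_pow_left₀ (norm_nonneg _) (norm_fst_le F) 2
  have h2 := pow_le_pow_left₀ (norm_nonneg _) (norm_snd_le F) 2
  linarith

theorem ed_sub_le (F G : V3 × V3) : ed (F - G) ≤ 2 * ed F + 2 * ed G := by
  unfold ed
  have h1 := pow_le_pow_left₀ (norm_nonneg _) (norm_sub_le F.1 G.1) 2
  have h2 := pow_le_pow_left₀ (norm_nonneg _) (norm_sub_le F.2 G.2) 2
  rw [Prod.fst_sub, Prod.snd_sub]
  nlinarith [sq_nonneg (‖F.1‖ - ‖G.1‖), sq_nonneg (‖F.2‖ - ‖G.2‖)]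

theorem norm_cross_le_ed (F : V3 × V3) : ‖cross F.1 F.2‖ ≤ ed F := by
  unfold ed
  nlinarith [norm_cross_le F.1 F.2, sq_nonneg (‖F.1‖ - ‖F.2‖)]

theorem gfl_sq {D : V3} (hD : D ≠ 0) (F : V3 × V3) :
    gfl D F ^ 2 = 2 * (ed F - ⟪nrm D, cross F.1 F.2⟫) := by
  have h := norm_nrm hD
  rw [gfl, Real.sq_sqrt (by positivity), ed]
  generalize nrm D = n at h ⊢
  have h1 : n 0 ^ 2 + n 1 ^ 2 + n 2 ^ 2 = 1 := by
    have := EuclideanSpace.real_norm_sq_eq n
    rw [h, Fin.sum_univ_three] at this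
    linarith
  simp only [EuclideanSpace.real_norm_sq_eq, Fin.sum_univ_three, PiLp.inner_apply, cross,
    RCLike.inner_apply, conj_trivial, PiLp.add_apply, PiLp.sub_apply, PiLp.smul_apply, smul_eq_mul,
    Matrix.cons_val_zero, Matrix.cons_val_one, Matrix.cons_val]
  linear_combination ((F.1 0 * n 0 + F.1 1 * n 1 + F.1 2 * n 2) ^ 2 +
    (F.2 0 ^ 2 + F.2 1 ^ 2 + F.2 2 ^ 2)) * h1

theorem continuous_jj (hI : Init f0 N P0) (hA : App A R) (hF : IsFlow A Φ Ψ) :
    Continuous (jj f0 Ψ) := by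
  have hc : Continuous fun w : (ℝ × V3) × V3 => dens f0 Ψ w.1.1 (w.1.2, w.2) • u w.2 :=
    ((hF.continuous_dens hI).comp (f := fun w : (ℝ × V3) × V3 => (w.1.1, (w.1.2, w.2)))
      (by fun_prop)).smul (contDiff_u.continuous.comp continuous_snd)
  refine continuous_iff_continuousAt.2 fun p => ?_
  refine continuousAt_of_dominated (bound := (Metric.closedBall (0 : V3)
      (P0 + 2 * R * (|p.1| + 1))).indicator fun _ => N)
    (Eventually.of_forall fun x => (hc.comp (Continuous.prodMk_right x)).aestronglyMeasurable) ?_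
    ((integrable_indicator_iff measurableSet_closedBall).2
      (integrableOn_const measure_closedBall_lt_top.ne))
    (ae_of_all _ fun v => (hc.comp (Continuous.prodMk_left v)).continuousAt)
  filter_upwards [continuous_fst.continuousAt.eventually_lt_const
    (show p.1 < |p.1| + 1 by linarith [le_abs_self p.1])] with x hx
  refine ae_of_all _ fun v => ?_
  by_cases h : dens f0 Ψ x.1 (x.2, v) = 0
  · rw [h, zero_smul, norm_zero]
    exact indicator_nonneg (fun _ _ => zero_le_one.trans hI.one_le_N) _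
  · have h1 := (hF.dens_supp hI hA h).2
    have h2 : max x.1 0 ≤ |p.1| + 1 := max_le hx.le (by positivity)
    rw [indicator_of_mem (mem_closedBall_zero_iff.2 (by
      nlinarith [norm_le_q v, mul_le_mul_of_nonneg_left h2 hA.nonneg])), norm_smul, dens,
      Real.norm_of_nonneg (hI.nonneg _)]
    exact (mul_le_of_le_one_right (hI.nonneg _) (norm_u_lt v).le).trans (hI.le _)

theorem Wt.fderiv_eq_zero (h : Wt φ) :
    ∃ ρ : ℝ, ∀ t : ℝ, 0 ≤ t → ∀ x : V3, ρ ≤ ‖x‖ → φ (t, x) = 0 ∧ fderiv ℝ φ (t, x) = 0 := by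
  obtain ⟨ρ, hρ⟩ := h.supp
  refine ⟨ρ + 1, fun t ht x hx => ⟨hρ t (by linarith) x (by linarith), ?_⟩⟩
  have e : φ =ᶠ[𝓝 (t, x)] fun _ => 0 := by
    filter_upwards [continuous_fst.continuousAt.eventually_const_lt
      (show (-1 : ℝ) < ((t, x) : ℝ × V3).1 by linarith),
      (continuous_snd.norm).continuousAt.eventually_const_lt
      (show ρ < ‖((t, x) : ℝ × V3).2‖ by linarith)] with p h1 h2
    exact hρ p.1 h1.le p.2 h2.le
  rw [e.fderiv_eq, fderiv_fun_const]
  rfl

theorem Init.norm_le (hI : Init f0 N P0) {z : Z} (h : f0 z ≠ 0) : ‖z‖ ≤ P0 := by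
  obtain ⟨h1, h2⟩ := hI.supp z h
  exact max_le h1 ((norm_le_q _).trans h2)

theorem Init.integrable_mul (hI : Init f0 N P0) {g : Z → ℝ} (hg : Continuous g) :
    Integrable fun z => f0 z * g z := by
  refine (hI.smooth.continuous.mul hg).integrable_of_hasCompactSupport
    (HasCompactSupport.mul_right (HasCompactSupport.intro (isCompact_closedBall (0 : Z) P0)
      fun z hz => ?_))
  by_contra h
  exact hz (mem_closedBall_zero_iff.2 (hI.norm_le h))

theorem ec_of_maxOn {E0 B0 : V3 → V3} (h : Admissible f0 E0 B0) {T1 : ℝ} {K : Fld}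
    (hI : Init f0 N P0) (hA : App A R) (hF : IsFlow A Φ Ψ) (hT : 0 < T) (hT1 : 0 ≤ T1)
    (hT1' : T1 ≤ T) (hM : MaxOn T (dens f0 Ψ) K) (h0 : ∀ x, K (0, x) = (E0 x, B0 x))
    (hAK : ∀ p ∈ slab T1, A p = K p) : EC f0 N P0 R T1 A Φ Ψ := by
  have sub : Icc 0 T1 ⊆ Icc 0 T := Icc_subset_Icc_right hT1'
  have e : ∀ t ∈ Icc 0 T1, ∀ x, A (t, x) = K (t, x) := fun t ht x => hAK _ ⟨ht, mem_univ _⟩
  have ud : UniqueDiffOn ℝ (slab T) := (uniqueDiffOn_Icc hT).prod uniqueDiffOn_univ
  have fd : ∀ p ∈ slab T1, fderiv ℝ (fun x => A (p.1, x)) p.2 =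
      (fderivWithin ℝ K (slab T) p).comp (ContinuousLinearMap.inr ℝ ℝ V3) := fun p hp => by
    have h1 := (hM.c1.differentiableOn one_ne_zero p ⟨sub hp.1, mem_univ _⟩).hasFDerivWithinAt
    have h2 := HasFDerivWithinAt.comp (s := univ) (f := fun x : V3 => (p.1, x)) p.2 h1
      (hasFDerivAt_prodMk_right (𝕜 := ℝ) p.1 p.2).hasFDerivWithinAt
      fun x _ => ⟨sub hp.1, mem_univ _⟩
    rw [funext (e p.1 hp.1)]
    exact (hasFDerivWithinAt_univ.1 h2).fderiv
  refine ⟨hI, hA, hF, fun t ht => ?_, ?_, fun t ht x => ?_, fun t ht x => ?_, ?_⟩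
  · rw [funext (e t ht)]
    exact hM.c1.comp_contDiff (contDiff_const.prodMk contDiff_id) fun x => ⟨sub ht, mem_univ _⟩
  · refine ContinuousOn.congr ?_ fd
    exact ((hM.c1.continuousOn_fderivWithin ud le_rfl).mono
      (prod_mono sub Subset.rfl)).clm_comp continuousOn_const
  · simp only [e t ht]
    exact ((hM.amp t (sub ht) x).mono sub).congr (fun s hs => by rw [e s hs]) (by rw [e t ht])
  · simp only [e t ht]
    exact ((hM.far t (sub ht) x).mono sub).congr (fun s hs => by rw [e s hs]) (by rw [e t ht])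
  · simp only [e 0 ⟨le_rfl, hT1⟩, h0, ed]
    exact ((h.goodE.sq_int.integrable_norm_pow two_ne_zero).add
      (h.goodB.sq_int.integrable_norm_pow two_ne_zero)).div_const 2

end Vale.Agent.P107
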