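import Vale.Agent.P107.EnD

/-! BLOCK EN, file En1 (sub-lead helper37). Definitions in EnD.lean and Ctx.lean. Put the file name in front of helper lemma names.

Plan.
swap_slab: g is integrable for (volume.restrict (Ioc 0 t1)).prod μ: it is integrable on the compact set Icc 0 t1 ×ˢ closedBall 0 ρ (ContinuousOn.integrableOn_compact for volume.prod μ) and vanishes on the rest of
Icc 0 t1 ×ˢ univ (IntegrableOn.of_forall_diff_eq_zero); Measure.prod_restrict / restrict_prod_eq_prod_univ. Then Integrable.integral_prod_left/right, integral_integral_swap, intervalIntegral.integral_of_le,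
intervalIntegrable_iff_integrableOn_Ioc_of_le.
poynting: write fderiv ψ x (E × B) = ∑ i, (E × B) i * fderiv ψ x (e i) and integrate by parts in the direction e i = EuclideanSpace.single i 1
(integral_mul_fderiv_eq_neg_fderiv_mul_of_integrable; all products are continuous with compact support); the derivative of the coordinate functions (E x j * B x k) is given by the product rule with pd;
∑ i ∂_i (E × B)_i = ⟪B, curl E⟫ - ⟪E, curl B⟫ (Fin.sum_univ_three, simp [cross, curl, pd], ring). An equivalent route: ∫ fderiv G x (e i) = 0 for the C1 compactly supported G = ψ (E × B)_i.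
-/

namespace Vale.Agent.P107

open MeasureTheory Set Filter Topology
open scoped ContDiff RealInnerProductSpace ENNReal

variable {f0 : Z → ℝ} {N P0 R T : ℝ} {A : Fld} {Φ Ψ : ℝ → Z → Z} {φ : ℝ × V3 → ℝ}

theorem swap_slab {X : Type} [NormedAddCommGroup X] [ProperSpace X] [MeasurableSpace X]
    [BorelSpace X] [SecondCountableTopology X] (μ : Measure X) [IsFiniteMeasureOnCompacts μ]
    [SFinite μ] {g : ℝ × X → ℝ} {t1 ρ : ℝ} (ht1 : 0 ≤ t1)
    (hg : ContinuousOn g (Icc 0 t1 ×ˢ univ))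
    (hs : ∀ t ∈ Icc 0 t1, ∀ x, ρ ≤ ‖x‖ → g (t, x) = 0) :
    Integrable (fun x => ∫ t in (0 : ℝ)..t1, g (t, x)) μ ∧
      IntervalIntegrable (fun t => ∫ x, g (t, x) ∂μ) volume 0 t1 ∧
      ∫ x, (∫ t in (0 : ℝ)..t1, g (t, x)) ∂μ = ∫ t in (0 : ℝ)..t1, ∫ x, g (t, x) ∂μ := by
  have h1 : IntegrableOn g (Icc 0 t1 ×ˢ univ) (volume.prod μ) := by
    refine ((hg.mono (prod_mono_right (subset_univ _))).integrableOn_compact
      (isCompact_Icc.prod (isCompact_closedBall 0 ρ))).of_forall_sdiff_eq_zero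
      (measurableSet_Icc.prod MeasurableSet.univ) fun p hp => hs p.1 hp.1.1 p.2 ?_
    exact le_of_not_ge fun h => hp.2 ⟨hp.1.1, mem_closedBall_zero_iff.2 h⟩
  have h2 : Integrable g ((volume.restrict (Ioc 0 t1)).prod μ) := by
    rw [Measure.restrict_prod_eq_prod_univ]
    exact h1.mono_set (prod_mono_left Ioc_subset_Icc_self)
  simp only [intervalIntegral.integral_of_le ht1, intervalIntegrable_iff_integrableOn_Ioc_of_le ht1]
  exact ⟨h2.integral_prod_right, h2.integral_prod_left,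
    (integral_integral_swap (f := fun t x => g (t, x)) h2).symm⟩

theorem En1_ibp {G ψ : V3 → ℝ} (hG : ContDiff ℝ 1 G) (hψ : ContDiff ℝ 1 ψ)
    (hc : HasCompactSupport ψ) (v : V3) :
    Integrable (fun x => ψ x * fderiv ℝ G x v + fderiv ℝ ψ x v * G x) ∧
      ∫ x, (ψ x * fderiv ℝ G x v + fderiv ℝ ψ x v * G x) = 0 := by
  have h1 : Integrable fun x => ψ x * fderiv ℝ G x v :=
    (hψ.continuous.mul ((hG.continuous_fderiv one_ne_zero).clm_apply
      continuous_const)).integrable_of_hasCompactSupport hc.mul_right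
  have h2 : Integrable fun x => fderiv ℝ ψ x v * G x :=
    (((hψ.continuous_fderiv one_ne_zero).clm_apply continuous_const).mul
      hG.continuous).integrable_of_hasCompactSupport (hc.fderiv_apply ℝ v).mul_right
  refine ⟨h1.add h2, ?_⟩
  rw [integral_add h1 h2, integral_mul_fderiv_eq_neg_fderiv_mul_of_integrable h2 h1
    ((hψ.continuous.mul hG.continuous).integrable_of_hasCompactSupport hc.mul_right)
    (fun x _ => hψ.differentiable one_ne_zero x) (fun x _ => hG.differentiable one_ne_zero x),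
    neg_add_cancel]

theorem En1_term {E B : V3 → V3} {ψ : V3 → ℝ} (hE : ContDiff ℝ 1 E) (hB : ContDiff ℝ 1 B)
    (hψ : ContDiff ℝ 1 ψ) (hc : HasCompactSupport ψ) (i j k : Fin 3) : ∃ F : V3 → ℝ,
      Integrable F ∧ ∫ x, F x = 0 ∧ ∀ x, F x = ψ x * (pd E i j x * B x k + E x j * pd B i k x) +
        fderiv ℝ ψ x (EuclideanSpace.single i 1) * (E x j * B x k) := by
  obtain ⟨h1, h2⟩ := En1_ibp (G := fun x => E x j * B x k)
    (((EuclideanSpace.proj j : V3 →L[ℝ] ℝ).contDiff.comp hE).mul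
      ((EuclideanSpace.proj k : V3 →L[ℝ] ℝ).contDiff.comp hB)) hψ hc (EuclideanSpace.single i 1)
  refine ⟨_, h1, h2, fun x => ?_⟩
  have h3 : HasFDerivAt (fun x => E x j * B x k) _ x :=
    ((EuclideanSpace.proj j : V3 →L[ℝ] ℝ).hasFDerivAt.comp x
      (hE.differentiable one_ne_zero x).hasFDerivAt).mul
    ((EuclideanSpace.proj k : V3 →L[ℝ] ℝ).hasFDerivAt.comp x
      (hB.differentiable one_ne_zero x).hasFDerivAt)
  rw [h3.fderiv]
  simp [pd]
  ring_nf
  simp

theorem En1_lin (l : V3 →L[ℝ] ℝ) (w : V3) : l w = l (EuclideanSpace.single 0 1) * w 0 +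
    l (EuclideanSpace.single 1 1) * w 1 + l (EuclideanSpace.single 2 1) * w 2 := by
  have e : w = w 0 • EuclideanSpace.single 0 1 + w 1 • EuclideanSpace.single 1 1 +
      w 2 • EuclideanSpace.single 2 1 := by
    ext i
    fin_cases i <;> simp
  conv_lhs => rw [e]
  simp only [map_add, map_smul, smul_eq_mul, mul_comm]

theorem poynting {E B : V3 → V3} {ψ : V3 → ℝ} (hE : ContDiff ℝ 1 E) (hB : ContDiff ℝ 1 B)
    (hψ : ContDiff ℝ 1 ψ) (hc : HasCompactSupport ψ) :
    ∫ x, (ψ x * (⟪E x, curl B x⟫ - ⟪B x, curl E x⟫) - fderiv ℝ ψ x (cross (E x) (B x))) = 0 := by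
  obtain ⟨F1, a1, b1, c1⟩ := En1_term hE hB hψ hc 0 1 2
  obtain ⟨F2, a2, b2, c2⟩ := En1_term hE hB hψ hc 0 2 1
  obtain ⟨F3, a3, b3, c3⟩ := En1_term hE hB hψ hc 1 2 0
  obtain ⟨F4, a4, b4, c4⟩ := En1_term hE hB hψ hc 1 0 2
  obtain ⟨F5, a5, b5, c5⟩ := En1_term hE hB hψ hc 2 0 1
  obtain ⟨F6, a6, b6, c6⟩ := En1_term hE hB hψ hc 2 1 0
  have e : ∀ x, ψ x * (⟪E x, curl B x⟫ - ⟪B x, curl E x⟫) - fderiv ℝ ψ x (cross (E x) (B x)) =
      (F2 x + F4 x + F6 x) - (F1 x + F3 x + F5 x) := fun x => by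
    rw [c1, c2, c3, c4, c5, c6, En1_lin]
    simp [cross, curl, PiLp.inner_apply, Fin.sum_univ_three]
    ring
  have s : ∀ {F G H : V3 → ℝ}, Integrable F → Integrable G → Integrable H →
      ∫ x, (F x + G x + H x) = (∫ x, F x) + (∫ x, G x) + ∫ x, H x := fun hF hG hH =>
    (integral_add (hF.add hG) hH).trans (congrArg (· + _) (integral_add hF hG))
  simp only [e]
  refine (integral_sub ((a2.add a4).add a6) ((a1.add a3).add a5)).trans ?_
  simp only [Pi.add_apply]
  rw [s a2 a4 a6, s a1 a3 a5, b1, b2, b3, b4, b5, b6, sub_self]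

end Vale.Agent.P107
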