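import Vale.Agent.P107.En0
import Vale.Agent.P107.En1

/-! BLOCK EN, file En2 (sub-lead helper37). Definitions in EnD.lean and Ctx.lean. Put the file name in front of helper lemma names.

Plan.
Write E, B for the components of A, e = ed (A p), S = E × B, c p = ⟪E, curl B⟫ - ⟪B, curl E⟫ (curls of the time slices; continuous on the slab because fderiv of a component slice is
(fst or snd) composed with the fderiv in contD). g1 p = fderiv φ p (e, S), g2 p = φ p * c p - fderiv φ p (0, S), g3 p = φ p ⟪E, jj p⟫: all continuous on Icc 0 t1 ×ˢ univ and zero for |x| >= ρ (Wt.fderiv_eq_zero).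
For each x, t ↦ e φ has derivative g1 + g2 - g3 within Icc 0 T (HasDerivWithinAt.norm_sq or inner; chain rule for t ↦ φ (t,x) gives fderiv φ (t,x) (1,0); (e,S) = e • (1,0) + (0,S)), so
intervalIntegral.integral_eq_sub_of_hasDeriv_right_of_le or integral_eq_sub_of_hasDerivAt_of_le (continuity on Icc, HasDerivAt on Ioo) gives the pointwise identity. Integrate in x, swap_slab for g1, g2, g3;
for each t, ∫ g2 = 0 by poynting with ψ = φ (t,.) (fderiv of the slice: fderiv φ (t,x) (0,v)).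
-/

namespace Vale.Agent.P107

open MeasureTheory Set Filter Topology
open scoped ContDiff RealInnerProductSpace ENNReal

variable {f0 : Z → ℝ} {N P0 R T : ℝ} {A : Fld} {Φ Ψ : ℝ → Z → Z} {φ : ℝ × V3 → ℝ}

theorem en2_curl (h : EC f0 N P0 R T A Φ Ψ) (l : V3 × V3 →L[ℝ] V3) :
    ContinuousOn (fun p : ℝ × V3 => curl (fun y => l (A (p.1, y))) p.2) (slab T) := by
  have h1 : ContinuousOn (fun p : ℝ × V3 => fderiv ℝ (fun y => l (A (p.1, y))) p.2) (slab T) :=
    (continuousOn_const.clm_comp h.contD).congr fun p hp =>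
      (l.hasFDerivAt.comp p.2
        ((h.c1x p.1 hp.1).differentiable one_ne_zero p.2).hasFDerivAt).fderiv
  have h2 : Continuous fun L : V3 →L[ℝ] V3 =>
      (!₂[L (EuclideanSpace.single 1 1) 2 - L (EuclideanSpace.single 2 1) 1,
        L (EuclideanSpace.single 2 1) 0 - L (EuclideanSpace.single 0 1) 2,
        L (EuclideanSpace.single 0 1) 1 - L (EuclideanSpace.single 1 1) 0] : V3) := by
    fun_prop
  exact h2.comp_continuousOn h1

theorem en2_der (h : EC f0 N P0 R T A Φ Ψ) (hφ : Wt φ) {t : ℝ} (ht : t ∈ Icc 0 T) (x : V3) :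
    HasDerivWithinAt (fun s => ed (A (s, x)) * φ (s, x))
      (fderiv ℝ φ (t, x) (ed (A (t, x)), cross (A (t, x)).1 (A (t, x)).2) +
        (φ (t, x) * (⟪(A (t, x)).1, curl (fun y => (A (t, y)).2) x⟫ -
          ⟪(A (t, x)).2, curl (fun y => (A (t, y)).1) x⟫) -
          fderiv ℝ φ (t, x) (0, cross (A (t, x)).1 (A (t, x)).2)) -
        φ (t, x) * ⟪(A (t, x)).1, jj f0 Ψ (t, x)⟫) (Icc 0 T) t := by
  have h1 := ((h.amp t ht x).norm_sq.add (h.far t ht x).norm_sq).div_const 2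
  have h2 : HasDerivAt (fun s => φ (s, x)) (fderiv ℝ φ (t, x) (1, 0)) t :=
    (hφ.c1.differentiable one_ne_zero (t, x)).hasFDerivAt.comp_hasDerivAt t
      ((hasDerivAt_id t).prodMk (hasDerivAt_const t x))
  refine (h1.mul h2.hasDerivWithinAt).congr_deriv ?_
  have e : ((ed (A (t, x)), cross (A (t, x)).1 (A (t, x)).2) : ℝ × V3) =
      ed (A (t, x)) • ((1 : ℝ), (0 : V3)) + (0, cross (A (t, x)).1 (A (t, x)).2) := by simp
  rw [e, map_add, map_smul, inner_sub_right, inner_neg_right, smul_eq_mul]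
  simp only [ed, Pi.add_apply]
  ring

theorem en2_int {F g1 g2 g3 : ℝ × V3 → ℝ} {t1 ρ : ℝ} (ht1 : 0 ≤ t1) (hF : Continuous F)
    (h1 : ContinuousOn g1 (Icc 0 t1 ×ˢ univ)) (h2 : ContinuousOn g2 (Icc 0 t1 ×ˢ univ))
    (h3 : ContinuousOn g3 (Icc 0 t1 ×ˢ univ)) (s0 : ∀ x, ρ ≤ ‖x‖ → F (0, x) = 0)
    (s1 : ∀ t ∈ Icc 0 t1, ∀ x, ρ ≤ ‖x‖ → g1 (t, x) = 0)
    (s2 : ∀ t ∈ Icc 0 t1, ∀ x, ρ ≤ ‖x‖ → g2 (t, x) = 0)
    (s3 : ∀ t ∈ Icc 0 t1, ∀ x, ρ ≤ ‖x‖ → g3 (t, x) = 0)
    (hd : ∀ t ∈ Ioo 0 t1, ∀ x, HasDerivAt (fun s => F (s, x))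
      (g1 (t, x) + g2 (t, x) - g3 (t, x)) t)
    (hz : ∀ t ∈ Icc 0 t1, ∫ x, g2 (t, x) = 0) :
    ∫ x, F (t1, x) = (∫ x, F (0, x)) + (∫ x, ∫ t in (0 : ℝ)..t1, g1 (t, x)) -
      ∫ t in (0 : ℝ)..t1, ∫ x, g3 (t, x) := by
  have sl : ∀ {g : ℝ × V3 → ℝ}, ContinuousOn g (Icc 0 t1 ×ˢ univ) → ∀ x,
      IntervalIntegrable (fun t => g (t, x)) volume 0 t1 := fun hg x =>
    (hg.comp (Continuous.prodMk_left x).continuousOn
      fun t ht => ⟨ht, mem_univ _⟩).intervalIntegrable_of_Icc ht1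
  have e : ∀ x, F (t1, x) = F (0, x) + (∫ t in (0 : ℝ)..t1, g1 (t, x)) +
      (∫ t in (0 : ℝ)..t1, g2 (t, x)) - ∫ t in (0 : ℝ)..t1, g3 (t, x) := fun x => by
    have h := intervalIntegral.integral_eq_sub_of_hasDerivAt_of_le ht1
      (hF.comp (Continuous.prodMk_left x)).continuousOn (fun t ht => hd t ht x)
      (((sl h1 x).add (sl h2 x)).sub (sl h3 x))
    rw [intervalIntegral.integral_sub ((sl h1 x).add (sl h2 x)) (sl h3 x),
      intervalIntegral.integral_add (sl h1 x) (sl h2 x)] at h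
    simp only [Function.comp_apply] at h
    linarith
  have i0 : Integrable fun x => F (0, x) :=
    (hF.comp (Continuous.prodMk_right 0)).integrable_of_hasCompactSupport
      (HasCompactSupport.intro (isCompact_closedBall (0 : V3) ρ) fun x hx =>
        s0 x (not_le.mp fun h => hx (mem_closedBall_zero_iff.mpr h)).le)
  obtain ⟨i1, -, -⟩ := swap_slab volume ht1 h1 s1
  obtain ⟨i2, -, e2⟩ := swap_slab volume ht1 h2 s2
  obtain ⟨i3, -, e3⟩ := swap_slab volume ht1 h3 s3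
  have e4 : ∫ t in (0 : ℝ)..t1, ∫ x, g2 (t, x) = 0 := by
    rw [intervalIntegral.integral_congr (g := fun _ => 0) fun t ht => hz t (by
      rwa [uIcc_of_le ht1] at ht), intervalIntegral.integral_zero]
  have a1 := integral_add i0 i1
  have a2 := integral_add (i0.add i1) i2
  have a3 := integral_sub ((i0.add i1).add i2) i3
  simp only [Pi.add_apply] at a2 a3
  rw [funext e, a3, a2, a1, e2, e3, e4, add_zero]

theorem field_id (h : EC f0 N P0 R T A Φ Ψ) (hφ : Wt φ) {t1 : ℝ} (ht1 : t1 ∈ Icc 0 T) :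
    Integrable (IF A φ t1) ∧
      WF A φ t1 = WF A φ 0 + (∫ x, IF A φ t1 x) - JF f0 A Ψ φ t1 := by
  obtain ⟨ρ, hρ⟩ := hφ.fderiv_eq_zero
  have sub : Icc 0 t1 ×ˢ (univ : Set V3) ⊆ slab T :=
    prod_mono (Icc_subset_Icc_right ht1.2) Subset.rfl
  have cA := h.app.continuous
  have cφ := hφ.c1.continuous
  have cD := hφ.c1.continuous_fderiv one_ne_zero
  have cS : Continuous fun p => cross (A p).1 (A p).2 := contDiff_cross.continuous.comp cA
  have ce := continuous_ed.comp cA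
  have c1 : Continuous fun p => fderiv ℝ φ p (ed (A p), cross (A p).1 (A p).2) :=
    cD.clm_apply (ce.prodMk cS)
  have c2 : ContinuousOn (fun p : ℝ × V3 => φ p * (⟪(A p).1, curl (fun y => (A (p.1, y)).2) p.2⟫ -
      ⟪(A p).2, curl (fun y => (A (p.1, y)).1) p.2⟫) -
      fderiv ℝ φ p (0, cross (A p).1 (A p).2)) (slab T) :=
    (cφ.continuousOn.mul
      ((cA.fst.continuousOn.inner (en2_curl h (ContinuousLinearMap.snd ℝ V3 V3))).sub
        (cA.snd.continuousOn.inner (en2_curl h (ContinuousLinearMap.fst ℝ V3 V3))))).sub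
      (cD.clm_apply (continuous_const.prodMk cS)).continuousOn
  have c3 : Continuous fun p => φ p * ⟪(A p).1, jj f0 Ψ p⟫ :=
    cφ.mul (cA.fst.inner (continuous_jj h.init h.app h.flow))
  have s1 : ∀ t ∈ Icc 0 t1, ∀ x : V3, ρ ≤ ‖x‖ →
      fderiv ℝ φ (t, x) (ed (A (t, x)), cross (A (t, x)).1 (A (t, x)).2) = 0 := fun t ht x hx => by
    rw [(hρ t ht.1 x hx).2]
    rfl
  refine ⟨(swap_slab volume ht1.1 c1.continuousOn s1).1, ?_⟩
  refine en2_int (F := fun p => ed (A p) * φ p) ht1.1 (ce.mul cφ) c1.continuousOn (c2.mono sub)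
    c3.continuousOn (fun x hx => ?_) s1 (fun t ht x hx => ?_) (fun t ht x hx => ?_)
    (fun t ht x => (en2_der h hφ ⟨ht.1.le, ht.2.le.trans ht1.2⟩ x).hasDerivAt
      (Icc_mem_nhds ht.1 (ht.2.trans_le ht1.2))) fun t ht => ?_
  · simp only [(hρ 0 le_rfl x hx).1, mul_zero]
  · simp only [(hρ t ht.1 x hx).1, (hρ t ht.1 x hx).2, zero_mul, zero_apply, sub_zero]
  · simp only [(hρ t ht.1 x hx).1, zero_mul]
  · have hc := h.c1x t ⟨ht.1, ht.2.trans ht1.2⟩
    have e : ∀ x v : V3, fderiv ℝ (fun y => φ (t, y)) x v = fderiv ℝ φ (t, x) (0, v) := fun x v =>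
      DFunLike.congr_fun ((hφ.c1.differentiable one_ne_zero (t, x)).hasFDerivAt.comp x
        (hasFDerivAt_prodMk_right (𝕜 := ℝ) t x)).fderiv v
    have h4 := poynting (ψ := fun y => φ (t, y)) hc.fst hc.snd
      (hφ.c1.comp (contDiff_const.prodMk contDiff_id))
      (HasCompactSupport.intro (isCompact_closedBall (0 : V3) ρ) fun x hx =>
        (hρ t ht.1 x (not_le.mp fun h => hx (mem_closedBall_zero_iff.mpr h)).le).1)
    simp only [e] at h4
    exact h4

end Vale.Agent.P107
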