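import Vale.Agent.P107.En0
import Vale.Agent.P107.En1

/-! BLOCK EN, file En3 (sub-lead helper37). Definitions in EnD.lean and Ctx.lean. Put the file name in front of helper lemma names.

Plan.
For each z, with (y,w) = Φ t z, the function t ↦ q w φ (t,y) is continuous and for t > 0 has derivative ⟪u w, E(t,y)⟫ φ + q w * fderiv φ (t,y) (1, u w) (hasDerivAt_q_comp, mom_deriv, inner_u_lor, pos_deriv, chain rule).
FTC on [0,t1], multiply by f0 z, integrate in z, swap_slab on X = Z (ρ = P0 + 1, Init.norm_le; all integrands are globally continuous: contΦ, App.continuous).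
work_eq (Liouville): G (x,v) = dens t (x,v) * (φ (t,x) ⟪E (t,x), u v⟫) is continuous with compact support (dens_supp); ∫ G = ∫ G ∘ Φ t (MeasurePreserving.integral_comp for the homeomorphism Φ t with inverse Ψ t:
build a MeasurableEmbedding, or use integral_map with (hF.mp t).map_eq), dens_flow; Fubini integral_prod (Measure.volume_eq_prod), integral_inner, real_inner_smul_right.
-/

namespace Vale.Agent.P107

open MeasureTheory Set Filter Topology
open scoped ContDiff RealInnerProductSpace ENNReal

variable {f0 : Z → ℝ} {N P0 R T : ℝ} {A : Fld} {Φ Ψ : ℝ → Z → Z} {φ : ℝ × V3 → ℝ}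

theorem work_eq (hI : Init f0 N P0) (hA : App A R) (hF : IsFlow A Φ Ψ) (hφ : Continuous φ)
    (t : ℝ) :
    ∫ z, f0 z * (⟪u (Φ t z).2, (A (t, (Φ t z).1)).1⟫ * φ (t, (Φ t z).1)) =
      ∫ x, φ (t, x) * ⟪(A (t, x)).1, jj f0 Ψ (t, x)⟫ := by
  have hu := contDiff_u.continuous
  have hd : Continuous (dens f0 Ψ t) :=
    (hF.continuous_dens hI).comp (Continuous.prodMk_right t)
  have hp : Continuous fun z : Z => (t, z.1) := continuous_const.prodMk continuous_fst
  have hk : Continuous fun z : Z => ⟪u z.2, (A (t, z.1)).1⟫ * φ (t, z.1) :=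
    ((hu.comp continuous_snd).inner (hA.continuous.comp hp).fst).mul (hφ.comp hp)
  have hG := (hd.mul hk).aestronglyMeasurable (μ := volume)
  have hΦ : Continuous (Φ t) := hF.contΦ.comp (Continuous.prodMk_right t)
  have hi := ((hF.mp t).integrable_comp hG).1 ((hI.integrable_mul (hk.comp hΦ)).congr
    (ae_of_all _ fun z => by simp only [Function.comp_apply, Pi.mul_apply, hF.dens_flow]))
  have h1 := integral_map (μ := volume) hΦ.aemeasurable (by rw [(hF.mp t).map_eq]; exact hG)
  rw [(hF.mp t).map_eq] at h1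
  simp only [Pi.mul_apply, hF.dens_flow] at h1
  rw [← h1]
  refine (integral_prod _ hi).trans (integral_congr_ae (ae_of_all _ fun x => ?_))
  have h2 : Integrable fun v => dens f0 Ψ t (x, v) • u v := by
    refine ((hd.comp (Continuous.prodMk_right x)).smul hu).integrable_of_hasCompactSupport
      (HasCompactSupport.intro (isCompact_closedBall 0 (P0 + 2 * R * max t 0)) fun v hv => ?_)
    have h3 : dens f0 Ψ t (x, v) = 0 := by_contra fun h =>
      hv (mem_closedBall_zero_iff.2 ((norm_le_q v).trans (hF.dens_supp hI hA h).2))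
    simp only [Pi.smul_apply', Function.comp_apply, h3, zero_smul]
  simp only [jj]
  rw [← integral_inner h2, ← integral_const_mul]
  refine integral_congr_ae (ae_of_all _ fun v => ?_)
  simp only [Pi.mul_apply, real_inner_smul_right]
  rw [real_inner_comm]
  ring

theorem particle_id (hI : Init f0 N P0) (hA : App A R) (hF : IsFlow A Φ Ψ) (hφ : Wt φ) {t1 : ℝ}
    (ht1 : 0 ≤ t1) :
    Integrable (fun z => f0 z * IP Φ φ t1 z) ∧
      WP f0 Φ φ t1 = WP f0 Φ φ 0 + (∫ z, f0 z * IP Φ φ t1 z) + JF f0 A Ψ φ t1 := by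
  have hu := contDiff_u.continuous.comp hF.contΦ.snd
  have hq := contDiff_q.continuous.comp hF.contΦ.snd
  have hp : Continuous fun p : ℝ × Z => (p.1, (Φ p.1 p.2).1) := continuous_fst.prodMk hF.contΦ.fst
  have hc := hφ.c1.continuous
  have h0 : Continuous fun p : ℝ × Z => q (Φ p.1 p.2).2 * φ (p.1, (Φ p.1 p.2).1) :=
    hq.mul (hc.comp hp)
  have h1 : Continuous fun p : ℝ × Z =>
      q (Φ p.1 p.2).2 * fderiv ℝ φ (p.1, (Φ p.1 p.2).1) (1, u (Φ p.1 p.2).2) :=
    hq.mul (((hφ.c1.continuous_fderiv one_ne_zero).comp hp).clm_apply (continuous_const.prodMk hu))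
  have h2 : Continuous fun p : ℝ × Z =>
      ⟪u (Φ p.1 p.2).2, (A (p.1, (Φ p.1 p.2).1)).1⟫ * φ (p.1, (Φ p.1 p.2).1) :=
    (hu.inner (hA.continuous.comp hp).fst).mul (hc.comp hp)
  have hf := hI.smooth.continuous.comp (continuous_snd (X := ℝ))
  have hz : ∀ z : Z, P0 + 1 ≤ ‖z‖ → f0 z = 0 := fun z h => by_contra fun h' => by
    linarith [hI.norm_le h']
  obtain ⟨a1, -, -⟩ := swap_slab volume ht1 (hf.mul h1).continuousOn (ρ := P0 + 1)
    fun t _ z h => by simp only [Pi.mul_apply, Function.comp_apply, hz z h, zero_mul]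
  obtain ⟨b1, -, b3⟩ := swap_slab volume ht1 (hf.mul h2).continuousOn (ρ := P0 + 1)
    fun t _ z h => by simp only [Pi.mul_apply, Function.comp_apply, hz z h, zero_mul]
  simp only [Pi.mul_apply, Function.comp_apply, work_eq hI hA hF hc] at a1 b1 b3
  simp only [intervalIntegral.integral_const_mul] at a1 b1 b3
  refine ⟨a1, ?_⟩
  have c0 := hI.integrable_mul (h0.comp (Continuous.prodMk_right 0))
  have c1 := integral_add c0 a1
  have c2 := integral_add (c0.add a1) b1
  simp only [Pi.add_apply] at c2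
  rw [c1, b3] at c2
  refine Eq.trans (integral_congr_ae (ae_of_all _ fun z => ?_)) c2
  have d1 := (h1.comp (Continuous.prodMk_left z)).intervalIntegrable (μ := volume) 0 t1
  have d2 := (h2.comp (Continuous.prodMk_left z)).intervalIntegrable (μ := volume) 0 t1
  have d3 := intervalIntegral.integral_eq_sub_of_hasDerivAt_of_le ht1
    (h0.comp (Continuous.prodMk_left z)).continuousOn (fun t ht => by
      have e1 := hasDerivAt_q_comp (hF.mom_deriv ht.1 z)
      rw [inner_u_lor] at e1
      have e2 := (hφ.c1.differentiable one_ne_zero (t, (Φ t z).1)).hasFDerivAt.comp_hasDerivAt t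
        ((hasDerivAt_id t).prodMk (hF.pos_deriv t z))
      exact (e1.mul e2).congr_deriv (add_comm _ _)) (d1.add d2)
  rw [intervalIntegral.integral_add d1 d2] at d3
  simp only [Function.comp_apply] at d3 ⊢
  linear_combination -f0 z * d3

end Vale.Agent.P107
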