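import Vale.Agent.P107.En2
import Vale.Agent.P107.En3

/-! BLOCK EN, file En4 (sub-lead helper37). Definitions in EnD.lean and Ctx.lean. Put the file name in front of helper lemma names.

Plan.
weighted_id: add field_id and particle_id. causal_le: IF <= 0 (dec with norm_cross_le_ed, intervalIntegral.integral_nonneg or integral_mono_on; note a non integrable interval integral is 0, use
intervalIntegral.integral_nonneg on the negative), IP <= 0 (norm_u_lt), WF t1, WP t1 >= 0, WF 0 + WP 0 <= W0 (integral_mono with int0, Init.integrable_mul, IsFlow.zero).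
slice_le: φ k p = smoothTransition (k - p.1 - q p.2) is Causal: fderiv φ p (a,v) = ζ'(..) (-a - ⟪u p.2, v⟫) with ζ' >= 0 (Real.smoothTransition.monotone, Monotone.deriv_nonneg); support: q x >= |x|.
It increases in k and tends to 1. WP → ∫ f0 q (dominated, or eventually equal). For the field part: integrable_of_tendsto / lintegral monotone convergence
(lintegral_tendsto_of_tendsto_of_monotone, ofReal_integral_eq_lintegral_ofReal), then dominated convergence.
-/

namespace Vale.Agent.P107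

open MeasureTheory Set Filter Topology
open scoped ContDiff RealInnerProductSpace ENNReal

variable {f0 : Z → ℝ} {N P0 R T : ℝ} {A : Fld} {Φ Ψ : ℝ → Z → Z} {φ : ℝ × V3 → ℝ}

theorem weighted_id (h : EC f0 N P0 R T A Φ Ψ) (hφ : Wt φ) {t1 : ℝ} (ht1 : t1 ∈ Icc 0 T) :
    Integrable (IF A φ t1) ∧ Integrable (fun z => f0 z * IP Φ φ t1 z) ∧
      WF A φ t1 + WP f0 Φ φ t1 =
        WF A φ 0 + WP f0 Φ φ 0 + (∫ x, IF A φ t1 x) + ∫ z, f0 z * IP Φ φ t1 z := by
  obtain ⟨h1, h2⟩ := field_id h hφ ht1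
  obtain ⟨h3, h4⟩ := particle_id h.init h.app h.flow hφ ht1.1
  exact ⟨h1, h3, by linarith⟩

theorem causal_le (h : EC f0 N P0 R T A Φ Ψ) (hφ : Causal φ) {t1 : ℝ} (ht1 : t1 ∈ Icc 0 T) :
    WF A φ t1 + WP f0 Φ φ t1 ≤ W0 f0 A ∧
      ∫⁻ x, ENNReal.ofReal (-IF A φ t1 x) ≤ ENNReal.ofReal (W0 f0 A) ∧
      ∫⁻ z, ENNReal.ofReal (-(f0 z * IP Φ φ t1 z)) ≤ ENNReal.ofReal (W0 f0 A) := by
  obtain ⟨h1, h2, h3⟩ := weighted_id h hφ.wt ht1
  have hc := hφ.wt.c1.continuous
  have a1 : ∀ x, 0 ≤ -IF A φ t1 x := fun x => by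
    rw [IF, ← intervalIntegral.integral_neg]
    exact intervalIntegral.integral_nonneg ht1.1 fun t _ =>
      neg_nonneg.2 (hφ.dec _ _ _ (norm_cross_le_ed _))
  have a2 : ∀ z, 0 ≤ -(f0 z * IP Φ φ t1 z) := fun z => by
    rw [← mul_neg, IP, ← intervalIntegral.integral_neg]
    exact mul_nonneg (h.init.nonneg z) (intervalIntegral.integral_nonneg ht1.1 fun t _ =>
      neg_nonneg.2 (mul_nonpos_of_nonneg_of_nonpos (q_pos _).le (hφ.dec _ _ _ (norm_u_lt _).le)))
  have a3 : 0 ≤ WF A φ t1 := integral_nonneg fun x => mul_nonneg (ed_nonneg _) (hφ.nonneg _)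
  have a4 : 0 ≤ WP f0 Φ φ t1 := integral_nonneg fun z =>
    mul_nonneg (h.init.nonneg z) (mul_nonneg (q_pos _).le (hφ.nonneg _))
  have a5 : WF A φ 0 ≤ ∫ x, ed (A (0, x)) := integral_mono_of_nonneg
    (Eventually.of_forall fun x => mul_nonneg (ed_nonneg _) (hφ.nonneg _)) h.int0
    (Eventually.of_forall fun x => mul_le_of_le_one_right (ed_nonneg _) (hφ.le_one _))
  have a6 : WP f0 Φ φ 0 ≤ ∫ z : Z, f0 z * q z.2 := integral_mono_of_nonneg
    (Eventually.of_forall fun z =>
      mul_nonneg (h.init.nonneg z) (mul_nonneg (q_pos _).le (hφ.nonneg _)))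
    (h.init.integrable_mul (contDiff_q.continuous.comp continuous_snd))
    (Eventually.of_forall fun z => by
      dsimp only
      rw [h.flow.zero]
      exact mul_le_mul_of_nonneg_left (mul_le_of_le_one_right (q_pos _).le (hφ.le_one _))
        (h.init.nonneg z))
  have a7 : 0 ≤ ∫ x, -IF A φ t1 x := integral_nonneg a1
  have a8 : 0 ≤ ∫ z, -(f0 z * IP Φ φ t1 z) := integral_nonneg a2
  rw [← ofReal_integral_eq_lintegral_ofReal (f := fun x => -IF A φ t1 x) h1.neg
    (Eventually.of_forall a1), ← ofReal_integral_eq_lintegral_ofReal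
    (f := fun z => -(f0 z * IP Φ φ t1 z)) h2.neg (Eventually.of_forall a2)]
  rw [integral_neg] at a7 a8
  rw [integral_neg, integral_neg, W0]
  exact ⟨by linarith, ENNReal.ofReal_le_ofReal (by linarith), ENNReal.ofReal_le_ofReal (by linarith)⟩

/-- The exhausting weights. -/
noncomputable def en4_w (k : ℕ) (p : ℝ × V3) : ℝ := Real.smoothTransition (k - p.1 - q p.2)

theorem en4_causal (k : ℕ) : Causal (en4_w k) := by
  have h1 : ContDiff ℝ 1 (en4_w k) := (Real.smoothTransition.contDiff (n := 1)).comp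
    ((contDiff_const.sub contDiff_fst).sub ((contDiff_q.of_le (by simp)).comp contDiff_snd))
  refine ⟨⟨h1, k + 1, fun t ht x hx => Real.smoothTransition.zero_of_nonpos ?_⟩,
    fun p => Real.smoothTransition.nonneg _, fun p => Real.smoothTransition.le_one _,
    fun p a v hv => ?_⟩
  · linarith [norm_le_q x]
  · have hd : HasDerivAt (fun s : ℝ => en4_w k (p + s • (a, v))) (fderiv ℝ (en4_w k) p (a, v)) 0 :=
      (h1.differentiable one_ne_zero p).hasFDerivAt.hasLineDerivAt (a, v)
    rw [← hd.deriv]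
    refine Antitone.deriv_nonpos fun s s' hs => Real.smoothTransition.monotone ?_
    have h2 := (abs_le.1 (q_sub_le (p.2 + s • v) (p.2 + s' • v))).2
    rw [add_sub_add_left_eq_sub, ← sub_smul, norm_smul, Real.norm_of_nonpos (sub_nonpos.2 hs)] at h2
    have h3 := mul_le_mul_of_nonneg_left hv (sub_nonneg.2 hs)
    simp only [Prod.fst_add, Prod.snd_add, Prod.smul_mk, smul_eq_mul]
    linarith

theorem en4_lim (p : ℝ × V3) : Tendsto (fun k => en4_w k p) atTop (𝓝 1) := by
  refine tendsto_const_nhds.congr' ?_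
  filter_upwards [tendsto_natCast_atTop_atTop.eventually_ge_atTop (1 + p.1 + q p.2)] with k hk
  exact (Real.smoothTransition.one_of_one_le (by linarith)).symm

theorem en4_fatou {G : ℕ → V3 → ℝ} {g : V3 → ℝ} {C : ℝ} (h1 : ∀ k, Integrable (G k))
    (h2 : ∀ k x, 0 ≤ G k x) (h3 : ∀ k, ∫ x, G k x ≤ C)
    (h4 : ∀ x, Tendsto (fun k => G k x) atTop (𝓝 (g x))) : Integrable g := by
  refine ⟨aestronglyMeasurable_of_tendsto_ae _ (fun k => (h1 k).1) (Eventually.of_forall h4), ?_⟩
  have e : ∫⁻ x, ‖g x‖ₑ = ∫⁻ x, liminf (fun k => ‖G k x‖ₑ) atTop :=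
    lintegral_congr fun x => (h4 x).enorm.liminf_eq.symm
  refine (e.trans_le ((lintegral_liminf_le' fun k => (h1 k).1.enorm).trans
    (liminf_le_of_frequently_le' (Frequently.of_forall fun k => ?_)))).trans_lt
      (ENNReal.ofReal_lt_top (r := C))
  rw [← ofReal_integral_norm_eq_lintegral_enorm (h1 k)]
  simp only [Real.norm_of_nonneg (h2 k _)]
  exact ENNReal.ofReal_le_ofReal (h3 k)

theorem slice_le (h : EC f0 N P0 R T A Φ Ψ) {t : ℝ} (ht : t ∈ Icc 0 T) :
    Integrable (fun x => ed (A (t, x))) ∧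
      (∫ x, ed (A (t, x))) + ∫ z, f0 z * q (Φ t z).2 ≤ W0 f0 A := by
  have h1 := fun k : ℕ => (causal_le h (en4_causal k) ht).1
  have hA : Continuous fun x => ed (A (t, x)) :=
    continuous_ed.comp (h.app.continuous.comp (Continuous.prodMk_right t))
  have hΦ : Continuous (Φ t) := h.flow.contΦ.comp (Continuous.prodMk_right t)
  have c1 : ∀ k : ℕ, Continuous (en4_w k) := fun k => (en4_causal k).wt.c1.continuous
  have c2 : ∀ k : ℕ, Continuous fun x => ed (A (t, x)) * en4_w k (t, x) := fun k =>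
    hA.mul ((c1 k).comp (Continuous.prodMk_right t))
  have n1 : ∀ (k : ℕ) x, 0 ≤ ed (A (t, x)) * en4_w k (t, x) := fun k x =>
    mul_nonneg (ed_nonneg _) ((en4_causal k).nonneg _)
  have n2 : ∀ (k : ℕ) z, 0 ≤ f0 z * (q (Φ t z).2 * en4_w k (t, (Φ t z).1)) := fun k z =>
    mul_nonneg (h.init.nonneg z) (mul_nonneg (q_pos _).le ((en4_causal k).nonneg _))
  have l1 : ∀ x, Tendsto (fun k : ℕ => ed (A (t, x)) * en4_w k (t, x)) atTop
      (𝓝 (ed (A (t, x)))) := fun x => by
    simpa using (en4_lim (t, x)).const_mul (ed (A (t, x)))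
  have hi : Integrable fun x => ed (A (t, x)) := by
    refine en4_fatou (C := W0 f0 A) (fun k => ?_) n1 (fun k => ?_) l1
    · obtain ⟨ρ, hρ⟩ := (en4_causal k).wt.supp
      refine (c2 k).integrable_of_hasCompactSupport (HasCompactSupport.intro
        (isCompact_closedBall (0 : V3) ρ) fun x hx => ?_)
      rw [hρ t (by linarith [ht.1]) x (not_le.1 (mt mem_closedBall_zero_iff.2 hx)).le, mul_zero]
    · exact (le_add_of_nonneg_right (integral_nonneg (n2 k))).trans (h1 k)
  refine ⟨hi, le_of_tendsto' (x := atTop) (Tendsto.add ?_ ?_) h1⟩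
  · refine tendsto_integral_of_dominated_convergence _ (fun k => (c2 k).aestronglyMeasurable) hi
      (fun k => Eventually.of_forall fun x => ?_) (Eventually.of_forall l1)
    rw [Real.norm_of_nonneg (n1 k x)]
    exact mul_le_of_le_one_right (ed_nonneg _) ((en4_causal k).le_one _)
  · have c3 : Continuous fun z => q (Φ t z).2 := contDiff_q.continuous.comp hΦ.snd
    refine tendsto_integral_of_dominated_convergence _ (fun k => (h.init.integrable_mul
      (c3.mul ((c1 k).comp (continuous_const.prodMk hΦ.fst)))).aestronglyMeasurable)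
      (h.init.integrable_mul c3) (fun k => Eventually.of_forall fun z => ?_)
      (Eventually.of_forall fun z => ?_)
    · rw [Real.norm_of_nonneg (n2 k z)]
      exact mul_le_mul_of_nonneg_left
        (mul_le_of_le_one_right (q_pos _).le ((en4_causal k).le_one _)) (h.init.nonneg z)
    · simpa using ((en4_lim (t, (Φ t z).1)).const_mul (q (Φ t z).2)).const_mul (f0 z)

end Vale.Agent.P107
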