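import Vale.Agent.P107.En0

/-! BLOCK EN, file En5 (sub-lead helper37). Definitions in EnD.lean and Ctx.lean. Put the file name in front of helper lemma names.

Plan.
ζ = Real.smoothTransition (ContDiff, monotone, zero_of_nonpos, one_of_one_le). rhoE η is smooth for η > 0 (ContDiff.sqrt of contDiff_norm_sq) with derivative v ↦ ⟪D, v⟫ / rhoE.
cw_fderiv: chain rule. cw_causal: ⟪D, v⟫ / rhoE <= |v|; support: for t >= -1 and |y| >= |x| + |s| + 1 the argument is <= 0.
conc: the weight W t = η⁻¹ * deriv ζ (a t / η) * b t is >= 0, continuous, is the derivative of - ζ (a t / η), so its integral is ζ (a 0/η) - ζ (a s/η) = 1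
(intervalIntegral.integral_eq_sub_of_hasDerivAt_of_le); deriv ζ vanishes outside [0,1] (eventually constant), so m W <= W g pointwise on Icc 0 s; intervalIntegral.integral_mono_on.
-/

namespace Vale.Agent.P107

open MeasureTheory Set Filter Topology
open scoped ContDiff RealInnerProductSpace ENNReal

variable {f0 : Z → ℝ} {N P0 R T : ℝ} {A : Fld} {Φ Ψ : ℝ → Z → Z} {φ : ℝ × V3 → ℝ}

theorem rho_pos {η : ℝ} (hη : 0 < η) (D : V3) : 0 < rhoE η D := by
  exact Real.sqrt_pos.2 (by positivity)

theorem norm_le_rho (η : ℝ) (D : V3) : ‖D‖ ≤ rhoE η D := by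
  exact Real.le_sqrt_of_sq_le (le_add_of_nonneg_right (sq_nonneg η))

theorem rhoE_le {η : ℝ} (hη : 0 ≤ η) (D : V3) : rhoE η D ≤ ‖D‖ + η := by
  have h := norm_nonneg D
  exact Real.sqrt_le_iff.2 ⟨by positivity, by nlinarith⟩

theorem deriv_smoothTransition_nonneg (r : ℝ) : 0 ≤ deriv Real.smoothTransition r := by
  exact Real.smoothTransition.monotone.deriv_nonneg

theorem continuous_deriv_smoothTransition : Continuous (deriv Real.smoothTransition) := by
  exact (Real.smoothTransition.contDiff (n := 1)).continuous_deriv le_rfl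

theorem en5_rho {η : ℝ} (hη : 0 < η) (D : V3) :
    HasFDerivAt (rhoE η) ((rhoE η D)⁻¹ • innerSL ℝ D) D := by
  have h := ((hasStrictFDerivAt_norm_sq D).hasFDerivAt.add_const (η ^ 2)).sqrt (by positivity)
  refine h.congr_fderiv ?_
  have h0 := (rho_pos hη D).ne'
  ext v
  simp only [rhoE] at h0 ⊢
  simp
  field_simp

theorem en5_st (r : ℝ) :
    HasDerivAt Real.smoothTransition (deriv Real.smoothTransition r) r :=
  ((Real.smoothTransition.contDiff (n := 1)).differentiable one_ne_zero r).hasDerivAt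

theorem en5_zero {r : ℝ} (h : r < 0 ∨ 1 < r) : deriv Real.smoothTransition r = 0 := by
  rcases h with h | h
  · have e : Real.smoothTransition =ᶠ[𝓝 r] fun _ => 0 :=
      (eventually_lt_nhds h).mono fun y hy => Real.smoothTransition.zero_of_nonpos hy.le
    rw [e.deriv_eq, deriv_const]
  · have e : Real.smoothTransition =ᶠ[𝓝 r] fun _ => 1 :=
      (eventually_gt_nhds h).mono fun y hy => Real.smoothTransition.one_of_one_le hy.le
    rw [e.deriv_eq, deriv_const]

theorem hasDerivAt_rho_comp {η : ℝ} (hη : 0 < η) {D : ℝ → V3} {D' : V3} {t : ℝ}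
    (h : HasDerivAt D D' t) : HasDerivAt (fun r => rhoE η (D r)) (⟪D t, D'⟫ / rhoE η (D t)) t := by
  refine ((en5_rho hη (D t)).comp_hasDerivAt t h).congr_deriv ?_
  simp [div_eq_inv_mul]

theorem cw_fderiv (s : ℝ) (x : V3) {η : ℝ} (hη : 0 < η) (p : ℝ × V3) (a : ℝ) (v : V3) :
    fderiv ℝ (cw s x η) p (a, v) =
      -(η⁻¹ * deriv Real.smoothTransition ((s - p.1 - rhoE η (x - p.2)) / η) *
        (a - ⟪x - p.2, v⟫ / rhoE η (x - p.2))) := by
  have h1 : HasFDerivAt (fun p : ℝ × V3 => x - p.2) (-ContinuousLinearMap.snd ℝ ℝ V3) p :=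
    hasFDerivAt_snd.const_sub x
  have h2 := ((hasFDerivAt_fst.const_sub s).fun_sub
    (HasFDerivAt.comp (f := fun p : ℝ × V3 => x - p.2) p (en5_rho hη _) h1)).mul_const η⁻¹
  have h3 := (en5_st ((s - p.1 - rhoE η (x - p.2)) * η⁻¹)).comp_hasFDerivAt p h2
  have e : cw s x η = Real.smoothTransition ∘ fun y : ℝ × V3 =>
      (s - y.1 - (rhoE η ∘ fun p : ℝ × V3 => x - p.2) y) * η⁻¹ := by
    funext p
    simp only [cw, div_eq_mul_inv, Function.comp]
  rw [e, HasFDerivAt.fderiv h3]
  simp [div_eq_mul_inv, inner_sub_left]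
  ring

theorem cw_causal (s : ℝ) (x : V3) {η : ℝ} (hη : 0 < η) : Causal (cw s x η) := by
  refine ⟨⟨?_, ‖x‖ + |s| + 1, fun t ht y hy => ?_⟩, fun p => Real.smoothTransition.nonneg _,
    fun p => Real.smoothTransition.le_one _, fun p a v hv => ?_⟩
  · refine (Real.smoothTransition.contDiff (n := 1)).comp (ContDiff.div_const ?_ η)
    refine (contDiff_const.sub contDiff_fst).sub (ContDiff.sqrt ?_ fun p => by positivity)
    exact ((contDiff_norm_sq ℝ).comp (contDiff_const.sub contDiff_snd)).add contDiff_const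
  · refine Real.smoothTransition.zero_of_nonpos (div_nonpos_of_nonpos_of_nonneg ?_ hη.le)
    have h1 := norm_le_rho η (x - y)
    have h2 := norm_sub_norm_le y x
    have h3 := le_abs_self s
    rw [norm_sub_rev] at h2
    change s - t - rhoE η (x - y) ≤ 0
    linarith
  · rw [cw_fderiv s x hη, neg_nonpos]
    refine mul_nonneg (mul_nonneg (inv_nonneg.2 hη.le) (deriv_smoothTransition_nonneg _)) ?_
    rw [sub_nonneg, div_le_iff₀ (rho_pos hη _), mul_comm]
    exact (real_inner_le_norm _ _).trans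
      (mul_le_mul (norm_le_rho η _) hv (norm_nonneg _) (rho_pos hη _).le)

theorem conc {a b g : ℝ → ℝ} {s η m : ℝ} (hs : 0 ≤ s) (hη : 0 < η) (ha : Continuous a)
    (hd : ∀ t ∈ Ioo 0 s, HasDerivAt a (-b t) t) (hb : Continuous b) (hb0 : ∀ t, 0 ≤ b t)
    (hg : Continuous g) (h0 : η ≤ a 0) (h1 : a s ≤ 0)
    (hm : ∀ t ∈ Icc 0 s, 0 ≤ a t → a t ≤ η → m ≤ g t) :
    m ≤ ∫ t in (0 : ℝ)..s, η⁻¹ * deriv Real.smoothTransition (a t / η) * b t * g t := by
  have hW : Continuous fun t => η⁻¹ * deriv Real.smoothTransition (a t / η) * b t :=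
    (continuous_const.mul (continuous_deriv_smoothTransition.comp (ha.div_const η))).mul hb
  have h2 := intervalIntegral.integral_eq_sub_of_hasDerivAt_of_le hs
    (f := fun t => -Real.smoothTransition (a t / η))
    (f' := fun t => η⁻¹ * deriv Real.smoothTransition (a t / η) * b t)
    (Real.smoothTransition.continuous.comp (ha.div_const η)).neg.continuousOn
    (fun t ht => by
      have h := ((en5_st (a t / η)).comp t ((hd t ht).div_const η)).fun_neg
      exact h.congr_deriv (by ring)) (hW.intervalIntegrable _ _)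
  rw [Real.smoothTransition.zero_of_nonpos (div_nonpos_of_nonpos_of_nonneg h1 hη.le),
    Real.smoothTransition.one_of_one_le ((one_le_div hη).2 h0)] at h2
  have h3 : ∫ t in (0 : ℝ)..s, η⁻¹ * deriv Real.smoothTransition (a t / η) * b t * m = m := by
    rw [intervalIntegral.integral_mul_const, h2]
    ring
  rw [← h3]
  refine intervalIntegral.integral_mono_on hs ((hW.mul continuous_const).intervalIntegrable _ _)
    ((hW.mul hg).intervalIntegrable _ _) fun t ht => ?_
  by_cases h4 : 0 ≤ a t ∧ a t ≤ η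
  · exact mul_le_mul_of_nonneg_left (hm t ht h4.1 h4.2) (mul_nonneg
      (mul_nonneg (inv_nonneg.2 hη.le) (deriv_smoothTransition_nonneg _)) (hb0 t))
  · rw [en5_zero ((not_and_or.1 h4).imp (fun h => div_neg_of_neg_of_pos (not_le.1 h) hη)
      fun h => (one_lt_div hη).2 (not_le.1 h))]
    simp

end Vale.Agent.P107
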