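import Vale.Agent.P107.En4
import Vale.Agent.P107.En5

/-! BLOCK EN, file En6 (sub-lead helper37). Definitions in EnD.lean and Ctx.lean. Put the file name in front of helper lemma names.

Plan.
η k = 1/(k+1), H k D = ofReal (- IF A (cw s x (η k)) s (x - D)); lintegral of H k <= ofReal W0 (causal_le, lintegral_sub_left_eq_self). For 0 < |D| < s and g t = gfl D (A (t, x - D))^2 / 2 (continuous in t by gfl_sq):
by cw_fderiv and gfl_sq, - IF = ∫ η⁻¹ ζ'(a t/η) * 1 * G t with a t = s - t - rhoE η D, G t = ed - ⟪D, S⟫ / rhoE = θ g t + (1-θ) ed >= θ g t, θ = |D| / rhoE η D → 1. For m < g (s - |D|) (or m <= 0), for large k conc applies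
with the constant θ m' (a t in [0,η] forces |t - (s - |D|)| <= 2η by rhoE_le, norm_le_rho). Hence ofReal (g (s - |D|)) <= liminf H k D (le_liminf_of_le / le_of_forall_lt), a.e. on the closed ball (the sphere and the origin are null:
Measure.addHaar_sphere, measure_singleton). Fatou: lintegral_liminf_le' (AEMeasurable from the integrability in weighted_id). The factor 2: lintegral_const_mul'.
-/

namespace Vale.Agent.P107

open MeasureTheory Set Filter Topology
open scoped ContDiff RealInnerProductSpace ENNReal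

variable {f0 : Z → ℝ} {N P0 R T : ℝ} {A : Fld} {Φ Ψ : ℝ → Z → Z} {φ : ℝ × V3 → ℝ}

theorem En6_abs {e S : ℝ → ℝ} (he : Continuous e) (hS : Continuous S) {s : ℝ} {D : V3}
    (hD : D ≠ 0) (hs : ‖D‖ < s) {m : ℝ} (hm : m < e (s - ‖D‖) - S (s - ‖D‖) / ‖D‖) :
    ∀ᶠ η in 𝓝 (0 : ℝ), 0 < η → m ≤ ∫ t in (0 : ℝ)..s, η⁻¹ *
      deriv Real.smoothTransition ((s - t - rhoE η D) / η) * 1 * (e t - S t / rhoE η D) := by
  have hD0 : 0 < ‖D‖ := norm_pos_iff.2 hD
  have hρ : Continuous fun η => rhoE η D := by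
    unfold rhoE
    fun_prop
  have hG : Continuous fun p : ℝ × ℝ => e p.2 - S p.2 / rhoE p.1 D :=
    (he.comp continuous_snd).sub ((hS.comp continuous_snd).div
      (hρ.comp continuous_fst) fun p => (hD0.trans_le (norm_le_rho _ _)).ne')
  have e0 : rhoE 0 D = ‖D‖ := by simp [rhoE]
  have h0 : m < e (s - ‖D‖) - S (s - ‖D‖) / rhoE 0 D := by rwa [e0]
  obtain ⟨δ, hδ, hδm⟩ := Metric.eventually_nhds_iff.1
    ((hG.tendsto (0, s - ‖D‖)).eventually (lt_mem_nhds h0))
  filter_upwards [gt_mem_nhds (half_pos hδ), gt_mem_nhds (half_pos (sub_pos.2 hs))]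
    with η k1 k2 hη0
  have e1 := rhoE_le hη0.le D
  have e2 := norm_le_rho η D
  refine conc (a := fun t => s - t - rhoE η D) (b := fun _ => 1)
    (g := fun t => e t - S t / rhoE η D) (by linarith) hη0 (by fun_prop)
    (fun t _ => ((hasDerivAt_id t).const_sub s).sub_const _)
    continuous_const (fun _ => zero_le_one) (he.sub (hS.div_const _))
    (by linarith) (by linarith) fun t _ ht0 ht1 => ?_
  refine (hδm (y := (η, t)) ?_).le
  rw [Prod.dist_eq, Real.dist_eq, Real.dist_eq, sub_zero, abs_of_pos hη0]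
  exact max_lt (by linarith) (abs_lt.2 ⟨by linarith, by linarith⟩)

theorem En6_point (hA : Continuous A) {s : ℝ} (x : V3) {D : V3} (hD : D ≠ 0) (hs : ‖D‖ < s)
    {m : ℝ} (hm : m < gfl D (A (s - ‖D‖, x - D)) ^ 2 / 2) :
    ∀ᶠ k : ℕ in atTop, m ≤ -IF A (cw s x (1 / ((k : ℝ) + 1))) s (x - D) := by
  have hF : Continuous fun t => A (t, x - D) := hA.comp (Continuous.prodMk_left _)
  have hc : Continuous fun t => cross (A (t, x - D)).1 (A (t, x - D)).2 :=
    Continuous.comp (f := fun t => A (t, x - D)) contDiff_cross.continuous hF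
  have h1 := En6_abs (e := fun t => ed (A (t, x - D)))
    (S := fun t => ⟪D, cross (A (t, x - D)).1 (A (t, x - D)).2⟫) (continuous_ed.comp hF)
    (continuous_const.inner hc) hD hs (m := m) (by
      rw [gfl_sq hD, nrm, real_inner_smul_left] at hm
      rw [div_eq_inv_mul]
      linarith)
  filter_upwards [tendsto_one_div_add_atTop_nhds_zero_nat.eventually h1] with k hk
  have hη0 : (0 : ℝ) < 1 / ((k : ℝ) + 1) := by positivity
  refine (hk hη0).trans_eq ?_
  unfold IF
  rw [← intervalIntegral.integral_neg]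
  congr 1
  funext t
  rw [cw_fderiv s x hη0]
  simp only [sub_sub_cancel]
  ring

theorem coneF_le (h : EC f0 N P0 R T A Φ Ψ) {s : ℝ} (hs : s ∈ Icc 0 T) (x : V3) :
    ∫⁻ D in {D : V3 | ‖D‖ ≤ s}, ENNReal.ofReal (gfl D (A (s - ‖D‖, x - D)) ^ 2) ≤
      ENNReal.ofReal (2 * W0 f0 A) := by
  have hη : ∀ k : ℕ, (0 : ℝ) < 1 / ((k : ℝ) + 1) := fun k => by positivity
  set H : ℕ → V3 → ℝ≥0∞ := fun k D =>
    ENNReal.ofReal (-IF A (cw s x (1 / ((k : ℝ) + 1))) s (x - D)) with hH
  have hHm : ∀ k, AEMeasurable (H k) volume := fun k =>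
    ((weighted_id h (cw_causal s x (hη k)).wt hs).1.comp_sub_left x).neg.aemeasurable.ennreal_ofReal
  have hHle : ∀ k, ∫⁻ D, H k D ≤ ENNReal.ofReal (W0 f0 A) := fun k =>
    (lintegral_sub_left_eq_self (fun y => ENNReal.ofReal
      (-IF A (cw s x (1 / ((k : ℝ) + 1))) s y)) x).trans_le
      (causal_le h (cw_causal s x (hη k)) hs).2.1
  have hS : MeasurableSet {D : V3 | ‖D‖ ≤ s} :=
    (isClosed_le continuous_norm continuous_const).measurableSet
  have n1 : ∀ᵐ D : V3, D ∉ Metric.sphere (0 : V3) s :=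
    measure_eq_zero_iff_ae_notMem.1 (Measure.addHaar_sphere _ _ _)
  have n2 : ∀ᵐ D : V3, D ∉ ({0} : Set V3) :=
    measure_eq_zero_iff_ae_notMem.1 (measure_singleton _)
  calc ∫⁻ D in {D : V3 | ‖D‖ ≤ s}, ENNReal.ofReal (gfl D (A (s - ‖D‖, x - D)) ^ 2)
      ≤ ∫⁻ D in {D : V3 | ‖D‖ ≤ s}, 2 * liminf (fun k => H k D) atTop := by
        refine lintegral_mono_ae ((ae_restrict_iff' hS).2 ?_)
        filter_upwards [n1, n2] with D h1 h2 h3
        have hlt : ‖D‖ < s := lt_of_le_of_ne h3 fun h4 => h1 (mem_sphere_zero_iff_norm.2 h4)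
        have e : ENNReal.ofReal (gfl D (A (s - ‖D‖, x - D)) ^ 2) =
            2 * ENNReal.ofReal (gfl D (A (s - ‖D‖, x - D)) ^ 2 / 2) := by
          generalize gfl D (A (s - ‖D‖, x - D)) ^ 2 = y
          rw [← ENNReal.ofReal_ofNat, ← ENNReal.ofReal_mul (by norm_num)]
          congr 1
          ring
        rw [e]
        refine mul_le_mul_right (le_of_forall_lt_imp_le_of_dense fun c hc => ?_) 2
        have hct : c ≠ ⊤ := ne_top_of_lt hc
        rw [← ENNReal.ofReal_toReal hct] at hc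
        refine le_liminf_of_le (by isBoundedDefault) ?_
        filter_upwards [En6_point h.app.continuous x h2 hlt
          ((ENNReal.ofReal_lt_ofReal_iff_of_nonneg ENNReal.toReal_nonneg).1 hc)] with k hk
        rw [← ENNReal.ofReal_toReal hct]
        exact ENNReal.ofReal_le_ofReal hk
    _ ≤ 2 * ∫⁻ D, liminf (fun k => H k D) atTop := by
        rw [← lintegral_const_mul' _ _ (by norm_num)]
        exact setLIntegral_le_lintegral _ _
    _ ≤ 2 * ENNReal.ofReal (W0 f0 A) := mul_le_mul_right ((lintegral_liminf_le' hHm).trans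
        (liminf_le_of_frequently_le' (Frequently.of_forall hHle))) 2
    _ = _ := by rw [ENNReal.ofReal_mul (by norm_num), ENNReal.ofReal_ofNat]

end Vale.Agent.P107
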