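import Vale.Agent.P107.En4
import Vale.Agent.P107.En5

/-! BLOCK EN, file En7 (sub-lead helper37). Definitions in EnD.lean and Ctx.lean. Put the file name in front of helper lemma names.

Plan.
Let G w = indicator {|w.1| <= s} (ofReal (q w.2 * dens f0 Ψ (s - |w.1|) (x - w.1, w.2))) (measurable: continuous_dens). By lintegral_cm the left side is the lintegral over z of G (cm Φ s x z), and by psi_cm, rt_eq,
G (cm z) = indicator (0 <= rt) ofReal (q (Φ rt z).2 * f0 z), rt = rt Φ s x z. If |x - z.1| > s then rt < 0 (if 0 <= rt: s - rt = |x - y rt| >= |x - z.1| - rt by pos_le), and |x - z.1| = s is a null set of z (sphere times univ).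
For |x - z.1| < s: a0 t = s - t - |x - y t| is strictly decreasing (pos_lt) and continuous with a0 rt = 0, a0 0 > 0 >= a0 s, so rt is in (0,s]. With η k = 1/(k+1), a t = s - t - rhoE η (x - y t), b t = 1 - ⟪x - y t, u w⟫ / rhoE >= 0,
cw_fderiv gives - IP = ∫ η⁻¹ ζ'(a t/η) b t q (w t). For m < q (w rt) there is δ > 0 with m <= q (w t) for |t - rt| < δ; if η < min (a0 (rt - δ)) (- a0 (rt + δ)) / 2 then a t in [0,η] gives |a0 t| <= 2η hence |t - rt| < δ. conc, liminf,
Fatou (lintegral_liminf_le', AEMeasurable from weighted_id), causal_le.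
-/

namespace Vale.Agent.P107

open MeasureTheory Set Filter Topology
open scoped ContDiff RealInnerProductSpace ENNReal

variable {f0 : Z → ℝ} {N P0 R T : ℝ} {A : Fld} {Φ Ψ : ℝ → Z → Z} {φ : ℝ × V3 → ℝ}

theorem En7_ip_eq (s : ℝ) (x : V3) {η : ℝ} (hη : 0 < η) (z : Z) :
    -IP Φ (cw s x η) s z = ∫ t in (0 : ℝ)..s,
      η⁻¹ * deriv Real.smoothTransition ((s - t - rhoE η (x - (Φ t z).1)) / η) *
        (1 - ⟪x - (Φ t z).1, u (Φ t z).2⟫ / rhoE η (x - (Φ t z).1)) * q (Φ t z).2 := by
  unfold IP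
  rw [← intervalIntegral.integral_neg]
  congr 1
  funext t
  rw [cw_fderiv s x hη]
  ring

theorem En7_cont_rho (η : ℝ) : Continuous (rhoE η) := by
  unfold rhoE
  fun_prop

theorem En7_point (hF : IsFlow A Φ Ψ) {s : ℝ} (hs : 0 ≤ s) (x : V3) (z : Z)
    (hz : ‖x - z.1‖ < s) {m : ℝ} (hm : m < q (Φ (rt Φ s x z) z).2) :
    ∀ᶠ k : ℕ in atTop, m ≤ -IP Φ (cw s x (1 / ((k : ℝ) + 1))) s z := by
  have hΦ : Continuous fun t => Φ t z := hF.contΦ.comp (Continuous.prodMk_left z)
  have hq : Continuous fun t => q (Φ t z).2 := contDiff_q.continuous.comp hΦ.snd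
  have hu : Continuous fun t => u (Φ t z).2 := contDiff_u.continuous.comp hΦ.snd
  set r := rt Φ s x z with hr
  set a0 : ℝ → ℝ := fun t => s - t - ‖x - (Φ t z).1‖ with ha0
  have hanti : ∀ t t', t < t' → a0 t' < a0 t := by
    intro t t' htt
    have h1 := hF.pos_lt htt z
    have h2 : ‖x - (Φ t z).1‖ ≤ ‖x - (Φ t' z).1‖ + ‖(Φ t' z).1 - (Φ t z).1‖ :=
      norm_sub_le_norm_sub_add_norm_sub _ _ _
    simp only [ha0]
    linarith
  have har : a0 r = 0 := by
    have := rt_spec hF s x z
    simp only [ha0]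
    linarith
  obtain ⟨δ, hδ, hδm⟩ : ∃ δ > 0, ∀ t, |t - r| < δ → m ≤ q (Φ t z).2 := by
    have := (hq.tendsto r).eventually (lt_mem_nhds hm)
    obtain ⟨δ, hδ, h⟩ := Metric.eventually_nhds_iff.1 this
    exact ⟨δ, hδ, fun t ht => (h (by rwa [Real.dist_eq])).le⟩
  have h1 : 0 < a0 (r - δ) := by have := hanti (r - δ) r (by linarith); linarith
  have h2 : 0 < -a0 (r + δ) := by have := hanti r (r + δ) (by linarith); linarith
  have h3 : 0 < s - ‖x - z.1‖ := by linarith
  have hev : ∀ c : ℝ, 0 < c → ∀ᶠ k : ℕ in atTop, 1 / ((k : ℝ) + 1) < c := fun c hc =>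
    tendsto_one_div_add_atTop_nhds_zero_nat.eventually (gt_mem_nhds hc)
  filter_upwards [hev _ (half_pos h1), hev _ h2, hev _ (half_pos h3)] with k k1 k2 k3
  set η : ℝ := 1 / ((k : ℝ) + 1) with hη
  have hη0 : 0 < η := by positivity
  rw [En7_ip_eq s x hη0]
  have hD : Continuous fun t => x - (Φ t z).1 := continuous_const.sub hΦ.fst
  have hρ : Continuous fun t => rhoE η (x - (Φ t z).1) := (En7_cont_rho η).comp hD
  refine conc (a := fun t => s - t - rhoE η (x - (Φ t z).1))
    (b := fun t => 1 - ⟪x - (Φ t z).1, u (Φ t z).2⟫ / rhoE η (x - (Φ t z).1))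
    (g := fun t => q (Φ t z).2) hs hη0 ((continuous_const.sub continuous_id).sub hρ) ?_ ?_ ?_ hq
    ?_ ?_ ?_
  · intro t _
    have hd : HasDerivAt (fun t => x - (Φ t z).1) (-u (Φ t z).2) t :=
      (hF.pos_deriv t z).const_sub x
    have h4 := hasDerivAt_rho_comp hη0 hd
    have h5 := ((hasDerivAt_id t).const_sub s).sub h4
    refine HasDerivAt.congr_deriv h5 ?_
    rw [inner_neg_right]
    ring
  · exact continuous_const.sub ((hD.inner hu).div hρ fun t => (rho_pos hη0 _).ne')
  · intro t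
    have h4 : ⟪x - (Φ t z).1, u (Φ t z).2⟫ ≤ rhoE η (x - (Φ t z).1) := by
      calc _ ≤ ‖x - (Φ t z).1‖ * ‖u (Φ t z).2‖ := real_inner_le_norm _ _
        _ ≤ ‖x - (Φ t z).1‖ * 1 := by gcongr; exact (norm_u_lt _).le
        _ ≤ _ := by rw [mul_one]; exact norm_le_rho _ _
    have := (div_le_one (rho_pos hη0 (x - (Φ t z).1))).2 h4
    linarith
  · have := rhoE_le hη0.le (x - (Φ 0 z).1)
    rw [hF.zero] at this ⊢
    linarith
  · have := rho_pos hη0 (x - (Φ s z).1)
    linarith
  · intro t _ ht0 ht1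
    apply hδm
    have e1 := rhoE_le hη0.le (x - (Φ t z).1)
    have e2 := norm_le_rho η (x - (Φ t z).1)
    have e3 : 0 ≤ a0 t := by simp only [ha0]; linarith
    have e4 : a0 t ≤ 2 * η := by simp only [ha0]; linarith
    rw [abs_lt]
    constructor
    · by_contra hc
      have hc' : t ≤ r - δ := by linarith
      rcases hc'.eq_or_lt with h | h
      · rw [h] at e4; linarith
      · have := hanti _ _ h; linarith
    · by_contra hc
      have hc' : r + δ ≤ t := by linarith
      rcases hc'.eq_or_lt with h | h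
      · rw [← h] at e3; linarith
      · have := hanti _ _ h; linarith

theorem En7_null (s : ℝ) (x : V3) : ∀ᵐ z : Z, ‖x - z.1‖ ≠ s := by
  have h : (volume : Measure Z) (Metric.sphere x s ×ˢ (univ : Set V3)) = 0 := by
    rw [Measure.volume_eq_prod, Measure.prod_prod, Measure.addHaar_sphere, zero_mul]
  rw [ae_iff]
  refine measure_mono_null (fun z hz => ?_) h
  simp only [ne_eq, not_not, mem_ofPred_eq] at hz
  refine ⟨?_, mem_univ _⟩
  rw [mem_sphere_iff_norm, norm_sub_rev]
  exact hz

theorem coneP_le (h : EC f0 N P0 R T A Φ Ψ) {s : ℝ} (hs : s ∈ Icc 0 T) (x : V3) :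
    ∫⁻ w in {w : Z | ‖w.1‖ ≤ s},
      ENNReal.ofReal (kap w.1 w.2 * q w.2 * dens f0 Ψ (s - ‖w.1‖) (x - w.1, w.2)) ≤
        ENNReal.ofReal (W0 f0 A) := by
  have hF := h.flow
  have hI := h.init
  have hS : MeasurableSet {w : Z | ‖w.1‖ ≤ s} :=
    (isClosed_le (continuous_fst.norm) continuous_const).measurableSet
  set G : Z → ℝ≥0∞ := {w : Z | ‖w.1‖ ≤ s}.indicator fun w =>
    ENNReal.ofReal (q w.2 * dens f0 Ψ (s - ‖w.1‖) (x - w.1, w.2)) with hG
  have hGm : Measurable G := by
    refine Measurable.indicator ?_ hS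
    apply Measurable.ennreal_ofReal
    apply Continuous.measurable
    refine (contDiff_q.continuous.comp continuous_snd).mul ?_
    exact (hF.continuous_dens hI).comp
      ((continuous_const.sub continuous_fst.norm).prodMk
        ((continuous_const.sub continuous_fst).prodMk continuous_snd))
  have e1 : ∫⁻ w in {w : Z | ‖w.1‖ ≤ s},
      ENNReal.ofReal (kap w.1 w.2 * q w.2 * dens f0 Ψ (s - ‖w.1‖) (x - w.1, w.2)) =
      ∫⁻ z, G (cm Φ s x z) := by
    rw [lintegral_cm hF s x hGm, ← lintegral_indicator hS]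
    congr 1
    funext w
    by_cases hw : w ∈ {w : Z | ‖w.1‖ ≤ s}
    · rw [hG, indicator_of_mem hw, indicator_of_mem hw, mul_assoc,
        ENNReal.ofReal_mul (kap_pos _ _).le]
    · rw [hG, indicator_of_notMem hw, indicator_of_notMem hw, mul_zero]
  rw [e1]
  have hη : ∀ k : ℕ, (0 : ℝ) < 1 / ((k : ℝ) + 1) := fun k => by positivity
  set H : ℕ → Z → ℝ≥0∞ := fun k z =>
    ENNReal.ofReal (-(f0 z * IP Φ (cw s x (1 / ((k : ℝ) + 1))) s z)) with hH
  have hHm : ∀ k, AEMeasurable (H k) volume := fun k =>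
    (weighted_id h (cw_causal s x (hη k)).wt hs).2.1.neg.aemeasurable.ennreal_ofReal
  have hHle : ∀ k, ∫⁻ z, H k z ≤ ENNReal.ofReal (W0 f0 A) := fun k =>
    (causal_le h (cw_causal s x (hη k)) hs).2.2
  calc ∫⁻ z, G (cm Φ s x z) ≤ ∫⁻ z, liminf (fun k => H k z) atTop := by
        refine lintegral_mono_ae ((En7_null s x).mono fun z hz => ?_)
        by_cases hw : cm Φ s x z ∈ {w : Z | ‖w.1‖ ≤ s}
        · rw [hG, indicator_of_mem hw]
          have hr0 : 0 ≤ rt Φ s x z := by
            rw [rt_eq hF]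
            have : ‖(cm Φ s x z).1‖ ≤ s := hw
            linarith
          have hlt : ‖x - z.1‖ < s := by
            refine lt_of_le_of_ne ?_ hz
            have h1 := rt_spec hF s x z
            have h2 := hF.pos_le 0 (rt Φ s x z) z
            rw [hF.zero, sub_zero, abs_of_nonneg hr0] at h2
            have h3 : ‖x - z.1‖ ≤ ‖x - (Φ (rt Φ s x z) z).1‖ + ‖(Φ (rt Φ s x z) z).1 - z.1‖ :=
              norm_sub_le_norm_sub_add_norm_sub _ _ _
            linarith
          have hd : dens f0 Ψ (s - ‖(cm Φ s x z).1‖) (x - (cm Φ s x z).1, (cm Φ s x z).2) =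
              f0 z := by
            unfold dens
            rw [psi_cm hF]
          rw [hd]
          have hc2 : (cm Φ s x z).2 = (Φ (rt Φ s x z) z).2 := rfl
          rw [hc2]
          refine le_of_forall_lt_imp_le_of_dense fun c hc => ?_
          rcases (hI.nonneg z).eq_or_lt with h0 | h0
          · rw [← h0, mul_zero, ENNReal.ofReal_zero] at hc
            exact absurd hc (not_lt_bot)
          · have hct : c ≠ ⊤ := ne_top_of_lt hc
            have hc' : c.toReal < q (Φ (rt Φ s x z) z).2 * f0 z := by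
              rw [← ENNReal.ofReal_toReal hct] at hc
              exact (ENNReal.ofReal_lt_ofReal_iff_of_nonneg ENNReal.toReal_nonneg).1 hc
            have hm : c.toReal / f0 z < q (Φ (rt Φ s x z) z).2 := by
              rwa [div_lt_iff₀ h0]
            refine le_liminf_of_le (by isBoundedDefault) ?_
            filter_upwards [En7_point hF hs.1 x z hlt hm] with k hk
            rw [← ENNReal.ofReal_toReal hct]
            apply ENNReal.ofReal_le_ofReal
            rw [div_le_iff₀ h0] at hk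
            linarith
        · rw [hG, indicator_of_notMem hw]
          exact bot_le
    _ ≤ liminf (fun k => ∫⁻ z, H k z) atTop := lintegral_liminf_le' hHm
    _ ≤ ENNReal.ofReal (W0 f0 A) :=
        liminf_le_of_frequently_le' (Frequently.of_forall hHle)

end Vale.Agent.P107
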