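import Vale.Agent.P107.En4

/-! BLOCK EN, file En8 (sub-lead helper37). Definitions in EnD.lean and Ctx.lean. Put the file name in front of helper lemma names.

Plan.
conserve: χ a ContDiffBump at (0 : V3) with rIn 1, rOut 2, C a bound for its fderiv (continuous with compact support), φ k p = χ ((k+1)⁻¹ • p.2); |fderiv (φ k) p (a,v)| <= C |v| / (k+1).
|∫ IF| <= C/(k+1) * t * W0: pointwise |IF x| <= C/(k+1) ∫ t, ed (A (t,x)); do it with lintegrals (lintegral_lintegral_swap over Ioc 0 t × V3, A continuous, slice_le), or apply swap_slab to g = fderiv φ p (ed, S) and bound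
each ∫ x, g (t,x) by C/(k+1) W0 (norm_cross_le_ed, slice_le; intervalIntegral.norm_integral_le_of_norm_le_const). |f0 IP| <= f0 (P0 + 2RT) C/(k+1) t (q_sub_le, mom_sub_le). WF, WP converge by dominated convergence. Limit in weighted_id.
kinetic_lip: |q (w t) - q (w s)| <= 2R|t-s|. field_energy_cont: conserve and kinetic_lip.
-/

namespace Vale.Agent.P107

open MeasureTheory Set Filter Topology
open scoped ContDiff RealInnerProductSpace ENNReal

variable {f0 : Z → ℝ} {N P0 R T : ℝ} {A : Fld} {Φ Ψ : ℝ → Z → Z} {φ : ℝ × V3 → ℝ}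

theorem En8_wt : ∃ (φ : ℕ → ℝ × V3 → ℝ) (c : ℕ → ℝ), (∀ k, Wt (φ k)) ∧ (∀ k p, |φ k p| ≤ 1) ∧
    (∀ p, Tendsto (fun k => φ k p) atTop (𝓝 1)) ∧ Tendsto c atTop (𝓝 0) ∧ (∀ k, 0 ≤ c k) ∧
    ∀ k p a v, |fderiv ℝ (φ k) p (a, v)| ≤ c k * ‖v‖ := by
  let χ : ContDiffBump (0 : V3) := ⟨1, 2, one_pos, one_lt_two⟩
  have hχ : ContDiff ℝ 1 χ := χ.contDiff
  obtain ⟨C, hC⟩ := (χ.hasCompactSupport.fderiv ℝ).exists_bound_of_continuous
    (hχ.continuous_fderiv one_ne_zero)
  have hC0 : 0 ≤ C := (norm_nonneg _).trans (hC 0)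
  have hk : Tendsto (fun k : ℕ => ((k : ℝ) + 1)⁻¹) atTop (𝓝 0) := by
    simpa only [one_div] using tendsto_one_div_add_atTop_nhds_zero_nat (𝕜 := ℝ)
  refine ⟨fun k p => χ (((k : ℝ) + 1)⁻¹ • p.2), fun k => C * ((k : ℝ) + 1)⁻¹,
    fun k => ⟨hχ.comp (contDiff_snd.const_smul _), 2 * (k + 1), fun t _ x hx => ?_⟩,
    fun k p => ?_, fun p => ?_, by simpa using hk.const_mul C, fun k => by positivity,
    fun k p a v => ?_⟩
  · refine χ.zero_of_le_dist ?_
    rw [dist_zero_right, norm_smul, Real.norm_of_nonneg (by positivity), ← div_eq_inv_mul,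
      le_div_iff₀ (by positivity)]
    exact hx
  · rw [abs_of_nonneg χ.nonneg]
    exact χ.le_one
  · have h1 : χ 0 = 1 := χ.one_of_mem_closedBall (Metric.mem_closedBall_self zero_le_one)
    have h2 := hk.smul_const p.2
    rw [zero_smul] at h2
    have h3 := (χ.continuous.tendsto 0).comp h2
    rwa [h1] at h3
  · have h1 := (hχ.differentiable one_ne_zero (((k : ℝ) + 1)⁻¹ • p.2)).hasFDerivAt.comp p
      (f := fun p : ℝ × V3 => ((k : ℝ) + 1)⁻¹ • p.2) (hasFDerivAt_snd.fun_const_smul _)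
    rw [show fderiv ℝ (fun p : ℝ × V3 => χ (((k : ℝ) + 1)⁻¹ • p.2)) p = _ from h1.fderiv]
    refine (ContinuousLinearMap.le_of_opNorm_le _ (hC _) (((k : ℝ) + 1)⁻¹ • v)).trans_eq ?_
    rw [norm_smul, Real.norm_of_nonneg (by positivity), mul_assoc]

theorem En8_lim {X : Type} [MeasurableSpace X] {μ : Measure X} {G : X → ℝ} (hG : Integrable G μ)
    {ψ : ℕ → X → ℝ} (hm : ∀ k, AEStronglyMeasurable (ψ k) μ) (h1 : ∀ k x, |ψ k x| ≤ 1)
    (hl : ∀ x, Tendsto (fun k => ψ k x) atTop (𝓝 1)) :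
    Tendsto (fun k => ∫ x, G x * ψ k x ∂μ) atTop (𝓝 (∫ x, G x ∂μ)) := by
  refine tendsto_integral_of_dominated_convergence (fun x => ‖G x‖) (fun k => hG.1.mul (hm k))
    hG.norm (fun k => ae_of_all _ fun x => ?_) (ae_of_all _ fun x => ?_)
  · rw [norm_mul]
    exact mul_le_of_le_one_right (norm_nonneg _) (h1 k x)
  · simpa only [mul_one] using (hl x).const_mul (G x)

theorem En8_IF (h : EC f0 N P0 R T A Φ Ψ) (hφ : Wt φ) {t c : ℝ} (ht : t ∈ Icc 0 T) (hc : 0 ≤ c)
    (hb : ∀ p a v, |fderiv ℝ φ p (a, v)| ≤ c * ‖v‖) :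
    ‖∫ x, IF A φ t x‖ ≤ c * (W0 f0 A * |t - 0|) := by
  obtain ⟨ρ, hρ⟩ := hφ.fderiv_eq_zero
  have hA := h.app.continuous
  have hg : Continuous fun p : ℝ × V3 => fderiv ℝ φ p (ed (A p), cross (A p).1 (A p).2) :=
    (hφ.c1.continuous_fderiv one_ne_zero).clm_apply
      ((continuous_ed.comp hA).prodMk (contDiff_cross.continuous.comp hA))
  have h1 := (swap_slab volume ht.1 hg.continuousOn (ρ := ρ) fun s hs x hx => by
    rw [(hρ s hs.1 x hx).2, zero_apply]).2.2
  rw [show ∫ x, IF A φ t x = _ from h1, ← mul_assoc]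
  refine intervalIntegral.norm_integral_le_of_norm_le_const fun s hs => ?_
  rw [uIoc_of_le ht.1] at hs
  obtain ⟨i1, i2⟩ := slice_le h (t := s) ⟨hs.1.le, hs.2.trans ht.2⟩
  have i3 : 0 ≤ ∫ z, f0 z * q (Φ s z).2 :=
    integral_nonneg fun z => mul_nonneg (h.init.nonneg z) (q_pos _).le
  refine (norm_integral_le_of_norm_le (i1.const_mul c) (ae_of_all _ fun x => (hb _ _ _).trans
    (mul_le_mul_of_nonneg_left (norm_cross_le_ed _) hc))).trans ?_
  rw [integral_const_mul]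
  exact mul_le_mul_of_nonneg_left (by linarith) hc

theorem En8_IP (hI : Init f0 N P0) (hA : App A R) (hF : IsFlow A Φ Ψ) {t c : ℝ} (ht : 0 ≤ t)
    (hc : 0 ≤ c) (hb : ∀ p a v, |fderiv ℝ φ p (a, v)| ≤ c * ‖v‖) :
    ‖∫ z, f0 z * IP Φ φ t z‖ ≤ c * ∫ z, f0 z * ((P0 + 2 * R * t) * |t - 0|) := by
  rw [← integral_const_mul]
  refine norm_integral_le_of_norm_le ((hI.integrable_mul continuous_const).const_mul c)
    (ae_of_all _ fun z => ?_)
  by_cases hz : f0 z = 0
  · simp [hz]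
  rw [norm_mul, Real.norm_of_nonneg (hI.nonneg z), mul_left_comm, ← mul_assoc c]
  refine mul_le_mul_of_nonneg_left
    (intervalIntegral.norm_integral_le_of_norm_le_const fun s hs => ?_) (hI.nonneg z)
  rw [uIoc_of_le ht] at hs
  have h1 := IsFlow.mom_sub_le hA hF 0 s z
  have h2 := (abs_le.1 (q_sub_le (Φ s z).2 (Φ 0 z).2)).2
  rw [hF.zero] at h1 h2
  rw [sub_zero, abs_of_pos hs.1] at h1
  have h3 := mul_le_mul_of_nonneg_left hs.2 hA.nonneg
  have h4 := (hI.supp z hz).2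
  rw [norm_mul, Real.norm_of_nonneg (q_pos _).le, mul_comm c]
  exact mul_le_mul (by linarith) ((hb _ _ _).trans (mul_le_of_le_one_right hc (norm_u_lt _).le))
    (norm_nonneg _) (by nlinarith [hI.one_le_P0, hA.nonneg])

theorem En8_W (h : EC f0 N P0 R T A Φ Ψ) {t : ℝ} (ht : t ∈ Icc 0 T) {φ : ℕ → ℝ × V3 → ℝ}
    (hφ : ∀ k, Wt (φ k)) (h1 : ∀ k p, |φ k p| ≤ 1)
    (hl : ∀ p, Tendsto (fun k => φ k p) atTop (𝓝 1)) :
    Tendsto (fun k => WF A (φ k) t + WP f0 Φ (φ k) t) atTop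
      (𝓝 ((∫ x, ed (A (t, x))) + ∫ z, f0 z * q (Φ t z).2)) := by
  have hΦ : Continuous fun z => Φ t z := h.flow.contΦ.comp (Continuous.prodMk_right t)
  refine (En8_lim (slice_le h ht).1 (fun k => ((hφ k).c1.continuous.comp
    (Continuous.prodMk_right t)).aestronglyMeasurable) (fun k x => h1 k _) fun x => hl _).add ?_
  simp only [WP, ← mul_assoc]
  exact En8_lim (h.init.integrable_mul (contDiff_q.continuous.comp hΦ.snd))
    (fun k => ((hφ k).c1.continuous.comp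
      ((Continuous.prodMk_right t).comp hΦ.fst)).aestronglyMeasurable) (fun k x => h1 k _)
    fun x => hl _

theorem conserve (h : EC f0 N P0 R T A Φ Ψ) {t : ℝ} (ht : t ∈ Icc 0 T) :
    (∫ x, ed (A (t, x))) + ∫ z, f0 z * q (Φ t z).2 = W0 f0 A := by
  obtain ⟨φ, c, hφ, h1, hl, hc, hc0, hb⟩ := En8_wt
  have l1 := En8_W h ht hφ h1 hl
  have l0 := En8_W h (t := 0) ⟨le_rfl, ht.1.trans ht.2⟩ hφ h1 hl
  simp only [h.flow.zero] at l0
  have l2 : Tendsto (fun k => ∫ x, IF A (φ k) t x) atTop (𝓝 0) :=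
    squeeze_zero_norm (fun k => En8_IF h (hφ k) ht (hc0 k) (hb k))
      (by simpa only [zero_mul] using hc.mul_const _)
  have l3 : Tendsto (fun k => ∫ z, f0 z * IP Φ (φ k) t z) atTop (𝓝 0) :=
    squeeze_zero_norm (fun k => En8_IP h.init h.app h.flow ht.1 (hc0 k) (hb k))
      (by simpa only [zero_mul] using hc.mul_const _)
  have l4 := (l0.add l2).add l3
  rw [add_zero, add_zero] at l4
  exact tendsto_nhds_unique l1 (l4.congr fun k => (weighted_id h (hφ k) ht).2.2.symm)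

theorem kinetic_cont (hI : Init f0 N P0) (hA : App A R) (hF : IsFlow A Φ Ψ) :
    Continuous fun t => ∫ z, f0 z * q (Φ t z).2 := by
  have _ := hA
  have h1 : Continuous (Function.uncurry fun (t : ℝ) (z : Z) => f0 z * q (Φ t z).2) :=
    (hI.smooth.continuous.comp continuous_snd).mul (contDiff_q.continuous.comp hF.contΦ.snd)
  refine (continuous_parametric_integral_of_continuous (μ := volume) h1
    (isCompact_closedBall (0 : Z) P0)).congr fun t => ?_
  refine setIntegral_eq_integral_of_forall_compl_eq_zero fun z hz => ?_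
  by_cases h0 : f0 z = 0
  · rw [h0, zero_mul]
  · exact absurd (mem_closedBall_zero_iff.2 (hI.norm_le h0)) hz

theorem field_energy_cont (h : EC f0 N P0 R T A Φ Ψ) :
    ContinuousOn (fun t => ∫ x, ed (A (t, x))) (Icc 0 T) := by
  refine ((continuous_const (y := W0 f0 A)).sub
    (kinetic_cont h.init h.app h.flow)).continuousOn.congr fun t ht => ?_
  exact eq_sub_of_add_eq (conserve h ht)

end Vale.Agent.P107
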