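import Vale.Agent.P107.En0

/-! BLOCK EN, file En9 (sub-lead helper37). Definitions in EnD.lean and Ctx.lean. Put the file name in front of helper lemma names.

Plan.
scheffe_ed: reduce to sequences (tendsto_iff_seq_tendsto). H k = 2 ed (F k) + 2 ed G - ed (F k - G) >= 0 (ed_sub_le) tends pointwise to 4 ed G. Fatou (lintegral_liminf_le) and
ofReal_integral_eq_lintegral_ofReal give 4 ∫ ed G <= liminf (2 ∫ ed (F k) + 2 ∫ ed G - ∫ ed (F k - G)); so for every ε, eventually ∫ ed (F k - G) <= ε (argue by contradiction with frequently, or use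
ENNReal.eventually_lt_of_lt_liminf / Filter.eventually_lt_of_lt_liminf). An alternative without Fatou: dominated convergence for min (H k) (4 ed G).
eLpNorm_le_ed: eLpNorm_eq_lintegral_rpow_enorm / MemLp.eLpNorm_eq_integral_rpow_norm and norm_sq_le_ed. memLp_of_ed: memLp_two_iff_integrable_sq_norm.
-/

namespace Vale.Agent.P107

open MeasureTheory Set Filter Topology
open scoped ContDiff RealInnerProductSpace ENNReal

variable {f0 : Z → ℝ} {N P0 R T : ℝ} {A : Fld} {Φ Ψ : ℝ → Z → Z} {φ : ℝ × V3 → ℝ}

theorem En9_cont : Continuous ed := by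
  unfold ed
  fun_prop

theorem En9_nonneg (F : V3 × V3) : 0 ≤ ed F := by
  unfold ed
  positivity

theorem En9_sub (F G : V3 × V3) : ed (F - G) ≤ 2 * ed F + 2 * ed G := by
  have key : ∀ a b : V3, ‖a - b‖ ^ 2 ≤ 2 * ‖a‖ ^ 2 + 2 * ‖b‖ ^ 2 := fun a b => by
    have h1 := pow_le_pow_left₀ (norm_nonneg _) (norm_sub_le a b) 2
    nlinarith [sq_nonneg (‖a‖ - ‖b‖)]
  have h1 := key F.1 G.1
  have h2 := key F.2 G.2
  simp only [ed, Prod.fst_sub, Prod.snd_sub]
  linarith

theorem En9_sq (F : V3 × V3) : ‖F‖ ^ 2 ≤ 2 * ed F := by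
  rw [Prod.norm_def, ed]
  rcases max_cases ‖F.1‖ ‖F.2‖ with h | h <;> rw [h.1] <;>
    nlinarith [sq_nonneg ‖F.1‖, sq_nonneg ‖F.2‖]

theorem scheffe_ed {l : Filter ℝ} [l.IsCountablyGenerated] {F : ℝ → V3 → V3 × V3} {G : V3 → V3 × V3}
    (hF : ∀ s, Continuous (F s)) (hG : Continuous G)
    (hiF : ∀ᶠ s in l, Integrable fun x => ed (F s x)) (hiG : Integrable fun x => ed (G x))
    (hp : ∀ x, Tendsto (fun s => F s x) l (𝓝 (G x)))
    (hn : Tendsto (fun s => ∫ x, ed (F s x)) l (𝓝 (∫ x, ed (G x)))) :
    Tendsto (fun s => ∫ x, ed (F s x - G x)) l (𝓝 0) := by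
  have cF : ∀ s, Continuous fun x => ed (F s x) := fun s => En9_cont.comp (hF s)
  have cG : Continuous fun x => ed (G x) := En9_cont.comp hG
  have cD : ∀ s, Continuous fun x => ed (F s x - G x) := fun s => En9_cont.comp ((hF s).sub hG)
  have cM : ∀ s, Continuous fun x =>
      min (2 * ed (F s x) + 2 * ed (G x) - ed (F s x - G x)) (4 * ed (G x)) := fun s =>
    ((((cF s).const_mul 2).add (cG.const_mul 2)).sub (cD s)).min (cG.const_mul 4)
  have bM : ∀ s x, ‖min (2 * ed (F s x) + 2 * ed (G x) - ed (F s x - G x)) (4 * ed (G x))‖ ≤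
      4 * ed (G x) := fun s x => by
    have h1 := En9_sub (F s x) (G x)
    have h2 := En9_nonneg (G x)
    rw [Real.norm_of_nonneg (le_min (by linarith) (by linarith))]
    exact min_le_right _ _
  have h1 : Tendsto (fun s => ∫ x,
      min (2 * ed (F s x) + 2 * ed (G x) - ed (F s x - G x)) (4 * ed (G x))) l
      (𝓝 (∫ x, 4 * ed (G x))) := by
    refine tendsto_integral_filter_of_dominated_convergence (fun x => 4 * ed (G x))
      (Eventually.of_forall fun s => (cM s).aestronglyMeasurable)
      (Eventually.of_forall fun s => Eventually.of_forall (bM s)) (hiG.const_mul 4)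
      (Eventually.of_forall fun x => ?_)
    have c : Continuous fun y : V3 × V3 =>
        min (2 * ed y + 2 * ed (G x) - ed (y - G x)) (4 * ed (G x)) :=
      (((En9_cont.const_mul 2).add continuous_const).sub
        (En9_cont.comp (continuous_id.sub continuous_const))).min continuous_const
    have h2 := (c.tendsto (G x)).comp (hp x)
    have e : min (2 * ed (G x) + 2 * ed (G x) - ed (G x - G x)) (4 * ed (G x)) = 4 * ed (G x) := by
      rw [sub_self, show ed 0 = 0 by simp [ed], min_eq_right (by linarith)]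
    rw [e] at h2
    exact h2
  have h3 := ((hn.const_mul 2).add_const (2 * ∫ x, ed (G x))).sub h1
  rw [integral_const_mul, show (2 * ∫ x, ed (G x)) + (2 * ∫ x, ed (G x)) -
    4 * ∫ x, ed (G x) = 0 by ring] at h3
  refine squeeze_zero' (Eventually.of_forall fun s => integral_nonneg fun x => En9_nonneg _)
    (hiF.mono fun s hs => ?_) h3
  have i1 : Integrable fun x => 2 * ed (F s x) + 2 * ed (G x) :=
    (hs.const_mul 2).add (hiG.const_mul 2)
  have i2 : Integrable fun x => ed (F s x - G x) :=
    i1.mono' (cD s).aestronglyMeasurable (Eventually.of_forall fun x => by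
      rw [Real.norm_of_nonneg (En9_nonneg _)]
      exact En9_sub _ _)
  have i3 := (hiG.const_mul 4).mono' (cM s).aestronglyMeasurable (Eventually.of_forall (bM s))
  have h4 := integral_mono i3 (i1.sub i2) fun x => min_le_left _ _
  rw [integral_sub' i1 i2, integral_add (hs.const_mul 2) (hiG.const_mul 2), integral_const_mul,
    integral_const_mul] at h4
  linarith

theorem En9_int {G : V3 → V3 × V3} (hG : Continuous G) (hi : Integrable fun x => ed (G x)) :
    Integrable fun x => ‖G x‖ ^ 2 :=
  (hi.const_mul 2).mono' (hG.norm.pow 2).aestronglyMeasurable (Eventually.of_forall fun x => by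
    rw [Real.norm_of_nonneg (sq_nonneg _)]
    exact En9_sq _)

theorem memLp_of_ed {G : V3 → V3 × V3} (hG : Continuous G) (hi : Integrable fun x => ed (G x)) :
    MemLp G 2 volume := by
  exact (memLp_two_iff_integrable_sq_norm hG.aestronglyMeasurable).2 (En9_int hG hi)

theorem eLpNorm_le_ed {G : V3 → V3 × V3} (hG : Continuous G) (hi : Integrable fun x => ed (G x)) :
    eLpNorm G 2 volume ≤ ENNReal.ofReal (Real.sqrt (2 * ∫ x, ed (G x))) := by
  rw [(memLp_of_ed hG hi).eLpNorm_eq_integral_rpow_norm two_ne_zero ENNReal.ofNat_ne_top]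
  refine ENNReal.ofReal_le_ofReal ?_
  simp only [ENNReal.toReal_ofNat, Real.rpow_two]
  rw [Real.sqrt_eq_rpow, one_div, ← integral_const_mul]
  exact Real.rpow_le_rpow (integral_nonneg fun x => sq_nonneg _)
    (integral_mono (En9_int hG hi) (hi.const_mul 2) fun x => En9_sq _) (by norm_num)

end Vale.Agent.P107
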