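import Vale.Agent.P107.Cone

/-! BLOCK EN: definitions for the energy identity (sub-lead helper37). Do not change this file. -/

namespace Vale.Agent.P107

open MeasureTheory Set Filter Topology
open scoped ContDiff RealInnerProductSpace ENNReal

/-- Field energy density. -/
noncomputable def ed (F : V3 × V3) : ℝ := (‖F.1‖ ^ 2 + ‖F.2‖ ^ 2) / 2

/-- The current. -/
noncomputable def jj (f0 : Z → ℝ) (Ψ : ℝ → Z → Z) (p : ℝ × V3) : V3 :=
  ∫ v, dens f0 Ψ p.1 (p.2, v) • u v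

/-- Everything the energy identity uses: the applied field itself solves Maxwell on the slab. -/
structure EC (f0 : Z → ℝ) (N P0 R T : ℝ) (A : Fld) (Φ Ψ : ℝ → Z → Z) : Prop where
  init : Init f0 N P0
  app : App A R
  flow : IsFlow A Φ Ψ
  c1x : ∀ t ∈ Icc 0 T, ContDiff ℝ 1 fun x => A (t, x)
  contD : ContinuousOn (fun p : ℝ × V3 => fderiv ℝ (fun x => A (p.1, x)) p.2) (slab T)
  amp : ∀ t ∈ Icc 0 T, ∀ x, HasDerivWithinAt (fun s => (A (s, x)).1)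
    (curl (fun y => (A (t, y)).2) x - jj f0 Ψ (t, x)) (Icc 0 T) t
  far : ∀ t ∈ Icc 0 T, ∀ x, HasDerivWithinAt (fun s => (A (s, x)).2)
    (-curl (fun y => (A (t, y)).1) x) (Icc 0 T) t
  int0 : Integrable fun x => ed (A (0, x))

/-- The initial total energy. -/
noncomputable def W0 (f0 : Z → ℝ) (A : Fld) : ℝ := (∫ x, ed (A (0, x))) + ∫ z : Z, f0 z * q z.2

/-- Admissible weights. -/
structure Wt (φ : ℝ × V3 → ℝ) : Prop where
  c1 : ContDiff ℝ 1 φ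
  supp : ∃ ρ : ℝ, ∀ t : ℝ, -1 ≤ t → ∀ x : V3, ρ ≤ ‖x‖ → φ (t, x) = 0

/-- Weights with values in `[0,1]` that decrease in all future causal directions. -/
structure Causal (φ : ℝ × V3 → ℝ) : Prop where
  wt : Wt φ
  nonneg : ∀ p, 0 ≤ φ p
  le_one : ∀ p, φ p ≤ 1
  dec : ∀ p (a : ℝ) (v : V3), ‖v‖ ≤ a → fderiv ℝ φ p (a, v) ≤ 0

/-- Weighted field energy. -/
noncomputable def WF (A : Fld) (φ : ℝ × V3 → ℝ) (t : ℝ) : ℝ := ∫ x, ed (A (t, x)) * φ (t, x)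

/-- Weighted kinetic energy. -/
noncomputable def WP (f0 : Z → ℝ) (Φ : ℝ → Z → Z) (φ : ℝ × V3 → ℝ) (t : ℝ) : ℝ :=
  ∫ z, f0 z * (q (Φ t z).2 * φ (t, (Φ t z).1))

/-- Time integral of the field flux term. -/
noncomputable def IF (A : Fld) (φ : ℝ × V3 → ℝ) (t1 : ℝ) (x : V3) : ℝ :=
  ∫ t in (0 : ℝ)..t1, fderiv ℝ φ (t, x) (ed (A (t, x)), cross (A (t, x)).1 (A (t, x)).2)

/-- Time integral of the particle flux term. -/
noncomputable def IP (Φ : ℝ → Z → Z) (φ : ℝ × V3 → ℝ) (t1 : ℝ) (z : Z) : ℝ :=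
  ∫ t in (0 : ℝ)..t1, q (Φ t z).2 * fderiv ℝ φ (t, (Φ t z).1) (1, u (Φ t z).2)

/-- Time integral of the work done on the particles, Eulerian form. -/
noncomputable def JF (f0 : Z → ℝ) (A : Fld) (Ψ : ℝ → Z → Z) (φ : ℝ × V3 → ℝ) (t1 : ℝ) : ℝ :=
  ∫ t in (0 : ℝ)..t1, ∫ x, φ (t, x) * ⟪(A (t, x)).1, jj f0 Ψ (t, x)⟫

/-- Regularised distance. -/
noncomputable def rhoE (η : ℝ) (D : V3) : ℝ := Real.sqrt (‖D‖ ^ 2 + η ^ 2)

/-- The weight adapted to the backward light cone with vertex `(s, x)`. -/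
noncomputable def cw (s : ℝ) (x : V3) (η : ℝ) (p : ℝ × V3) : ℝ :=
  Real.smoothTransition ((s - p.1 - rhoE η (x - p.2)) / η)

end Vale.Agent.P107
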