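import Vale.Agent.P107.En6
import Vale.Agent.P107.En7
import Vale.Agent.P107.En8
import Vale.Agent.P107.En9

/-! BLOCK EN: energy inequalities and L^2 continuity (notes/P107.md, Part E). -/

namespace Vale.Agent.P107

open MeasureTheory Set Filter Topology
open scoped ContDiff RealInnerProductSpace ENNReal

theorem energy_block {f0 : Z → ℝ} {E0 B0 : V3 → V3} (h : Admissible f0 E0 B0) :
    ∃ En : ℝ, 1 ≤ En ∧ ∀ (N P0 R T T1 : ℝ) (A K : Fld) (Φ Ψ : ℝ → Z → Z), Init f0 N P0 → App A R →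
      IsFlow A Φ Ψ → 0 < T → T1 ≤ T → MaxOn T (dens f0 Ψ) K → (∀ x, K (0, x) = (E0 x, B0 x)) →
      (∀ p ∈ slab T1, A p = K p) → Ener f0 A Φ Ψ T1 En := by
  set W : ℝ := (∫ x, ed (E0 x, B0 x)) + ∫ z : Z, f0 z * q z.2 with hW
  have hW0 : 0 ≤ W :=
    add_nonneg (integral_nonneg fun x => ed_nonneg _)
      (integral_nonneg fun z => mul_nonneg (h.nonneg z) (q_pos _).le)
  refine ⟨2 * W + 1, by linarith, ?_⟩
  intro N P0 R T T1 A K Φ Ψ hI hA hF hT hT1 hM h0 hAK
  by_cases hneg : T1 < 0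
  · have he : ∀ t, t ∉ Icc (0 : ℝ) T1 := fun t ht => by linarith [ht.1, ht.2]
    exact ⟨fun t ht => absurd ht (he t), fun t ht => absurd ht (he t),
      fun t ht => absurd ht (he t), fun t ht => absurd ht (he t)⟩
  have hT10 : 0 ≤ T1 := not_lt.1 hneg
  have hE := ec_of_maxOn h hI hA hF hT hT10 hT1 hM h0 hAK
  have hW' : W0 f0 A = W := by
    have : ∀ x, A (0, x) = (E0 x, B0 x) := fun x => by
      rw [hAK (0, x) ⟨⟨le_rfl, hT10⟩, mem_univ _⟩, h0]
    simp only [W0, this, hW]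
  have hk : ∀ t, 0 ≤ ∫ z, f0 z * q (Φ t z).2 := fun t =>
    integral_nonneg fun z => mul_nonneg (h.nonneg z) (q_pos _).le
  have hf : ∀ t, 0 ≤ ∫ x, ed (A (t, x)) := fun t => integral_nonneg fun x => ed_nonneg _
  refine ⟨fun t ht => ?_, fun t ht => ?_, fun s hs x => ?_, fun s hs x => ?_⟩
  · obtain ⟨hi, hle⟩ := slice_le hE ht
    calc ∫⁻ x, ENNReal.ofReal (‖A (t, x)‖ ^ 2) ≤ ∫⁻ x, ENNReal.ofReal (2 * ed (A (t, x))) :=
          lintegral_mono fun x => ENNReal.ofReal_le_ofReal (norm_sq_le_ed _)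
      _ = ENNReal.ofReal (∫ x, 2 * ed (A (t, x))) :=
          (ofReal_integral_eq_lintegral_ofReal (hi.const_mul 2)
            (Eventually.of_forall fun x => mul_nonneg zero_le_two (ed_nonneg _))).symm
      _ ≤ _ := by
          apply ENNReal.ofReal_le_ofReal
          rw [integral_const_mul]
          linarith [hk t]
  · obtain ⟨-, hle⟩ := slice_le hE ht
    have hc : Continuous fun z : Z => q (Φ t z).2 :=
      contDiff_q.continuous.comp
        (hF.contΦ.comp (Continuous.prodMk_right t)).snd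
    have hi := hI.integrable_mul hc
    calc ∫⁻ z, ENNReal.ofReal (q (Φ t z).2 * f0 z)
        = ∫⁻ z, ENNReal.ofReal (f0 z * q (Φ t z).2) := by simp only [mul_comm]
      _ = ENNReal.ofReal (∫ z, f0 z * q (Φ t z).2) :=
          (ofReal_integral_eq_lintegral_ofReal hi
            (Eventually.of_forall fun z => mul_nonneg (h.nonneg z) (q_pos _).le)).symm
      _ ≤ _ := by
          apply ENNReal.ofReal_le_ofReal
          linarith [hf t]
  · exact (coneF_le hE hs x).trans (ENNReal.ofReal_le_ofReal (by linarith))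
  · exact (coneP_le hE hs x).trans (ENNReal.ofReal_le_ofReal (by linarith))

theorem l2_block {f0 : Z → ℝ} {E0 B0 : V3 → V3} (h : Admissible f0 E0 B0) {N P0 R T : ℝ}
    {A K : Fld} {Φ Ψ : ℝ → Z → Z} (hI : Init f0 N P0) (hA : App A R) (hF : IsFlow A Φ Ψ)
    (hT : 0 < T) (hM : MaxOn T (dens f0 Ψ) K) (h0 : ∀ x, K (0, x) = (E0 x, B0 x))
    (hAK : ∀ p ∈ slab T, A p = K p) {t : ℝ} (ht : t ∈ Icc 0 T) :
    MemLp (fun x => K (t, x)) 2 volume ∧
      Tendsto (fun s => eLpNorm (fun x => K (s, x) - K (t, x)) 2 volume) (𝓝[Icc 0 T] t) (𝓝 0) := by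
  have hE := ec_of_maxOn h hI hA hF hT hT.le le_rfl hM h0 hAK
  have hc : ∀ s, Continuous fun x => A (s, x) := fun s =>
    hA.continuous.comp (Continuous.prodMk_right s)
  have hKA : ∀ s ∈ Icc (0 : ℝ) T, ∀ x, K (s, x) = A (s, x) := fun s hs x =>
    (hAK (s, x) ⟨hs, mem_univ _⟩).symm
  have hmem : ∀ᶠ s in 𝓝[Icc 0 T] t, s ∈ Icc (0 : ℝ) T := self_mem_nhdsWithin
  refine ⟨?_, ?_⟩
  · simp only [hKA t ht]
    exact memLp_of_ed (hc t) (slice_le hE ht).1
  · have h1 : Tendsto (fun s => ∫ x, ed (A (s, x) - A (t, x))) (𝓝[Icc 0 T] t) (𝓝 0) := by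
      refine scheffe_ed (F := fun s x => A (s, x)) hc (hc t)
        (hmem.mono fun s hs => (slice_le hE hs).1) (slice_le hE ht).1 (fun x => ?_)
        (field_energy_cont hE t ht)
      exact ((hA.continuous.comp (Continuous.prodMk_left x)).tendsto t).mono_left
        nhdsWithin_le_nhds
    have h2 : Tendsto (fun s => ENNReal.ofReal (Real.sqrt (2 * ∫ x, ed (A (s, x) - A (t, x)))))
        (𝓝[Icc 0 T] t) (𝓝 0) := by
      have h3 := ENNReal.tendsto_ofReal ((h1.const_mul 2).sqrt)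
      simpa using h3
    refine tendsto_of_tendsto_of_tendsto_of_le_of_le' tendsto_const_nhds h2
      (Eventually.of_forall fun s => bot_le) (hmem.mono fun s hs => ?_)
    simp only [hKA t ht, hKA s hs]
    refine eLpNorm_le_ed ((hc s).sub (hc t)) ?_
    refine Integrable.mono' (((slice_le hE hs).1.const_mul 2).add ((slice_le hE ht).1.const_mul 2))
      (continuous_ed.comp ((hc s).sub (hc t))).aestronglyMeasurable
      (Eventually.of_forall fun x => ?_)
    rw [Real.norm_of_nonneg (ed_nonneg _)]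
    exact ed_sub_le _ _

end Vale.Agent.P107
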