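import Vale.Agent.P107.FlowM

/-! BLOCK FL: existence of the flow, with Liouville's theorem (notes/P107.md, Part E). -/

namespace Vale.Agent.P107

open MeasureTheory Set Filter Topology
open scoped ContDiff RealInnerProductSpace ENNReal

theorem exists_flow {A : Fld} {R : ℝ} (hA : App A R) : ∃ Φ Ψ, IsFlow A Φ Ψ := by
  obtain ⟨K, hK⟩ := hA.lipVF
  obtain ⟨φ, hφ⟩ := hK.exists_fl2
  have hc := hφ.continuous hK
  refine ⟨fun t z => drift (min t 0) (φ 0 (max t 0) z),
    fun t z => φ (max t 0) 0 (drift (-min t 0) z), fun t ht z => ?_, fun t ht z => ?_,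
    fun t z => ?_, fun t z => ?_, ?_, ?_, fun t => ?_⟩
  · simp only [min_eq_left ht, max_eq_right ht, hφ.self, drift]
  · simp only [min_eq_right ht, max_eq_left ht, drift_zero]
    refine (hφ.deriv 0 t z).hasDerivWithinAt.congr_of_mem (fun s hs => ?_) ht
    simp only [min_eq_right (mem_Ici.1 hs), max_eq_left (mem_Ici.1 hs), drift_zero]
  · simp only [drift_neg, hφ.comp hK, hφ.self]
  · simp only [hφ.comp hK, hφ.self, drift_neg']
  · exact continuous_drift.comp (f := fun p : ℝ × Z => (min p.1 0, φ 0 (max p.1 0) p.2))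
      ((continuous_fst.min continuous_const).prodMk
        (hc.comp (f := fun p : ℝ × Z => (0, max p.1 0, p.2)) (by fun_prop)))
  · exact hc.comp (f := fun p : ℝ × Z => (max p.1 0, 0, drift (-min p.1 0) p.2))
      ((continuous_fst.max continuous_const).prodMk (continuous_const.prodMk
        (continuous_drift.comp (f := fun p : ℝ × Z => (-min p.1 0, p.2)) (by fun_prop))))
  · exact (mp_drift _).comp (hA.mp_fl2 hφ 0 _)

end Vale.Agent.P107
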