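import Vale.Agent.P107.FlowGr

/-! Flow estimates: Lipschitz bounds and stability of the backward flow.

Plan. All from gron_back applied to w s = Φ s a - Φ s a' (IsFlow.hasDerivAt for s > 0, continuity from contΦ,
IsFlow.zero, hF.right). psi_lip: a = Ψ t z, a' = Ψ t z', s0 = 0, I s = (2 + 2R) s + 2 L exp (g s) / g, J = 0, vf_sub_le with
A' = A, ε = 0 and Lipschitz constant L exp (g s) (LipW at the points (s, y), (s, y'); the norm of (0, y - y') is ‖y - y'‖).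
phi_back: the same with I s = (2 + 2R + 2L) s and s0 = s. dens_lip: Ψ s z = Ψ s' (Φ s' (Ψ s z)) (hF.left) and
‖Φ s' a - Φ s a‖ ≤ (1 + 2R) |s - s'| (pos_le, mom_sub_le), psi_lip at time s' ≤ τ, hI.lip. psi_stab: w s = Φ s (Ψ t z) - Φ' s (Ψ' t z),
w t = 0, J s = 2 ε exp (g s) / g. -/

namespace Vale.Agent.P107

open MeasureTheory Set Filter Topology
open scoped ContDiff RealInnerProductSpace ENNReal

variable {A A' : Fld} {R T L g ε : ℝ} {Φ Ψ Φ' Ψ' : ℝ → Z → Z} {f0 : Z → ℝ} {N P0 : ℝ}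

theorem fe_cont (hF : IsFlow A Φ Ψ) (a : Z) : Continuous fun s => Φ s a :=
  hF.contΦ.comp (f := fun s : ℝ => ((s, a) : ℝ × Z)) (by fun_prop)

theorem fe_exp (c : ℝ) (hg : 0 < g) (s : ℝ) :
    HasDerivAt (fun s => c * Real.exp (g * s) / g) (c * Real.exp (g * s)) s := by
  have h := ((((hasDerivAt_id s).const_mul g).exp).const_mul c).div_const g
  refine HasDerivAt.congr_deriv h ?_
  simp only [id]
  field_simp

theorem fe_lin (c s : ℝ) : HasDerivAt (fun s => c * s) c s := by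
  simpa using (hasDerivAt_id s).const_mul c

theorem psi_lip (hA : App A R) (hF : IsFlow A Φ Ψ) (hL : 0 ≤ L) (hg : 0 < g) (hl : LipW A T L g)
    {t : ℝ} (ht : t ∈ Icc 0 T) (z z' : Z) :
    ‖Ψ t z - Ψ t z'‖ ≤ Real.exp ((2 + 2 * R) * t + 2 * L * Real.exp (g * t) / g) * ‖z - z'‖ := by
  have hR := hA.nonneg
  have h := gron_back (w := fun s => Φ s (Ψ t z) - Φ s (Ψ t z'))
    (w' := fun s => vf A s (Φ s (Ψ t z)) - vf A s (Φ s (Ψ t z')))
    (I := fun s => (2 + 2 * R) * s + 2 * L * Real.exp (g * s) / g) (J := fun _ => 0)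
    (k := fun s => (2 + 2 * R) + 2 * L * Real.exp (g * s)) (e := fun _ => 0) ht.1
    ((fe_cont hF _).sub (fe_cont hF _)).continuousOn
    (fun s hs => (hF.hasDerivAt hs.1 _).sub (hF.hasDerivAt hs.1 _))
    (fun s => (fe_lin _ s).add (fe_exp _ hg s)) (fun s => hasDerivAt_const s _)
    (fun s _ => by positivity) (fun _ _ => le_rfl)
    (fun s hs => by
      have hsT : s ∈ Icc 0 T := ⟨hs.1.le, hs.2.trans ht.2⟩
      have h1 := hl (s, (Φ s (Ψ t z)).1) ⟨hsT, mem_univ _⟩ (s, (Φ s (Ψ t z')).1) ⟨hsT, mem_univ _⟩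
      have e : ‖((s, (Φ s (Ψ t z)).1) : ℝ × V3) - (s, (Φ s (Ψ t z')).1)‖
          = ‖(Φ s (Ψ t z)).1 - (Φ s (Ψ t z')).1‖ := by
        rw [Prod.mk_sub_mk, sub_self, Prod.norm_mk, norm_zero, max_eq_right (norm_nonneg _)]
      rw [e] at h1
      simp only [max_self] at h1
      have h2 := vf_sub_le (A := A) (A' := A) (ε := 0) (by positivity) (hA.bdd _) h1 (by simp)
      refine h2.trans_eq ?_
      ring)
  simp only [hF.zero, hF.right, sub_self, add_zero] at h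
  refine h.trans (mul_le_mul_of_nonneg_right (Real.exp_le_exp.2 ?_) (norm_nonneg _))
  have : 0 ≤ 2 * L * Real.exp (g * 0) / g := by positivity
  linarith

theorem phi_back (hA : App A R) (hF : IsFlow A Φ Ψ) (hL : 0 ≤ L) (hl : LipX A T L)
    {s t : ℝ} (hs : s ∈ Icc 0 t) (ht : t ≤ T) (z z' : Z) :
    ‖Φ s (Ψ t z) - Φ s (Ψ t z')‖ ≤ Real.exp ((2 + 2 * R + 2 * L) * T) * ‖z - z'‖ := by
  have hR := hA.nonneg
  have h := gron_back (w := fun s => Φ s (Ψ t z) - Φ s (Ψ t z'))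
    (w' := fun s => vf A s (Φ s (Ψ t z)) - vf A s (Φ s (Ψ t z')))
    (I := fun s => (2 + 2 * R + 2 * L) * s) (J := fun _ => 0)
    (k := fun _ => 2 + 2 * R + 2 * L) (e := fun _ => 0) hs.2
    ((fe_cont hF _).sub (fe_cont hF _)).continuousOn
    (fun r hr => (hF.hasDerivAt (hs.1.trans_lt hr.1) _).sub (hF.hasDerivAt (hs.1.trans_lt hr.1) _))
    (fun s => fe_lin _ s) (fun s => hasDerivAt_const s _)
    (fun s _ => by positivity) (fun _ _ => le_rfl)
    (fun r hr => by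
      have h2 := vf_sub_le (A := A) (A' := A) (ε := 0) hL (hA.bdd _)
        (hl r ⟨hs.1.trans hr.1.le, hr.2.trans ht⟩ (Φ r (Ψ t z)).1 (Φ r (Ψ t z')).1) (by simp)
      simpa using h2)
  simp only [hF.right, sub_self, add_zero] at h
  refine h.trans (mul_le_mul_of_nonneg_right (Real.exp_le_exp.2 ?_) (norm_nonneg _))
  have h3 : 0 ≤ 2 + 2 * R + 2 * L := by positivity
  nlinarith [hs.1]

theorem dens_lip (hI : Init f0 N P0) (hA : App A R) (hF : IsFlow A Φ Ψ) (hL : 0 ≤ L) (hg : 0 < g)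
    (hl : LipW A T L g) {τ s s' : ℝ} (hτ : τ ≤ T) (hs : s ∈ Icc 0 τ) (hs' : s' ∈ Icc 0 τ)
    (z z' : Z) :
    |dens f0 Ψ s z - dens f0 Ψ s' z'|
      ≤ N * (1 + 2 * R) * Real.exp ((2 + 2 * R) * T + 2 * L * Real.exp (g * τ) / g)
        * (|s - s'| + ‖z - z'‖) := by
  have hR := hA.nonneg
  have hN : 0 ≤ N := le_trans zero_le_one hI.one_le_N
  have h1 := psi_lip hA hF hL hg hl ⟨hs'.1, hs'.2.trans hτ⟩ (Φ s' (Ψ s z)) z'
  rw [hF.left] at h1
  have h2 : ‖Φ s' (Ψ s z) - z‖ ≤ (1 + 2 * R) * |s - s'| := by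
    have a1 := hF.pos_le s s' (Ψ s z)
    have a2 := hF.mom_sub_le hA s s' (Ψ s z)
    rw [hF.right, abs_sub_comm] at a1 a2
    have a3 := abs_nonneg (s - s')
    rw [Prod.norm_def]
    exact max_le (a1.trans (by nlinarith)) (a2.trans (by nlinarith))
  have h3 : ‖Φ s' (Ψ s z) - z'‖ ≤ (1 + 2 * R) * (|s - s'| + ‖z - z'‖) := by
    have := norm_sub_le_norm_sub_add_norm_sub (Φ s' (Ψ s z)) z z'
    nlinarith [norm_nonneg (z - z')]
  have h4 : Real.exp ((2 + 2 * R) * s' + 2 * L * Real.exp (g * s') / g)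
      ≤ Real.exp ((2 + 2 * R) * T + 2 * L * Real.exp (g * τ) / g) := by
    have b1 := hs'.2.trans hτ
    have b2 := hs'.2
    gcongr
  refine (hI.lip _ _).trans ((mul_le_mul_of_nonneg_left (h1.trans
    (mul_le_mul h4 h3 (norm_nonneg _) (Real.exp_pos _).le)) hN).trans_eq ?_)
  ring

theorem dens_lipX (hI : Init f0 N P0) (hA : App A R) (hF : IsFlow A Φ Ψ) (hL : 0 ≤ L)
    (hl : LipX A T L) {t : ℝ} (ht : t ∈ Icc 0 T) (z z' : Z) :
    |dens f0 Ψ t z - dens f0 Ψ t z'| ≤ N * Real.exp ((2 + 2 * R + 2 * L) * T) * ‖z - z'‖ := by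
  have hN : 0 ≤ N := le_trans zero_le_one hI.one_le_N
  have h := phi_back hA hF hL hl (s := 0) ⟨le_rfl, ht.1⟩ ht.2 z z'
  rw [hF.zero, hF.zero] at h
  rw [mul_assoc]
  exact (hI.lip _ _).trans (mul_le_mul_of_nonneg_left h hN)

theorem psi_stab (hA' : App A' R) (hF : IsFlow A Φ Ψ) (hF' : IsFlow A' Φ' Ψ') (hL : 0 ≤ L)
    (hl : LipX A T L) (hε : 0 ≤ ε) (hg : 0 < g) (hc : CloseW A A' T ε g)
    {t : ℝ} (ht : t ∈ Icc 0 T) (z : Z) :
    ‖Ψ t z - Ψ' t z‖
      ≤ Real.exp ((2 + 2 * R + 2 * L) * T) * (2 * ε * Real.exp (g * t) / g) := by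
  have hR := hA'.nonneg
  have h := gron_back (w := fun s => Φ s (Ψ t z) - Φ' s (Ψ' t z))
    (w' := fun s => vf A s (Φ s (Ψ t z)) - vf A' s (Φ' s (Ψ' t z)))
    (I := fun s => (2 + 2 * R + 2 * L) * s) (J := fun s => 2 * ε * Real.exp (g * s) / g)
    (k := fun _ => 2 + 2 * R + 2 * L) (e := fun s => 2 * ε * Real.exp (g * s)) ht.1
    ((fe_cont hF _).sub (fe_cont hF' _)).continuousOn
    (fun r hr => (hF.hasDerivAt hr.1 _).sub (hF'.hasDerivAt hr.1 _))
    (fun s => fe_lin _ s) (fun s => fe_exp _ hg s)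
    (fun s _ => by positivity) (fun _ _ => by positivity)
    (fun r hr => by
      have hrT : r ∈ Icc 0 T := ⟨hr.1.le, hr.2.trans ht.2⟩
      have h2 := vf_sub_le (A := A) (A' := A') hL (hA'.bdd _)
        (hl r hrT (Φ r (Ψ t z)).1 (Φ' r (Ψ' t z)).1)
        (hc (r, (Φ' r (Ψ' t z)).1) ⟨hrT, mem_univ _⟩)
      refine h2.trans_eq ?_
      ring)
  simp only [hF.zero, hF'.zero, hF.right, hF'.right, sub_self, norm_zero, zero_add] at h
  have h3 : 0 ≤ 2 + 2 * R + 2 * L := by positivity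
  have h4 : 0 ≤ 2 * ε * Real.exp (g * 0) / g := by positivity
  have h5 : 2 * ε * Real.exp (g * 0) / g ≤ 2 * ε * Real.exp (g * t) / g := by
    have := ht.1
    gcongr
  exact h.trans (mul_le_mul (Real.exp_le_exp.2 (by nlinarith [ht.2])) (by linarith) (by linarith)
    (Real.exp_pos _).le)

theorem dens_stab (hI : Init f0 N P0) (hA' : App A' R) (hF : IsFlow A Φ Ψ) (hF' : IsFlow A' Φ' Ψ')
    (hL : 0 ≤ L) (hl : LipX A T L) (hε : 0 ≤ ε) (hg : 0 < g) (hc : CloseW A A' T ε g)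
    {t : ℝ} (ht : t ∈ Icc 0 T) (z : Z) :
    |dens f0 Ψ t z - dens f0 Ψ' t z|
      ≤ N * (Real.exp ((2 + 2 * R + 2 * L) * T) * (2 * ε * Real.exp (g * t) / g)) := by
  exact (hI.lip _ _).trans (mul_le_mul_of_nonneg_left (psi_stab hA' hF hF' hL hl hε hg hc ht z)
    (le_trans zero_le_one hI.one_le_N))

end Vale.Agent.P107
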