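import Vale.Agent.P107.PicSup
import Vale.Agent.P107.FlowEst

/-! The contraction estimate and uniqueness.

Plan. intF_con: intF_eq, integral_sub (integrable_itg), norm_integral_le_of_norm_le with the majorant C ε wE P g t. Pointwise, for
‖w.1‖ ≤ t, s = t - ‖w.1‖ ∈ [0, T]: if P < q w.2 both densities vanish (Mom.dens); otherwise smul_sub_le, dens_stab (1 / g ≤ 1),
ker_le with ‖F‖ ≤ R, abs_dens_le, ker_sub_le with CloseW. uniq_main: if T < 0 everything is empty; R'' = max R R' (App.mono),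
L from App.exists_lipX, P = P0 + 2 R'' T (mom_of_app), g = 2 C + 1, halving with c = 0, a p = ‖A p - A' p‖, β0 = 2 R''
(Rep: A p - A' p = intF .. - intF ..); then psi_stab with ε = 0. -/

namespace Vale.Agent.P107

open MeasureTheory Set Filter Topology
open scoped ContDiff RealInnerProductSpace ENNReal

theorem intF_con {N P R L T : ℝ} (hN : 0 ≤ N) (hP : 1 ≤ P) (hR : 0 ≤ R) (hL : 0 ≤ L)
    (hT : 0 ≤ T) :
    ∃ C : ℝ, 0 ≤ C ∧ ∀ (f0 : Z → ℝ) (P0 : ℝ) (A A' : Fld) (Φ Ψ Φ' Ψ' : ℝ → Z → Z) (ε g : ℝ),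
      Init f0 N P0 → App A R → App A' R → IsFlow A Φ Ψ → IsFlow A' Φ' Ψ' →
      Mom f0 Φ T P → Mom f0 Φ' T P → LipX A T L → 0 ≤ ε → 1 ≤ g → CloseW A A' T ε g →
      CloseW (intF (dens f0 Ψ) A) (intF (dens f0 Ψ') A') T (C * ε / g) g := by
  have hP0 : 0 ≤ P := by linarith
  have ha : 0 ≤ N * (Real.exp ((2 + 2 * R + 2 * L) * T) * 2) * (P ^ 2 + 8 * P ^ 4 * T * R)
      + N * (8 * P ^ 4 * T) := by positivity
  refine ⟨65 * P ^ 3 * (N * (Real.exp ((2 + 2 * R + 2 * L) * T) * 2) * (P ^ 2 + 8 * P ^ 4 * T * R)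
      + N * (8 * P ^ 4 * T)), by positivity, ?_⟩
  intro f0 P0 A A' Φ Ψ Φ' Ψ' ε g hI hA hA' hF hF' hM hM' hl hε hg hc p hp
  have hg0 : 0 < g := by linarith
  have ht := mem_slab.1 hp
  have hS : MeasurableSet {w : Z | ‖w.1‖ ≤ p.1} :=
    measurableSet_le measurable_fst.norm measurable_const
  have i2 := (integrable_wE P p.1 hg0).const_mul
    ((N * (Real.exp ((2 + 2 * R + 2 * L) * T) * 2) * (P ^ 2 + 8 * P ^ 4 * T * R)
      + N * (8 * P ^ 4 * T)) * ε)
  rw [intF_eq, intF_eq, ← integral_sub (integrable_itg hI hA hF p hS subset_rfl)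
    (integrable_itg hI hA' hF' p hS subset_rfl)]
  refine (norm_integral_le_of_norm_le i2 (Eventually.of_forall fun w => ?_)).trans ?_
  · have w2 := wE_nonneg P g p.1 w
    have hn := norm_nonneg w.1
    by_cases hw : w ∈ {w : Z | ‖w.1‖ ≤ p.1}
    swap
    · rw [indicator_of_notMem hw, indicator_of_notMem hw, sub_zero, norm_zero]; positivity
    rw [indicator_of_mem hw, indicator_of_mem hw]
    have hw' : ‖w.1‖ ≤ p.1 := hw
    have hsI : p.1 - ‖w.1‖ ∈ Icc 0 T := ⟨by linarith, by linarith⟩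
    unfold itg
    by_cases hq : q w.2 ≤ P
    swap
    · have e1 : dens f0 Ψ (p.1 - ‖w.1‖) (p.2 - w.1, w.2) = 0 := by
        by_contra h0
        exact hq (hM.dens hF (z := (p.2 - w.1, w.2)) hsI.2 h0)
      have e2 : dens f0 Ψ' (p.1 - ‖w.1‖) (p.2 - w.1, w.2) = 0 := by
        by_contra h0
        exact hq (hM'.dens hF' (z := (p.2 - w.1, w.2)) hsI.2 h0)
      rw [e1, e2, zero_smul, zero_smul, sub_zero, norm_zero]
      positivity
    have hDT : ‖w.1‖ ≤ T := by linarith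
    have e2 : wE P g p.1 w = Real.exp (g * (p.1 - ‖w.1‖)) / ‖w.1‖ ^ 2 := by
      unfold wE; rw [if_pos hq]
    have b1 := dens_stab hI hA' hF hF' hL hl hε hg0 hc hsI (p.2 - w.1, w.2)
    have b1' : N * (Real.exp ((2 + 2 * R + 2 * L) * T) * (2 * ε * Real.exp (g * (p.1 - ‖w.1‖)) / g))
        ≤ N * (Real.exp ((2 + 2 * R + 2 * L) * T) * (2 * ε * Real.exp (g * (p.1 - ‖w.1‖)))) := by
      have : 2 * ε * Real.exp (g * (p.1 - ‖w.1‖)) / g ≤ 2 * ε * Real.exp (g * (p.1 - ‖w.1‖)) :=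
        div_le_self (by positivity) hg
      gcongr
    have b2 : ‖ker w.1 w.2 (A (p.1 - ‖w.1‖, p.2 - w.1))‖
        ≤ (P ^ 2 + 8 * P ^ 4 * T * R) / ‖w.1‖ ^ 2 :=
      (ker_le hq hDT _).trans (div_le_div_of_nonneg_right (add_le_add le_rfl
        (mul_le_mul_of_nonneg_left (hA.bdd _) (by positivity))) (by positivity))
    have b3 := (ker_sub_le hq hDT (A (p.1 - ‖w.1‖, p.2 - w.1)) (A' (p.1 - ‖w.1‖, p.2 - w.1))).trans
      (div_le_div_of_nonneg_right (mul_le_mul_of_nonneg_left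
        (hc (p.1 - ‖w.1‖, p.2 - w.1) ⟨hsI, mem_univ _⟩) (by positivity)) (by positivity))
    refine (smul_sub_le _ _ _ _).trans ((add_le_add
      (mul_le_mul (b1.trans b1') b2 (norm_nonneg _) (by positivity))
      (mul_le_mul (abs_dens_le hI _ _) b3 (norm_nonneg _) hN)).trans_eq ?_)
    rw [e2]
    ring
  · rw [integral_const_mul]
    refine (mul_le_mul_of_nonneg_left (integral_wE_le hP0 hg0 p.1) (by positivity)).trans_eq ?_
    ring

theorem uniq_main {f0 : Z → ℝ} {N P0 T R R' : ℝ} {dat A A' : Fld} {Φ Ψ Φ' Ψ' : ℝ → Z → Z}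
    (hI : Init f0 N P0) (hA : App A R) (hA' : App A' R') (hF : IsFlow A Φ Ψ)
    (hF' : IsFlow A' Φ' Ψ') (hr : Rep f0 dat A Ψ T) (hr' : Rep f0 dat A' Ψ' T) :
    (∀ p ∈ slab T, A p = A' p) ∧ ∀ t ∈ Icc 0 T, ∀ z, Ψ t z = Ψ' t z := by
  rcases lt_or_ge T 0 with hT | hT
  · exact ⟨fun p hp => absurd ((mem_slab.1 hp).1.trans (mem_slab.1 hp).2) (not_le.2 hT),
      fun t ht => absurd (ht.1.trans ht.2) (not_le.2 hT)⟩
  have hB := hA.mono (le_max_left R R')
  have hB' := hA'.mono (le_max_right R R')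
  generalize max R R' = R2 at hB hB'
  have hR := hB.nonneg
  obtain ⟨L, hL, hl⟩ := hA.exists_lipX
  have hP : 1 ≤ P0 + 2 * R2 * T := by
    have := hI.one_le_P0
    have h2 : 0 ≤ 2 * R2 * T := by positivity
    linarith
  obtain ⟨C, hC, hcon⟩ := intF_con (le_trans zero_le_one hI.one_le_N) hP hR hL hT
  have hg : 0 < 2 * C + 1 := by positivity
  have h := halving (S := slab T) (a := fun p => ‖A p - A' p‖)
    (w := fun p => Real.exp ((2 * C + 1) * p.1)) (c := 0) (β0 := 2 * R2)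
    (fun _ _ => (Real.exp_pos _).le) le_rfl (by positivity)
    (fun p hp => by
      have h1 := norm_sub_le (A p) (A' p)
      have h2 := hB.bdd p
      have h3 := hB'.bdd p
      have h4 : 1 ≤ Real.exp ((2 * C + 1) * p.1) :=
        Real.one_le_exp (mul_nonneg hg.le (mem_slab.1 hp).1)
      nlinarith)
    (fun β hβ hb p hp => by
      have h1 := hcon f0 P0 A A' Φ Ψ Φ' Ψ' β (2 * C + 1) hI hB hB' hF hF'
        (mom_of_app hI hB hF hT) (mom_of_app hI hB' hF' hT) (hl T) hβ (by linarith) hb p hp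
      rw [hr p hp, hr' p hp, add_sub_add_left_eq_sub]
      refine h1.trans (mul_le_mul_of_nonneg_right ?_ (Real.exp_pos _).le)
      rw [div_le_iff₀ hg]
      nlinarith)
  have h0 : ∀ p ∈ slab T, A p = A' p := by
    intro p hp
    have h1 := h p hp
    simp only [mul_zero, zero_mul] at h1
    exact sub_eq_zero.1 (norm_le_zero_iff.1 h1)
  refine ⟨h0, fun t ht z => ?_⟩
  have h2 := psi_stab (ε := 0) (g := 1) hB' hF hF' hL (hl T) le_rfl one_pos
    (fun p hp => by rw [h0 p hp]; simp) ht z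
  simp only [mul_zero, zero_mul, zero_div] at h2
  exact sub_eq_zero.1 (norm_le_zero_iff.1 h2)

end Vale.Agent.P107
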