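import Vale.Agent.P107.PicPt

/-! Abstract Picard iteration in a weighted sup norm; closedness of the invariant set.

Plan. fix_abs: K n = F^[n] K0 ∈ X, ‖K (n+1) p - K n p‖ ≤ β / 2^n * w p on S by induction; cauchySeq_of_le_geometric (or _two) gives a
limit for p ∈ S (define Kl p = limUnder, or choose), ‖K n p - Kl p‖ ≤ 2 β / 2^n * w p (dist_le_of_le_geometric_two_of_tendsto),
Kl ∈ X by hcl, ‖K (n+1) p - F Kl p‖ ≤ β / 2^n * w p by hcon, uniqueness of limits. The closedness lemmas: le_of_tendsto'.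
The Reg lemmas: exp (g t) ≤ exp (g T), 1 ≤ exp; the constant M is nonnegative when 0 ≤ T (evaluate bdd at (0,0)). -/

namespace Vale.Agent.P107

open MeasureTheory Set Filter Topology
open scoped ContDiff RealInnerProductSpace ENNReal

theorem fix_abs {α E : Type} [NormedAddCommGroup E] [CompleteSpace E] {S : Set α} {w : α → ℝ}
    (X : Set (α → E)) (F : (α → E) → α → E) {K0 : α → E} {β : ℝ} (h0 : K0 ∈ X)
    (hmap : ∀ K ∈ X, F K ∈ X) (hβ : 0 ≤ β) (hbd : ∀ p ∈ S, ‖F K0 p - K0 p‖ ≤ β * w p)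
    (hcon : ∀ K ∈ X, ∀ K' ∈ X, ∀ ε, 0 ≤ ε → (∀ p ∈ S, ‖K p - K' p‖ ≤ ε * w p) →
      ∀ p ∈ S, ‖F K p - F K' p‖ ≤ ε / 2 * w p)
    (hcl : ∀ (Kn : ℕ → α → E) (K : α → E), (∀ n, Kn n ∈ X) →
      (∀ p ∈ S, Tendsto (fun n => Kn n p) atTop (𝓝 (K p))) → K ∈ X) :
    ∃ K ∈ X, ∀ p ∈ S, K p = F K p := by
  have hX : ∀ n, F^[n] K0 ∈ X := fun n => by
    induction n with
    | zero => exact h0
    | succ n ih => rw [Function.iterate_succ_apply']; exact hmap _ ih
  have hd : ∀ n, ∀ p ∈ S, ‖F^[n + 1] K0 p - F^[n] K0 p‖ ≤ β / 2 ^ n * w p := fun n => by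
    induction n with
    | zero => simpa using hbd
    | succ n ih =>
      have := hcon _ (hX (n + 1)) _ (hX n) _ (by positivity) ih
      rwa [← Function.iterate_succ_apply' F (n + 1), ← Function.iterate_succ_apply' F n, div_div,
        ← pow_succ] at this
  have hd' : ∀ p ∈ S, ∀ n, dist (F^[n] K0 p) (F^[n + 1] K0 p) ≤ 2 * β * w p / 2 / 2 ^ n :=
    fun p hp n => by
      rw [dist_comm, dist_eq_norm]
      exact (hd n p hp).trans_eq (by ring)
  have hl : ∀ p ∈ S, Tendsto (fun n => F^[n] K0 p) atTop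
      (𝓝 (limUnder atTop fun n => F^[n] K0 p)) := fun p hp =>
    (cauchySeq_of_le_geometric_two (hd' p hp)).tendsto_limUnder
  have hK := hcl _ _ hX hl
  refine ⟨_, hK, fun p hp => ?_⟩
  refine tendsto_nhds_unique ((hl p hp).comp (tendsto_add_atTop_nat 1)) ?_
  rw [tendsto_iff_norm_sub_tendsto_zero]
  refine squeeze_zero (g := fun n => β * w p * (1 / 2) ^ n) (fun _ => norm_nonneg _) (fun n => ?_) ?_
  · have := hcon _ (hX n) _ hK (2 * β / 2 ^ n) (by positivity) (fun r hr => by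
      rw [← dist_eq_norm]
      exact (dist_le_of_le_geometric_two_of_tendsto (hd' r hr) (hl r hr) n).trans_eq (by ring)) p hp
    rw [← Function.iterate_succ_apply' F n] at this
    exact this.trans_eq (by rw [one_div, inv_pow]; ring)
  · simpa using (tendsto_pow_atTop_nhds_zero_of_lt_one (r := (1 / 2 : ℝ)) (by norm_num)
      (by norm_num)).const_mul (β * w p)

theorem lipW_lim {T L g : ℝ} {Kn : ℕ → Fld} {K : Fld} (h : ∀ n, LipW (Kn n) T L g)
    (ht : ∀ p ∈ slab T, Tendsto (fun n => Kn n p) atTop (𝓝 (K p))) : LipW K T L g := by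
  intro p hp p' hp'
  exact le_of_tendsto' ((ht p hp).sub (ht p' hp')).norm fun n => h n p hp p' hp'

theorem secW_lim {T M g : ℝ} {Kn : ℕ → Fld} {K : Fld} (h : ∀ n, SecW (Kn n) T M g)
    (ht : ∀ p ∈ slab T, Tendsto (fun n => Kn n p) atTop (𝓝 (K p))) : SecW K T M g := by
  intro t hT x y
  have hs : ∀ z : V3, (t, z) ∈ slab T := fun z => ⟨hT, mem_univ _⟩
  exact le_of_tendsto' (((ht _ (hs _)).sub ((ht _ (hs _)).const_smul (2 : ℝ))).add
    (ht _ (hs _))).norm fun n => h n t hT x y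

theorem Reg.nonneg {K : Fld} {T M : ℝ} (h : Reg K T M) (hT : 0 ≤ T) : 0 ≤ M := by
  exact (norm_nonneg _).trans (h.bdd (0, 0) ⟨⟨le_rfl, hT⟩, mem_univ _⟩)

theorem Reg.lipW {K : Fld} {T M M' g : ℝ} (h : Reg K T M) (hT : 0 ≤ T) (hM : M ≤ M') (hg : 0 ≤ g) :
    LipW K T M' g := by
  intro p hp p' hp'
  refine (h.lip p hp p' hp').trans (mul_le_mul_of_nonneg_right (hM.trans ?_) (norm_nonneg _))
  exact le_mul_of_one_le_right ((h.nonneg hT).trans hM)
    (Real.one_le_exp (mul_nonneg hg (le_max_of_le_left hp.1.1)))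

theorem Reg.secW {K : Fld} {T M M' g : ℝ} (h : Reg K T M) (hT : 0 ≤ T) (hM : M ≤ M') (hg : 0 ≤ g) :
    SecW K T M' g := by
  intro t ht x y
  refine (h.sec t ht x y).trans (mul_le_mul_of_nonneg_right (hM.trans ?_) (sq_nonneg _))
  exact le_mul_of_one_le_right ((h.nonneg hT).trans hM) (Real.one_le_exp (mul_nonneg hg ht.1))

theorem reg_of {K : Fld} {T B L g M g' : ℝ} (hB : ∀ p ∈ slab T, ‖K p‖ ≤ B) (hL : 0 ≤ L)
    (hg : 0 ≤ g) (hl : LipW K T L g) (hM : 0 ≤ M) (hg' : 0 ≤ g') (hs : SecW K T M g') :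
    ∃ M0, ∀ M', M0 ≤ M' → Reg K T M' := by
  refine ⟨max B (max (L * Real.exp (g * T)) (M * Real.exp (g' * T))), fun M' h => ?_⟩
  simp only [max_le_iff] at h
  refine ⟨fun p hp => (hB p hp).trans h.1, fun p hp p' hp' => (hl p hp p' hp').trans
    (mul_le_mul_of_nonneg_right (le_trans ?_ h.2.1) (norm_nonneg _)), fun t ht x y =>
    (hs t ht x y).trans (mul_le_mul_of_nonneg_right (le_trans ?_ h.2.2) (sq_nonneg _))⟩
  · have : max p.1 p'.1 ≤ T := max_le hp.1.2 hp'.1.2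
    gcongr
  · have := ht.2
    gcongr

theorem LipW.add {K K' : Fld} {T L L' L'' g : ℝ} (h : LipW K T L g) (h' : LipW K' T L' g)
    (hle : L + L' ≤ L'') : LipW (fun p => K p + K' p) T L'' g := by
  intro p hp p' hp'
  rw [add_sub_add_comm]
  refine (norm_add_le _ _).trans ((add_le_add (h p hp p' hp') (h' p hp p' hp')).trans ?_)
  rw [← add_mul, ← add_mul]
  gcongr

theorem SecW.add {K K' : Fld} {T M M' M'' g : ℝ} (h : SecW K T M g) (h' : SecW K' T M' g)
    (hle : M + M' ≤ M'') : SecW (fun p => K p + K' p) T M'' g := by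
  intro t ht x y
  have e : K (t, x + y) + K' (t, x + y) - (2 : ℝ) • (K (t, x) + K' (t, x)) +
      (K (t, x - y) + K' (t, x - y)) = (K (t, x + y) - (2 : ℝ) • K (t, x) + K (t, x - y)) +
      (K' (t, x + y) - (2 : ℝ) • K' (t, x) + K' (t, x - y)) := by
    rw [smul_add]
    abel
  rw [e]
  refine (norm_add_le _ _).trans ((add_le_add (h t ht x y) (h' t ht x y)).trans ?_)
  rw [← add_mul, ← add_mul]
  gcongr

end Vale.Agent.P107
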