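import Vale.Agent.P107.PicPt
import Vale.Agent.P107.Cone

/-! Lagrangian form of the far part.

Plan. far_rep: S = {d < ‖w.1‖ ∧ ‖w.1‖ ≤ t}, G w = (kap w.1 w.2)⁻¹ • S.indicator (itg ..) w is measurable (measurable_kap, measurable_itg).
kap • G = S.indicator (itg ..) (kap_pos). G (cm z) = lag .. z: psi_cm gives dens (t - ‖D‖) (x - D, v) = f0 z, rt_eq and the definition
of cm give (t - ‖D‖, x - D) = (rt, (Φ rt z).1) (sub_sub_cancel); smul_comm. integral_cm gives the formula. Integrability: measurable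
(continuous_cm) and ∫⁻ ‖G (cm z)‖ₑ = ∫⁻ ofReal kap * ‖G‖ₑ = ∫⁻ ‖S.indicator (itg ..)‖ₑ < ∞ (lintegral_cm, integrable_itg).
cm_bound: lintegral_cm / integral_cm and kap_le. -/

namespace Vale.Agent.P107

open MeasureTheory Set Filter Topology
open scoped ContDiff RealInnerProductSpace ENNReal

variable {A : Fld} {R : ℝ} {Φ Ψ : ℝ → Z → Z} {f0 : Z → ℝ} {N P0 : ℝ}

theorem pfara_int (hF : IsFlow A Φ Ψ) (t : ℝ) (x : V3) {E : Type} [NormedAddCommGroup E]
    [NormedSpace ℝ E] [MeasurableSpace E] [BorelSpace E] [SecondCountableTopology E] {G : Z → E}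
    (hG : Measurable G) (hi : Integrable fun w : Z => kap w.1 w.2 • G w) :
    Integrable fun z => G (cm Φ t x z) := by
  refine ⟨(hG.comp (coneb_cont hF t x).measurable).aestronglyMeasurable, ?_⟩
  have h1 := lintegral_cm hF t x (g := fun w => ‖G w‖ₑ) hG.enorm
  have h2 := hi.2
  unfold HasFiniteIntegral at h2 ⊢
  rw [h1]
  refine lt_of_eq_of_lt (lintegral_congr fun w => ?_) h2
  rw [enorm_smul, Real.enorm_eq_ofReal (kap_pos _ _).le]

theorem far_rep (hI : Init f0 N P0) (hA : App A R) (hF : IsFlow A Φ Ψ) (d : ℝ) (p : ℝ × V3) :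
    Integrable (lag f0 A Φ d p) ∧ farI (dens f0 Ψ) A d p = ∫ z, lag f0 A Φ d p z := by
  set S : Set Z := {w : Z | d < ‖w.1‖ ∧ ‖w.1‖ ≤ p.1} with hS
  have hn : Measurable fun w : Z => ‖w.1‖ := measurable_fst.norm
  have hSm : MeasurableSet S :=
    (measurableSet_lt measurable_const hn).inter (measurableSet_le hn measurable_const)
  set G : Z → V3 × V3 := fun w => (kap w.1 w.2)⁻¹ • S.indicator (itg (dens f0 Ψ) A p) w with hG
  have hGm : Measurable G := measurable_kap.inv.smul ((measurable_itg hI hA hF p).indicator hSm)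
  have e1 : (fun w : Z => kap w.1 w.2 • G w) = S.indicator (itg (dens f0 Ψ) A p) := by
    funext w
    rw [hG]
    exact smul_inv_smul₀ (kap_pos _ _).ne' _
  have e2 : (fun z => G (cm Φ p.1 p.2 z)) = lag f0 A Φ d p := by
    funext z
    have h1 : (cm Φ p.1 p.2 z).1 = p.2 - (Φ (rt Φ p.1 p.2 z) z).1 := rfl
    have h2 : p.2 - (cm Φ p.1 p.2 z).1 = (Φ (rt Φ p.1 p.2 z) z).1 := by rw [h1, sub_sub_cancel]
    simp only [hG, lag]
    split_ifs with hz
    · rw [indicator_of_mem (show cm Φ p.1 p.2 z ∈ S from hz), itg, dens, psi_cm hF, ← rt_eq hF, h2,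
        lk, smul_comm]
    · rw [indicator_of_notMem (show cm Φ p.1 p.2 z ∉ S from hz), smul_zero]
  have hi := integrable_itg hI hA hF p hSm fun w hw => hw.2
  refine ⟨e2 ▸ pfara_int hF p.1 p.2 hGm (e1 ▸ hi), ?_⟩
  rw [← e2, integral_cm hF p.1 p.2 hGm.aestronglyMeasurable, e1]
  rfl

theorem cm_bound (hF : IsFlow A Φ Ψ) (t : ℝ) (x : V3) {h : Z → ℝ} (hm : Measurable h)
    (h0 : ∀ w, 0 ≤ h w) (hi : Integrable h) :
    Integrable (fun z => h (cm Φ t x z)) ∧ ∫ z, h (cm Φ t x z) ≤ 2 * ∫ w, h w := by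
  have hle : ∀ w : Z, kap w.1 w.2 • h w ≤ 2 * h w := fun w =>
    mul_le_mul_of_nonneg_right (kap_le _ _) (h0 w)
  have h1 : Integrable fun w : Z => kap w.1 w.2 • h w :=
    (hi.const_mul 2).mono' (measurable_kap.smul hm).aestronglyMeasurable
      (Eventually.of_forall fun w => by
        rw [Real.norm_of_nonneg (smul_nonneg (kap_pos _ _).le (h0 w))]; exact hle w)
  refine ⟨pfara_int hF t x hm h1, ?_⟩
  rw [integral_cm hF t x hm.aestronglyMeasurable, ← integral_const_mul]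
  exact integral_mono h1 (hi.const_mul 2) hle

end Vale.Agent.P107
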