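import Vale.Agent.P107.PicD

/-! Integrals of the radial weights.

Plan. One general lemma: for measurable φ : ℝ → ℝ≥0∞, the lintegral over Z = V3 × V3 of
w ↦ (indicator {v | q v ≤ P} 1 w.2) * φ ‖w.1‖ is (∫⁻ D, φ ‖D‖) * volume {q ≤ P} (lintegral_prod_mul, Measure.volume_eq_prod), then
lintegral_radial and volume_q_le; 4 π * 5 ≤ 65 (Real.pi_le_four is too weak: use Real.pi_lt_d2, π < 3.15).
For r > 0: r² * (1 / r²) = 1. One-dimensional integrals: the measure of Ioi 0 ∩ [a,b] is at most b - a;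
∫ r in Ioi 0, exp (g (τ - r)) = exp (g τ) / g (integral_exp_mul_Ioi / integrableOn_exp_mul_Ioi / exp_neg_integrableOn_Ioi);
∫ 1/r on [exp (-Λ), T] ≤ Λ + T (on [exp (-Λ), 1] it is Λ by integral_one_div, on [1, T] the integrand is ≤ 1).
Integrable: measurable + finite lintegral (lintegral_ofReal_ne_top_iff_integrable / hasFiniteIntegral_iff_ofReal);
the integral: integral_eq_lintegral_of_nonneg_ae, ENNReal.toReal_le_of_le_ofReal. -/

namespace Vale.Agent.P107

open MeasureTheory Set Filter Topology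
open scoped ContDiff RealInnerProductSpace ENNReal

theorem wS_nonneg (P a b : ℝ) (w : Z) : 0 ≤ wS P a b w := by
  unfold wS; split_ifs <;> positivity

theorem wE_nonneg (P g τ : ℝ) (w : Z) : 0 ≤ wE P g τ w := by
  unfold wE; split_ifs <;> positivity

theorem wL_nonneg (P d T : ℝ) (w : Z) : 0 ≤ wL P d T w := by
  unfold wL; split_ifs <;> positivity

theorem rad_measq (P : ℝ) : MeasurableSet {v : V3 | q v ≤ P} :=
  measurableSet_le contDiff_q.continuous.measurable measurable_const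

theorem rad_meas {φ : ℝ → ℝ} (hφ : Measurable φ) (P : ℝ) :
    Measurable fun w : Z => if q w.2 ≤ P then φ ‖w.1‖ / ‖w.1‖ ^ 2 else 0 :=
  Measurable.ite (measurable_snd (rad_measq P))
    ((hφ.comp measurable_fst.norm).div (measurable_fst.norm.pow_const 2)) measurable_const

theorem rad_main {φ : ℝ → ℝ} (hφ : Measurable φ) (P : ℝ) {c : ℝ} (hc0 : 0 ≤ c)
    (hc : ∫⁻ r in Ioi (0 : ℝ), ENNReal.ofReal (φ r) ≤ ENNReal.ofReal c) :
    ∫⁻ w : Z, ENNReal.ofReal (if q w.2 ≤ P then φ ‖w.1‖ / ‖w.1‖ ^ 2 else 0)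
      ≤ ENNReal.ofReal (65 * |P| ^ 3 * c) := by
  have hg : Measurable fun r : ℝ => ENNReal.ofReal (φ r / r ^ 2) :=
    (hφ.div (measurable_id.pow_const 2)).ennreal_ofReal
  have e : ∀ w : Z, ENNReal.ofReal (if q w.2 ≤ P then φ ‖w.1‖ / ‖w.1‖ ^ 2 else 0)
      = ENNReal.ofReal (φ ‖w.1‖ / ‖w.1‖ ^ 2) * {v : V3 | q v ≤ P}.indicator 1 w.2 := by
    intro w
    by_cases h : q w.2 ≤ P
    · rw [if_pos h, indicator_of_mem (show w.2 ∈ {v : V3 | q v ≤ P} from h)]; simp
    · rw [if_neg h, indicator_of_notMem (show w.2 ∉ {v : V3 | q v ≤ P} from h)]; simp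
  simp_rw [e]
  rw [Measure.volume_eq_prod, lintegral_prod_mul (f := fun D : V3 => ENNReal.ofReal (φ ‖D‖ / ‖D‖ ^ 2))
    (hg.comp measurable_norm).aemeasurable
    ((measurable_one.indicator (rad_measq P)).aemeasurable), lintegral_indicator_one (rad_measq P),
    lintegral_radial hg]
  have e2 : ∫⁻ r in Ioi (0 : ℝ), ENNReal.ofReal (r ^ 2) * ENNReal.ofReal (φ r / r ^ 2)
      = ∫⁻ r in Ioi (0 : ℝ), ENNReal.ofReal (φ r) := by
    refine setLIntegral_congr_fun measurableSet_Ioi fun r hr => ?_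
    have hr' : 0 < r := hr
    rw [← ENNReal.ofReal_mul (by positivity)]
    congr 1
    field_simp
  rw [e2]
  have h5 : volume {v : V3 | q v ≤ P} ≤ ENNReal.ofReal (5 * |P| ^ 3) :=
    (measure_mono fun v hv => le_trans hv (le_abs_self P)).trans (volume_q_le |P|)
  refine (mul_le_mul' (mul_le_mul' le_rfl hc) h5).trans ?_
  have hpi := Real.pi_pos
  rw [← ENNReal.ofReal_mul (by positivity), ← ENNReal.ofReal_mul (by positivity)]
  refine ENNReal.ofReal_le_ofReal ?_
  have h1 := Real.pi_lt_d2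
  have h2 : 0 ≤ |P| ^ 3 * c := by positivity
  nlinarith

theorem rad_fin {W : Z → ℝ} (hm : Measurable W) (h0 : ∀ w, 0 ≤ W w) {c : ℝ} (hc0 : 0 ≤ c)
    (hc : ∫⁻ w, ENNReal.ofReal (W w) ≤ ENNReal.ofReal c) : Integrable W ∧ ∫ w, W w ≤ c := by
  constructor
  · exact (lintegral_ofReal_ne_top_iff_integrable hm.aestronglyMeasurable
      (Eventually.of_forall h0)).1 (ne_top_of_le_ne_top ENNReal.ofReal_ne_top hc)
  · rw [integral_eq_lintegral_of_nonneg_ae (Eventually.of_forall h0) hm.aestronglyMeasurable]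
    exact ENNReal.toReal_le_of_le_ofReal hc0 hc

theorem rad_wS (P a b : ℝ) : wS P a b = fun w : Z =>
    if q w.2 ≤ P then (Icc a b).indicator (1 : ℝ → ℝ) ‖w.1‖ / ‖w.1‖ ^ 2 else 0 := by
  ext w
  unfold wS
  by_cases h : q w.2 ≤ P <;> by_cases h' : ‖w.1‖ ∈ Icc a b
  · rw [if_pos ⟨h, h'⟩, if_pos h, indicator_of_mem h']; simp
  · rw [if_neg fun k => h' k.2, if_pos h, indicator_of_notMem h']; simp
  · rw [if_neg fun k => h k.1, if_neg h]
  · rw [if_neg fun k => h k.1, if_neg h]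

theorem rad_wL (P d T : ℝ) : wL P d T = fun w : Z =>
    if q w.2 ≤ P then (Icc d T).indicator (fun r : ℝ => r⁻¹) ‖w.1‖ / ‖w.1‖ ^ 2 else 0 := by
  ext w
  unfold wL
  by_cases h : q w.2 ≤ P <;> by_cases h' : ‖w.1‖ ∈ Icc d T
  · rw [if_pos ⟨h, h'⟩, if_pos h, indicator_of_mem h']; ring
  · rw [if_neg fun k => h' k.2, if_pos h, indicator_of_notMem h']; simp
  · rw [if_neg fun k => h k.1, if_neg h]
  · rw [if_neg fun k => h k.1, if_neg h]

theorem rad_mE (g τ : ℝ) : Measurable fun r : ℝ => Real.exp (g * (τ - r)) := by fun_prop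

theorem measurable_wS (P a b : ℝ) : Measurable (wS P a b) := by
  rw [rad_wS]
  exact rad_meas (measurable_one.indicator measurableSet_Icc) P

theorem measurable_wE (P g τ : ℝ) : Measurable (wE P g τ) :=
  rad_meas (rad_mE g τ) P

theorem measurable_wL (P d T : ℝ) : Measurable (wL P d T) := by
  rw [rad_wL]
  exact rad_meas (measurable_inv.indicator measurableSet_Icc) P

theorem rad_ind (a b c : ℝ) (hc : 0 ≤ c) :
    ∫⁻ r in Ioi (0 : ℝ), ENNReal.ofReal ((Icc a b).indicator (fun _ => c) r)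
      ≤ ENNReal.ofReal (c * |b - a|) := by
  refine (setLIntegral_le_lintegral _ _).trans ?_
  have e : ∀ r : ℝ, ENNReal.ofReal ((Icc a b).indicator (fun _ => c) r)
      = (Icc a b).indicator (fun _ => ENNReal.ofReal c) r := by
    intro r
    by_cases h : r ∈ Icc a b
    · rw [indicator_of_mem h, indicator_of_mem h]
    · rw [indicator_of_notMem h, indicator_of_notMem h, ENNReal.ofReal_zero]
  simp_rw [e]
  rw [lintegral_indicator_const measurableSet_Icc, Real.volume_Icc, ENNReal.ofReal_mul hc]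
  exact mul_le_mul' le_rfl (ENNReal.ofReal_le_ofReal (le_abs_self _))

theorem rad_S (P a b : ℝ) : Integrable (wS P a b) ∧ ∫ w, wS P a b w ≤ 65 * |P| ^ 3 * |b - a| := by
  refine rad_fin (measurable_wS P a b) (wS_nonneg P a b) (by positivity) ?_
  rw [rad_wS]
  refine rad_main (measurable_one.indicator measurableSet_Icc) P (abs_nonneg _) ?_
  have h := rad_ind a b 1 zero_le_one
  rw [one_mul] at h
  exact h

theorem rad_E (P τ : ℝ) {g : ℝ} (hg : 0 < g) :
    Integrable (wE P g τ) ∧ ∫ w, wE P g τ w ≤ 65 * |P| ^ 3 * (Real.exp (g * τ) / g) := by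
  refine rad_fin (measurable_wE P g τ) (wE_nonneg P g τ) (by positivity) ?_
  refine rad_main (rad_mE g τ) P (by positivity) ?_
  have e : ∀ r : ℝ, Real.exp (g * (τ - r)) = Real.exp (g * τ) * Real.exp (-g * r) := by
    intro r; rw [← Real.exp_add]; congr 1; ring
  simp_rw [e]
  rw [← ofReal_integral_eq_lintegral_ofReal
    ((integrableOn_exp_mul_Ioi (by linarith) 0).const_mul _)
    (Eventually.of_forall fun r => by positivity), integral_const_mul,
    integral_exp_mul_Ioi (by linarith)]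
  refine ENNReal.ofReal_le_ofReal (le_of_eq ?_)
  rw [mul_zero, Real.exp_zero]
  field_simp

theorem integrable_wS (P a b : ℝ) : Integrable (wS P a b) := (rad_S P a b).1

theorem integrable_wE (P τ : ℝ) {g : ℝ} (hg : 0 < g) : Integrable (wE P g τ) := (rad_E P τ hg).1

theorem integrable_wL (P T : ℝ) {d : ℝ} (hd : 0 < d) : Integrable (wL P d T) := by
  refine (rad_fin (c := 65 * |P| ^ 3 * (d⁻¹ * |T - d|)) (measurable_wL P d T) (wL_nonneg P d T)
    (by positivity) ?_).1
  rw [rad_wL]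
  refine rad_main (measurable_inv.indicator measurableSet_Icc) P (by positivity) ?_
  refine le_trans (lintegral_mono fun r => ENNReal.ofReal_le_ofReal ?_)
    (rad_ind d T d⁻¹ (by positivity))
  by_cases h : r ∈ Icc d T
  · rw [indicator_of_mem h, indicator_of_mem h]
    exact inv_anti₀ hd h.1
  · rw [indicator_of_notMem h, indicator_of_notMem h]

theorem integral_wS_le {P a b : ℝ} (hP : 0 ≤ P) (hab : a ≤ b) :
    ∫ w, wS P a b w ≤ 65 * P ^ 3 * (b - a) := by
  have h := (rad_S P a b).2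
  rwa [abs_of_nonneg hP, abs_of_nonneg (sub_nonneg.2 hab)] at h

theorem integral_wE_le {P g : ℝ} (hP : 0 ≤ P) (hg : 0 < g) (τ : ℝ) :
    ∫ w, wE P g τ w ≤ 65 * P ^ 3 * (Real.exp (g * τ) / g) := by
  have h := (rad_E P τ hg).2
  rwa [abs_of_nonneg hP] at h

theorem rad_log {Λ : ℝ} (hΛ : 0 ≤ Λ) :
    ∫⁻ r in Ioi (0 : ℝ), ENNReal.ofReal ((Icc (Real.exp (-Λ)) 1).indicator (fun r : ℝ => r⁻¹) r)
      ≤ ENNReal.ofReal Λ := by
  refine (setLIntegral_le_lintegral _ _).trans ?_
  have hd := Real.exp_pos (-Λ)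
  have hd1 : Real.exp (-Λ) ≤ 1 := Real.exp_le_one_iff.2 (by linarith)
  have hi : IntegrableOn (fun r : ℝ => r⁻¹) (Icc (Real.exp (-Λ)) 1) :=
    ContinuousOn.integrableOn_Icc (continuousOn_id.inv₀ fun r hr => (hd.trans_le hr.1).ne')
  rw [← ofReal_integral_eq_lintegral_ofReal (hi.integrable_indicator measurableSet_Icc)
    (Eventually.of_forall fun r => indicator_nonneg (fun r hr => (inv_pos.2 (hd.trans_le hr.1)).le) r),
    integral_indicator measurableSet_Icc, integral_Icc_eq_integral_Ioc,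
    ← intervalIntegral.integral_of_le hd1, integral_inv_of_pos hd one_pos, one_div, Real.log_inv,
    Real.log_exp, neg_neg]

theorem integral_wL_le {P Λ T : ℝ} (hP : 0 ≤ P) (hΛ : 0 ≤ Λ) (hT : 0 ≤ T) :
    ∫ w, wL P (Real.exp (-Λ)) T w ≤ 65 * P ^ 3 * (Λ + T) := by
  have h := (rad_fin (c := 65 * |P| ^ 3 * (Λ + T)) (measurable_wL P (Real.exp (-Λ)) T)
    (wL_nonneg P _ T) (by positivity) ?_).2
  · rwa [abs_of_nonneg hP] at h
  rw [rad_wL]
  refine rad_main (measurable_inv.indicator measurableSet_Icc) P (by positivity) ?_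
  have hd := Real.exp_pos (-Λ)
  have h1 : ∀ r : ℝ, ENNReal.ofReal ((Icc (Real.exp (-Λ)) T).indicator (fun r : ℝ => r⁻¹) r)
      ≤ ENNReal.ofReal ((Icc (Real.exp (-Λ)) 1).indicator (fun r : ℝ => r⁻¹) r)
        + ENNReal.ofReal ((Icc 0 T).indicator (fun _ => (1 : ℝ)) r) := by
    intro r
    by_cases h : r ∈ Icc (Real.exp (-Λ)) T
    · rw [indicator_of_mem h]
      by_cases h2 : r ≤ 1
      · rw [indicator_of_mem (show r ∈ Icc (Real.exp (-Λ)) 1 from ⟨h.1, h2⟩)]
        exact le_self_add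
      · rw [indicator_of_mem (show r ∈ Icc 0 T from ⟨hd.le.trans h.1, h.2⟩)]
        exact (ENNReal.ofReal_le_ofReal (inv_le_one_of_one_le₀ (not_le.1 h2).le)).trans le_add_self
    · rw [indicator_of_notMem h, ENNReal.ofReal_zero]
      exact zero_le
  refine (lintegral_mono h1).trans ?_
  rw [lintegral_add_left (measurable_inv.indicator measurableSet_Icc).ennreal_ofReal,
    ENNReal.ofReal_add hΛ hT]
  refine add_le_add (rad_log hΛ) ((rad_ind 0 T 1 zero_le_one).trans_eq ?_)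
  rw [one_mul, sub_zero, abs_of_nonneg hT]

end Vale.Agent.P107
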