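import Vale.Agent.P107.PicKer
import Vale.Agent.P107.PicRad
import Vale.Agent.P107.ConeA

/-! Pointwise Lagrangian difference.

Plan. If f0 z = 0 the left side is 0 (the weights are nonnegative). Otherwise put (D, v) = cm p z, σ = rt p z = t - ‖D‖ (rt_eq), primes for p',
δ = ‖p - p'‖, τ = max t t' ≤ T. Mom gives q v ≤ P, q v' ≤ P (σ ≤ t) and the hypothesis of rt_sub_le, so |σ - σ'| ≤ 4 P² δ,
‖D - D'‖ ≤ δ + 4 P² δ ≤ 5 P² δ (pos_le), ‖v - v'‖ ≤ 8 R P² δ (mom_sub_le). Both conditions hold: σ, σ' ∈ [0, T], m = min ‖D‖ ‖D'‖ > d,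
max σ σ' ≤ τ - m, the distance of (σ, y σ) and (σ', y σ') is |σ - σ'| (pos_le), so LipW bounds the field difference by
L exp (g (τ - m)) 4 P² δ; lk_sub_le; if m = ‖D‖ the three terms are the first three terms of hb at cm p z, otherwise at cm p' z.
Only the condition for p holds: the left side is at most N C / ‖D‖² (lk_le), and either ‖D'‖ ≤ d, so d < ‖D‖ ≤ d + 5 P² δ, or t' < ‖D'‖, so
σ' < 0, σ < 4 P² δ and t - 5 P² δ ≤ ‖D‖ ≤ t. Symmetric case (prove a one-sided lemma first). -/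

namespace Vale.Agent.P107

open MeasureTheory Set Filter Topology
open scoped ContDiff RealInnerProductSpace ENNReal

section aux

variable {A : Fld} {R T P L g d : ℝ} {Φ Ψ : ℝ → Z → Z} {f0 : Z → ℝ} {N P0 : ℝ} {p p' : ℝ × V3}
  {z : Z}

theorem farB_q (hF : IsFlow A Φ Ψ) (hM : Mom f0 Φ T P) (hp : p ∈ slab T) (hz : f0 z ≠ 0) :
    q (cm Φ p.1 p.2 z).2 ≤ P := by
  have h := rt_eq hF p.1 p.2 z
  exact hM _ (by linarith [norm_nonneg (cm Φ p.1 p.2 z).1, (mem_slab.1 hp).2]) z hz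

theorem farB_rt (hF : IsFlow A Φ Ψ) (hM : Mom f0 Φ T P) (hp : p ∈ slab T) (hp' : p' ∈ slab T)
    (hz : f0 z ≠ 0) : |rt Φ p.1 p.2 z - rt Φ p'.1 p'.2 z| ≤ 4 * P ^ 2 * ‖p - p'‖ := by
  have h := rt_sub_le hF (t := p.1) (t' := p'.1) (x := p.2) (x' := p'.2) (z := z) (P := P)
    (fun σ hσ => hM σ (hσ.trans (max_le (mem_slab.1 hp).2 (mem_slab.1 hp').2)) z hz)
  have h1 : |p.1 - p'.1| ≤ ‖p - p'‖ := by
    have := norm_fst_le (p - p')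
    simpa [Real.norm_eq_abs] using this
  have h2 : ‖p.2 - p'.2‖ ≤ ‖p - p'‖ := norm_snd_le (p - p')
  nlinarith [sq_nonneg P]

theorem farB_D (hP : 1 ≤ P) (hF : IsFlow A Φ Ψ) (hM : Mom f0 Φ T P) (hp : p ∈ slab T)
    (hp' : p' ∈ slab T) (hz : f0 z ≠ 0) :
    ‖(cm Φ p.1 p.2 z).1 - (cm Φ p'.1 p'.2 z).1‖ ≤ 5 * P ^ 2 * ‖p - p'‖ := by
  have h := farB_rt hF hM hp hp' hz
  have h1 := hF.pos_le (rt Φ p'.1 p'.2 z) (rt Φ p.1 p.2 z) z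
  have h2 : ‖p.2 - p'.2‖ ≤ ‖p - p'‖ := norm_snd_le (p - p')
  have e : (cm Φ p.1 p.2 z).1 - (cm Φ p'.1 p'.2 z).1
      = (p.2 - p'.2) - ((Φ (rt Φ p.1 p.2 z) z).1 - (Φ (rt Φ p'.1 p'.2 z) z).1) := by
    simp only [cm]; abel
  rw [e]
  have h3 := norm_sub_le (p.2 - p'.2)
    ((Φ (rt Φ p.1 p.2 z) z).1 - (Φ (rt Φ p'.1 p'.2 z) z).1)
  have h4 : 1 ≤ P ^ 2 := one_le_pow₀ hP
  nlinarith [norm_nonneg (p - p')]

theorem farB_v (hA : App A R) (hF : IsFlow A Φ Ψ) (hM : Mom f0 Φ T P) (hp : p ∈ slab T)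
    (hp' : p' ∈ slab T) (hz : f0 z ≠ 0) :
    ‖(cm Φ p.1 p.2 z).2 - (cm Φ p'.1 p'.2 z).2‖ ≤ 8 * R * P ^ 2 * ‖p - p'‖ := by
  have h := farB_rt hF hM hp hp' hz
  have h1 := hF.mom_sub_le hA (rt Φ p'.1 p'.2 z) (rt Φ p.1 p.2 z) z
  have hR := hA.nonneg
  simp only [cm]
  nlinarith

theorem farB_hb_nonneg (hL : 0 ≤ L) {τ δ t : ℝ} (hδ : 0 ≤ δ) (w : Z) :
    0 ≤ hb P T d L g τ δ t w := by
  have h1 := wL_nonneg P d T w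
  have h2 := wS_nonneg P 0 T w
  have h3 := wE_nonneg P g τ w
  have h4 := wS_nonneg P d (d + 5 * P ^ 2 * δ) w
  have h5 := wS_nonneg P (t - 5 * P ^ 2 * δ) t w
  unfold hb
  positivity

/-- Only one of the two conditions holds. -/
theorem farB_one (hP : 1 ≤ P) (hI : Init f0 N P0) (hA : App A R) (hF : IsFlow A Φ Ψ)
    (hM : Mom f0 Φ T P) (hL : 0 ≤ L) (hp : p ∈ slab T) (hp' : p' ∈ slab T) (hz : f0 z ≠ 0)
    (τ : ℝ) (h' : ¬ (d < ‖(cm Φ p'.1 p'.2 z).1‖ ∧ ‖(cm Φ p'.1 p'.2 z).1‖ ≤ p'.1)) :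
    ‖lag f0 A Φ d p z‖ ≤ N * (2 * P ^ 2 * (P ^ 2 + 8 * P ^ 4 * T * R))
      * hb P T d L g τ ‖p - p'‖ p.1 (cm Φ p.1 p.2 z) := by
  have hN : 0 ≤ N := le_trans zero_le_one hI.one_le_N
  have hR := hA.nonneg
  have hT : 0 ≤ T := (mem_slab.1 hp).1.trans (mem_slab.1 hp).2
  have hc : 0 ≤ N * (2 * P ^ 2 * (P ^ 2 + 8 * P ^ 4 * T * R)) := by positivity
  have hδ := norm_nonneg (p - p')
  unfold lag
  split_ifs with h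
  · have hq := farB_q hF hM hp hz
    have hDT : ‖(cm Φ p.1 p.2 z).1‖ ≤ T := h.2.trans (mem_slab.1 hp).2
    have h1 := lk_le hq hDT (hA.bdd (rt Φ p.1 p.2 z, (Φ (rt Φ p.1 p.2 z) z).1))
    have h2 : |f0 z| ≤ N := by rw [abs_of_nonneg (hI.nonneg z)]; exact hI.le z
    have h3 : 1 / ‖(cm Φ p.1 p.2 z).1‖ ^ 2 ≤ hb P T d L g τ ‖p - p'‖ p.1 (cm Φ p.1 p.2 z) := by
      have a1 := wL_nonneg P d T (cm Φ p.1 p.2 z)
      have a2 := wS_nonneg P 0 T (cm Φ p.1 p.2 z)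
      have a3 := wE_nonneg P g τ (cm Φ p.1 p.2 z)
      have a4 := wS_nonneg P d (d + 5 * P ^ 2 * ‖p - p'‖) (cm Φ p.1 p.2 z)
      have a5 := wS_nonneg P (p.1 - 5 * P ^ 2 * ‖p - p'‖) p.1 (cm Φ p.1 p.2 z)
      have b1 := mul_nonneg hδ a1
      have b2 := mul_nonneg hδ a2
      have b3 := mul_nonneg (mul_nonneg hδ hL) a3
      unfold hb
      by_cases hd : d < ‖(cm Φ p'.1 p'.2 z).1‖
      · have ht : p'.1 < ‖(cm Φ p'.1 p'.2 z).1‖ := lt_of_not_ge fun h2 => h' ⟨hd, h2⟩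
        have e1 := rt_eq hF p.1 p.2 z
        have e2 := rt_eq hF p'.1 p'.2 z
        have e3 := (abs_le.1 (farB_rt hF hM hp hp' hz)).2
        have e4 : 0 ≤ P ^ 2 * ‖p - p'‖ := by positivity
        have e5 : wS P (p.1 - 5 * P ^ 2 * ‖p - p'‖) p.1 (cm Φ p.1 p.2 z)
            = 1 / ‖(cm Φ p.1 p.2 z).1‖ ^ 2 := by
          unfold wS
          rw [if_pos ⟨hq, by linarith, h.2⟩]
        linarith
      · have e3 := farB_D hP hF hM hp hp' hz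
        have e4 := norm_sub_norm_le (cm Φ p.1 p.2 z).1 (cm Φ p'.1 p'.2 z).1
        have e5 : wS P d (d + 5 * P ^ 2 * ‖p - p'‖) (cm Φ p.1 p.2 z)
            = 1 / ‖(cm Φ p.1 p.2 z).1‖ ^ 2 := by
          unfold wS
          rw [if_pos ⟨hq, h.1.le, by linarith [not_lt.1 hd]⟩]
        linarith
    rw [norm_smul, Real.norm_eq_abs]
    calc |f0 z| * ‖lk (cm Φ p.1 p.2 z).1 (cm Φ p.1 p.2 z).2
          (A (rt Φ p.1 p.2 z, (Φ (rt Φ p.1 p.2 z) z).1))‖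
        ≤ N * (2 * P ^ 2 * (P ^ 2 + 8 * P ^ 4 * T * R) / ‖(cm Φ p.1 p.2 z).1‖ ^ 2) :=
          mul_le_mul h2 h1 (norm_nonneg _) hN
      _ = N * (2 * P ^ 2 * (P ^ 2 + 8 * P ^ 4 * T * R)) * (1 / ‖(cm Φ p.1 p.2 z).1‖ ^ 2) := by
          ring
      _ ≤ _ := mul_le_mul_of_nonneg_left h3 hc
  · rw [norm_zero]
    exact mul_nonneg hc (farB_hb_nonneg hL hδ _)

/-- The three homogeneous terms are bounded by `hb` at the point with the smaller distance. -/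
theorem farB_three {τ δ t : ℝ} {w : Z} (hq : q w.2 ≤ P) (hd : d < ‖w.1‖) (hT : ‖w.1‖ ≤ T) :
    δ / ‖w.1‖ ^ 3 + δ / ‖w.1‖ ^ 2 + δ * L * Real.exp (g * (τ - ‖w.1‖)) / ‖w.1‖ ^ 2
      ≤ hb P T d L g τ δ t w := by
  have h4 := wS_nonneg P d (d + 5 * P ^ 2 * δ) w
  have h5 := wS_nonneg P (t - 5 * P ^ 2 * δ) t w
  have e1 : wL P d T w = 1 / ‖w.1‖ ^ 3 := by unfold wL; rw [if_pos ⟨hq, hd.le, hT⟩]
  have e2 : wS P 0 T w = 1 / ‖w.1‖ ^ 2 := by unfold wS; rw [if_pos ⟨hq, norm_nonneg _, hT⟩]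
  have e3 : wE P g τ w = Real.exp (g * (τ - ‖w.1‖)) / ‖w.1‖ ^ 2 := by unfold wE; rw [if_pos hq]
  unfold hb
  rw [e1, e2, e3]
  have e : δ / ‖w.1‖ ^ 3 + δ / ‖w.1‖ ^ 2 + δ * L * Real.exp (g * (τ - ‖w.1‖)) / ‖w.1‖ ^ 2
      = δ * (1 / ‖w.1‖ ^ 3) + δ * (1 / ‖w.1‖ ^ 2)
        + δ * L * (Real.exp (g * (τ - ‖w.1‖)) / ‖w.1‖ ^ 2) := by ring
  linarith

theorem farB_fld (hF : IsFlow A Φ Ψ) (hM : Mom f0 Φ T P) (hL : 0 ≤ L) (hg : 0 < g)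
    (hl : LipW A T L g) (hp : p ∈ slab T) (hp' : p' ∈ slab T) (hz : f0 z ≠ 0)
    (h : ‖(cm Φ p.1 p.2 z).1‖ ≤ p.1) (h' : ‖(cm Φ p'.1 p'.2 z).1‖ ≤ p'.1) :
    ‖A (rt Φ p.1 p.2 z, (Φ (rt Φ p.1 p.2 z) z).1) - A (rt Φ p'.1 p'.2 z, (Φ (rt Φ p'.1 p'.2 z) z).1)‖
      ≤ 4 * P ^ 2 * (‖p - p'‖ * L * Real.exp (g * (max p.1 p'.1
        - min ‖(cm Φ p.1 p.2 z).1‖ ‖(cm Φ p'.1 p'.2 z).1‖))) := by
  have e1 := rt_eq hF p.1 p.2 z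
  have e2 := rt_eq hF p'.1 p'.2 z
  have n1 := norm_nonneg (cm Φ p.1 p.2 z).1
  have n2 := norm_nonneg (cm Φ p'.1 p'.2 z).1
  have h1 := hl (rt Φ p.1 p.2 z, (Φ (rt Φ p.1 p.2 z) z).1)
    (mem_slab.2 ⟨by simp only; linarith, by simp only; linarith [(mem_slab.1 hp).2]⟩)
    (rt Φ p'.1 p'.2 z, (Φ (rt Φ p'.1 p'.2 z) z).1)
    (mem_slab.2 ⟨by simp only; linarith, by simp only; linarith [(mem_slab.1 hp').2]⟩)
  have h2 := farB_rt hF hM hp hp' hz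
  have h3 := hF.pos_le (rt Φ p'.1 p'.2 z) (rt Φ p.1 p.2 z) z
  have h4 : ‖((rt Φ p.1 p.2 z, (Φ (rt Φ p.1 p.2 z) z).1) : ℝ × V3)
      - (rt Φ p'.1 p'.2 z, (Φ (rt Φ p'.1 p'.2 z) z).1)‖ ≤ 4 * P ^ 2 * ‖p - p'‖ := by
    rw [Prod.mk_sub_mk, Prod.norm_mk, Real.norm_eq_abs]
    exact max_le h2 (h3.trans h2)
  have h5 : Real.exp (g * max (rt Φ p.1 p.2 z) (rt Φ p'.1 p'.2 z))
      ≤ Real.exp (g * (max p.1 p'.1 - min ‖(cm Φ p.1 p.2 z).1‖ ‖(cm Φ p'.1 p'.2 z).1‖)) := by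
    refine Real.exp_le_exp.2 (mul_le_mul_of_nonneg_left (max_le ?_ ?_) hg.le)
    · linarith [le_max_left p.1 p'.1, min_le_left ‖(cm Φ p.1 p.2 z).1‖ ‖(cm Φ p'.1 p'.2 z).1‖]
    · linarith [le_max_right p.1 p'.1, min_le_right ‖(cm Φ p.1 p.2 z).1‖ ‖(cm Φ p'.1 p'.2 z).1‖]
  refine h1.trans ?_
  calc L * Real.exp (g * max (rt Φ p.1 p.2 z) (rt Φ p'.1 p'.2 z)) * _
      ≤ L * Real.exp (g * (max p.1 p'.1 - min ‖(cm Φ p.1 p.2 z).1‖ ‖(cm Φ p'.1 p'.2 z).1‖))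
        * (4 * P ^ 2 * ‖p - p'‖) :=
        mul_le_mul (mul_le_mul_of_nonneg_left h5 hL) h4 (norm_nonneg _) (by positivity)
    _ = _ := by ring

theorem farB_real {P R m δ y a b c : ℝ} (hR : 0 ≤ R) (hm : 0 < m) (hδ : 0 ≤ δ) (hy : 0 ≤ y)
    (h2 : a ≤ 5 * P ^ 2 * δ) (h3 : b ≤ 8 * R * P ^ 2 * δ) (h4 : c ≤ 4 * P ^ 2 * y) :
    a / m ^ 3 + b / m ^ 2 + c / m ^ 2 ≤ (5 + 8 * R) * P ^ 2 * (δ / m ^ 3 + δ / m ^ 2 + y / m ^ 2) := by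
  have hP2 : 0 ≤ P ^ 2 := sq_nonneg P
  have a1 : a / m ^ 3 ≤ (5 + 8 * R) * P ^ 2 * δ / m ^ 3 :=
    div_le_div_of_nonneg_right (by nlinarith [mul_nonneg (mul_nonneg hR hP2) hδ]) (by positivity)
  have a2 : b / m ^ 2 ≤ (5 + 8 * R) * P ^ 2 * δ / m ^ 2 :=
    div_le_div_of_nonneg_right (by nlinarith [mul_nonneg hP2 hδ]) (by positivity)
  have a0 : 0 ≤ P ^ 2 * y := by positivity
  have a3 : c / m ^ 2 ≤ (5 + 8 * R) * P ^ 2 * y / m ^ 2 :=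
    div_le_div_of_nonneg_right (by nlinarith [mul_nonneg hR a0]) (by positivity)
  calc _ ≤ (5 + 8 * R) * P ^ 2 * δ / m ^ 3 + (5 + 8 * R) * P ^ 2 * δ / m ^ 2
        + (5 + 8 * R) * P ^ 2 * y / m ^ 2 := by linarith
    _ = _ := by ring

/-- Both conditions hold. -/
theorem farB_both {C1 : ℝ} (hC1 : 0 ≤ C1) (hk : ∀ (D D' v v' : V3) (F F' : V3 × V3),
      D ≠ 0 → D' ≠ 0 → ‖D‖ ≤ T → ‖D'‖ ≤ T → q v ≤ P → q v' ≤ P → ‖F‖ ≤ R → ‖F'‖ ≤ R →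
      ‖lk D v F - lk D' v' F'‖ ≤ C1 * (‖D - D'‖ / min ‖D‖ ‖D'‖ ^ 3
        + ‖v - v'‖ / min ‖D‖ ‖D'‖ ^ 2 + ‖F - F'‖ / min ‖D‖ ‖D'‖ ^ 2))
    (hP : 1 ≤ P) (hI : Init f0 N P0) (hA : App A R) (hF : IsFlow A Φ Ψ)
    (hM : Mom f0 Φ T P) (hL : 0 ≤ L) (hg : 0 < g) (hl : LipW A T L g) (hd : 0 < d)
    (hp : p ∈ slab T) (hp' : p' ∈ slab T) (hz : f0 z ≠ 0)
    (h : d < ‖(cm Φ p.1 p.2 z).1‖ ∧ ‖(cm Φ p.1 p.2 z).1‖ ≤ p.1)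
    (h' : d < ‖(cm Φ p'.1 p'.2 z).1‖ ∧ ‖(cm Φ p'.1 p'.2 z).1‖ ≤ p'.1) :
    ‖lag f0 A Φ d p z - lag f0 A Φ d p' z‖ ≤ N * (C1 * ((5 + 8 * R) * P ^ 2
      * (hb P T d L g (max p.1 p'.1) ‖p - p'‖ p.1 (cm Φ p.1 p.2 z)
        + hb P T d L g (max p.1 p'.1) ‖p - p'‖ p'.1 (cm Φ p'.1 p'.2 z)))) := by
  have hN : 0 ≤ N := le_trans zero_le_one hI.one_le_N
  have hR := hA.nonneg
  have hδ := norm_nonneg (p - p')
  have n1 := farB_hb_nonneg (P := P) (T := T) (d := d) (g := g) (τ := max p.1 p'.1) (t := p.1)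
    hL hδ (cm Φ p.1 p.2 z)
  have n2 := farB_hb_nonneg (P := P) (T := T) (d := d) (g := g) (τ := max p.1 p'.1) (t := p'.1)
    hL hδ (cm Φ p'.1 p'.2 z)
  have hq := farB_q hF hM hp hz
  have hq' := farB_q hF hM hp' hz
  have hDT : ‖(cm Φ p.1 p.2 z).1‖ ≤ T := h.2.trans (mem_slab.1 hp).2
  have hDT' : ‖(cm Φ p'.1 p'.2 z).1‖ ≤ T := h'.2.trans (mem_slab.1 hp').2
  have h1 := hk _ _ _ _ _ _ (norm_pos_iff.1 (hd.trans h.1)) (norm_pos_iff.1 (hd.trans h'.1)) hDT hDT'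
    hq hq' (hA.bdd (rt Φ p.1 p.2 z, (Φ (rt Φ p.1 p.2 z) z).1))
    (hA.bdd (rt Φ p'.1 p'.2 z, (Φ (rt Φ p'.1 p'.2 z) z).1))
  have hm0 : 0 < min ‖(cm Φ p.1 p.2 z).1‖ ‖(cm Φ p'.1 p'.2 z).1‖ :=
    lt_min (hd.trans h.1) (hd.trans h'.1)
  have h6 := farB_real hR hm0 hδ (by positivity) (farB_D hP hF hM hp hp' hz)
    (farB_v hA hF hM hp hp' hz) (farB_fld hF hM hL hg hl hp hp' hz h.2 h'.2)
  have h5 : ‖p - p'‖ / min ‖(cm Φ p.1 p.2 z).1‖ ‖(cm Φ p'.1 p'.2 z).1‖ ^ 3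
      + ‖p - p'‖ / min ‖(cm Φ p.1 p.2 z).1‖ ‖(cm Φ p'.1 p'.2 z).1‖ ^ 2
      + ‖p - p'‖ * L * Real.exp (g * (max p.1 p'.1
        - min ‖(cm Φ p.1 p.2 z).1‖ ‖(cm Φ p'.1 p'.2 z).1‖))
        / min ‖(cm Φ p.1 p.2 z).1‖ ‖(cm Φ p'.1 p'.2 z).1‖ ^ 2
      ≤ hb P T d L g (max p.1 p'.1) ‖p - p'‖ p.1 (cm Φ p.1 p.2 z)
        + hb P T d L g (max p.1 p'.1) ‖p - p'‖ p'.1 (cm Φ p'.1 p'.2 z) := by
    rcases min_choice ‖(cm Φ p.1 p.2 z).1‖ ‖(cm Φ p'.1 p'.2 z).1‖ with e | e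
    · rw [e]
      exact (farB_three hq h.1 hDT).trans (le_add_of_nonneg_right n2)
    · rw [e]
      exact (farB_three hq' h'.1 hDT').trans (le_add_of_nonneg_left n1)
  have h7 : |f0 z| ≤ N := by rw [abs_of_nonneg (hI.nonneg z)]; exact hI.le z
  have h8 := h1.trans (mul_le_mul_of_nonneg_left (h6.trans (mul_le_mul_of_nonneg_left h5
    (by positivity))) hC1)
  unfold lag
  rw [if_pos h, if_pos h', ← smul_sub, norm_smul, Real.norm_eq_abs]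
  exact mul_le_mul h7 h8 (norm_nonneg _) hN

theorem farB_fin {x c1 c2 a b : ℝ} (h1 : 0 ≤ c1) (h2 : 0 ≤ c2) (ha : 0 ≤ a) (hb : 0 ≤ b)
    (h : x ≤ c2 * a ∨ x ≤ c2 * b ∨ x ≤ c1 * (a + b)) : x ≤ (c1 + c2) * (a + b) := by
  rcases h with h | h | h <;>
    nlinarith [mul_nonneg h1 ha, mul_nonneg h1 hb, mul_nonneg h2 ha, mul_nonneg h2 hb]

end aux

theorem lag_sub_le {N P R T : ℝ} (hN : 0 ≤ N) (hP : 1 ≤ P) (hR : 0 ≤ R) (hT : 0 ≤ T) :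
    ∃ C : ℝ, 0 ≤ C ∧ ∀ (f0 : Z → ℝ) (P0 : ℝ) (A : Fld) (Φ Ψ : ℝ → Z → Z) (L g d : ℝ)
      (p p' : ℝ × V3), Init f0 N P0 → App A R → IsFlow A Φ Ψ → Mom f0 Φ T P → 0 ≤ L → 0 < g →
      LipW A T L g → 0 < d → p ∈ slab T → p' ∈ slab T → ∀ z : Z,
      ‖lag f0 A Φ d p z - lag f0 A Φ d p' z‖
        ≤ C * (hb P T d L g (max p.1 p'.1) ‖p - p'‖ p.1 (cm Φ p.1 p.2 z)
          + hb P T d L g (max p.1 p'.1) ‖p - p'‖ p'.1 (cm Φ p'.1 p'.2 z)) := by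
  obtain ⟨C1, hC1, hk⟩ := lk_sub_le P R T
  have hc20 : 0 ≤ N * (2 * P ^ 2 * (P ^ 2 + 8 * P ^ 4 * T * R)) := by positivity
  have hc10 : 0 ≤ N * (C1 * ((5 + 8 * R) * P ^ 2)) := by positivity
  refine ⟨_, add_nonneg hc10 hc20, ?_⟩
  intro f0 P0 A Φ Ψ L g d p p' hI hA hF hM hL hg hl hd hp hp' z
  have hδ := norm_nonneg (p - p')
  have n1 := farB_hb_nonneg (P := P) (T := T) (d := d) (g := g) (τ := max p.1 p'.1) (t := p.1)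
    hL hδ (cm Φ p.1 p.2 z)
  have n2 := farB_hb_nonneg (P := P) (T := T) (d := d) (g := g) (τ := max p.1 p'.1) (t := p'.1)
    hL hδ (cm Φ p'.1 p'.2 z)
  refine farB_fin hc10 hc20 n1 n2 ?_
  by_cases hz : f0 z = 0
  · have e : ∀ p0 : ℝ × V3, lag f0 A Φ d p0 z = 0 := by
      intro p0; unfold lag; split_ifs <;> simp [hz]
    rw [e, e, sub_zero, norm_zero]
    exact Or.inl (mul_nonneg hc20 n1)
  by_cases h' : d < ‖(cm Φ p'.1 p'.2 z).1‖ ∧ ‖(cm Φ p'.1 p'.2 z).1‖ ≤ p'.1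
  swap
  · have e : lag f0 A Φ d p' z = 0 := by unfold lag; rw [if_neg h']
    rw [e, sub_zero]
    exact Or.inl (farB_one hP hI hA hF hM hL hp hp' hz (max p.1 p'.1) h')
  by_cases h : d < ‖(cm Φ p.1 p.2 z).1‖ ∧ ‖(cm Φ p.1 p.2 z).1‖ ≤ p.1
  swap
  · have e : lag f0 A Φ d p z = 0 := by unfold lag; rw [if_neg h]
    have h1 := farB_one (g := g) hP hI hA hF hM hL hp' hp hz (max p.1 p'.1) h
    rw [norm_sub_rev p' p] at h1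
    rw [e, zero_sub, norm_neg]
    exact Or.inr (Or.inl h1)
  refine Or.inr (Or.inr ((farB_both hC1 hk hP hI hA hF hM hL hg hl hd hp hp' hz h h').trans_eq ?_))
  ring

end Vale.Agent.P107
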