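import Vale.Agent.P107.PicNear
import Vale.Agent.P107.PicFarA
import Vale.Agent.P107.PicFarB
import Vale.Agent.P107.FlowEst

/-! The logarithmic Lipschitz estimate.

Plan. hb is measurable, nonnegative, integrable, with integral at most 65 P³ δ (Λ + 2 T + L exp (g τ) / g + 10 P²) for d = exp (-Λ)
(PicRad). far_lip: far_rep, integral_sub, norm_integral_le_of_norm_le with lag_sub_le, cm_bound twice.
intF_lip: τ = max t t', Λ = (2 + 2R) T + 2 L exp (g τ) / g, d = exp (-Λ), Lf = N (1 + 2R) exp Λ (dens_lip), d Lf = N (1 + 2R);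
intF_split, near_lip, far_lip; 1 ≤ exp (g τ). -/

namespace Vale.Agent.P107

open MeasureTheory Set Filter Topology
open scoped ContDiff RealInnerProductSpace ENNReal

theorem piclip_meas (P T d L g τ δ t : ℝ) : Measurable (hb P T d L g τ δ t) :=
  (((((measurable_wL P d T).const_mul δ).add ((measurable_wS P 0 T).const_mul δ)).add
    ((measurable_wE P g τ).const_mul (δ * L))).add (measurable_wS P _ _)).add (measurable_wS P _ _)

theorem piclip_int {P T L g δ Λ : ℝ} (hP : 0 ≤ P) (hT : 0 ≤ T) (hL : 0 ≤ L) (hg : 0 < g)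
    (hδ : 0 ≤ δ) (hΛ : 0 ≤ Λ) (τ t : ℝ) :
    Integrable (hb P T (Real.exp (-Λ)) L g τ δ t) ∧ ∫ w, hb P T (Real.exp (-Λ)) L g τ δ t w ≤
      65 * P ^ 3 * (1 + 2 * T + 10 * P ^ 2) * (1 + Λ + L * Real.exp (g * τ) / g) * δ := by
  have i1 := (integrable_wL P T (Real.exp_pos (-Λ))).const_mul δ
  have i2 := (integrable_wS P 0 T).const_mul δ
  have i3 := (integrable_wE P τ hg).const_mul (δ * L)
  have i4 := integrable_wS P (Real.exp (-Λ)) (Real.exp (-Λ) + 5 * P ^ 2 * δ)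
  have i5 := integrable_wS P (t - 5 * P ^ 2 * δ) t
  refine ⟨(((i1.add i2).add i3).add i4).add i5, ?_⟩
  have a1 := integral_add i1 i2
  have a2 := integral_add (i1.add i2) i3
  have a3 := integral_add ((i1.add i2).add i3) i4
  have a4 := integral_add (((i1.add i2).add i3).add i4) i5
  simp only [Pi.add_apply] at a2 a3 a4
  have h0 : 0 ≤ 5 * P ^ 2 * δ := by positivity
  have b1 := mul_le_mul_of_nonneg_left (integral_wL_le hP hΛ hT) hδ
  have b2 := mul_le_mul_of_nonneg_left (integral_wS_le hP hT) hδ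
  have b3 := mul_le_mul_of_nonneg_left (integral_wE_le hP hg τ) (mul_nonneg hδ hL)
  have b4 := integral_wS_le hP (le_add_of_nonneg_right (a := Real.exp (-Λ)) h0)
  have b5 := integral_wS_le hP (sub_le_self t h0)
  have b6 : 0 ≤ 65 * P ^ 3 * δ *
      (1 + (2 * T + 10 * P ^ 2) * (Λ + L * (Real.exp (g * τ) / g))) := by positivity
  simp only [hb]
  rw [a4, a3, a2, a1, integral_const_mul, integral_const_mul, integral_const_mul, mul_div_assoc]
  linarith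

theorem far_lip {N P R T : ℝ} (hN : 0 ≤ N) (hP : 1 ≤ P) (hR : 0 ≤ R) (hT : 0 ≤ T) :
    ∃ C : ℝ, 0 ≤ C ∧ ∀ (f0 : Z → ℝ) (P0 : ℝ) (A : Fld) (Φ Ψ : ℝ → Z → Z) (L g Λ : ℝ)
      (p p' : ℝ × V3), Init f0 N P0 → App A R → IsFlow A Φ Ψ → Mom f0 Φ T P → 0 ≤ L → 0 < g →
      LipW A T L g → 0 ≤ Λ → p ∈ slab T → p' ∈ slab T →
      ‖farI (dens f0 Ψ) A (Real.exp (-Λ)) p - farI (dens f0 Ψ) A (Real.exp (-Λ)) p'‖
        ≤ C * (1 + Λ + L * Real.exp (g * max p.1 p'.1) / g) * ‖p - p'‖ := by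
  obtain ⟨C, hC, h⟩ := lag_sub_le hN hP hR hT
  have hP0 : 0 ≤ P := by linarith
  refine ⟨C * (4 * (65 * P ^ 3 * (1 + 2 * T + 10 * P ^ 2))), by positivity, ?_⟩
  intro f0 P0 A Φ Ψ L g Λ p p' hI hA hF hM hL hg hl hΛ hp hp'
  obtain ⟨i1, e1⟩ := far_rep hI hA hF (Real.exp (-Λ)) p
  obtain ⟨i2, e2⟩ := far_rep hI hA hF (Real.exp (-Λ)) p'
  have hδ := norm_nonneg (p - p')
  obtain ⟨j1, k1⟩ := piclip_int hP0 hT hL hg hδ hΛ (max p.1 p'.1) p.1
  obtain ⟨j2, k2⟩ := piclip_int hP0 hT hL hg hδ hΛ (max p.1 p'.1) p'.1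
  obtain ⟨j3, k3⟩ := cm_bound hF p.1 p.2 (piclip_meas _ _ _ _ _ _ _ _) (farB_hb_nonneg hL hδ) j1
  obtain ⟨j4, k4⟩ := cm_bound hF p'.1 p'.2 (piclip_meas _ _ _ _ _ _ _ _) (farB_hb_nonneg hL hδ) j2
  rw [e1, e2, ← integral_sub i1 i2]
  refine (norm_integral_le_of_norm_le ((j3.add j4).const_mul C) (Eventually.of_forall
    (h f0 P0 A Φ Ψ L g _ p p' hI hA hF hM hL hg hl (Real.exp_pos _) hp hp'))).trans ?_
  simp only [Pi.add_apply]
  rw [integral_const_mul, integral_add j3 j4, mul_assoc C, mul_assoc C]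
  exact mul_le_mul_of_nonneg_left (by linarith) hC

theorem intF_lip {N P R T : ℝ} (hN : 0 ≤ N) (hP : 1 ≤ P) (hR : 0 ≤ R) (hT : 0 ≤ T) :
    ∃ C : ℝ, 0 ≤ C ∧ ∀ (f0 : Z → ℝ) (P0 : ℝ) (A : Fld) (Φ Ψ : ℝ → Z → Z) (L g : ℝ),
      Init f0 N P0 → App A R → IsFlow A Φ Ψ → Mom f0 Φ T P → 0 ≤ L → 0 < g →
      LipW A T L g → LipW (intF (dens f0 Ψ) A) T (C * (1 + L / g)) g := by
  obtain ⟨C1, c1, h1⟩ := near_lip hN hP hR hT
  obtain ⟨C2, c2, h2⟩ := far_lip hN hP hR hT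
  refine ⟨C1 * (1 + N * (1 + 2 * R)) + C2 * (3 + (2 + 2 * R) * T), by positivity, ?_⟩
  intro f0 P0 A Φ Ψ L g hI hA hF hM hL hg hl p hp p' hp'
  have hΛ : 0 ≤ (2 + 2 * R) * T + 2 * L * Real.exp (g * max p.1 p'.1) / g := by positivity
  have k1 := h1 f0 P0 A Φ Ψ L g
    (Real.exp (-((2 + 2 * R) * T + 2 * L * Real.exp (g * max p.1 p'.1) / g))) _ p p' hI hA hF hM
    hL hg hl (Real.exp_pos _).le (by positivity) hp hp' fun s hs s' hs' =>
      dens_lip hI hA hF hL hg hl (max_le hp.1.2 hp'.1.2) hs hs'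
  have k2 := h2 f0 P0 A Φ Ψ L g _ p p' hI hA hF hM hL hg hl hΛ hp hp'
  rw [mul_left_comm (Real.exp _), ← Real.exp_add, neg_add_cancel, Real.exp_zero, mul_one] at k1
  rw [intF_split hI hA hF
      (Real.exp (-((2 + 2 * R) * T + 2 * L * Real.exp (g * max p.1 p'.1) / g))) p,
    intF_split hI hA hF
      (Real.exp (-((2 + 2 * R) * T + 2 * L * Real.exp (g * max p.1 p'.1) / g))) p',
    add_sub_add_comm]
  refine (norm_add_le _ _).trans ((add_le_add k1 k2).trans ?_)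
  rw [← add_mul]
  refine mul_le_mul_of_nonneg_right ?_ (norm_nonneg _)
  have hE : 1 ≤ Real.exp (g * max p.1 p'.1) :=
    Real.one_le_exp (mul_nonneg hg.le (le_max_of_le_left hp.1.1))
  generalize Real.exp (g * max p.1 p'.1) = E at hE
  have hE' : 0 ≤ E - 1 := by linarith
  have e : ∀ a : ℝ, a * E / g = a / g * E := fun a => by ring
  have b1 : 0 ≤ C1 * ((1 + N * (1 + 2 * R)) * (E - 1) + N * (1 + 2 * R) * (L / g * E)) := by
    positivity
  have b2 : 0 ≤ C2 * (2 + (3 + (2 + 2 * R) * T) * (E - 1) + (2 + 2 * R) * T * (L / g * E)) := by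
    positivity
  rw [e, e, mul_div_assoc]
  linarith

end Vale.Agent.P107
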