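import Vale.Agent.P107.FlowEst

/-! Second differences of the backward flow and of the density.

Plan. psi_sec: K = 2 + 2R + 2L. Curves c_p s = Φ s (Ψ t (z + h)), c_0 s = Φ s (Ψ t z), c_m s = Φ s (Ψ t (z - h)),
w = c_p - 2 • c_0 + c_m, w t = 0. With k = c_p - c_0 one has c_p = c_0 + k, c_m - (c_0 - k) = w, so
w' = [vf (c_0 + k) - 2 vf c_0 + vf (c_0 - k)] + [vf c_m - vf (c_0 - k)], of norm at most
(10 + 10R + 4L + 2 M exp (g s)) ‖k‖² + K ‖w‖ (vf_sec_le, vf_sub_le with ε = 0), and ‖k‖ ≤ exp (K T) ‖h‖ (phi_back).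
gron_back with I s = K s, J s = exp (K T)^2 ‖h‖² ((10 + 10R + 4L) s + 2 M exp (g s) / g).
dens_sec: a_p = Ψ t (z + h) etc., k = a_p - a_0: f0 a_p - 2 f0 a_0 + f0 a_m = [f0 (a_0 + k) - 2 f0 a_0 + f0 (a_0 - k)] + [f0 a_m - f0 (a_0 - k)],
hI.sec, hI.lip, phi_back at s = 0 (IsFlow.zero), psi_sec. -/

namespace Vale.Agent.P107

open MeasureTheory Set Filter Topology
open scoped ContDiff RealInnerProductSpace ENNReal

theorem psi_sec {A : Fld} {R T L M g : ℝ} {Φ Ψ : ℝ → Z → Z} (hA : App A R) (hF : IsFlow A Φ Ψ)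
    (hL : 0 ≤ L) (hl : LipX A T L) (hM : 0 ≤ M) (hg : 0 < g) (hs : SecW A T M g)
    {t : ℝ} (ht : t ∈ Icc 0 T) (z h : Z) :
    ‖Ψ t (z + h) - (2 : ℝ) • Ψ t z + Ψ t (z - h)‖
      ≤ Real.exp ((2 + 2 * R + 2 * L) * T) ^ 3
        * ((10 + 10 * R + 4 * L) * T + 2 * M * Real.exp (g * t) / g) * ‖h‖ ^ 2 := by
  have hR := hA.nonneg
  have hK : 0 ≤ 2 + 2 * R + 2 * L := by positivity
  set E : ℝ := Real.exp ((2 + 2 * R + 2 * L) * T) with hE
  have hE0 : 0 < E := Real.exp_pos _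
  have key := gron_back
    (w := fun s => Φ s (Ψ t (z + h)) - (2 : ℝ) • Φ s (Ψ t z) + Φ s (Ψ t (z - h)))
    (w' := fun s => vf A s (Φ s (Ψ t (z + h))) - (2 : ℝ) • vf A s (Φ s (Ψ t z))
      + vf A s (Φ s (Ψ t (z - h))))
    (I := fun s => (2 + 2 * R + 2 * L) * s)
    (J := fun s => E ^ 2 * ‖h‖ ^ 2 * ((10 + 10 * R + 4 * L) * s + 2 * M * Real.exp (g * s) / g))
    (k := fun _ => 2 + 2 * R + 2 * L)
    (e := fun s => E ^ 2 * ‖h‖ ^ 2 * ((10 + 10 * R + 4 * L) + 2 * M * Real.exp (g * s))) ht.1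
    (((fe_cont hF _).sub ((fe_cont hF _).const_smul (2 : ℝ))).add (fe_cont hF _)).continuousOn
    (fun r hr => ((hF.hasDerivAt hr.1 _).sub ((hF.hasDerivAt hr.1 _).const_smul (2 : ℝ))).add
      (hF.hasDerivAt hr.1 _))
    (fun s => fe_lin _ s) (fun s => ((fe_lin _ s).add (fe_exp _ hg s)).const_mul _)
    (fun s _ => hK) (fun _ _ => by positivity)
    (fun r hr => by
      have hrT : r ∈ Icc 0 T := ⟨hr.1.le, hr.2.trans ht.2⟩
      have b1 := phi_back hA hF hL hl (s := r) ⟨hr.1.le, hr.2⟩ ht.2 (z + h) z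
      rw [add_sub_cancel_left] at b1
      generalize Φ r (Ψ t (z + h)) = cp at *
      generalize Φ r (Ψ t (z - h)) = cm at *
      generalize Φ r (Ψ t z) = c0 at *
      have b2 := vf_sec_le (A := A) (t := r) hL (by positivity) (fun y => hA.bdd _) (hl r hrT)
        (hs r hrT) c0 (cp - c0)
      have b3 := vf_sub_le (A := A) (A' := A) (t := r) (z := cm) (z' := c0 - (cp - c0)) (ε := 0) hL
        (hA.bdd _) (hl r hrT _ _) (by simp)
      have e1 : cm - (c0 - (cp - c0)) = cp - (2 : ℝ) • c0 + cm := by rw [two_smul]; abel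
      rw [e1] at b3
      rw [add_sub_cancel] at b2
      have e2 : vf A r cp - (2 : ℝ) • vf A r c0 + vf A r cm
          = (vf A r cp - (2 : ℝ) • vf A r c0 + vf A r (c0 - (cp - c0)))
            + (vf A r cm - vf A r (c0 - (cp - c0))) := by abel
      have b4 : ‖cp - c0‖ ^ 2 ≤ (E * ‖h‖) ^ 2 := pow_le_pow_left₀ (norm_nonneg _) b1 2
      have b5 := mul_le_mul_of_nonneg_left b4
        (show 0 ≤ 10 + 10 * R + 4 * L + 2 * (M * Real.exp (g * r)) by positivity)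
      rw [e2]
      refine (norm_add_le _ _).trans ?_
      nlinarith)
  have e0 : z + h - (2 : ℝ) • z + (z - h) = 0 := by rw [two_smul]; abel
  simp only [hF.zero, hF.right, e0, norm_zero, zero_add, mul_zero, sub_zero, Real.exp_zero] at key
  have h1 : Real.exp ((2 + 2 * R + 2 * L) * t) ≤ E :=
    Real.exp_le_exp.2 (mul_le_mul_of_nonneg_left ht.2 hK)
  have h2 : (10 + 10 * R + 4 * L) * t ≤ (10 + 10 * R + 4 * L) * T :=
    mul_le_mul_of_nonneg_left ht.2 (by positivity)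
  have h3 : 0 ≤ E ^ 2 * ‖h‖ ^ 2 := by positivity
  have h4 : 0 ≤ 2 * M * 1 / g := by positivity
  have hT : 0 ≤ T := ht.1.trans ht.2
  have h5 : E ^ 2 * ‖h‖ ^ 2 * ((10 + 10 * R + 4 * L) * t + 2 * M * Real.exp (g * t) / g)
      - E ^ 2 * ‖h‖ ^ 2 * (2 * M * 1 / g)
      ≤ E ^ 2 * ‖h‖ ^ 2 * ((10 + 10 * R + 4 * L) * T + 2 * M * Real.exp (g * t) / g) := by
    nlinarith [mul_nonneg h3 h4, mul_le_mul_of_nonneg_left h2 h3]
  refine key.trans (((mul_le_mul_of_nonneg_left h5 (Real.exp_pos _).le).trans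
    (mul_le_mul_of_nonneg_right h1 (by positivity))).trans_eq ?_)
  ring

theorem dens_sec {N R L T : ℝ} (hN : 0 ≤ N) (hR : 0 ≤ R) (hL : 0 ≤ L) (hT : 0 ≤ T) :
    ∃ C : ℝ, 0 ≤ C ∧ ∀ (f0 : Z → ℝ) (P0 : ℝ) (A : Fld) (Φ Ψ : ℝ → Z → Z) (M g : ℝ),
      Init f0 N P0 → App A R → IsFlow A Φ Ψ → LipX A T L → 0 ≤ M → 0 < g → SecW A T M g →
      ∀ t ∈ Icc 0 T, ∀ z h : Z,
        |dens f0 Ψ t (z + h) - 2 * dens f0 Ψ t z + dens f0 Ψ t (z - h)|
          ≤ C * (1 + M * Real.exp (g * t) / g) * ‖h‖ ^ 2 := by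
  set E : ℝ := Real.exp ((2 + 2 * R + 2 * L) * T) with hE
  have hE0 : 0 < E := Real.exp_pos _
  refine ⟨N * (E ^ 2 + E ^ 3 * ((10 + 10 * R + 4 * L) * T + 2)), by positivity, ?_⟩
  intro f0 P0 A Φ Ψ M g hI hA hF hl hM hg hs t ht z h
  have b0 := psi_sec hA hF hL hl hM hg hs ht z h
  have b1 := phi_back hA hF hL hl (s := 0) ⟨le_rfl, ht.1⟩ ht.2 (z + h) z
  rw [add_sub_cancel_left, hF.zero, hF.zero] at b1
  rw [← hE] at b0 b1
  unfold dens
  generalize Ψ t (z + h) = cp at *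
  generalize Ψ t (z - h) = cm at *
  generalize Ψ t z = c0 at *
  have b2 := hI.sec c0 (cp - c0)
  have b3 := hI.lip cm (c0 - (cp - c0))
  have e1 : cm - (c0 - (cp - c0)) = cp - (2 : ℝ) • c0 + cm := by rw [two_smul]; abel
  rw [e1] at b3
  rw [add_sub_cancel] at b2
  have e2 : f0 cp - 2 * f0 c0 + f0 cm
      = (f0 cp - 2 * f0 c0 + f0 (c0 - (cp - c0))) + (f0 cm - f0 (c0 - (cp - c0))) := by ring
  have b4 : ‖cp - c0‖ ^ 2 ≤ (E * ‖h‖) ^ 2 := pow_le_pow_left₀ (norm_nonneg _) b1 2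
  rw [e2]
  refine ((abs_add_le _ _).trans (add_le_add (b2.trans (mul_le_mul_of_nonneg_left b4 hN))
    (b3.trans (mul_le_mul_of_nonneg_left b0 hN)))).trans ?_
  have hy : 0 ≤ M * Real.exp (g * t) / g := by positivity
  have e3 : 2 * M * Real.exp (g * t) / g = 2 * (M * Real.exp (g * t) / g) := by ring
  rw [e3]
  generalize M * Real.exp (g * t) / g = y at *
  have ha : 0 ≤ (10 + 10 * R + 4 * L) * T := by positivity
  generalize (10 + 10 * R + 4 * L) * T = a at *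
  have k1 : E ^ 2 + E ^ 3 * (a + 2 * y) ≤ (E ^ 2 + E ^ 3 * (a + 2)) * (1 + y) := by
    have p1 : 0 ≤ E ^ 2 * y := by positivity
    have p2 : 0 ≤ E ^ 3 * a * y := by positivity
    have p3 : 0 ≤ E ^ 3 := by positivity
    nlinarith
  have k2 := mul_le_mul_of_nonneg_left k1 (show 0 ≤ N * ‖h‖ ^ 2 by positivity)
  refine (le_of_eq ?_).trans (k2.trans_eq ?_) <;> ring

end Vale.Agent.P107
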