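import Vale.Agent.P107.PicNear
import Vale.Agent.P107.FlowSec

/-! Second differences of `intF` in space.

Plan. intF_eq at the three points (the same time t, hence the same set S = {‖w.1‖ ≤ t}), integral_add / integral_sub / integral_smul
(integrable_itg), norm_integral_le_of_norm_le with the majorant ‖h‖² (C wS P 0 T + C M wE P g t). Pointwise, for ‖w.1‖ ≤ t,
s = t - ‖w.1‖, z = (x - w.1, w.2), H = (h, 0) (‖H‖ = ‖h‖; (x + h - w.1, w.2) = z + H): if P < q w.2 the three densities vanish (Mom.dens);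
otherwise smul_sec_le, dens_sec (1 / g ≤ 1), ker_le with ‖F‖ ≤ R, abs_dens_le, ker_sec_le with SecW at (s, x - w.1), dens_lipX, ker_sub_le
with LipX. At the end 1 ≤ exp (g t). -/

namespace Vale.Agent.P107

open MeasureTheory Set Filter Topology
open scoped ContDiff RealInnerProductSpace ENNReal

theorem isec_pt {A : Fld} {R T P L g M C1 : ℝ} {Φ Ψ : ℝ → Z → Z} {f0 : Z → ℝ} {N P0 : ℝ}
    (hI : Init f0 N P0) (hA : App A R) (hF : IsFlow A Φ Ψ) (hM : Mom f0 Φ T P)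
    (hL : 0 ≤ L) (hl : LipX A T L) (hM0 : 0 ≤ M) (hg : 1 ≤ g) (hs : SecW A T M g) (hC1 : 0 ≤ C1)
    (hf : ∀ t ∈ Icc 0 T, ∀ z h : Z,
        |dens f0 Ψ t (z + h) - 2 * dens f0 Ψ t z + dens f0 Ψ t (z - h)|
          ≤ C1 * (1 + M * Real.exp (g * t) / g) * ‖h‖ ^ 2)
    {t : ℝ} (ht : t ∈ Icc 0 T) (x h : V3) (w : Z) :
    ‖{w : Z | ‖w.1‖ ≤ t}.indicator (itg (dens f0 Ψ) A (t, x + h)) w
      - (2 : ℝ) • {w : Z | ‖w.1‖ ≤ t}.indicator (itg (dens f0 Ψ) A (t, x)) w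
      + {w : Z | ‖w.1‖ ≤ t}.indicator (itg (dens f0 Ψ) A (t, x - h)) w‖
      ≤ (C1 * (P ^ 2 + 8 * P ^ 4 * T * R)
          + 2 * (N * Real.exp ((2 + 2 * R + 2 * L) * T) * (8 * P ^ 4 * T * L))) * ‖h‖ ^ 2
          * wS P 0 T w
        + (C1 * (P ^ 2 + 8 * P ^ 4 * T * R) + N * (8 * P ^ 4 * T)) * M * ‖h‖ ^ 2 * wE P g t w := by
  have hN : 0 ≤ N := le_trans zero_le_one hI.one_le_N
  have hR := hA.nonneg
  have hT : 0 ≤ T := ht.1.trans ht.2
  have hn := norm_nonneg w.1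
  have w1 := wS_nonneg P 0 T w
  have w2 := wE_nonneg P g t w
  by_cases hw : w ∈ {w : Z | ‖w.1‖ ≤ t}
  swap
  · rw [indicator_of_notMem hw, indicator_of_notMem hw, indicator_of_notMem hw, smul_zero, sub_zero,
      add_zero, norm_zero]
    positivity
  rw [indicator_of_mem hw, indicator_of_mem hw, indicator_of_mem hw]
  have hw' : ‖w.1‖ ≤ t := hw
  have hsI : t - ‖w.1‖ ∈ Icc 0 T := ⟨by linarith, by linarith [ht.2]⟩
  unfold itg
  simp only
  by_cases hq : q w.2 ≤ P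
  swap
  · have e : ∀ y : V3, dens f0 Ψ (t - ‖w.1‖) (y, w.2) = 0 := by
      intro y
      by_contra h0
      exact hq (hM.dens hF (z := (y, w.2)) hsI.2 h0)
    rw [e, e, e, zero_smul, zero_smul, zero_smul, smul_zero, sub_zero, add_zero, norm_zero]
    positivity
  have hDT : ‖w.1‖ ≤ T := hw'.trans ht.2
  have e1 : wS P 0 T w = 1 / ‖w.1‖ ^ 2 := by unfold wS; rw [if_pos ⟨hq, hn, hDT⟩]
  have e2 : wE P g t w = Real.exp (g * (t - ‖w.1‖)) / ‖w.1‖ ^ 2 := by unfold wE; rw [if_pos hq]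
  have x1 : x + h - w.1 = x - w.1 + h := by abel
  have x2 : x - h - w.1 = x - w.1 - h := by abel
  rw [x1, x2]
  have hH : ‖((h, 0) : Z)‖ = ‖h‖ := by
    rw [Prod.norm_mk, norm_zero, max_eq_left (norm_nonneg _)]
  have b1 := hf _ hsI (x - w.1, w.2) (h, 0)
  rw [Prod.mk_add_mk, Prod.mk_sub_mk, add_zero, sub_zero, hH] at b1
  have hE := Real.exp_pos (g * (t - ‖w.1‖))
  have b1' : C1 * (1 + M * Real.exp (g * (t - ‖w.1‖)) / g) * ‖h‖ ^ 2
      ≤ C1 * (1 + M * Real.exp (g * (t - ‖w.1‖))) * ‖h‖ ^ 2 := by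
    have : M * Real.exp (g * (t - ‖w.1‖)) / g ≤ M * Real.exp (g * (t - ‖w.1‖)) :=
      div_le_self (by positivity) hg
    gcongr
  have b2 := near_ker hq hDT (hA.bdd (t - ‖w.1‖, x - w.1))
  have b3 := (ker_sec_le hq hDT (A (t - ‖w.1‖, x - w.1 + h)) (A (t - ‖w.1‖, x - w.1))
    (A (t - ‖w.1‖, x - w.1 - h))).trans (div_le_div_of_nonneg_right
      (mul_le_mul_of_nonneg_left (hs _ hsI (x - w.1) h) (by positivity)) (by positivity))
  have b4 := dens_lipX hI hA hF hL hl hsI (x - w.1 + h, w.2) (x - w.1, w.2)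
  rw [Prod.mk_sub_mk, add_sub_cancel_left, sub_self, hH] at b4
  have b5 := dens_lipX hI hA hF hL hl hsI (x - w.1 - h, w.2) (x - w.1, w.2)
  rw [Prod.mk_sub_mk, sub_sub_cancel_left, sub_self, Prod.norm_mk, norm_zero, norm_neg,
    max_eq_left (norm_nonneg _)] at b5
  have c4 := hl _ hsI (x - w.1 + h) (x - w.1)
  rw [add_sub_cancel_left] at c4
  have c5 := hl _ hsI (x - w.1 - h) (x - w.1)
  rw [sub_sub_cancel_left, norm_neg] at c5
  have b6 := (ker_sub_le hq hDT (A (t - ‖w.1‖, x - w.1 + h)) (A (t - ‖w.1‖, x - w.1))).trans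
    (div_le_div_of_nonneg_right (mul_le_mul_of_nonneg_left c4 (by positivity)) (by positivity))
  have b7 := (ker_sub_le hq hDT (A (t - ‖w.1‖, x - w.1 - h)) (A (t - ‖w.1‖, x - w.1))).trans
    (div_le_div_of_nonneg_right (mul_le_mul_of_nonneg_left c5 (by positivity)) (by positivity))
  refine (smul_sec_le _ _ _ _ _ _).trans ((add_le_add (add_le_add (add_le_add
    (mul_le_mul (b1.trans b1') b2 (norm_nonneg _) (by positivity))
    (mul_le_mul (abs_dens_le hI _ _) b3 (norm_nonneg _) hN))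
    (mul_le_mul b4 b6 (norm_nonneg _) (by positivity)))
    (mul_le_mul b5 b7 (norm_nonneg _) (by positivity))).trans_eq ?_)
  rw [e1, e2]
  ring

theorem intF_sec {N P R L T : ℝ} (hN : 0 ≤ N) (hP : 1 ≤ P) (hR : 0 ≤ R) (hL : 0 ≤ L)
    (hT : 0 ≤ T) :
    ∃ C : ℝ, 0 ≤ C ∧ ∀ (f0 : Z → ℝ) (P0 : ℝ) (A : Fld) (Φ Ψ : ℝ → Z → Z) (M g : ℝ),
      Init f0 N P0 → App A R → IsFlow A Φ Ψ → Mom f0 Φ T P → LipX A T L → 0 ≤ M → 1 ≤ g →
      SecW A T M g → SecW (intF (dens f0 Ψ) A) T (C * (1 + M / g)) g := by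
  obtain ⟨C1, hC1, hd⟩ := dens_sec hN hR hL hT
  have hP0 : 0 ≤ P := by linarith
  have ha : 0 ≤ C1 * (P ^ 2 + 8 * P ^ 4 * T * R)
      + 2 * (N * Real.exp ((2 + 2 * R + 2 * L) * T) * (8 * P ^ 4 * T * L)) := by positivity
  have hb : 0 ≤ C1 * (P ^ 2 + 8 * P ^ 4 * T * R) + N * (8 * P ^ 4 * T) := by positivity
  refine ⟨65 * P ^ 3 * ((C1 * (P ^ 2 + 8 * P ^ 4 * T * R)
      + 2 * (N * Real.exp ((2 + 2 * R + 2 * L) * T) * (8 * P ^ 4 * T * L))) * T
      + (C1 * (P ^ 2 + 8 * P ^ 4 * T * R) + N * (8 * P ^ 4 * T))), by positivity, ?_⟩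
  intro f0 P0 A Φ Ψ M g hI hA hF hM hl hM0 hg hs t ht x h
  have hg0 : 0 < g := by linarith
  have hpt := isec_pt hI hA hF hM hL hl hM0 hg hs hC1 (hd f0 P0 A Φ Ψ M g hI hA hF hl hM0 hg0 hs)
    ht x h
  generalize C1 * (P ^ 2 + 8 * P ^ 4 * T * R)
      + 2 * (N * Real.exp ((2 + 2 * R + 2 * L) * T) * (8 * P ^ 4 * T * L)) = a at *
  generalize C1 * (P ^ 2 + 8 * P ^ 4 * T * R) + N * (8 * P ^ 4 * T) = b at *
  have hS : MeasurableSet {w : Z | ‖w.1‖ ≤ t} :=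
    measurableSet_le measurable_fst.norm measurable_const
  have k1 := integrable_itg hI hA hF (t, x + h) hS subset_rfl
  have k2 := integrable_itg hI hA hF (t, x) hS subset_rfl
  have k3 := integrable_itg hI hA hF (t, x - h) hS subset_rfl
  have i1 := (integrable_wS P 0 T).const_mul (a * ‖h‖ ^ 2)
  have i2 := (integrable_wE P t hg0).const_mul (b * M * ‖h‖ ^ 2)
  rw [intF_eq, intF_eq, intF_eq]
  simp only
  have k2' : Integrable fun w =>
      (2 : ℝ) • {w : Z | ‖w.1‖ ≤ t}.indicator (itg (dens f0 Ψ) A (t, x)) w := k2.smul (2 : ℝ)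
  have k4 : Integrable fun w => {w : Z | ‖w.1‖ ≤ t}.indicator (itg (dens f0 Ψ) A (t, x + h)) w
      - (2 : ℝ) • {w : Z | ‖w.1‖ ≤ t}.indicator (itg (dens f0 Ψ) A (t, x)) w := k1.sub k2'
  rw [← integral_smul, ← integral_sub k1 k2', ← integral_add k4 k3]
  refine (norm_integral_le_of_norm_le (i1.add i2) (Eventually.of_forall hpt)).trans ?_
  rw [integral_add' i1 i2, integral_const_mul, integral_const_mul]
  have j1 := integral_wS_le hP0 hT
  have j2 := integral_wE_le hP0 hg0 t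
  refine (add_le_add (mul_le_mul_of_nonneg_left j1 (by positivity))
    (mul_le_mul_of_nonneg_left j2 (by positivity))).trans ?_
  have hE : 1 ≤ Real.exp (g * t) := Real.one_le_exp (mul_nonneg hg0.le ht.1)
  have hMg : 0 ≤ M / g := by positivity
  have haT : 0 ≤ a * T := by positivity
  have key : a * T + b * (M / g) * Real.exp (g * t)
      ≤ (a * T + b) * (1 + M / g) * Real.exp (g * t) := by
    have h1 : a * T ≤ a * T * Real.exp (g * t) := le_mul_of_one_le_right haT hE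
    nlinarith [mul_nonneg (mul_nonneg haT hMg) (Real.exp_pos (g * t)).le,
      mul_nonneg hb (Real.exp_pos (g * t)).le]
  have hs0 : 0 ≤ 65 * P ^ 3 * ‖h‖ ^ 2 := by positivity
  refine (le_of_eq ?_).trans ((mul_le_mul_of_nonneg_left key hs0).trans_eq ?_) <;> ring

end Vale.Agent.P107
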