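import Vale.Agent.P107.PicPt

/-! The smooth truncation and the applied field attached to `K`.

Plan. exists_tau: b : ContDiffBump (0 : V3 × V3) with rIn = R, rOut = 2 R, τ F = b F • F is smooth with compact support, equal to F on the
closed R-ball (one_of_mem_closedBall), zero outside the 2R-ball, 0 ≤ b ≤ 1. fderiv τ is C¹ with compact support, so τ and fderiv τ are
Lipschitz (ContDiff.lipschitzWith_of_hasCompactSupport, or bounded derivative + lipschitzWith_of_nnnorm_fderiv_le).
Second differences: s ↦ τ (G + s k) + τ (G - s k) has derivative of norm ≤ 2 c2 ‖k‖² on [0,1] (mean value inequality); then with k = F - G,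
τ F - 2 τ G + τ H = [τ (G + k) - 2 τ G + τ (G - k)] + [τ H - τ (G - k)] and H - (G - k) = F - 2 G + H.
The other lemmas: the clamp s ↦ max 0 (min s T) is 1-Lipschitz (abs_max_sub_max_le_abs, abs_min_sub_min_le_max or cases), has values in
[0,T] and is the identity on [0,T]. -/

namespace Vale.Agent.P107

open MeasureTheory Set Filter Topology
open scoped ContDiff RealInnerProductSpace ENNReal

variable {τ : V3 × V3 → V3 × V3} {R c T L M g g' ε : ℝ} {K K' : Fld}

theorem pictau_sec {E : Type} [NormedAddCommGroup E] [NormedSpace ℝ E] {f : E → E} {C : NNReal}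
    (hf : Differentiable ℝ f) (hC : LipschitzWith C (fderiv ℝ f)) (G k : E) :
    ‖f (G + k) - (2 : ℝ) • f G + f (G - k)‖ ≤ 2 * C * ‖k‖ ^ 2 := by
  have h1 : ∀ x ∈ Metric.closedBall (0 : E) ‖k‖, HasFDerivWithinAt (fun x => f (G + x) + f (G - x))
      (fderiv ℝ f (G + x) - fderiv ℝ f (G - x)) (Metric.closedBall (0 : E) ‖k‖) x := fun x _ => by
    have a1 := (hf (G + x)).hasFDerivAt.comp x ((hasFDerivAt_id x).const_add G)
    have a2 := (hf (G - x)).hasFDerivAt.comp x ((hasFDerivAt_id x).const_sub G)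
    refine ((a1.add a2).congr_fderiv ?_).hasFDerivWithinAt
    ext y
    simp [sub_eq_add_neg]
  have h2 := (convex_closedBall (0 : E) ‖k‖).norm_image_sub_le_of_norm_hasFDerivWithin_le
    (C := 2 * C * ‖k‖) h1 (fun x hx => by
      have a1 := hC.norm_sub_le (G + x) (G - x)
      have a2 : ‖G + x - (G - x)‖ ≤ 2 * ‖k‖ := by
        rw [add_sub_sub_cancel]
        linarith [norm_add_le x x, mem_closedBall_zero_iff.1 hx]
      have a3 := mul_le_mul_of_nonneg_left a2 C.coe_nonneg
      linarith) (Metric.mem_closedBall_self (norm_nonneg k)) (mem_closedBall_zero_iff.2 le_rfl)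
  have e : f (G + k) - (2 : ℝ) • f G + f (G - k) =
      f (G + k) + f (G - k) - (f (G + 0) + f (G - 0)) := by
    rw [add_zero, sub_zero, two_smul]
    abel
  rw [e]
  refine h2.trans_eq ?_
  rw [sub_zero]
  ring

theorem exists_tau (hR : 1 ≤ R) : ∃ τ c, Tau τ R c := by
  let b : ContDiffBump (0 : V3 × V3) := ⟨R, 2 * R, by linarith, by linarith⟩
  have h1 : ContDiff ℝ 2 fun F : V3 × V3 => b F • F := b.contDiff.smul contDiff_id
  have h2 : HasCompactSupport fun F : V3 × V3 => b F • F := b.hasCompactSupport.smul_right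
  obtain ⟨C, hC⟩ := h1.lipschitzWith_of_hasCompactSupport h2 (by norm_num)
  obtain ⟨D, hD⟩ := (h1.fderiv_right (m := 1) le_rfl).lipschitzWith_of_hasCompactSupport
    (h2.fderiv ℝ) (by norm_num)
  have hC0 := C.coe_nonneg
  have hD0 := D.coe_nonneg
  refine ⟨fun F => b F • F, 1 + C + 2 * D, by linarith, fun F hF => ?_, fun F => ?_,
    fun F G => ?_, fun F G H => ?_⟩
  · rw [b.one_of_mem_closedBall (mem_closedBall_zero_iff.2 hF), one_smul]
  · rcases le_total ‖F‖ (2 * R) with h | h
    · rw [norm_smul, Real.norm_of_nonneg b.nonneg]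
      exact (mul_le_of_le_one_left (norm_nonneg _) b.le_one).trans h
    · rw [b.zero_of_le_dist (by rwa [dist_zero_right]), zero_smul, norm_zero]
      linarith
  · exact (hC.norm_sub_le F G).trans (mul_le_mul_of_nonneg_right (by linarith) (norm_nonneg _))
  · have a1 := pictau_sec (h1.differentiable (by norm_num)) hD G (F - G)
    have a2 := hC.norm_sub_le H (G - (F - G))
    have e1 : H - (G - (F - G)) = F - (2 : ℝ) • G + H := by
      rw [two_smul]
      abel
    rw [add_sub_cancel] at a1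
    rw [e1] at a2
    have a3 := norm_add_le_of_le a1 a2
    rw [add_assoc, add_sub_cancel] at a3
    have a4 := norm_nonneg (F - (2 : ℝ) • G + H)
    have a5 := sq_nonneg ‖F - G‖
    nlinarith [mul_nonneg hC0 a5, mul_nonneg hD0 a4]

theorem pictau_mem (hT : 0 ≤ T) (p : ℝ × V3) : (max 0 (min p.1 T), p.2) ∈ slab T :=
  ⟨⟨le_max_left _ _, max_le hT (min_le_right _ _)⟩, mem_univ _⟩

theorem cut_eq {p : ℝ × V3} (hp : p ∈ slab T) : cut τ T K p = τ (K p) := by
  rw [cut, min_eq_left hp.1.2, max_eq_right hp.1.1]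

theorem cut_app (hτ : Tau τ R c) (hT : 0 ≤ T) (hL : 0 ≤ L) (hg : 0 ≤ g) (hl : LipW K T L g) :
    App (cut τ T K) (2 * R) := by
  refine ⟨fun p => hτ.bdd _, c * (L * Real.exp (g * T)), fun p p' => (hτ.lip _ _).trans ?_⟩
  have h1 := pictau_mem hT p
  have h2 := pictau_mem hT p'
  rw [mul_assoc]
  refine mul_le_mul_of_nonneg_left ((hl _ h1 _ h2).trans ?_) (by linarith [hτ.one_le])
  refine mul_le_mul (mul_le_mul_of_nonneg_left (Real.exp_le_exp.2
    (mul_le_mul_of_nonneg_left (max_le h1.1.2 h2.1.2) hg)) hL) ?_ (norm_nonneg _) (by positivity)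
  refine max_le_max ?_ le_rfl
  have a1 := abs_max_sub_max_le_max (0 : ℝ) (min p.1 T) 0 (min p'.1 T)
  have a2 := abs_min_sub_min_le_max p.1 T p'.1 T
  rw [sub_self, abs_zero] at a1 a2
  exact a1.trans (max_le (abs_nonneg _) (a2.trans (max_le le_rfl (abs_nonneg _))))

theorem cut_lipW (hτ : Tau τ R c) (hl : LipW K T L g) : LipW (cut τ T K) T (c * L) g := by
  intro p hp p' hp'
  rw [cut_eq hp, cut_eq hp', mul_assoc, mul_assoc, ← mul_assoc L]
  exact (hτ.lip _ _).trans (mul_le_mul_of_nonneg_left (hl p hp p' hp') (by linarith [hτ.one_le]))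

theorem cut_secW (hτ : Tau τ R c) (hL : 0 ≤ L) (hl : LipX K T L) (hg : 0 ≤ g') (hs : SecW K T M g') :
    SecW (cut τ T K) T (c * (M + L ^ 2)) g' := by
  intro t ht x h
  have e : ∀ y, cut τ T K (t, y) = τ (K (t, y)) := fun y => cut_eq ⟨ht, mem_univ _⟩
  rw [e, e, e, mul_assoc, mul_assoc]
  refine (hτ.sec _ _ _).trans (mul_le_mul_of_nonneg_left ?_ (by linarith [hτ.one_le]))
  have h1 := hs t ht x h
  have h2 := hl t ht (x + h) x
  rw [add_sub_cancel_left] at h2
  have h3 := pow_le_pow_left₀ (norm_nonneg _) h2 2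
  have h4 : 1 ≤ Real.exp (g' * t) := Real.one_le_exp (mul_nonneg hg ht.1)
  have h5 := mul_le_mul_of_nonneg_left h4 (sq_nonneg (L * ‖h‖))
  have _ := hL
  linarith

theorem cut_close (hτ : Tau τ R c) (h : CloseW K K' T ε g) :
    CloseW (cut τ T K) (cut τ T K') T (c * ε) g := by
  intro p hp
  rw [cut_eq hp, cut_eq hp, mul_assoc]
  exact (hτ.lip _ _).trans (mul_le_mul_of_nonneg_left (h p hp) (by linarith [hτ.one_le]))

end Vale.Agent.P107
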