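import Vale.Agent.P107.Cone
import Vale.Agent.P107.Flow
import Vale.Agent.P107.PicLip
import Vale.Agent.P107.PicSec
import Vale.Agent.P107.PicCon
import Vale.Agent.P107.PicTau
import Vale.Agent.P107.PicFix

/-! BLOCK PI: the truncated fixed point, uniqueness and the sup bound (notes/P107.md, Part E). -/

namespace Vale.Agent.P107

open MeasureTheory Set Filter Topology
open scoped ContDiff RealInnerProductSpace ENNReal

theorem pic_flow_choice : ∃ Φc Ψc : Fld → ℝ → Z → Z,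
    ∀ (A : Fld) (R : ℝ), App A R → IsFlow A (Φc A) (Ψc A) := by
  classical
  have h : ∀ A : Fld, ∃ ΦΨ : (ℝ → Z → Z) × (ℝ → Z → Z),
      ∀ R : ℝ, App A R → IsFlow A ΦΨ.1 ΦΨ.2 := by
    intro A
    by_cases hA : ∃ R, App A R
    · obtain ⟨R, hR⟩ := hA
      obtain ⟨Φ, Ψ, hF⟩ := exists_flow hR
      exact ⟨(Φ, Ψ), fun _ _ => hF⟩
    · exact ⟨(fun _ z => z, fun _ z => z), fun R hR => absurd ⟨R, hR⟩ hA⟩
  choose f hf using h
  exact ⟨fun A => (f A).1, fun A => (f A).2, hf⟩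

theorem pic_half {C c L : ℝ} (hC : 0 ≤ C) (hc : 0 ≤ c) (hL : 0 ≤ L) :
    C * (c * L) / (2 * C * c + 1) ≤ L / 2 := by
  have h : 0 < 2 * C * c + 1 := by positivity
  rw [div_le_iff₀ h]
  nlinarith [mul_nonneg hC hc]

theorem picard_block {f0 : Z → ℝ} {N P0 T K0 : ℝ} {dat : Fld} (hI : Init f0 N P0) (hT : 0 < T)
    (hd : Reg dat T K0) (R : ℝ) (hR : 1 ≤ R) :
    ∃ (K A : Fld) (Φ Ψ : ℝ → Z → Z) (M R' : ℝ), App A R' ∧ IsFlow A Φ Ψ ∧ Reg K T M ∧ Reg A T M ∧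
      (∀ p ∈ slab T, ‖K p‖ ≤ R → A p = K p) ∧
      ∀ p ∈ slab T, K p = dat p + intF (dens f0 Ψ) A p := by
  obtain ⟨Φc, Ψc, hfl⟩ := pic_flow_choice
  obtain ⟨τ, c, hτ⟩ := exists_tau hR
  have hc0 : 0 ≤ c := le_trans zero_le_one hτ.one_le
  have hN : 0 ≤ N := le_trans zero_le_one hI.one_le_N
  have hR2 : 0 ≤ 2 * R := by linarith
  have hK0 : 0 ≤ K0 := hd.nonneg hT.le
  set P : ℝ := P0 + 2 * (2 * R) * T with hPdef
  have hP : 1 ≤ P := by
    have := hI.one_le_P0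
    have h2 : 0 ≤ 2 * (2 * R) * T := by positivity
    linarith
  obtain ⟨C0, hC0, hsup⟩ := intF_sup hN hP hT.le
  obtain ⟨C1, hC1, hlip⟩ := intF_lip hN hP hR2 hT.le
  set g1 : ℝ := 2 * C1 * c + 1 with hg1def
  have hg1 : 0 < g1 := by positivity
  set L0 : ℝ := 2 * (K0 + C1) with hL0def
  have hL0 : 0 ≤ L0 := by positivity
  set Lm : ℝ := L0 * Real.exp (g1 * T) with hLmdef
  have hLm : 0 ≤ Lm := by positivity
  set LX : ℝ := c * L0 * Real.exp (g1 * T) with hLXdef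
  have hLX : 0 ≤ LX := by positivity
  obtain ⟨C2, hC2, hsec⟩ := intF_sec hN hP hR2 hLX hT.le
  set g2 : ℝ := 2 * C2 * c + 1 with hg2def
  have hg2 : 1 ≤ g2 := by
    have : 0 ≤ 2 * C2 * c := by positivity
    linarith
  set M0 : ℝ := 2 * (K0 + C2) + Lm ^ 2 with hM0def
  have hM0 : 0 ≤ M0 := by positivity
  obtain ⟨C3, hC3, hcon⟩ := intF_con hN hP hR2 hLX hT.le
  set g3 : ℝ := 2 * C3 * c + 1 with hg3def
  have hg3 : 1 ≤ g3 := by
    have : 0 ≤ 2 * C3 * c := by positivity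
    linarith
  let X : Set Fld := {K | LipW K T L0 g1 ∧ SecW K T M0 g2}
  let F : Fld → Fld := fun K p => dat p + intF (dens f0 (Ψc (cut τ T K))) (cut τ T K) p
  have happ : ∀ K ∈ X, App (cut τ T K) (2 * R) := fun K hK => cut_app hτ hT.le hL0 hg1.le hK.1
  have hflow : ∀ K ∈ X, IsFlow (cut τ T K) (Φc (cut τ T K)) (Ψc (cut τ T K)) :=
    fun K hK => hfl _ _ (happ K hK)
  have hmom : ∀ K ∈ X, Mom f0 (Φc (cut τ T K)) T P :=
    fun K hK => mom_of_app hI (happ K hK) (hflow K hK) hT.le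
  have hlA : ∀ K ∈ X, LipW (cut τ T K) T (c * L0) g1 := fun K hK => cut_lipW hτ hK.1
  have hlX : ∀ K ∈ X, LipX (cut τ T K) T LX :=
    fun K hK => (hlA K hK).lipX (by positivity) hg1.le
  have hsA : ∀ K ∈ X, SecW (cut τ T K) T (c * (M0 + Lm ^ 2)) g2 :=
    fun K hK => cut_secW hτ hLm (hK.1.lipX hL0 hg1.le) (by linarith) hK.2
  have hbI : ∀ K ∈ X, ∀ p ∈ slab T,
      ‖intF (dens f0 (Ψc (cut τ T K))) (cut τ T K) p‖ ≤ C0 * (1 + 2 * R * Real.exp T) := by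
    intro K hK p hp
    have h1 := hsup f0 P0 _ _ _ T (2 * R) 1 le_rfl hI (hflow K hK) (hmom K hK) hR2 one_pos
      (fun p' hp' => by
        have h2 := (happ K hK).bdd p'
        have h3 : 1 ≤ Real.exp (1 * p'.1) := Real.one_le_exp (by linarith [(mem_slab.1 hp').1])
        nlinarith) p hp
    refine h1.trans (mul_le_mul_of_nonneg_left ?_ hC0)
    have h4 : Real.exp (1 * p.1) ≤ Real.exp T :=
      Real.exp_le_exp.2 (by linarith [(mem_slab.1 hp).2])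
    rw [div_one]
    nlinarith
  have hmap : ∀ K ∈ X, F K ∈ X := by
    intro K hK
    constructor
    · refine LipW.add (hd.lipW hT.le le_rfl hg1.le)
        (hlip f0 P0 _ _ _ (c * L0) g1 hI (happ K hK) (hflow K hK) (hmom K hK) (by positivity) hg1
          (hlA K hK)) ?_
      have h := pic_half hC1 hc0 hL0
      have e : C1 * (1 + c * L0 / g1) = C1 + C1 * (c * L0) / (2 * C1 * c + 1) := by
        rw [hg1def]; ring
      rw [e]; linarith
    · refine SecW.add (hd.secW hT.le le_rfl (by linarith))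
        (hsec f0 P0 _ _ _ (c * (M0 + Lm ^ 2)) g2 hI (happ K hK) (hflow K hK) (hmom K hK)
          (hlX K hK) (by positivity) hg2 (hsA K hK)) ?_
      have h := pic_half hC2 hc0 (show 0 ≤ M0 + Lm ^ 2 by positivity)
      have e : C2 * (1 + c * (M0 + Lm ^ 2) / g2)
          = C2 + C2 * (c * (M0 + Lm ^ 2)) / (2 * C2 * c + 1) := by
        rw [hg2def]; ring
      rw [e]; linarith
  have hdX : dat ∈ X :=
    ⟨hd.lipW hT.le (by linarith) hg1.le, hd.secW hT.le (by nlinarith [sq_nonneg Lm]) (by linarith)⟩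
  obtain ⟨K, hK, hfix⟩ := fix_abs (S := slab T) (w := fun p => Real.exp (g3 * p.1)) X F
    (β := C0 * (1 + 2 * R * Real.exp T)) hdX hmap (by positivity)
    (fun p hp => by
      have h1 := hbI dat hdX p hp
      have h3 : 1 ≤ Real.exp (g3 * p.1) :=
        Real.one_le_exp (mul_nonneg (by linarith) (mem_slab.1 hp).1)
      have h4 : 0 ≤ C0 * (1 + 2 * R * Real.exp T) := by positivity
      simp only [F, add_sub_cancel_left]
      nlinarith)
    (fun K hK K' hK' ε hε hcl p hp => by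
      have h1 := hcon f0 P0 _ _ _ _ _ _ (c * ε) g3 hI (happ K hK) (happ K' hK') (hflow K hK)
        (hflow K' hK') (hmom K hK) (hmom K' hK') (hlX K hK) (by positivity) hg3
        (cut_close hτ hcl) p hp
      simp only [F, add_sub_add_left_eq_sub]
      exact h1.trans (mul_le_mul_of_nonneg_right (pic_half hC3 hc0 hε) (Real.exp_pos _).le))
    (fun Kn K hKn ht => ⟨lipW_lim (fun n => (hKn n).1) ht, secW_lim (fun n => (hKn n).2) ht⟩)
  have hKb : ∀ p ∈ slab T, ‖K p‖ ≤ K0 + C0 * (1 + 2 * R * Real.exp T) := by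
    intro p hp
    rw [hfix p hp]
    exact (norm_add_le _ _).trans (add_le_add (hd.bdd p hp) (hbI K hK p hp))
  obtain ⟨M1, hM1⟩ := reg_of hKb hL0 hg1.le hK.1 hM0 (by linarith) hK.2
  obtain ⟨M2, hM2⟩ := reg_of (fun p _ => (happ K hK).bdd p) (by positivity) hg1.le (hlA K hK)
    (by positivity) (by linarith) (hsA K hK)
  refine ⟨K, cut τ T K, _, _, max M1 M2, 2 * R, happ K hK, hflow K hK, hM1 _ (le_max_left _ _),
    hM2 _ (le_max_right _ _), fun p hp hle => ?_, hfix⟩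
  rw [cut_eq hp, hτ.eq _ hle]

theorem uniq_block {f0 : Z → ℝ} {N P0 T R R' : ℝ} {dat A A' : Fld} {Φ Ψ Φ' Ψ' : ℝ → Z → Z}
    (hI : Init f0 N P0) (hA : App A R) (hA' : App A' R') (hF : IsFlow A Φ Ψ)
    (hF' : IsFlow A' Φ' Ψ') (hr : Rep f0 dat A Ψ T) (hr' : Rep f0 dat A' Ψ' T) :
    (∀ p ∈ slab T, A p = A' p) ∧ ∀ t ∈ Icc 0 T, ∀ z, Ψ t z = Ψ' t z :=
  uniq_main hI hA hA' hF hF' hr hr'

theorem sup_block (N P0 K0 T P : ℝ) : ∃ C : ℝ, K0 ≤ C ∧ 0 ≤ C ∧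
    ∀ (f0 : Z → ℝ) (dat A : Fld) (Φ Ψ : ℝ → Z → Z) (R T1 : ℝ), T1 ≤ T → Init f0 N P0 → App A R →
      IsFlow A Φ Ψ → Rep f0 dat A Ψ T1 → (∀ p ∈ slab T1, ‖dat p‖ ≤ K0) →
      (∀ t ∈ Icc 0 T1, ∀ z, f0 z ≠ 0 → q (Φ t z).2 ≤ P) → ∀ p ∈ slab T1, ‖A p‖ ≤ C := by
  obtain ⟨C, h1, h2, h3⟩ := sup_main N K0 T P
  exact ⟨C, h1, h2, fun f0 dat A Φ Ψ R T1 => h3 f0 P0 dat A Φ Ψ R T1⟩

end Vale.Agent.P107
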