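import Vale.Agent.P107.Vla0
import Vale.Agent.P107.FlowSec

/-! BLOCK FL: the transported density is C^1 and solves the Vlasov equation (notes/P107.md, Part E). -/

namespace Vale.Agent.P107

open MeasureTheory Set Filter Topology
open scoped ContDiff RealInnerProductSpace ENNReal

theorem vlasov_block {f0 : Z → ℝ} {N P0 R T M : ℝ} {A : Fld} {Φ Ψ : ℝ → Z → Z}
    (hI : Init f0 N P0) (hA : App A R) (hF : IsFlow A Φ Ψ) (hT : 0 < T) (hR : Reg A T M) :
    VlaOn T (dens f0 Ψ) A := by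
  have hM : 0 ≤ M := (norm_nonneg _).trans (hR.bdd (0, 0) ⟨⟨le_rfl, hT.le⟩, trivial⟩)
  obtain ⟨C, hC, hs⟩ := dens_sec (zero_le_one.trans hI.one_le_N) hA.nonneg hM hT.le
  have hl : LipX A T M := fun t ht x y => by
    have := hR.lip (t, x) ⟨ht, trivial⟩ (t, y) ⟨ht, trivial⟩
    rwa [Prod.mk_sub_mk t t, sub_self, Prod.norm_mk (0 : ℝ), norm_zero, max_eq_right (norm_nonneg _)] at this
  have hw : SecW A T M 1 := fun t ht x h => (hR.sec t ht x h).trans
    (mul_le_mul_of_nonneg_right (le_mul_of_one_le_right hM (Real.one_le_exp (by linarith [ht.1])))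
      (sq_nonneg _))
  refine vlasov_of_sec (M := C * (1 + M * Real.exp T)) hI hA hF hT fun t ht z h => ?_
  refine (hs f0 P0 A Φ Ψ M 1 hI hA hF hl hM one_pos hw t ht z h).trans
    (mul_le_mul_of_nonneg_right (mul_le_mul_of_nonneg_left ?_ hC) (sq_nonneg _))
  rw [div_one, one_mul]
  linarith [mul_le_mul_of_nonneg_left (Real.exp_le_exp.2 ht.2) hM]

end Vale.Agent.P107
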