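import Vale.Agent.P107.Max
import Vale.Agent.P107.Pic
import Vale.Agent.P107.Ener
import Vale.Agent.P107.Apri
import Vale.Agent.P107.Vla

/-! Assembly: true solutions on every slab, gluing. -/

namespace Vale.Agent.P107

open MeasureTheory Set Filter Topology
open scoped ContDiff RealInnerProductSpace ENNReal

theorem fin_slab_mono {T T' : ℝ} (h : T ≤ T') : slab T ⊆ slab T' :=
  prod_mono (Icc_subset_Icc_right h) Subset.rfl

theorem fin_mem_slab {T t : ℝ} {x : V3} : (t, x) ∈ slab T ↔ t ∈ Icc 0 T := by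
  simp [slab]

/-- A true solution on the slab of height `T`. -/
structure TS (f0 : Z → ℝ) (E0 B0 : V3 → V3) (dat : Fld) (T : ℝ) (K A : Fld)
    (Φ Ψ : ℝ → Z → Z) : Prop where
  app : ∃ R, App A R
  flow : IsFlow A Φ Ψ
  reg : ∃ M, Reg A T M
  eq : ∀ p ∈ slab T, A p = K p
  rep : Rep f0 dat A Ψ T
  max : MaxOn T (dens f0 Ψ) K
  init : ∀ x, K (0, x) = (E0 x, B0 x)

theorem exists_TS {f0 : Z → ℝ} {E0 B0 : V3 → V3} {N P0 : ℝ} (h : Admissible f0 E0 B0)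
    (hI : Init f0 N P0) {dat : Fld} (hd1 : ∀ T, 0 ≤ T → ∃ K0, Reg dat T K0)
    (hd2 : ∀ x, dat (0, x) = (E0 x, B0 x))
    (hd3 : ∀ (A K : Fld) (R T M : ℝ) (Φ Ψ : ℝ → Z → Z), App A R → IsFlow A Φ Ψ → 0 < T →
        (∀ p ∈ slab T, K p = dat p + intF (dens f0 Ψ) A p) → Reg K T M →
        MaxOn T (dens f0 Ψ) K) {T : ℝ} (hT : 0 < T) :
    ∃ K A Φ Ψ, TS f0 E0 B0 dat T K A Φ Ψ := by
  obtain ⟨K0, hK0⟩ := hd1 T hT.le
  obtain ⟨En, hEn1, hEn⟩ := energy_block h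
  obtain ⟨P, hP⟩ := apriori N P0 K0 En T
  obtain ⟨C, hC1, hC0, hC⟩ := sup_block N P0 K0 T P
  obtain ⟨K, A, Φ, Ψ, M, R', hA, hF, hK, hAr, hAK, hfix⟩ :=
    picard_block hI hT hK0 (C + 1) (by linarith)
  have hmax : MaxOn T (dens f0 Ψ) K := hd3 A K R' T M Φ Ψ hA hF hT hfix hK
  have h0T : ∀ x : V3, ((0 : ℝ), x) ∈ slab T := fun x => fin_mem_slab.2 ⟨le_rfl, hT.le⟩
  have hinit : ∀ x, K (0, x) = (E0 x, B0 x) := fun x => by
    rw [hfix _ (h0T x), intF_zero, add_zero, hd2]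
  have hM0 : 0 ≤ M := (norm_nonneg _).trans (hK.bdd _ (h0T 0))
  set η : ℝ := 1 / (M + 1) with hη
  have hη0 : 0 < η := by positivity
  have hMη : M * η ≤ 1 := by
    rw [hη, mul_one_div, div_le_one (by positivity)]; linarith
  have good : ∀ T1, T1 ≤ T → (∀ p ∈ slab T1, ‖K p‖ ≤ C + 1) → ∀ p ∈ slab T1, ‖K p‖ ≤ C := by
    intro T1 hT1 hb
    have hAK1 : ∀ p ∈ slab T1, A p = K p := fun p hp => hAK p (fin_slab_mono hT1 hp) (hb p hp)
    have hrep : Rep f0 dat A Ψ T1 := fun p hp => by rw [hAK1 p hp, hfix p (fin_slab_mono hT1 hp)]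
    have hdb : ∀ p ∈ slab T1, ‖dat p‖ ≤ K0 := fun p hp => hK0.bdd p (fin_slab_mono hT1 hp)
    have hS : Sol f0 N P0 K0 En T1 dat A Φ Ψ :=
      ⟨hI, ⟨R', hA⟩, hF, hrep, hdb, hEn N P0 R' T T1 A K Φ Ψ hI hA hF hT hT1 hmax hinit hAK1, hEn1⟩
    intro p hp
    rw [← hAK1 p hp]
    exact hC f0 dat A Φ Ψ R' T1 hT1 hI hA hF hrep hdb (hP f0 T1 dat A Φ Ψ hT1 hS) p hp
  have ind : ∀ k : ℕ, ∀ p ∈ slab (min (k * η) T), ‖K p‖ ≤ C := by
    intro k
    induction k with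
    | zero =>
      rintro ⟨t, x⟩ hp
      have ht := fin_mem_slab.1 hp
      have ht0 : t = 0 := by
        have := ht.2.trans (min_le_left _ _)
        simp at this
        exact le_antisymm this ht.1
      subst ht0
      rw [hfix _ (h0T x), intF_zero, add_zero]
      exact (hK0.bdd _ (h0T x)).trans hC1
    | succ k ih =>
      refine good _ (min_le_right _ _) ?_
      rintro ⟨t, x⟩ hp
      have ht := fin_mem_slab.1 hp
      have hk0 : 0 ≤ min (k * η) T := le_min (by positivity) hT.le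
      have hm : min t (min (k * η) T) ∈ Icc 0 (min (k * η) T) := ⟨le_min ht.1 hk0, min_le_right _ _⟩
      have h1 := ih (min t (min (k * η) T), x) (fin_mem_slab.2 hm)
      have h2 := hK.lip (t, x) (fin_slab_mono (min_le_right _ _) hp) (min t (min (k * η) T), x)
        (fin_slab_mono (min_le_right _ _) (fin_mem_slab.2 hm))
      have h3 : ‖((t, x) : ℝ × V3) - (min t (min (k * η) T), x)‖ ≤ η := by
        have ha : t ≤ (k + 1 : ℕ) * η := ht.2.trans (min_le_left _ _)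
        have hb : t ≤ T := ht.2.trans (min_le_right _ _)
        push_cast at ha
        have hc : t - η ≤ min t (min (k * η) T) :=
          le_min (by linarith) (le_min (by linarith) (by linarith))
        have hd : min t (min (k * η) T) ≤ t := min_le_left _ _
        simp only [Prod.mk_sub_mk, sub_self, Prod.norm_mk, norm_zero, Real.norm_eq_abs]
        exact max_le (abs_le.2 ⟨by linarith, by linarith⟩) hη0.le
      have h4 : ‖K (t, x)‖ ≤ ‖K (min t (min (k * η) T), x)‖ +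
          ‖K (t, x) - K (min t (min (k * η) T), x)‖ := norm_le_insert' _ _
      have h5 := mul_le_mul_of_nonneg_left h3 hM0
      linarith
  obtain ⟨k, hk⟩ := exists_nat_ge (T / η)
  have hk' : T ≤ k * η := by rwa [div_le_iff₀ hη0] at hk
  have hall : ∀ p ∈ slab T, ‖K p‖ ≤ C := by
    have := ind k
    rwa [min_eq_right hk'] at this
  have hAK1 : ∀ p ∈ slab T, A p = K p := fun p hp => hAK p hp (by linarith [hall p hp])
  exact ⟨K, A, Φ, Ψ, ⟨R', hA⟩, hF, ⟨M, hAr⟩, hAK1, fun p hp => by rw [hAK1 p hp, hfix p hp], hmax,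
    hinit⟩

theorem fin_Icc_mem {t T : ℝ} (h : t < T) : Icc 0 T ∈ 𝓝[Ici 0] t := by
  have : Ici (0 : ℝ) ∩ Iio T ∈ 𝓝[Ici 0] t := inter_mem_nhdsWithin _ (Iio_mem_nhds h)
  exact mem_of_superset this fun s hs => ⟨hs.1, le_of_lt hs.2⟩

theorem fin_prod_mem {X : Type} [TopologicalSpace X] {t T : ℝ} (h : t < T) (x : X) :
    Icc 0 T ×ˢ (univ : Set X) ∈ 𝓝[Ici 0 ×ˢ univ] (t, x) := by
  have h1 : Iio T ×ˢ (univ : Set X) ∈ 𝓝 (t, x) := prod_mem_nhds (Iio_mem_nhds h) univ_mem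
  have := inter_mem_nhdsWithin (Ici (0 : ℝ) ×ˢ (univ : Set X)) h1
  exact mem_of_superset this fun p hp => ⟨⟨hp.1.1, le_of_lt hp.2.1⟩, mem_univ _⟩

theorem global_solution {f0 : V3 × V3 → ℝ} {E0 B0 : V3 → V3} (h : Admissible f0 E0 B0) :
    ∃ (f : ℝ × V3 × V3 → ℝ) (E B : ℝ × V3 → V3), GlobalSolution f0 E0 B0 f E B := by
  obtain ⟨N, P0, hI⟩ := exists_init h
  obtain ⟨dat, hd1, hd2, hd3⟩ := maxwell_block h hI
  have hex : ∀ n : ℕ, ∃ K A Φ Ψ, TS f0 E0 B0 dat ((n : ℝ) + 1) K A Φ Ψ := fun n =>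
    exists_TS h hI hd1 hd2 hd3 (by positivity)
  choose K A Φ Ψ hS using hex
  have hpos : ∀ n : ℕ, (0 : ℝ) < n + 1 := fun n => by positivity
  have cons : ∀ (n m : ℕ) (t : ℝ), 0 ≤ t → t ≤ n + 1 → t ≤ m + 1 →
      (∀ x, K n (t, x) = K m (t, x)) ∧ ∀ z, Ψ n t z = Ψ m t z := by
    intro n m t h0 hn hm
    obtain ⟨R, hR⟩ := (hS n).app
    obtain ⟨R', hR'⟩ := (hS m).app
    have := uniq_block (T := t) hI hR hR' (hS n).flow (hS m).flow
      (fun p hp => (hS n).rep p (fin_slab_mono hn hp)) (fun p hp => (hS m).rep p (fin_slab_mono hm hp))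
    refine ⟨fun x => ?_, this.2 t ⟨h0, le_rfl⟩⟩
    rw [← (hS n).eq _ (fin_mem_slab.2 ⟨h0, hn⟩), ← (hS m).eq _ (fin_mem_slab.2 ⟨h0, hm⟩)]
    exact this.1 _ (fin_mem_slab.2 ⟨h0, le_rfl⟩)
  have hceil : ∀ t : ℝ, t < (⌈t⌉₊ : ℝ) + 1 := fun t => by linarith [Nat.le_ceil t]
  set F : Fld := fun p => K ⌈p.1⌉₊ p with hFdef
  set f : ℝ × V3 × V3 → ℝ := fun p => dens f0 (Ψ ⌈p.1⌉₊) p.1 p.2 with hfdef
  have hF : ∀ (n : ℕ) (t : ℝ), t ∈ Icc (0 : ℝ) (n + 1) → ∀ x, F (t, x) = K n (t, x) :=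
    fun n t ht x => (cons _ n t ht.1 (hceil t).le ht.2).1 x
  have hf : ∀ (n : ℕ) (t : ℝ), t ∈ Icc (0 : ℝ) (n + 1) → ∀ z, f (t, z) = dens f0 (Ψ n) t z :=
    fun n t ht z => by
      simp only [hfdef, dens]
      rw [(cons _ n t ht.1 (hceil t).le ht.2).2 z]
  have hV : ∀ n : ℕ, VlaOn ((n : ℝ) + 1) (dens f0 (Ψ n)) (A n) := fun n => by
    obtain ⟨R, hR⟩ := (hS n).app
    obtain ⟨M, hM⟩ := (hS n).reg
    exact vlasov_block hI hR (hS n).flow (hpos n) hM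
  have hmem : ∀ t : ℝ, 0 ≤ t → t ∈ Icc (0 : ℝ) (⌈t⌉₊ + 1) := fun t ht => ⟨ht, (hceil t).le⟩
  have hFc1 : ContDiffOn ℝ 1 F (Ici 0 ×ˢ univ) := by
    rintro ⟨t, x⟩ hp
    have ht : 0 ≤ t := hp.1
    have h1 := (hS ⌈t⌉₊).max.c1 (t, x) (fin_mem_slab.2 (hmem t ht))
    have h2 : ContDiffWithinAt ℝ 1 F (slab (⌈t⌉₊ + 1)) (t, x) :=
      h1.congr (fun p hp => hF _ p.1 hp.1 p.2) (hF _ t (hmem t ht) x)
    exact h2.mono_of_mem_nhdsWithin (fin_prod_mem (hceil t) x)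
  have hL2 : ∀ t : ℝ, 0 ≤ t → MemLp (fun x => F (t, x)) 2 volume ∧
      Tendsto (fun s => eLpNorm (fun x => F (s, x) - F (t, x)) 2 volume) (𝓝[Ici 0] t) (𝓝 0) := by
    intro t ht
    obtain ⟨R, hR⟩ := (hS ⌈t⌉₊).app
    obtain ⟨h1, h2⟩ := l2_block h hI hR (hS _).flow (hpos _) (hS _).max (hS _).init (hS _).eq
      (hmem t ht)
    refine ⟨h1, ?_⟩
    have hI' := fin_Icc_mem (hceil t)
    refine (h2.mono_left (nhdsWithin_le_of_mem hI')).congr' ?_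
    filter_upwards [hI'] with s hs
    congr 1
    funext x
    rw [hF _ s hs x]
  have hL2c : ∀ π : V3 × V3 →L[ℝ] V3, (∀ y, ‖π y‖ ≤ ‖y‖) → ContL2 fun p => π (F p) := by
    intro π hπ
    refine ⟨fun t ht => π.comp_memLp' (hL2 t ht).1, fun t ht => ?_⟩
    refine tendsto_of_tendsto_of_tendsto_of_le_of_le tendsto_const_nhds (hL2 t ht).2
      (fun _ => zero_le) fun s => ?_
    refine eLpNorm_mono fun x => ?_
    rw [← map_sub]
    exact hπ _
  refine ⟨f, fun p => (F p).1, fun p => (F p).2, ?_, hFc1.fst, hFc1.snd, ?_, ?_, ?_, ?_, ?_, ?_,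
    ?_, ?_, ?_, hL2c (ContinuousLinearMap.fst ℝ V3 V3) fun y => norm_fst_le y,
    hL2c (ContinuousLinearMap.snd ℝ V3 V3) fun y => norm_snd_le y, ?_⟩
  · rintro ⟨t, z⟩ hp
    have ht : 0 ≤ t := hp.1
    have h1 := (hV ⌈t⌉₊).c1 (t, z) ⟨hmem t ht, mem_univ _⟩
    have h2 : ContDiffWithinAt ℝ 1 f (Icc 0 ((⌈t⌉₊ : ℝ) + 1) ×ˢ univ) (t, z) :=
      h1.congr (fun p hp => hf _ p.1 hp.1 p.2) (hf _ t (hmem t ht) z)
    exact h2.mono_of_mem_nhdsWithin (fin_prod_mem (hceil t) z)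
  · intro t _ x v
    exact hI.nonneg _
  · intro t ht x v
    have h1 := (hV ⌈t⌉₊).eq t (hmem t ht) x v
    have h2 := ((h1.congr (f₁ := fun s => f (s, x, v)) (fun s hs => hf _ s hs _)
      (hf _ t (hmem t ht) _)).mono_of_mem_nhdsWithin
        (fin_Icc_mem (hceil t))).derivWithin (uniqueDiffOn_Ici 0 t ht)
    rw [h2, (hS _).eq _ (fin_mem_slab.2 (hmem t ht))]
    rw [add_assoc]
    exact neg_add_cancel _
  · intro t ht x
    have h1 := (hS ⌈t⌉₊).max.amp t (hmem t ht) x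
    have h2 := ((h1.congr (f₁ := fun s => (F (s, x)).1) (fun s hs => by rw [hF _ s hs])
      (by rw [hF _ t (hmem t ht)])).mono_of_mem_nhdsWithin
        (fin_Icc_mem (hceil t))).derivWithin (uniqueDiffOn_Ici 0 t ht)
    rw [h2]
    exact sub_sub_cancel_left _ _
  · intro t ht x
    have h1 := (hS ⌈t⌉₊).max.far t (hmem t ht) x
    have h2 := ((h1.congr (f₁ := fun s => (F (s, x)).2) (fun s hs => by rw [hF _ s hs])
      (by rw [hF _ t (hmem t ht)])).mono_of_mem_nhdsWithin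
        (fin_Icc_mem (hceil t))).derivWithin (uniqueDiffOn_Ici 0 t ht)
    rw [h2]
    exact neg_add_cancel _
  · intro t ht x
    exact (hS ⌈t⌉₊).max.gE t (hmem t ht) x
  · intro t ht x
    exact (hS ⌈t⌉₊).max.gB t (hmem t ht) x
  · intro x v
    simp only [hfdef, dens]
    rw [(hS _).flow.zero']
  · intro x
    simp only [hFdef]
    rw [(hS _).init]
  · intro x
    simp only [hFdef]
    rw [(hS _).init]
  · intro T
    obtain ⟨R, hR⟩ := (hS ⌈T⌉₊).app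
    have hR0 := hR.nonneg
    refine ⟨Metric.closedBall 0 (P0 + |T| + 2 * R * |T|), isCompact_closedBall _ _, ?_⟩
    intro t ht z hz
    have ht' : t ∈ Icc (0 : ℝ) (⌈T⌉₊ + 1) := ⟨ht.1, ht.2.trans (hceil T).le⟩
    rw [hf _ t ht' z] at hz
    obtain ⟨h1, h2⟩ := (hS _).flow.dens_supp hI hR hz
    have h3 : t ≤ |T| := ht.2.trans (le_abs_self T)
    rw [abs_of_nonneg ht.1] at h1
    rw [max_eq_left ht.1] at h2
    have h4 := norm_le_q z.2
    have h5 : 2 * R * t ≤ 2 * R * |T| := mul_le_mul_of_nonneg_left h3 (by positivity)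
    have h6 : 0 ≤ 2 * R * |T| := by positivity
    rw [mem_closedBall_zero_iff, Prod.norm_def]
    exact max_le (by linarith) (by linarith [abs_nonneg T])

end Vale.Agent.P107
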