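import Vale.Agent.P107.PicD

/-! Backward Gronwall lemma with variable coefficients; Lipschitz and second difference bounds of the vector field.

Plan. gron_back: for e0 > 0 apply image_norm_le_of_norm_deriv_right_lt_deriv_boundary (or the primed version) to
r ↦ w (t - r) on [0, t - s0] with the boundary B r = exp (I t - I (t - r) + e0 r) * (‖w t‖ + (J t - J (t - r)) + e0);
B' = (k + e0) B + exp (..) e > k B + e because B > 0 and exp (..) ≥ 1 (I and J are monotone on [s0, t]: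
monotoneOn_of_deriv_nonneg, or the mean value theorem); then e0 → 0 (ge_of_tendsto, continuity in e0).
vf_sub_le: sup norm of a pair (norm_prod_le_iff), u_sub_le with 1 ≤ q, lor_sub_le, ‖z.1 - z'.1‖ ≤ ‖z - z'‖ (norm_fst_le).
vf_sec_le: first component u_sec; second component: with E = (A ..).1, B = (A ..).2 and indices p, 0, m,
u_p × B_p - 2 u_0 × B_0 + u_m × B_m = (Δu) × B_0 + u_0 × (ΔB) + (u_p - u_0) × (B_p - B_0) + (u_m - u_0) × (B_m - B_0)
(cross_add_left etc. or exists_crossL), norm_cross_le, norm_u_lt. -/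

namespace Vale.Agent.P107

open MeasureTheory Set Filter Topology
open scoped ContDiff RealInnerProductSpace ENNReal

theorem gron_back {E : Type} [NormedAddCommGroup E] [NormedSpace ℝ E] {w w' : ℝ → E}
    {I J k e : ℝ → ℝ} {s0 t : ℝ} (h0 : s0 ≤ t) (hc : ContinuousOn w (Icc s0 t))
    (hw : ∀ s ∈ Ioc s0 t, HasDerivAt w (w' s) s)
    (hI : ∀ s, HasDerivAt I (k s) s) (hJ : ∀ s, HasDerivAt J (e s) s)
    (hk : ∀ s ∈ Icc s0 t, 0 ≤ k s) (he : ∀ s ∈ Icc s0 t, 0 ≤ e s)
    (hb : ∀ s ∈ Ioc s0 t, ‖w' s‖ ≤ k s * ‖w s‖ + e s) :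
    ‖w s0‖ ≤ Real.exp (I t - I s0) * (‖w t‖ + (J t - J s0)) := by
  have hIc : Continuous I := continuous_iff_continuousAt.2 fun s => (hI s).continuousAt
  have hJc : Continuous J := continuous_iff_continuousAt.2 fun s => (hJ s).continuousAt
  have mono : ∀ {G g : ℝ → ℝ}, (∀ s, HasDerivAt G (g s) s) → (∀ s ∈ Icc s0 t, 0 ≤ g s) →
      ∀ s ∈ Icc s0 t, 0 ≤ G t - G s := by
    intro G g hG hg s hs
    have hm : MonotoneOn G (Icc s0 t) := by
      refine monotoneOn_of_deriv_nonneg (convex_Icc _ _)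
        (fun x _ => (hG x).continuousAt.continuousWithinAt)
        (fun x _ => (hG x).differentiableAt.differentiableWithinAt) fun x hx => ?_
      rw [(hG x).deriv]
      exact hg x (interior_subset hx)
    exact sub_nonneg.2 (hm hs ⟨h0, le_rfl⟩ hs.2)
  have key : ∀ e0 : ℝ, 0 < e0 →
      ‖w s0‖ ≤ Real.exp (I t - I s0 + e0 * (t - s0)) * (‖w t‖ + (J t - J s0) + e0) := by
    intro e0 he0
    have h1 := image_norm_le_of_norm_deriv_right_lt_deriv_boundary (a := 0) (b := t - s0)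
      (f := fun r => w (t - r)) (f' := fun r => -w' (t - r))
      (B := fun r => Real.exp (I t - I (t - r) + e0 * r) * (‖w t‖ + (J t - J (t - r)) + e0))
      (B' := fun r => Real.exp (I t - I (t - r) + e0 * r) * (k (t - r) + e0)
        * (‖w t‖ + (J t - J (t - r)) + e0) + Real.exp (I t - I (t - r) + e0 * r) * e (t - r))
      (hc.comp (by fun_prop) fun r hr => ⟨by linarith [hr.2], by linarith [hr.1]⟩)
      (fun r hr => by
        have h2 := (hw (t - r) ⟨by linarith [hr.2], by linarith [hr.1]⟩).scomp r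
          ((hasDerivAt_id r).const_sub t)
        simp only [neg_smul, one_smul] at h2
        exact h2.hasDerivWithinAt)
      (by simp [he0.le])
      (fun r => by
        have d1 := (hI (t - r)).comp r ((hasDerivAt_id r).const_sub t)
        have d2 := (hJ (t - r)).comp r ((hasDerivAt_id r).const_sub t)
        have d3 := (((d1.const_sub (I t)).add ((hasDerivAt_id r).const_mul e0)).exp).mul
          (((d2.const_sub (J t)).const_add ‖w t‖).add_const e0)
        refine HasDerivAt.congr_deriv d3 ?_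
        simp only [Function.comp_def, id, Pi.add_apply]
        ring)
      (fun r hr hB => by
        have hs : t - r ∈ Icc s0 t := ⟨by linarith [hr.2], by linarith [hr.1]⟩
        have b1 := hb (t - r) ⟨by linarith [hr.2], hs.2⟩
        have b2 := mono hI hk _ hs
        have b3 := mono hJ he _ hs
        have b4 : 1 ≤ Real.exp (I t - I (t - r) + e0 * r) :=
          Real.one_le_exp (by nlinarith [hr.1])
        have b5 := he _ hs
        have b6 : 0 < Real.exp (I t - I (t - r) + e0 * r) * (‖w t‖ + (J t - J (t - r)) + e0) := by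
          have := norm_nonneg (w t)
          positivity
        rw [norm_neg]
        rw [hB] at b1
        nlinarith [mul_pos he0 b6])
      (x := t - s0) ⟨by linarith, le_rfl⟩
    simpa using h1
  have hlim : Tendsto (fun e0 : ℝ => Real.exp (I t - I s0 + e0 * (t - s0))
      * (‖w t‖ + (J t - J s0) + e0)) (𝓝[>] 0)
      (𝓝 (Real.exp (I t - I s0 + 0 * (t - s0)) * (‖w t‖ + (J t - J s0) + 0))) :=
    (Continuous.tendsto (by fun_prop) 0).mono_left nhdsWithin_le_nhds
  have h2 := ge_of_tendsto hlim (eventually_nhdsWithin_of_forall fun e0 he0 => key e0 he0)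
  simpa using h2

theorem vf_sub_le {A A' : Fld} {t R L ε : ℝ} {z z' : Z} (hL0 : 0 ≤ L)
    (hR : ‖A' (t, z'.1)‖ ≤ R) (hL : ‖A (t, z.1) - A (t, z'.1)‖ ≤ L * ‖z.1 - z'.1‖)
    (he : ‖A (t, z'.1) - A' (t, z'.1)‖ ≤ ε) :
    ‖vf A t z - vf A' t z'‖ ≤ (2 + 2 * R + 2 * L) * ‖z - z'‖ + 2 * ε := by
  have hR0 : 0 ≤ R := (norm_nonneg _).trans hR
  have hε : 0 ≤ ε := (norm_nonneg _).trans he
  have h1 : ‖z.1 - z'.1‖ ≤ ‖z - z'‖ := norm_fst_le (z - z')
  have h2 : ‖z.2 - z'.2‖ ≤ ‖z - z'‖ := norm_snd_le (z - z')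
  have hn := norm_nonneg (z - z')
  unfold vf
  rw [Prod.mk_sub_mk, Prod.norm_mk]
  refine max_le ?_ ?_
  · have h3 := (u_sub_le z.2 z'.2).trans (div_le_self (by positivity) (one_le_q z.2))
    nlinarith [mul_nonneg hR0 hn, mul_nonneg hL0 hn]
  · have h3 := lor_sub_le (A (t, z.1)) (A' (t, z'.1)) z.2 z'.2
    have h4 := norm_sub_le_norm_sub_add_norm_sub (A (t, z.1)) (A (t, z'.1)) (A' (t, z'.1))
    have h5 := mul_le_mul_of_nonneg_left h1 hL0
    have h6 := mul_le_mul hR h2 (norm_nonneg _) hR0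
    nlinarith

theorem vf_sec_le {A : Fld} {t R L M : ℝ} (hL0 : 0 ≤ L) (hM0 : 0 ≤ M)
    (hR : ∀ y, ‖A (t, y)‖ ≤ R) (hL : ∀ y y', ‖A (t, y) - A (t, y')‖ ≤ L * ‖y - y'‖)
    (hM : ∀ y h, ‖A (t, y + h) - (2 : ℝ) • A (t, y) + A (t, y - h)‖ ≤ M * ‖h‖ ^ 2) (z k : Z) :
    ‖vf A t (z + k) - (2 : ℝ) • vf A t z + vf A t (z - k)‖
      ≤ (10 + 10 * R + 4 * L + 2 * M) * ‖k‖ ^ 2 := by
  have hR0 : 0 ≤ R := (norm_nonneg _).trans (hR 0)
  have h1 : ‖k.1‖ ≤ ‖k‖ := norm_fst_le k
  have h2 : ‖k.2‖ ≤ ‖k‖ := norm_snd_le k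
  have hn := norm_nonneg k
  have s1 : ‖k.1‖ ^ 2 ≤ ‖k‖ ^ 2 := pow_le_pow_left₀ (norm_nonneg _) h1 2
  have s2 : ‖k.2‖ ^ 2 ≤ ‖k‖ ^ 2 := pow_le_pow_left₀ (norm_nonneg _) h2 2
  have hk2 := sq_nonneg ‖k‖
  have u0 : ‖u (z.2 + k.2) - (2 : ℝ) • u z.2 + u (z.2 - k.2)‖ ≤ 10 * ‖k‖ ^ 2 :=
    (u_sec z.2 k.2).trans (by linarith)
  have u1 : ‖u (z.2 + k.2) - u z.2‖ ≤ 2 * ‖k‖ := by
    have h3 := (u_sub_le (z.2 + k.2) z.2).trans (div_le_self (by positivity) (one_le_q _))
    rw [add_sub_cancel_left] at h3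
    linarith
  have u2 : ‖u (z.2 - k.2) - u z.2‖ ≤ 2 * ‖k‖ := by
    have h3 := (u_sub_le (z.2 - k.2) z.2).trans (div_le_self (by positivity) (one_le_q _))
    rw [sub_sub_cancel_left, norm_neg] at h3
    linarith
  have a0 : ‖A (t, z.1 + k.1) - (2 : ℝ) • A (t, z.1) + A (t, z.1 - k.1)‖ ≤ M * ‖k‖ ^ 2 :=
    (hM z.1 k.1).trans (mul_le_mul_of_nonneg_left s1 hM0)
  have a1 : ‖A (t, z.1 + k.1) - A (t, z.1)‖ ≤ L * ‖k‖ := by
    have h3 := hL (z.1 + k.1) z.1
    rw [add_sub_cancel_left] at h3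
    exact h3.trans (mul_le_mul_of_nonneg_left h1 hL0)
  have a2 : ‖A (t, z.1 - k.1) - A (t, z.1)‖ ≤ L * ‖k‖ := by
    have h3 := hL (z.1 - k.1) z.1
    rw [sub_sub_cancel_left, norm_neg] at h3
    exact h3.trans (mul_le_mul_of_nonneg_left h1 hL0)
  have a3 := hR z.1
  have e0 : vf A t (z + k) - (2 : ℝ) • vf A t z + vf A t (z - k)
      = (u (z.2 + k.2) - (2 : ℝ) • u z.2 + u (z.2 - k.2),
        lor (A (t, z.1 + k.1)) (z.2 + k.2) - (2 : ℝ) • lor (A (t, z.1)) z.2
          + lor (A (t, z.1 - k.1)) (z.2 - k.2)) := rfl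
  rw [e0, Prod.norm_mk]
  refine max_le (u0.trans (by nlinarith [mul_nonneg hR0 hk2, mul_nonneg hL0 hk2, mul_nonneg hM0 hk2])) ?_
  generalize A (t, z.1 + k.1) = Fp at *
  generalize A (t, z.1 - k.1) = Fm at *
  generalize A (t, z.1) = F0 at *
  unfold lor
  generalize u (z.2 + k.2) = up at *
  generalize u (z.2 - k.2) = um at *
  have hu := (norm_u_lt z.2).le
  generalize u z.2 = u0' at *
  obtain ⟨X, hX⟩ := exists_crossL
  have e : Fp.1 + cross up Fp.2 - (2 : ℝ) • (F0.1 + cross u0' F0.2) + (Fm.1 + cross um Fm.2)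
      = (Fp - (2 : ℝ) • F0 + Fm).1 + cross (up - (2 : ℝ) • u0' + um) F0.2
        + cross u0' (Fp - (2 : ℝ) • F0 + Fm).2 + cross (up - u0') (Fp - F0).2
        + cross (um - u0') (Fm - F0).2 := by
    simp only [← hX, Prod.fst_add, Prod.fst_sub, Prod.snd_add, Prod.snd_sub, Prod.smul_fst,
      Prod.smul_snd, map_add, map_sub, map_smul, add_apply,
      sub_apply, smul_apply]
    module
  rw [e]
  have c1 := (norm_fst_le _).trans a0
  have c2 := (norm_cross_le _ _).trans (mul_le_mul u0 ((norm_snd_le F0).trans a3) (norm_nonneg _)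
    (by positivity))
  have c3 := (norm_cross_le _ _).trans (mul_le_mul hu ((norm_snd_le _).trans a0) (norm_nonneg _)
    zero_le_one)
  have c4 := (norm_cross_le _ _).trans (mul_le_mul u1 ((norm_snd_le _).trans a1) (norm_nonneg _)
    (by positivity))
  have c5 := (norm_cross_le _ _).trans (mul_le_mul u2 ((norm_snd_le _).trans a2) (norm_nonneg _)
    (by positivity))
  refine ((norm_add_le _ _).trans (add_le_add ((norm_add_le _ _).trans (add_le_add
    ((norm_add_le _ _).trans (add_le_add ((norm_add_le _ _).trans (add_le_add c1 c2)) c3)) c4))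
    c5)).trans ?_
  nlinarith

end Vale.Agent.P107
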