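import Mathlib

/-! Abstract Liouville theorem: a flow whose small steps are approximated to second order by maps that are almost measure
preserving (to second order) preserves the measure. -/

namespace Vale.Agent.P107

open MeasureTheory Set Filter Topology

variable {E : Type} [NormedAddCommGroup E] [MeasurableSpace E]

/-- The hypotheses of the abstract Liouville theorem. -/
structure LiouH (μ : Measure E) (φ m : ℝ → ℝ → E → E) (K C δ : ℝ) : Prop where
  K_nonneg : 0 ≤ K
  C_nonneg : 0 ≤ C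
  pos : 0 < δ
  self : ∀ s z, φ s s z = z
  comp : ∀ s t r z, φ t r (φ s t z) = φ s r z
  lip : ∀ s t z z', ‖φ s t z - φ s t z'‖ ≤ Real.exp (K * |t - s|) * ‖z - z'‖
  meas : ∀ t h, Measurable (m t h)
  step : ∀ t h z, |h| ≤ δ → ‖φ t (t + h) z - m t h z‖ ≤ C * h ^ 2
  vol : ∀ t h, |h| ≤ δ → ∀ S, MeasurableSet S →
    μ (m t h ⁻¹' S) ≤ ENNReal.ofReal (Real.exp (C * h ^ 2)) * μ S

variable {μ : Measure E} {φ m : ℝ → ℝ → E → E} {K C δ : ℝ}

theorem LiouH.euler (H : LiouH μ φ m K C δ) (s : ℝ) {h : ℝ} (hh : |h| ≤ δ) (k : ℕ) :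
    ∃ M : E → E, Measurable M ∧
      (∀ S, MeasurableSet S → μ (M ⁻¹' S) ≤ ENNReal.ofReal (Real.exp (k * (C * h ^ 2))) * μ S) ∧
      ∀ z, ‖φ s (s + k * h) z - M z‖ ≤ k * (C * h ^ 2) * Real.exp (k * (K * |h|)) := by
  induction k with
  | zero => exact ⟨id, measurable_id, fun S _ => by simp, fun z => by simp [H.self]⟩
  | succ k ih =>
    obtain ⟨M, h1, h2, h3⟩ := ih
    refine ⟨m (s + k * h) h ∘ M, (H.meas _ _).comp h1, fun S hS => ?_, fun z => ?_⟩
    · rw [preimage_comp]
      refine (h2 _ (H.meas _ _ hS)).trans ((mul_le_mul_right (H.vol _ _ hh S hS) _).trans ?_)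
      rw [← mul_assoc, ← ENNReal.ofReal_mul (Real.exp_pos _).le, ← Real.exp_add]
      push_cast
      rw [add_mul, one_mul]
    · have e : s + ((k + 1 : ℕ) : ℝ) * h = s + k * h + h := by push_cast; ring
      rw [e, ← H.comp s (s + k * h) (s + k * h + h) z]
      have a1 := H.lip (s + k * h) (s + k * h + h) (φ s (s + k * h) z) (M z)
      have a2 := H.step (s + k * h) h (M z) hh
      rw [add_sub_cancel_left] at a1
      have a3 := norm_sub_le_norm_sub_add_norm_sub
        (φ (s + k * h) (s + k * h + h) (φ s (s + k * h) z))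
        (φ (s + k * h) (s + k * h + h) (M z)) (m (s + k * h) h (M z))
      have a4 := mul_le_mul_of_nonneg_left (h3 z) (Real.exp_pos (K * |h|)).le
      have a5 : 0 ≤ C * h ^ 2 := mul_nonneg H.C_nonneg (sq_nonneg h)
      have a6 : 1 ≤ Real.exp (((k + 1 : ℕ) : ℝ) * (K * |h|)) :=
        Real.one_le_exp (mul_nonneg (Nat.cast_nonneg _) (mul_nonneg H.K_nonneg (abs_nonneg h)))
      have a7 : Real.exp (K * |h|) * (k * (C * h ^ 2) * Real.exp (k * (K * |h|)))
          = k * (C * h ^ 2) * Real.exp (((k + 1 : ℕ) : ℝ) * (K * |h|)) := by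
        push_cast
        rw [add_mul, one_mul, Real.exp_add]
        ring
      have a8 := mul_le_mul_of_nonneg_left a6 a5
      simp only [Function.comp]
      rw [show ((k + 1 : ℕ) : ℝ) * (C * h ^ 2) = k * (C * h ^ 2) + C * h ^ 2 by push_cast; ring,
        add_mul]
      linarith

theorem LiouH.approx (H : LiouH μ φ m K C δ) (s t : ℝ) {ε : ℝ} (hε : 0 < ε) :
    ∃ M : E → E, (∀ S, MeasurableSet S → μ (M ⁻¹' S) ≤ ENNReal.ofReal (Real.exp ε) * μ S) ∧
      ∀ z, ‖φ s t z - M z‖ < ε := by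
  have t1 : Tendsto (fun n : ℕ => |t - s| / n) atTop (𝓝 0) := tendsto_const_div_atTop_nhds_zero_nat _
  have t2 : Tendsto (fun n : ℕ => C * (t - s) ^ 2 * Real.exp (K * |t - s|) / n) atTop (𝓝 0) :=
    tendsto_const_div_atTop_nhds_zero_nat _
  obtain ⟨n, n1, n2, n3⟩ := ((t1.eventually (gt_mem_nhds H.pos)).and
    ((t2.eventually (gt_mem_nhds hε)).and (eventually_gt_atTop 0))).exists
  have hn : (0 : ℝ) < n := by exact_mod_cast n3
  have hh : |(t - s) / n| = |t - s| / n := by rw [abs_div, abs_of_pos hn]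
  obtain ⟨M, -, h2, h3⟩ := H.euler s (h := (t - s) / n) (hh ▸ n1.le) n
  have e1 : (n : ℝ) * (C * ((t - s) / n) ^ 2) = C * (t - s) ^ 2 / n := by field_simp
  have e2 : (n : ℝ) * (K * |(t - s) / n|) = K * |t - s| := by rw [hh]; field_simp
  have e3 : s + n * ((t - s) / n) = t := by field_simp; ring
  rw [e1] at h2
  rw [e1, e2, e3] at h3
  have a1 : 1 ≤ Real.exp (K * |t - s|) := Real.one_le_exp (mul_nonneg H.K_nonneg (abs_nonneg _))
  have a2 : 0 ≤ C * (t - s) ^ 2 / n := div_nonneg (mul_nonneg H.C_nonneg (sq_nonneg _)) hn.le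
  have a3 : C * (t - s) ^ 2 / n * Real.exp (K * |t - s|) < ε := by
    rwa [div_mul_eq_mul_div]
  refine ⟨M, fun S hS => (h2 S hS).trans (mul_le_mul_left ?_ _), fun z => (h3 z).trans_lt a3⟩
  refine ENNReal.ofReal_le_ofReal (Real.exp_le_exp.2 ?_)
  nlinarith

omit [MeasurableSpace E] in
theorem continuous_of_lip {f : E → E} {L : ℝ} (h : ∀ z z', ‖f z - f z'‖ ≤ L * ‖z - z'‖) :
    Continuous f :=
  (LipschitzWith.of_dist_le_mul (K := L.toNNReal) fun z z' => by
    rw [dist_eq_norm, dist_eq_norm]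
    exact (h z z').trans
      (mul_le_mul_of_nonneg_right (Real.le_coe_toNNReal L) (norm_nonneg _))).continuous

theorem LiouH.le [BorelSpace E] [μ.Regular] (H : LiouH μ φ m K C δ) (s t : ℝ) (S : Set E) :
    μ (φ s t ⁻¹' S) ≤ μ S := by
  have hc : Continuous (φ s t) := continuous_of_lip (H.lip s t)
  rw [S.measure_eq_iInf_isOpen μ]
  refine le_iInf fun U => le_iInf fun hSU => le_iInf fun hU => ?_
  refine (measure_mono (preimage_mono hSU)).trans ?_
  rw [(hU.preimage hc).measure_eq_iSup_isCompact μ]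
  refine iSup_le fun F => iSup_le fun hFU => iSup_le fun hF => ?_
  obtain ⟨η, hη, hsub⟩ := (hF.image hc).exists_thickening_subset_open hU (image_subset_iff.2 hFU)
  rcases eq_or_ne (μ U) ⊤ with hT | hT
  · rw [hT]
    exact le_top
  have t1 : Tendsto (fun ε : ℝ => ENNReal.ofReal (Real.exp ε) * μ U) (𝓝[>] 0) (𝓝 (μ U)) := by
    have := ENNReal.Tendsto.mul_const (b := μ U)
      (ENNReal.tendsto_ofReal (Real.continuous_exp.tendsto' 0 1 Real.exp_zero)) (Or.inr hT)
    rw [ENNReal.ofReal_one, one_mul] at this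
    exact this.mono_left nhdsWithin_le_nhds
  refine ge_of_tendsto t1 ?_
  filter_upwards [Ioo_mem_nhdsGT hη] with ε hε
  obtain ⟨M, h1, h2⟩ := H.approx s t hε.1
  refine (measure_mono fun z hz => ?_).trans (h1 U hU.measurableSet)
  refine hsub (Metric.mem_thickening_iff.2 ⟨φ s t z, mem_image_of_mem _ hz, ?_⟩)
  rw [dist_comm, dist_eq_norm]
  exact (h2 z).trans hε.2

theorem LiouH.mp [BorelSpace E] [μ.Regular] (H : LiouH μ φ m K C δ) (s t : ℝ) :
    MeasurePreserving (φ s t) μ μ := by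
  have hm : Measurable (φ s t) := (continuous_of_lip (H.lip s t)).measurable
  refine ⟨hm, Measure.ext fun S hS => ?_⟩
  rw [Measure.map_apply hm hS]
  refine le_antisymm (H.le s t S) (le_of_eq_of_le ?_ (H.le t s (φ s t ⁻¹' S)))
  refine congrArg μ (Set.ext fun z => ?_)
  simp only [mem_preimage, H.comp, H.self]

end Vale.Agent.P107
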