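import Mathlib

/-! The two-parameter flow of a bounded, globally Lipschitz, time dependent vector field. -/

namespace Vale.Agent.P107

open Set Filter Topology

variable {E : Type} [NormedAddCommGroup E] [NormedSpace ℝ E]

/-- A bounded vector field, Lipschitz in time and space. -/
structure LipVF (v : ℝ → E → E) (K C : ℝ) : Prop where
  K_nonneg : 0 ≤ K
  C_nonneg : 0 ≤ C
  bdd : ∀ t z, ‖v t z‖ ≤ C
  lip : ∀ t t' z z', ‖v t z - v t' z'‖ ≤ K * (|t - t'| + ‖z - z'‖)

/-- A two-parameter flow. -/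
structure Fl2 (v : ℝ → E → E) (φ : ℝ → ℝ → E → E) : Prop where
  self : ∀ s z, φ s s z = z
  deriv : ∀ s t z, HasDerivAt (fun r => φ s r z) (v t (φ s t z)) t

variable {v : ℝ → E → E} {K C : ℝ} {φ : ℝ → ℝ → E → E}

omit [NormedSpace ℝ E] in
theorem LipVF.lipschitz (hv : LipVF v K C) (t : ℝ) : LipschitzWith K.toNNReal (v t) := by
  refine LipschitzWith.of_dist_le_mul fun z z' => ?_
  have := hv.lip t t z z'
  rw [dist_eq_norm, dist_eq_norm, Real.coe_toNNReal _ hv.K_nonneg]
  simpa using this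

omit [NormedSpace ℝ E] in
theorem LipVF.cont (hv : LipVF v K C) (z : E) : Continuous fun t => v t z := by
  refine (LipschitzWith.of_dist_le_mul (K := K.toNNReal) fun t t' => ?_).continuous
  have := hv.lip t t' z z
  rw [dist_eq_norm, Real.dist_eq, Real.coe_toNNReal _ hv.K_nonneg]
  simpa using this

theorem LipVF.exists_loc [CompleteSpace E] (hv : LipVF v K C) (s : ℝ) (z : E) (ρ : ℝ) :
    ∃ β : ℝ → E, β s = z ∧ ∀ t ∈ Ioo (s - ρ) (s + ρ), HasDerivAt β (v t (β t)) t := by
  rcases le_or_gt ρ 0 with h | h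
  · exact ⟨fun _ => z, rfl, fun t ht => absurd (ht.1.trans ht.2) (by linarith)⟩
  have hP : IsPicardLindelof v (⟨s, ⟨by linarith, by linarith⟩⟩ : Icc (s - ρ) (s + ρ)) z
      (C.toNNReal * ρ.toNNReal) 0 C.toNNReal K.toNNReal :=
    { lipschitzOnWith := fun t _ => (hv.lipschitz t).lipschitzOnWith
      continuousOn := fun x _ => (hv.cont x).continuousOn
      norm_le := fun t _ x _ => (hv.bdd t x).trans (Real.le_coe_toNNReal C)
      mul_max_le := by simp [h.le] }
  obtain ⟨β, h0, hβ⟩ := hP.exists_eq_forall_mem_Icc_hasDerivWithinAt₀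
  exact ⟨β, h0, fun t ht => (hβ t (Ioo_subset_Icc_self ht)).hasDerivAt (Icc_mem_nhds ht.1 ht.2)⟩

theorem LipVF.exists_sol [CompleteSpace E] (hv : LipVF v K C) (s : ℝ) (z : E) :
    ∃ α : ℝ → E, α s = z ∧ ∀ t, HasDerivAt α (v t (α t)) t := by
  choose β h0 hβ using hv.exists_loc s z
  have hu : ∀ ρ ρ' r, |r - s| < ρ → |r - s| < ρ' → β ρ r = β ρ' r := by
    intro ρ ρ' r h1 h2
    have hm : |r - s| < min ρ ρ' := lt_min h1 h2
    have hp : 0 < min ρ ρ' := (abs_nonneg _).trans_lt hm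
    have e1 := min_le_left ρ ρ'
    have e2 := min_le_right ρ ρ'
    refine ODE_solution_unique_of_mem_Ioo (v := v) (s := fun _ => univ) (K := K.toNNReal)
      (a := s - min ρ ρ') (b := s + min ρ ρ') (t₀ := s)
      (fun t _ => (hv.lipschitz t).lipschitzOnWith) ⟨by linarith, by linarith⟩
      (fun t ht => ⟨hβ ρ t ⟨by linarith [ht.1], by linarith [ht.2]⟩, trivial⟩)
      (fun t ht => ⟨hβ ρ' t ⟨by linarith [ht.1], by linarith [ht.2]⟩, trivial⟩)
      ((h0 ρ).trans (h0 ρ').symm) ?_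
    rw [abs_lt] at hm
    exact ⟨by linarith [hm.1], by linarith [hm.2]⟩
  refine ⟨fun r => β (|r - s| + 1) r, h0 _, fun t => ?_⟩
  have h1 : HasDerivAt (β (|t - s| + 1)) (v t (β (|t - s| + 1) t)) t :=
    hβ _ t ⟨by linarith [neg_abs_le (t - s)], by linarith [le_abs_self (t - s)]⟩
  refine h1.congr_of_eventuallyEq ?_
  filter_upwards [Metric.ball_mem_nhds t one_pos] with r hr
  refine hu _ _ r (by linarith) ?_
  rw [Metric.mem_ball, Real.dist_eq] at hr
  linarith [abs_sub_le r t s]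

theorem LipVF.exists_fl2 [CompleteSpace E] (hv : LipVF v K C) : ∃ φ, Fl2 v φ := by
  choose α h0 hα using hv.exists_sol
  exact ⟨fun s t z => α s z t, h0, fun s t z => hα s z t⟩

theorem Fl2.comp (hv : LipVF v K C) (hφ : Fl2 v φ) (s t r : ℝ) (z : E) :
    φ t r (φ s t z) = φ s r z :=
  congrFun (ODE_solution_unique_univ (v := v) (s := fun _ => univ) (K := K.toNNReal) (t₀ := t)
    (f := fun r => φ t r (φ s t z)) (g := fun r => φ s r z)
    (fun t => (hv.lipschitz t).lipschitzOnWith) (fun _ => ⟨hφ.deriv _ _ _, trivial⟩)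
    (fun _ => ⟨hφ.deriv _ _ _, trivial⟩) (hφ.self _ _)) r

theorem Fl2.lip (hv : LipVF v K C) (hφ : Fl2 v φ) (s t : ℝ) (z z' : E) :
    ‖φ s t z - φ s t z'‖ ≤ Real.exp (K * |t - s|) * ‖z - z'‖ := by
  rcases le_total s t with h | h
  · have := dist_le_of_trajectories_ODE (v := v) (K := K.toNNReal) (a := s) (b := t)
      (f := fun r => φ s r z) (g := fun r => φ s r z') (δ := ‖z - z'‖) hv.lipschitz
      (fun r _ => (hφ.deriv s r z).continuousAt.continuousWithinAt)
      (fun r _ => (hφ.deriv s r z).hasDerivWithinAt)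
      (fun r _ => (hφ.deriv s r z').continuousAt.continuousWithinAt)
      (fun r _ => (hφ.deriv s r z').hasDerivWithinAt)
      (by simp only [hφ.self, dist_eq_norm]; rfl) t (right_mem_Icc.2 h)
    rwa [dist_eq_norm, Real.coe_toNNReal _ hv.K_nonneg, mul_comm, ← abs_of_nonneg (sub_nonneg.2 h)]
      at this
  · have hd : ∀ w r, HasDerivAt (fun r => φ s (-r) w) (-v (-r) (φ s (-r) w)) r := fun w r =>
      ((hφ.deriv s (-r) w).scomp r (hasDerivAt_neg r)).congr_deriv (by simp)
    have := dist_le_of_trajectories_ODE (v := fun r x => -v (-r) x) (K := K.toNNReal) (a := -s)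
      (b := -t) (f := fun r => φ s (-r) z) (g := fun r => φ s (-r) z') (δ := ‖z - z'‖)
      (fun r => (hv.lipschitz (-r)).neg)
      (fun r _ => (hd z r).continuousAt.continuousWithinAt) (fun r _ => (hd z r).hasDerivWithinAt)
      (fun r _ => (hd z' r).continuousAt.continuousWithinAt) (fun r _ => (hd z' r).hasDerivWithinAt)
      (by simp only [neg_neg, hφ.self, dist_eq_norm]; rfl) (-t) (right_mem_Icc.2 (neg_le_neg h))
    simp only [neg_neg] at this
    rw [dist_eq_norm, Real.coe_toNNReal _ hv.K_nonneg, mul_comm] at this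
    rwa [abs_of_nonpos (sub_nonpos.2 h), show -(t - s) = -t - -s by ring]

theorem Fl2.time (hv : LipVF v K C) (hφ : Fl2 v φ) (s t t' : ℝ) (z : E) :
    ‖φ s t z - φ s t' z‖ ≤ C * |t - t'| :=
  Convex.norm_image_sub_le_of_norm_hasDerivWithin_le (f := fun r => φ s r z) (s := univ)
    (fun r _ => (hφ.deriv s r z).hasDerivWithinAt) (fun _ _ => hv.bdd _ _) convex_univ
    (mem_univ t') (mem_univ t)

theorem Fl2.continuous (hv : LipVF v K C) (hφ : Fl2 v φ) :
    Continuous fun p : ℝ × ℝ × E => φ p.1 p.2.1 p.2.2 := by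
  rw [continuous_iff_continuousAt]
  rintro ⟨s0, t0, z0⟩
  rw [ContinuousAt, tendsto_iff_norm_sub_tendsto_zero]
  set e := Real.exp (K * |t0 - s0|) with he
  have hc : Continuous fun p : ℝ × ℝ × E =>
      C * |p.2.1 - t0| + e * (C * |s0 - p.1|) + e * ‖p.2.2 - z0‖ := by fun_prop
  refine squeeze_zero (fun _ => norm_nonneg _) (fun p => ?_) ((hc.tendsto' _ 0 (by simp)))
  obtain ⟨s, t, z⟩ := p
  have h1 := hφ.time hv s t t0 z
  have h2 : ‖φ s t0 z - φ s0 t0 z‖ ≤ e * (C * |s0 - s|) := by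
    rw [← hφ.comp hv s s0 t0 z]
    refine (hφ.lip hv s0 t0 _ _).trans (mul_le_mul_of_nonneg_left ?_ (Real.exp_pos _).le)
    have := hφ.time hv s s0 s z
    rwa [hφ.self] at this
  have h3 := hφ.lip hv s0 t0 z z0
  have h4 := norm_sub_le_norm_sub_add_norm_sub (φ s t z) (φ s t0 z) (φ s0 t0 z0)
  have h5 := norm_sub_le_norm_sub_add_norm_sub (φ s t0 z) (φ s0 t0 z) (φ s0 t0 z0)
  simp only
  linarith

theorem Fl2.step (hv : LipVF v K C) (hφ : Fl2 v φ) (t h : ℝ) (z : E) :
    ‖φ t (t + h) z - (z + h • v t z)‖ ≤ K * (1 + C) * h ^ 2 := by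
  have := Convex.norm_image_sub_le_of_norm_hasDerivWithin_le
    (f := fun r => φ t r z - r • v t z) (f' := fun r => v r (φ t r z) - v t z)
    (s := Metric.closedBall t |h|) (C := K * (1 + C) * |h|)
    (fun r _ => ((hφ.deriv t r z).sub
      (((hasDerivAt_id r).smul_const (v t z)).congr_deriv (one_smul _ _))).hasDerivWithinAt)
    (fun r hr => by
      rw [Metric.mem_closedBall, Real.dist_eq] at hr
      have h1 := hφ.time hv t r t z
      rw [hφ.self] at h1
      refine (hv.lip _ _ _ _).trans ?_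
      rw [mul_assoc]
      refine mul_le_mul_of_nonneg_left ?_ hv.K_nonneg
      nlinarith [hv.C_nonneg])
    (convex_closedBall _ _) (Metric.mem_closedBall_self (abs_nonneg h)) (y := t + h)
    (by simp)
  simp only [hφ.self, add_sub_cancel_left, Real.norm_eq_abs] at this
  rw [mul_assoc _ |h|, abs_mul_abs_self, ← sq] at this
  have e : φ t (t + h) z - (z + h • v t z)
      = φ t (t + h) z - (t + h) • v t z - (z - t • v t z) := by
    rw [add_smul]
    abel
  rwa [e]

end Vale.Agent.P107
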