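import Vale.Agent.P107.Bas

/-! The Euler step in the momentum at a fixed field almost preserves the volume. -/

namespace Vale.Agent.P107

open MeasureTheory Set Filter Topology
open scoped ContDiff RealInnerProductSpace ENNReal

theorem det_one_add_ge (a : Matrix (Fin 3) (Fin 3) ℝ) {β : ℝ} (h1 : β ≤ 1) (ha : ∀ i j, |a i j| ≤ β)
    (ht : a 0 0 + a 1 1 + a 2 2 = 0) : 1 - 12 * β ^ 2 ≤ (1 + a).det := by
  have h0 : 0 ≤ β := (abs_nonneg _).trans (ha 0 0)
  have h2 : ∀ i j k l, |a i j * a k l| ≤ β ^ 2 := fun i j k l => by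
    rw [abs_mul, sq]
    exact mul_le_mul (ha _ _) (ha _ _) (abs_nonneg _) h0
  have h3 : ∀ i j k l m n, |a i j * a k l * a m n| ≤ β ^ 2 := fun i j k l m n => by
    rw [abs_mul]
    exact (mul_le_mul (h2 _ _ _ _) ((ha _ _).trans h1) (abs_nonneg _) (sq_nonneg _)).trans
      (mul_one _).le
  rw [Matrix.det_fin_three]
  simp only [Matrix.add_apply, Matrix.one_apply]
  norm_num [Fin.ext_iff]
  linarith [abs_le.1 (h2 0 0 1 1), abs_le.1 (h2 0 0 2 2), abs_le.1 (h2 1 1 2 2),
    abs_le.1 (h2 1 2 2 1), abs_le.1 (h2 0 1 1 0), abs_le.1 (h2 0 2 2 0),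
    abs_le.1 (h3 0 0 1 1 2 2), abs_le.1 (h3 0 0 1 2 2 1), abs_le.1 (h3 0 1 1 0 2 2),
    abs_le.1 (h3 0 1 1 2 2 0), abs_le.1 (h3 0 2 1 0 2 1), abs_le.1 (h3 0 2 1 1 2 0)]

theorem det_id_add_ge (L : V3 →L[ℝ] V3) {β : ℝ} (h1 : β ≤ 1) (hL : ‖L‖ ≤ β)
    (ht : L (EuclideanSpace.single 0 1) 0 + L (EuclideanSpace.single 1 1) 1
      + L (EuclideanSpace.single 2 1) 2 = 0) :
    1 - 12 * β ^ 2 ≤ (ContinuousLinearMap.id ℝ V3 + L).det := by
  set b := (EuclideanSpace.basisFun (Fin 3) ℝ).toBasis with hb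
  have e : ∀ i j, LinearMap.toMatrix b b (L : V3 →ₗ[ℝ] V3) i j
      = L (EuclideanSpace.single j 1) i := fun i j => by
    simp [LinearMap.toMatrix_apply, hb]
  rw [ContinuousLinearMap.det, ← LinearMap.det_toMatrix b, ContinuousLinearMap.toLinearMap_add,
    ContinuousLinearMap.coe_id, map_add, LinearMap.toMatrix_id]
  refine det_one_add_ge _ h1 (fun i j => ?_) (by simp only [e]; exact ht)
  rw [e, ← Real.norm_eq_abs]
  refine (PiLp.norm_apply_le _ i).trans ((L.le_opNorm _).trans ?_)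
  simpa using hL

theorem differentiable_lor (F : V3 × V3) : Differentiable ℝ (lor F) :=
  (contDiff_lor.comp (contDiff_const.prodMk contDiff_id)).differentiable (by simp)

theorem fderiv_lor_apply (F : V3 × V3) (v w : V3) :
    fderiv ℝ (lor F) v w = cross ((q v)⁻¹ • (w - ⟪u v, w⟫ • u v)) F.2 := by
  obtain ⟨L, hL⟩ := exists_crossL
  have h1 : HasDerivAt (fun t : ℝ => v + t • w) w 0 :=
    (((hasDerivAt_id (0 : ℝ)).smul_const w).const_add v).congr_deriv (one_smul _ _)
  have h2 := hasDerivAt_u_comp h1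
  simp only [zero_smul, add_zero] at h2
  have h3 := ((L.flip F.2).hasFDerivAt.comp_hasDerivAt (0 : ℝ) h2).const_add F.1
  have h4 : HasFDerivAt (lor F) (fderiv ℝ (lor F) v) (v + (0 : ℝ) • w) := by
    rw [zero_smul, add_zero]
    exact (differentiable_lor F v).hasFDerivAt
  have h5 := h4.comp_hasDerivAt (0 : ℝ) h1
  rw [← hL]
  refine h5.unique (h3.congr_of_eventuallyEq (Eventually.of_forall fun t => ?_))
  simp only [Function.comp, lor, ContinuousLinearMap.flip_apply, hL]

theorem trace_lor (F : V3 × V3) (v : V3) :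
    fderiv ℝ (lor F) v (EuclideanSpace.single 0 1) 0 + fderiv ℝ (lor F) v (EuclideanSpace.single 1 1) 1
      + fderiv ℝ (lor F) v (EuclideanSpace.single 2 1) 2 = 0 := by
  simp only [fderiv_lor_apply, EuclideanSpace.inner_single_right]
  simp [cross]
  ring

theorem kick_vol {F : V3 × V3} {R h : ℝ} (hF : ‖F‖ ≤ R) (hh : |h| * R ≤ 1 / 10) {S : Set V3}
    (hS : MeasurableSet S) : volume ((fun v => v + h • lor F v) ⁻¹' S)
      ≤ ENNReal.ofReal (Real.exp (96 * R ^ 2 * h ^ 2)) * volume S := by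
  have hR : 0 ≤ R := (norm_nonneg _).trans hF
  have hl : ∀ v w, ‖lor F v - lor F w‖ ≤ 2 * R * ‖v - w‖ := fun v w => by
    have := lor_sub_le F F v w
    rw [sub_self, norm_zero, mul_zero, zero_add] at this
    exact this.trans (mul_le_mul_of_nonneg_right (by linarith) (norm_nonneg _))
  have hd : ∀ v, HasFDerivAt (fun v => v + h • lor F v)
      (ContinuousLinearMap.id ℝ V3 + h • fderiv ℝ (lor F) v) v := fun v =>
    (hasFDerivAt_id v).add ((differentiable_lor F v).hasFDerivAt.const_smul h)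
  have hc : Continuous fun v => v + h • lor F v :=
    continuous_iff_continuousAt.2 fun v => (hd v).continuousAt
  have hi : Function.Injective fun v => v + h • lor F v := by
    intro v w e
    have e1 : v - w = -(h • (lor F v - lor F w)) := by
      rw [smul_sub, neg_sub, sub_eq_sub_iff_add_eq_add, add_comm _ w]
      exact e
    have e2 : ‖v - w‖ = |h| * ‖lor F v - lor F w‖ := by
      rw [← Real.norm_eq_abs, ← norm_smul, ← norm_neg (h • _), ← e1]
    have e3 := mul_le_mul_of_nonneg_left (hl v w) (abs_nonneg h)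
    rw [← sub_eq_zero, ← norm_le_zero_iff]
    nlinarith [norm_nonneg (v - w)]
  have hdet : ∀ v, Real.exp (-(96 * R ^ 2 * h ^ 2))
      ≤ |(ContinuousLinearMap.id ℝ V3 + h • fderiv ℝ (lor F) v).det| := fun v => by
    have h1 : ‖fderiv ℝ (lor F) v‖ ≤ 2 * R :=
      (differentiable_lor F v).hasFDerivAt.le_of_lip' (by linarith)
        (Eventually.of_forall fun w => hl w v)
    have h2 := det_id_add_ge (h • fderiv ℝ (lor F) v) (β := |h| * (2 * R)) (by linarith)
      (by rw [norm_smul, Real.norm_eq_abs]; exact mul_le_mul_of_nonneg_left h1 (abs_nonneg h))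
      (by
        simp only [smul_apply, PiLp.smul_apply, smul_eq_mul]
        rw [← mul_add, ← mul_add, trace_lor, mul_zero])
    refine le_trans ?_ (h2.trans (le_abs_self _))
    have h3 : (|h| * (2 * R)) ^ 2 = 4 * (R ^ 2 * h ^ 2) := by rw [mul_pow, sq_abs]; ring
    have h4 : R ^ 2 * h ^ 2 ≤ 1 / 100 := by
      have h5 : 0 ≤ |h| * R := mul_nonneg (abs_nonneg h) hR
      nlinarith
    have h5 : 0 ≤ R ^ 2 * h ^ 2 := by positivity
    rw [h3, mul_assoc, Real.exp_neg, inv_le_iff_one_le_mul₀ (Real.exp_pos _)]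
    generalize R ^ 2 * h ^ 2 = y at h4 h5
    have h6 := mul_le_mul_of_nonneg_left (Real.add_one_le_exp (96 * y))
      (show 0 ≤ 1 - 12 * (4 * y) by linarith)
    nlinarith
  have hs := hc.measurable hS
  have h1 := lintegral_abs_det_fderiv_eq_addHaar_image volume hs
    (fun v _ => (hd v).hasFDerivWithinAt) hi.injOn
  have h2 : ENNReal.ofReal (Real.exp (-(96 * R ^ 2 * h ^ 2)))
      * volume ((fun v => v + h • lor F v) ⁻¹' S) ≤ volume S := by
    rw [← setLIntegral_const]
    exact (lintegral_mono fun v => ENNReal.ofReal_le_ofReal (hdet v)).trans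
      (h1.le.trans (measure_mono (image_preimage_subset _ _)))
  refine le_of_eq_of_le ?_ (mul_le_mul_right h2 _)
  rw [← mul_assoc, ← ENNReal.ofReal_mul (Real.exp_pos _).le, ← Real.exp_add, add_neg_cancel,
    Real.exp_zero, ENNReal.ofReal_one, one_mul]

end Vale.Agent.P107
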