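import Vale.Agent.P107.Bas2
import Vale.Agent.P107.FlowO
import Vale.Agent.P107.FlowL
import Vale.Agent.P107.FlowV

/-! The splitting step (kick, then drift) of the characteristic flow. -/

namespace Vale.Agent.P107

open MeasureTheory Set Filter Topology
open scoped ContDiff RealInnerProductSpace ENNReal

variable {A : Fld} {R : ℝ}

theorem u_sub_le_two (v w : V3) : ‖u v - u w‖ ≤ 2 * ‖v - w‖ :=
  (u_sub_le v w).trans (div_le_self (by positivity) (one_le_q v))

theorem App.lipVF (hA : App A R) : ∃ K, LipVF (vf A) K (1 + 2 * R) := by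
  obtain ⟨L, hL⟩ := hA.lip
  have hR := hA.nonneg
  refine ⟨2 + 2 * |L| + 2 * R, by positivity, by positivity, fun t z => ?_, fun t t' z z' => ?_⟩
  · refine norm_prod_le_iff.2 ⟨?_, ?_⟩
    · change ‖u z.2‖ ≤ _
      linarith [norm_u_lt z.2]
    · change ‖lor _ _‖ ≤ _
      linarith [norm_lor_le (A (t, z.1)) z.2, hA.bdd (t, z.1)]
  · have h1 : ‖z.1 - z'.1‖ ≤ ‖z - z'‖ := norm_fst_le (z - z')
    have h2 : ‖z.2 - z'.2‖ ≤ ‖z - z'‖ := norm_snd_le (z - z')
    have h0 := abs_nonneg (t - t')
    have h3 : ‖(t, z.1) - (t', z'.1)‖ ≤ |t - t'| + ‖z - z'‖ :=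
      norm_prod_le_iff.2 ⟨le_add_of_nonneg_right (norm_nonneg _), h1.trans (by linarith)⟩
    have h4 : ‖A (t, z.1) - A (t', z'.1)‖ ≤ |L| * (|t - t'| + ‖z - z'‖) :=
      (hL _ _).trans (mul_le_mul (le_abs_self L) h3 (norm_nonneg _) (abs_nonneg L))
    have h5 : 0 ≤ |L| * (|t - t'| + ‖z - z'‖) := by positivity
    have h6 : 0 ≤ R * (|t - t'| + ‖z - z'‖) := by positivity
    refine norm_prod_le_iff.2 ⟨?_, ?_⟩
    · have := u_sub_le_two z.2 z'.2
      change ‖u z.2 - u z'.2‖ ≤ _
      nlinarith
    · have h7 := lor_sub_le (A (t, z.1)) (A (t', z'.1)) z.2 z'.2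
      have h8 : ‖A (t', z'.1)‖ * ‖z.2 - z'.2‖ ≤ R * (|t - t'| + ‖z - z'‖) :=
        mul_le_mul (hA.bdd _) (by linarith) (norm_nonneg _) hR
      change ‖lor _ _ - lor _ _‖ ≤ _
      nlinarith [norm_nonneg (z - z')]

/-- Free streaming. -/
noncomputable def drift (h : ℝ) (z : Z) : Z := (z.1 + h • u z.2, z.2)

/-- The momentum kick. -/
noncomputable def kick (A : Fld) (t h : ℝ) (z : Z) : Z := (z.1, z.2 + h • lor (A (t, z.1)) z.2)

theorem continuous_drift : Continuous fun p : ℝ × Z => drift p.1 p.2 := by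
  have := contDiff_u.continuous
  unfold drift
  fun_prop

theorem drift_zero (z : Z) : drift 0 z = z := by simp [drift]

theorem drift_neg (h : ℝ) (z : Z) : drift (-h) (drift h z) = z := by simp [drift]

theorem drift_neg' (h : ℝ) (z : Z) : drift h (drift (-h) z) = z := by simp [drift]

theorem mp_drift (h : ℝ) : MeasurePreserving (drift h) volume volume := by
  have hu := contDiff_u.continuous
  have h1 : MeasurePreserving (fun p : V3 × V3 => (p.1, p.2 + h • u p.1))
      (volume.prod volume) (volume.prod volume) :=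
    (MeasurePreserving.id volume).skew_product (g := fun v x => x + h • u v)
      (Continuous.measurable (by fun_prop))
      (Eventually.of_forall fun v => map_add_right_eq_self volume _)
  exact Measure.measurePreserving_swap.comp (h1.comp Measure.measurePreserving_swap)

theorem App.measurable_kick (hA : App A R) (t h : ℝ) : Measurable (kick A t h) := by
  have h2 : Continuous fun z : Z => lor (A (t, z.1)) z.2 :=
    contDiff_lor.continuous.comp (f := fun z : Z => (A (t, z.1), z.2))
      ((hA.continuous.comp (continuous_const.prodMk continuous_fst)).prodMk continuous_snd)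
  exact (continuous_fst.prodMk (continuous_snd.add (h2.const_smul h))).measurable

theorem App.kick_vol (hA : App A R) (t : ℝ) {h : ℝ} (hh : |h| * R ≤ 1 / 10) {S : Set Z}
    (hS : MeasurableSet S) : volume (kick A t h ⁻¹' S)
      ≤ ENNReal.ofReal (Real.exp (96 * R ^ 2 * h ^ 2)) * volume S := by
  rw [Measure.volume_eq_prod, Measure.prod_apply (hA.measurable_kick t h hS), Measure.prod_apply hS,
    ← lintegral_const_mul' _ _ ENNReal.ofReal_ne_top]
  exact lintegral_mono fun x =>
    P107.kick_vol (hA.bdd (t, x)) hh (S := Prod.mk x ⁻¹' S) (measurable_prodMk_left hS)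

theorem App.split_step (hA : App A R) (t h : ℝ) (z : Z) :
    ‖z + h • vf A t z - drift h (kick A t h z)‖ ≤ 4 * R * h ^ 2 := by
  have hR := hA.nonneg
  have e : z + h • vf A t z - drift h (kick A t h z)
      = (h • (u z.2 - u (z.2 + h • lor (A (t, z.1)) z.2)), 0) := by
    simp [vf, drift, kick, smul_sub, Prod.ext_iff]
  rw [e]
  refine norm_prod_le_iff.2 ⟨?_, by rw [norm_zero]; positivity⟩
  have h1 := u_sub_le_two z.2 (z.2 + h • lor (A (t, z.1)) z.2)
  rw [sub_add_cancel_left, norm_neg, norm_smul, Real.norm_eq_abs] at h1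
  have h2 : ‖lor (A (t, z.1)) z.2‖ ≤ 2 * R := by
    linarith [norm_lor_le (A (t, z.1)) z.2, hA.bdd (t, z.1)]
  have h3 := mul_le_mul_of_nonneg_left h2 (abs_nonneg h)
  rw [norm_smul, Real.norm_eq_abs, ← sq_abs h]
  nlinarith [abs_nonneg h]

theorem App.mp_fl2 (hA : App A R) {φ : ℝ → ℝ → Z → Z} (hφ : Fl2 (vf A) φ) (s t : ℝ) :
    MeasurePreserving (φ s t) volume volume := by
  obtain ⟨K, hK⟩ := hA.lipVF
  have hR := hA.nonneg
  have h0 := hK.K_nonneg
  refine LiouH.mp (m := fun t h => drift h ∘ kick A t h) (K := K)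
    (C := K * (1 + (1 + 2 * R)) + 4 * R + 96 * R ^ 2) (δ := 1 / (10 * (R + 1)))
    ⟨h0, by positivity, by positivity, hφ.self, hφ.comp hK, hφ.lip hK,
      fun t h => (mp_drift h).measurable.comp (hA.measurable_kick t h), fun t h z _ => ?_,
      fun t h hh S hS => ?_⟩ s t
  · have h1 := hφ.step hK t h z
    have h2 := hA.split_step t h z
    have h3 := norm_sub_le_norm_sub_add_norm_sub (φ t (t + h) z) (z + h • vf A t z)
      (drift h (kick A t h z))
    have h4 : 0 ≤ 96 * R ^ 2 * h ^ 2 := by positivity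
    simp only [Function.comp]
    linarith
  · rw [le_div_iff₀ (by positivity)] at hh
    rw [preimage_comp, ← (mp_drift h).measure_preimage hS.nullMeasurableSet]
    refine (hA.kick_vol t (by nlinarith [abs_nonneg h]) ((mp_drift h).measurable hS)).trans
      (mul_le_mul_left (ENNReal.ofReal_le_ofReal (Real.exp_le_exp.2 ?_)) _)
    refine mul_le_mul_of_nonneg_right (le_add_of_nonneg_left ?_) (sq_nonneg h)
    positivity

end Vale.Agent.P107
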