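import Vale.Agent.P107.PicPt
import Vale.Agent.P107.PicRad

/-! The sup bound.

Plan. intF_sup: intF_eq and norm_integral_le_of_norm_le with the majorant N P² wS P 0 T + 8 N P⁴ T β wE P g t
(pointwise: if ‖w.1‖ ≤ t and the density is nonzero then q w.2 ≤ P by Mom.dens, abs_dens_le, ker_le, the field is evaluated at time
t - ‖w.1‖ ∈ [0, T1]); integral_wS_le, integral_wE_le. halving: by induction a p ≤ (2 c + β0 / 2^n) w p, then n → ∞.
sup_main: replace N, P, T, K0 by max N 0, max P 1, max T 0, max K0 0 in the constants (Init gives 1 ≤ N, so either case split on 0 ≤ N or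
note that the statement is empty otherwise); if the slab T1 is nonempty then 0 ≤ T1, mom_of_Icc, Mom.mono; g = 2 C + 1,
halving with a p = ‖A p‖, w p = exp (g p.1), c = K0 + C, β0 = R; the constant is 2 (K0 + C) exp (g T) (at least K0). -/

namespace Vale.Agent.P107

open MeasureTheory Set Filter Topology
open scoped ContDiff RealInnerProductSpace ENNReal

theorem intF_sup {N P T : ℝ} (hN : 0 ≤ N) (hP : 1 ≤ P) (hT : 0 ≤ T) :
    ∃ C : ℝ, 0 ≤ C ∧ ∀ (f0 : Z → ℝ) (P0 : ℝ) (A : Fld) (Φ Ψ : ℝ → Z → Z) (T1 β g : ℝ),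
      T1 ≤ T → Init f0 N P0 → IsFlow A Φ Ψ → Mom f0 Φ T1 P → 0 ≤ β → 0 < g →
      (∀ p ∈ slab T1, ‖A p‖ ≤ β * Real.exp (g * p.1)) →
      ∀ p ∈ slab T1, ‖intF (dens f0 Ψ) A p‖ ≤ C * (1 + β * Real.exp (g * p.1) / g) := by
  have hP0 : 0 ≤ P := by linarith
  refine ⟨65 * P ^ 3 * (N * P ^ 2 * T + N * (8 * P ^ 4 * T)), by positivity, ?_⟩
  intro f0 P0 A Φ Ψ T1 β g hT1 hI hF hM hβ hg hb p hp
  have ht := mem_slab.1 hp
  have i1 := (integrable_wS P 0 T).const_mul (N * P ^ 2)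
  have i2 := (integrable_wE P p.1 hg).const_mul (N * (8 * P ^ 4 * T) * β)
  rw [intF_eq]
  refine (norm_integral_le_of_norm_le (i1.add i2) (Eventually.of_forall fun w => ?_)).trans ?_
  · have w1 := wS_nonneg P 0 T w
    have w2 := wE_nonneg P g p.1 w
    have hn := norm_nonneg w.1
    simp only [Pi.add_apply]
    by_cases hw : w ∈ {w : Z | ‖w.1‖ ≤ p.1}
    swap
    · rw [indicator_of_notMem hw, norm_zero]; positivity
    rw [indicator_of_mem hw]
    have hw' : ‖w.1‖ ≤ p.1 := hw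
    unfold itg
    by_cases h0 : dens f0 Ψ (p.1 - ‖w.1‖) (p.2 - w.1, w.2) = 0
    · rw [h0, zero_smul, norm_zero]; positivity
    have hq : q w.2 ≤ P := hM.dens hF (s := p.1 - ‖w.1‖) (z := (p.2 - w.1, w.2)) (by linarith) h0
    have hDT : ‖w.1‖ ≤ T := by linarith
    have e1 : wS P 0 T w = 1 / ‖w.1‖ ^ 2 := by unfold wS; rw [if_pos ⟨hq, hn, hDT⟩]
    have e2 : wE P g p.1 w = Real.exp (g * (p.1 - ‖w.1‖)) / ‖w.1‖ ^ 2 := by
      unfold wE; rw [if_pos hq]
    have b1 := hb (p.1 - ‖w.1‖, p.2 - w.1)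
      (mem_slab.2 ⟨by simp only; linarith, by simp only; linarith⟩)
    have b2 := (ker_le hq hDT (A (p.1 - ‖w.1‖, p.2 - w.1))).trans (div_le_div_of_nonneg_right
      (add_le_add le_rfl (mul_le_mul_of_nonneg_left b1 (by positivity))) (by positivity))
    rw [norm_smul, Real.norm_eq_abs, e1, e2]
    refine (mul_le_mul (abs_dens_le hI _ _) b2 (norm_nonneg _) hN).trans_eq ?_
    ring
  · rw [integral_add' i1 i2, integral_const_mul, integral_const_mul]
    have j1 := integral_wS_le hP0 hT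
    have j2 := integral_wE_le hP0 hg p.1
    refine (add_le_add (mul_le_mul_of_nonneg_left j1 (by positivity))
      (mul_le_mul_of_nonneg_left j2 (by positivity))).trans ?_
    have hy : 0 ≤ β * Real.exp (g * p.1) / g := by positivity
    have ha : 0 ≤ N * P ^ 2 * T := by positivity
    have hc : 0 ≤ N * (8 * P ^ 4 * T) := by positivity
    have key : N * P ^ 2 * T + N * (8 * P ^ 4 * T) * (β * Real.exp (g * p.1) / g)
        ≤ (N * P ^ 2 * T + N * (8 * P ^ 4 * T)) * (1 + β * Real.exp (g * p.1) / g) := by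
      nlinarith [mul_nonneg ha hy]
    refine (le_of_eq ?_).trans ((mul_le_mul_of_nonneg_left key
      (show 0 ≤ 65 * P ^ 3 by positivity)).trans_eq ?_) <;> ring

theorem halving {α : Type} {S : Set α} {a w : α → ℝ} {c β0 : ℝ} (hw : ∀ p ∈ S, 0 ≤ w p)
    (hc : 0 ≤ c) (h0 : 0 ≤ β0) (hb : ∀ p ∈ S, a p ≤ β0 * w p)
    (hs : ∀ β, 0 ≤ β → (∀ p ∈ S, a p ≤ β * w p) → ∀ p ∈ S, a p ≤ (c + β / 2) * w p) :
    ∀ p ∈ S, a p ≤ 2 * c * w p := by
  have h : ∀ n : ℕ, ∀ p ∈ S, a p ≤ (2 * c + β0 * (1 / 2) ^ n) * w p := by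
    intro n
    induction n with
    | zero =>
      intro p hp
      have := hb p hp
      have := mul_nonneg hc (hw p hp)
      simp only [pow_zero, mul_one]
      nlinarith
    | succ n ih =>
      intro p hp
      refine (hs _ (by positivity) ih p hp).trans_eq ?_
      ring
  intro p hp
  have hlim : Tendsto (fun n : ℕ => (2 * c + β0 * (1 / 2) ^ n) * w p) atTop
      (𝓝 ((2 * c + β0 * 0) * w p)) :=
    (((tendsto_pow_atTop_nhds_zero_of_lt_one (by norm_num) (by norm_num)).const_mul β0).const_add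
      _).mul_const _
  have h2 := ge_of_tendsto' hlim fun n => h n p hp
  simpa using h2

theorem sup_main (N K0 T P : ℝ) : ∃ C : ℝ, K0 ≤ C ∧ 0 ≤ C ∧
    ∀ (f0 : Z → ℝ) (P0 : ℝ) (dat A : Fld) (Φ Ψ : ℝ → Z → Z) (R T1 : ℝ), T1 ≤ T → Init f0 N P0 →
      App A R → IsFlow A Φ Ψ → Rep f0 dat A Ψ T1 → (∀ p ∈ slab T1, ‖dat p‖ ≤ K0) →
      (∀ t ∈ Icc 0 T1, ∀ z, f0 z ≠ 0 → q (Φ t z).2 ≤ P) → ∀ p ∈ slab T1, ‖A p‖ ≤ C := by
  obtain ⟨C, hC, hsup⟩ := intF_sup (N := |N|) (P := max P 1) (T := |T|) (abs_nonneg _)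
    (le_max_right _ _) (abs_nonneg _)
  have hg : 0 < 2 * C + 1 := by positivity
  have hE : 1 ≤ Real.exp ((2 * C + 1) * |T|) := Real.one_le_exp (by positivity)
  refine ⟨2 * (|K0| + C) * Real.exp ((2 * C + 1) * |T|), ?_, by positivity, ?_⟩
  · have := le_abs_self K0
    have := abs_nonneg K0
    nlinarith
  intro f0 P0 dat A Φ Ψ R T1 hT1 hI hA hF hr hd hq p hp
  have hT0 : 0 ≤ T1 := (mem_slab.1 hp).1.trans (mem_slab.1 hp).2
  have hN : |N| = N := abs_of_nonneg (le_trans zero_le_one hI.one_le_N)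
  have hM : Mom f0 Φ T1 (max P 1) := (mom_of_Icc hF hT0 hq).mono le_rfl (le_max_left _ _)
  have hw : ∀ p ∈ slab T1, 1 ≤ Real.exp ((2 * C + 1) * p.1) :=
    fun p hp => Real.one_le_exp (mul_nonneg hg.le (mem_slab.1 hp).1)
  have h := halving (S := slab T1) (a := fun p => ‖A p‖)
    (w := fun p => Real.exp ((2 * C + 1) * p.1)) (c := |K0| + C) (β0 := R)
    (fun _ _ => (Real.exp_pos _).le) (by positivity) hA.nonneg
    (fun p hp => (hA.bdd p).trans (le_mul_of_one_le_right hA.nonneg (hw p hp)))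
    (fun β hβ hb p hp => by
      have h1 := hsup f0 P0 A Φ Ψ T1 β (2 * C + 1) (hT1.trans (le_abs_self T)) (by rwa [hN]) hF hM
        hβ hg hb p hp
      have h2 := (hd p hp).trans (le_abs_self K0)
      have h3 := hw p hp
      have h4 : C * (β * Real.exp ((2 * C + 1) * p.1) / (2 * C + 1))
          ≤ β / 2 * Real.exp ((2 * C + 1) * p.1) := by
        rw [← mul_div_assoc, div_le_iff₀ hg]
        have : 0 ≤ β * Real.exp ((2 * C + 1) * p.1) := by positivity
        nlinarith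
      have h5 : |K0| + C ≤ (|K0| + C) * Real.exp ((2 * C + 1) * p.1) :=
        le_mul_of_one_le_right (by positivity) h3
      rw [hr p hp]
      refine (norm_add_le _ _).trans ?_
      nlinarith) p hp
  refine h.trans (mul_le_mul_of_nonneg_left (Real.exp_le_exp.2 (mul_le_mul_of_nonneg_left ?_ hg.le))
    (by positivity))
  exact (mem_slab.1 hp).2.trans (hT1.trans (le_abs_self T))

end Vale.Agent.P107
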