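import Vale.Agent.P107.PicLip
import Vale.Agent.P107.PicSec
import Vale.Agent.P107.PicSup
import Vale.Agent.P107.PicFix

/-! BLOCK PI: `intF` is regular on the slab when the applied field is. -/

namespace Vale.Agent.P107

open MeasureTheory Set Filter Topology
open scoped ContDiff RealInnerProductSpace ENNReal

theorem intF_reg {f0 : Z → ℝ} {N P0 R T M : ℝ} {A : Fld} {Φ Ψ : ℝ → Z → Z}
    (hI : Init f0 N P0) (hA : App A R) (hF : IsFlow A Φ Ψ) (hT : 0 ≤ T) (hR : Reg A T M) :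
    ∃ M', Reg (intF (dens f0 Ψ) A) T M' := by
  have hN : 0 ≤ N := le_trans zero_le_one hI.one_le_N
  have hR0 : 0 ≤ R := hA.nonneg
  have hM : 0 ≤ M := hR.nonneg hT
  have hP : 1 ≤ P0 + 2 * R * T := by
    have := hI.one_le_P0
    have h2 : 0 ≤ 2 * R * T := by positivity
    linarith
  have hmom := mom_of_app hI hA hF hT
  have hl : LipW A T M 1 := hR.lipW hT le_rfl zero_le_one
  have hLX : 0 ≤ M * Real.exp (1 * T) := by positivity
  obtain ⟨C0, hC0, hsup⟩ := intF_sup hN hP hT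
  obtain ⟨C1, hC1, hlip⟩ := intF_lip hN hP hR0 hT
  obtain ⟨C2, hC2, hsec⟩ := intF_sec hN hP hR0 hLX hT
  have hb : ∀ p ∈ slab T, ‖intF (dens f0 Ψ) A p‖ ≤ C0 * (1 + R * Real.exp T) := by
    intro p hp
    have h1 := hsup f0 P0 A Φ Ψ T R 1 le_rfl hI hF hmom hR0 one_pos
      (fun p' hp' => by
        have h2 := hA.bdd p'
        have h3 : 1 ≤ Real.exp (1 * p'.1) := Real.one_le_exp (by linarith [(mem_slab.1 hp').1])
        nlinarith) p hp
    refine h1.trans (mul_le_mul_of_nonneg_left ?_ hC0)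
    have h4 : Real.exp (1 * p.1) ≤ Real.exp T :=
      Real.exp_le_exp.2 (by linarith [(mem_slab.1 hp).2])
    rw [div_one]
    nlinarith
  obtain ⟨M1, hM1⟩ := reg_of hb (by positivity) zero_le_one
    (hlip f0 P0 A Φ Ψ M 1 hI hA hF hmom hM one_pos hl) (by positivity) zero_le_one
    (hsec f0 P0 A Φ Ψ M 1 hI hA hF hmom (hl.lipX hM zero_le_one) hM le_rfl
      (hR.secW hT le_rfl zero_le_one))
  exact ⟨M1, hM1 M1 le_rfl⟩

end Vale.Agent.P107
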