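import Vale.Agent.P107.MWD

/-! BLOCK MX2, file MW1 (sub-lead helper85). Definitions in MWD.lean and Ctx.lean. Put the file name in front of helper lemma names.

Plan.
aesm_off: ContinuousOn.aestronglyMeasurable on the open set {0}ᶜ, and volume.restrict {0}ᶜ = volume (restrict_compl_singleton or Measure.restrict_eq_self_of_ae_mem).
int_sing: Integrable.mono' against the indicator of {‖D‖ ≤ L} times |C| / ‖D‖ ^ 2 (lintegral_inv_sq in Bas2); the point 0 is null.
ibp0: if g' is not integrable use integral_undef. Otherwise (s, D) ↦ g' (D + s • b) is integrable for (volume.restrict (Ioc 0 1)).prod volume (the shear (s, D) ↦ (s, D + s • b) preserves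
the measure: MeasurePreserving.skew_product with measurePreserving_add_right; compose with Integrable.comp_snd style facts for a finite first factor). For D outside the null line span {b}
(Measure.addHaar_submodule) and with integrable slice (Integrable.prod_left_ae), g (D + b) - g D = ∫ s in 0..1, g' (D + s • b) (intervalIntegral.integral_eq_sub_of_hasDerivAt;
shift the base point with HasDerivAt.comp_add_const or comp_sub_const). Integrate in D: integral_add_right_eq_self on both sides, integral_integral_swap.
zero1: if g' is not integrable use integral_undef. g' vanishes off Icc a b except at 0 (g is locally zero, HasDerivAt.unique), so ∫ g' = ∫ s in (a - 1)..(max a b + 1), g' s,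
and MeasureTheory.integral_eq_of_hasDerivAt_off_countable_of_le with the countable set {0}.
-/

namespace Vale.Agent.P107.MW

open MeasureTheory Set Filter Topology
open scoped ContDiff RealInnerProductSpace ENNReal

theorem aesm_off {F : V3 → ℝ} (h : ContinuousOn F {0}ᶜ) : AEStronglyMeasurable F volume := by
  have h1 := h.aestronglyMeasurable (μ := volume) (measurableSet_singleton 0).compl
  rwa [restrict_compl_singleton] at h1

theorem int_sing {F : V3 → ℝ} {L C : ℝ} (hm : AEStronglyMeasurable F volume)
    (h0 : ∀ D, L < ‖D‖ → F D = 0) (hb : ∀ D, D ≠ 0 → ‖D‖ ≤ L → |F D| ≤ C / ‖D‖ ^ 2) :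
    Integrable F := by
  have hs : MeasurableSet {D : V3 | ‖D‖ ≤ L} :=
    (isClosed_le continuous_norm continuous_const).measurableSet
  have i1 : IntegrableOn (fun D : V3 => 1 / ‖D‖ ^ 2) {D : V3 | ‖D‖ ≤ L} := by
    refine ⟨Measurable.aestronglyMeasurable (by fun_prop), ?_⟩
    rw [hasFiniteIntegral_iff_ofReal (Eventually.of_forall fun D => by positivity)]
    exact (lintegral_inv_sq L).trans_lt ENNReal.ofReal_lt_top
  refine Integrable.mono' ((i1.integrable_indicator hs).const_mul |C|) hm ?_
  have hae : ∀ᵐ D : V3, D ≠ 0 := compl_mem_ae_iff.2 (measure_singleton 0)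
  filter_upwards [hae] with D hD
  by_cases h1 : ‖D‖ ≤ L
  · rw [indicator_of_mem (show D ∈ {D : V3 | ‖D‖ ≤ L} from h1), mul_one_div]
    refine (hb D hD h1).trans ?_
    gcongr
    exact le_abs_self C
  · rw [h0 D (not_le.1 h1), indicator_of_notMem (show D ∉ {D : V3 | ‖D‖ ≤ L} from h1)]
    simp

theorem ibp0 {g g' : V3 → ℝ} (b : V3) (hg : Integrable g)
    (h : ∀ D, D ≠ 0 → HasDerivAt (fun s : ℝ => g (D + s • b)) (g' D) 0) : ∫ D, g' D = 0 := by
  by_cases hi : Integrable g'
  swap
  · exact integral_undef hi
  have mp : MeasurePreserving (fun p : ℝ × V3 => ((p.1, p.2 + p.1 • b) : ℝ × V3))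
      ((volume.restrict (Ioc 0 1)).prod volume) ((volume.restrict (Ioc 0 1)).prod volume) :=
    (MeasurePreserving.id _).skew_product (g := fun (s : ℝ) (D : V3) => D + s • b)
      (by unfold Function.uncurry; fun_prop)
      (Eventually.of_forall fun s => (measurePreserving_add_right volume (s • b)).map_eq)
  have i1 : Integrable (fun p : ℝ × V3 => g' (p.2 + p.1 • b))
      ((volume.restrict (Ioc 0 1)).prod volume) :=
    mp.integrable_comp_of_integrable (hi.comp_snd (volume.restrict (Ioc (0 : ℝ) 1)))
  have h1 := integral_prod _ i1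
  have h2 := integral_prod_symm _ i1
  simp only [integral_add_right_eq_self g', integral_const, MeasurableSet.univ,
    measureReal_restrict_apply, univ_inter, Real.volume_real_Ioc, sub_zero, zero_le_one,
    sup_of_le_left, one_smul] at h1
  rw [← h1, h2]
  have hsp : (Submodule.span ℝ {b} : Submodule ℝ V3) ≠ ⊤ := fun h3 => by
    have h4 := finrank_span_le_card (R := ℝ) ({b} : Set V3)
    rw [h3] at h4
    simp at h4
  have hae : ∀ᵐ D : V3, D ∉ (Submodule.span ℝ {b} : Submodule ℝ V3) :=
    compl_mem_ae_iff.2 (Measure.addHaar_submodule volume _ hsp)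
  have h3 : ∫ D, ∫ s in Ioc (0 : ℝ) 1, g' (D + s • b) = ∫ D, (g (D + b) - g D) := by
    refine integral_congr_ae ?_
    filter_upwards [hae, i1.prod_left_ae] with D hD hD'
    rw [← intervalIntegral.integral_of_le zero_le_one,
      intervalIntegral.integral_eq_sub_of_hasDerivAt (f := fun s : ℝ => g (D + s • b))
        (fun s _ => ?_) ((intervalIntegrable_iff_integrableOn_Ioc_of_le zero_le_one).2 hD')]
    · simp
    · have h4 : D + s • b ≠ 0 := fun h4 => hD (Submodule.mem_span_singleton.2
        ⟨-s, by rw [neg_smul, eq_comm, ← add_eq_zero_iff_eq_neg, h4]⟩)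
      have h5 := HasDerivAt.comp_sub_const s s (by rw [sub_self]; exact h _ h4)
      refine h5.congr_of_eventuallyEq (Eventually.of_forall fun r => ?_)
      simp only [add_assoc, ← add_smul, add_sub_cancel]
  rw [h3, integral_sub (hg.comp_add_right b) hg, integral_add_right_eq_self g, sub_self]

theorem zero1 {g g' : ℝ → ℝ} {a b : ℝ} (hc : Continuous g) (hs : ∀ s, s ∉ Icc a b → g s = 0)
    (hd : ∀ s, s ≠ 0 → HasDerivAt g (g' s) s) : ∫ s, g' s = 0 := by
  by_cases hi : Integrable g'
  swap
  · exact integral_undef hi
  have hab : a - 1 ≤ max a b + 1 := by linarith [le_max_left a b]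
  have h1 := integral_eq_of_hasDerivAt_off_countable_of_le g g' hab (countable_singleton 0)
    hc.continuousOn (fun s hs => hd s hs.2) hi.intervalIntegrable
  rw [hs _ (fun h => by linarith [h.2, le_max_right a b]), hs _ (fun h => by linarith [h.1]),
    sub_self, intervalIntegral.integral_of_le hab] at h1
  rw [← h1]
  refine (setIntegral_eq_integral_of_ae_compl_eq_zero ?_).symm
  have hae : ∀ᵐ s : ℝ, s ≠ 0 := compl_mem_ae_iff.2 (measure_singleton 0)
  filter_upwards [hae] with s h0 h2
  have h3 : s ∉ Icc a b := fun h =>
    h2 ⟨by linarith [h.1], by linarith [h.2, le_max_right a b]⟩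
  have h4 : g =ᶠ[𝓝 s] fun _ => 0 := by
    filter_upwards [isClosed_Icc.isOpen_compl.mem_nhds h3] with r hr using hs r hr
  exact (hd s h0).unique ((hasDerivAt_const s 0).congr_of_eventuallyEq h4)

end Vale.Agent.P107.MW
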