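import Vale.Agent.P107.MWD

/-! BLOCK MX2, file MW1b (sub-lead helper85). Definitions in MWD.lean and Ctx.lean. Put the file name in front of helper lemma names.

Plan.
Polar coordinates: Measure.measurePreserving_homeomorphUnitSphereProd (see the proof of integral_fun_norm_addHaar in Mathlib/MeasureTheory/Constructions/HaarToSphere.lean):
∫ F = ∫ n ∂(volume.toSphere), ∫ r in Ioi 0, r ^ 2 * F (r • n) for integrable F, with integrable inner function for a.e. n (volumeIoiPow is a withDensity).
For F D = h' D / ‖D‖ ^ 2 the inner integrand is h' (r • n), the derivative of r ↦ h (r • n) at r > 0 (nrm (r • n) = n), and integral_Ioi_of_hasDerivAt_of_tendsto gives - h 0.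
The total mass of toSphere is 3 * volume (ball 0 1) = 4 π (Measure.toSphere_apply_univ, EuclideanSpace.volume_ball_fin_three).
-/

namespace Vale.Agent.P107.MW

open MeasureTheory Set Filter Topology
open scoped ContDiff RealInnerProductSpace ENNReal

theorem MW1b_rad {f : ℝ → ℝ} :
    (Integrable (fun r : Ioi (0 : ℝ) => f r) (Measure.volumeIoiPow 2) →
      IntegrableOn (fun r : ℝ => r ^ 2 * f r) (Ioi 0)) ∧
    ∫ r : Ioi (0 : ℝ), f r ∂(Measure.volumeIoiPow 2) = ∫ r in Ioi (0 : ℝ), r ^ 2 * f r := by
  have hm : Measurable fun r : Ioi (0 : ℝ) => Real.toNNReal (r.1 ^ 2) :=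
    (measurable_subtype_coe.pow_const _).real_toNNReal
  have e : ∀ r : ℝ, Real.toNNReal (r ^ 2) • f r = r ^ 2 * f r := fun r => by
    rw [NNReal.smul_def, Real.coe_toNNReal _ (sq_nonneg r), smul_eq_mul]
  simp only [Measure.volumeIoiPow, ENNReal.ofReal]
  constructor
  · intro h
    rw [integrable_withDensity_iff_integrable_smul hm] at h
    simp only [e] at h
    exact (integrableOn_iff_comap_subtypeVal measurableSet_Ioi).2 h
  · rw [integral_withDensity_eq_integral_smul hm]
    simp only [e]
    exact integral_subtype_comap measurableSet_Ioi fun r => r ^ 2 * f r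

theorem MW1b_polar {F : V3 → ℝ} (hi : Integrable F) :
    (∀ᵐ n : Metric.sphere (0 : V3) 1 ∂(volume : Measure V3).toSphere,
      IntegrableOn (fun r : ℝ => r ^ 2 * F (r • n.1)) (Ioi 0)) ∧
    ∫ D, F D = ∫ n : Metric.sphere (0 : V3) 1, (∫ r in Ioi (0 : ℝ), r ^ 2 * F (r • n.1))
      ∂(volume : Measure V3).toSphere := by
  have mp := (volume : Measure V3).measurePreserving_homeomorphUnitSphereProd
  have hd : Module.finrank ℝ V3 - 1 = 2 := by simp
  rw [hd] at mp
  have he := (homeomorphUnitSphereProd V3).measurableEmbedding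
  have e : ∀ x : ({0}ᶜ : Set V3), F (((homeomorphUnitSphereProd V3 x).2 : ℝ) •
      ((homeomorphUnitSphereProd V3 x).1 : V3)) = F x := fun x =>
    congrArg (fun y : ({0}ᶜ : Set V3) => F y) ((homeomorphUnitSphereProd V3).symm_apply_apply x)
  have i1 : Integrable (fun p : Metric.sphere (0 : V3) 1 × Ioi (0 : ℝ) => F (p.2.1 • p.1.1))
      ((volume : Measure V3).toSphere.prod (Measure.volumeIoiPow 2)) := by
    rw [← mp.integrable_comp_emb he]
    simp only [Function.comp_def, e]
    exact (integrableOn_iff_comap_subtypeVal (measurableSet_singleton 0).compl).1 hi.integrableOn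
  constructor
  · filter_upwards [i1.prod_right_ae] with n hn
    exact (MW1b_rad (f := fun r => F (r • n.1))).1 hn
  · have h1 := mp.integral_comp he
      fun p : Metric.sphere (0 : V3) 1 × Ioi (0 : ℝ) => F (p.2.1 • p.1.1)
    simp only [e] at h1
    rw [integral_subtype_comap (measurableSet_singleton _).compl F, restrict_compl_singleton,
      integral_prod _ i1] at h1
    rw [h1]
    exact integral_congr_ae (Eventually.of_forall fun n =>
      (MW1b_rad (f := fun r => F (r • n.1))).2)

theorem polar {h h' : V3 → ℝ} {ρ : ℝ} (hc : Continuous h) (hs : ∀ D, ρ ≤ ‖D‖ → h D = 0)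
    (hi : Integrable fun D => h' D / ‖D‖ ^ 2)
    (hd : ∀ D, D ≠ 0 → HasDerivAt (fun s : ℝ => h (D + s • nrm D)) (h' D) 0) :
    ∫ D, h' D / ‖D‖ ^ 2 = -(4 * Real.pi) * h 0 := by
  obtain ⟨h1, h2⟩ := MW1b_polar hi
  have h3 : ∀ᵐ n : Metric.sphere (0 : V3) 1 ∂(volume : Measure V3).toSphere,
      ∫ r in Ioi (0 : ℝ), r ^ 2 * (h' (r • n.1) / ‖r • n.1‖ ^ 2) = -h 0 := by
    filter_upwards [h1] with n hn
    have hn1 : ‖n.1‖ = 1 := by simp
    have e0 : ∀ r ∈ Ioi (0 : ℝ), ‖r • n.1‖ = r := fun r hr => by
      rw [norm_smul, hn1, mul_one, Real.norm_of_nonneg (le_of_lt hr)]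
    have e : EqOn (fun r : ℝ => r ^ 2 * (h' (r • n.1) / ‖r • n.1‖ ^ 2)) (fun r => h' (r • n.1))
        (Ioi 0) := fun r hr => by
      have h4 : r ≠ 0 := ne_of_gt hr
      simp only [e0 r hr]
      field_simp
    rw [setIntegral_congr_fun measurableSet_Ioi e,
      integral_Ioi_of_hasDerivAt_of_tendsto (f := fun r : ℝ => h (r • n.1)) (m := 0)
        (Continuous.continuousWithinAt (by fun_prop)) (fun r hr => ?_)
        (hn.congr_fun e measurableSet_Ioi) ?_]
    · simp
    · refine tendsto_const_nhds.congr' ?_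
      filter_upwards [eventually_ge_atTop ρ, eventually_gt_atTop 0] with r h4 h5
      exact (hs _ (by rw [e0 r h5]; exact h4)).symm
    · have h4 : r ≠ 0 := ne_of_gt hr
      have h5 : r • n.1 ≠ 0 := by rw [← norm_ne_zero_iff, e0 r hr]; exact h4
      have h6 : nrm (r • n.1) = n.1 := by rw [nrm, e0 r hr, smul_smul, inv_mul_cancel₀ h4, one_smul]
      have h7 := HasDerivAt.comp_sub_const r r (by rw [sub_self]; exact hd _ h5)
      refine h7.congr_of_eventuallyEq (Eventually.of_forall fun s => ?_)
      simp only [h6, ← add_smul, add_sub_cancel]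
  rw [h2, integral_congr_ae h3, integral_const, Measure.toSphere_real_apply_univ, measureReal_def,
    EuclideanSpace.volume_ball_fin_three, ENNReal.toReal_mul, ENNReal.toReal_pow,
    ENNReal.toReal_ofReal zero_le_one, ENNReal.toReal_ofReal (by positivity)]
  simp only [finrank_euclideanSpace, Fintype.card_fin, smul_eq_mul]
  push_cast
  ring

end Vale.Agent.P107.MW
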