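import Vale.Agent.P107.MW1

/-! BLOCK MX2, file MW2 (sub-lead helper85). Definitions in MWD.lean and Ctx.lean. Put the file name in front of helper lemma names.

Plan.
line_norm: cone_norm (ConeA). A_id: ibp0 for g D = ψ (σ + ‖D‖, y + D) * (4 π ‖D‖)⁻¹ in the direction b (Test.box: everything vanishes for ‖D‖ > T - σ; int_sing).
T_id: ibp0 for g D = ψ (..) * ((⟪b, D⟫ - ‖D‖ ⟪b, W⟫) / (4 π ‖D‖ (‖D‖ - ⟪D, W⟫))) in the direction W = u v; this is ψ ⟪b, n - W⟫ / (4 π r kap). Add A_id.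
Kernel identity: n / r² - W·∇(a / (r kap)) = a (1 - |W|²) / (r² kap²), norm_u_sq.
-/

namespace Vale.Agent.P107.MW

open MeasureTheory Set Filter Topology
open scoped ContDiff RealInnerProductSpace ENNReal

variable {f0 : Z → ℝ} {N P0 R T : ℝ} {A : Fld} {Φ Ψ : ℝ → Z → Z} {ψ : ℝ × V3 → ℝ}

theorem MW2_inv {D : V3} {L : ℝ} (hD : D ≠ 0) (hL : ‖D‖ ≤ L) :
    |(4 * Real.pi * ‖D‖)⁻¹| ≤ L / ‖D‖ ^ 2 := by
  have h0 := norm_pos_iff.2 hD
  have h1 := Real.pi_gt_three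
  rw [abs_of_pos (by positivity), inv_eq_one_div, div_le_div_iff₀ (by positivity) (by positivity)]
  have h2 : ‖D‖ * ‖D‖ ≤ L * ‖D‖ := mul_le_mul_of_nonneg_right hL h0.le
  nlinarith [mul_pos h0 h0]

theorem MW2_quot (D v b : V3) : |⟪b, nrm D - u v⟫ / kap D v| ≤ ‖b‖ * 2 * (2 * q v ^ 2) := by
  have h1 := kap_pos D v
  have h2 := kap_ge D v
  have h3 := q_pos v
  rw [abs_div, abs_of_pos h1, div_eq_mul_inv]
  refine mul_le_mul ((abs_real_inner_le_norm _ _).trans (mul_le_mul_of_nonneg_left ?_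
    (norm_nonneg _))) ((inv_le_comm₀ h1 (by positivity)).2 h2) (by positivity) (by positivity)
  linarith [norm_sub_le (nrm D) (u v), norm_nrm_le D, norm_u_lt v]

theorem line_norm {D : V3} (hD : D ≠ 0) (b : V3) :
    HasDerivAt (fun s : ℝ => ‖D + s • b‖) ⟪nrm D, b⟫ 0 := by
  have h1 : HasDerivAt (fun s : ℝ => D + s • b) b 0 := by
    simpa using ((hasDerivAt_id (0 : ℝ)).smul_const b).const_add D
  exact (cone_norm hD).comp_hasDerivAt_of_eq (0 : ℝ) h1 (by simp)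

theorem MW2_nrm {D : V3} (hD : D ≠ 0) (b : V3) :
    HasDerivAt (fun s : ℝ => nrm (D + s • b)) (‖D‖⁻¹ • (b - ⟪nrm D, b⟫ • nrm D)) 0 := by
  have h1 : HasDerivAt (fun s : ℝ => D + s • b) b 0 := by
    simpa using ((hasDerivAt_id (0 : ℝ)).smul_const b).const_add D
  have h0 := (norm_pos_iff.2 hD).ne'
  refine (((line_norm hD b).inv (by simpa using hD)).smul h1).congr_deriv ?_
  simp only [zero_smul, add_zero, Pi.inv_apply]
  generalize ⟪nrm D, b⟫ = c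
  rw [nrm, smul_sub, smul_smul, smul_smul, sub_eq_add_neg, ← neg_smul]
  congr 2
  field_simp

theorem Test.line (hψ : Test T ψ) (σ : ℝ) (y : V3) {D : V3} (hD : D ≠ 0) (b : V3) :
    HasDerivAt (fun s : ℝ => ψ (σ + ‖D + s • b‖, y + (D + s • b)))
      (fderiv ℝ ψ (σ + ‖D‖, y + D) (⟪nrm D, b⟫, b)) 0 := by
  have h1 : HasDerivAt (fun s : ℝ => D + s • b) b 0 := by
    simpa using ((hasDerivAt_id (0 : ℝ)).smul_const b).const_add D
  have h2 := ((line_norm hD b).const_add σ).prodMk (h1.const_add y)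
  exact (hψ.hasFDerivAt (σ + ‖D‖, y + D)).comp_hasDerivAt_of_eq (0 : ℝ) h2 (by simp)

/-- Integrability in `D` of a test function against a kernel of size `r⁻²`. -/
theorem Test.int_D (hψ : Test T ψ) (σ : ℝ) (y : V3) {k : V3 → ℝ} (hk : Measurable k)
    (hb : ∀ L, 1 ≤ L → ∃ C, ∀ D, D ≠ 0 → ‖D‖ ≤ L → |k D| ≤ C / ‖D‖ ^ 2) :
    Integrable fun D => ψ (σ + ‖D‖, y + D) * k D := by
  obtain ⟨ρ, C, hC, h1, h0⟩ := hψ.box
  obtain ⟨C', h2⟩ := hb (max 1 (T - σ)) (le_max_left _ _)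
  have hc : Continuous fun D : V3 => ψ (σ + ‖D‖, y + D) := hψ.continuous.comp (by fun_prop)
  refine int_sing (L := max 1 (T - σ)) (C := C * C') (hc.measurable.mul hk).aestronglyMeasurable
    (fun D hD => ?_) fun D hD hL => ?_
  · rw [(h0 _ fun h => ?_).1, zero_mul]
    have := h.1.2
    have := le_max_right 1 (T - σ)
    simp only at *
    linarith
  · rw [abs_mul, mul_div_assoc]
    exact mul_le_mul (h1 _).1 (h2 D hD hL) (abs_nonneg _) hC

theorem A_id (hψ : Test T ψ) (σ : ℝ) (y b : V3) :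
    Integrable (fun D => (4 * Real.pi * ‖D‖)⁻¹ * fderiv ℝ ψ (σ + ‖D‖, y + D) (⟪nrm D, b⟫, b)) ∧
    Integrable (fun D => ψ (σ + ‖D‖, y + D) * (⟪nrm D, b⟫ / (4 * Real.pi * ‖D‖ ^ 2))) ∧
    ∫ D, (4 * Real.pi * ‖D‖)⁻¹ * fderiv ℝ ψ (σ + ‖D‖, y + D) (⟪nrm D, b⟫, b) =
      ∫ D, ψ (σ + ‖D‖, y + D) * (⟪nrm D, b⟫ / (4 * Real.pi * ‖D‖ ^ 2)) := by
  have i1 : Integrable fun D : V3 => ψ (σ + ‖D‖, y + D) * (4 * Real.pi * ‖D‖)⁻¹ :=
    hψ.int_D σ y (by fun_prop) fun L _ => ⟨L, fun D hD hL => MW2_inv hD hL⟩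
  have hm : Measurable fun D : V3 => ⟪nrm D, b⟫ := measurable_nrm.inner measurable_const
  have hn : ∀ D : V3, |⟪nrm D, b⟫| ≤ ‖b‖ := fun D =>
    (abs_real_inner_le_norm _ _).trans (mul_le_of_le_one_left (norm_nonneg _) (norm_nrm_le D))
  have i2 : Integrable fun D : V3 =>
      ψ (σ + ‖D‖, y + D) * (⟪nrm D, b⟫ / (4 * Real.pi * ‖D‖ ^ 2)) := by
    refine hψ.int_D σ y (hm.div (by fun_prop)) fun L _ => ⟨‖b‖, fun D hD _ => ?_⟩
    have h0 := norm_pos_iff.2 hD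
    rw [abs_div, abs_of_pos (by positivity : 0 < 4 * Real.pi * ‖D‖ ^ 2)]
    refine div_le_div₀ (norm_nonneg _) (hn D) (by positivity) ?_
    exact le_mul_of_one_le_left (by positivity) (by linarith [Real.pi_gt_three])
  have i3 : Integrable fun D : V3 =>
      (4 * Real.pi * ‖D‖)⁻¹ * fderiv ℝ ψ (σ + ‖D‖, y + D) (⟪nrm D, b⟫, b) := by
    have j1 : Integrable fun D : V3 =>
        dT ψ (σ + ‖D‖, y + D) * ((4 * Real.pi * ‖D‖)⁻¹ * ⟪nrm D, b⟫) := by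
      refine hψ.dT.int_D σ y (Measurable.mul (by fun_prop) hm) fun L hL =>
        ⟨L * ‖b‖, fun D hD hL' => ?_⟩
      rw [abs_mul, mul_div_right_comm]
      exact mul_le_mul (MW2_inv hD hL') (hn D) (abs_nonneg _) (by positivity)
    have j2 : Integrable fun D : V3 =>
        fderiv ℝ ψ (σ + ‖D‖, y + D) (0, b) * (4 * Real.pi * ‖D‖)⁻¹ :=
      (hψ.dir (0, b)).int_D σ y (by fun_prop) fun L _ => ⟨L, fun D hD hL => MW2_inv hD hL⟩
    refine (j1.add j2).congr (Eventually.of_forall fun D => ?_)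
    simp only [Pi.add_apply, fderiv_pair]
    ring
  refine ⟨i3, i2, ?_⟩
  rw [← sub_eq_zero, ← integral_sub i3 i2]
  refine ibp0 b i1 fun D hD => ?_
  have h0 := (norm_pos_iff.2 hD).ne'
  have hp := Real.pi_ne_zero
  have h1 := ((line_norm hD b).const_mul (4 * Real.pi)).inv (by simpa using hD)
  refine ((hψ.line σ y hD b).mul h1).congr_deriv ?_
  simp only [zero_smul, add_zero, Pi.inv_apply]
  field_simp
  ring

theorem MW2_alg {r k q β γ p : ℝ} (hr : r ≠ 0) (hk : k ≠ 0) (hq : q ≠ 0) (hp : p ≠ 0) :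
    -(4 * p * (1 - k)) / (4 * p * r) ^ 2 * ((β - γ) / k) + (4 * p * r)⁻¹ *
      ((r⁻¹ * (γ - (1 - k) * β) * k - (β - γ) * -(r⁻¹ * (1 - (q ^ 2)⁻¹ - (1 - k) * (1 - k))))
        / k ^ 2) = β / (4 * p * r ^ 2) - (4 * p * q ^ 2 * k ^ 2 * r ^ 2)⁻¹ * (β - γ) := by
  field_simp
  ring

theorem MW2_ker {D : V3} (hD : D ≠ 0) (v b : V3) :
    HasDerivAt (fun s : ℝ => (4 * Real.pi * ‖D + s • u v‖)⁻¹ *
      (⟪b, nrm (D + s • u v) - u v⟫ / kap (D + s • u v) v))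
      (⟪nrm D, b⟫ / (4 * Real.pi * ‖D‖ ^ 2) - ⟪b, eT D v⟫) 0 := by
  have h0 := (norm_pos_iff.2 hD).ne'
  have hk0 := (kap_pos D v).ne'
  have e1 : ⟪u v, u v⟫ = 1 - (q v ^ 2)⁻¹ := by rw [real_inner_self_eq_norm_sq, norm_u_sq]
  have e2 : ⟪nrm D, u v⟫ = 1 - kap D v := by simp [kap]
  have h1 : HasDerivAt (fun s : ℝ => (4 * Real.pi * ‖D + s • u v‖)⁻¹)
      (-(4 * Real.pi * (1 - kap D v)) / (4 * Real.pi * ‖D‖) ^ 2) 0 := by
    refine (((line_norm hD (u v)).const_mul (4 * Real.pi)).inv (by simpa using hD)).congr_deriv ?_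
    simp only [zero_smul, add_zero, e2]
  have h2 := MW2_nrm hD (u v)
  have h3 : HasDerivAt (fun s : ℝ => ⟪b, nrm (D + s • u v) - u v⟫)
      (‖D‖⁻¹ * (⟪b, u v⟫ - (1 - kap D v) * ⟪b, nrm D⟫)) 0 := by
    refine ((hasDerivAt_const (0 : ℝ) b).inner ℝ (h2.sub_const (u v))).congr_deriv ?_
    simp only [inner_zero_left, add_zero, inner_smul_right, inner_sub_right, e2, sub_zero]
  have h4 : HasDerivAt (fun s : ℝ => kap (D + s • u v) v)
      (-(‖D‖⁻¹ * (1 - (q v ^ 2)⁻¹ - (1 - kap D v) * (1 - kap D v)))) 0 := by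
    refine ((h2.inner ℝ (hasDerivAt_const (0 : ℝ) (u v))).const_sub 1).congr_deriv ?_
    simp only [inner_zero_right, zero_add, real_inner_smul_left, inner_sub_left, e1, e2]
  refine (h1.mul (h3.div h4 (by simpa using hk0))).congr_deriv ?_
  simp only [zero_smul, add_zero, Pi.div_apply, eT, inner_smul_right, inner_sub_right,
    real_inner_comm b (nrm D)]
  exact MW2_alg h0 hk0 (q_pos v).ne' Real.pi_ne_zero

theorem MW2_int (hψ : Test T ψ) (σ : ℝ) (y v b : V3) : Integrable fun D : V3 =>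
    ψ (σ + ‖D‖, y + D) * ((4 * Real.pi * ‖D‖)⁻¹ * (⟪b, nrm D - u v⟫ / kap D v)) := by
  have hk : Measurable fun D => kap D v :=
    measurable_const.sub (measurable_nrm.inner measurable_const)
  have h1 : Measurable fun D : V3 => (4 * Real.pi * ‖D‖)⁻¹ := by fun_prop
  have h2 : Measurable fun D : V3 => ⟪b, nrm D - u v⟫ :=
    measurable_const.inner (measurable_nrm.sub measurable_const)
  refine hψ.int_D σ y (h1.mul (h2.div hk)) fun L hL =>
    ⟨L * (‖b‖ * 2 * (2 * q v ^ 2)), fun D hD hL' => ?_⟩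
  rw [abs_mul, mul_div_right_comm]
  exact mul_le_mul (MW2_inv hD hL') (MW2_quot D v b) (abs_nonneg _) (by positivity)

theorem MW2_abs {F1 F2 G : V3 → ℝ} (a1 : Integrable F1) (a2 : Integrable F2)
    (a3 : ∫ D, F1 D = ∫ D, F2 D) (h : ∫ D, (F2 D - F1 D - G D) = 0) : ∫ D, G D = 0 := by
  by_cases hi : Integrable G
  · have a4 : Integrable fun D => F2 D - F1 D := a2.sub a1
    rw [integral_sub a4 hi, integral_sub a2 a1, a3] at h
    linarith
  · exact integral_undef hi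

theorem T_id (hψ : Test T ψ) (σ : ℝ) (y v b : V3) :
    ∫ D, (ψ (σ + ‖D‖, y + D) * ⟪b, eT D v⟫ - (4 * Real.pi * ‖D‖)⁻¹ *
      (fderiv ℝ ψ (σ + ‖D‖, y + D) (⟪nrm D, b⟫, b) + ⟪b, nrm D - u v⟫ / kap D v *
        fderiv ℝ ψ (σ + ‖D‖, y + D) (⟪nrm D, u v⟫, u v))) = 0 := by
  obtain ⟨a1, a2, a3⟩ := A_id hψ σ y b
  have i1 := MW2_int hψ σ y v b
  refine MW2_abs a1 a2 a3 (ibp0 (u v) i1 fun D hD => ?_)
  refine ((hψ.line σ y hD (u v)).mul (MW2_ker hD v b)).congr_deriv ?_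
  simp only [zero_smul, add_zero]
  ring

end Vale.Agent.P107.MW
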