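import Vale.Agent.P107.MW2
import Vale.Agent.P107.MW1b

/-! BLOCK MX2, file MW3 (sub-lead helper85). Definitions in MWD.lean and Ctx.lean. Put the file name in front of helper lemma names.

Plan.
Write P = (σ + ‖D‖, y + D), n = nrm D, r = ‖D‖. (1) A_id for the test function dX k ψ and b = e3 k, k = 0, 1, 2 (fderiv_pair, inner_e3, Test.dT_dX):
∫ (4πr)⁻¹ (n_k dX k dT ψ + dX k dX k ψ) = ∫ dX k ψ n_k / (4πr²). (2) polar for h D = ‖D‖ * dT ψ P, h' = dT ψ P + r * fderiv (dT ψ) P (1, n) (line_norm, Test.line with b = n, ⟪n, n⟫ = 1), h 0 = 0.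
(3) polar for h D = ψ P, h' = fderiv ψ P (1, n). All single terms are integrable by Test.int_D (kernels (4πr)⁻¹, n_k (4πr)⁻¹, n_k / r², 1 / r²; measurable_nrm, |n_k| ≤ 1).
Then (2) / (4π) - Σ (1) - (3) / (4π) is the claim.
-/

namespace Vale.Agent.P107.MW

open MeasureTheory Set Filter Topology
open scoped ContDiff RealInnerProductSpace ENNReal

variable {f0 : Z → ℝ} {N P0 R T : ℝ} {A : Fld} {Φ Ψ : ℝ → Z → Z} {ψ : ℝ × V3 → ℝ}

theorem MW3_int (hψ : Test T ψ) (σ : ℝ) (y : V3) {k : V3 → ℝ} (hk : Measurable k)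
    (hb : ∀ L, 1 ≤ L → ∃ C, ∀ D, D ≠ 0 → ‖D‖ ≤ L → |k D| ≤ C / ‖D‖ ^ 2) :
    Integrable fun D => fderiv ℝ ψ (σ + ‖D‖, y + D) (1, nrm D) * k D := by
  have i0 := hψ.dT.int_D σ y hk hb
  have i1 : ∀ m, Integrable fun D => dX m ψ (σ + ‖D‖, y + D) * (nrm D m * k D) := fun m => by
    refine (hψ.dX m).int_D σ y (((EuclideanSpace.proj m : V3 →L[ℝ] ℝ).continuous.measurable.comp
      measurable_nrm).mul hk) fun L hL => ?_
    obtain ⟨C, hC⟩ := hb L hL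
    refine ⟨C, fun D a1 a2 => ?_⟩
    rw [abs_mul]
    exact (mul_le_of_le_one_left (abs_nonneg _)
      ((PiLp.norm_apply_le (nrm D) m).trans (norm_nrm_le D))).trans (hC D a1 a2)
  refine (i0.add (((i1 0).add (i1 1)).add (i1 2))).congr (Eventually.of_forall fun D => ?_)
  simp only [Pi.add_apply, fderiv_pair]
  ring

theorem MW3_line (hψ : Test T ψ) (σ : ℝ) (y : V3) {D : V3} (hD : D ≠ 0) :
    HasDerivAt (fun s : ℝ => ‖D + s • nrm D‖) 1 0 ∧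
    HasDerivAt (fun s : ℝ => ψ (σ + ‖D + s • nrm D‖, y + (D + s • nrm D)))
      (fderiv ℝ ψ (σ + ‖D‖, y + D) (1, nrm D)) 0 := by
  have e : ⟪nrm D, nrm D⟫ = 1 := by rw [real_inner_self_eq_norm_sq, norm_nrm hD, one_pow]
  exact ⟨e ▸ line_norm hD (nrm D), e ▸ hψ.line σ y hD (nrm D)⟩

theorem MW3_supp (hψ : Test T ψ) (σ : ℝ) (y D : V3) (h : T - σ + 1 ≤ ‖D‖) :
    ψ (σ + ‖D‖, y + D) = 0 := by
  obtain ⟨ρ, hρ⟩ := hψ.supp
  by_contra h1
  have h2 := (hρ _ h1).1.2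
  simp only at h2
  linarith

theorem MW3_R0 (hψ : Test T ψ) (σ : ℝ) (y : V3) :
    Integrable (fun D => fderiv ℝ ψ (σ + ‖D‖, y + D) (1, nrm D) / ‖D‖ ^ 2) ∧
    ∫ D, fderiv ℝ ψ (σ + ‖D‖, y + D) (1, nrm D) / ‖D‖ ^ 2 = -(4 * Real.pi) * ψ (σ, y) := by
  have i1 : Integrable fun D => fderiv ℝ ψ (σ + ‖D‖, y + D) (1, nrm D) / ‖D‖ ^ 2 :=
    MW3_int hψ σ y (k := fun D => (‖D‖ ^ 2)⁻¹) (by fun_prop) fun L _ => ⟨1, fun D _ _ => by
      rw [abs_of_nonneg (by positivity), one_div]⟩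
  have hc : Continuous fun D : V3 => ψ (σ + ‖D‖, y + D) := hψ.continuous.comp (by fun_prop)
  refine ⟨i1, ?_⟩
  simpa using polar hc (MW3_supp hψ σ y) i1 fun D hD => (MW3_line hψ σ y hD).2

theorem MW3_R1 (hψ : Test T ψ) (σ : ℝ) (y : V3) :
    Integrable (fun D => (ψ (σ + ‖D‖, y + D)
      + ‖D‖ * fderiv ℝ ψ (σ + ‖D‖, y + D) (1, nrm D)) / ‖D‖ ^ 2) ∧
    ∫ D, (ψ (σ + ‖D‖, y + D) + ‖D‖ * fderiv ℝ ψ (σ + ‖D‖, y + D) (1, nrm D)) / ‖D‖ ^ 2 = 0 := by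
  have i0 := hψ.int_D σ y (k := fun D => (‖D‖ ^ 2)⁻¹) (by fun_prop) fun L _ => ⟨1, fun D _ _ => by
    rw [abs_of_nonneg (by positivity), one_div]⟩
  have i1 := MW3_int hψ σ y (k := fun D => ‖D‖ / ‖D‖ ^ 2) (by fun_prop) fun L _ =>
    ⟨L, fun D _ h => by
      rw [abs_of_nonneg (by positivity)]
      gcongr⟩
  have i2 : Integrable fun D => (ψ (σ + ‖D‖, y + D)
      + ‖D‖ * fderiv ℝ ψ (σ + ‖D‖, y + D) (1, nrm D)) / ‖D‖ ^ 2 := by
    refine (i0.add i1).congr (Eventually.of_forall fun D => ?_)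
    simp only [Pi.add_apply]
    ring
  have hc : Continuous fun D : V3 => ‖D‖ * ψ (σ + ‖D‖, y + D) :=
    continuous_norm.mul (hψ.continuous.comp (by fun_prop))
  refine ⟨i2, ?_⟩
  have h := polar hc (fun D hD => by rw [MW3_supp hψ σ y D hD, mul_zero]) i2 fun D hD => by
    refine ((MW3_line hψ σ y hD).1.mul (MW3_line hψ σ y hD).2).congr_deriv ?_
    simp
  simpa using h

theorem MW3_abs {F c d : V3 → ℝ} {a b : Fin 3 → V3 → ℝ} {x κ : ℝ} (hc : Integrable c)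
    (hd : Integrable d) (ha : ∀ k, Integrable (a k)) (hb : ∀ k, Integrable (b k))
    (e1 : ∫ D, c D = x) (e2 : ∫ D, d D = 0) (e3 : ∀ k, ∫ D, a k D = ∫ D, b k D)
    (h : ∀ D, F D = κ * (d D - c D) + ((b 0 D - a 0 D) + (b 1 D - a 1 D) + (b 2 D - a 2 D))) :
    ∫ D, F D = -(κ * x) := by
  have i1 : ∀ k, Integrable fun D => b k D - a k D := fun k => (hb k).sub (ha k)
  have i2 : Integrable fun D => (b 0 D - a 0 D) + (b 1 D - a 1 D) := (i1 0).add (i1 1)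
  have i3 : Integrable fun D => (b 0 D - a 0 D) + (b 1 D - a 1 D) + (b 2 D - a 2 D) :=
    i2.add (i1 2)
  have i4 : Integrable fun D => κ * (d D - c D) := (hd.sub hc).const_mul κ
  simp only [h]
  rw [integral_add i4 i3, integral_add i2 (i1 2), integral_add (i1 0) (i1 1), integral_const_mul,
    integral_sub hd hc, integral_sub (hb 0) (ha 0), integral_sub (hb 1) (ha 1),
    integral_sub (hb 2) (ha 2), e1, e2, e3, e3, e3]
  ring

theorem box_id (hψ : Test T ψ) (σ : ℝ) (y : V3) :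
    ∫ D, (4 * Real.pi * ‖D‖)⁻¹ * (dT (dT ψ) (σ + ‖D‖, y + D) - (dX 0 (dX 0 ψ) (σ + ‖D‖, y + D)
      + dX 1 (dX 1 ψ) (σ + ‖D‖, y + D) + dX 2 (dX 2 ψ) (σ + ‖D‖, y + D))) = ψ (σ, y) := by
  obtain ⟨c1, c2⟩ := MW3_R0 hψ σ y
  obtain ⟨d1, d2⟩ := MW3_R1 hψ.dT σ y
  have a1 := fun k => A_id (hψ.dX k) σ y (e3 k)
  have hp := Real.pi_ne_zero
  refine (MW3_abs (κ := (4 * Real.pi)⁻¹) c1 d1 (fun k => (a1 k).1) (fun k => (a1 k).2.1) c2 d2
    (fun k => (a1 k).2.2) fun D => ?_).trans (by field_simp)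
  by_cases hD : D = 0
  · simp [hD]
  have h0 := (norm_pos_iff.2 hD).ne'
  have e : ∀ k, ⟪nrm D, e3 k⟫ = nrm D k := fun k => by rw [real_inner_comm, inner_e3]
  have e' : ∀ (χ : ℝ × V3 → ℝ) (p : ℝ × V3) (c : ℝ) (k : Fin 3),
      fderiv ℝ χ p (c, e3 k) = c * dT χ p + dX k χ p := fun χ p c k => by
    have : ((c, e3 k) : ℝ × V3) = c • ((1, 0) : ℝ × V3) + (0, e3 k) := by simp
    rw [this, map_add, map_smul]
    rfl
  simp only [e, e', hψ.dT_dX]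
  simp only [fderiv_pair]
  field_simp
  ring

end Vale.Agent.P107.MW
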