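import Vale.Agent.P107.MW1

/-! BLOCK MX2, file MW4 (sub-lead helper85). Definitions in MWD.lean and Ctx.lean. Put the file name in front of helper lemma names.

Plan.
zero1 with a = -‖D‖, b = T - ‖D‖ (Test.supp). The curve σ ↦ pt Φ (D, σ, z) has derivative (1, u w) (pos_deriv); cone_cont for continuity.
vel_deriv: for σ > 0 mom_deriv and hasDerivAt_u_comp give acc (unfold acc, Ap); for σ < 0 the momentum is locally constant (IsFlow.free) and acc_zero.
S_id: g σ = ψ (pt) * ((4 π ‖D‖)⁻¹ * (⟪b, n - u w⟫ / kap D w)), kap D w = 1 - ⟪n, u w⟫ ≠ 0 (kap_pos), quotient rule, unfold eS, inner_smul_right, inner_sub_right, field_simp, ring.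
-/

namespace Vale.Agent.P107.MW

open MeasureTheory Set Filter Topology
open scoped ContDiff RealInnerProductSpace ENNReal

variable {f0 : Z → ℝ} {N P0 R T : ℝ} {A : Fld} {Φ Ψ : ℝ → Z → Z} {ψ : ℝ × V3 → ℝ}

theorem vel_deriv (hF : IsFlow A Φ Ψ) (D : V3) (z : Z) {σ : ℝ} (hσ : σ ≠ 0) :
    HasDerivAt (fun s => u (mom Φ (D, s, z))) (acc (fld A Φ (D, σ, z)) (mom Φ (D, σ, z))) σ := by
  rcases hσ.lt_or_gt with h | h
  · have e : (fun s => u (mom Φ (D, s, z))) =ᶠ[𝓝 σ] fun _ => u z.2 := by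
      filter_upwards [Iio_mem_nhds h] with s hs
      simp only [mom, hF.free s (le_of_lt hs)]
    simp only [fld, Ap, if_neg h.not_ge, acc_zero]
    exact (hasDerivAt_const σ _).congr_of_eventuallyEq e
  · simp only [fld, Ap, if_pos h.le, mom, acc]
    exact hasDerivAt_u_comp (hF.mom_deriv h z)

theorem Test.flow_deriv (hψ : Test T ψ) (hF : IsFlow A Φ Ψ) (D : V3) (z : Z) (σ : ℝ) :
    HasDerivAt (fun s => ψ (pt Φ (D, s, z)))
      (fderiv ℝ ψ (pt Φ (D, σ, z)) (1, u (mom Φ (D, σ, z)))) σ := by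
  have h1 : HasDerivAt (fun s => pt Φ (D, s, z)) (1, u (mom Φ (D, σ, z))) σ :=
    ((hasDerivAt_id σ).add_const ‖D‖).prodMk ((hF.pos_deriv σ z).add_const D)
  exact (hψ.hasFDerivAt _).comp_hasDerivAt σ h1

theorem MW4_cont (hψ : Test T ψ) (hF : IsFlow A Φ Ψ) (D : V3) (z : Z) :
    Continuous fun s => ψ (pt Φ (D, s, z)) :=
  continuous_iff_continuousAt.2 fun s => (hψ.flow_deriv hF D z s).continuousAt

theorem MW4_supp (hψ : Test T ψ) (D : V3) (z : Z) (s : ℝ) (hs : s ∉ Icc (-‖D‖) (T - ‖D‖)) :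
    ψ (pt Φ (D, s, z)) = 0 := by
  obtain ⟨ρ, hρ⟩ := hψ.supp
  by_contra h
  obtain ⟨h1, h2⟩ := (hρ _ h).1
  simp only [pt] at h1 h2
  exact hs ⟨by linarith, by linarith⟩

theorem S0_id (hψ : Test T ψ) (hF : IsFlow A Φ Ψ) (D : V3) (z : Z) :
    ∫ σ, fderiv ℝ ψ (pt Φ (D, σ, z)) (1, u (mom Φ (D, σ, z))) = 0 := by
  exact zero1 (a := -‖D‖) (b := T - ‖D‖) (MW4_cont hψ hF D z) (MW4_supp hψ D z)
    fun s _ => hψ.flow_deriv hF D z s

theorem S_id (hψ : Test T ψ) (hF : IsFlow A Φ Ψ) {D : V3} (hD : D ≠ 0) (z : Z) (b : V3) :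
    ∫ σ, (ψ (pt Φ (D, σ, z)) * ⟪b, eS D (mom Φ (D, σ, z)) (fld A Φ (D, σ, z))⟫ +
      fderiv ℝ ψ (pt Φ (D, σ, z)) (1, u (mom Φ (D, σ, z))) * ((4 * Real.pi * ‖D‖)⁻¹ *
        (⟪b, nrm D - u (mom Φ (D, σ, z))⟫ / kap D (mom Φ (D, σ, z))))) = 0 := by
  have cu : Continuous fun s => u (mom Φ (D, s, z)) :=
    contDiff_u.continuous.comp (cone_cont hF z).snd
  have ck : Continuous fun s => kap D (mom Φ (D, s, z)) :=
    continuous_const.sub (continuous_const.inner cu)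
  refine zero1 (a := -‖D‖) (b := T - ‖D‖) (g := fun s => ψ (pt Φ (D, s, z)) *
    ((4 * Real.pi * ‖D‖)⁻¹ * (⟪b, nrm D - u (mom Φ (D, s, z))⟫ / kap D (mom Φ (D, s, z)))))
    ((MW4_cont hψ hF D z).mul (continuous_const.mul ((continuous_const.inner
      (continuous_const.sub cu)).div ck fun s => (kap_pos _ _).ne')))
    (fun s hs => by rw [MW4_supp hψ D z s hs, zero_mul]) fun s hs => ?_
  have h1 := vel_deriv hF D z hs
  have h2 : HasDerivAt (fun s => ⟪b, nrm D - u (mom Φ (D, s, z))⟫)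
      (-⟪b, acc (fld A Φ (D, s, z)) (mom Φ (D, s, z))⟫) s := by
    refine ((hasDerivAt_const s b).inner ℝ (h1.const_sub (nrm D))).congr_deriv ?_
    simp only [inner_zero_left, add_zero, inner_neg_right]
  have h3 : HasDerivAt (fun s => kap D (mom Φ (D, s, z)))
      (-⟪nrm D, acc (fld A Φ (D, s, z)) (mom Φ (D, s, z))⟫) s := by
    refine (((hasDerivAt_const s (nrm D)).inner ℝ h1).const_sub 1).congr_deriv ?_
    simp only [inner_zero_left, add_zero]
  have k0 := (kap_pos D (mom Φ (D, s, z))).ne'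
  have h0 := (norm_pos_iff.2 hD).ne'
  have hp := Real.pi_ne_zero
  refine ((hψ.flow_deriv hF D z s).mul ((h2.div h3 k0).const_mul _)).congr_deriv ?_
  rw [add_comm, eS, inner_smul_right, inner_sub_right b (_ • _), inner_smul_right, inner_smul_right]
  congr 2
  field_simp
  ring

end Vale.Agent.P107.MW
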