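import Vale.Agent.P107.MWD

/-! BLOCK MX2, file MW5 (sub-lead helper85). Definitions in MWD.lean and Ctx.lean. Put the file name in front of helper lemma names.

Plan.
mp_flow: MeasurePreserving.skew_product with id and hF.mp. mp_liou: compose with (measurePreserving_prodAssoc ..).symm. mp_theta: id × mp_flow, then the skew product over D of the
translation by (‖D‖, D, 0) on ℝ × Z (measurePreserving_add_right), then the permutation (D, t, x, w) ↦ ((t, x), D, w) from prodAssoc and swap (volume_eq_prod is rfl).
zeroT: integral_prod_symm. zeroS: integral_prod, for a.e. D (Integrable.prod_right_ae, D ≠ 0) integral_prod_symm.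
-/

namespace Vale.Agent.P107.MW

open MeasureTheory Set Filter Topology
open scoped ContDiff RealInnerProductSpace ENNReal

variable {f0 : Z → ℝ} {N P0 R T : ℝ} {A : Fld} {Φ Ψ : ℝ → Z → Z} {ψ : ℝ × V3 → ℝ}

theorem continuous_pt (hF : IsFlow A Φ Ψ) : Continuous (pt Φ) := by
  have h : Continuous fun o : Om => Φ o.2.1 o.2.2 := hF.contΦ.comp continuous_snd
  exact (continuous_snd.fst.add continuous_fst.norm).prodMk (h.fst.add continuous_fst)

theorem continuous_mom (hF : IsFlow A Φ Ψ) : Continuous (mom Φ) := by
  exact (hF.contΦ.comp continuous_snd).snd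

theorem measurable_Ap (hA : App A R) : Measurable (Ap A) := by
  exact Measurable.ite (measurableSet_le measurable_const measurable_fst)
    hA.continuous.measurable measurable_const

theorem measurable_fld (hA : App A R) (hF : IsFlow A Φ Ψ) : Measurable (fld A Φ) := by
  have h : Continuous fun o : Om => ((o.2.1, (Φ o.2.1 o.2.2).1) : ℝ × V3) :=
    continuous_snd.fst.prodMk (hF.contΦ.comp continuous_snd).fst
  exact (measurable_Ap hA).comp h.measurable

theorem norm_Ap_le (hA : App A R) (p : ℝ × V3) : ‖Ap A p‖ ≤ R := by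
  unfold Ap
  split_ifs
  · exact hA.bdd p
  · simpa using hA.nonneg

theorem mp_flow (hF : IsFlow A Φ Ψ) :
    MeasurePreserving (fun s : ℝ × Z => ((s.1, Φ s.1 s.2) : ℝ × Z)) volume volume := by
  exact (MeasurePreserving.id volume).skew_product (g := Φ) hF.contΦ.measurable
    (Eventually.of_forall fun t => (hF.mp t).map_eq)

theorem mp_liou (hF : IsFlow A Φ Ψ) :
    MeasurePreserving (fun s : ℝ × Z => (((s.1, (Φ s.1 s.2).1), (Φ s.1 s.2).2) : (ℝ × V3) × V3))
      volume volume := by
  exact ((measurePreserving_prodAssoc (volume : Measure ℝ) (volume : Measure V3)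
    (volume : Measure V3)).symm _).comp (mp_flow hF)

theorem mp_theta (hF : IsFlow A Φ Ψ) :
    MeasurePreserving (fun o : Om => ((pt Φ o, (o.1, mom Φ o)) : (ℝ × V3) × Z)) volume volume := by
  have : (volume : Measure Z).IsAddRightInvariant :=
    inferInstanceAs ((volume : Measure V3).prod (volume : Measure V3)).IsAddRightInvariant
  have : MeasurableAdd Z := ContinuousAdd.measurableAdd
  have : (volume : Measure (ℝ × Z)).IsAddRightInvariant :=
    Measure.prod.instIsAddRightInvariant (μ := (volume : Measure ℝ)) (ν := (volume : Measure Z))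
  have h1 : MeasurePreserving (fun o : Om => ((o.1, (o.2.1, Φ o.2.1 o.2.2)) : Om)) volume volume :=
    (MeasurePreserving.id (volume : Measure V3)).prod (mp_flow hF)
  have h2 : MeasurePreserving (fun o : Om => ((o.1, o.2 + (‖o.1‖, (o.1, 0))) : Om)) volume volume :=
    (MeasurePreserving.id (volume : Measure V3)).skew_product
      (g := fun (D : V3) (s : ℝ × Z) => s + (‖D‖, (D, 0))) (by unfold Function.uncurry; fun_prop)
      (Eventually.of_forall fun D => (measurePreserving_add_right volume _).map_eq)
  have h3 : MeasurePreserving (fun o : Om => ((o.1, ((o.2.1, o.2.2.1), o.2.2.2)) :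
      V3 × ((ℝ × V3) × V3))) volume volume :=
    (MeasurePreserving.id (volume : Measure V3)).prod ((measurePreserving_prodAssoc
      (volume : Measure ℝ) (volume : Measure V3) (volume : Measure V3)).symm _)
  have h4 : MeasurePreserving (fun o : V3 × ((ℝ × V3) × V3) => (((o.1, o.2.1), o.2.2) :
      (V3 × (ℝ × V3)) × V3)) volume volume :=
    (measurePreserving_prodAssoc (volume : Measure V3) (volume : Measure (ℝ × V3))
      (volume : Measure V3)).symm _
  have h5 : MeasurePreserving (fun o : (V3 × (ℝ × V3)) × V3 => (((o.1.2, o.1.1), o.2) :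
      ((ℝ × V3) × V3) × V3)) volume volume :=
    (Measure.measurePreserving_swap (μ := (volume : Measure V3))
      (ν := (volume : Measure (ℝ × V3)))).prod (MeasurePreserving.id (volume : Measure V3))
  have h6 : MeasurePreserving (fun o : ((ℝ × V3) × V3) × V3 => ((o.1.1, (o.1.2, o.2)) :
      (ℝ × V3) × Z)) volume volume :=
    measurePreserving_prodAssoc (volume : Measure (ℝ × V3)) (volume : Measure V3)
      (volume : Measure V3)
  have h7 := h6.comp (h5.comp (h4.comp (h3.comp (h2.comp h1))))
  have e : (fun o : Om => ((pt Φ o, (o.1, mom Φ o)) : (ℝ × V3) × Z)) = fun o : Om =>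
      ((o.2.1 + ‖o.1‖, (Φ o.2.1 o.2.2).1 + o.1), (o.1, (Φ o.2.1 o.2.2).2 + 0)) := by
    funext o
    simp only [pt, mom, add_zero]
  rw [e]
  exact h7

theorem zeroT {g : Om → ℝ} (hg : Integrable g) (h : ∀ s : ℝ × Z, ∫ D, g (D, s) = 0) :
    ∫ o, g o = 0 := by
  rw [Measure.volume_eq_prod] at hg ⊢
  rw [integral_prod_symm _ hg]
  simp only [h, integral_zero]

theorem zeroS {g : Om → ℝ} (hg : Integrable g)
    (h : ∀ D, D ≠ 0 → ∀ z, ∫ σ, g (D, σ, z) = 0) : ∫ o, g o = 0 := by
  rw [Measure.volume_eq_prod] at hg ⊢
  rw [integral_prod _ hg]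
  refine integral_eq_zero_of_ae ?_
  have hae : ∀ᵐ D : V3, D ≠ 0 := compl_mem_ae_iff.2 (measure_singleton 0)
  filter_upwards [hae, hg.prod_right_ae] with D h1 h2
  rw [Measure.volume_eq_prod] at h2 ⊢
  rw [integral_prod_symm _ h2]
  simp only [h D h1, integral_zero, Pi.zero_apply]

end Vale.Agent.P107.MW
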