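import Vale.Agent.P107.MW5
import Vale.Agent.P107.MW1

/-! BLOCK MX2, file MW5b (sub-lead helper85). Definitions in MWD.lean and Ctx.lean. Put the file name in front of helper lemma names.

Plan.
rg_bound: (D, σ, z) with y = (Φ σ z).1. σ ≤ T. q (mom) ≤ P0 + 2 R max σ 0 (dens_supp with dens_flow, or q_sub_le and mom_sub_le). If σ ≤ 0: y = z.1 + σ • u z.2 (free), ‖u z.2‖ ≤ 1 - (2 P0²)⁻¹
(norm_u_le_of_q_le), -σ ≤ ‖D‖ ≤ ρ + ‖y‖ ≤ ρ + P0 + |σ| (1 - (2 P0²)⁻¹), so |σ| ≤ 2 P0² (|ρ| + P0). Finally ‖D‖ ≤ T - σ.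
int_master: Integrable.mono' against (indicator {‖D‖ ≤ L} (N C' |C| / ‖D‖²)) * (indicator of the compact box Icc (-L) L ×ˢ closedBall 0 P0) (Integrable.mul_prod or prod_mul, int_sing);
{o | o.1 = 0} is null (Measure.ae_prod_iff or measure_prod_null). int_master1: fderiv_pair and four times int_master. int_g0: k o = (4 π ‖D‖)⁻¹ * c (mom), (4 π r)⁻¹ ≤ L / r².
-/

namespace Vale.Agent.P107.MW

open MeasureTheory Set Filter Topology
open scoped ContDiff RealInnerProductSpace ENNReal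

variable {f0 : Z → ℝ} {N P0 R T : ℝ} {A : Fld} {Φ Ψ : ℝ → Z → Z} {ψ : ℝ × V3 → ℝ}

theorem rg_bound (hI : Init f0 N P0) (hA : App A R) (hF : IsFlow A Φ Ψ) (T ρ : ℝ) :
    ∃ L, 1 ≤ L ∧ ∀ o : Om, f0 o.2.2 ≠ 0 → (pt Φ o).1 ∈ Icc 0 T → ‖(pt Φ o).2‖ ≤ ρ →
      ‖o.1‖ ≤ L ∧ |o.2.1| ≤ L ∧ q (mom Φ o) ≤ L := by
  have hR := hA.nonneg
  have hP := hI.one_le_P0
  have hT := abs_nonneg T
  have hS : 0 ≤ 2 * P0 ^ 2 * (|ρ| + P0) := by positivity
  have hRT : 0 ≤ 2 * R * |T| := by positivity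
  refine ⟨1 + P0 + 2 * R * |T| + |T| + 2 * P0 ^ 2 * (|ρ| + P0), by linarith, ?_⟩
  rintro ⟨D, σ, z⟩ h0 ⟨h1, h2⟩ h3
  simp only [pt, mom] at h0 h1 h2 h3 ⊢
  have hD := norm_nonneg D
  have h4 : σ ≤ |T| := by linarith [le_abs_self T]
  have h5 : -σ ≤ 2 * P0 ^ 2 * (|ρ| + P0) := by
    rcases le_total 0 σ with hσ | hσ
    · linarith
    · obtain ⟨a1, a2⟩ := hI.supp z h0
      have a3 := norm_u_le_of_q_le a2
      rw [hF.free σ hσ] at h3
      have a4 := norm_sub_le (z.1 + σ • u z.2 + D) (z.1 + σ • u z.2)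
      have a5 := norm_add_le z.1 (σ • u z.2)
      rw [add_sub_cancel_left] at a4
      rw [norm_smul, Real.norm_of_nonpos hσ] at a5
      have a6 := mul_le_mul_of_nonneg_left a3 (neg_nonneg.2 hσ)
      rw [← inv_mul_le_iff₀ (by positivity)]
      simp only at h3
      linarith [le_abs_self ρ]
  have h6 := (hF.dens_supp hI hA (t := σ) (z := Φ σ z) (by rwa [hF.dens_flow])).2
  have h7 := mul_le_mul_of_nonneg_left (max_le h4 hT) (mul_nonneg zero_le_two hR)
  exact ⟨by linarith [le_abs_self T], abs_le.2 ⟨by linarith, by linarith⟩, by linarith⟩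

theorem int_master (hI : Init f0 N P0) (hA : App A R) (hF : IsFlow A Φ Ψ) (hψ : Test T ψ)
    {W : Type} [NormedAddCommGroup W] [NormedSpace ℝ W] {k : Om → W}
    (hk : AEStronglyMeasurable k volume)
    (hb : ∀ L, 1 ≤ L → ∃ C, ∀ o : Om, o.1 ≠ 0 → ‖o.1‖ ≤ L → q (mom Φ o) ≤ L →
      ‖k o‖ ≤ C / ‖o.1‖ ^ 2) :
    Integrable fun o : Om => (f0 o.2.2 * ψ (pt Φ o)) • k o := by
  obtain ⟨ρ, C, hC, h1, h0⟩ := hψ.box
  obtain ⟨L, hL, h2⟩ := rg_bound hI hA hF T ρ
  obtain ⟨C', h3⟩ := hb L hL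
  have hN : 0 ≤ N := zero_le_one.trans hI.one_le_N
  have i1 : Integrable fun D : V3 =>
      (Metric.closedBall (0 : V3) L).indicator (fun D => N * C * |C'| / ‖D‖ ^ 2) D := by
    refine int_sing (L := L) (C := N * C * |C'|)
      (Measurable.indicator (by fun_prop) measurableSet_closedBall).aestronglyMeasurable
      (fun D hD => indicator_of_notMem (by simpa using hD) _) fun D _ hD => ?_
    rw [indicator_of_mem (mem_closedBall_zero_iff.2 hD), abs_of_nonneg (by positivity)]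
  have hK : IsCompact (Icc (-L) L ×ˢ Metric.closedBall (0 : Z) P0) :=
    isCompact_Icc.prod (isCompact_closedBall _ _)
  have i2 : Integrable fun s : ℝ × Z =>
      (Icc (-L) L ×ˢ Metric.closedBall (0 : Z) P0).indicator (fun _ => (1 : ℝ)) s :=
    (integrableOn_const hK.measure_lt_top.ne).integrable_indicator hK.measurableSet
  have c1 : Continuous fun o : Om => f0 o.2.2 * ψ (pt Φ o) :=
    (hI.smooth.continuous.comp (by fun_prop)).mul (hψ.continuous.comp (continuous_pt hF))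
  refine Integrable.mono' (i1.mul_prod i2) (c1.aestronglyMeasurable.smul hk) ?_
  have hae : ∀ᵐ D : V3, D ≠ 0 := compl_mem_ae_iff.2 (measure_singleton 0)
  filter_upwards [Measure.quasiMeasurePreserving_fst.ae hae] with o ho
  by_cases h4 : f0 o.2.2 * ψ (pt Φ o) = 0
  · rw [h4, zero_smul, norm_zero]
    exact mul_nonneg (indicator_nonneg (fun _ _ => by positivity) _)
      (indicator_nonneg (fun _ _ => zero_le_one) _)
  have h5 : (pt Φ o).1 ∈ Icc 0 T ∧ ‖(pt Φ o).2‖ ≤ ρ := by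
    by_contra h5
    exact right_ne_zero_of_mul h4 (h0 _ h5).1
  obtain ⟨a1, a2, a3⟩ := h2 o (left_ne_zero_of_mul h4) h5.1 h5.2
  obtain ⟨b1, b2⟩ := hI.supp _ (left_ne_zero_of_mul h4)
  have b3 : o.2 ∈ Icc (-L) L ×ˢ Metric.closedBall (0 : Z) P0 :=
    ⟨abs_le.1 a2, mem_closedBall_zero_iff.2 (max_le b1 ((norm_le_q _).trans b2))⟩
  rw [indicator_of_mem (mem_closedBall_zero_iff.2 a1), indicator_of_mem b3, mul_one, norm_smul,
    norm_mul, Real.norm_of_nonneg (hI.nonneg _), mul_div_assoc]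
  refine mul_le_mul (mul_le_mul (hI.le _) (h1 _).1 (norm_nonneg _) hN)
    ((h3 o ho a1 a3).trans ?_) (norm_nonneg _) (by positivity)
  gcongr
  exact le_abs_self _

theorem int_master1 (hI : Init f0 N P0) (hA : App A R) (hF : IsFlow A Φ Ψ) (hψ : Test T ψ)
    {k : Om → ℝ} (hk : AEStronglyMeasurable k volume)
    (hb : ∀ L, 1 ≤ L → ∃ C, ∀ o : Om, o.1 ≠ 0 → ‖o.1‖ ≤ L → q (mom Φ o) ≤ L →
      ‖k o‖ ≤ C / ‖o.1‖ ^ 2) :
    Integrable fun o : Om => f0 o.2.2 * (fderiv ℝ ψ (pt Φ o) (1, u (mom Φ o)) * k o) := by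
  have i0 := int_master hI hA hF hψ.dT hk hb
  have i1 : ∀ m, Integrable fun o : Om =>
      (f0 o.2.2 * dX m ψ (pt Φ o)) • (cu m (mom Φ o) * k o) := fun m => by
    refine int_master hI hA hF (hψ.dX m)
      (((continuous_cu m).comp (continuous_mom hF)).aestronglyMeasurable.mul hk) fun L hL => ?_
    obtain ⟨C, hC⟩ := hb L hL
    refine ⟨C, fun o a1 a2 a3 => ?_⟩
    rw [norm_mul]
    exact (mul_le_of_le_one_left (norm_nonneg _) (abs_cu_le m _)).trans (hC o a1 a2 a3)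
  refine (i0.add (((i1 0).add (i1 1)).add (i1 2))).congr (Eventually.of_forall fun o => ?_)
  simp only [Pi.add_apply, smul_eq_mul, fderiv_pair, cu]
  ring

theorem int_g0 (hI : Init f0 N P0) (hA : App A R) (hF : IsFlow A Φ Ψ) (hψ : Test T ψ)
    {c : V3 → ℝ} (hc : Continuous c) (hc1 : ∀ v, |c v| ≤ 1) : Integrable (g0 f0 Φ c ψ) := by
  have m1 : Measurable fun o : Om => (4 * Real.pi * ‖o.1‖)⁻¹ := by fun_prop
  have m2 : Measurable fun o : Om => (4 * Real.pi * ‖o.1‖)⁻¹ * c (mom Φ o) :=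
    m1.mul (hc.comp (continuous_mom hF)).measurable
  refine (int_master hI hA hF hψ m2.aestronglyMeasurable fun L hL =>
    ⟨L, fun o a1 a2 _ => ?_⟩).congr (Eventually.of_forall fun o => ?_)
  · have h0 := norm_pos_iff.2 a1
    have h1 := Real.pi_gt_three
    rw [norm_mul]
    refine (mul_le_of_le_one_right (norm_nonneg _) (hc1 _)).trans ?_
    rw [Real.norm_of_nonneg (by positivity), inv_eq_one_div,
      div_le_div_iff₀ (by positivity) (by positivity)]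
    have h2 : ‖o.1‖ * ‖o.1‖ ≤ L * ‖o.1‖ := mul_le_mul_of_nonneg_right a2 h0.le
    nlinarith [mul_pos h0 h0]
  · simp only [g0, smul_eq_mul]
    ring

end Vale.Agent.P107.MW
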