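import Vale.Agent.P107.MW5b

/-! BLOCK MX2, file MW6 (sub-lead helper85). Definitions in MWD.lean and Ctx.lean. Put the file name in front of helper lemma names.

Plan.
H (p, w) = ψ p • dens (p.1 - ‖w.1‖) (p.2 - w.1, w.2) • ker w.1 w.2 (Ap A (p.1 - ‖w.1‖, p.2 - w.1)) is measurable (measurable_ker, measurable_Ap, continuous_dens) and H ∘ θ (θ from mp_theta)
is (f0 z * ψ (pt)) • ker D mom fld (dens_flow), integrable by int_master (norm_ker_le, norm_Ap_le). So H is integrable (MeasurePreserving.integrable_comp), ∫ H = ∫ H ∘ θ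
(integral_map with map_eq), ∫ H = ∫ p, ∫ w (integral_prod). For a.e. p the slice is integrable; if ψ p ≠ 0 the inner function without ψ is integrable, and its integral is ret p:
integral_add_compl for the set {‖w.1‖ ≤ p.1}, setIntegral_congr_fun, IsFlow.free' on the complement. Apply l (ContinuousLinearMap.integral_comp_comm).
-/

namespace Vale.Agent.P107.MW

open MeasureTheory Set Filter Topology
open scoped ContDiff RealInnerProductSpace ENNReal

variable {f0 : Z → ℝ} {N P0 R T : ℝ} {A : Fld} {Φ Ψ : ℝ → Z → Z} {ψ : ℝ × V3 → ℝ}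

/-- The integrand of the retarded field. -/
noncomputable def inr (f0 : Z → ℝ) (Ψ : ℝ → Z → Z) (A : Fld) (x : (ℝ × V3) × Z) : V3 × V3 :=
  dens f0 Ψ (x.1.1 - ‖x.2.1‖) (x.1.2 - x.2.1, x.2.2) •
    ker x.2.1 x.2.2 (Ap A (x.1.1 - ‖x.2.1‖, x.1.2 - x.2.1))

theorem MW6_meas (hI : Init f0 N P0) (hA : App A R) (hF : IsFlow A Φ Ψ) :
    Measurable (inr f0 Ψ A) := by
  have h1 := (hF.continuous_dens hI).comp (f := fun x : (ℝ × V3) × Z =>
    ((x.1.1 - ‖x.2.1‖, (x.1.2 - x.2.1, x.2.2)) : ℝ × Z)) (by fun_prop)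
  have h2 := (measurable_Ap hA).comp (f := fun x : (ℝ × V3) × Z =>
    ((x.1.1 - ‖x.2.1‖, x.1.2 - x.2.1) : ℝ × V3)) (by fun_prop)
  have h3 := measurable_ker.comp (measurable_snd.prodMk h2)
  exact h1.measurable.smul h3

theorem MW6_ret (hF : IsFlow A Φ Ψ) (p : ℝ × V3) (h : Integrable fun w => inr f0 Ψ A (p, w)) :
    ∫ w, inr f0 Ψ A (p, w) = ret f0 Ψ A p := by
  have hs : MeasurableSet {w : Z | ‖w.1‖ ≤ p.1} :=
    (isClosed_le (by fun_prop) continuous_const).measurableSet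
  have hc : {w : Z | ‖w.1‖ ≤ p.1}ᶜ = {w : Z | p.1 < ‖w.1‖} := by ext w; simp
  rw [← integral_add_compl hs h, ret, add_comm, farF, intF, ← hc]
  congr 1
  · refine setIntegral_congr_fun hs.compl fun w hw => ?_
    have h1 : p.1 - ‖w.1‖ < 0 := sub_neg.2 (not_le.1 hw)
    simp only [inr, dens, Ap, hF.free' h1.le, if_neg h1.not_ge]
  · refine setIntegral_congr_fun hs fun w hw => ?_
    have h1 : 0 ≤ p.1 - ‖w.1‖ := sub_nonneg.2 hw
    simp only [inr, Ap, if_pos h1]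

theorem MW6_theta (hF : IsFlow A Φ Ψ) (o : Om) : inr f0 Ψ A (pt Φ o, (o.1, mom Φ o)) =
    f0 o.2.2 • ker o.1 (mom Φ o) (fld A Φ o) := by
  simp only [inr, pt, mom, fld, add_sub_cancel_right, hF.dens_flow]

theorem MW6_int (hI : Init f0 N P0) (hA : App A R) (hF : IsFlow A Φ Ψ) (hψ : Test T ψ) :
    Integrable fun o : Om => (f0 o.2.2 * ψ (pt Φ o)) • ker o.1 (mom Φ o) (fld A Φ o) := by
  have hm : Measurable fun o : Om => ((o.1, mom Φ o) : Z) :=
    measurable_fst.prodMk (continuous_mom hF).measurable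
  have h1 := measurable_ker.comp (hm.prodMk (measurable_fld hA hF))
  refine int_master hI hA hF hψ h1.aestronglyMeasurable fun L hL =>
    ⟨L ^ 2 + 8 * L ^ 4 * R * L, fun o a1 a2 a3 => (norm_ker_le _ _ _).trans ?_⟩
  have h0 := norm_pos_iff.2 a1
  have h2 := q_pos (mom Φ o)
  have h3 : ‖fld A Φ o‖ ≤ R := norm_Ap_le hA _
  have h4 := hA.nonneg
  have e : 8 * q (mom Φ o) ^ 4 * ‖fld A Φ o‖ / ‖o.1‖ =
      8 * q (mom Φ o) ^ 4 * ‖fld A Φ o‖ * ‖o.1‖ / ‖o.1‖ ^ 2 := by field_simp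
  simp only [e, add_div]
  gcongr

theorem pair_ret (hI : Init f0 N P0) (hA : App A R) (hF : IsFlow A Φ Ψ) (hψ : Test T ψ)
    (l : (V3 × V3) →L[ℝ] ℝ) :
    Integrable (fun o : Om => f0 o.2.2 * ψ (pt Φ o) * l (ker o.1 (mom Φ o) (fld A Φ o))) ∧
    ∫ p, ψ p * l (ret f0 Ψ A p) =
      ∫ o : Om, f0 o.2.2 * ψ (pt Φ o) * l (ker o.1 (mom Φ o) (fld A Φ o)) := by
  have i1 := MW6_int hI hA hF hψ
  have i2 : Integrable fun o : Om =>
      f0 o.2.2 * ψ (pt Φ o) * l (ker o.1 (mom Φ o) (fld A Φ o)) := by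
    simpa only [map_smul, smul_eq_mul] using l.integrable_comp i1
  refine ⟨i2, ?_⟩
  have hm : AEStronglyMeasurable (fun x : (ℝ × V3) × Z => ψ x.1 • inr f0 Ψ A x) volume :=
    ((hψ.continuous.comp continuous_fst).measurable.smul (MW6_meas hI hA hF)).aestronglyMeasurable
  have e : ∀ o : Om, ψ (pt Φ o) • inr f0 Ψ A (pt Φ o, (o.1, mom Φ o)) =
      (f0 o.2.2 * ψ (pt Φ o)) • ker o.1 (mom Φ o) (fld A Φ o) := fun o => by
    rw [MW6_theta hF, smul_smul, mul_comm]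
  have i3 : Integrable (fun x : (ℝ × V3) × Z => ψ x.1 • inr f0 Ψ A x) (volume.prod volume) :=
    ((mp_theta hF).integrable_comp hm).1 (i1.congr (Eventually.of_forall fun o => (e o).symm))
  have i4 := l.integrable_comp i3
  have h1 : ∫ o : Om, l (ψ (pt Φ o) • inr f0 Ψ A (pt Φ o, (o.1, mom Φ o))) =
      ∫ x : (ℝ × V3) × Z, l (ψ x.1 • inr f0 Ψ A x) := by
    have h := mp_theta hF
    rw [← h.map_eq, integral_map h.measurable.aemeasurable (h.map_eq.symm ▸ i4.1)]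
  simp only [e, map_smul, smul_eq_mul] at h1 i4
  rw [h1, Measure.volume_eq_prod (ℝ × V3) Z, integral_prod _ i4]
  refine integral_congr_ae ?_
  filter_upwards [i3.prod_right_ae] with p hp
  by_cases h0 : ψ p = 0
  · simp [h0]
  · have h2 : Integrable fun w => inr f0 Ψ A (p, w) := (integrable_smul_iff h0 _).1 hp
    rw [integral_const_mul, l.integral_comp_comm h2, MW6_ret hF p h2]

end Vale.Agent.P107.MW
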