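import Vale.Agent.P107.MW6
import Vale.Agent.P107.MW4
import Vale.Agent.P107.MW2

/-! BLOCK MX2, file MW7 (sub-lead helper85). Definitions in MWD.lean and Ctx.lean. Put the file name in front of helper lemma names.

Plan.
KS: zeroS for g0 c1 (dT ψ) + Σ g0 (cu k) (dX k ψ) = f0 z * (4πr)⁻¹ * fderiv ψ pt (1, W) (fderiv_pair, int_g0, S0_id, integral_const_mul).
S_int: zeroS with S_id; integrable by int_master (norm_eS_le) and int_master1 (kap_ge, ‖n - W‖ ≤ 2); measurability from measurable_ker (eS = (ker F - ker 0).1 by ker_sub) or directly.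
KE: l = (proj k).comp fst in pair_ret. Let G = LHS integrand - (g0 c1 (dX k ψ) + g0 (cu k) (dT ψ)) - (S integrand with b = e3 k). G is integrable and pointwise equal to f0 z times the integrand of
T_id with b = e3 k (fderiv_pair on both sides: fderiv (⟪n, W⟫, W) - fderiv (1, W) = - kap * dT; kap ≠ 0), so zeroT.
KB: the same with T_id for b = cross (e3 i) W and S_int for b D = cross (e3 i) (nrm D): ⟪e × W, a⟫ = ⟪e × n, a⟫ for a = n - W, ⟪e × W, eT⟫ = (n × eT) i, ⟪e × n, eS⟫ = (n × eS) i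
(coordinates: Cyc.cross, or inner_cross_cyc, cross_self).
-/

namespace Vale.Agent.P107.MW

open MeasureTheory Set Filter Topology
open scoped ContDiff RealInnerProductSpace ENNReal

variable {f0 : Z → ℝ} {N P0 R T : ℝ} {A : Fld} {Φ Ψ : ℝ → Z → Z} {ψ : ℝ × V3 → ℝ}

theorem KS (hI : Init f0 N P0) (hA : App A R) (hF : IsFlow A Φ Ψ) (hψ : Test T ψ) :
    I0 f0 Φ c1 (dT ψ) + (I0 f0 Φ (cu 0) (dX 0 ψ) + I0 f0 Φ (cu 1) (dX 1 ψ)
      + I0 f0 Φ (cu 2) (dX 2 ψ)) = 0 := by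
  have i0 := int_g0 hI hA hF hψ.dT (c := c1) continuous_const abs_c1_le
  have i1 := fun k => int_g0 hI hA hF (hψ.dX k) (continuous_cu k) (abs_cu_le k)
  have j1 : Integrable fun o => g0 f0 Φ (cu 0) (dX 0 ψ) o + g0 f0 Φ (cu 1) (dX 1 ψ) o :=
    (i1 0).add (i1 1)
  have j2 : Integrable fun o => g0 f0 Φ (cu 0) (dX 0 ψ) o + g0 f0 Φ (cu 1) (dX 1 ψ) o
      + g0 f0 Φ (cu 2) (dX 2 ψ) o := j1.add (i1 2)
  unfold I0
  rw [← integral_add (i1 0) (i1 1), ← integral_add j1 (i1 2), ← integral_add i0 j2]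
  refine zeroS (i0.add j2) fun D _ z => ?_
  have h := S0_id hψ hF D z
  have e : ∀ σ : ℝ, g0 f0 Φ c1 (dT ψ) (D, σ, z) + (g0 f0 Φ (cu 0) (dX 0 ψ) (D, σ, z)
      + g0 f0 Φ (cu 1) (dX 1 ψ) (D, σ, z) + g0 f0 Φ (cu 2) (dX 2 ψ) (D, σ, z)) =
      f0 z * (4 * Real.pi * ‖D‖)⁻¹ * fderiv ℝ ψ (pt Φ (D, σ, z)) (1, u (mom Φ (D, σ, z))) := by
    intro σ
    simp only [g0, c1, cu, fderiv_pair]
    ring
  simp only [e]
  rw [integral_const_mul, h, mul_zero]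

theorem MW7_meS (hA : App A R) (hF : IsFlow A Φ Ψ) :
    Measurable fun o : Om => eS o.1 (mom Φ o) (fld A Φ o) := by
  have hm : Measurable fun o : Om => ((o.1, mom Φ o) : Z) :=
    measurable_fst.prodMk (continuous_mom hF).measurable
  have h1 := measurable_ker.comp (hm.prodMk (measurable_fld hA hF))
  have h2 := measurable_ker.comp (hm.prodMk (measurable_const (a := (0 : V3 × V3))))
  have h3 := (h1.sub h2).fst
  simpa only [Pi.sub_apply, Function.comp_apply, ker_sub, sub_zero] using h3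

theorem MW7_beS {b D v : V3} {F : V3 × V3} {L : ℝ} (hb : ‖b‖ ≤ 1) (h0 : D ≠ 0) (h1 : ‖D‖ ≤ L)
    (h2 : q v ≤ L) (h3 : ‖F‖ ≤ R) : ‖⟪b, eS D v F⟫‖ ≤ 8 * L ^ 4 * R * L / ‖D‖ ^ 2 := by
  have h4 := norm_pos_iff.2 h0
  have h5 := q_pos v
  have h6 : 0 ≤ R := (norm_nonneg _).trans h3
  have h7 : 0 ≤ L := h4.le.trans h1
  refine (norm_inner_le_norm _ _).trans ((mul_le_of_le_one_left (norm_nonneg _) hb).trans
    ((norm_eS_le D v F).trans ?_))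
  have e : 8 * q v ^ 4 * ‖F‖ / ‖D‖ = 8 * q v ^ 4 * ‖F‖ * ‖D‖ / ‖D‖ ^ 2 := by field_simp
  rw [e]
  gcongr

theorem S_int (hI : Init f0 N P0) (hA : App A R) (hF : IsFlow A Φ Ψ) (hψ : Test T ψ)
    {b : V3 → V3} (hb : Measurable b) (hb1 : ∀ D, ‖b D‖ ≤ 1) :
    Integrable (fun o : Om => f0 o.2.2 * (ψ (pt Φ o) * ⟪b o.1, eS o.1 (mom Φ o) (fld A Φ o)⟫ +
      fderiv ℝ ψ (pt Φ o) (1, u (mom Φ o)) * ((4 * Real.pi * ‖o.1‖)⁻¹ *
        (⟪b o.1, nrm o.1 - u (mom Φ o)⟫ / kap o.1 (mom Φ o))))) ∧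
    ∫ o : Om, f0 o.2.2 * (ψ (pt Φ o) * ⟪b o.1, eS o.1 (mom Φ o) (fld A Φ o)⟫ +
      fderiv ℝ ψ (pt Φ o) (1, u (mom Φ o)) * ((4 * Real.pi * ‖o.1‖)⁻¹ *
        (⟪b o.1, nrm o.1 - u (mom Φ o)⟫ / kap o.1 (mom Φ o)))) = 0 := by
  have hm := (continuous_mom hF).measurable
  have hb' : Measurable fun o : Om => b o.1 := hb.comp measurable_fst
  have hn : Measurable fun o : Om => nrm o.1 := measurable_nrm.comp measurable_fst
  have hu : Measurable fun o : Om => u (mom Φ o) := contDiff_u.continuous.measurable.comp hm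
  have m1 : Measurable fun o : Om => ⟪b o.1, eS o.1 (mom Φ o) (fld A Φ o)⟫ :=
    hb'.inner (MW7_meS hA hF)
  have m2 : Measurable fun o : Om => (4 * Real.pi * ‖o.1‖)⁻¹ := by fun_prop
  have m3 : Measurable fun o : Om => kap o.1 (mom Φ o) := measurable_const.sub (hn.inner hu)
  have m4 : Measurable fun o : Om => ⟪b o.1, nrm o.1 - u (mom Φ o)⟫ := hb'.inner (hn.sub hu)
  have m5 : Measurable fun o : Om => (4 * Real.pi * ‖o.1‖)⁻¹ *
      (⟪b o.1, nrm o.1 - u (mom Φ o)⟫ / kap o.1 (mom Φ o)) := m2.mul (m4.div m3)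
  have i1 := int_master hI hA hF hψ m1.aestronglyMeasurable fun L hL =>
    ⟨8 * L ^ 4 * R * L, fun o h0 h1 h2 => MW7_beS (hb1 _) h0 h1 h2 (norm_Ap_le hA _)⟩
  have i2 := int_master1 hI hA hF hψ m5.aestronglyMeasurable fun L hL =>
    ⟨L * (1 * 2 * (2 * L ^ 2)), fun o h0 h1 h2 => by
      have h3 := q_pos (mom Φ o)
      rw [Real.norm_eq_abs, abs_mul, mul_div_right_comm]
      refine mul_le_mul (MW2_inv h0 h1) ((MW2_quot _ _ _).trans ?_) (abs_nonneg _) (by positivity)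
      gcongr
      exact hb1 _⟩
  have i3 : Integrable fun o : Om => f0 o.2.2 * (ψ (pt Φ o) * ⟪b o.1, eS o.1 (mom Φ o) (fld A Φ o)⟫ +
      fderiv ℝ ψ (pt Φ o) (1, u (mom Φ o)) * ((4 * Real.pi * ‖o.1‖)⁻¹ *
        (⟪b o.1, nrm o.1 - u (mom Φ o)⟫ / kap o.1 (mom Φ o)))) := by
    refine (i1.add i2).congr (Eventually.of_forall fun o => ?_)
    simp only [Pi.add_apply, smul_eq_mul]
    ring
  refine ⟨i3, zeroS i3 fun D hD z => ?_⟩
  simp only []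
  rw [integral_const_mul, S_id hψ hF hD z (b D), mul_zero]

theorem MW7_abs {F G S : Om → ℝ} (hF : Integrable F) (hG : Integrable G) (hS : Integrable S)
    (h0 : ∫ o, S o = 0) (h : ∀ s : ℝ × Z, ∫ D, (F (D, s) - G (D, s) - S (D, s)) = 0) :
    ∫ o, F o = ∫ o, G o := by
  have h1 : Integrable fun o => F o - G o := hF.sub hG
  have h2 := zeroT (g := fun o => F o - G o - S o) (h1.sub hS) h
  rw [integral_sub h1 hS, integral_sub hF hG, h0] at h2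
  linarith

theorem MW7_T (ψ : ℝ × V3 → ℝ) (p : ℝ × V3) (D v b : V3) :
    fderiv ℝ ψ p (⟪nrm D, b⟫, b) + ⟪b, nrm D - u v⟫ / kap D v * fderiv ℝ ψ p (⟪nrm D, u v⟫, u v) =
      fderiv ℝ ψ p (⟪b, u v⟫, b) + fderiv ℝ ψ p (1, u v) * (⟪b, nrm D - u v⟫ / kap D v) := by
  have h := (kap_pos D v).ne'
  have e2 : ⟪nrm D, u v⟫ = 1 - kap D v := by simp [kap]
  simp only [fderiv_pair, e2, inner_sub_right, real_inner_comm b (nrm D)]
  field_simp
  ring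

theorem MW7_E (ψ : ℝ × V3 → ℝ) (c : ℝ) (p : ℝ × V3) (D v : V3) (F : V3 × V3) (k : Fin 3) :
    c * ψ p * (ker D v F).1 k - (c * ((4 * Real.pi * ‖D‖)⁻¹ * (c1 v * dX k ψ p))
      + c * ((4 * Real.pi * ‖D‖)⁻¹ * (cu k v * dT ψ p))) - c * (ψ p * ⟪e3 k, eS D v F⟫ +
        fderiv ℝ ψ p (1, u v) * ((4 * Real.pi * ‖D‖)⁻¹ * (⟪e3 k, nrm D - u v⟫ / kap D v))) =
    c * (ψ p * ⟪e3 k, eT D v⟫ - (4 * Real.pi * ‖D‖)⁻¹ * (fderiv ℝ ψ p (⟪nrm D, e3 k⟫, e3 k)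
      + ⟪e3 k, nrm D - u v⟫ / kap D v * fderiv ℝ ψ p (⟪nrm D, u v⟫, u v))) := by
  have e : fderiv ℝ ψ p (⟪e3 k, u v⟫, e3 k) = cu k v * dT ψ p + dX k ψ p := by
    have : ((⟪e3 k, u v⟫, e3 k) : ℝ × V3) = cu k v • ((1, 0) : ℝ × V3) + (0, e3 k) := by
      simp [inner_e3, cu]
    rw [this, map_add, map_smul]
    rfl
  rw [MW7_T, e]
  simp only [ker, inner_e3, c1, PiLp.add_apply]
  ring

theorem MW7_B (ψ : ℝ × V3 → ℝ) (c : ℝ) (p : ℝ × V3) (D v : V3) (F : V3 × V3) {i j k : Fin 3}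
    (h : Cyc i j k) :
    c * ψ p * (ker D v F).2 i - (c * ((4 * Real.pi * ‖D‖)⁻¹ * (cu j v * dX k ψ p))
      - c * ((4 * Real.pi * ‖D‖)⁻¹ * (cu k v * dX j ψ p)))
      - c * (ψ p * ⟪cross (e3 i) (nrm D), eS D v F⟫ + fderiv ℝ ψ p (1, u v) *
        ((4 * Real.pi * ‖D‖)⁻¹ * (⟪cross (e3 i) (nrm D), nrm D - u v⟫ / kap D v))) =
    c * (ψ p * ⟪cross (e3 i) (u v), eT D v⟫ - (4 * Real.pi * ‖D‖)⁻¹ *
      (fderiv ℝ ψ p (⟪nrm D, cross (e3 i) (u v)⟫, cross (e3 i) (u v))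
      + ⟪cross (e3 i) (u v), nrm D - u v⟫ / kap D v * fderiv ℝ ψ p (⟪nrm D, u v⟫, u v))) := by
  have c0 : ∀ a b : V3, ⟪cross (e3 i) a, b⟫ = cross a b i := fun a b => by
    rw [real_inner_comm, inner_cross_cyc, inner_e3]
  have e : fderiv ℝ ψ p (⟪cross (e3 i) (u v), u v⟫, cross (e3 i) (u v)) =
      cu j v * dX k ψ p - cu k v * dX j ψ p := by
    rw [c0, cross_self, fderiv_pair]
    rcases h with ⟨rfl, rfl, rfl⟩ | ⟨rfl, rfl, rfl⟩ | ⟨rfl, rfl, rfl⟩ <;>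
      simp [cross, e3, cu] <;> ring
  rw [MW7_T, e]
  simp only [ker, c0, h.cross, eT, PiLp.add_apply, PiLp.smul_apply, PiLp.sub_apply, smul_eq_mul]
  ring

theorem KE (hI : Init f0 N P0) (hA : App A R) (hF : IsFlow A Φ Ψ) (hψ : Test T ψ) (k : Fin 3) :
    ∫ p, ψ p * (ret f0 Ψ A p).1 k = I0 f0 Φ c1 (dX k ψ) + I0 f0 Φ (cu k) (dT ψ) := by
  obtain ⟨p1, p2⟩ := pair_ret hI hA hF hψ
    ((EuclideanSpace.proj k : V3 →L[ℝ] ℝ).comp (ContinuousLinearMap.fst ℝ V3 V3))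
  obtain ⟨s1, s2⟩ := S_int hI hA hF hψ (b := fun _ => e3 k) measurable_const
    fun _ => (norm_e3 k).le
  have i1 := int_g0 hI hA hF (hψ.dX k) (c := c1) continuous_const abs_c1_le
  have i2 := int_g0 hI hA hF hψ.dT (continuous_cu k) (abs_cu_le k)
  refine p2.trans ?_
  unfold I0
  rw [← integral_add i1 i2]
  refine MW7_abs p1 (i1.add i2) s1 s2 fun s => ?_
  have h := T_id hψ s.1 (Φ s.1 s.2).1 (Φ s.1 s.2).2 (e3 k)
  rw [← mul_zero (f0 s.2), ← h, ← integral_const_mul]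
  refine integral_congr_ae (Eventually.of_forall fun D => ?_)
  exact MW7_E ψ (f0 s.2) (pt Φ (D, s)) D (mom Φ (D, s)) (fld A Φ (D, s)) k

theorem KB (hI : Init f0 N P0) (hA : App A R) (hF : IsFlow A Φ Ψ) (hψ : Test T ψ) {i j k : Fin 3}
    (h : Cyc i j k) :
    ∫ p, ψ p * (ret f0 Ψ A p).2 i = I0 f0 Φ (cu j) (dX k ψ) - I0 f0 Φ (cu k) (dX j ψ) := by
  obtain ⟨p1, p2⟩ := pair_ret hI hA hF hψ
    ((EuclideanSpace.proj i : V3 →L[ℝ] ℝ).comp (ContinuousLinearMap.snd ℝ V3 V3))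
  obtain ⟨s1, s2⟩ := S_int hI hA hF hψ (b := fun D => cross (e3 i) (nrm D))
    (contDiff_cross.continuous.measurable.comp (measurable_const.prodMk measurable_nrm))
    fun D => (norm_cross_le _ _).trans (by rw [norm_e3, one_mul]; exact norm_nrm_le D)
  have i1 := int_g0 hI hA hF (hψ.dX k) (continuous_cu j) (abs_cu_le j)
  have i2 := int_g0 hI hA hF (hψ.dX j) (continuous_cu k) (abs_cu_le k)
  refine p2.trans ?_
  unfold I0
  rw [← integral_sub i1 i2]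
  refine MW7_abs p1 (i1.sub i2) s1 s2 fun s => ?_
  have h' := T_id hψ s.1 (Φ s.1 s.2).1 (Φ s.1 s.2).2 (cross (e3 i) (u (Φ s.1 s.2).2))
  rw [← mul_zero (f0 s.2), ← h', ← integral_const_mul]
  refine integral_congr_ae (Eventually.of_forall fun D => ?_)
  exact MW7_B ψ (f0 s.2) (pt Φ (D, s)) D (mom Φ (D, s)) (fld A Φ (D, s)) h

end Vale.Agent.P107.MW
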