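import Vale.Agent.P107.MW5b
import Vale.Agent.P107.MW3

/-! BLOCK MX2, file MW8 (sub-lead helper85). Definitions in MWD.lean and Ctx.lean. Put the file name in front of helper lemma names.

Plan.
continuous_mo: continuous_of_dominated or continuousAt_of_dominated; near t the integrand vanishes outside the ball ‖v‖ ≤ P0 + 2 R (|t| + 1) (dens_supp, norm_le_q) and is bounded by N.
mo_cu: v ↦ dens • u v is continuous with compact support, ContinuousLinearMap.integral_comp_comm for EuclideanSpace.proj k.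
Kbox: collect the four integrals (int_g0, integral_sub, integral_add), integral_prod_symm, box_id at (σ, y): the result is ∫ s : ℝ × Z, f0 z * c w * ψ (σ, y). The function
G (p, v) = ψ p * (dens p.1 (p.2, v) * c v) on (ℝ × V3) × V3 is continuous with compact support; mp_liou (integral_map with map_eq), dens_flow, integral_prod, integral_const_mul.
-/

namespace Vale.Agent.P107.MW

open MeasureTheory Set Filter Topology
open scoped ContDiff RealInnerProductSpace ENNReal

variable {f0 : Z → ℝ} {N P0 R T : ℝ} {A : Fld} {Φ Ψ : ℝ → Z → Z} {ψ : ℝ × V3 → ℝ}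

theorem MW8_supp (hI : Init f0 N P0) (hA : App A R) (hF : IsFlow A Φ Ψ) {t τ : ℝ} (ht : t ≤ τ)
    (hτ : 0 ≤ τ) {x v : V3} (hv : v ∉ Metric.closedBall (0 : V3) (P0 + 2 * R * τ)) :
    dens f0 Ψ t (x, v) = 0 := by
  by_contra h
  have h1 := (hF.dens_supp hI hA h).2
  have h2 := mul_le_mul_of_nonneg_left (max_le ht hτ) (mul_nonneg zero_le_two hA.nonneg)
  exact hv (mem_closedBall_zero_iff.2 ((norm_le_q v).trans (by simp only at h1; linarith)))

theorem MW8_cont (hI : Init f0 N P0) (hF : IsFlow A Φ Ψ) :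
    Continuous fun w : (ℝ × V3) × V3 => dens f0 Ψ w.1.1 (w.1.2, w.2) :=
  (hF.continuous_dens hI).comp (f := fun w : (ℝ × V3) × V3 => (w.1.1, (w.1.2, w.2))) (by fun_prop)

theorem MW8_map {X Y : Type} [MeasureSpace X] [MeasureSpace Y] {θ : X → Y}
    (h : MeasurePreserving θ volume volume) {G : Y → ℝ} (hG : AEStronglyMeasurable G volume) :
    ∫ x, G (θ x) = ∫ y, G y := by
  rw [← integral_map h.measurable.aemeasurable (h.map_eq.symm ▸ hG), h.map_eq]

theorem continuous_mo (hI : Init f0 N P0) (hA : App A R) (hF : IsFlow A Φ Ψ) {c : V3 → ℝ}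
    (hc : Continuous c) (hc1 : ∀ v, |c v| ≤ 1) : Continuous (mo (dens f0 Ψ) c) := by
  have h1 := (MW8_cont hI hF).mul (hc.comp continuous_snd)
  refine continuous_iff_continuousAt.2 fun p0 => ?_
  refine continuousAt_of_dominated (bound := (Metric.closedBall (0 : V3)
    (P0 + 2 * R * (|p0.1| + 1))).indicator fun _ => N) (Eventually.of_forall fun p =>
      (h1.comp (Continuous.prodMk_right p)).aestronglyMeasurable) ?_ ?_
    (Eventually.of_forall fun v => (h1.comp (Continuous.prodMk_left v)).continuousAt)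
  · have h2 : ∀ᶠ p : ℝ × V3 in 𝓝 p0, p.1 < |p0.1| + 1 :=
      continuous_fst.continuousAt.eventually_lt continuousAt_const
        (by linarith [le_abs_self p0.1])
    filter_upwards [h2] with p hp
    refine Eventually.of_forall fun v => ?_
    by_cases hv : v ∈ Metric.closedBall (0 : V3) (P0 + 2 * R * (|p0.1| + 1))
    · rw [indicator_of_mem hv, norm_mul, dens, Real.norm_of_nonneg (hI.nonneg _)]
      exact (mul_le_of_le_one_right (hI.nonneg _) (hc1 v)).trans (hI.le _)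
    · rw [indicator_of_notMem hv, MW8_supp hI hA hF hp.le (by positivity) hv, zero_mul, norm_zero]
  · exact (integrableOn_const measure_closedBall_lt_top.ne).integrable_indicator
      measurableSet_closedBall

theorem mo_cu (hI : Init f0 N P0) (hA : App A R) (hF : IsFlow A Φ Ψ) (t : ℝ) (x : V3) (k : Fin 3) :
    (∫ v, dens f0 Ψ t (x, v) • u v) k = mo (dens f0 Ψ) (cu k) (t, x) := by
  have h1 : Continuous fun v => dens f0 Ψ t (x, v) • u v :=
    ((MW8_cont hI hF).comp (Continuous.prodMk_right (t, x))).smul contDiff_u.continuous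
  have h2 : HasCompactSupport fun v => dens f0 Ψ t (x, v) • u v :=
    HasCompactSupport.intro (isCompact_closedBall 0 (P0 + 2 * R * |t|)) fun v hv => by
      rw [MW8_supp hI hA hF (le_abs_self t) (abs_nonneg t) hv, zero_smul]
  exact ((EuclideanSpace.proj k : V3 →L[ℝ] ℝ).integral_comp_comm
    (h1.integrable_of_hasCompactSupport h2)).symm

theorem Kbox (hI : Init f0 N P0) (hA : App A R) (hF : IsFlow A Φ Ψ) (hψ : Test T ψ) {c : V3 → ℝ}
    (hc : Continuous c) (hc1 : ∀ v, |c v| ≤ 1) :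
    I0 f0 Φ c (dT (dT ψ)) - (I0 f0 Φ c (dX 0 (dX 0 ψ)) + I0 f0 Φ c (dX 1 (dX 1 ψ))
      + I0 f0 Φ c (dX 2 (dX 2 ψ))) = ∫ p, ψ p * mo (dens f0 Ψ) c p := by
  have i0 := int_g0 hI hA hF hψ.dT.dT hc hc1
  have i1 := fun k => int_g0 hI hA hF ((hψ.dX k).dX k) hc hc1
  have j1 : Integrable fun o => g0 f0 Φ c (dX 0 (dX 0 ψ)) o + g0 f0 Φ c (dX 1 (dX 1 ψ)) o :=
    (i1 0).add (i1 1)
  have j2 : Integrable fun o => g0 f0 Φ c (dX 0 (dX 0 ψ)) o + g0 f0 Φ c (dX 1 (dX 1 ψ)) o
      + g0 f0 Φ c (dX 2 (dX 2 ψ)) o := j1.add (i1 2)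
  have j3 : Integrable (fun o => g0 f0 Φ c (dT (dT ψ)) o - (g0 f0 Φ c (dX 0 (dX 0 ψ)) o
      + g0 f0 Φ c (dX 1 (dX 1 ψ)) o + g0 f0 Φ c (dX 2 (dX 2 ψ)) o)) (volume.prod volume) :=
    i0.sub j2
  unfold I0
  rw [← integral_add (i1 0) (i1 1), ← integral_add j1 (i1 2), ← integral_sub i0 j2,
    Measure.volume_eq_prod, integral_prod_symm _ j3]
  have e : ∀ s : ℝ × Z, ∫ D, (g0 f0 Φ c (dT (dT ψ)) (D, s) - (g0 f0 Φ c (dX 0 (dX 0 ψ)) (D, s)
      + g0 f0 Φ c (dX 1 (dX 1 ψ)) (D, s) + g0 f0 Φ c (dX 2 (dX 2 ψ)) (D, s))) =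
      ψ (s.1, (Φ s.1 s.2).1) * (dens f0 Ψ s.1 ((Φ s.1 s.2).1, (Φ s.1 s.2).2) * c (Φ s.1 s.2).2) := by
    intro s
    rw [hF.dens_flow, ← box_id hψ, ← integral_mul_const]
    refine integral_congr_ae (Eventually.of_forall fun D => ?_)
    simp only [g0, pt, mom]
    ring
  simp only [e]
  have c1 : Continuous fun w : (ℝ × V3) × V3 => ψ w.1 * (dens f0 Ψ w.1.1 (w.1.2, w.2) * c w.2) :=
    (hψ.continuous.comp continuous_fst).mul ((MW8_cont hI hF).mul (hc.comp continuous_snd))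
  obtain ⟨ρ, hρ⟩ := hψ.supp
  have c2 : HasCompactSupport fun w : (ℝ × V3) × V3 =>
      ψ w.1 * (dens f0 Ψ w.1.1 (w.1.2, w.2) * c w.2) := by
    refine HasCompactSupport.intro ((isCompact_Icc.prod (isCompact_closedBall (0 : V3) ρ)).prod
      (isCompact_closedBall (0 : V3) (P0 + 2 * R * T)) : IsCompact ((Icc 0 T ×ˢ _) ×ˢ _))
      fun w hw => ?_
    by_cases h1 : ψ w.1 = 0
    · rw [h1, zero_mul]
    · obtain ⟨h2, h3⟩ := hρ _ h1
      rw [MW8_supp hI hA hF h2.2 (h2.1.trans h2.2)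
        fun h => hw ⟨⟨h2, mem_closedBall_zero_iff.2 h3⟩, h⟩, zero_mul, mul_zero]
  have c3 : Integrable (fun w : (ℝ × V3) × V3 => ψ w.1 * (dens f0 Ψ w.1.1 (w.1.2, w.2) * c w.2))
    (volume.prod volume) := c1.integrable_of_hasCompactSupport c2
  refine (MW8_map (mp_liou hF) c1.aestronglyMeasurable).trans ?_
  rw [Measure.volume_eq_prod, integral_prod _ c3]
  simp only [integral_const_mul, mo]

end Vale.Agent.P107.MW
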