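import Vale.Agent.P107.MW7
import Vale.Agent.P107.MW8

/-! BLOCK MX2, file MW9 (sub-lead helper85). Definitions in MWD.lean and Ctx.lean. Put the file name in front of helper lemma names.

Plan.
Linear arithmetic with KE, KB, KS, Kbox and the commutation of derivatives.
-/

namespace Vale.Agent.P107.MW

open MeasureTheory Set Filter Topology
open scoped ContDiff RealInnerProductSpace ENNReal

variable {f0 : Z → ℝ} {N P0 R T : ℝ} {A : Fld} {Φ Ψ : ℝ → Z → Z} {ψ : ℝ × V3 → ℝ}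

theorem ret_weak (hI : Init f0 N P0) (hA : App A R) (hF : IsFlow A Φ Ψ) (T : ℝ) :
    Weak T (mo (dens f0 Ψ) c1) (fun k => mo (dens f0 Ψ) (cu k)) (ret f0 Ψ A) := by
  refine ⟨fun ψ hψ => ?_, fun ψ hψ => ?_, fun ψ hψ i j k h => ?_, fun ψ hψ i j k h => ?_⟩
  · have h1 := KS hI hA hF hψ.dT
    have h2 := Kbox hI hA hF hψ (c := c1) continuous_const abs_c1_le
    rw [KE hI hA hF (hψ.dX 0), KE hI hA hF (hψ.dX 1), KE hI hA hF (hψ.dX 2), hψ.dT_dX, hψ.dT_dX,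
      hψ.dT_dX]
    linarith
  · rw [KB hI hA hF (hψ.dX 0) (Or.inl ⟨rfl, rfl, rfl⟩),
      KB hI hA hF (hψ.dX 1) (Or.inr (Or.inl ⟨rfl, rfl, rfl⟩)),
      KB hI hA hF (hψ.dX 2) (Or.inr (Or.inr ⟨rfl, rfl, rfl⟩)), hψ.dX_dX 2 0, hψ.dX_dX 1 0,
      hψ.dX_dX 2 1]
    ring
  · have h1 := KS hI hA hF (hψ.dX i)
    have h2 := Kbox hI hA hF hψ (continuous_cu i) (abs_cu_le i)
    have h3 := h.sum fun m => I0 f0 Φ (cu m) (dX m (dX i ψ))
    have h4 := h.sum fun m => I0 f0 Φ (cu i) (dX m (dX m ψ))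
    rw [KE hI hA hF hψ.dT, KB hI hA hF (hψ.dX j) h.next.next, KB hI hA hF (hψ.dX k) h.next,
      hψ.dX_dX i j, hψ.dX_dX i k, ← hψ.dT_dX]
    linarith
  · rw [KB hI hA hF hψ.dT h, KE hI hA hF (hψ.dX j), KE hI hA hF (hψ.dX k), hψ.dT_dX, hψ.dT_dX,
      hψ.dX_dX k j]
    ring

end Vale.Agent.P107.MW
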