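import Vale.Agent.P107.MW1

/-! BLOCK MX2, file MWA (sub-lead helper85). Definitions in MWD.lean and Ctx.lean. Put the file name in front of helper lemma names.

Plan.
int_test: the product is continuous on the compact box Icc 0 T ×ˢ closedBall 0 ρ (ContinuousOn.integrableOn_compact) and zero outside (IntegrableOn.integrable_of_forall_notMem_eq_zero).
ibx: integral_prod (volume_eq_prod) for the integrable sum dX k ψ * e + ψ * e'; for t ∈ Icc 0 T the inner integral vanishes by ibp0 (g x = ψ (t, x) * e (t, x), continuous with compact support),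
for other t the integrand is zero (Test.box).
wz: replace g by the globally continuous g (projIcc t, x) if convenient. For fixed β the function G t = ∫ x, β x * g (t, x) is continuous on Icc a b and ∫ t, α t * G t = 0 (Fubini);
IsOpen.ae_eq_zero_of_integral_contDiff_smul_eq_zero on Ioo a b, then Measure.eqOn_open_of_ae_eq or Continuous.ae_eq_iff_eq, closure of Ioo. Then for fixed t
ae_eq_zero_of_integral_contDiff_smul_eq_zero in x and continuity.
-/

namespace Vale.Agent.P107.MW

open MeasureTheory Set Filter Topology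
open scoped ContDiff RealInnerProductSpace ENNReal

variable {f0 : Z → ℝ} {N P0 R T : ℝ} {A : Fld} {Φ Ψ : ℝ → Z → Z} {ψ : ℝ × V3 → ℝ}

theorem test_prod {α : ℝ → ℝ} {β : V3 → ℝ} (hα : ContDiff ℝ ∞ α) (hβ : ContDiff ℝ ∞ β)
    (sα : ∀ t, α t ≠ 0 → t ∈ Icc 0 T) (sβ : HasCompactSupport β) :
    Test T fun p => α p.1 * β p.2 := by
  obtain ⟨ρ, hρ⟩ := sβ.isCompact.isBounded.exists_norm_le
  refine ⟨(hα.comp contDiff_fst).mul (hβ.comp contDiff_snd), ρ, fun p hp => ?_⟩
  exact ⟨sα _ (left_ne_zero_of_mul hp), hρ _ (subset_tsupport _ (right_ne_zero_of_mul hp))⟩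

theorem int_test (hψ : Test T ψ) {g : ℝ × V3 → ℝ} (hg : ContinuousOn g (slab T)) :
    Integrable fun p => ψ p * g p := by
  obtain ⟨ρ, hρ⟩ := hψ.supp
  have hK : IsCompact (Icc 0 T ×ˢ Metric.closedBall (0 : V3) ρ) :=
    isCompact_Icc.prod (isCompact_closedBall _ _)
  have h1 : IntegrableOn (fun p => ψ p * g p) (Icc 0 T ×ˢ Metric.closedBall (0 : V3) ρ) :=
    (hψ.continuous.continuousOn.mul
      (hg.mono (prod_mono subset_rfl (subset_univ _)))).integrableOn_compact hK
  refine h1.integrable_of_forall_notMem_eq_zero fun p hp => ?_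
  have h2 : ψ p = 0 := by
    by_contra h2
    exact hp ⟨(hρ p h2).1, mem_closedBall_zero_iff.2 (hρ p h2).2⟩
  rw [h2, zero_mul]

theorem ibx (hψ : Test T ψ) {e e' : ℝ × V3 → ℝ} (k : Fin 3) (he : ContinuousOn e (slab T))
    (he' : ContinuousOn e' (slab T))
    (hd : ∀ t ∈ Icc 0 T, ∀ x, HasDerivAt (fun s : ℝ => e (t, x + s • e3 k)) (e' (t, x)) 0) :
    ∫ p, dX k ψ p * e p = -∫ p, ψ p * e' p := by
  have i1 := int_test (hψ.dX k) he
  have i2 := int_test hψ he'
  have i3 : Integrable (fun p => dX k ψ p * e p + ψ p * e' p) (volume.prod volume) := i1.add i2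
  rw [eq_neg_iff_add_eq_zero, ← integral_add i1 i2, Measure.volume_eq_prod, integral_prod _ i3]
  obtain ⟨ρ, C, -, -, h0⟩ := hψ.box
  have h : ∀ t, ∫ x, (dX k ψ (t, x) * e (t, x) + ψ (t, x) * e' (t, x)) = 0 := fun t => by
    by_cases ht : t ∈ Icc 0 T
    · have c1 : Continuous fun x => ψ (t, x) * e (t, x) :=
        (hψ.continuous.comp (Continuous.prodMk_right t)).mul
          (he.comp_continuous (Continuous.prodMk_right t) fun x => ⟨ht, mem_univ _⟩)
      have c2 : HasCompactSupport fun x => ψ (t, x) * e (t, x) :=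
        HasCompactSupport.intro (isCompact_closedBall 0 ρ) fun x hx => by
          rw [(h0 (t, x) fun h => hx (mem_closedBall_zero_iff.2 h.2)).1, zero_mul]
      refine ibp0 (e3 k) (c1.integrable_of_hasCompactSupport c2) fun x _ => ?_
      have h1 : HasDerivAt (fun s : ℝ => x + s • e3 k) (e3 k) 0 := by
        simpa using ((hasDerivAt_id (0 : ℝ)).smul_const (e3 k)).const_add x
      have h2 := (hψ.hasFDerivAt (t, x)).comp_hasDerivAt_of_eq (0 : ℝ)
        ((hasDerivAt_const (0 : ℝ) t).prodMk h1) (by simp)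
      refine (h2.mul (hd t ht x)).congr_deriv ?_
      simp [dX]
    · have h1 : ∀ x, dX k ψ (t, x) * e (t, x) + ψ (t, x) * e' (t, x) = 0 := fun x => by
        obtain ⟨h2, h3⟩ := h0 (t, x) fun h => ht h.1
        simp [dX, h2, h3]
      simp only [h1, integral_zero]
  simp only [h, integral_zero]

theorem wz {g : ℝ × V3 → ℝ} {a b : ℝ} (hab : a < b) (hg : ContinuousOn g (Icc a b ×ˢ univ))
    (h : ∀ (α : ℝ → ℝ) (β : V3 → ℝ), ContDiff ℝ ∞ α → ContDiff ℝ ∞ β →
      (∀ t, α t ≠ 0 → t ∈ Icc a b) → HasCompactSupport β →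
      ∫ p : ℝ × V3, α p.1 * β p.2 * g p = 0) : ∀ t ∈ Icc a b, ∀ x, g (t, x) = 0 := by
  have hc : Continuous fun p : ℝ × V3 => ((max a (min p.1 b), p.2) : ℝ × V3) := by fun_prop
  obtain ⟨gc, hgc, egc⟩ : ∃ gc : ℝ × V3 → ℝ, Continuous gc ∧ ∀ t ∈ Icc a b, ∀ x,
      gc (t, x) = g (t, x) := ⟨_, hg.comp_continuous hc fun p =>
        ⟨⟨le_max_left _ _, max_le hab.le (min_le_right _ _)⟩, mem_univ _⟩, fun t ht x => by
          simp [min_eq_left ht.2, max_eq_right ht.1]⟩
  have key : ∀ t ∈ Ioo a b, ∀ x, gc (t, x) = 0 := by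
    intro t ht x
    by_contra h0
    have h1 : ∀ᶠ p in 𝓝 ((t, x) : ℝ × V3), 0 < gc (t, x) * gc p ∧ p.1 ∈ Ioo a b :=
      (continuousAt_const.eventually_lt (continuous_const.mul hgc).continuousAt
        (mul_self_pos.2 h0)).and (continuous_fst.continuousAt.eventually (Ioo_mem_nhds ht.1 ht.2))
    obtain ⟨ε, hε, h2⟩ := Metric.eventually_nhds_iff_ball.1 h1
    let α : ContDiffBump t := ⟨ε / 2, ε, by positivity, by linarith⟩
    let β : ContDiffBump x := ⟨ε / 2, ε, by positivity, by linarith⟩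
    have sα : ∀ s, α s ≠ 0 → s ∈ Metric.ball t ε := fun s hs => α.support_eq ▸ hs
    have sβ : ∀ y, β y ≠ 0 → y ∈ Metric.ball x ε := fun y hy => β.support_eq ▸ hy
    have sα' : ∀ s, α s ≠ 0 → s ∈ Icc a b := fun s hs => Ioo_subset_Icc_self
      (h2 (s, x) (by rw [← ball_prod_same]; exact ⟨sα s hs, Metric.mem_ball_self hε⟩)).2
    have h3 := h α β α.contDiff β.contDiff sα' β.hasCompactSupport
    have h4 : ∫ p : ℝ × V3, gc (t, x) * (α p.1 * β p.2 * gc p) = 0 := by
      rw [integral_const_mul, ← mul_zero (gc (t, x)), ← h3]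
      congr 1
      refine integral_congr_ae (Eventually.of_forall fun p => ?_)
      by_cases h5 : α p.1 = 0
      · simp [h5]
      · exact congrArg _ (egc p.1 (sα' _ h5) p.2)
    have c1 : Continuous fun p : ℝ × V3 => gc (t, x) * (α p.1 * β p.2 * gc p) :=
      continuous_const.mul (((α.continuous.comp continuous_fst).mul
        (β.continuous.comp continuous_snd)).mul hgc)
    have s1 : ∀ p : ℝ × V3, p ∉ Metric.ball (t, x) ε → α p.1 * β p.2 = 0 := fun p hp => by
      by_contra h5
      rw [← ball_prod_same] at hp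
      exact hp ⟨sα _ (left_ne_zero_of_mul h5), sβ _ (right_ne_zero_of_mul h5)⟩
    have c2 : HasCompactSupport fun p : ℝ × V3 => gc (t, x) * (α p.1 * β p.2 * gc p) :=
      HasCompactSupport.intro (isCompact_closedBall (t, x) ε) fun p hp => by
        rw [s1 p fun h => hp (Metric.ball_subset_closedBall h), zero_mul, mul_zero]
    refine (c1.integral_pos_of_hasCompactSupport_nonneg_nonzero (x := (t, x)) c2 (fun p => ?_)
      ?_).ne' h4
    · by_cases hp : p ∈ Metric.ball (t, x) ε
      · have h5 := mul_nonneg (mul_nonneg (α.nonneg' p.1) (β.nonneg' p.2)) (h2 p hp).1.le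
        simp only [Pi.zero_apply]
        linarith [h5]
      · simp [s1 p hp]
    · simp only [α.one_of_mem_closedBall (Metric.mem_closedBall_self α.rIn_pos.le),
        β.one_of_mem_closedBall (Metric.mem_closedBall_self β.rIn_pos.le), one_mul]
      exact mul_self_ne_zero.2 h0
  intro t ht x
  rw [← egc t ht]
  have hcl : IsClosed {t : ℝ | gc (t, x) = 0} :=
    isClosed_eq (hgc.comp (Continuous.prodMk_left x)) continuous_const
  rw [← closure_Ioo hab.ne] at ht
  exact hcl.closure_subset_iff.2 (fun r hr => key r hr x) ht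

theorem wz_test (hT : 0 < T) {g : ℝ × V3 → ℝ} (hg : ContinuousOn g (slab T))
    (h : ∀ ψ, Test T ψ → ∫ p, ψ p * g p = 0) : ∀ t ∈ Icc 0 T, ∀ x, g (t, x) = 0 :=
  wz hT hg fun _ _ hα hβ sα sβ => h _ (test_prod hα hβ sα sβ)

end Vale.Agent.P107.MW
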