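import Vale.Agent.P107.MWC
import Vale.Agent.P107.C1

/-! BLOCK MX2, file MWB (sub-lead helper85). Definitions in MWD.lean and Ctx.lean. Put the file name in front of helper lemma names.

Plan.
K is continuous on the slab (Reg.lip), sec_fderiv gives differentiable slices with jointly continuous derivative DK. For the components e p = (K p).1 m or (K p).2 m the derivative in the
direction e3 k is pd (fun y => (K (t, y)).1) k m x = (DK (t, x) (e3 k)).1 m (fderiv of fst ∘ slice), continuous on the slab. ibx turns the weak equations into ∫ ψ * (div E - ρ) = 0 etc.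
(int_test, integral_add, integral_sub); wz_test gives gE, gB; wt gives the components of amp and far (exists_cyc, Cyc.curl); assemble V3 valued derivatives from components
(hasFDerivWithinAt_euclidean, or write a = Σ a k • e3 k with eq_sum_e3). c1: contDiffOn_of_partials with gt = (curl B - j, - curl E), continuous by components.
-/

namespace Vale.Agent.P107.MW

open MeasureTheory Set Filter Topology
open scoped ContDiff RealInnerProductSpace ENNReal

variable {f0 : Z → ℝ} {N P0 R T : ℝ} {A : Fld} {Φ Ψ : ℝ → Z → Z} {ψ : ℝ × V3 → ℝ}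

/-- Continuous on the slab with continuous space derivative. -/
structure Gd (T : ℝ) (F : ℝ × V3 → V3) : Prop where
  c : ContinuousOn F (slab T)
  d : ∀ t ∈ Icc 0 T, Differentiable ℝ fun x => F (t, x)
  x : ContinuousOn (fun p : ℝ × V3 => fderiv ℝ (fun x => F (p.1, x)) p.2) (slab T)

theorem MWB_gd {K : Fld} (l : (V3 × V3) →L[ℝ] V3) (hc : ContinuousOn K (slab T))
    (hd : ∀ t ∈ Icc 0 T, Differentiable ℝ fun x => K (t, x))
    (hx : ContinuousOn (fun p : ℝ × V3 => fderiv ℝ (fun x => K (p.1, x)) p.2) (slab T)) :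
    Gd T fun p => l (K p) := by
  refine ⟨l.continuous.comp_continuousOn hc, fun t ht => l.differentiable.comp (hd t ht), ?_⟩
  refine (continuousOn_const.clm_comp hx (g := fun _ => l)).congr fun p hp => ?_
  exact (l.hasFDerivAt.comp p.2 (hd p.1 hp.1 p.2).hasFDerivAt).fderiv

theorem Gd.comp {F : ℝ × V3 → V3} (h : Gd T F) (m : Fin 3) :
    ContinuousOn (fun p => F p m) (slab T) :=
  (EuclideanSpace.proj m : V3 →L[ℝ] ℝ).continuous.comp_continuousOn h.c

theorem Gd.pd {F : ℝ × V3 → V3} (h : Gd T F) (k m : Fin 3) :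
    ContinuousOn (fun p : ℝ × V3 => pd (fun y => F (p.1, y)) k m p.2) (slab T) :=
  (EuclideanSpace.proj m : V3 →L[ℝ] ℝ).continuous.comp_continuousOn
    (h.x.clm_apply (continuousOn_const (c := e3 k)))

theorem Gd.ibx {F : ℝ × V3 → V3} (h : Gd T F) (hψ : Test T ψ) (k m : Fin 3) :
    ∫ p, dX k ψ p * F p m = -∫ p : ℝ × V3, ψ p * P107.pd (fun y => F (p.1, y)) k m p.2 := by
  refine MW.ibx hψ k (h.comp m) (h.pd k m) fun t ht x => ?_
  have h1 : HasDerivAt (fun s : ℝ => x + s • e3 k) (e3 k) 0 := by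
    simpa using ((hasDerivAt_id (0 : ℝ)).smul_const (e3 k)).const_add x
  have h2 := (h.d t ht x).hasFDerivAt.comp_hasDerivAt_of_eq (0 : ℝ) h1 (by simp)
  exact (EuclideanSpace.proj m : V3 →L[ℝ] ℝ).hasFDerivAt.comp_hasDerivAt (0 : ℝ) h2

theorem MWB_vec {F : ℝ → V3} {F' : V3} {S : Set ℝ} {t : ℝ}
    (h : ∀ i, HasDerivWithinAt (fun s => F s i) (F' i) S t) : HasDerivWithinAt F F' S t := by
  have h1 := (((h 0).smul_const (e3 0)).add ((h 1).smul_const (e3 1))).add
    ((h 2).smul_const (e3 2))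
  rw [← eq_sum_e3 F'] at h1
  exact h1.congr (fun s _ => eq_sum_e3 (F s)) (eq_sum_e3 (F t))

theorem MWB_cont {X : Type} [TopologicalSpace X] {F : X → V3} {S : Set X}
    (h : ∀ i, ContinuousOn (fun s => F s i) S) : ContinuousOn F S :=
  ((((h 0).smul continuousOn_const).add ((h 1).smul continuousOn_const)).add
    ((h 2).smul continuousOn_const)).congr fun s _ => eq_sum_e3 (F s)

theorem MWB_div (hT : 0 < T) {F : ℝ × V3 → V3} (h : Gd T F) {ρ : ℝ × V3 → ℝ} (hρ : Continuous ρ)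
    (hw : ∀ ψ, Test T ψ → (∫ p, dX 0 ψ p * F p 0) + (∫ p, dX 1 ψ p * F p 1)
      + (∫ p, dX 2 ψ p * F p 2) + ∫ p, ψ p * ρ p = 0) :
    ∀ t ∈ Icc 0 T, ∀ x, div (fun y => F (t, y)) x = ρ (t, x) := by
  intro t ht x
  have h1 := wz_test hT (g := fun p => ρ p - div (fun y => F (p.1, y)) p.2)
    (hρ.continuousOn.sub (((h.pd 0 0).add (h.pd 1 1)).add (h.pd 2 2))) (fun ψ hψ => ?_) t ht x
  · exact (sub_eq_zero.1 h1).symm
  have h2 := hw ψ hψ
  rw [h.ibx hψ, h.ibx hψ, h.ibx hψ] at h2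
  have i0 := int_test hψ (h.pd 0 0)
  have i1 := int_test hψ (h.pd 1 1)
  have i2 := int_test hψ (h.pd 2 2)
  have i3 := int_test hψ hρ.continuousOn
  have j1 : Integrable fun p : ℝ × V3 => ψ p * pd (fun y => F (p.1, y)) 0 0 p.2
    + ψ p * pd (fun y => F (p.1, y)) 1 1 p.2 := i0.add i1
  have j2 : Integrable fun p : ℝ × V3 => ψ p * pd (fun y => F (p.1, y)) 0 0 p.2
    + ψ p * pd (fun y => F (p.1, y)) 1 1 p.2 + ψ p * pd (fun y => F (p.1, y)) 2 2 p.2 := j1.add i2
  simp only [div, mul_sub, mul_add]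
  rw [integral_sub i3 j2, integral_add j1 i2, integral_add i0 i1]
  linarith

theorem MWB_time (hT : 0 < T) {F G : ℝ × V3 → V3} (hF : Gd T F) (hG : Gd T G) {c : ℝ}
    {J : Fin 3 → ℝ × V3 → ℝ} (hJ : ∀ k, Continuous (J k))
    (hw : ∀ ψ, Test T ψ → ∀ i j k, Cyc i j k → (∫ p, dT ψ p * F p i)
      - c * ((∫ p, dX j ψ p * G p k) - ∫ p, dX k ψ p * G p j) - ∫ p, ψ p * J i p = 0) :
    ∀ t ∈ Icc 0 T, ∀ x i, HasDerivWithinAt (fun s => F (s, x) i)
      (c * curl (fun y => G (t, y)) x i - J i (t, x)) (Icc 0 T) t := by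
  intro t ht x i
  obtain ⟨j, k, h⟩ := exists_cyc i
  rw [h.curl]
  refine wt hT (g := fun p => c * (pd (fun y => G (p.1, y)) j k p.2
    - pd (fun y => G (p.1, y)) k j p.2) - J i p) (hF.comp i)
    ((continuousOn_const.mul ((hG.pd j k).sub (hG.pd k j))).sub (hJ i).continuousOn)
    (fun ψ hψ => ?_) t ht x
  have h2 := hw ψ hψ i j k h
  rw [hG.ibx hψ, hG.ibx hψ] at h2
  have i0 := int_test hψ (hG.pd j k)
  have i1 := int_test hψ (hG.pd k j)
  have i3 := int_test hψ (hJ i).continuousOn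
  have j1 : Integrable fun p : ℝ × V3 => ψ p * pd (fun y => G (p.1, y)) j k p.2
    - ψ p * pd (fun y => G (p.1, y)) k j p.2 := i0.sub i1
  have e : ∀ p : ℝ × V3, ψ p * (c * (pd (fun y => G (p.1, y)) j k p.2
      - pd (fun y => G (p.1, y)) k j p.2) - J i p) = c * (ψ p * pd (fun y => G (p.1, y)) j k p.2
      - ψ p * pd (fun y => G (p.1, y)) k j p.2) - ψ p * J i p := fun p => by ring
  simp only [e]
  rw [integral_sub (j1.const_mul c) i3, integral_const_mul, integral_sub i0 i1]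
  linarith

theorem Gd.curl {F : ℝ × V3 → V3} (h : Gd T F) :
    ContinuousOn (fun p : ℝ × V3 => curl (fun y => F (p.1, y)) p.2) (slab T) := by
  refine MWB_cont fun i => ?_
  obtain ⟨j, k, hc⟩ := exists_cyc i
  simp only [hc.curl]
  exact (h.pd j k).sub (h.pd k j)

theorem maxOn_of_weak {M : ℝ} {K : Fld} {f : ℝ → Z → ℝ} {ρ : ℝ × V3 → ℝ}
    {J : Fin 3 → ℝ × V3 → ℝ} (hT : 0 < T) (hR : Reg K T M) (hρ : Continuous ρ)
    (hJ : ∀ k, Continuous (J k)) (eρ : ∀ t x, ∫ v, f t (x, v) = ρ (t, x))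
    (eJ : ∀ t x k, (∫ v, f t (x, v) • u v) k = J k (t, x)) (hW : Weak T ρ J K) :
    MaxOn T f K := by
  have hc : ContinuousOn K (slab T) := (LipschitzOnWith.of_dist_le' (K := M) fun p hp p' hp' => by
    simpa only [dist_eq_norm] using hR.lip p hp p' hp').continuousOn
  obtain ⟨hd, hx⟩ := sec_fderiv hc hR.sec
  have hE : Gd T fun p => (K p).1 := MWB_gd (ContinuousLinearMap.fst ℝ V3 V3) hc hd hx
  have hB : Gd T fun p => (K p).2 := MWB_gd (ContinuousLinearMap.snd ℝ V3 V3) hc hd hx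
  have amp : ∀ t ∈ Icc 0 T, ∀ x, HasDerivWithinAt (fun s => (K (s, x)).1)
      (curl (fun y => (K (t, y)).2) x - ∫ v, f t (x, v) • u v) (Icc 0 T) t := by
    intro t ht x
    refine MWB_vec fun i => ?_
    have h := MWB_time hT hE hB (c := 1) hJ (fun ψ hψ i j k h => by
      linarith [hW.amp ψ hψ i j k h]) t ht x i
    simpa only [PiLp.sub_apply, eJ, one_mul] using h
  have far : ∀ t ∈ Icc 0 T, ∀ x, HasDerivWithinAt (fun s => (K (s, x)).2)
      (-curl (fun y => (K (t, y)).1) x) (Icc 0 T) t := by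
    intro t ht x
    refine MWB_vec fun i => ?_
    have h := MWB_time hT hB hE (c := -1) (J := fun _ _ => 0) (fun _ => continuous_const)
      (fun ψ hψ i j k h => by
        simp only [mul_zero, integral_zero]
        linarith [hW.far ψ hψ i j k h]) t ht x i
    simpa only [PiLp.neg_apply, neg_one_mul, sub_zero] using h
  refine ⟨?_, amp, far, fun t ht x => ?_, fun t ht x => ?_⟩
  · refine contDiffOn_of_partials hT (gt := fun p => (curl (fun y => (K (p.1, y)).2) p.2
      - ∫ v, f p.1 (p.2, v) • u v, -curl (fun y => (K (p.1, y)).1) p.2)) hd hx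
      (fun t ht x => (amp t ht x).prodMk (far t ht x)) ?_
    refine (hB.curl.sub (MWB_cont fun i => ?_)).prodMk hE.curl.neg
    simp only [eJ]
    exact (hJ i).continuousOn
  · rw [eρ]
    exact MWB_div hT hE hρ hW.gE t ht x
  · refine MWB_div hT hB (ρ := fun _ => 0) continuous_const (fun ψ hψ => ?_) t ht x
    simpa using hW.gB ψ hψ

end Vale.Agent.P107.MW
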