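import Vale.Agent.P107.MWA

/-! BLOCK MX2, file MWC (sub-lead helper85). Definitions in MWD.lean and Ctx.lean. Put the file name in front of helper lemma names.

Plan.
du Bois-Reymond in time. c t = max 0 (min t T) (or projIcc). gc (t, x) = g (c t, x) and ec are globally continuous, G (t, x) = ∫ s in 0..t, gc (s, x) is continuous
(intervalIntegral.continuous_parametric_primitive_of_continuous) with time derivative gc (Continuous.integral_hasStrictDerivAt or integral_hasDerivAt_right).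
ibt: integral_prod_symm and zero1 (MW1) at fixed x. So m = ec - G satisfies ∫ dT ψ * m = 0 for all test ψ. For 0 < h < T and α supported in Icc 0 (T - h) let a t = ∫ s in (t - h)..t, α s:
smooth (difference of two primitives; contDiff_infty_iff_deriv), derivative α t - α (t - h), supported in Icc 0 T. ψ = a ⊗ β (test_prod) and translation invariance
(integral_add_right_eq_self with (h, 0)) give ∫ α β (m p - m (p + (h, 0))) = 0, so wz on [0, T - h] at t = 0: m (h, x) = m (0, x). By continuity also for h = T. Hence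
e (s, x) = e (0, x) + G (s, x) on Icc 0 T (HasDerivWithinAt.congr).
-/

namespace Vale.Agent.P107.MW

open MeasureTheory Set Filter Topology
open scoped ContDiff RealInnerProductSpace ENNReal

variable {f0 : Z → ℝ} {N P0 R T : ℝ} {A : Fld} {Φ Ψ : ℝ → Z → Z} {ψ : ℝ × V3 → ℝ}

theorem ibt (hψ : Test T ψ) {G G' : ℝ × V3 → ℝ} (hG : Continuous G) (hG' : Continuous G')
    (hd : ∀ t x, HasDerivAt (fun s : ℝ => G (s, x)) (G' (t, x)) t) :
    ∫ p, dT ψ p * G p = -∫ p, ψ p * G' p := by
  have i1 := int_test hψ.dT hG.continuousOn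
  have i2 := int_test hψ hG'.continuousOn
  have i3 : Integrable (fun p => dT ψ p * G p + ψ p * G' p) (volume.prod volume) := i1.add i2
  rw [eq_neg_iff_add_eq_zero, ← integral_add i1 i2, Measure.volume_eq_prod, integral_prod_symm _ i3]
  obtain ⟨ρ, hρ⟩ := hψ.supp
  have h : ∀ x, ∫ t, (dT ψ (t, x) * G (t, x) + ψ (t, x) * G' (t, x)) = 0 := fun x => by
    refine zero1 (g := fun t => ψ (t, x) * G (t, x)) (a := 0) (b := T)
      ((hψ.continuous.mul hG).comp (Continuous.prodMk_left x)) (fun s hs => ?_) fun s _ => ?_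
    · have h1 : ψ (s, x) = 0 := by
        by_contra h1
        exact hs (hρ _ h1).1
      simp [h1]
    · exact ((hψ.hasFDerivAt (s, x)).comp_hasDerivAt s
        ((hasDerivAt_id s).prodMk (hasDerivAt_const s x))).mul (hd s x)
  simp only [h, integral_zero]

theorem MWC_prim {α : ℝ → ℝ} (hα : ContDiff ℝ ∞ α) {h : ℝ} (h0 : 0 < h)
    (sα : ∀ t, α t ≠ 0 → t ∈ Icc 0 (T - h)) : ∃ a : ℝ → ℝ, ContDiff ℝ ∞ a ∧
      (∀ t, a t ≠ 0 → t ∈ Icc 0 T) ∧ ∀ t, HasDerivAt a (α t - α (t - h)) t := by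
  have hP : ∀ t, HasDerivAt (fun t => ∫ s in (0 : ℝ)..t, α s) (α t) t := fun t =>
    (hα.continuous.integral_hasStrictDerivAt 0 t).hasDerivAt
  have hs : ContDiff ℝ ∞ fun t => ∫ s in (0 : ℝ)..t, α s := by
    rw [contDiff_infty_iff_deriv]
    refine ⟨fun t => (hP t).differentiableAt, ?_⟩
    rw [show deriv (fun t => ∫ s in (0 : ℝ)..t, α s) = α from funext fun t => (hP t).deriv]
    exact hα
  refine ⟨fun t => (∫ s in (0 : ℝ)..t, α s) - ∫ s in (0 : ℝ)..(t - h), α s,
    hs.sub (hs.comp (contDiff_id.sub contDiff_const)), fun t ht => ?_,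
    fun t => (hP t).sub ((hP (t - h)).comp_sub_const t h)⟩
  by_contra h1
  apply ht
  beta_reduce
  rw [intervalIntegral.integral_interval_sub_left (hα.continuous.intervalIntegrable _ _)
    (hα.continuous.intervalIntegrable _ _), ← intervalIntegral.integral_zero (a := t - h) (b := t)
      (μ := volume)]
  refine intervalIntegral.integral_congr fun s hs => ?_
  rw [uIcc_of_le (by linarith)] at hs
  by_contra h2
  have h3 := sα s h2
  exact h1 ⟨h3.1.trans hs.2, by linarith [h3.2, hs.1]⟩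

theorem MWC_const (hT : 0 < T) {m : ℝ × V3 → ℝ} (hm : Continuous m)
    (h : ∀ ψ, Test T ψ → ∫ p, dT ψ p * m p = 0) : ∀ t ∈ Icc 0 T, ∀ x, m (t, x) = m (0, x) := by
  have key : ∀ r ∈ Ioo 0 T, ∀ x, m (r, x) = m (0, x) := by
    intro r hr x
    have h1 := wz (g := fun p => m p - m (p + (r, 0))) (a := 0) (b := T - r) (sub_pos.2 hr.2)
      (hm.sub (hm.comp (continuous_add_const _))).continuousOn (fun α β hα hβ sα sβ => ?_) 0
      ⟨le_rfl, (sub_pos.2 hr.2).le⟩ x
    · simp only [Prod.mk_add_mk, zero_add, add_zero] at h1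
      linarith
    obtain ⟨a, ha, sa, da⟩ := MWC_prim hα hr.1 sα
    have h2 := h _ (test_prod ha hβ sa sβ)
    have e1 : ∀ p : ℝ × V3, dT (fun p => a p.1 * β p.2) p * m p =
        α p.1 * β p.2 * m p - α (p.1 - r) * β p.2 * m p := fun p => by
      have d1 := ((test_prod ha hβ sa sβ).hasFDerivAt (p.1, p.2)).comp_hasDerivAt p.1
        ((hasDerivAt_id p.1).prodMk (hasDerivAt_const p.1 p.2))
      have d2 : dT (fun p => a p.1 * β p.2) p = (α p.1 - α (p.1 - r)) * β p.2 :=
        d1.unique ((da p.1).mul_const (β p.2))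
      rw [d2]; ring
    have t1 : Test T fun p => α p.1 * β p.2 := test_prod hα hβ
      (fun t ht => ⟨(sα t ht).1, by linarith [(sα t ht).2, hr.1]⟩) sβ
    have t2 : Test T fun p => α (p.1 - r) * β p.2 := test_prod (α := fun t => α (t - r))
      (hα.comp (contDiff_id.sub contDiff_const)) hβ
      (fun t ht => ⟨by linarith [(sα _ ht).1, hr.1], by linarith [(sα _ ht).2]⟩) sβ
    have hm' : Continuous fun p : ℝ × V3 => m (p + (r, 0)) := hm.comp (continuous_add_const _)
    have : (volume : Measure (ℝ × V3)).IsAddRightInvariant :=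
      inferInstanceAs ((volume : Measure ℝ).prod (volume : Measure V3)).IsAddRightInvariant
    simp only [e1] at h2
    rw [integral_sub (int_test t1 hm.continuousOn) (int_test t2 hm.continuousOn),
      ← integral_add_right_eq_self (fun p : ℝ × V3 => α (p.1 - r) * β p.2 * m p) (r, 0)] at h2
    simp only [mul_sub]
    rw [integral_sub (int_test t1 hm.continuousOn) (int_test t1 hm'.continuousOn)]
    simpa using h2
  intro t ht x
  have hc : IsClosed {t : ℝ | m (t, x) = m (0, x)} :=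
    isClosed_eq (hm.comp (Continuous.prodMk_left x)) continuous_const
  rw [← closure_Ioo hT.ne] at ht
  exact hc.closure_subset_iff.2 (fun r hr => key r hr x) ht

theorem wt (hT : 0 < T) {e g : ℝ × V3 → ℝ} (he : ContinuousOn e (slab T))
    (hg : ContinuousOn g (slab T))
    (h : ∀ ψ, Test T ψ → (∫ p, dT ψ p * e p) + ∫ p, ψ p * g p = 0) :
    ∀ t ∈ Icc 0 T, ∀ x, HasDerivWithinAt (fun s => e (s, x)) (g (t, x)) (Icc 0 T) t := by
  have hc : Continuous fun p : ℝ × V3 => ((max 0 (min p.1 T), p.2) : ℝ × V3) := by fun_prop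
  have hm : ∀ p : ℝ × V3, ((max 0 (min p.1 T), p.2) : ℝ × V3) ∈ slab T := fun p =>
    ⟨⟨le_max_left _ _, max_le hT.le (min_le_right _ _)⟩, mem_univ _⟩
  have hid : ∀ t ∈ Icc 0 T, max 0 (min t T) = t := fun t ht => by
    rw [min_eq_left ht.2, max_eq_right ht.1]
  obtain ⟨gc, hgc, egc⟩ : ∃ gc : ℝ × V3 → ℝ, Continuous gc ∧ ∀ t ∈ Icc 0 T, ∀ x,
      gc (t, x) = g (t, x) := ⟨_, hg.comp_continuous hc hm, fun t ht x => by simp [hid t ht]⟩
  obtain ⟨ec, hec, eec⟩ : ∃ ec : ℝ × V3 → ℝ, Continuous ec ∧ ∀ t ∈ Icc 0 T, ∀ x,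
      ec (t, x) = e (t, x) := ⟨_, he.comp_continuous hc hm, fun t ht x => by simp [hid t ht]⟩
  obtain ⟨G, hG, hG0, hGd⟩ : ∃ G : ℝ × V3 → ℝ, Continuous G ∧ (∀ x, G (0, x) = 0) ∧
      ∀ t x, HasDerivAt (fun s : ℝ => G (s, x)) (gc (t, x)) t := by
    refine ⟨fun p => ∫ s in (0 : ℝ)..p.1, gc (s, p.2), ?_, fun x => by simp, fun t x => ?_⟩
    · exact (intervalIntegral.continuous_parametric_primitive_of_continuous (μ := volume)
        (f := fun (x : V3) (s : ℝ) => gc (s, x)) (a₀ := 0) (hgc.comp continuous_swap)).comp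
          continuous_swap
    · exact ((hgc.comp (Continuous.prodMk_left x)).integral_hasStrictDerivAt 0 t).hasDerivAt
  have hmul : ∀ {χ a b : ℝ × V3 → ℝ}, Test T χ → (∀ t ∈ Icc 0 T, ∀ x, a (t, x) = b (t, x)) →
      ∫ p, χ p * a p = ∫ p, χ p * b p := fun {χ a b} hχ hab => by
    obtain ⟨ρ, hρ⟩ := hχ.supp
    refine integral_congr_ae (Eventually.of_forall fun p => ?_)
    by_cases h1 : χ p = 0
    · simp [h1]
    · exact congrArg _ (hab p.1 (hρ p h1).1 p.2)
  have H := MWC_const hT (m := fun p => ec p - G p) (hec.sub hG) fun ψ hψ => by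
    have h1 := h ψ hψ
    simp only [mul_sub]
    rw [integral_sub (int_test hψ.dT hec.continuousOn) (int_test hψ.dT hG.continuousOn),
      ibt hψ hG hgc hGd, hmul hψ.dT eec, hmul hψ egc]
    linarith
  intro t ht x
  have h1 : ∀ s ∈ Icc 0 T, e (s, x) = ec (0, x) + G (s, x) := fun s hs => by
    have h2 := H s hs x
    simp only [hG0, eec s hs] at h2
    linarith
  rw [← egc t ht]
  exact ((hGd t x).const_add (ec (0, x))).hasDerivWithinAt.congr h1 (h1 t ht)

end Vale.Agent.P107.MW
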