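import Vale.Agent.P107.Cone

/-! BLOCK MX2: definitions (sub-lead helper85). Do not change this file.

A point of `Om` is `o = (D, σ, z)`: relative position, emission time, initial phase point. The source sits at `(σ, y)` with momentum `w`,
`(y, w) = Φ σ z`, and the field point is `pt o = (σ + |D|, y + D)`. -/

namespace Vale.Agent.P107.MW

open MeasureTheory Set Filter Topology
open scoped ContDiff RealInnerProductSpace ENNReal

abbrev Om := V3 × (ℝ × Z)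

/-- Basis vector. -/
noncomputable def e3 (k : Fin 3) : V3 := EuclideanSpace.single k 1

/-- Time derivative. -/
noncomputable def dT (ψ : ℝ × V3 → ℝ) (p : ℝ × V3) : ℝ := fderiv ℝ ψ p (1, 0)

/-- Space derivative. -/
noncomputable def dX (k : Fin 3) (ψ : ℝ × V3 → ℝ) (p : ℝ × V3) : ℝ := fderiv ℝ ψ p (0, e3 k)

/-- Test functions supported in a compact part of the slab. -/
structure Test (T : ℝ) (ψ : ℝ × V3 → ℝ) : Prop where
  smooth : ContDiff ℝ ∞ ψ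
  supp : ∃ ρ : ℝ, ∀ p, ψ p ≠ 0 → p.1 ∈ Icc 0 T ∧ ‖p.2‖ ≤ ρ

/-- The applied field, switched off at negative times. -/
noncomputable def Ap (A : Fld) (p : ℝ × V3) : V3 × V3 := if 0 ≤ p.1 then A p else 0

/-- The field point. -/
noncomputable def pt (Φ : ℝ → Z → Z) (o : Om) : ℝ × V3 :=
  (o.2.1 + ‖o.1‖, (Φ o.2.1 o.2.2).1 + o.1)

/-- The momentum of the source. -/
def mom (Φ : ℝ → Z → Z) (o : Om) : V3 := (Φ o.2.1 o.2.2).2

/-- The field at the source. -/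
noncomputable def fld (A : Fld) (Φ : ℝ → Z → Z) (o : Om) : V3 × V3 :=
  Ap A (o.2.1, (Φ o.2.1 o.2.2).1)

/-- The integrand of the retarded potential with momentum weight `c`, tested against `χ`. -/
noncomputable def g0 (f0 : Z → ℝ) (Φ : ℝ → Z → Z) (c : V3 → ℝ) (χ : ℝ × V3 → ℝ) (o : Om) : ℝ :=
  f0 o.2.2 * ((4 * Real.pi * ‖o.1‖)⁻¹ * (c (mom Φ o) * χ (pt Φ o)))

/-- The retarded potential with momentum weight `c`, tested against `χ`. -/
noncomputable def I0 (f0 : Z → ℝ) (Φ : ℝ → Z → Z) (c : V3 → ℝ) (χ : ℝ × V3 → ℝ) : ℝ :=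
  ∫ o : Om, g0 f0 Φ c χ o

/-- The weight one. -/
def c1 : V3 → ℝ := fun _ => 1

/-- The weight `u_k`. -/
noncomputable def cu (k : Fin 3) : V3 → ℝ := fun v => u v k

/-- The moment of the density with weight `c`. -/
noncomputable def mo (f : ℝ → Z → ℝ) (c : V3 → ℝ) (p : ℝ × V3) : ℝ := ∫ v, f p.1 (p.2, v) * c v

/-- The retarded field. -/
noncomputable def ret (f0 : Z → ℝ) (Ψ : ℝ → Z → Z) (A : Fld) (p : ℝ × V3) : V3 × V3 :=
  farF f0 p + intF (dens f0 Ψ) A p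

/-- Cyclic triples. -/
def Cyc (i j k : Fin 3) : Prop :=
  (i = 0 ∧ j = 1 ∧ k = 2) ∨ (i = 1 ∧ j = 2 ∧ k = 0) ∨ (i = 2 ∧ j = 0 ∧ k = 1)

/-- The weak Maxwell equations on the slab with charge `ρ` and current `J`. -/
structure Weak (T : ℝ) (ρ : ℝ × V3 → ℝ) (J : Fin 3 → ℝ × V3 → ℝ) (K : Fld) : Prop where
  gE : ∀ ψ, Test T ψ → (∫ p, dX 0 ψ p * (K p).1 0) + (∫ p, dX 1 ψ p * (K p).1 1)
    + (∫ p, dX 2 ψ p * (K p).1 2) + ∫ p, ψ p * ρ p = 0
  gB : ∀ ψ, Test T ψ → (∫ p, dX 0 ψ p * (K p).2 0) + (∫ p, dX 1 ψ p * (K p).2 1)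
    + (∫ p, dX 2 ψ p * (K p).2 2) = 0
  amp : ∀ ψ, Test T ψ → ∀ i j k, Cyc i j k → (∫ p, dT ψ p * (K p).1 i)
    - (∫ p, dX j ψ p * (K p).2 k) + (∫ p, dX k ψ p * (K p).2 j) - ∫ p, ψ p * J i p = 0
  far : ∀ ψ, Test T ψ → ∀ i j k, Cyc i j k → (∫ p, dT ψ p * (K p).2 i)
    + (∫ p, dX j ψ p * (K p).1 k) - ∫ p, dX k ψ p * (K p).1 j = 0

variable {T : ℝ} {ψ : ℝ × V3 → ℝ} {i j k : Fin 3}

theorem Cyc.next (h : Cyc i j k) : Cyc j k i := by
  unfold Cyc at *; tauto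

theorem exists_cyc (i : Fin 3) : ∃ j k, Cyc i j k := by
  unfold Cyc; revert i; decide

theorem Cyc.cross (h : Cyc i j k) (a b : V3) : cross a b i = a j * b k - a k * b j := by
  rcases h with ⟨rfl, rfl, rfl⟩ | ⟨rfl, rfl, rfl⟩ | ⟨rfl, rfl, rfl⟩ <;> simp [P107.cross]

theorem Cyc.curl (h : Cyc i j k) (F : V3 → V3) (x : V3) :
    curl F x i = pd F j k x - pd F k j x := by
  rcases h with ⟨rfl, rfl, rfl⟩ | ⟨rfl, rfl, rfl⟩ | ⟨rfl, rfl, rfl⟩ <;> simp [P107.curl]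

theorem Cyc.sum (h : Cyc i j k) (f : Fin 3 → ℝ) : f 0 + f 1 + f 2 = f i + f j + f k := by
  rcases h with ⟨rfl, rfl, rfl⟩ | ⟨rfl, rfl, rfl⟩ | ⟨rfl, rfl, rfl⟩ <;> ring

theorem inner_e3 (k : Fin 3) (a : V3) : ⟪e3 k, a⟫ = a k := by
  simp [e3, EuclideanSpace.inner_single_left]

theorem norm_e3 (k : Fin 3) : ‖e3 k‖ = 1 := by simp [e3]

theorem eq_sum_e3 (a : V3) : a = a 0 • e3 0 + a 1 • e3 1 + a 2 • e3 2 := by
  ext i
  fin_cases i <;> simp [e3]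

theorem fderiv_pair (ψ : ℝ × V3 → ℝ) (p : ℝ × V3) (c : ℝ) (b : V3) :
    fderiv ℝ ψ p (c, b) = c * dT ψ p + (b 0 * dX 0 ψ p + b 1 * dX 1 ψ p + b 2 * dX 2 ψ p) := by
  have h : ((c, b) : ℝ × V3) = c • ((1, 0) : ℝ × V3) + (b 0 • ((0, e3 0) : ℝ × V3)
      + b 1 • ((0, e3 1) : ℝ × V3) + b 2 • ((0, e3 2) : ℝ × V3)) := by
    refine Prod.ext (by simp) ?_
    simpa using eq_sum_e3 b
  rw [h]
  simp only [map_add, map_smul, smul_eq_mul, dT, dX]

/-- A test function and its derivative vanish off a compact box and are bounded. -/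
theorem Test.box (h : Test T ψ) : ∃ ρ C : ℝ, 0 ≤ C ∧ (∀ p, |ψ p| ≤ C ∧ ‖fderiv ℝ ψ p‖ ≤ C) ∧
    ∀ p : ℝ × V3, ¬ (p.1 ∈ Icc 0 T ∧ ‖p.2‖ ≤ ρ) → ψ p = 0 ∧ fderiv ℝ ψ p = 0 := by
  obtain ⟨ρ, hρ⟩ := h.supp
  have hK : IsCompact (Icc 0 T ×ˢ Metric.closedBall (0 : V3) ρ) :=
    isCompact_Icc.prod (isCompact_closedBall _ _)
  have h0 : ∀ p : ℝ × V3, p ∉ Icc 0 T ×ˢ Metric.closedBall (0 : V3) ρ → ψ p = 0 := fun p hp => by
    by_contra h1
    exact hp ⟨(hρ p h1).1, mem_closedBall_zero_iff.2 (hρ p h1).2⟩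
  have hc : HasCompactSupport ψ := HasCompactSupport.intro hK h0
  obtain ⟨C1, h1⟩ := h.smooth.continuous.bounded_above_of_compact_support hc
  obtain ⟨C2, h2⟩ := (h.smooth.continuous_fderiv (by simp)).bounded_above_of_compact_support
    (hc.fderiv (𝕜 := ℝ))
  refine ⟨ρ, max C1 C2, (norm_nonneg _).trans ((h1 0).trans (le_max_left _ _)),
    fun p => ⟨(h1 p).trans (le_max_left _ _), (h2 p).trans (le_max_right _ _)⟩, fun p hp => ?_⟩
  have hp' : p ∉ Icc 0 T ×ˢ Metric.closedBall (0 : V3) ρ := fun h1 =>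
    hp ⟨h1.1, mem_closedBall_zero_iff.1 h1.2⟩
  refine ⟨h0 p hp', ?_⟩
  have h3 : ψ =ᶠ[𝓝 p] fun _ => 0 := by
    filter_upwards [hK.isClosed.isOpen_compl.mem_nhds hp'] with x hx using h0 x hx
  rw [h3.fderiv_eq]
  simp

theorem Test.dir (h : Test T ψ) (b : ℝ × V3) : Test T fun p => fderiv ℝ ψ p b := by
  obtain ⟨ρ, C, -, -, h0⟩ := h.box
  refine ⟨(h.smooth.fderiv_right (m := ∞) (by simp)).clm_apply contDiff_const, ρ, fun p hp => ?_⟩
  by_contra h1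
  exact hp (by simp [(h0 p h1).2])

theorem Test.dT (h : Test T ψ) : Test T (dT ψ) := h.dir _

theorem Test.dX (h : Test T ψ) (k : Fin 3) : Test T (dX k ψ) := h.dir _

theorem Test.continuous (h : Test T ψ) : Continuous ψ := h.smooth.continuous

theorem Test.continuous_fderiv (h : Test T ψ) : Continuous (fderiv ℝ ψ) :=
  h.smooth.continuous_fderiv (by simp)

theorem Test.hasFDerivAt (h : Test T ψ) (p : ℝ × V3) : HasFDerivAt ψ (fderiv ℝ ψ p) p :=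
  (h.smooth.differentiable (by simp) p).hasFDerivAt

theorem Test.comm (h : Test T ψ) (a b p : ℝ × V3) :
    fderiv ℝ (fun p => fderiv ℝ ψ p a) p b = fderiv ℝ (fun p => fderiv ℝ ψ p b) p a := by
  have hd : DifferentiableAt ℝ (fderiv ℝ ψ) p :=
    (h.smooth.fderiv_right (m := ∞) (by simp)).differentiable (by simp) p
  have hs : IsSymmSndFDerivAt ℝ ψ p :=
    h.smooth.contDiffAt.isSymmSndFDerivAt (by rw [minSmoothness_of_isRCLikeNormedField]; exact WithTop.coe_le_coe.2 le_top)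
  rw [fderiv_clm_apply hd (differentiableAt_const _), fderiv_clm_apply hd (differentiableAt_const _)]
  simpa using hs b a

theorem Test.dT_dX (h : Test T ψ) (k : Fin 3) : MW.dT (MW.dX k ψ) = MW.dX k (MW.dT ψ) :=
  funext fun p => h.comm _ _ p

theorem Test.dX_dX (h : Test T ψ) (i j : Fin 3) :
    MW.dX i (MW.dX j ψ) = MW.dX j (MW.dX i ψ) :=
  funext fun p => h.comm _ _ p

theorem continuous_cu (k : Fin 3) : Continuous (cu k) := by
  unfold cu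
  exact (EuclideanSpace.proj k : V3 →L[ℝ] ℝ).continuous.comp contDiff_u.continuous

theorem abs_cu_le (k : Fin 3) (v : V3) : |cu k v| ≤ 1 :=
  (PiLp.norm_apply_le (u v) k).trans (norm_u_lt v).le

theorem abs_c1_le (v : V3) : |c1 v| ≤ 1 := by simp [c1]

end Vale.Agent.P107.MW
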