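import Vale.Agent.P107.MW9
import Vale.Agent.P107.MWB

/-! BLOCK MX2: the retarded field solves the Maxwell equations (weakly, then classically). -/

namespace Vale.Agent.P107

open MeasureTheory Set Filter Topology
open scoped ContDiff RealInnerProductSpace ENNReal

theorem ret_maxwell {f0 : Z → ℝ} {N P0 R T M : ℝ} {A : Fld} {Φ Ψ : ℝ → Z → Z}
    (hI : Init f0 N P0) (hA : App A R) (hF : IsFlow A Φ Ψ) (hT : 0 < T)
    (hR : Reg (fun p => farF f0 p + intF (dens f0 Ψ) A p) T M) :
    MaxOn T (dens f0 Ψ) (fun p => farF f0 p + intF (dens f0 Ψ) A p) :=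
  MW.maxOn_of_weak (ρ := MW.mo (dens f0 Ψ) MW.c1) hT hR
    (MW.continuous_mo hI hA hF continuous_const MW.abs_c1_le)
    (fun k => MW.continuous_mo hI hA hF (MW.continuous_cu k) (MW.abs_cu_le k))
    (fun t x => by simp [MW.mo, MW.c1]) (MW.mo_cu hI hA hF) (MW.ret_weak hI hA hF T)

end Vale.Agent.P107
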