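import Vale.Agent.P107.MaxH
import Vale.Agent.P107.MaxW
import Vale.Agent.P107.IntReg
import Vale.Agent.P107.Flow

/-! Assembly of the Maxwell block.

Plan. E1 = E0 - (farF f0 (0,·)).1, B1 likewise: SmB by farF_smb. Divergence free: apply ret_maxwell with A = 0 (exists_flow, Reg from
farF_reg + intF_reg), read gE, gB at t = 0 with intF_zero and dens at time 0. dat = H + farF f0. For K: the function farF + intF equals K - H on
the slab, so it is Reg; ret_maxwell; add the two MaxOn (curl, div additive for differentiable slices, which come from c1) and transfer to K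
(MaxOn only depends on the values on the slab). -/

namespace Vale.Agent.P107

open MeasureTheory Set Filter Topology
open scoped ContDiff RealInnerProductSpace ENNReal

theorem mx_reg_add {K L : Fld} {T M M' : ℝ} (hK : Reg K T M) (hL : Reg L T M') :
    Reg (fun p => K p + L p) T (M + M') := by
  refine ⟨fun p hp => (norm_add_le _ _).trans (add_le_add (hK.bdd p hp) (hL.bdd p hp)),
    fun p hp p' hp' => ?_, fun t ht x h => ?_⟩
  · rw [show K p + L p - (K p' + L p') = (K p - K p') + (L p - L p') by abel, add_mul]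
    exact (norm_add_le _ _).trans (add_le_add (hK.lip p hp p' hp') (hL.lip p hp p' hp'))
  · rw [show K (t, x + h) + L (t, x + h) - (2 : ℝ) • (K (t, x) + L (t, x)) +
        (K (t, x - h) + L (t, x - h)) = (K (t, x + h) - (2 : ℝ) • K (t, x) + K (t, x - h)) +
        (L (t, x + h) - (2 : ℝ) • L (t, x) + L (t, x - h)) by rw [smul_add]; abel, add_mul]
    exact (norm_add_le _ _).trans (add_le_add (hK.sec t ht x h) (hL.sec t ht x h))

theorem mx_reg_neg {K : Fld} {T M : ℝ} (hK : Reg K T M) : Reg (fun p => -K p) T M := by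
  refine ⟨fun p hp => by rw [norm_neg]; exact hK.bdd p hp, fun p hp p' hp' => ?_,
    fun t ht x h => ?_⟩
  · rw [show -K p - -K p' = -(K p - K p') by abel, norm_neg]
    exact hK.lip p hp p' hp'
  · rw [show -K (t, x + h) - (2 : ℝ) • -K (t, x) + -K (t, x - h) =
        -(K (t, x + h) - (2 : ℝ) • K (t, x) + K (t, x - h)) by rw [smul_neg]; abel, norm_neg]
    exact hK.sec t ht x h

theorem mx_mem {T t : ℝ} (ht : t ∈ Icc 0 T) (x : V3) : (t, x) ∈ slab T := ⟨ht, mem_univ _⟩

theorem mx_reg_congr {K L : Fld} {T M : ℝ} (hK : Reg K T M) (e : ∀ p ∈ slab T, L p = K p) :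
    Reg L T M := by
  refine ⟨fun p hp => by rw [e p hp]; exact hK.bdd p hp, fun p hp p' hp' => ?_,
    fun t ht x h => ?_⟩
  · rw [e p hp, e p' hp']
    exact hK.lip p hp p' hp'
  · rw [e _ (mx_mem ht _), e _ (mx_mem ht _), e _ (mx_mem ht _)]
    exact hK.sec t ht x h

theorem mx_max_congr {K L : Fld} {T : ℝ} {f : ℝ → Z → ℝ} (hK : MaxOn T f K)
    (e : ∀ p ∈ slab T, L p = K p) : MaxOn T f L := by
  have e1 : ∀ t ∈ Icc 0 T, (fun y => (L (t, y)).1) = fun y => (K (t, y)).1 := fun t ht =>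
    funext fun y => by rw [e _ (mx_mem ht y)]
  have e2 : ∀ t ∈ Icc 0 T, (fun y => (L (t, y)).2) = fun y => (K (t, y)).2 := fun t ht =>
    funext fun y => by rw [e _ (mx_mem ht y)]
  refine ⟨hK.c1.congr e, fun t ht x => ?_, fun t ht x => ?_, fun t ht x => ?_, fun t ht x => ?_⟩
  · rw [e2 t ht]
    exact (hK.amp t ht x).congr (fun s hs => by rw [e _ (mx_mem hs x)]) (by rw [e _ (mx_mem ht x)])
  · rw [e1 t ht]
    exact (hK.far t ht x).congr (fun s hs => by rw [e _ (mx_mem hs x)]) (by rw [e _ (mx_mem ht x)])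
  · rw [e1 t ht]
    exact hK.gE t ht x
  · rw [e2 t ht]
    exact hK.gB t ht x

theorem mx_slice {K : Fld} {T t : ℝ} (hK : ContDiffOn ℝ 1 K (slab T)) (ht : t ∈ Icc 0 T) :
    Differentiable ℝ fun y => K (t, y) := by
  have h1 : DifferentiableOn ℝ (fun y : V3 => K (t, y)) univ :=
    (hK.differentiableOn one_ne_zero).comp (f := fun y : V3 => (t, y))
      ((differentiable_const t).prodMk differentiable_id).differentiableOn fun y _ => mx_mem ht y
  exact differentiableOn_univ.1 h1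

theorem mx_pd_add {F G : V3 → V3} (hF : Differentiable ℝ F) (hG : Differentiable ℝ G) (i j : Fin 3)
    (x : V3) : pd (fun y => F y + G y) i j x = pd F i j x + pd G i j x := by
  simp only [pd]
  rw [fderiv_fun_add (hF x) (hG x)]
  rfl

theorem mx_pd_sub {F G : V3 → V3} (hF : Differentiable ℝ F) (hG : Differentiable ℝ G) (i j : Fin 3)
    (x : V3) : pd (fun y => F y - G y) i j x = pd F i j x - pd G i j x := by
  simp only [pd]
  rw [fderiv_fun_sub (hF x) (hG x)]
  rfl

theorem mx_div_add {F G : V3 → V3} (hF : Differentiable ℝ F) (hG : Differentiable ℝ G) (x : V3) :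
    div (fun y => F y + G y) x = div F x + div G x := by
  simp only [div, mx_pd_add hF hG]
  ring

theorem mx_div_sub {F G : V3 → V3} (hF : Differentiable ℝ F) (hG : Differentiable ℝ G) (x : V3) :
    div (fun y => F y - G y) x = div F x - div G x := by
  simp only [div, mx_pd_sub hF hG]
  ring

theorem mx_curl_add {F G : V3 → V3} (hF : Differentiable ℝ F) (hG : Differentiable ℝ G) (x : V3) :
    curl (fun y => F y + G y) x = curl F x + curl G x := by
  simp only [curl, mx_pd_add hF hG]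
  ext i
  fin_cases i <;> simp <;> ring

theorem mx_max_add {H G : Fld} {T : ℝ} {f : ℝ → Z → ℝ} (hH : MaxOn T (fun _ _ => 0) H)
    (hG : MaxOn T f G) : MaxOn T f fun p => H p + G p := by
  refine ⟨hH.c1.add hG.c1, fun t ht x => ?_, fun t ht x => ?_, fun t ht x => ?_, fun t ht x => ?_⟩
  · have h1 := (hH.amp t ht x).add (hG.amp t ht x)
    simp only [Prod.fst_add, Prod.snd_add]
    rw [mx_curl_add (mx_slice hH.c1 ht).snd (mx_slice hG.c1 ht).snd]
    refine h1.congr_deriv ?_
    simp only [zero_smul, integral_zero, sub_zero]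
    abel
  · have h1 := (hH.far t ht x).add (hG.far t ht x)
    simp only [Prod.fst_add, Prod.snd_add]
    rw [mx_curl_add (mx_slice hH.c1 ht).fst (mx_slice hG.c1 ht).fst]
    refine h1.congr_deriv ?_
    abel
  · simp only [Prod.fst_add]
    rw [mx_div_add (mx_slice hH.c1 ht).fst (mx_slice hG.c1 ht).fst, hH.gE t ht x, hG.gE t ht x]
    simp
  · simp only [Prod.snd_add]
    rw [mx_div_add (mx_slice hH.c1 ht).snd (mx_slice hG.c1 ht).snd, hH.gB t ht x, hG.gB t ht x]
    simp

theorem mx_smb_sub {F G : V3 → V3} (hF : SmB F) (hG : SmB G) : SmB fun x => F x - G x := by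
  refine ⟨hF.smooth.sub hG.smooth, fun n => ?_⟩
  obtain ⟨C, hC⟩ := hF.bounded n
  obtain ⟨D, hD⟩ := hG.bounded n
  refine ⟨C + D, fun x => ?_⟩
  have h1 : ContDiffAt ℝ n F x := (hF.smooth.of_le (by exact_mod_cast le_top)).contDiffAt
  have h2 : ContDiffAt ℝ n G x := (hG.smooth.of_le (by exact_mod_cast le_top)).contDiffAt
  rw [show (fun x => F x - G x) = F - G from rfl, iteratedFDeriv_sub_apply h1 h2]
  exact (norm_sub_le _ _).trans (add_le_add (hC x) (hD x))

theorem mx_far_div {f0 : Z → ℝ} {N P0 : ℝ} (hI : Init f0 N P0) (x : V3) :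
    div (fun y => (farF f0 (0, y)).1) x = ∫ v, f0 (x, v) ∧
      div (fun y => (farF f0 (0, y)).2) x = 0 := by
  have hA : App (fun _ => 0) 0 := ⟨fun _ => by simp, 0, fun _ _ => by simp⟩
  have hR : Reg (fun _ => 0) 1 0 := ⟨fun _ _ => by simp, fun _ _ _ _ => by simp,
    fun _ _ _ _ => by simp⟩
  obtain ⟨Φ, Ψ, hF⟩ := exists_flow hA
  obtain ⟨K0, h0⟩ := farF_reg hI zero_le_one
  obtain ⟨K1, h1⟩ := intF_reg hI hA hF zero_le_one hR
  have h2 := ret_maxwell hI hA hF one_pos (mx_reg_add h0 h1)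
  have h3 : (0 : ℝ) ∈ Icc (0 : ℝ) 1 := ⟨le_rfl, zero_le_one⟩
  have h4 := h2.gE 0 h3 x
  have h5 := h2.gB 0 h3 x
  simp only [intF_zero, add_zero, dens, hF.zero'] at h4 h5
  exact ⟨h4, h5⟩

theorem maxwell_block {f0 : Z → ℝ} {E0 B0 : V3 → V3} {N P0 : ℝ} (h : Admissible f0 E0 B0)
    (hI : Init f0 N P0) :
    ∃ dat : Fld, (∀ T, 0 ≤ T → ∃ K0, Reg dat T K0) ∧ (∀ x, dat (0, x) = (E0 x, B0 x)) ∧
      ∀ (A K : Fld) (R T M : ℝ) (Φ Ψ : ℝ → Z → Z), App A R → IsFlow A Φ Ψ → 0 < T →
        (∀ p ∈ slab T, K p = dat p + intF (dens f0 Ψ) A p) → Reg K T M →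
        MaxOn T (dens f0 Ψ) K := by
  obtain ⟨s1, s2⟩ := farF_smb hI
  have sE : SmB E0 := ⟨h.goodE.smooth, h.goodE.bounded⟩
  have sB : SmB B0 := ⟨h.goodB.smooth, h.goodB.bounded⟩
  have dd : ∀ {F : V3 → V3}, SmB F → Differentiable ℝ F := fun hF =>
    hF.smooth.differentiable (by simp)
  obtain ⟨H, hH1, hH2, hH3⟩ := kirchhoff_block (mx_smb_sub sE s1) (mx_smb_sub sB s2)
    (fun x => by rw [mx_div_sub (dd sE) (dd s1), h.gaussE, (mx_far_div hI x).1, sub_self])
    (fun x => by rw [mx_div_sub (dd sB) (dd s2), h.gaussB, (mx_far_div hI x).2, sub_self])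
  refine ⟨fun p => H p + farF f0 p, fun T hT => ?_, fun x => ?_,
    fun A K R T M Φ Ψ hA hF hT e hK => ?_⟩
  · obtain ⟨K0, h0⟩ := hH1 T hT
    obtain ⟨K1, h1⟩ := farF_reg hI hT
    exact ⟨_, mx_reg_add h0 h1⟩
  · simp only [hH2]
    ext1 <;> simp
  · obtain ⟨K0, h0⟩ := hH1 T hT.le
    have h1 : Reg (fun p => farF f0 p + intF (dens f0 Ψ) A p) T (M + K0) :=
      mx_reg_congr (mx_reg_add hK (mx_reg_neg h0)) fun p hp => by rw [e p hp]; beta_reduce; abel
    exact mx_max_congr (mx_max_add (hH3 T hT) (ret_maxwell hI hA hF hT h1)) fun p hp => by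
      rw [e p hp, add_assoc]

end Vale.Agent.P107
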