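import Vale.Agent.P107.MX1.Vec
import Vale.Agent.P107.MX1.Far

/-! BLOCK MX1: the source-free Maxwell equations by Kirchhoff's formula, and the regularity of `farF`. -/

namespace Vale.Agent.P107

open MeasureTheory Set Filter Topology
open scoped ContDiff RealInnerProductSpace ENNReal

/-- Smooth and bounded with all derivatives. -/
structure SmB (F : V3 → V3) : Prop where
  smooth : ContDiff ℝ ∞ F
  bounded : ∀ n : ℕ, ∃ C : ℝ, ∀ x, ‖iteratedFDeriv ℝ n F x‖ ≤ C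

theorem kirchhoff_block {E1 B1 : V3 → V3} (hE : SmB E1) (hB : SmB B1) (dE : ∀ x, div E1 x = 0)
    (dB : ∀ x, div B1 x = 0) :
    ∃ H : Fld, (∀ T, 0 ≤ T → ∃ K0, Reg H T K0) ∧ (∀ x, H (0, x) = (E1 x, B1 x)) ∧
      ∀ T, 0 < T → MaxOn T (fun _ _ => 0) H :=
  MX1.mx1_kirchhoff ⟨hE.smooth, hE.bounded⟩ ⟨hB.smooth, hB.bounded⟩ dE dB

theorem farF_reg {f0 : Z → ℝ} {N P0 : ℝ} (hI : Init f0 N P0) {T : ℝ} (hT : 0 ≤ T) :
    ∃ K0, Reg (farF f0) T K0 :=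
  MX1.mx1_farF_reg hI hT

theorem farF_smb {f0 : Z → ℝ} {N P0 : ℝ} (hI : Init f0 N P0) :
    SmB (fun x => (farF f0 (0, x)).1) ∧ SmB (fun x => (farF f0 (0, x)).2) :=
  have h1 := (MX1.mx1_farF_sb hI).clm (ContinuousLinearMap.fst ℝ V3 V3)
  have h2 := (MX1.mx1_farF_sb hI).clm (ContinuousLinearMap.snd ℝ V3 V3)
  ⟨⟨h1.1, h1.2⟩, ⟨h2.1, h2.2⟩⟩

end Vale.Agent.P107
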