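import Vale.Agent.P107.Bas2

/-! Definitions of block PI (Picard iteration, flow estimates). Do not change this file. -/

namespace Vale.Agent.P107

open MeasureTheory Set Filter Topology
open scoped ContDiff RealInnerProductSpace ENNReal

/-- Energy bound on the characteristics starting in the support of `f0`, up to time `T`. -/
def Mom (f0 : Z → ℝ) (Φ : ℝ → Z → Z) (T P : ℝ) : Prop :=
  ∀ σ, σ ≤ T → ∀ z, f0 z ≠ 0 → q (Φ σ z).2 ≤ P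

/-- Weighted Lipschitz bound on the slab. -/
def LipW (A : Fld) (T L g : ℝ) : Prop :=
  ∀ p ∈ slab T, ∀ p' ∈ slab T, ‖A p - A p'‖ ≤ L * Real.exp (g * max p.1 p'.1) * ‖p - p'‖

/-- Lipschitz bound in space on the slab. -/
def LipX (A : Fld) (T L : ℝ) : Prop :=
  ∀ t ∈ Icc 0 T, ∀ x y : V3, ‖A (t, x) - A (t, y)‖ ≤ L * ‖x - y‖

/-- Weighted bound of the second differences in space. -/
def SecW (A : Fld) (T M g : ℝ) : Prop :=
  ∀ t ∈ Icc 0 T, ∀ x h : V3,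
    ‖A (t, x + h) - (2 : ℝ) • A (t, x) + A (t, x - h)‖ ≤ M * Real.exp (g * t) * ‖h‖ ^ 2

/-- Weighted distance on the slab. -/
def CloseW (A A' : Fld) (T ε g : ℝ) : Prop :=
  ∀ p ∈ slab T, ‖A p - A' p‖ ≤ ε * Real.exp (g * p.1)

/-- The integrand of `intF`. -/
noncomputable def itg (f : ℝ → Z → ℝ) (A : Fld) (p : ℝ × V3) (w : Z) : V3 × V3 :=
  f (p.1 - ‖w.1‖) (p.2 - w.1, w.2) • ker w.1 w.2 (A (p.1 - ‖w.1‖, p.2 - w.1))

/-- The part of `intF` coming from distances at most `d`. -/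
noncomputable def nearI (f : ℝ → Z → ℝ) (A : Fld) (d : ℝ) (p : ℝ × V3) : V3 × V3 :=
  ∫ w, {w : Z | ‖w.1‖ ≤ p.1 ∧ ‖w.1‖ ≤ d}.indicator (itg f A p) w

/-- The part of `intF` coming from distances larger than `d`. -/
noncomputable def farI (f : ℝ → Z → ℝ) (A : Fld) (d : ℝ) (p : ℝ × V3) : V3 × V3 :=
  ∫ w, {w : Z | d < ‖w.1‖ ∧ ‖w.1‖ ≤ p.1}.indicator (itg f A p) w

/-- The Lagrangian kernel. -/
noncomputable def lk (D v : V3) (F : V3 × V3) : V3 × V3 := (kap D v)⁻¹ • ker D v F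

/-- The Lagrangian integrand of the far part. -/
noncomputable def lag (f0 : Z → ℝ) (A : Fld) (Φ : ℝ → Z → Z) (d : ℝ) (p : ℝ × V3) (z : Z) :
    V3 × V3 :=
  if d < ‖(cm Φ p.1 p.2 z).1‖ ∧ ‖(cm Φ p.1 p.2 z).1‖ ≤ p.1 then
    f0 z • lk (cm Φ p.1 p.2 z).1 (cm Φ p.1 p.2 z).2
      (A (rt Φ p.1 p.2 z, (Φ (rt Φ p.1 p.2 z) z).1))
  else 0

/-- Shell weight. -/
noncomputable def wS (P a b : ℝ) (w : Z) : ℝ :=
  if q w.2 ≤ P ∧ a ≤ ‖w.1‖ ∧ ‖w.1‖ ≤ b then 1 / ‖w.1‖ ^ 2 else 0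

/-- Exponential weight. -/
noncomputable def wE (P g τ : ℝ) (w : Z) : ℝ :=
  if q w.2 ≤ P then Real.exp (g * (τ - ‖w.1‖)) / ‖w.1‖ ^ 2 else 0

/-- Logarithmic weight. -/
noncomputable def wL (P d T : ℝ) (w : Z) : ℝ :=
  if q w.2 ≤ P ∧ d ≤ ‖w.1‖ ∧ ‖w.1‖ ≤ T then 1 / ‖w.1‖ ^ 3 else 0

/-- The majorant of the Lagrangian difference. -/
noncomputable def hb (P T d L g τ δ t : ℝ) (w : Z) : ℝ :=
  δ * wL P d T w + δ * wS P 0 T w + δ * L * wE P g τ w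
    + wS P d (d + 5 * P ^ 2 * δ) w + wS P (t - 5 * P ^ 2 * δ) t w

/-- A smooth truncation of the field values. -/
structure Tau (τ : V3 × V3 → V3 × V3) (R c : ℝ) : Prop where
  one_le : 1 ≤ c
  eq : ∀ F, ‖F‖ ≤ R → τ F = F
  bdd : ∀ F, ‖τ F‖ ≤ 2 * R
  lip : ∀ F G, ‖τ F - τ G‖ ≤ c * ‖F - G‖
  sec : ∀ F G H, ‖τ F - (2 : ℝ) • τ G + τ H‖ ≤ c * (‖F - (2 : ℝ) • G + H‖ + ‖F - G‖ ^ 2)

/-- The applied field attached to `K`: clamp the time, truncate the values. -/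
noncomputable def cut (τ : V3 × V3 → V3 × V3) (T : ℝ) (K : Fld) : Fld :=
  fun p => τ (K (max 0 (min p.1 T), p.2))

end Vale.Agent.P107
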