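import Vale.Agent.P107.PicPt

/-! The Lagrangian kernel is Lipschitz, with the natural homogeneity.

Plan. Write lk D v F = (‖D‖²)⁻¹ • k2 (nrm D, v, F) + ‖D‖⁻¹ • k1 (nrm D, v, F), where for y = (n, v, F) and c = 1 - ⟪n, u v⟫:
a y = (4 π q² c³)⁻¹ • (n - u v), b y = (4 π c³)⁻¹ • (⟪n, acc F v⟫ • (n - u v) - c • acc F v), k2 = (a, n × a), k1 = (b, n × b)
(cross_smul_right, cross_add_right; true also for D = 0, but D ≠ 0 is assumed). On the compact convex set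
S = closedBall 0 1 ×ˢ closedBall 0 P ×ˢ closedBall 0 R (‖v‖ ≤ q v ≤ P) one has c > 0 (norm_u_lt, Cauchy-Schwarz), so k1, k2 are ContDiffOn ℝ 1
on S (contDiff_u, contDiff_q, contDiff_acc, contDiff_cross, ContDiffOn.inv); ContDiffOn.exists_lipschitzOnWith gives Lipschitz constants,
IsCompact.exists_bound_of_continuousOn gives bounds. With r = ‖D‖, r' = ‖D'‖, m = min r r' > 0, m ≤ T:
‖nrm D - nrm D'‖ ≤ 2 ‖D - D'‖ / m, |1/r - 1/r'| ≤ ‖D - D'‖ / m², |1/r² - 1/r'²| ≤ 2 ‖D - D'‖ / m³, 1/r ≤ 1/m ≤ T / m², smul_sub_le;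
the norm of a difference of triples is at most the sum of the three norms. -/

namespace Vale.Agent.P107

open MeasureTheory Set Filter Topology
open scoped ContDiff RealInnerProductSpace ENNReal

theorem nrm_sub_le {D D' : V3} (hD : D ≠ 0) (hD' : D' ≠ 0) :
    ‖nrm D - nrm D'‖ ≤ 2 * ‖D - D'‖ / min ‖D‖ ‖D'‖ := by
  have h0 : 0 < ‖D‖ := norm_pos_iff.2 hD
  have h0' : 0 < ‖D'‖ := norm_pos_iff.2 hD'
  have e : nrm D - nrm D' = ‖D‖⁻¹ • ((D - D') + (‖D'‖ - ‖D‖) • nrm D') := by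
    rw [sub_smul, smul_nrm D', smul_add, smul_sub, smul_sub, smul_smul, inv_mul_cancel₀ h0.ne',
      one_smul]
    unfold nrm
    abel
  have h1 : ‖(D - D') + (‖D'‖ - ‖D‖) • nrm D'‖ ≤ 2 * ‖D - D'‖ := by
    refine (norm_add_le _ _).trans ?_
    rw [norm_smul, norm_nrm hD', mul_one, Real.norm_eq_abs]
    have := abs_norm_sub_norm_le D' D
    rw [norm_sub_rev D' D] at this
    linarith
  rw [e, norm_smul, norm_inv, norm_norm, inv_mul_eq_div]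
  exact div_le_div₀ (by positivity) h1 (lt_min h0 h0') (min_le_left _ _)

/-- The angular part of the velocity kernel. -/
noncomputable def pkA (y : V3 × V3 × (V3 × V3)) : V3 :=
  (4 * Real.pi * q y.2.1 ^ 2 * (1 - ⟪y.1, u y.2.1⟫) ^ 3)⁻¹ • (y.1 - u y.2.1)

/-- The angular part of the acceleration kernel. -/
noncomputable def pkB (y : V3 × V3 × (V3 × V3)) : V3 :=
  (4 * Real.pi * (1 - ⟪y.1, u y.2.1⟫) ^ 3)⁻¹ •
    (⟪y.1, acc y.2.2 y.2.1⟫ • (y.1 - u y.2.1) - (1 - ⟪y.1, u y.2.1⟫) • acc y.2.2 y.2.1)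

theorem pk_lk_eq (D v : V3) (F : V3 × V3) :
    lk D v F = (‖D‖ ^ 2)⁻¹ • (pkA (nrm D, v, F), cross (nrm D) (pkA (nrm D, v, F)))
      + ‖D‖⁻¹ • (pkB (nrm D, v, F), cross (nrm D) (pkB (nrm D, v, F))) := by
  have e1 : (kap D v)⁻¹ • eT D v = (‖D‖ ^ 2)⁻¹ • pkA (nrm D, v, F) := by
    unfold eT pkA kap
    rw [smul_smul, smul_smul]
    congr 1
    generalize 1 - ⟪nrm D, u v⟫ = k
    ring
  have e2 : (kap D v)⁻¹ • eS D v F = ‖D‖⁻¹ • pkB (nrm D, v, F) := by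
    unfold eS pkB kap
    rw [smul_smul, smul_smul]
    congr 1
    generalize 1 - ⟪nrm D, u v⟫ = k
    ring
  unfold lk ker
  rw [Prod.smul_mk, Prod.smul_mk, Prod.smul_mk, Prod.mk_add_mk, ← cross_smul_right,
    ← cross_smul_right, ← cross_smul_right, ← cross_add_right, smul_add, e1, e2]

theorem pk_pos {n v : V3} (hn : ‖n‖ ≤ 1) : 0 < 1 - ⟪n, u v⟫ := by
  have h1 := real_inner_le_norm n (u v)
  have h2 := norm_u_lt v
  nlinarith [norm_nonneg n, norm_nonneg (u v)]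

theorem pk_u : ContDiff ℝ 1 fun y : V3 × V3 × (V3 × V3) => u y.2.1 :=
  (contDiff_u.of_le (by simp)).comp (contDiff_fst.comp contDiff_snd)

theorem pk_q : ContDiff ℝ 1 fun y : V3 × V3 × (V3 × V3) => q y.2.1 :=
  (contDiff_q.of_le (by simp)).comp (contDiff_fst.comp contDiff_snd)

theorem pk_acc : ContDiff ℝ 1 fun y : V3 × V3 × (V3 × V3) => acc y.2.2 y.2.1 := by
  have h1 : ContDiff ℝ 1 fun p : (V3 × V3) × V3 => acc p.1 p.2 := contDiff_acc.of_le (by simp)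
  have h2 : ContDiff ℝ 1 fun y : V3 × V3 × (V3 × V3) => ((y.2.2, y.2.1) : (V3 × V3) × V3) := by
    fun_prop
  have h3 := h1.comp h2
  simpa only [Function.comp_def] using h3

theorem pk_k : ContDiff ℝ 1 fun y : V3 × V3 × (V3 × V3) => 1 - ⟪y.1, u y.2.1⟫ :=
  contDiff_const.sub (contDiff_fst.inner ℝ pk_u)

theorem pk_smoothA {S : Set (V3 × V3 × (V3 × V3))} (hS : ∀ y ∈ S, ‖y.1‖ ≤ 1) :
    ContDiffOn ℝ 1 pkA S := by
  have h1 : ContDiff ℝ 1 fun y : V3 × V3 × (V3 × V3) =>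
      4 * Real.pi * q y.2.1 ^ 2 * (1 - ⟪y.1, u y.2.1⟫) ^ 3 :=
    (contDiff_const.mul (pk_q.pow 2)).mul (pk_k.pow 3)
  have h2 : ContDiff ℝ 1 fun y : V3 × V3 × (V3 × V3) => y.1 - u y.2.1 := contDiff_fst.sub pk_u
  have h3 := h1.contDiffOn.inv (s := S) fun y hy => by
    have h1 := pk_pos (v := y.2.1) (hS y hy)
    have h2 := q_pos y.2.1
    have h3 := Real.pi_pos
    positivity
  exact h3.smul h2.contDiffOn

theorem pk_smoothB {S : Set (V3 × V3 × (V3 × V3))} (hS : ∀ y ∈ S, ‖y.1‖ ≤ 1) :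
    ContDiffOn ℝ 1 pkB S := by
  have h1 : ContDiff ℝ 1 fun y : V3 × V3 × (V3 × V3) =>
      4 * Real.pi * (1 - ⟪y.1, u y.2.1⟫) ^ 3 := contDiff_const.mul (pk_k.pow 3)
  have h2 : ContDiff ℝ 1 fun y : V3 × V3 × (V3 × V3) => y.1 - u y.2.1 := contDiff_fst.sub pk_u
  have h4 : ContDiff ℝ 1 fun y : V3 × V3 × (V3 × V3) => ⟪y.1, acc y.2.2 y.2.1⟫ :=
    contDiff_fst.inner ℝ pk_acc
  have h5 : ContDiff ℝ 1 fun y : V3 × V3 × (V3 × V3) =>
      ⟪y.1, acc y.2.2 y.2.1⟫ • (y.1 - u y.2.1) - (1 - ⟪y.1, u y.2.1⟫) • acc y.2.2 y.2.1 :=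
    (h4.smul h2).sub (pk_k.smul pk_acc)
  have h3 := h1.contDiffOn.inv (s := S) fun y hy => by
    have h1 := pk_pos (v := y.2.1) (hS y hy)
    have h3 := Real.pi_pos
    positivity
  exact h3.smul h5.contDiffOn

theorem pk_pair {S : Set (V3 × V3 × (V3 × V3))} {k : V3 × V3 × (V3 × V3) → V3}
    (hk : ContDiffOn ℝ 1 k S) : ContDiffOn ℝ 1 (fun y => (k y, cross y.1 (k y))) S := by
  have hc : ContDiff ℝ 1 fun p : V3 × V3 => cross p.1 p.2 := contDiff_cross.of_le (by simp)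
  have h1 : ContDiffOn ℝ 1 (fun y : V3 × V3 × (V3 × V3) => ((y.1, k y) : V3 × V3)) S :=
    contDiffOn_fst.prodMk hk
  exact hk.prodMk (hc.comp_contDiffOn h1)

theorem pk_smooth {S : Set (V3 × V3 × (V3 × V3))} (hS : ∀ y ∈ S, ‖y.1‖ ≤ 1) :
    ContDiffOn ℝ 1 (fun y => (pkA y, cross y.1 (pkA y))) S ∧
      ContDiffOn ℝ 1 (fun y => (pkB y, cross y.1 (pkB y))) S :=
  ⟨pk_pair (pk_smoothA hS), pk_pair (pk_smoothB hS)⟩

theorem pk_inv1 {r r' e : ℝ} (h : 0 < r) (h' : 0 < r') (he : |r - r'| ≤ e) :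
    |r⁻¹ - r'⁻¹| ≤ e / min r r' ^ 2 := by
  have hm : 0 < min r r' := lt_min h h'
  have e1 : r⁻¹ - r'⁻¹ = -(r - r') / (r * r') := by field_simp; ring
  rw [e1, abs_div, abs_neg, abs_of_pos (mul_pos h h'), sq]
  exact div_le_div₀ ((abs_nonneg _).trans he) he (mul_pos hm hm)
    (mul_le_mul (min_le_left _ _) (min_le_right _ _) hm.le h.le)

theorem pk_inv2 {r r' e : ℝ} (h : 0 < r) (h' : 0 < r') (he : |r - r'| ≤ e) :
    |(r ^ 2)⁻¹ - (r' ^ 2)⁻¹| ≤ 2 * (e / min r r' ^ 3) := by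
  have hm : 0 < min r r' := lt_min h h'
  have e1 : (r ^ 2)⁻¹ - (r' ^ 2)⁻¹ = (r⁻¹ - r'⁻¹) * (r⁻¹ + r'⁻¹) := by ring
  have h1 := pk_inv1 h h' he
  have h2 : r⁻¹ ≤ (min r r')⁻¹ := inv_anti₀ hm (min_le_left _ _)
  have h3 : r'⁻¹ ≤ (min r r')⁻¹ := inv_anti₀ hm (min_le_right _ _)
  have h4 : 0 < r⁻¹ + r'⁻¹ := by positivity
  rw [e1, abs_mul, abs_of_pos h4]
  calc |r⁻¹ - r'⁻¹| * (r⁻¹ + r'⁻¹) ≤ e / min r r' ^ 2 * (2 * (min r r')⁻¹) :=
        mul_le_mul h1 (by linarith) h4.le ((abs_nonneg _).trans h1)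
    _ = _ := by field_simp

theorem pk_real {T m a b c B1 B2 K1 K2 x1 x2 y1 y2 s : ℝ} (hm : 0 < m) (hT : m ≤ T) (ha : 0 ≤ a)
    (hb : 0 ≤ b) (hc : 0 ≤ c) (hB1 : 0 ≤ B1) (hB2 : 0 ≤ B2) (hK1 : 0 ≤ K1) (hK2 : 0 ≤ K2)
    (hs : s ≤ 2 * a / m + b + c) (h1 : x1 ≤ a / m ^ 2 * B1) (h2 : x2 ≤ 2 * (a / m ^ 3) * B2)
    (h3 : y1 ≤ m⁻¹ * (K1 * s)) (h4 : y2 ≤ (m ^ 2)⁻¹ * (K2 * s)) :
    x2 + y2 + (x1 + y1)
      ≤ (T * B1 + 2 * B2 + 2 * (T * K1) + 2 * K2) * (a / m ^ 3 + b / m ^ 2 + c / m ^ 2) := by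
  have hT0 : 0 ≤ T := hm.le.trans hT
  set α := a / m ^ 3 with hα
  set β := b / m ^ 2 with hβ
  set γ := c / m ^ 2 with hγ
  have hα0 : 0 ≤ α := by positivity
  have hβ0 : 0 ≤ β := by positivity
  have hγ0 : 0 ≤ γ := by positivity
  have e1 : a / m ^ 2 = m * α := by rw [hα]; field_simp
  have e2 : (m ^ 2)⁻¹ * (2 * a / m + b + c) = 2 * α + β + γ := by rw [hα, hβ, hγ]; field_simp
  have e3 : m⁻¹ * (2 * a / m + b + c) = m * (2 * α + β + γ) := by rw [← e2]; field_simp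
  have g1 : x1 ≤ T * B1 * (α + β + γ) := by
    rw [e1] at h1
    have : m * α * B1 ≤ T * (α + β + γ) * B1 :=
      mul_le_mul_of_nonneg_right (mul_le_mul hT (by linarith) hα0 hT0) hB1
    linarith
  have g2 : x2 ≤ 2 * B2 * (α + β + γ) := by nlinarith [mul_nonneg hB2 hβ0, mul_nonneg hB2 hγ0]
  have g3 : y1 ≤ 2 * (T * K1) * (α + β + γ) := by
    have k1 : m⁻¹ * (K1 * s) ≤ K1 * (m⁻¹ * (2 * a / m + b + c)) := by
      rw [mul_left_comm]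
      exact mul_le_mul_of_nonneg_left (mul_le_mul_of_nonneg_left hs (by positivity)) hK1
    rw [e3] at k1
    have k2 : m * (2 * α + β + γ) ≤ T * (2 * (α + β + γ)) :=
      mul_le_mul hT (by linarith) (by positivity) hT0
    have k3 := mul_le_mul_of_nonneg_left k2 hK1
    linarith
  have g4 : y2 ≤ 2 * K2 * (α + β + γ) := by
    have k1 : (m ^ 2)⁻¹ * (K2 * s) ≤ K2 * ((m ^ 2)⁻¹ * (2 * a / m + b + c)) := by
      rw [mul_left_comm]
      exact mul_le_mul_of_nonneg_left (mul_le_mul_of_nonneg_left hs (by positivity)) hK2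
    rw [e2] at k1
    nlinarith [mul_nonneg hK2 hβ0, mul_nonneg hK2 hγ0]
  linarith

theorem lk_sub_le (P R T : ℝ) : ∃ C : ℝ, 0 ≤ C ∧ ∀ (D D' v v' : V3) (F F' : V3 × V3),
    D ≠ 0 → D' ≠ 0 → ‖D‖ ≤ T → ‖D'‖ ≤ T → q v ≤ P → q v' ≤ P → ‖F‖ ≤ R → ‖F'‖ ≤ R →
    ‖lk D v F - lk D' v' F'‖ ≤ C * (‖D - D'‖ / min ‖D‖ ‖D'‖ ^ 3
      + ‖v - v'‖ / min ‖D‖ ‖D'‖ ^ 2 + ‖F - F'‖ / min ‖D‖ ‖D'‖ ^ 2) := by
  let S : Set (V3 × V3 × (V3 × V3)) :=
    Metric.closedBall 0 1 ×ˢ Metric.closedBall 0 P ×ˢ Metric.closedBall 0 R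
  have hSc : IsCompact S := (isCompact_closedBall _ _).prod
    ((isCompact_closedBall _ _).prod (isCompact_closedBall _ _))
  have hSv : Convex ℝ S := (convex_closedBall _ _).prod
    ((convex_closedBall _ _).prod (convex_closedBall _ _))
  obtain ⟨s2, s1⟩ := pk_smooth (S := S) fun y hy => mem_closedBall_zero_iff.1 hy.1
  obtain ⟨K2, hK2⟩ := s2.exists_lipschitzOnWith one_ne_zero hSv hSc
  obtain ⟨K1, hK1⟩ := s1.exists_lipschitzOnWith one_ne_zero hSv hSc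
  obtain ⟨B2, hB2⟩ := hSc.exists_bound_of_continuousOn s2.continuousOn
  obtain ⟨B1, hB1⟩ := hSc.exists_bound_of_continuousOn s1.continuousOn
  refine ⟨|T| * |B1| + 2 * |B2| + 2 * (|T| * K1) + 2 * K2, by positivity, ?_⟩
  intro D D' v v' F F' hD hD' hT hT' hq hq' hF hF'
  have h0 : 0 < ‖D‖ := norm_pos_iff.2 hD
  have h0' : 0 < ‖D'‖ := norm_pos_iff.2 hD'
  have hm : 0 < min ‖D‖ ‖D'‖ := lt_min h0 h0'
  have hy : (nrm D, v, F) ∈ S := ⟨mem_closedBall_zero_iff.2 (norm_nrm_le D),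
    mem_closedBall_zero_iff.2 ((norm_le_q v).trans hq), mem_closedBall_zero_iff.2 hF⟩
  have hy' : (nrm D', v', F') ∈ S := ⟨mem_closedBall_zero_iff.2 (norm_nrm_le D'),
    mem_closedBall_zero_iff.2 ((norm_le_q v').trans hq'), mem_closedBall_zero_iff.2 hF'⟩
  have hs : ‖((nrm D, v, F) : V3 × V3 × (V3 × V3)) - (nrm D', v', F')‖
      ≤ 2 * ‖D - D'‖ / min ‖D‖ ‖D'‖ + ‖v - v'‖ + ‖F - F'‖ := by
    have a1 := nrm_sub_le hD hD'
    have a2 := norm_nonneg (nrm D - nrm D')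
    have a3 := norm_nonneg (v - v')
    have a4 := norm_nonneg (F - F')
    rw [Prod.mk_sub_mk, Prod.mk_sub_mk, Prod.norm_mk, Prod.norm_mk]
    exact max_le (by linarith) (max_le (by linarith) (by linarith))
  have l2 := hK2.norm_sub_le hy hy'
  have l1 := hK1.norm_sub_le hy hy'
  have b2 := (hB2 _ hy).trans (le_abs_self B2)
  have b1 := (hB1 _ hy).trans (le_abs_self B1)
  have hr := abs_norm_sub_norm_le D D'
  have i1 := pk_inv1 h0 h0' hr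
  have i2 := pk_inv2 h0 h0' hr
  have j1 : |‖D'‖⁻¹| ≤ (min ‖D‖ ‖D'‖)⁻¹ := by
    rw [abs_of_pos (inv_pos.2 h0')]; exact inv_anti₀ hm (min_le_right _ _)
  have j2 : |(‖D'‖ ^ 2)⁻¹| ≤ (min ‖D‖ ‖D'‖ ^ 2)⁻¹ := by
    rw [abs_of_pos (by positivity)]
    exact inv_anti₀ (by positivity) (pow_le_pow_left₀ hm.le (min_le_right _ _) 2)
  rw [pk_lk_eq, pk_lk_eq, add_sub_add_comm]
  refine ((norm_add_le _ _).trans (add_le_add (smul_sub_le _ _ _ _) (smul_sub_le _ _ _ _))).trans ?_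
  exact pk_real hm ((min_le_left _ _).trans (hT.trans (le_abs_self T))) (norm_nonneg _)
    (norm_nonneg _) (norm_nonneg _) (abs_nonneg _) (abs_nonneg _) K1.2 K2.2 hs
    (mul_le_mul i1 b1 (norm_nonneg _) ((abs_nonneg _).trans i1))
    (mul_le_mul i2 b2 (norm_nonneg _) ((abs_nonneg _).trans i2))
    (mul_le_mul j1 l1 (norm_nonneg _) (by positivity))
    (mul_le_mul j2 l2 (norm_nonneg _) (by positivity))

end Vale.Agent.P107
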