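import Vale.Agent.P107.PicPt
import Vale.Agent.P107.PicRad

/-! Eulerian Lipschitz estimate of the near part.

Plan. δ = ‖p - p'‖ (|t - t'| ≤ δ, ‖x - x'‖ ≤ δ), τ = max t t'. integral_sub (integrable_itg), norm_integral_le_of_norm_le with the majorant
c (δ Lf wS P 0 d + δ L wE P g τ + wS P (min t t') τ). Pointwise, r = ‖w.1‖: if d < r both indicators vanish. If r ≤ d and r ≤ min t t':
if P < q w.2 both densities vanish (Mom.dens), otherwise smul_sub_le, hypothesis on the density (times t - r, t' - r ∈ [0, τ]),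
ker_le with ‖F‖ ≤ R, abs_dens_le, ker_sub_le with LipW at (t - r, x - D), (t' - r, x' - D): the max of the times is τ - r and the
difference of the points is p - p'. If exactly one indicator is on, min t t' < r ≤ τ and the term is at most N (P² + 8 P⁴ T R) / r².
integral_wS_le, integral_wE_le, τ - min t t' = |t - t'| ≤ δ. -/

namespace Vale.Agent.P107

open MeasureTheory Set Filter Topology
open scoped ContDiff RealInnerProductSpace ENNReal

section aux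

variable {A : Fld} {R T P L g d Lf : ℝ} {Φ Ψ : ℝ → Z → Z} {f0 : Z → ℝ} {N P0 : ℝ}
  {p p' : ℝ × V3} {w : Z}

theorem near_ker {D v : V3} (hq : q v ≤ P) (hD : ‖D‖ ≤ T) {F : V3 × V3} (hF : ‖F‖ ≤ R) :
    ‖ker D v F‖ ≤ (P ^ 2 + 8 * P ^ 4 * T * R) * (1 / ‖D‖ ^ 2) := by
  have hT : 0 ≤ T := (norm_nonneg _).trans hD
  rw [mul_one_div]
  refine (ker_le hq hD F).trans (div_le_div_of_nonneg_right ?_ (by positivity))
  have : 0 ≤ 8 * P ^ 4 * T := by positivity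
  nlinarith

theorem near_one (hI : Init f0 N P0) (hA : App A R) (hF : IsFlow A Φ Ψ) (hM : Mom f0 Φ T P)
    (hp : p ∈ slab T) (h : ‖w.1‖ ≤ p.1) {a b : ℝ} (ha : a ≤ ‖w.1‖) (hb : ‖w.1‖ ≤ b) :
    ‖itg (dens f0 Ψ) A p w‖ ≤ N * (P ^ 2 + 8 * P ^ 4 * T * R) * wS P a b w := by
  have hN : 0 ≤ N := le_trans zero_le_one hI.one_le_N
  have hR := hA.nonneg
  have hT : 0 ≤ T := (mem_slab.1 hp).1.trans (mem_slab.1 hp).2
  unfold itg
  by_cases h0 : dens f0 Ψ (p.1 - ‖w.1‖) (p.2 - w.1, w.2) = 0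
  · rw [h0, zero_smul, norm_zero]
    have := wS_nonneg P a b w
    positivity
  · have hq : q w.2 ≤ P :=
      hM.dens hF (s := p.1 - ‖w.1‖) (z := (p.2 - w.1, w.2))
        (by linarith [norm_nonneg w.1, (mem_slab.1 hp).2]) h0
    have e : wS P a b w = 1 / ‖w.1‖ ^ 2 := by unfold wS; rw [if_pos ⟨hq, ha, hb⟩]
    rw [e, norm_smul, Real.norm_eq_abs, mul_assoc]
    exact mul_le_mul (abs_dens_le hI _ _) (near_ker hq (h.trans (mem_slab.1 hp).2) (hA.bdd _))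
      (norm_nonneg _) hN

theorem near_both (hI : Init f0 N P0) (hA : App A R) (hF : IsFlow A Φ Ψ) (hM : Mom f0 Φ T P)
    (hL : 0 ≤ L) (hl : LipW A T L g) (hLf : 0 ≤ Lf) (hp : p ∈ slab T) (hp' : p' ∈ slab T)
    (hf : ∀ s ∈ Icc 0 (max p.1 p'.1), ∀ s' ∈ Icc 0 (max p.1 p'.1), ∀ z z' : Z,
      |dens f0 Ψ s z - dens f0 Ψ s' z'| ≤ Lf * (|s - s'| + ‖z - z'‖))
    (h : ‖w.1‖ ≤ p.1) (h' : ‖w.1‖ ≤ p'.1) (hd : ‖w.1‖ ≤ d) :
    ‖itg (dens f0 Ψ) A p w - itg (dens f0 Ψ) A p' w‖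
      ≤ 2 * (P ^ 2 + 8 * P ^ 4 * T * R) * (‖p - p'‖ * Lf) * wS P 0 d w
        + N * (8 * P ^ 4 * T) * (‖p - p'‖ * L) * wE P g (max p.1 p'.1) w := by
  have hN : 0 ≤ N := le_trans zero_le_one hI.one_le_N
  have hR := hA.nonneg
  have hT : 0 ≤ T := (mem_slab.1 hp).1.trans (mem_slab.1 hp).2
  have hn := norm_nonneg w.1
  have ht := (mem_slab.1 hp).2
  have ht' := (mem_slab.1 hp').2
  unfold itg
  by_cases hq : q w.2 ≤ P
  swap
  · have e1 : dens f0 Ψ (p.1 - ‖w.1‖) (p.2 - w.1, w.2) = 0 := by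
      by_contra h0
      exact hq (hM.dens hF (s := p.1 - ‖w.1‖) (z := (p.2 - w.1, w.2)) (by linarith) h0)
    have e2 : dens f0 Ψ (p'.1 - ‖w.1‖) (p'.2 - w.1, w.2) = 0 := by
      by_contra h0
      exact hq (hM.dens hF (s := p'.1 - ‖w.1‖) (z := (p'.2 - w.1, w.2)) (by linarith) h0)
    rw [e1, e2, zero_smul, zero_smul, sub_zero, norm_zero]
    have := wS_nonneg P 0 d w
    have := wE_nonneg P g (max p.1 p'.1) w
    positivity
  have e1 : wS P 0 d w = 1 / ‖w.1‖ ^ 2 := by unfold wS; rw [if_pos ⟨hq, hn, hd⟩]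
  have e2 : wE P g (max p.1 p'.1) w = Real.exp (g * (max p.1 p'.1 - ‖w.1‖)) / ‖w.1‖ ^ 2 := by
    unfold wE; rw [if_pos hq]
  have a1 : |p.1 - p'.1| ≤ ‖p - p'‖ := by
    have := norm_fst_le (p - p')
    simpa [Real.norm_eq_abs] using this
  have a2 : ‖p.2 - p'.2‖ ≤ ‖p - p'‖ := norm_snd_le (p - p')
  have b1 : |dens f0 Ψ (p.1 - ‖w.1‖) (p.2 - w.1, w.2) - dens f0 Ψ (p'.1 - ‖w.1‖) (p'.2 - w.1, w.2)|
      ≤ Lf * (2 * ‖p - p'‖) := by
    refine (hf _ ⟨by linarith, by linarith [le_max_left p.1 p'.1]⟩ _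
      ⟨by linarith, by linarith [le_max_right p.1 p'.1]⟩ _ _).trans
      (mul_le_mul_of_nonneg_left ?_ hLf)
    rw [sub_sub_sub_cancel_right, Prod.mk_sub_mk, sub_sub_sub_cancel_right, sub_self, Prod.norm_mk,
      norm_zero, max_eq_left (norm_nonneg _)]
    linarith
  have b2 := near_ker hq (h.trans ht) (hA.bdd (p.1 - ‖w.1‖, p.2 - w.1))
  have b3 := hl (p.1 - ‖w.1‖, p.2 - w.1) (mem_slab.2 ⟨by simp only; linarith, by simp only; linarith⟩)
    (p'.1 - ‖w.1‖, p'.2 - w.1) (mem_slab.2 ⟨by simp only; linarith, by simp only; linarith⟩)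
  have e3 : ((p.1 - ‖w.1‖, p.2 - w.1) : ℝ × V3) - (p'.1 - ‖w.1‖, p'.2 - w.1) = p - p' := by
    ext <;> simp
  rw [e3] at b3
  simp only [max_sub_sub_right] at b3
  have b4 := (ker_sub_le hq (h.trans ht) (A (p.1 - ‖w.1‖, p.2 - w.1))
    (A (p'.1 - ‖w.1‖, p'.2 - w.1))).trans (div_le_div_of_nonneg_right
      (mul_le_mul_of_nonneg_left b3 (by positivity)) (by positivity))
  refine (smul_sub_le _ _ _ _).trans ((add_le_add
    (mul_le_mul b1 b2 (norm_nonneg _) (by positivity))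
    (mul_le_mul (abs_dens_le hI _ _) b4 (norm_nonneg _) hN)).trans_eq ?_)
  rw [e1, e2]
  ring

theorem near_pt (hI : Init f0 N P0) (hA : App A R) (hF : IsFlow A Φ Ψ) (hM : Mom f0 Φ T P)
    (hL : 0 ≤ L) (hl : LipW A T L g) (hLf : 0 ≤ Lf) (hp : p ∈ slab T) (hp' : p' ∈ slab T)
    (hf : ∀ s ∈ Icc 0 (max p.1 p'.1), ∀ s' ∈ Icc 0 (max p.1 p'.1), ∀ z z' : Z,
      |dens f0 Ψ s z - dens f0 Ψ s' z'| ≤ Lf * (|s - s'| + ‖z - z'‖)) (w : Z) :
    ‖{w : Z | ‖w.1‖ ≤ p.1 ∧ ‖w.1‖ ≤ d}.indicator (itg (dens f0 Ψ) A p) w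
      - {w : Z | ‖w.1‖ ≤ p'.1 ∧ ‖w.1‖ ≤ d}.indicator (itg (dens f0 Ψ) A p') w‖
      ≤ 2 * (P ^ 2 + 8 * P ^ 4 * T * R) * (‖p - p'‖ * Lf) * wS P 0 d w
        + N * (8 * P ^ 4 * T) * (‖p - p'‖ * L) * wE P g (max p.1 p'.1) w
        + N * (P ^ 2 + 8 * P ^ 4 * T * R) * wS P (min p.1 p'.1) (max p.1 p'.1) w := by
  have hN : 0 ≤ N := le_trans zero_le_one hI.one_le_N
  have hR := hA.nonneg
  have hT : 0 ≤ T := (mem_slab.1 hp).1.trans (mem_slab.1 hp).2
  have w1 := wS_nonneg P 0 d w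
  have w2 := wE_nonneg P g (max p.1 p'.1) w
  have w3 := wS_nonneg P (min p.1 p'.1) (max p.1 p'.1) w
  by_cases h : w ∈ {w : Z | ‖w.1‖ ≤ p.1 ∧ ‖w.1‖ ≤ d} <;>
    by_cases h' : w ∈ {w : Z | ‖w.1‖ ≤ p'.1 ∧ ‖w.1‖ ≤ d}
  · rw [indicator_of_mem h, indicator_of_mem h']
    exact (near_both hI hA hF hM hL hl hLf hp hp' hf h.1 h'.1 h.2).trans
      (le_add_of_nonneg_right (by positivity))
  · rw [indicator_of_mem h, indicator_of_notMem h', sub_zero]
    have h1 : p'.1 < ‖w.1‖ := lt_of_not_ge fun h2 => h' ⟨h2, h.2⟩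
    exact (near_one hI hA hF hM hp h.1 ((min_le_right _ _).trans h1.le)
      (h.1.trans (le_max_left _ _))).trans (le_add_of_nonneg_left (by positivity))
  · rw [indicator_of_notMem h, indicator_of_mem h', zero_sub, norm_neg]
    have h1 : p.1 < ‖w.1‖ := lt_of_not_ge fun h2 => h ⟨h2, h'.2⟩
    exact (near_one hI hA hF hM hp' h'.1 ((min_le_left _ _).trans h1.le)
      (h'.1.trans (le_max_right _ _))).trans (le_add_of_nonneg_left (by positivity))
  · rw [indicator_of_notMem h, indicator_of_notMem h', sub_zero, norm_zero]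
    positivity

theorem near_meas (t d : ℝ) : MeasurableSet {w : Z | ‖w.1‖ ≤ t ∧ ‖w.1‖ ≤ d} :=
  (measurableSet_le measurable_fst.norm measurable_const).inter
    (measurableSet_le measurable_fst.norm measurable_const)

end aux

theorem near_lip {N P R T : ℝ} (hN : 0 ≤ N) (hP : 1 ≤ P) (hR : 0 ≤ R) (hT : 0 ≤ T) :
    ∃ C : ℝ, 0 ≤ C ∧ ∀ (f0 : Z → ℝ) (P0 : ℝ) (A : Fld) (Φ Ψ : ℝ → Z → Z) (L g d Lf : ℝ)
      (p p' : ℝ × V3), Init f0 N P0 → App A R → IsFlow A Φ Ψ → Mom f0 Φ T P → 0 ≤ L → 0 < g →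
      LipW A T L g → 0 ≤ d → 0 ≤ Lf → p ∈ slab T → p' ∈ slab T →
      (∀ s ∈ Icc 0 (max p.1 p'.1), ∀ s' ∈ Icc 0 (max p.1 p'.1), ∀ z z' : Z,
        |dens f0 Ψ s z - dens f0 Ψ s' z'| ≤ Lf * (|s - s'| + ‖z - z'‖)) →
      ‖nearI (dens f0 Ψ) A d p - nearI (dens f0 Ψ) A d p'‖
        ≤ C * (1 + d * Lf + L * Real.exp (g * max p.1 p'.1) / g) * ‖p - p'‖ := by
  have hk : 0 ≤ P ^ 2 + 8 * P ^ 4 * T * R := by positivity
  have hP0 : 0 ≤ P := by linarith
  refine ⟨65 * P ^ 3 * (2 * (P ^ 2 + 8 * P ^ 4 * T * R) + N * (8 * P ^ 4 * T)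
    + N * (P ^ 2 + 8 * P ^ 4 * T * R)), by positivity, ?_⟩
  intro f0 P0 A Φ Ψ L g d Lf p p' hI hA hF hM hL hg hl hd hLf hp hp' hf
  have i1 := (integrable_wS P 0 d).const_mul (2 * (P ^ 2 + 8 * P ^ 4 * T * R) * (‖p - p'‖ * Lf))
  have i2 := (integrable_wE P (max p.1 p'.1) hg).const_mul (N * (8 * P ^ 4 * T) * (‖p - p'‖ * L))
  have i3 := (integrable_wS P (min p.1 p'.1) (max p.1 p'.1)).const_mul
    (N * (P ^ 2 + 8 * P ^ 4 * T * R))
  unfold nearI
  rw [← integral_sub (integrable_itg hI hA hF p (near_meas _ _) fun w hw => hw.1)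
    (integrable_itg hI hA hF p' (near_meas _ _) fun w hw => hw.1)]
  refine (norm_integral_le_of_norm_le ((i1.add i2).add i3)
    (Eventually.of_forall (near_pt hI hA hF hM hL hl hLf hp hp' hf))).trans ?_
  rw [integral_add' (i1.add i2) i3, integral_add' i1 i2, integral_const_mul, integral_const_mul,
    integral_const_mul]
  have j1 := integral_wS_le hP0 hd
  have j2 := integral_wE_le hP0 hg (max p.1 p'.1)
  have j3 := integral_wS_le hP0 (min_le_max (a := p.1) (b := p'.1))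
  have a1 : max p.1 p'.1 - min p.1 p'.1 ≤ ‖p - p'‖ := by
    rw [max_sub_min_eq_abs']
    have := norm_fst_le (p - p')
    simpa [Real.norm_eq_abs] using this
  have j4 := j3.trans (mul_le_mul_of_nonneg_left a1 (by positivity))
  have hδ := norm_nonneg (p - p')
  refine (add_le_add (add_le_add (mul_le_mul_of_nonneg_left j1 (by positivity))
    (mul_le_mul_of_nonneg_left j2 (by positivity)))
    (mul_le_mul_of_nonneg_left j4 (by positivity))).trans ?_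
  have he : 0 ≤ L * Real.exp (g * max p.1 p'.1) / g := by positivity
  have hdl : 0 ≤ d * Lf := by positivity
  rw [sub_zero]
  generalize P ^ 2 + 8 * P ^ 4 * T * R = k at *
  have hc : 0 ≤ N * (8 * P ^ 4 * T) := by positivity
  generalize N * (8 * P ^ 4 * T) = c at *
  have hs : 0 ≤ 65 * P ^ 3 * ‖p - p'‖ := by positivity
  have hNk : 0 ≤ N * k := by positivity
  have key : 2 * k * (d * Lf) + c * (L * Real.exp (g * max p.1 p'.1) / g) + N * k
      ≤ (2 * k + c + N * k) * (1 + d * Lf + L * Real.exp (g * max p.1 p'.1) / g) := by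
    nlinarith [mul_nonneg hk he, mul_nonneg hc hdl, mul_nonneg hNk he, mul_nonneg hNk hdl]
  refine (le_of_eq ?_).trans ((mul_le_mul_of_nonneg_left key hs).trans_eq ?_) <;> ring

end Vale.Agent.P107
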