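import Vale.Agent.P107.PicD

/-! Pointwise facts used by all estimates of `intF`.

Plan. mom_of_app: for σ ≤ 0 free streaming keeps the momentum; for 0 ≤ σ use q_sub_le, mom_sub_le, IsFlow.zero.
Mom.dens: z = Φ s (Ψ s z). ker_le: norm_ker_le, 1 / ‖D‖ ≤ T / ‖D‖² (treat D = 0 apart: both sides of norm_ker_le vanish, x / 0 = 0).
ker_sub_le: ker_sub, norm_eS_le, norm_cross_le, norm_nrm_le. ker_sec_le: with S a = ker D v a - ker D v 0 (ker_sub, sub_zero),
ker F - ker G = S (F - G), so ker F - 2 ker G + ker H = S (F - G) - S (G - H) = ker (F - G) - ker (G - H), then ker_sub_le.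
lk_le: kap_ge, kap_pos. intF_eq: integral_indicator. -/

namespace Vale.Agent.P107

open MeasureTheory Set Filter Topology
open scoped ContDiff RealInnerProductSpace ENNReal

variable {A : Fld} {R T P L g : ℝ} {Φ Ψ : ℝ → Z → Z} {f0 : Z → ℝ} {N P0 : ℝ}

theorem mom_of_app (hI : Init f0 N P0) (hA : App A R) (hF : IsFlow A Φ Ψ) (hT : 0 ≤ T) :
    Mom f0 Φ T (P0 + 2 * R * T) := by
  intro σ hσ z hz
  have hR := hA.nonneg
  have h0 := (hI.supp z hz).2
  by_cases h : σ ≤ 0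
  · rw [hF.free σ h]
    have : 0 ≤ 2 * R * T := by positivity
    simp only
    linarith
  · have h1 := hF.mom_sub_le hA 0 σ z
    rw [hF.zero, sub_zero, abs_of_pos (not_le.1 h)] at h1
    have h2 := (abs_le.1 (q_sub_le (Φ σ z).2 z.2)).2
    have h3 : 2 * R * σ ≤ 2 * R * T := mul_le_mul_of_nonneg_left hσ (by positivity)
    linarith

/-- An energy bound for nonnegative times gives `Mom`. -/
theorem mom_of_Icc (hF : IsFlow A Φ Ψ) (hT : 0 ≤ T)
    (h : ∀ t ∈ Icc 0 T, ∀ z, f0 z ≠ 0 → q (Φ t z).2 ≤ P) : Mom f0 Φ T P := by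
  intro σ hσ z hz
  by_cases h0 : 0 ≤ σ
  · exact h σ ⟨h0, hσ⟩ z hz
  · have h1 := h 0 ⟨le_rfl, hT⟩ z hz
    rw [hF.zero] at h1
    rw [hF.free σ (not_le.1 h0).le]
    exact h1

theorem Mom.mono {T' P' : ℝ} (hM : Mom f0 Φ T P) (hT : T' ≤ T) (hP : P ≤ P') :
    Mom f0 Φ T' P' := by
  exact fun σ hσ z hz => (hM σ (hσ.trans hT) z hz).trans hP

theorem Mom.dens (hM : Mom f0 Φ T P) (hF : IsFlow A Φ Ψ) {s : ℝ} (hs : s ≤ T) {z : Z}
    (h : dens f0 Ψ s z ≠ 0) : q z.2 ≤ P := by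
  have h1 := hM s hs (Ψ s z) h
  rwa [hF.right] at h1

theorem abs_dens_le (hI : Init f0 N P0) (s : ℝ) (z : Z) : |dens f0 Ψ s z| ≤ N := by
  unfold dens
  rw [abs_of_nonneg (hI.nonneg _)]
  exact hI.le _

theorem App.mono {R' : ℝ} (hA : App A R) (h : R ≤ R') : App A R' := by
  exact ⟨fun p => (hA.bdd p).trans h, hA.lip⟩

theorem App.exists_lipX (hA : App A R) : ∃ L, 0 ≤ L ∧ ∀ T, LipX A T L := by
  obtain ⟨L, hL⟩ := hA.lip
  refine ⟨|L|, abs_nonneg _, fun T t _ x y => (hL (t, x) (t, y)).trans ?_⟩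
  rw [Prod.mk_sub_mk, sub_self, Prod.norm_mk, norm_zero, max_eq_right (norm_nonneg _)]
  exact mul_le_mul_of_nonneg_right (le_abs_self L) (norm_nonneg _)

theorem LipW.lipX (hl : LipW A T L g) (hL : 0 ≤ L) (hg : 0 ≤ g) :
    LipX A T (L * Real.exp (g * T)) := by
  intro t ht x y
  have h := hl (t, x) ⟨ht, mem_univ _⟩ (t, y) ⟨ht, mem_univ _⟩
  have e : ‖((t, x) : ℝ × V3) - (t, y)‖ = ‖x - y‖ := by
    rw [Prod.mk_sub_mk, sub_self, Prod.norm_mk, norm_zero, max_eq_right (norm_nonneg _)]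
  rw [e] at h
  simp only [max_self] at h
  refine h.trans (mul_le_mul_of_nonneg_right (mul_le_mul_of_nonneg_left
    (Real.exp_le_exp.2 (mul_le_mul_of_nonneg_left ht.2 hg)) hL) (norm_nonneg _))

theorem mem_slab {p : ℝ × V3} : p ∈ slab T ↔ 0 ≤ p.1 ∧ p.1 ≤ T := by
  simp [slab]

theorem pt_eS_le {D v : V3} (hq : q v ≤ P) (hD : ‖D‖ ≤ T) {c : ℝ} (hc : 0 ≤ c) :
    8 * q v ^ 4 * c / ‖D‖ ≤ 8 * P ^ 4 * T * c / ‖D‖ ^ 2 := by
  rcases (norm_nonneg D).eq_or_lt with h | h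
  · rw [← h]; simp
  · have h1 : q v ^ 4 ≤ P ^ 4 := pow_le_pow_left₀ (q_pos v).le hq 4
    have h2 : q v ^ 4 * ‖D‖ ≤ P ^ 4 * T := mul_le_mul h1 hD h.le (by positivity)
    rw [div_le_div_iff₀ h (by positivity)]
    have h3 := mul_le_mul_of_nonneg_right h2 (show 0 ≤ 8 * c * ‖D‖ by positivity)
    nlinarith

theorem ker_le {D v : V3} (hq : q v ≤ P) (hD : ‖D‖ ≤ T) (F : V3 × V3) :
    ‖ker D v F‖ ≤ (P ^ 2 + 8 * P ^ 4 * T * ‖F‖) / ‖D‖ ^ 2 := by
  have h1 : q v ^ 2 / ‖D‖ ^ 2 ≤ P ^ 2 / ‖D‖ ^ 2 :=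
    div_le_div_of_nonneg_right (pow_le_pow_left₀ (q_pos v).le hq 2) (by positivity)
  rw [add_div]
  exact (norm_ker_le D v F).trans (add_le_add h1 (pt_eS_le hq hD (norm_nonneg F)))

theorem ker_sub_le {D v : V3} (hq : q v ≤ P) (hD : ‖D‖ ≤ T) (F G : V3 × V3) :
    ‖ker D v F - ker D v G‖ ≤ 8 * P ^ 4 * T * ‖F - G‖ / ‖D‖ ^ 2 := by
  rw [ker_sub, Prod.norm_mk]
  have h1 := (norm_eS_le D v (F - G)).trans (pt_eS_le hq hD (norm_nonneg _))
  refine max_le h1 ((norm_cross_le _ _).trans (le_trans ?_ h1))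
  exact mul_le_of_le_one_left (norm_nonneg _) (norm_nrm_le D)

theorem ker_sec_le {D v : V3} (hq : q v ≤ P) (hD : ‖D‖ ≤ T) (F G H : V3 × V3) :
    ‖ker D v F - (2 : ℝ) • ker D v G + ker D v H‖
      ≤ 8 * P ^ 4 * T * ‖F - (2 : ℝ) • G + H‖ / ‖D‖ ^ 2 := by
  have h1 : ker D v F - ker D v G = ker D v (F - G) - ker D v 0 := by
    rw [ker_sub, ker_sub, sub_zero]
  have h2 : ker D v G - ker D v H = ker D v (G - H) - ker D v 0 := by
    rw [ker_sub, ker_sub, sub_zero]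
  have e : ker D v F - (2 : ℝ) • ker D v G + ker D v H = ker D v (F - G) - ker D v (G - H) := by
    calc _ = (ker D v F - ker D v G) - (ker D v G - ker D v H) := by rw [two_smul]; abel
      _ = _ := by rw [h1, h2]; abel
  have e2 : F - (2 : ℝ) • G + H = (F - G) - (G - H) := by rw [two_smul]; abel
  rw [e, e2]
  exact ker_sub_le hq hD _ _

theorem lk_le {D v : V3} (hq : q v ≤ P) (hD : ‖D‖ ≤ T) {F : V3 × V3} (hF : ‖F‖ ≤ R) :
    ‖lk D v F‖ ≤ 2 * P ^ 2 * (P ^ 2 + 8 * P ^ 4 * T * R) / ‖D‖ ^ 2 := by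
  have hT : 0 ≤ T := (norm_nonneg _).trans hD
  have h1 : (kap D v)⁻¹ ≤ 2 * P ^ 2 := by
    have h2 := inv_anti₀ (by have := q_pos v; positivity) (kap_ge D v)
    rw [inv_inv] at h2
    have h3 := pow_le_pow_left₀ (q_pos v).le hq 2
    linarith
  have h4 : ‖ker D v F‖ ≤ (P ^ 2 + 8 * P ^ 4 * T * R) / ‖D‖ ^ 2 := by
    refine (ker_le hq hD F).trans (div_le_div_of_nonneg_right ?_ (by positivity))
    have : 0 ≤ 8 * P ^ 4 * T := by positivity
    nlinarith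
  unfold lk
  rw [norm_smul, Real.norm_eq_abs, abs_of_pos (inv_pos.2 (kap_pos D v)), mul_div_assoc]
  exact mul_le_mul h1 h4 (norm_nonneg _) (by positivity)

theorem smul_sub_le {E : Type} [NormedAddCommGroup E] [NormedSpace ℝ E] (a b : ℝ) (x y : E) :
    ‖a • x - b • y‖ ≤ |a - b| * ‖x‖ + |b| * ‖x - y‖ := by
  have e : a • x - b • y = (a - b) • x + b • (x - y) := by
    rw [sub_smul, smul_sub]; abel
  rw [e]
  refine (norm_add_le _ _).trans_eq ?_
  rw [norm_smul, norm_smul, Real.norm_eq_abs, Real.norm_eq_abs]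

theorem smul_sec_le {E : Type} [NormedAddCommGroup E] [NormedSpace ℝ E] (a b c : ℝ) (x y z : E) :
    ‖a • x - (2 : ℝ) • (b • y) + c • z‖ ≤ |a - 2 * b + c| * ‖y‖ + |b| * ‖x - (2 : ℝ) • y + z‖
      + |a - b| * ‖x - y‖ + |c - b| * ‖z - y‖ := by
  have e : a • x - (2 : ℝ) • (b • y) + c • z = (a - 2 * b + c) • y + b • (x - (2 : ℝ) • y + z)
      + (a - b) • (x - y) + (c - b) • (z - y) := by
    module
  rw [e]
  refine (norm_add_le _ _).trans (add_le_add ((norm_add_le _ _).trans (add_le_add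
    ((norm_add_le _ _).trans (add_le_add ?_ ?_)) ?_)) ?_) <;>
    rw [norm_smul, Real.norm_eq_abs]

theorem intF_eq (f : ℝ → Z → ℝ) (A : Fld) (p : ℝ × V3) :
    intF f A p = ∫ w, {w : Z | ‖w.1‖ ≤ p.1}.indicator (itg f A p) w := by
  rw [integral_indicator (measurableSet_le measurable_fst.norm measurable_const)]
  rfl

theorem integrable_itg (hI : Init f0 N P0) (hA : App A R) (hF : IsFlow A Φ Ψ) (p : ℝ × V3)
    {S : Set Z} (hS : MeasurableSet S) (hp : S ⊆ {w : Z | ‖w.1‖ ≤ p.1}) :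
    Integrable (S.indicator (itg (dens f0 Ψ) A p)) := by
  exact (integrable_indicator_iff hS).2 ((integrableOn_intF hI hA hF p).mono_set hp)

theorem measurable_itg (hI : Init f0 N P0) (hA : App A R) (hF : IsFlow A Φ Ψ) (p : ℝ × V3) :
    Measurable (itg (dens f0 Ψ) A p) := by
  have h1 : Continuous fun w : Z => dens f0 Ψ (p.1 - ‖w.1‖) (p.2 - w.1, w.2) :=
    (hF.continuous_dens hI).comp (f := fun w : Z => ((p.1 - ‖w.1‖, (p.2 - w.1, w.2)) : ℝ × Z))
      (by fun_prop)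
  have h2 : Continuous fun w : Z => A (p.1 - ‖w.1‖, p.2 - w.1) := hA.continuous.comp (by fun_prop)
  have h3 : Measurable fun w : Z => ((w, A (p.1 - ‖w.1‖, p.2 - w.1)) : Z × (V3 × V3)) :=
    measurable_id.prodMk h2.measurable
  have h4 := measurable_ker.comp h3
  simp only [Function.comp_def] at h4
  unfold itg
  exact h1.measurable.smul h4

theorem intF_split (hI : Init f0 N P0) (hA : App A R) (hF : IsFlow A Φ Ψ) (d : ℝ) (p : ℝ × V3) :
    intF (dens f0 Ψ) A p = nearI (dens f0 Ψ) A d p + farI (dens f0 Ψ) A d p := by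
  have m1 : MeasurableSet {w : Z | ‖w.1‖ ≤ p.1 ∧ ‖w.1‖ ≤ d} :=
    (measurableSet_le measurable_fst.norm measurable_const).inter
      (measurableSet_le measurable_fst.norm measurable_const)
  have m2 : MeasurableSet {w : Z | d < ‖w.1‖ ∧ ‖w.1‖ ≤ p.1} :=
    (measurableSet_lt measurable_const measurable_fst.norm).inter
      (measurableSet_le measurable_fst.norm measurable_const)
  unfold nearI farI
  rw [intF_eq, ← integral_add (integrable_itg hI hA hF p m1 fun w hw => hw.1)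
    (integrable_itg hI hA hF p m2 fun w hw => hw.2)]
  congr 1
  ext1 w
  by_cases h : ‖w.1‖ ≤ p.1 <;> by_cases h' : ‖w.1‖ ≤ d <;>
    simp [indicator, h, h', not_lt.2, not_le.1]

end Vale.Agent.P107
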