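import Vale.Agent.P107.SumBas

/-! Pointwise bounds and the sums over the distance for the critical sums. -/

namespace Vale.Agent.P107

open MeasureTheory Set Filter Topology
open scoped RealInnerProductSpace ENNReal

variable {C N En c P qq ψ : ℝ} {m : Idx → ℝ} {ε : ℤ → ℝ} {x : Idx}

theorem sa_vol (h : Mass C N En c P qq m ε) (hC : 0 ≤ C * N * dl c P qq) (hψ : 0 ≤ ψ) (hx : Adm P x) :
    ψ * (cα x / (cΘ x ^ 3 * cR x ^ 2)) * m x
      ≤ C * N * dl c P qq * ψ * cα x ^ 3 * cΘ x * cQ x ^ 3 * cR x := by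
  have h1 := cQ_pos x
  have h2 := cΘ_pos x
  have h3 := cα_pos x
  have h4 := cR_pos x
  have h5 : cβ x ^ 2 ≤ cΘ x ^ 2 := pow_le_pow_left₀ (cβ_pos x).le (min_le_left _ _) 2
  refine (mul_le_mul_of_nonneg_left ((h.vol x hx).trans (mul_le_mul_of_nonneg_left h5
    (by positivity))) (by positivity)).trans (le_of_eq ?_)
  field_simp

theorem sa_pass (h : Mass C N En c P qq m ε) (hC : 1 ≤ C) (hE : 1 ≤ En) (hc : 0 < c) (hP : 1 ≤ P)
    (hψ : 0 ≤ ψ) (hx : Adm P x) (hA : rA x) (hz : zP C c P qq x) :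
    ψ * (cα x / (cΘ x ^ 3 * cR x ^ 2)) * m x
      ≤ 72 * C * ψ * ww En c P ε x.1.1 / (cΘ x * cα x ^ 2 * cQ x) / cR x := by
  have h1 := cQ_pos x
  have h2 := cΘ_pos x
  have h3 := cα_pos x
  have h4 := cR_pos x
  have h5 := cθ_pos x
  have h6 : 0 ≤ ww En c P ε x.1.1 := by linarith [h.ww_ge hc hP x.1.1]
  have h7 : (cα x + cθ x) / cθ x ^ 2 ≤ 36 / cα x := by
    rw [div_le_div_iff₀ (by positivity) h3]
    nlinarith [hA.2.1, hA.2.2]
  refine (mul_le_mul_of_nonneg_left (h.pass' hC hE hc hP hx hz) (by positivity)).trans ?_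
  rw [mul_div_assoc _ (cα x + cθ x)]
  refine le_of_le_of_eq (b := ψ * (cα x / (cΘ x ^ 3 * cR x ^ 2)) * (2 * C * (cΘ x / cα x) ^ 2
    * cR x * (36 / cα x) * ww En c P ε x.1.1 / cQ x)) (by gcongr) ?_
  field_simp
  ring

theorem sa_ener (h : Mass C N En c P qq m ε) (hC : 1 ≤ C) (hE : 1 ≤ En) (hψ : 0 ≤ ψ) (hx : Adm P x)
    (hz : ¬ zP C c P qq x) : ψ * (cα x / (cΘ x ^ 3 * cR x ^ 2)) * m x
      ≤ 2 * C * ψ * dl c P qq * En / (cα x * cΘ x * cQ x) / cR x ^ 2 := by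
  have h1 := cQ_pos x
  have h2 := cΘ_pos x
  have h3 := cα_pos x
  have h4 := cR_pos x
  have h5 : dl c P qq + cR x ≤ 2 * dl c P qq := by linarith [not_lt.1 fun e => hz (Or.inl e)]
  refine (mul_le_mul_of_nonneg_left (h.ener x hx) (by positivity)).trans ?_
  refine le_of_le_of_eq (b := ψ * (cα x / (cΘ x ^ 3 * cR x ^ 2)) * (C * (cΘ x / cα x) ^ 2
    * (2 * dl c P qq) * En / cQ x)) (by gcongr) ?_
  field_simp

/-- The sum over the distance in zone P. -/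
theorem sa_P (h : Mass C N En c P qq m ε) (hC : 1 ≤ C) (hN : 1 ≤ N) (hE : 1 ≤ En) (hc : 0 < c)
    (hP : 1 ≤ P) (hq : 0 < qq) (hψ : 0 ≤ ψ) (i j l k : ℤ) (s : Finset ℤ) (hs : s.Nonempty)
    (H : ∀ r ∈ s, Adm P ((i, j, l), (k, r)) ∧ rA ((i, j, l), (k, r)) ∧
      zP C c P qq ((i, j, l), (k, r))) :
    ∑ r ∈ s, ψ * (2 ^ k / ((2 ^ l) ^ 3 * (2 ^ r) ^ 2)) * m ((i, j, l), (k, r)) ≤
      72 * C * N * Real.sqrt (dl c P qq) * (2 ^ i * Real.sqrt (ww En c P ε i))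
        * (2 ^ j) ^ (1 / 4 : ℝ) * (2 ^ k) ^ (1 / 4 : ℝ) * ψ := by
  have hd := dl_pos hc hP hq
  have hw : 0 ≤ ww En c P ε i := by linarith [h.ww_ge hc hP i]
  obtain ⟨r0, hr0⟩ := hs
  have hA : (2 : ℝ) ^ k ≤ 3 * 2 ^ j := (H r0 hr0).2.1.2.2
  refine (Finset.sum_le_sum fun r hr => le_min (sa_vol h (by positivity) hψ (H r hr).1)
    (sa_pass h hC hE hc hP hψ (H r hr).1 (H r hr).2.1 (H r hr).2.2)).trans ?_
  simp only [cQ, cΘ, cα, cR]
  refine (sum_min_one (by positivity) (by positivity) s).trans ?_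
  have e : ∀ y : ℝ, 0 ≤ y → (y ^ (1 / 4 : ℝ)) ^ 4 = y := fun y hy => by
    rw [one_div]
    exact Real.rpow_inv_natCast_pow hy four_ne_zero
  have e1 := e (2 ^ j) (by positivity)
  have e2 := e (2 ^ k) (by positivity)
  have p1 : (0 : ℝ) < (2 ^ j) ^ (1 / 4 : ℝ) := by positivity
  have p2 : (0 : ℝ) < (2 ^ k) ^ (1 / 4 : ℝ) := by positivity
  have p3 : (0 : ℝ) < 2 ^ l := by positivity
  have p4 : (0 : ℝ) < 2 ^ i := by positivity
  rw [← e2, ← e1] at hA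
  conv_lhs => rw [← e2]
  generalize ((2 : ℝ) ^ j) ^ (1 / 4 : ℝ) = a at *
  generalize ((2 : ℝ) ^ k) ^ (1 / 4 : ℝ) = b at *
  have h2 : b ^ 2 ≤ 2 * a ^ 2 := by
    refine le_of_sq_le_sq ?_ (by positivity)
    nlinarith [pow_pos p1 4]
  have e3 : C * N * dl c P qq * ψ * (b ^ 4) ^ 3 * 2 ^ l * (2 ^ i) ^ 3 *
      (72 * C * ψ * ww En c P ε i / (2 ^ l * (b ^ 4) ^ 2 * 2 ^ i))
      = 72 * N * b ^ 2 * (C * Real.sqrt (dl c P qq) * (2 ^ i * Real.sqrt (ww En c P ε i))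
        * b * ψ) ^ 2 := by
    simp only [mul_pow, Real.sq_sqrt hd.le, Real.sq_sqrt hw]
    field_simp
  rw [e3, ← le_div_iff₀' four_pos]
  refine Real.sqrt_le_iff.2 ⟨by positivity, ?_⟩
  refine le_of_le_of_eq (mul_le_mul_of_nonneg_right (c := (18 * N * a) ^ 2) ?_ (sq_nonneg _))
    (by ring)
  have h3 : 0 ≤ N * a ^ 2 := by positivity
  nlinarith [mul_le_mul_of_nonneg_left h2 (zero_le_one.trans hN),
    mul_le_mul_of_nonneg_right hN h3]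

/-- The sum over the distance in zone S. -/
theorem sa_S (h : Mass C N En c P qq m ε) (hC : 1 ≤ C) (hN : 1 ≤ N) (hE : 1 ≤ En)
    (hd : 0 < dl c P qq) (hψ : 0 ≤ ψ) {W : ℝ} (hW : 0 ≤ W) (i j l k : ℤ) (s : Finset ℤ)
    (hb : ψ ^ 3 * ((2 ^ k) ^ 5 * 2 ^ l * (2 ^ i) ^ 5) ≤ W ^ 3)
    (H : ∀ r ∈ s, Adm P ((i, j, l), (k, r)) ∧ ¬ zP C c P qq ((i, j, l), (k, r))) :
    ∑ r ∈ s, ψ * (2 ^ k / ((2 ^ l) ^ 3 * (2 ^ r) ^ 2)) * m ((i, j, l), (k, r)) ≤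
      8 * C * N * En * (dl c P qq * W) := by
  refine (Finset.sum_le_sum fun r hr => le_min (sa_vol h (by positivity) hψ (H r hr).1)
    (sa_ener h hC hE hψ (H r hr).1 (H r hr).2)).trans ?_
  simp only [cQ, cΘ, cα, cR]
  refine (sum_min_two (by positivity) (by positivity) s).trans ?_
  rw [← le_div_iff₀' four_pos, one_div]
  refine (Real.rpow_inv_le_iff_of_pos (by positivity) (by positivity) three_pos).2 ?_
  rw [Real.rpow_ofNat]
  have e : (C * N * dl c P qq * ψ * (2 ^ k) ^ 3 * 2 ^ l * (2 ^ i) ^ 3) ^ 2 *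
      (2 * C * ψ * dl c P qq * En / (2 ^ k * 2 ^ l * 2 ^ i))
      = (C * dl c P qq) ^ 3 * (2 * N ^ 2 * En * (ψ ^ 3 * ((2 ^ k) ^ 5 * 2 ^ l * (2 ^ i) ^ 5))) := by
    field_simp
  rw [e]
  refine le_of_le_of_eq (mul_le_mul_of_nonneg_left (c := (2 * N * En) ^ 3 * W ^ 3)
    (mul_le_mul ?_ hb (by positivity) (by positivity)) (by positivity)) (by ring)
  have h1 : N ^ 2 ≤ N ^ 3 := pow_le_pow_right₀ hN (by norm_num)
  have h2 : En ≤ En ^ 3 := le_self_pow₀ hE three_ne_zero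
  have h3 := mul_le_mul h1 h2 (by positivity) (by positivity)
  have h4 : 0 ≤ N ^ 3 * En ^ 3 := by positivity
  nlinarith

end Vale.Agent.P107
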