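import Vale.Agent.P107.SumGeo

/-! The zones P and S and the weights `ww`.

Plan. See the notes, Sums. δ = dl c P qq = c qq²/(P² La P). pass': far classes use ener, δ + R ≤ 2R and 1 ≤ (α+θ)/θ². ww_le: ε_i ≤ Σ ε ≤ C δ En and δ / dl c P Q = qq²/Q².
ww_sum: √(x+y) ≤ √x + √y, 2^i/√(dl c P 2^i) = P √(La/c), Cauchy-Schwarz Σ √ε_i ≤ √(2 La Σ ε_i), sum_rpow_le. ww_sum4: ww^(1/4) ≤ (En C)^(1/4) (1 + √(qq/Q)).
static: three cases θ² qq < C, θ² Q < C, Q < P^(11/20); use δ ≤ qq²/P², qq ≤ P, Q ≤ P, θ ≤ 1; exponents 4/3 + 13/24 = 15/8, 11/20·5/3 = 11/12; write everything as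
rpow and compare exponents (Real.rpow_le_rpow, rpow_le_rpow_of_exponent_le). -/

namespace Vale.Agent.P107

open MeasureTheory Set Filter Topology
open scoped RealInnerProductSpace ENNReal

/-- The zone where the pass bound is available. -/
def zP (C c P qq : ℝ) (x : Idx) : Prop :=
  dl c P qq < cR x ∨ (qm P ≤ cQ x ∧ C ≤ cθ x ^ 2 * qq ∧ C ≤ cθ x ^ 2 * cQ x)

open Classical in
/-- The weight of the pass bound. -/
noncomputable def ww (En c P : ℝ) (ε : ℤ → ℝ) (i : ℤ) : ℝ :=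
  En + if qm P ≤ (2 : ℝ) ^ i then ε i / dl c P (2 ^ i) else 0

variable {C N En c P qq : ℝ} {m : Idx → ℝ} {ε : ℤ → ℝ} {x : Idx}

theorem one_le_qm (hP : 1 ≤ P) : 1 ≤ qm P := by
  exact Real.one_le_rpow hP (by norm_num)

theorem dl_pos (hc : 0 < c) (hP : 1 ≤ P) (hq : 0 < qq) : 0 < dl c P qq := by
  have := three_le_La hP
  unfold dl
  positivity

theorem dl_le (hc : c ≤ 1) (hP : 1 ≤ P) : dl c P qq ≤ qq ^ 2 / P ^ 2 := by
  have h1 := three_le_La hP
  have h2 : 0 < P ^ 2 := by positivity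
  rw [dl, div_le_div_iff₀ (by positivity) h2]
  have h3 : 0 ≤ qq ^ 2 * P ^ 2 := by positivity
  nlinarith

theorem dl_le_one (hc : c ≤ 1) (hP : 1 ≤ P) (hq : 0 ≤ qq) (hqP : qq ≤ P) : dl c P qq ≤ 1 := by
  exact (dl_le hc hP).trans (div_le_one_of_le₀ (pow_le_pow_left₀ hq hqP 2) (sq_nonneg _))

theorem sqrt_dl (hc : 0 < c) (hP : 1 ≤ P) (hq : 0 ≤ qq) :
    Real.sqrt (dl c P qq) * P = Real.sqrt (c / La P) * qq := by
  have h1 := three_le_La hP
  have h2 : dl c P qq = c / La P * (qq / P) ^ 2 := by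
    unfold dl
    field_simp
  rw [h2, Real.sqrt_mul (by positivity), Real.sqrt_sq (by positivity)]
  field_simp

theorem Mass.ww_ge (h : Mass C N En c P qq m ε) (hc : 0 < c) (hP : 1 ≤ P) (i : ℤ) :
    En ≤ ww En c P ε i := by
  refine le_add_of_nonneg_right ?_
  split_ifs
  · exact div_nonneg (h.eps_nonneg i) (dl_pos hc hP (by positivity)).le
  · exact le_rfl

theorem Mass.pass' (h : Mass C N En c P qq m ε) (hC : 1 ≤ C) (hE : 1 ≤ En) (hc : 0 < c) (hP : 1 ≤ P)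
    (hx : Adm P x) (hz : zP C c P qq x) :
    m x ≤ 2 * C * (cΘ x / cα x) ^ 2 * cR x * (cα x + cθ x) / cθ x ^ 2 * ww En c P ε x.1.1 / cQ x := by
  have h1 := cQ_pos x
  have h2 := cθ_pos x
  have h3 := cα_pos x
  have h4 := cR_pos x
  have h5 := h.ww_ge hc hP x.1.1
  by_cases hR : dl c P qq < cR x
  · refine (h.ener x hx).trans (div_le_div_of_nonneg_right ?_ h1.le)
    have h6 : 1 ≤ (cα x + cθ x) / cθ x ^ 2 := by
      rw [le_div_iff₀ (by positivity)]
      nlinarith [hx.θ1]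
    calc C * (cΘ x / cα x) ^ 2 * (dl c P qq + cR x) * En
        ≤ C * (cΘ x / cα x) ^ 2 * (2 * cR x * ((cα x + cθ x) / cθ x ^ 2)) * ww En c P ε x.1.1 := by
          gcongr
          nlinarith
      _ = _ := by ring
  · obtain ⟨a1, a2, a3⟩ := hz.resolve_left hR
    refine (h.pass x hx (not_lt.1 hR) a1 a2 a3).trans (div_le_div_of_nonneg_right ?_ h1.le)
    have e : ww En c P ε x.1.1 = En + ε x.1.1 / dl c P (cQ x) := by
      rw [ww, if_pos (show qm P ≤ (2 : ℝ) ^ x.1.1 from a1)]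
      rfl
    rw [← e]
    have h6 : 0 ≤ C * (cΘ x / cα x) ^ 2 * cR x * (cα x + cθ x) / cθ x ^ 2 *
        ww En c P ε x.1.1 := mul_nonneg (by positivity) (by linarith)
    calc _ ≤ 2 * (C * (cΘ x / cα x) ^ 2 * cR x * (cα x + cθ x) / cθ x ^ 2 *
        ww En c P ε x.1.1) := by linarith
      _ = _ := by ring

theorem Mass.ww_le (h : Mass C N En c P qq m ε) (hC : 1 ≤ C) (hE : 1 ≤ En) (hc : 0 < c) (hP : 1 ≤ P)
    (hq : 0 < qq) {i : ℤ} (hi : i ∈ Finset.Icc 0 (nL P)) :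
    ww En c P ε i ≤ En * (1 + C * qq ^ 2 / (2 ^ i) ^ 2) := by
  rw [mul_add, mul_one]
  refine add_le_add_right ?_ _
  split_ifs
  · have h1 := (Finset.single_le_sum (fun j _ => h.eps_nonneg j) hi).trans h.eps_sum
    have h2 := three_le_La hP
    refine (div_le_div_of_nonneg_right h1 (dl_pos hc hP (by positivity)).le).trans (le_of_eq ?_)
    unfold dl
    field_simp
  · positivity

theorem ww_of_lt {i : ℤ} (hi : (2 : ℝ) ^ i < qm P) : ww En c P ε i = En := by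
  rw [ww, if_neg (not_le.2 hi), add_zero]

open Classical in
theorem sb_one (hP : 1 ≤ P) :
    ∑ i ∈ (Finset.Icc 0 (nL P)).filter (fun i => (2 : ℝ) ^ i ≤ P), (2 : ℝ) ^ i ≤ 2 * P := by
  have h2 := sum_rpow_le one_pos (zero_le_one.trans hP)
    ((Finset.Icc 0 (nL P)).filter fun i => (2 : ℝ) ^ i ≤ P) fun i hi => (Finset.mem_filter.1 hi).2
  simp only [Real.rpow_one, Real.rpow_neg_one] at h2
  refine h2.trans (le_of_eq ?_)
  ring

open Classical in
theorem Mass.ww_sum (h : Mass C N En c P qq m ε) (hC : 1 ≤ C) (hE : 1 ≤ En) (hc : 0 < c)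
    (hP : 1 ≤ P) (hq : 0 < qq) :
    ∑ i ∈ (Finset.Icc 0 (nL P)).filter (fun i => (2 : ℝ) ^ i ≤ P), (2 : ℝ) ^ i * Real.sqrt (ww En c P ε i)
      ≤ 2 * P * Real.sqrt En + Real.sqrt (2 * C * En * La P) * qq := by
  have hL := three_le_La hP
  have hκ : 0 < Real.sqrt (c / La P) := by positivity
  have h1 : ∀ i : ℤ, (2 : ℝ) ^ i * Real.sqrt (ww En c P ε i) ≤
      2 ^ i * Real.sqrt En + Real.sqrt (ε i) * (P / Real.sqrt (c / La P)) := by
    intro i
    have h2 : 0 < dl c P (2 ^ i) := dl_pos hc hP (by positivity)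
    have h3 : ww En c P ε i ≤ En + ε i / dl c P (2 ^ i) := by
      refine add_le_add_right ?_ _
      split_ifs
      · exact le_rfl
      · exact div_nonneg (h.eps_nonneg i) h2.le
    have h0 : ∀ x y : ℝ, 0 ≤ x → 0 ≤ y → Real.sqrt (x + y) ≤ Real.sqrt x + Real.sqrt y := by
      intro x y hx hy
      refine Real.sqrt_le_iff.2 ⟨by positivity, ?_⟩
      nlinarith [Real.sq_sqrt hx, Real.sq_sqrt hy, mul_nonneg (Real.sqrt_nonneg x) (Real.sqrt_nonneg y)]
    have h4 := (Real.sqrt_le_sqrt h3).trans (h0 _ _ (zero_le_one.trans hE) (div_nonneg (h.eps_nonneg i) h2.le))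
    refine (mul_le_mul_of_nonneg_left h4 (by positivity)).trans (le_of_eq ?_)
    have h5 := sqrt_dl (qq := 2 ^ i) hc hP (by positivity)
    have h6 := Real.sqrt_pos.2 h2
    rw [mul_add, Real.sqrt_div (h.eps_nonneg i)]
    congr 1
    field_simp
    linear_combination (-Real.sqrt (ε i)) * h5
  refine (Finset.sum_le_sum fun i _ => h1 i).trans ?_
  rw [Finset.sum_add_distrib, ← Finset.sum_mul, ← Finset.sum_mul]
  refine add_le_add (mul_le_mul_of_nonneg_right (sb_one hP) (Real.sqrt_nonneg _)) ?_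
  have h2 : ∑ i ∈ (Finset.Icc 0 (nL P)).filter (fun i => (2 : ℝ) ^ i ≤ P), Real.sqrt (ε i) ≤
      Real.sqrt (2 * C * En * La P) * Real.sqrt (dl c P qq) := by
    refine (Finset.sum_le_sum_of_subset_of_nonneg (Finset.filter_subset _ _)
      fun _ _ _ => Real.sqrt_nonneg _).trans ?_
    rw [← Real.sqrt_mul (by positivity)]
    refine Real.le_sqrt_of_sq_le (sq_sum_le_card_mul_sum_sq.trans ?_)
    rw [Finset.sum_congr rfl fun i _ => Real.sq_sqrt (h.eps_nonneg i)]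
    refine (mul_le_mul (card_Icc_le hP).1 h.eps_sum
      (Finset.sum_nonneg fun i _ => h.eps_nonneg i) (by positivity)).trans (le_of_eq ?_)
    ring
  refine (mul_le_mul_of_nonneg_right h2 (by positivity)).trans (le_of_eq ?_)
  rw [mul_assoc, ← mul_div_assoc, sqrt_dl hc hP hq.le, mul_div_cancel_left₀ _ hκ.ne']

open Classical in
theorem Mass.ww_sum4 (h : Mass C N En c P qq m ε) (hC : 1 ≤ C) (hE : 1 ≤ En) (hc : 0 < c)
    (hP : 1 ≤ P) (hq : 0 < qq) (hqP : qq ≤ P) :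
    ∑ i ∈ (Finset.Icc 0 (nL P)).filter (fun i => (2 : ℝ) ^ i ≤ P),
      (2 : ℝ) ^ i * Real.sqrt (Real.sqrt (ww En c P ε i)) ≤ 6 * C * En * P := by
  have hCE : 1 ≤ C * En := one_le_mul_of_one_le_of_one_le hC hE
  have h1 : ∀ i ∈ (Finset.Icc 0 (nL P)).filter (fun i => (2 : ℝ) ^ i ≤ P),
      (2 : ℝ) ^ i * Real.sqrt (Real.sqrt (ww En c P ε i)) ≤
        C * En * (2 ^ i + Real.sqrt P * ((2 : ℝ) ^ i) ^ (1 / 2 : ℝ)) := by
    intro i hi
    have h2 := h.ww_le hC hE hc hP hq (Finset.mem_filter.1 hi).1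
    have hQ : (0 : ℝ) < 2 ^ i := by positivity
    generalize (2 : ℝ) ^ i = Q at h2 hQ ⊢
    set t := Real.sqrt (qq / Q) with ht
    have t0 : 0 ≤ t := Real.sqrt_nonneg _
    have t2 : t ^ 2 = qq / Q := Real.sq_sqrt (by positivity)
    have h3 : Real.sqrt (Real.sqrt (ww En c P ε i)) ≤ C * En * (1 + t) := by
      refine Real.sqrt_le_iff.2 ⟨by positivity, Real.sqrt_le_iff.2 ⟨by positivity, h2.trans ?_⟩⟩
      have h4 : En * (1 + C * qq ^ 2 / Q ^ 2) ≤ C * En * (1 + (t ^ 2) ^ 2) := by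
        rw [t2, div_pow, mul_div_assoc]
        nlinarith
      have h5 : 1 + (t ^ 2) ^ 2 ≤ ((1 + t) ^ 2) ^ 2 := by
        nlinarith [pow_nonneg t0 2, pow_nonneg t0 3]
      rw [mul_pow, mul_pow]
      refine h4.trans (mul_le_mul ?_ h5 (by positivity) (by positivity))
      rw [← pow_mul]
      exact le_self_pow₀ hCE (by norm_num)
    have h6 : Q * t ≤ Real.sqrt P * Q ^ (1 / 2 : ℝ) := by
      rw [← Real.sqrt_eq_rpow, ← Real.sqrt_mul (by positivity)]
      refine Real.le_sqrt_of_sq_le ?_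
      rw [mul_pow, t2]
      field_simp
      exact hqP
    calc Q * _ ≤ Q * (C * En * (1 + t)) := mul_le_mul_of_nonneg_left h3 hQ.le
      _ = C * En * (Q + Q * t) := by ring
      _ ≤ _ := by gcongr
  refine (Finset.sum_le_sum h1).trans ?_
  rw [← Finset.mul_sum, Finset.sum_add_distrib, ← Finset.mul_sum]
  have h2 := sum_rpow_le (γ := 1 / 2) (by norm_num) (zero_le_one.trans hP)
    ((Finset.Icc 0 (nL P)).filter fun i => (2 : ℝ) ^ i ≤ P) fun i hi => (Finset.mem_filter.1 hi).2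
  have h3 : (2 : ℝ) ^ (-(1 / 2 : ℝ)) ≤ 3 / 4 := by
    refine le_of_sq_le_sq ?_ (by norm_num)
    rw [← Real.rpow_two, ← Real.rpow_mul zero_le_two]
    norm_num
  have h4 : P ^ (1 / 2 : ℝ) / (1 - 2 ^ (-(1 / 2 : ℝ))) ≤ 4 * Real.sqrt P := by
    rw [← Real.sqrt_eq_rpow, div_le_iff₀ (by linarith)]
    nlinarith [Real.sqrt_nonneg P]
  have h5 := mul_le_mul_of_nonneg_left (h2.trans h4) (Real.sqrt_nonneg P)
  have h6 := Real.mul_self_sqrt (zero_le_one.trans hP)
  have h7 := sb_one hP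
  calc C * En * _ ≤ C * En * (6 * P) := by
        gcongr
        nlinarith
    _ = _ := by ring

theorem static (hC : 1 ≤ C) (hc : 0 < c) (hc1 : c ≤ 1) (hP : 1 ≤ P) (h1 : qm P ≤ qq) (h2 : qq ≤ P)
    (hx : Adm P x) (hz : ¬ zP C c P qq x) :
    dl c P qq * (cQ x ^ (4 / 3 : ℝ) * cθ x ^ (11 / 12 : ℝ)) ≤ C ^ 2 * qq * P ^ (-2 / 25 : ℝ) ∧
    dl c P qq * (cQ x ^ (5 / 3 : ℝ) * cθ x ^ (25 / 12 : ℝ)) ≤ C ^ 2 * qq * P ^ (-2 / 25 : ℝ) ∧
    dl c P qq * (cQ x ^ (5 / 3 : ℝ) * cθ x ^ (4 / 3 : ℝ)) ≤ C * qq ^ (3 / 2 : ℝ) := by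
  have hQ := cQ_pos x
  have hθ := cθ_pos x
  have hP0 : 0 < P := one_pos.trans_le hP
  have hC0 : 0 < C := one_pos.trans_le hC
  have hq1 := (one_le_qm hP).trans h1
  have hq : 0 < qq := one_pos.trans_le hq1
  have l1 := Real.log_nonneg hP
  have l2 := Real.log_nonneg hC
  have l3 := Real.log_nonneg hq1
  have l4 := Real.log_le_log hq h2
  have l5 := Real.log_le_log hQ hx.QP
  have l6 := Real.log_nonpos hθ.le hx.θ1
  have l7 : Real.log (cQ x) ≤ 11 / 20 * Real.log P ∨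
      2 * Real.log (cθ x) + Real.log qq ≤ Real.log C ∨
      2 * Real.log (cθ x) + Real.log (cQ x) ≤ Real.log C := by
    have h3 := (not_or.1 hz).2
    simp only [not_and_or, not_le] at h3
    refine h3.imp (fun h => ?_) (Or.imp (fun h => ?_) fun h => ?_)
    · have := Real.log_le_log hQ h.le
      rwa [qm, Real.log_rpow hP0] at this
    · have := Real.log_le_log (by positivity) h.le
      rwa [Real.log_mul (by positivity) hq.ne', Real.log_pow, Nat.cast_ofNat] at this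
    · have := Real.log_le_log (by positivity) h.le
      rwa [Real.log_mul (by positivity) hQ.ne', Real.log_pow, Nat.cast_ofNat] at this
  refine ⟨?_, ?_, ?_⟩ <;>
  · refine (mul_le_mul_of_nonneg_right (dl_le hc1 hP) (by positivity)).trans
      ((Real.log_le_log_iff (by positivity) (by positivity)).1 ?_)
    simp (disch := positivity) only [Real.log_mul, Real.log_div, Real.log_pow, Real.log_rpow,
      Nat.cast_ofNat]
    rcases l7 with l7 | l7 | l7 <;> linarith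

end Vale.Agent.P107
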