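import Vale.Agent.P107.SumBas

/-! The two zones of the subcritical Cauchy-Schwarz sums (helper file of SumE). -/

namespace Vale.Agent.P107

open MeasureTheory Set Filter Topology
open scoped RealInnerProductSpace ENNReal

variable {C N En η c P qq K : ℝ} {m : Idx → ℝ} {ε : ℤ → ℝ}

/-- Independence of the distance class. -/
def sumE_ind (A : Idx → ℝ) : Prop := ∀ o k n n', A (o, (k, n)) = A (o, (k, n'))

theorem sumE_prod (s t : Finset ℤ) (f g : ℤ → ℝ) :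
    ∑ o ∈ s ×ˢ t ×ˢ t, f o.1 * (g o.2.1 * g o.2.2) =
      (∑ i ∈ s, f i) * ((∑ i ∈ t, g i) * ∑ i ∈ t, g i) := by
  rw [Finset.sum_mul_sum t t, ← Finset.sum_product', Finset.sum_mul_sum, ← Finset.sum_product']

theorem sumE_r4 {x : ℝ} (hx : 0 ≤ x) : Real.sqrt (Real.sqrt x) ^ 4 = x := by
  rw [show (4 : ℕ) = 2 * 2 from rfl, pow_mul, Real.sq_sqrt (Real.sqrt_nonneg _), Real.sq_sqrt hx]

theorem sumE_G : 0 < 1 - (2 : ℝ) ^ (-(1 / 60 : ℝ)) :=
  sub_pos.2 (Real.rpow_lt_one_of_one_lt_of_neg (by norm_num) (by norm_num))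

theorem sumE_P (hC : 1 ≤ C) (hE : 1 ≤ En) (h : Mass C N En c P qq m ε) (hc : 0 < c) (hc1 : c ≤ 1)
    (hP : 1 ≤ P) (hq : 0 < qq) (hqP : qq ≤ P) (hK : 1 ≤ K) {S : Idx → Prop} {g A B : Idx → ℝ}
    (hA : sumE_ind A) (hB : sumE_ind B) (hA0 : ∀ x, 0 ≤ A x) (hB0 : ∀ x, 0 ≤ B x)
    (h1 : ∀ x, Adm P x → S x → g x ≤ dl c P qq * A x * cR x ∧
      g x ≤ ww En c P ε x.1.1 * B x / cR x ∧
      (A x * B x) ^ 15 ≤ K ^ 60 * cQ x ^ 60 * (cθ x * cΘ x)) :
    Real.sqrt (dl c P qq) * sq P S g ≤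
      24 * K * C * En * (1 / (1 - 2 ^ (-(1 / 60 : ℝ)))) ^ 2 * Real.sqrt c * qq := by
  classical
  have hδ := dl_pos hc hP hq
  have hδ1 := dl_le_one hc1 hP hq.le hqP
  set δ := dl c P qq with hδd
  have hw : ∀ i, 0 ≤ ww En c P ε i := fun i => le_trans (by linarith) (h.ww_ge hc hP i)
  let f : ℤ → ℝ := fun i =>
    if (2 : ℝ) ^ i ≤ P then (2 : ℝ) ^ i * Real.sqrt (Real.sqrt (ww En c P ε i)) else 0
  let u : ℤ → ℝ := fun i => ((2 : ℝ) ^ i) ^ (1 / 60 : ℝ)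
  have hf : ∀ i, 0 ≤ f i := fun i => by
    simp only [f]
    split_ifs <;> positivity
  have hu : ∀ i, 0 ≤ u i := fun i => Real.rpow_nonneg (by positivity) _
  have hu60 : ∀ i, u i ^ 60 = 2 ^ i := fun i => by
    simp only [u]
    rw [← Real.rpow_natCast, ← Real.rpow_mul (by positivity)]
    norm_num
  have key := sq_le_of_R hP S (g := g)
    (B := fun o => 2 * K * Real.sqrt (Real.sqrt δ) * (f o.1 * (u o.2.1 * u o.2.2)))
    (fun o => by have := hf o.1; have := hu o.2.1; have := hu o.2.2; positivity) (by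
      intro o k s hs
      rcases s.eq_empty_or_nonempty with rfl | ⟨n0, hn0⟩
      · rw [Finset.sum_empty]
        exact sq_nonneg _
      obtain ⟨a1, a2⟩ := hs n0 hn0
      have a3 := (h1 _ a1 a2).2.2
      have hfo : f o.1 = 2 ^ o.1 * Real.sqrt (Real.sqrt (ww En c P ε o.1)) := if_pos a1.QP
      have a4 : ∑ n ∈ s, g (o, (k, n)) ≤ ∑ n ∈ s, min (δ * A (o, (k, n0)) * 2 ^ n)
          (ww En c P ε o.1 * B (o, (k, n0)) / 2 ^ n) := by
        refine Finset.sum_le_sum fun n hn => ?_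
        obtain ⟨b1, b2, -⟩ := h1 _ (hs n hn).1 (hs n hn).2
        rw [hA o k n0 n, hB o k n0 n]
        exact le_min b1 b2
      refine (a4.trans (sum_min_one (mul_nonneg hδ.le (hA0 _)) (mul_nonneg (hw _) (hB0 _)) s)).trans ?_
      have a5 : A (o, (k, n0)) * B (o, (k, n0)) ≤ (K * 2 ^ o.1 * (u o.2.1 * u o.2.2)) ^ 4 := by
        refine le_of_pow_le_pow_left₀ (n := 15) (by norm_num) (by positivity) (a3.trans_eq ?_)
        rw [← pow_mul, mul_pow, mul_pow, mul_pow, hu60, hu60]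
        rfl
      have a6 : δ * A (o, (k, n0)) * (ww En c P ε o.1 * B (o, (k, n0))) ≤
          ((K * Real.sqrt (Real.sqrt δ) * (f o.1 * (u o.2.1 * u o.2.2))) ^ 2) ^ 2 := by
        calc _ = δ * ww En c P ε o.1 * (A (o, (k, n0)) * B (o, (k, n0))) := by ring
          _ ≤ δ * ww En c P ε o.1 * (K * 2 ^ o.1 * (u o.2.1 * u o.2.2)) ^ 4 :=
              mul_le_mul_of_nonneg_left a5 (mul_nonneg hδ.le (hw _))
          _ = Real.sqrt (Real.sqrt δ) ^ 4 * Real.sqrt (Real.sqrt (ww En c P ε o.1)) ^ 4 *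
                (K * 2 ^ o.1 * (u o.2.1 * u o.2.2)) ^ 4 := by rw [sumE_r4 hδ.le, sumE_r4 (hw _)]
          _ = _ := by rw [hfo]; ring
      have a7 := Real.sqrt_le_sqrt a6
      rw [Real.sqrt_sq (sq_nonneg _)] at a7
      calc _ ≤ 4 * (K * Real.sqrt (Real.sqrt δ) * (f o.1 * (u o.2.1 * u o.2.2))) ^ 2 := by linarith
        _ = _ := by ring)
  rw [← Finset.mul_sum, box3, sumE_prod] at key
  have b1 : ∑ i ∈ Finset.Icc 0 (nL P), f i ≤ 6 * C * En * P := by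
    have := h.ww_sum4 hC hE hc hP hq hqP
    rw [Finset.sum_filter] at this
    exact this
  have b2 : ∑ i ∈ Finset.Icc (-nL P) 0, u i ≤ 1 / (1 - 2 ^ (-(1 / 60 : ℝ))) := by
    have := sum_rpow_le (γ := 1 / 60) (X := 1) (by norm_num) zero_le_one (Finset.Icc (-nL P) 0)
      fun n hn => zpow_le_one_of_nonpos₀ (by norm_num) (Finset.mem_Icc.1 hn).2
    rwa [Real.one_rpow] at this
  have b3 : 0 ≤ ∑ i ∈ Finset.Icc (-nL P) 0, u i := Finset.sum_nonneg fun i _ => hu i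
  have b4 : 0 ≤ ∑ i ∈ Finset.Icc 0 (nL P), f i := Finset.sum_nonneg fun i _ => hf i
  have b5 : Real.sqrt (Real.sqrt δ) ≤ 1 := Real.sqrt_le_one.2 (Real.sqrt_le_one.2 hδ1)
  have hL := three_le_La hP
  have b6 : Real.sqrt (2 * La P) * Real.sqrt (c / La P) ≤ 2 * Real.sqrt c := by
    rw [← Real.sqrt_mul (by linarith), show 2 * La P * (c / La P) = 2 * c by field_simp]
    refine Real.sqrt_le_iff.2 ⟨by positivity, ?_⟩
    rw [mul_pow, Real.sq_sqrt hc.le]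
    linarith
  have hG := sumE_G
  set G := 1 / (1 - (2 : ℝ) ^ (-(1 / 60 : ℝ)))
  have hG0 : 0 ≤ G := b3.trans b2
  calc Real.sqrt δ * sq P S g ≤ Real.sqrt δ * (Real.sqrt (2 * La P) *
        (2 * K * 1 * (6 * C * En * P * (G * G)))) := by
        refine mul_le_mul_of_nonneg_left (key.trans ?_) (Real.sqrt_nonneg _)
        gcongr
    _ = 12 * K * C * En * G ^ 2 * (Real.sqrt (2 * La P) * (Real.sqrt δ * P)) := by ring
    _ = 12 * K * C * En * G ^ 2 * (Real.sqrt (2 * La P) * Real.sqrt (c / La P) * qq) := by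
        rw [hδd, sqrt_dl hc hP hq.le, mul_assoc (Real.sqrt (2 * La P))]
    _ ≤ 12 * K * C * En * G ^ 2 * (2 * Real.sqrt c * qq) := by gcongr
    _ = _ := by ring

theorem sumE_S (hC : 1 ≤ C) (hc : 0 < c) (hc1 : c ≤ 1) (hP : 1 ≤ P) (hq : qm P ≤ qq)
    (hqP : qq ≤ P) (hK : 1 ≤ K) {S : Idx → Prop} {g A B : Idx → ℝ}
    (hA : sumE_ind A) (hB : sumE_ind B) (hA0 : ∀ x, 0 ≤ A x) (hB0 : ∀ x, 0 ≤ B x)
    (h1 : ∀ x, Adm P x → S x → ¬ zP C c P qq x ∧ g x ≤ dl c P qq * A x * cR x ∧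
      g x ≤ dl c P qq * B x / cR x ^ 2 ∧
      (A x ^ 2 * B x) ^ 4 ≤ K ^ 24 * cQ x ^ 32 * cθ x ^ 22) :
    Real.sqrt (dl c P qq) * sq P S g ≤ 16 * K * C ^ 2 * La P ^ 4 * P ^ (-2 / 25 : ℝ) * qq := by
  have hq0 : 0 < qq := lt_of_lt_of_le one_pos ((one_le_qm hP).trans hq)
  have hδ := dl_pos hc hP hq0
  set δ := dl c P qq with hδd
  set Y := C ^ 2 * qq * P ^ (-2 / 25 : ℝ) with hY
  have hY0 : 0 ≤ Y := by positivity
  have hs0 : 0 < Real.sqrt δ := Real.sqrt_pos.2 hδ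
  have key := sq_le_of_R hP S (g := g) (B := fun _ => 2 * K * Y / Real.sqrt δ)
    (fun o => by positivity) (by
      intro o k s hs
      rcases s.eq_empty_or_nonempty with rfl | ⟨n0, hn0⟩
      · rw [Finset.sum_empty]
        exact sq_nonneg _
      obtain ⟨a1, a2⟩ := hs n0 hn0
      obtain ⟨a0, -, -, a3⟩ := h1 _ a1 a2
      have a4 : ∑ n ∈ s, g (o, (k, n)) ≤ ∑ n ∈ s, min (δ * A (o, (k, n0)) * 2 ^ n)
          (δ * B (o, (k, n0)) / (2 ^ n) ^ 2) := by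
        refine Finset.sum_le_sum fun n hn => ?_
        obtain ⟨-, b1, b2, -⟩ := h1 _ (hs n hn).1 (hs n hn).2
        rw [hA o k n0 n, hB o k n0 n]
        exact le_min b1 b2
      refine (a4.trans (sum_min_two (mul_nonneg hδ.le (hA0 _)) (mul_nonneg hδ.le (hB0 _)) s)).trans ?_
      have hst := (static hC hc hc1 hP hq hqP a1 a0).1
      have hQ := cQ_pos (o, (k, n0))
      have hθ := cθ_pos (o, (k, n0))
      set X := cQ (o, (k, n0)) ^ (4 / 3 : ℝ) * cθ (o, (k, n0)) ^ (11 / 12 : ℝ) with hX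
      have hX0 : 0 ≤ X := by positivity
      have hX24 : X ^ 24 = cQ (o, (k, n0)) ^ 32 * cθ (o, (k, n0)) ^ 22 := by
        rw [hX, mul_pow, ← Real.rpow_natCast, ← Real.rpow_natCast, ← Real.rpow_mul hQ.le,
          ← Real.rpow_mul hθ.le, ← Real.rpow_natCast, ← Real.rpow_natCast]
        norm_num
      have a5 : A (o, (k, n0)) ^ 2 * B (o, (k, n0)) ≤ (K * X) ^ 6 := by
        refine le_of_pow_le_pow_left₀ (n := 4) (by norm_num) (by positivity) (a3.trans_eq ?_)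
        rw [← pow_mul, mul_pow, hX24, mul_assoc]
      have a6 : (δ * A (o, (k, n0))) ^ 2 * (δ * B (o, (k, n0))) ≤ (δ * (K * X) ^ 2) ^ 3 := by
        calc _ = δ ^ 3 * (A (o, (k, n0)) ^ 2 * B (o, (k, n0))) := by ring
          _ ≤ δ ^ 3 * (K * X) ^ 6 := mul_le_mul_of_nonneg_left a5 (by positivity)
          _ = _ := by ring
      have a7 := Real.rpow_le_rpow (mul_nonneg (sq_nonneg _) (mul_nonneg hδ.le (hB0 _))) a6
        (by norm_num : (0 : ℝ) ≤ 1 / 3)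
      rw [← Real.rpow_natCast (δ * (K * X) ^ 2), ← Real.rpow_mul (by positivity),
        show ((3 : ℕ) : ℝ) * (1 / 3) = 1 by norm_num, Real.rpow_one] at a7
      have a8 : (δ * X) ^ 2 ≤ Y ^ 2 := pow_le_pow_left₀ (by positivity) hst 2
      rw [div_pow, Real.sq_sqrt hδ.le, le_div_iff₀ hδ]
      calc _ ≤ 4 * (δ * (K * X) ^ 2) * δ := by gcongr
        _ = 4 * K ^ 2 * (δ * X) ^ 2 := by ring
        _ ≤ 4 * K ^ 2 * Y ^ 2 := by gcongr
        _ = _ := by ring)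
  rw [Finset.sum_const, nsmul_eq_mul, box3, Finset.card_product, Finset.card_product, Nat.cast_mul,
    Nat.cast_mul] at key
  obtain ⟨b1, b2, -⟩ := card_Icc_le hP
  have hL := three_le_La hP
  have b3 : Real.sqrt (2 * La P) ≤ La P := Real.sqrt_le_iff.2 ⟨by linarith, by nlinarith⟩
  calc Real.sqrt δ * sq P S g ≤ Real.sqrt δ * (La P * (2 * La P * (2 * La P * (2 * La P)) *
        (2 * K * Y / Real.sqrt δ))) := by
        refine mul_le_mul_of_nonneg_left (key.trans ?_) hs0.le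
        gcongr
    _ = _ := by
        rw [hY]
        field_simp
        ring

end Vale.Agent.P107
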