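import Vale.Agent.P107.DDefs

/-! Geometric sums over integers, counting of classes, asymptotics.

Plan. sum_rpow_le: bound by a geometric series after reindexing by (Int.log 2 X - m).toNat (injective), or by induction with the telescoping inequality
y^γ ≤ (y^γ - (y/2)^γ)/(1 - 2^-γ) on Finset.Icc. sum_min_*: split s at the crossing point 2^m ≤ X and apply the two rpow sums (handle a = 0 or b = 0 first).
Counting: Int.card_Icc, 0 ≤ nL P ≤ La P, 3 ≤ La P. ev_La: isLittleO_log_rpow_rpow_atTop or Real.isLittleO_pow_log_id_atTop composed with rpow. -/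

namespace Vale.Agent.P107

open MeasureTheory Set Filter Topology
open scoped RealInnerProductSpace ENNReal

theorem cQ_pos (x : Idx) : 0 < cQ x :=
  zpow_pos two_pos _

theorem cθ_pos (x : Idx) : 0 < cθ x :=
  zpow_pos two_pos _

theorem cΘ_pos (x : Idx) : 0 < cΘ x :=
  zpow_pos two_pos _

theorem cα_pos (x : Idx) : 0 < cα x :=
  zpow_pos two_pos _

theorem cR_pos (x : Idx) : 0 < cR x :=
  zpow_pos two_pos _

theorem cβ_pos (x : Idx) : 0 < cβ x :=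
  lt_min (cΘ_pos x) (cθ_pos x)

theorem sg_geo {r : ℝ} (h0 : 0 ≤ r) (h1 : r < 1) (s : Finset ℤ) (f : ℤ → ℕ) (hf : Set.InjOn f s) :
    ∑ m ∈ s, r ^ f m ≤ (1 - r)⁻¹ := by
  rw [← Finset.sum_image (f := fun n => r ^ n) hf, ← tsum_geometric_of_lt_one h0 h1]
  exact (summable_geometric_of_lt_one h0 h1).sum_le_tsum _ fun _ _ => pow_nonneg h0 _

theorem sum_rpow_le {γ X : ℝ} (hγ : 0 < γ) (hX : 0 ≤ X) (s : Finset ℤ)
    (h : ∀ m ∈ s, (2 : ℝ) ^ m ≤ X) :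
    ∑ m ∈ s, ((2 : ℝ) ^ m) ^ γ ≤ X ^ γ / (1 - 2 ^ (-γ)) := by
  have h0 : (0 : ℝ) ≤ 2 ^ (-γ) := by positivity
  have h1 : (2 : ℝ) ^ (-γ) < 1 := Real.rpow_lt_one_of_one_lt_of_neg one_lt_two (by linarith)
  rcases s.eq_empty_or_nonempty with rfl | hs
  · rw [Finset.sum_empty]
    exact div_nonneg (Real.rpow_nonneg hX _) (by linarith)
  obtain ⟨M, hM, hmax⟩ := s.exists_max_image id hs
  have e : ∀ m ∈ s, ((2 : ℝ) ^ m) ^ γ = ((2 : ℝ) ^ M) ^ γ * (2 ^ (-γ)) ^ (M - m).toNat := by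
    intro m hm
    have h2 : (((M - m).toNat : ℤ) : ℝ) = M - m := by
      rw [Int.toNat_of_nonneg (sub_nonneg.2 (show m ≤ M from hmax m hm))]
      push_cast
      rfl
    rw [← Real.rpow_natCast, ← Real.rpow_intCast, ← Real.rpow_intCast, ← Real.rpow_mul two_pos.le,
      ← Real.rpow_mul two_pos.le, ← Real.rpow_mul two_pos.le, ← Real.rpow_add two_pos,
      ← Int.cast_natCast, h2]
    congr 1
    ring
  rw [Finset.sum_congr rfl e, ← Finset.mul_sum, div_eq_mul_inv]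
  refine mul_le_mul (Real.rpow_le_rpow (by positivity) (h M hM) hγ.le)
    (sg_geo h0 h1 s _ fun m hm m' hm' hh => ?_) (Finset.sum_nonneg fun _ _ => by positivity)
    (Real.rpow_nonneg hX _)
  have h3 := hmax m hm
  have h4 := hmax m' hm'
  simp only [id] at h3 h4 hh
  omega

theorem sum_rpow_ge {γ Y : ℝ} (hγ : 0 < γ) (hY : 0 < Y) (s : Finset ℤ)
    (h : ∀ m ∈ s, Y ≤ (2 : ℝ) ^ m) :
    ∑ m ∈ s, ((2 : ℝ) ^ m) ^ (-γ) ≤ Y ^ (-γ) / (1 - 2 ^ (-γ)) := by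
  have h0 : (0 : ℝ) ≤ 2 ^ (-γ) := by positivity
  have h1 : (2 : ℝ) ^ (-γ) < 1 := Real.rpow_lt_one_of_one_lt_of_neg one_lt_two (by linarith)
  rcases s.eq_empty_or_nonempty with rfl | hs
  · rw [Finset.sum_empty]
    exact div_nonneg (Real.rpow_nonneg hY.le _) (by linarith)
  obtain ⟨M, hM, hmin⟩ := s.exists_min_image id hs
  have e : ∀ m ∈ s, ((2 : ℝ) ^ m) ^ (-γ) =
      ((2 : ℝ) ^ M) ^ (-γ) * (2 ^ (-γ)) ^ (m - M).toNat := by
    intro m hm
    have h2 : (((m - M).toNat : ℤ) : ℝ) = m - M := by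
      rw [Int.toNat_of_nonneg (sub_nonneg.2 (show M ≤ m from hmin m hm))]
      push_cast
      rfl
    rw [← Real.rpow_natCast, ← Real.rpow_intCast, ← Real.rpow_intCast, ← Real.rpow_mul two_pos.le,
      ← Real.rpow_mul two_pos.le, ← Real.rpow_mul two_pos.le, ← Real.rpow_add two_pos,
      ← Int.cast_natCast, h2]
    congr 1
    ring
  rw [Finset.sum_congr rfl e, ← Finset.mul_sum, div_eq_mul_inv]
  refine mul_le_mul (Real.rpow_le_rpow_of_nonpos hY (h M hM) (by linarith))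
    (sg_geo h0 h1 s _ fun m hm m' hm' hh => ?_) (Finset.sum_nonneg fun _ _ => by positivity)
    (Real.rpow_nonneg hY.le _)
  have h3 := hmin m hm
  have h4 := hmin m' hm'
  simp only [id] at h3 h4 hh
  omega

theorem sg_le {X : ℝ} (hX : 0 ≤ X) (s : Finset ℤ) (h : ∀ m ∈ s, (2 : ℝ) ^ m ≤ X) :
    ∑ m ∈ s, (2 : ℝ) ^ m ≤ 2 * X := by
  have h1 := sum_rpow_le one_pos hX s h
  simp only [Real.rpow_one, Real.rpow_neg_one] at h1
  refine h1.trans (le_of_eq ?_)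
  ring

theorem sg_ge {Y : ℝ} (hY : 0 < Y) (s : Finset ℤ) (h : ∀ m ∈ s, Y ≤ (2 : ℝ) ^ m) :
    ∑ m ∈ s, ((2 : ℝ) ^ m)⁻¹ ≤ 2 * Y⁻¹ := by
  have h1 := sum_rpow_ge one_pos hY s h
  simp only [Real.rpow_neg_one] at h1
  refine h1.trans (le_of_eq ?_)
  ring

theorem sg_split {a X B : ℝ} (ha : 0 ≤ a) (hX : 0 < X) (hB : 0 ≤ B) (s : Finset ℤ) {f : ℤ → ℝ}
    (hf : ∀ m : ℤ, X ≤ (2 : ℝ) ^ m → f m ≤ B * ((2 : ℝ) ^ m)⁻¹) :
    ∑ m ∈ s, min (a * 2 ^ m) (f m) ≤ a * (2 * X) + B * (2 * X⁻¹) := by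
  classical
  rw [← Finset.sum_filter_add_sum_filter_not s fun m => (2 : ℝ) ^ m ≤ X]
  refine add_le_add ?_ ?_
  · refine (Finset.sum_le_sum fun m _ => min_le_left _ _).trans ?_
    rw [← Finset.mul_sum]
    exact mul_le_mul_of_nonneg_left (sg_le hX.le _ fun m hm => (Finset.mem_filter.1 hm).2) ha
  · refine (Finset.sum_le_sum fun m hm => (min_le_right _ _).trans
      (hf m (not_le.1 (Finset.mem_filter.1 hm).2).le)).trans ?_
    rw [← Finset.mul_sum]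
    exact mul_le_mul_of_nonneg_left
      (sg_ge hX _ fun m hm => (not_le.1 (Finset.mem_filter.1 hm).2).le) hB

theorem sum_min_one {a b : ℝ} (ha : 0 ≤ a) (hb : 0 ≤ b) (s : Finset ℤ) :
    ∑ m ∈ s, min (a * 2 ^ m) (b / 2 ^ m) ≤ 4 * Real.sqrt (a * b) := by
  rcases ha.eq_or_lt with rfl | ha'
  · refine (Finset.sum_nonpos fun m _ => (min_le_left _ _).trans (by simp)).trans (by positivity)
  rcases hb.eq_or_lt with rfl | hb'
  · refine (Finset.sum_nonpos fun m _ => (min_le_right _ _).trans (by simp)).trans (by positivity)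
  obtain ⟨T, hT⟩ : ∃ T, T = Real.sqrt (a * b) := ⟨_, rfl⟩
  have hT0 : 0 < T := hT ▸ Real.sqrt_pos.2 (mul_pos ha' hb')
  have hT2 : T ^ 2 = a * b := hT ▸ Real.sq_sqrt (mul_nonneg ha hb)
  rw [← hT]
  refine (sg_split ha (div_pos hT0 ha') (B := b) hb s fun m _ => ?_).trans (le_of_eq ?_)
  · rw [div_eq_mul_inv]
  · field_simp
    linarith

theorem sum_min_two {a b : ℝ} (ha : 0 ≤ a) (hb : 0 ≤ b) (s : Finset ℤ) :
    ∑ m ∈ s, min (a * 2 ^ m) (b / (2 ^ m) ^ 2) ≤ 4 * (a ^ 2 * b) ^ (1 / 3 : ℝ) := by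
  rcases ha.eq_or_lt with rfl | ha'
  · refine (Finset.sum_nonpos fun m _ => (min_le_left _ _).trans (by simp)).trans (by positivity)
  rcases hb.eq_or_lt with rfl | hb'
  · refine (Finset.sum_nonpos fun m _ => (min_le_right _ _).trans (by simp)).trans (by positivity)
  obtain ⟨T, hT⟩ : ∃ T, T = (a ^ 2 * b) ^ (1 / 3 : ℝ) := ⟨_, rfl⟩
  have hT0 : 0 < T := hT ▸ Real.rpow_pos_of_pos (by positivity) _
  have hT3 : T ^ 3 = a ^ 2 * b := by
    rw [hT, ← Real.rpow_natCast, ← Real.rpow_mul (by positivity)]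
    norm_num
  rw [← hT]
  have hX : 0 < T / a := div_pos hT0 ha'
  refine (sg_split ha hX (B := b * (T / a)⁻¹) (by positivity) s fun m hm => ?_).trans (le_of_eq ?_)
  · have h2 : (0 : ℝ) < 2 ^ m := by positivity
    rw [div_eq_mul_inv, _root_.sq, mul_inv, ← mul_assoc]
    exact mul_le_mul_of_nonneg_right (mul_le_mul_of_nonneg_left (inv_anti₀ hX hm) hb)
      (inv_pos.2 h2).le
  · field_simp
    linarith

theorem three_le_La {P : ℝ} (hP : 1 ≤ P) : 3 ≤ La P := by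
  have := Real.logb_nonneg one_lt_two hP
  unfold La
  linarith

theorem nL_nonneg {P : ℝ} (hP : 1 ≤ P) : 0 ≤ nL P :=
  Int.floor_nonneg.2 ((by norm_num : (0 : ℝ) ≤ 3).trans (three_le_La hP))

theorem card_Icc_le {P : ℝ} (hP : 1 ≤ P) :
    ((Finset.Icc 0 (nL P)).card : ℝ) ≤ 2 * La P ∧ ((Finset.Icc (-nL P) 0).card : ℝ) ≤ 2 * La P ∧
      ((Finset.Icc (-20 * nL P) (nL P)).card : ℝ) ≤ 22 * La P := by
  have h0 := nL_nonneg hP
  have h1 : (nL P : ℝ) ≤ La P := Int.floor_le _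
  have h3 := three_le_La hP
  have e : ∀ a b : ℤ, a ≤ b → ((Finset.Icc a b).card : ℝ) = b + 1 - a := by
    intro a b hab
    rw [Int.card_Icc, ← Int.cast_natCast, Int.toNat_of_nonneg (by omega)]
    push_cast
    rfl
  rw [e _ _ h0, e _ _ (by omega), e _ _ (by omega)]
  push_cast
  refine ⟨?_, ?_, ?_⟩ <;> linarith

theorem Adm.mem_Icc {P : ℝ} {x : Idx} (hP : 1 ≤ P) (h : Adm P x) : x.1.1 ∈ Finset.Icc 0 (nL P) := by
  refine Finset.mem_Icc.2 ⟨(one_le_zpow_iff_right₀ one_lt_two).1 h.Q1, Int.le_floor.2 ?_⟩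
  have h1 : (2 : ℝ) ^ (x.1.1 : ℝ) ≤ P := by
    rw [Real.rpow_intCast]
    exact h.QP
  have h2 := (Real.le_logb_iff_rpow_le one_lt_two (by linarith)).2 h1
  unfold La
  linarith

theorem sm_nonneg (P : ℝ) (S : Idx → Prop) {g : Idx → ℝ} (hg : ∀ x, 0 ≤ g x) : 0 ≤ sm P S g := by
  refine Finset.sum_nonneg fun o _ => Finset.sum_nonneg fun n _ => ?_
  split_ifs
  exacts [hg _, le_rfl]

open Classical in
theorem sg_mono (P : ℝ) {S S' : Idx → Prop} {g g' : Idx → ℝ} (hg' : ∀ x, 0 ≤ g' x)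
    (h : ∀ x, Adm P x → S x → S' x ∧ g x ≤ g' x) (o : ℤ × ℤ × ℤ) :
    (∑ n ∈ box2 P, if Adm P (o, n) ∧ S (o, n) then g (o, n) else 0) ≤
      ∑ n ∈ box2 P, if Adm P (o, n) ∧ S' (o, n) then g' (o, n) else 0 := by
  refine Finset.sum_le_sum fun n _ => ?_
  by_cases h1 : Adm P (o, n) ∧ S (o, n)
  · rw [if_pos h1, if_pos ⟨h1.1, (h _ h1.1 h1.2).1⟩]
    exact (h _ h1.1 h1.2).2
  · rw [if_neg h1]
    split_ifs
    exacts [hg' _, le_rfl]

open Classical in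
theorem sg_add (P : ℝ) (S U : Idx → Prop) (S1 S2 : Idx → Prop) (e1 : ∀ x, S1 x ↔ S x ∧ U x)
    (e2 : ∀ x, S2 x ↔ S x ∧ ¬ U x) (g : Idx → ℝ) (o : ℤ × ℤ × ℤ) :
    (∑ n ∈ box2 P, if Adm P (o, n) ∧ S (o, n) then g (o, n) else 0) =
      (∑ n ∈ box2 P, if Adm P (o, n) ∧ S1 (o, n) then g (o, n) else 0) +
        ∑ n ∈ box2 P, if Adm P (o, n) ∧ S2 (o, n) then g (o, n) else 0 := by
  rw [← Finset.sum_add_distrib]
  refine Finset.sum_congr rfl fun n _ => ?_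
  by_cases h1 : Adm P (o, n) <;> by_cases h2 : S (o, n) <;> by_cases h3 : U (o, n) <;>
    simp [h1, h2, h3, e1, e2]

theorem sm_mono (P : ℝ) {S S' : Idx → Prop} {g g' : Idx → ℝ} (hg' : ∀ x, 0 ≤ g' x)
    (h : ∀ x, Adm P x → S x → S' x ∧ g x ≤ g' x) : sm P S g ≤ sm P S' g' :=
  Finset.sum_le_sum fun o _ => sg_mono P hg' h o

theorem sm_split (P : ℝ) (S U : Idx → Prop) (g : Idx → ℝ) :
    sm P S g = sm P (fun x => S x ∧ U x) g + sm P (fun x => S x ∧ ¬ U x) g := by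
  unfold sm
  rw [← Finset.sum_add_distrib]
  exact Finset.sum_congr rfl fun o _ => sg_add P S U _ _ (fun _ => Iff.rfl) (fun _ => Iff.rfl) g o

theorem sq_mono (P : ℝ) {S S' : Idx → Prop} {g g' : Idx → ℝ} (hg' : ∀ x, 0 ≤ g' x)
    (h : ∀ x, Adm P x → S x → S' x ∧ g x ≤ g' x) : sq P S g ≤ sq P S' g' :=
  Finset.sum_le_sum fun o _ => Real.sqrt_le_sqrt (sg_mono P hg' h o)

theorem sg_sqrt {x y : ℝ} (hx : 0 ≤ x) (hy : 0 ≤ y) :
    Real.sqrt (x + y) ≤ Real.sqrt x + Real.sqrt y := by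
  refine Real.sqrt_le_iff.2 ⟨by positivity, ?_⟩
  nlinarith [Real.sq_sqrt hx, Real.sq_sqrt hy, mul_nonneg (Real.sqrt_nonneg x) (Real.sqrt_nonneg y)]

theorem sq_split (P : ℝ) (S U : Idx → Prop) {g : Idx → ℝ} (hg : ∀ x, 0 ≤ g x) :
    sq P S g ≤ sq P (fun x => S x ∧ U x) g + sq P (fun x => S x ∧ ¬ U x) g := by
  unfold sq
  rw [← Finset.sum_add_distrib]
  refine Finset.sum_le_sum fun o _ => ?_
  rw [sg_add P S U (fun x => S x ∧ U x) (fun x => S x ∧ ¬ U x) (fun _ => Iff.rfl)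
    (fun _ => Iff.rfl) g o]
  refine sg_sqrt (Finset.sum_nonneg fun n _ => ?_) (Finset.sum_nonneg fun n _ => ?_)
  · split_ifs
    exacts [hg _, le_rfl]
  · split_ifs
    exacts [hg _, le_rfl]

theorem sg_box3 {P B : ℝ} (hP : 1 ≤ P) (hB : 0 ≤ B) {f : ℤ × ℤ × ℤ → ℝ} (h : ∀ o, f o ≤ B) :
    ∑ o ∈ box3 P, f o ≤ 8 * La P ^ 3 * B := by
  obtain ⟨h1, h2, -⟩ := card_Icc_le hP
  have h3 := three_le_La hP
  refine (Finset.sum_le_card_nsmul _ _ B fun o _ => h o).trans ?_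
  rw [nsmul_eq_mul]
  refine mul_le_mul_of_nonneg_right ?_ hB
  unfold box3
  rw [Finset.card_product, Finset.card_product, Nat.cast_mul, Nat.cast_mul]
  refine (mul_le_mul h1 (mul_le_mul h2 h2 (Nat.cast_nonneg _) (by positivity)) (by positivity)
    (by positivity)).trans (le_of_eq ?_)
  ring

open Classical in
theorem sg_box2 {P B : ℝ} (hP : 1 ≤ P) (hB : 0 ≤ B) (S : Idx → Prop) {g : Idx → ℝ}
    (h : ∀ x, Adm P x → S x → g x ≤ B) (o : ℤ × ℤ × ℤ) :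
    (∑ n ∈ box2 P, if Adm P (o, n) ∧ S (o, n) then g (o, n) else 0) ≤ 44 * La P ^ 2 * B := by
  obtain ⟨-, h1, h2⟩ := card_Icc_le hP
  have h3 := three_le_La hP
  refine (Finset.sum_le_card_nsmul _ _ B fun n _ => ?_).trans ?_
  · split_ifs with h4
    exacts [h _ h4.1 h4.2, hB]
  rw [nsmul_eq_mul]
  refine mul_le_mul_of_nonneg_right ?_ hB
  unfold box2
  rw [Finset.card_product, Nat.cast_mul]
  refine (mul_le_mul h1 h2 (Nat.cast_nonneg _) (by positivity)).trans (le_of_eq ?_)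
  ring

open Classical in
theorem sg_boxR {P B : ℝ} (hP : 1 ≤ P) (hB : 0 ≤ B) (S : Idx → Prop) {g : Idx → ℝ}
    (o : ℤ × ℤ × ℤ)
    (h : ∀ (k : ℤ) (s : Finset ℤ), (∀ m ∈ s, Adm P (o, (k, m)) ∧ S (o, (k, m))) →
      ∑ m ∈ s, g (o, (k, m)) ≤ B) :
    (∑ n ∈ box2 P, if Adm P (o, n) ∧ S (o, n) then g (o, n) else 0) ≤ 2 * La P * B := by
  obtain ⟨-, h1, -⟩ := card_Icc_le hP
  unfold box2
  rw [Finset.sum_product]
  refine (Finset.sum_le_card_nsmul _ _ B fun k _ => ?_).trans ?_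
  · rw [← Finset.sum_filter]
    exact h k _ fun m hm => (Finset.mem_filter.1 hm).2
  rw [nsmul_eq_mul]
  exact mul_le_mul_of_nonneg_right h1 hB

/-- Crude counting. -/
theorem sm_le_card {P B : ℝ} (hP : 1 ≤ P) (hB : 0 ≤ B) (S : Idx → Prop) {g : Idx → ℝ}
    (h : ∀ x, Adm P x → S x → g x ≤ B) : sm P S g ≤ 352 * La P ^ 5 * B := by
  have h3 := three_le_La hP
  refine (sg_box3 hP (by positivity) fun o => sg_box2 hP hB S h o).trans (le_of_eq ?_)
  ring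

theorem sq_le_card {P B : ℝ} (hP : 1 ≤ P) (hB : 0 ≤ B) (S : Idx → Prop) {g : Idx → ℝ}
    (h : ∀ x, Adm P x → S x → g x ≤ B) : sq P S g ≤ 56 * La P ^ 4 * Real.sqrt B := by
  have h3 := three_le_La hP
  refine (sg_box3 hP (B := 7 * La P * Real.sqrt B) (by positivity) fun o => ?_).trans (le_of_eq ?_)
  · refine Real.sqrt_le_iff.2 ⟨by positivity, (sg_box2 hP hB S h o).trans ?_⟩
    rw [mul_pow, mul_pow, Real.sq_sqrt hB]
    exact mul_le_mul_of_nonneg_right (mul_le_mul_of_nonneg_right (by norm_num) (by positivity)) hB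
  · ring

/-- Counting after the sum over the distance. -/
theorem sm_le_of_R {P B : ℝ} (hP : 1 ≤ P) (hB : 0 ≤ B) (S : Idx → Prop) {g : Idx → ℝ}
    (h : ∀ (o : ℤ × ℤ × ℤ) (k : ℤ) (s : Finset ℤ), (∀ m ∈ s, Adm P (o, (k, m)) ∧ S (o, (k, m))) →
      ∑ m ∈ s, g (o, (k, m)) ≤ B) : sm P S g ≤ 16 * La P ^ 4 * B := by
  have h3 := three_le_La hP
  refine (sg_box3 hP (by positivity) fun o => sg_boxR hP hB S o (h o)).trans (le_of_eq ?_)
  ring

/-- The inner sum of `sq` after the sum over the distance: the angle `α` costs one logarithm. -/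
theorem sq_le_of_R {P : ℝ} (hP : 1 ≤ P) (S : Idx → Prop) {g : Idx → ℝ} {B : ℤ × ℤ × ℤ → ℝ}
    (hB : ∀ o, 0 ≤ B o)
    (h : ∀ (o : ℤ × ℤ × ℤ) (k : ℤ) (s : Finset ℤ), (∀ m ∈ s, Adm P (o, (k, m)) ∧ S (o, (k, m))) →
      ∑ m ∈ s, g (o, (k, m)) ≤ B o ^ 2) :
    sq P S g ≤ Real.sqrt (2 * La P) * ∑ o ∈ box3 P, B o := by
  have h3 := three_le_La hP
  rw [Finset.mul_sum]
  refine Finset.sum_le_sum fun o _ => ?_
  refine Real.sqrt_le_iff.2 ⟨mul_nonneg (Real.sqrt_nonneg _) (hB o),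
    (sg_boxR hP (sq_nonneg _) S o (h o)).trans (le_of_eq ?_)⟩
  rw [mul_pow, Real.sq_sqrt (by positivity)]

theorem ev_La (B : ℝ) (k : ℕ) {γ : ℝ} (hγ : 0 < γ) : ∀ᶠ P : ℝ in atTop, B * La P ^ k ≤ P ^ γ := by
  have hc : 0 < (|B| * 5 ^ k + 1)⁻¹ := by positivity
  filter_upwards [(isLittleO_log_rpow_rpow_atTop (k : ℝ) hγ).bound hc,
    Real.tendsto_log_atTop.eventually_ge_atTop 1, eventually_ge_atTop (1 : ℝ)] with P h1 h2 h3
  have h4 : La P ≤ 5 * Real.log P := by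
    have h5 : Real.logb 2 P ≤ 2 * Real.log P := by
      unfold Real.logb
      rw [div_le_iff₀ (Real.log_pos one_lt_two)]
      nlinarith [Real.log_two_gt_d9]
    unfold La
    linarith
  have h6 := three_le_La h3
  rw [Real.rpow_natCast, Real.norm_of_nonneg (by positivity), Real.norm_of_nonneg (by positivity),
    le_inv_mul_iff₀ (by positivity)] at h1
  refine le_trans ?_ h1
  calc B * La P ^ k ≤ |B| * (5 * Real.log P) ^ k :=
        mul_le_mul (le_abs_self _) (pow_le_pow_left₀ (by positivity) h4 k) (by positivity)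
          (abs_nonneg _)
    _ = |B| * 5 ^ k * Real.log P ^ k := by rw [mul_pow, mul_assoc]
    _ ≤ _ := mul_le_mul_of_nonneg_right (by linarith) (by positivity)

end Vale.Agent.P107
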