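import Vale.Agent.P107.FlowM
import Vale.Agent.P107.C1

/-! The Vlasov equation for the transported density, given bounded second differences in phase space. -/

namespace Vale.Agent.P107

open MeasureTheory Set Filter Topology
open scoped ContDiff RealInnerProductSpace ENNReal

variable {f0 : Z → ℝ} {N P0 R T M : ℝ} {A : Fld} {Φ Ψ : ℝ → Z → Z}

/-- Second order Taylor estimate along a characteristic, based at either end point. -/
theorem IsFlow.taylor (hF : IsFlow A Φ Ψ) {K C : ℝ} (hK : LipVF (vf A) K C) {s t : ℝ} (hs : 0 ≤ s)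
    (ht : 0 ≤ t) (w : Z) :
    ‖Φ t w - Φ s w - (t - s) • vf A t (Φ s w)‖ ≤ K * (1 + C) * (s - t) ^ 2 := by
  have hsub : uIcc s t ⊆ Ici 0 := fun r hr => (le_min hs ht).trans hr.1
  have hd : ∀ r ∈ uIcc s t, HasDerivWithinAt (fun r => Φ r w) (vf A r (Φ r w)) (uIcc s t) r :=
    fun r hr => (hF.deriv r (hsub hr) w).mono hsub
  have h1 : ∀ r ∈ uIcc s t, ‖Φ r w - Φ s w‖ ≤ C * |s - t| := fun r hr =>
    (Convex.norm_image_sub_le_of_norm_hasDerivWithin_le hd (fun _ _ => hK.bdd _ _)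
      (convex_uIcc s t) left_mem_uIcc hr).trans (mul_le_mul_of_nonneg_left
        ((abs_sub_left_of_mem_uIcc hr).trans (abs_sub_comm _ _).le) hK.C_nonneg)
  have h2 := Convex.norm_image_sub_le_of_norm_hasDerivWithin_le
    (f := fun r => Φ r w - r • vf A t (Φ s w)) (f' := fun r => vf A r (Φ r w) - vf A t (Φ s w))
    (s := uIcc s t) (C := K * (1 + C) * |s - t|)
    (fun r hr => (hd r hr).sub (((hasDerivAt_id r).smul_const
      (vf A t (Φ s w))).congr_deriv (one_smul _ _)).hasDerivWithinAt)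
    (fun r hr => by
      refine (hK.lip _ _ _ _).trans ?_
      rw [mul_assoc]
      refine mul_le_mul_of_nonneg_left ?_ hK.K_nonneg
      have h3 := abs_sub_right_of_mem_uIcc hr
      rw [abs_sub_comm t r, abs_sub_comm t s] at h3
      linarith [h1 r hr])
    (convex_uIcc s t) left_mem_uIcc right_mem_uIcc
  rw [Real.norm_eq_abs, abs_sub_comm t s, mul_assoc _ |s - t|, abs_mul_abs_self, ← sq] at h2
  have e : Φ t w - Φ s w - (t - s) • vf A t (Φ s w)
      = Φ t w - t • vf A t (Φ s w) - (Φ s w - s • vf A t (Φ s w)) := by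
    rw [sub_smul]
    abel
  rwa [e]

theorem IsFlow.back_deriv (hA : App A R) (hF : IsFlow A Φ Ψ) {t : ℝ} (ht : 0 ≤ t) (z : Z) :
    HasDerivWithinAt (fun s => Φ t (Ψ s z)) (-vf A t z) (Ici 0) t := by
  obtain ⟨K, hK⟩ := hA.lipVF
  rw [hasDerivWithinAt_iff_isLittleO]
  have h1 : (fun s => (s - t) ^ 2) =o[𝓝[Ici 0] t] fun s => s - t :=
    ((Asymptotics.isLittleO_pow_sub_sub t one_lt_two).congr_left
      fun s => by rw [Real.norm_eq_abs, sq_abs]).mono nhdsWithin_le_nhds
  refine Asymptotics.IsBigO.trans_isLittleO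
    (Asymptotics.IsBigO.of_bound (K * (1 + (1 + 2 * R))) ?_) h1
  filter_upwards [self_mem_nhdsWithin] with s hs
  have h2 := hF.taylor hK hs ht (Ψ s z)
  rw [hF.right] at h2
  rw [hF.right, Real.norm_eq_abs, abs_sq, smul_neg, ← neg_smul, neg_sub]
  exact h2

theorem App.continuous_vf (hA : App A R) : Continuous fun p : ℝ × Z => vf A p.1 p.2 :=
  (contDiff_u.continuous.comp continuous_snd.snd).prodMk
    (contDiff_lor.continuous.comp (f := fun p : ℝ × Z => (A (p.1, p.2.1), p.2.2))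
      ((hA.continuous.comp (continuous_fst.prodMk continuous_snd.fst)).prodMk continuous_snd.snd))

theorem vlasov_of_sec (hI : Init f0 N P0) (hA : App A R) (hF : IsFlow A Φ Ψ) (hT : 0 < T)
    (hs : ∀ t ∈ Icc 0 T, ∀ z h : Z,
      |dens f0 Ψ t (z + h) - 2 * dens f0 Ψ t z + dens f0 Ψ t (z - h)| ≤ M * ‖h‖ ^ 2) :
    VlaOn T (dens f0 Ψ) A := by
  obtain ⟨hd, hx⟩ := sec_fderiv (g := fun p : ℝ × Z => dens f0 Ψ p.1 p.2) (T := T) (M := M)
    (hF.continuous_dens hI).continuousOn hs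
  have ht : ∀ t ∈ Icc 0 T, ∀ z, HasDerivWithinAt (fun s => dens f0 Ψ s z)
      (fderiv ℝ (fun x => dens f0 Ψ t x) z (-vf A t z)) (Icc 0 T) t := by
    intro t ht z
    have h1 : HasFDerivAt (fun x => dens f0 Ψ t x) (fderiv ℝ (fun x => dens f0 Ψ t x) z)
        (Φ t (Ψ t z)) := by
      rw [hF.right]
      exact (hd t ht z).hasFDerivAt
    have h2 := h1.comp_hasDerivWithinAt t ((hF.back_deriv hA ht.1 z).mono (Icc_subset_Ici_self : Icc 0 T ⊆ Ici 0))
    refine h2.congr_of_mem (fun s _ => ?_) ht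
    simp only [Function.comp, dens, hF.left]
  refine ⟨contDiffOn_of_partials (gt := fun p : ℝ × Z =>
    fderiv ℝ (fun x => dens f0 Ψ p.1 x) p.2 (-vf A p.1 p.2)) hT hd hx ht
    (hx.clm_apply hA.continuous_vf.neg.continuousOn), fun t htT x v => ?_⟩
  refine (ht t htT (x, v)).congr_deriv ?_
  have h1 : HasFDerivAt (dens f0 Ψ t) (fderiv ℝ (fun x => dens f0 Ψ t x) (x, v)) (x, v) :=
    (hd t htT (x, v)).hasFDerivAt
  have h2 := (HasFDerivAt.comp (f := fun y => (y, v)) x h1 (hasFDerivAt_prodMk_left (𝕜 := ℝ) x v)).fderiv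
  have h3 := (HasFDerivAt.comp (f := fun w => (x, w)) v h1 (hasFDerivAt_prodMk_right (𝕜 := ℝ) x v)).fderiv
  simp only [Function.comp_def] at h2 h3
  rw [h2, h3, map_neg, ContinuousLinearMap.comp_apply, ContinuousLinearMap.comp_apply,
    ← map_add]
  simp [vf]

end Vale.Agent.P107
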